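import Mathlib

/-!
# P217: points of closed subsets of the formal affine space (module ARC)
-/

namespace Vale.Agent.P217

open IsLocalRing

namespace Arc

/-- In a Noetherian local domain, if every nonzero prime ideal contains `T ≠ 0`, then a power of the
maximal ideal is contained in `(T)`. -/
theorem pow_le_span {A : Type*} [CommRing A] [IsDomain A] [IsNoetherianRing A] [IsLocalRing A]
    {T : A} (hT0 : T ≠ 0) (hT : T ∈ maximalIdeal A)
    (h : ∀ Q : Ideal A, Q.IsPrime → Q ≠ ⊥ → T ∈ Q) :
    ∃ N : ℕ, maximalIdeal A ^ N ≤ Ideal.span {T} := by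
  have hfin : (Ideal.span {T}).minimalPrimes.Finite :=
    Ideal.finite_minimalPrimes_of_isNoetherianRing A _
  have hm : maximalIdeal A ∈ (Ideal.span {T}).minimalPrimes := by
    by_contra hcon
    have h1 : ¬ ((maximalIdeal A : Set A) ⊆ ⋃ p ∈ hfin.toFinset, (p : Set A)) := by
      intro h2
      have h3 := (Ideal.subset_union_prime (s := hfin.toFinset) (f := id) ⊥ ⊥ (by
        intro p hp _ _
        exact (hfin.mem_toFinset.mp hp).1.1)).mp h2
      obtain ⟨p, hp, hle⟩ := h3
      have hp' := hfin.mem_toFinset.mp hp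
      have h4 : maximalIdeal A = p := le_antisymm hle (le_maximalIdeal hp'.1.1.ne_top)
      rw [h4] at hcon
      exact hcon hp'
    rw [Set.not_subset] at h1
    obtain ⟨y, hy, hy'⟩ := h1
    have hy0 : y ≠ 0 := by
      rintro rfl
      apply hy'
      obtain ⟨p, hp, -⟩ := Ideal.exists_minimalPrimes_le
        (I := Ideal.span {T}) (J := maximalIdeal A) (by
          rw [Ideal.span_singleton_le_iff_mem]; exact hT)
      simp only [Set.mem_iUnion]
      exact ⟨p, hfin.mem_toFinset.mpr hp, p.zero_mem⟩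
    obtain ⟨q, hq, hqm⟩ := Ideal.exists_minimalPrimes_le
      (I := Ideal.span {y}) (J := maximalIdeal A) (by
        rw [Ideal.span_singleton_le_iff_mem]; exact hy)
    have hqp : q.IsPrime := hq.1.1
    have hyq : y ∈ q := hq.1.2 (Ideal.mem_span_singleton_self y)
    have hq0 : q ≠ ⊥ := by
      rintro rfl
      exact hy0 ((Submodule.mem_bot A).mp hyq)
    have hTq := h q hqp hq0
    obtain ⟨p, hp, hpq⟩ := Ideal.exists_minimalPrimes_le
      (I := Ideal.span {T}) (J := q) (by rw [Ideal.span_singleton_le_iff_mem]; exact hTq)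
    have hpp : p.IsPrime := hp.1.1
    have hp0 : (⊥ : Ideal A) < p := by
      rw [bot_lt_iff_ne_bot]
      rintro rfl
      exact hT0 ((Submodule.mem_bot A).mp (hp.1.2 (Ideal.mem_span_singleton_self T)))
    have hpq' : p = q := by
      by_contra hne
      have hlt : p < q := lt_of_le_of_ne hpq hne
      have h5 := Ideal.height_le_one_of_isPrincipal_of_mem_minimalPrimes (Ideal.span {y}) q hq
      have h6 : p.height + 1 ≤ q.height := Ideal.height_add_one_le_of_lt_of_isPrime hlt
      have h7 : p.height = 0 := by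
        have h8 : p.height + 1 ≤ 0 + 1 := by
          rw [zero_add]
          exact h6.trans h5
        exact nonpos_iff_eq_zero.mp ((ENat.add_le_add_iff_right (by simp)).mp h8)
      rw [Ideal.height_eq_zero_iff_eq_bot] at h7
      exact hp0.ne' h7
    apply hy'
    simp only [Set.mem_iUnion]
    exact ⟨p, hfin.mem_toFinset.mpr hp, hpq' ▸ hyq⟩
  have hrad : maximalIdeal A ≤ (Ideal.span {T}).radical := by
    rw [Ideal.radical_eq_sInf]
    refine le_sInf fun J hJ => ?_
    have hJp : J.IsPrime := hJ.2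
    obtain ⟨p, hp, hpJ⟩ := Ideal.exists_minimalPrimes_le (I := Ideal.span {T}) (J := J) hJ.1
    have h1 : p ≤ maximalIdeal A := le_maximalIdeal hp.1.1.ne_top
    have h2 : maximalIdeal A ≤ p := hm.2 ⟨hp.1.1, hp.1.2⟩ h1
    exact h2.trans hpJ
  obtain ⟨N, hN⟩ := Ideal.exists_radical_pow_le_of_fg (Ideal.span {T})
    (IsNoetherian.noetherian _)
  exact ⟨N, (Ideal.pow_right_mono hrad N).trans hN⟩

/-- finite generation modulo powers of a finitely generated ideal with residue ring `k` -/
theorem fin_mod {k A : Type*} [Field k] [CommRing A] [Algebra k A] (m : Ideal A)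
    [IsNoetherianRing A] (h : ∀ x : A, ∃ c : k, x - algebraMap k A c ∈ m) (N : ℕ) :
    ∃ S : Finset A, ∀ x : A, ∃ y ∈ Submodule.span k (S : Set A), x - y ∈ m ^ N := by
  classical
  induction N with
  | zero => exact ⟨∅, fun x => ⟨0, Submodule.zero_mem _, by simp⟩⟩
  | succ N ih =>
    obtain ⟨S, hS⟩ := ih
    obtain ⟨G, hG⟩ := IsNoetherian.noetherian (m ^ N)
    refine ⟨S ∪ G, fun x => ?_⟩
    obtain ⟨y, hy, hxy⟩ := hS x
    rw [← hG] at hxy
    obtain ⟨a, -, ha⟩ := Submodule.mem_span_finset.mp hxy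
    choose c hc using h
    refine ⟨y + ∑ g ∈ G, c (a g) • g, ?_, ?_⟩
    · refine Submodule.add_mem _ (Submodule.span_mono (by simp) hy) ?_
      refine Submodule.sum_mem _ fun g hg => Submodule.smul_mem _ _ (Submodule.subset_span ?_)
      simp [hg]
    · have h1 : x - (y + ∑ g ∈ G, c (a g) • g) =
          ∑ g ∈ G, (a g - algebraMap k A (c (a g))) * g := by
        rw [← sub_sub, ← ha, ← Finset.sum_sub_distrib]
        refine Finset.sum_congr rfl fun g _ => ?_
        rw [sub_mul, smul_eq_mul, Algebra.smul_def]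
      rw [h1, pow_succ']
      refine Ideal.sum_mem _ fun g hg => Ideal.mul_mem_mul (hc _) ?_
      rw [← hG]
      exact Submodule.subset_span hg

/-- ring homomorphisms of `k⟦X⟧` that do not kill `X` are injective -/
theorem inj_of_X {k B : Type*} [Field k] [CommRing B] [IsDomain B] (g : PowerSeries k →+* B)
    (hX : g PowerSeries.X ≠ 0) : Function.Injective g := by
  rw [injective_iff_map_eq_zero]
  intro f hf
  by_contra hne
  have h1 : PowerSeries.X ^ f.order.toNat * f.divXPowOrder = f :=
    PowerSeries.X_pow_order_mul_divXPowOrder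
  have h2 : IsUnit f.divXPowOrder := by
    rw [PowerSeries.isUnit_iff_constantCoeff, isUnit_iff_ne_zero, Ne,
      PowerSeries.constantCoeff_divXPowOrder_eq_zero_iff]
    exact hne
  rw [← h1, map_mul, map_pow] at hf
  exact (mul_ne_zero (pow_ne_zero _ hX) (h2.map g).ne_zero) hf

section ev

variable {k C : Type*} [Field k] [NormedField C] [IsUltrametricDist C] [CompleteSpace C]
  [Algebra k C]

omit [IsUltrametricDist C] [CompleteSpace C] in
theorem ev_norm (hk : ∀ c : k, ‖algebraMap k C c‖ ≤ 1) {t : C} (f : PowerSeries k) (n : ℕ) :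
    ‖algebraMap k C (PowerSeries.coeff n f) * t ^ n‖ ≤ ‖t‖ ^ n := by
  rw [norm_mul, norm_pow]
  exact mul_le_of_le_one_left (by positivity) (hk _)

omit [IsUltrametricDist C] [CompleteSpace C] in
theorem ev_summable (hk : ∀ c : k, ‖algebraMap k C c‖ ≤ 1) {t : C} (ht : ‖t‖ < 1)
    (f : PowerSeries k) :
    Summable fun n => ‖algebraMap k C (PowerSeries.coeff n f) * t ^ n‖ :=
  Summable.of_nonneg_of_le (fun _ => norm_nonneg _) (ev_norm hk f)
    (summable_geometric_of_lt_one (norm_nonneg _) ht)

/-- evaluation of power series over `k` at a point `t` of absolute value `< 1` -/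
noncomputable def ev (hk : ∀ c : k, ‖algebraMap k C c‖ ≤ 1) (t : C) (ht : ‖t‖ < 1) :
    PowerSeries k →+* C where
  toFun f := ∑' n, algebraMap k C (PowerSeries.coeff n f) * t ^ n
  map_one' := by
    rw [tsum_eq_single 0]
    · simp
    · intro n hn
      rw [PowerSeries.coeff_one, if_neg hn, map_zero, zero_mul]
  map_zero' := by simp
  map_add' f g := by
    rw [← Summable.tsum_add (ev_summable hk ht f).of_norm (ev_summable hk ht g).of_norm]
    refine tsum_congr fun n => ?_
    rw [map_add, map_add, add_mul]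
  map_mul' f g := by
    rw [tsum_mul_tsum_eq_tsum_sum_antidiagonal_of_summable_norm (ev_summable hk ht f)
      (ev_summable hk ht g)]
    refine tsum_congr fun n => ?_
    rw [PowerSeries.coeff_mul, map_sum, Finset.sum_mul]
    refine Finset.sum_congr rfl fun x hx => ?_
    rw [Finset.HasAntidiagonal.mem_antidiagonal] at hx
    rw [map_mul, ← hx, pow_add]
    ring

theorem ev_X (hk : ∀ c : k, ‖algebraMap k C c‖ ≤ 1) (t : C) (ht : ‖t‖ < 1) :
    ev hk t ht PowerSeries.X = t := by
  show ∑' n, algebraMap k C (PowerSeries.coeff n PowerSeries.X) * t ^ n = t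
  rw [tsum_eq_single 1]
  · simp
  · intro n hn
    rw [PowerSeries.coeff_X, if_neg hn, map_zero, zero_mul]

theorem ev_C (hk : ∀ c : k, ‖algebraMap k C c‖ ≤ 1) (t : C) (ht : ‖t‖ < 1) (c : k) :
    ev hk t ht (PowerSeries.C c) = algebraMap k C c := by
  show ∑' n, algebraMap k C (PowerSeries.coeff n (PowerSeries.C c)) * t ^ n = _
  rw [tsum_eq_single 0]
  · simp
  · intro n hn
    rw [PowerSeries.coeff_C, if_neg hn, map_zero, zero_mul]

theorem ev_norm_le (hk : ∀ c : k, ‖algebraMap k C c‖ ≤ 1) (t : C) (ht : ‖t‖ < 1)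
    (f : PowerSeries k) : ‖ev hk t ht f‖ ≤ 1 := by
  show ‖∑' n, algebraMap k C (PowerSeries.coeff n f) * t ^ n‖ ≤ 1
  refine IsUltrametricDist.norm_tsum_le_of_forall_le_of_nonneg zero_le_one fun n => ?_
  exact (ev_norm hk f n).trans (pow_le_one₀ (norm_nonneg _) ht.le)

end ev

/-- elements integral over a ring of elements of norm `≤ 1` have norm `≤ 1` -/
theorem norm_le_one_of_integral {S C : Type*} [CommRing S] [NormedField C] [IsUltrametricDist C]
    (e : S →+* C) (he : ∀ s, ‖e s‖ ≤ 1) {x : C} (hx : e.IsIntegralElem x) : ‖x‖ ≤ 1 := by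
  obtain ⟨f, hf, hfx⟩ := hx
  by_contra hcon
  push Not at hcon
  have h0 : f.natDegree ≠ 0 := by
    intro h0
    rw [hf.natDegree_eq_zero.mp h0] at hfx
    simp at hfx
  rw [Polynomial.eval₂_eq_sum_range, Finset.sum_range_succ, hf.coeff_natDegree, map_one,
    one_mul] at hfx
  have h1 : x ^ f.natDegree = -∑ i ∈ Finset.range f.natDegree, e (f.coeff i) * x ^ i := by
    linear_combination hfx
  have h2 : ‖∑ i ∈ Finset.range f.natDegree, e (f.coeff i) * x ^ i‖ ≤
      ‖x‖ ^ (f.natDegree - 1) := by
    refine IsUltrametricDist.norm_sum_le_of_forall_le_of_nonneg (by positivity) fun i hi => ?_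
    rw [Finset.mem_range] at hi
    rw [norm_mul, norm_pow]
    calc ‖e (f.coeff i)‖ * ‖x‖ ^ i ≤ 1 * ‖x‖ ^ i := by
          gcongr
          exact he _
      _ ≤ ‖x‖ ^ (f.natDegree - 1) := by
          rw [one_mul]
          exact pow_le_pow_right₀ hcon.le (by omega)
  have h3 : ‖x‖ ^ f.natDegree ≤ ‖x‖ ^ (f.natDegree - 1) := by
    rw [← norm_pow, h1, norm_neg]
    exact h2
  have h4 : ‖x‖ ^ (f.natDegree - 1) < ‖x‖ ^ f.natDegree :=
    pow_lt_pow_right₀ hcon (by omega)
  linarith

/-- finite free modules over a precomplete ring are precomplete -/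
theorem mem_pow_smul_top_pi {S : Type*} [CommRing S] (I : Ideal S) {r : ℕ} (x : Fin r → S) :
    x ∈ (I • ⊤ : Submodule S (Fin r → S)) ↔ ∀ i, x i ∈ I := by
  constructor
  · intro h
    induction h using Submodule.smul_induction_on' with
    | smul a ha y _ => exact fun i => I.mul_mem_right _ ha
    | add y _ z _ hy hz => exact fun i => I.add_mem (hy i) (hz i)
  · intro h
    have h1 : x = ∑ i, x i • (Pi.single i 1 : Fin r → S) := by
      ext j
      rw [Finset.sum_apply]
      simp [Pi.single_apply]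
    rw [h1]
    exact Submodule.sum_mem _ fun i _ => Submodule.smul_mem_smul (h i) Submodule.mem_top

instance isPrecomplete_pi {S : Type*} [CommRing S] (I : Ideal S) [IsPrecomplete I S] {r : ℕ} :
    IsPrecomplete I (Fin r → S) := by
  refine ⟨fun f hf => ?_⟩
  have h1 : ∀ i, ∀ {m n : ℕ}, m ≤ n → f m i ≡ f n i [SMOD (I ^ m • ⊤ : Submodule S S)] := by
    intro i m n hmn
    have h2 := hf hmn
    rw [SModEq.sub_mem] at h2 ⊢
    rw [smul_eq_mul, Ideal.mul_top]
    exact (mem_pow_smul_top_pi _ _).mp h2 i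
  choose L hL using fun i => IsPrecomplete.prec (inferInstance : IsPrecomplete I S) (h1 i)
  refine ⟨L, fun n => ?_⟩
  rw [SModEq.sub_mem, mem_pow_smul_top_pi]
  intro i
  have h3 := hL i n
  rw [SModEq.sub_mem, smul_eq_mul, Ideal.mul_top] at h3
  exact h3

end Arc

open Arc in
/-- A prime ideal `P` of `k⟦x_1, …, x_d⟧` and a non-unit `g ∉ P`: there is a point of `V(P)` with
coordinates of absolute value `< 1` in an algebraically closed complete field where `g` has any
prescribed nonzero value `t`. -/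
theorem exists_point {k C : Type*} [Field k] [NormedField C] [IsUltrametricDist C]
    [CompleteSpace C] [IsAlgClosed C] [Algebra k C] (hk : ∀ c : k, ‖algebraMap k C c‖ ≤ 1)
    {d : ℕ} (P : Ideal (MvPowerSeries (Fin d) k)) (hP : P.IsPrime) (g : MvPowerSeries (Fin d) k)
    (hg : MvPowerSeries.constantCoeff g = 0) (hgP : g ∉ P) (t : C) (ht0 : t ≠ 0) (ht : ‖t‖ < 1) :
    ∃ φ : MvPowerSeries (Fin d) k →+* C, (∀ c, φ (MvPowerSeries.C c) = algebraMap k C c) ∧
      (∀ f ∈ P, φ f = 0) ∧ φ g = t ∧ (∀ f, ‖φ f‖ ≤ 1) ∧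
      (∀ f, MvPowerSeries.constantCoeff f = 0 → ‖φ f‖ < 1) := by
  classical
  -- the prime `Q`
  obtain ⟨Q, ⟨hQ, hPQ, hgQ⟩, hQmax⟩ := set_has_maximal_iff_noetherian.mpr
    (inferInstance : IsNoetherian (MvPowerSeries (Fin d) k) (MvPowerSeries (Fin d) k))
    {Q : Submodule (MvPowerSeries (Fin d) k) (MvPowerSeries (Fin d) k) |
      Ideal.IsPrime Q ∧ P ≤ Q ∧ g ∉ Q} ⟨P, hP, le_rfl, hgP⟩
  have hQ' : Ideal.IsPrime Q := hQ
  let A := MvPowerSeries (Fin d) k ⧸ Q
  let mk : MvPowerSeries (Fin d) k →+* A := Ideal.Quotient.mk Q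
  have hmk : Function.Surjective mk := Ideal.Quotient.mk_surjective
  have hlocal : IsLocalRing A := IsLocalRing.of_surjective' mk hmk
  have hdomA : IsDomain A := Ideal.Quotient.isDomain Q
  have hnoethA : IsNoetherianRing A := inferInstance
  have hmem : ∀ f, MvPowerSeries.constantCoeff f = 0 → mk f ∈ maximalIdeal A := by
    intro f hf
    rw [mem_maximalIdeal, mem_nonunits_iff]
    intro hu
    obtain ⟨b, hb⟩ := hu.exists_right_inv
    obtain ⟨b, rfl⟩ := hmk b
    have h1 : f * b - 1 ∈ Q := by
      rw [← Ideal.Quotient.mk_eq_mk_iff_sub_mem, map_mul, map_one]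
      exact hb
    have h2 : IsUnit (f * b - 1) := by
      rw [MvPowerSeries.isUnit_iff_constantCoeff, map_sub, map_mul, hf, zero_mul, map_one, zero_sub]
      exact isUnit_one.neg
    exact hQ'.ne_top (Ideal.eq_top_of_isUnit_mem Q h1 h2)
  let T : A := mk g
  have hT0 : T ≠ 0 := by
    intro h
    exact hgQ (Ideal.Quotient.eq_zero_iff_mem.mp h)
  have hTm : T ∈ maximalIdeal A := hmem g hg
  have hTQ : ∀ Q' : Ideal A, Q'.IsPrime → Q' ≠ ⊥ → T ∈ Q' := by
    intro Q' hQ'p hQ'0
    by_contra hcon
    have h1 : (Q'.comap mk).IsPrime := Ideal.IsPrime.comap mk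
    have h2 : Q ≤ Q'.comap mk := by
      intro f hf
      have : mk f = 0 := Ideal.Quotient.eq_zero_iff_mem.mpr hf
      rw [Ideal.mem_comap, this]
      exact Q'.zero_mem
    refine hQmax _ ⟨h1, hPQ.trans h2, hcon⟩ (lt_of_le_of_ne h2 fun h3 => hQ'0 ?_)
    rw [eq_bot_iff]
    intro x hx
    obtain ⟨f, rfl⟩ := hmk x
    have h4 : f ∈ Q := by rw [h3]; exact hx
    exact (Submodule.mem_bot A).mpr (Ideal.Quotient.eq_zero_iff_mem.mpr h4)
  obtain ⟨N, hN⟩ := pow_le_span hT0 hTm hTQ
  -- the ring `k⟦X⟧`
  have hs : PowerSeries.HasSubst g := PowerSeries.HasSubst.of_constantCoeff_zero hg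
  let ψ : PowerSeries k →+* A := mk.comp (PowerSeries.substAlgHom (R := k) hs).toRingHom
  have hψX : ψ PowerSeries.X = T := by
    show mk (PowerSeries.substAlgHom hs PowerSeries.X) = mk g
    rw [PowerSeries.substAlgHom_X]
  have hψC : ∀ c, ψ (PowerSeries.C c) = mk (MvPowerSeries.C c) := by
    intro c
    show mk (PowerSeries.substAlgHom hs (PowerSeries.C c)) = _
    rw [PowerSeries.coe_substAlgHom, PowerSeries.subst_C]
  let algA : Algebra (PowerSeries k) A := ψ.toAlgebra
  have halgA : ∀ s, algebraMap (PowerSeries k) A s = ψ s := fun s => rfl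
  have hinjA : Function.Injective (algebraMap (PowerSeries k) A) :=
    inj_of_X ψ (by rw [hψX]; exact hT0)
  let I : Ideal (PowerSeries k) := Ideal.span {PowerSeries.X}
  have hfin : Module.Finite (PowerSeries k) A := by
    obtain ⟨S, hS⟩ := fin_mod (k := k) (maximalIdeal A) (fun x => by
      obtain ⟨f, rfl⟩ := hmk x
      refine ⟨MvPowerSeries.constantCoeff f, ?_⟩
      have h1 : mk f - algebraMap k A (MvPowerSeries.constantCoeff f) =
          mk (f - MvPowerSeries.C (MvPowerSeries.constantCoeff f)) := by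
        rw [map_sub]; rfl
      rw [h1]
      exact hmem _ (by simp)) N
    let L : (Fin S.card → PowerSeries k) →ₗ[PowerSeries k] A :=
      Fintype.linearCombination (PowerSeries k) fun i => ((S.equivFin.symm i : S) : A)
    have hH : IsHausdorff I A := by
      rw [← IsHausdorff.map_algebraMap_iff (S := A)]
      have h1 : I.map (algebraMap (PowerSeries k) A) = Ideal.span {T} := by
        rw [Ideal.map_span, Set.image_singleton, halgA, hψX]
      rw [h1]
      refine IsHausdorff.of_isDomain (R := A) (I := Ideal.span {T}) ?_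
      intro h2
      have h3 : Ideal.span {T} ≤ maximalIdeal A := by
        rw [Ideal.span_singleton_le_iff_mem]; exact hTm
      rw [h2] at h3
      exact (IsLocalRing.maximalIdeal.isMaximal A).ne_top (top_le_iff.mp h3)
    have hL : Function.Surjective L := by
      refine surjective_of_mkQ_comp_surjective (I := I) ?_
      intro z
      obtain ⟨x, rfl⟩ := Submodule.mkQ_surjective _ z
      obtain ⟨y, hy, hxy⟩ := hS x
      obtain ⟨c, -, hc⟩ := Submodule.mem_span_finset.mp hy
      refine ⟨fun i => PowerSeries.C (c (S.equivFin.symm i : S)), ?_⟩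
      have h1 : L (fun i => PowerSeries.C (c (S.equivFin.symm i : S))) = y := by
        rw [Fintype.linearCombination_apply, ← hc]
        have h2 : ∀ i : Fin S.card, (PowerSeries.C (c (S.equivFin.symm i : S)) : PowerSeries k) •
            ((S.equivFin.symm i : S) : A) = c (S.equivFin.symm i : S) •
            ((S.equivFin.symm i : S) : A) := by
          intro i
          rw [Algebra.smul_def, halgA, hψC]
          exact (Algebra.smul_def (A := A) (c (S.equivFin.symm i : S))
            ((S.equivFin.symm i : S) : A)).symm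
        rw [Finset.sum_congr rfl fun i _ => h2 i,
          Equiv.sum_comp S.equivFin.symm (fun s : S => c (s : A) • (s : A)),
          Finset.sum_coe_sort S (fun a => c a • a)]
      show Submodule.mkQ _ (L _) = _
      rw [h1]
      rw [Submodule.mkQ_apply, Submodule.mkQ_apply, Submodule.Quotient.eq]
      have h3 : y - x ∈ Ideal.span {T} := by
        rw [← neg_sub]
        exact neg_mem (hN hxy)
      obtain ⟨b, hb⟩ := Ideal.mem_span_singleton'.mp h3
      have h4 : y - x = (PowerSeries.X : PowerSeries k) • b := by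
        rw [Algebra.smul_def, halgA, hψX, ← hb, mul_comm]
      rw [h4]
      exact Submodule.smul_mem_smul (Ideal.mem_span_singleton_self _) Submodule.mem_top
    exact Module.Finite.of_surjective L hL
  let algC : Algebra (PowerSeries k) C := (ev hk t ht).toAlgebra
  have halgC : ∀ s, algebraMap (PowerSeries k) C s = ev hk t ht s := fun s => rfl
  have hinjC : Function.Injective (algebraMap (PowerSeries k) C) :=
    inj_of_X (ev hk t ht) (by rw [ev_X]; exact ht0)
  have hfA : FaithfulSMul (PowerSeries k) A := (faithfulSMul_iff_algebraMap_injective _ _).mpr hinjA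
  have hfC : FaithfulSMul (PowerSeries k) C := (faithfulSMul_iff_algebraMap_injective _ _).mpr hinjC
  let lift : A →ₐ[PowerSeries k] C := IsAlgClosed.lift
  have hle : ∀ x : A, ‖lift x‖ ≤ 1 := by
    intro x
    have h1 : IsIntegral (PowerSeries k) x := Algebra.IsIntegral.isIntegral x
    have h2 : IsIntegral (PowerSeries k) (lift x) := h1.map lift
    exact norm_le_one_of_integral (algebraMap (PowerSeries k) C)
      (fun s => ev_norm_le hk t ht s) h2
  have hliftT : lift T = t := by
    rw [← hψX, ← halgA, AlgHom.commutes, halgC, ev_X]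
  refine ⟨(lift : A →+* C).comp mk, ?_, ?_, ?_, ?_, ?_⟩
  · intro c
    show lift (mk (MvPowerSeries.C c)) = _
    rw [← hψC, ← halgA, AlgHom.commutes, halgC, ev_C]
  · intro f hf
    show lift (mk f) = 0
    have h1 : mk f = 0 := Ideal.Quotient.eq_zero_iff_mem.mpr (hPQ hf)
    rw [h1, map_zero]
  · exact hliftT
  · intro f
    exact hle _
  · intro f hf
    show ‖lift (mk f)‖ < 1
    have h1 : mk f ^ (N + 1) ∈ Ideal.span {T} := by
      have h2 := Ideal.pow_mem_pow (hmem f hf) (N + 1)
      exact hN (Ideal.pow_le_pow_right (Nat.le_succ N) h2)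
    obtain ⟨b, hb⟩ := Ideal.mem_span_singleton'.mp h1
    have h3 : ‖lift (mk f)‖ ^ (N + 1) < 1 := by
      rw [← norm_pow, ← map_pow, ← hb, map_mul, norm_mul, hliftT]
      calc ‖lift b‖ * ‖t‖ ≤ 1 * ‖t‖ := by
            gcongr
            exact hle b
        _ < 1 := by rw [one_mul]; exact ht
    by_contra hcon
    push Not at hcon
    exact absurd h3 (not_lt.mpr (one_le_pow₀ hcon))

end Vale.Agent.P217
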