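import Mathlib

/-!
# Chain rule for substitutions of multivariate power series (helper28)
-/

namespace Vale.Agent.P217

open MvPowerSeries

section chain

variable {R : Type*} [CommRing R] {σ τ : Type*}

theorem aeval_pderiv_chain [Fintype σ] (a : σ → MvPowerSeries τ R) (i : τ)
    (f : MvPolynomial σ R) :
    pderiv R i (MvPolynomial.aeval a f) =
      ∑ s, MvPolynomial.aeval a (MvPolynomial.pderiv s f) * pderiv R i (a s) := by
  classical
  induction f using MvPolynomial.induction_on with
  | C r =>
    simp only [MvPolynomial.pderiv_C, map_zero, zero_mul, Finset.sum_const_zero,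
      MvPolynomial.algHom_C]
    exact (pderiv R i).map_algebraMap r
  | add f g hf hg =>
    simp only [map_add, add_mul, Finset.sum_add_distrib, hf, hg]
  | mul_X f j hf =>
    rw [map_mul, Derivation.leibniz, hf]
    simp only [Derivation.leibniz, MvPolynomial.aeval_X, smul_eq_mul, map_add, map_mul, add_mul,
      Finset.sum_add_distrib, MvPolynomial.pderiv_X]
    congr 1
    · rw [Finset.sum_eq_single j]
      · simp
      · intro b _ hb
        simp [hb.symm]
      · intro h
        exact absurd (Finset.mem_univ j) h
    · rw [Finset.mul_sum]
      exact Finset.sum_congr rfl fun s _ => by ring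

open scoped WithPiTopology in
theorem continuous_pderiv [TopologicalSpace R] [IsTopologicalRing R] (i : σ) :
    Continuous (pderiv R i : MvPowerSeries σ R → MvPowerSeries σ R) := by
  refine continuous_pi fun d => ?_
  have h : (fun f : MvPowerSeries σ R => (pderiv R i f) d) =
      fun f : MvPowerSeries σ R => coeff (d + Finsupp.single i 1) f * ((d i : R) + 1) := by
    funext f
    exact coeff_pderiv f d
  rw [h]
  exact (WithPiTopology.continuous_coeff R _).mul continuous_const

/-- The chain rule. -/
theorem pderiv_subst [Fintype σ] {a : σ → MvPowerSeries τ R} (ha : HasSubst a) (i : τ)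
    (f : MvPowerSeries σ R) :
    pderiv R i (subst a f) = ∑ s, subst a (pderiv R s f) * pderiv R i (a s) := by
  classical
  open scoped WithPiTopology in
  let : UniformSpace R := ⊥
  have hd : DiscreteUniformity R := ⟨rfl⟩
  have h1 : Continuous fun f : MvPowerSeries σ R => pderiv R i (subst a f) :=
    (continuous_pderiv i).comp (continuous_subst ha)
  have h2 : Continuous fun f : MvPowerSeries σ R =>
      ∑ s, subst a (pderiv R s f) * pderiv R i (a s) :=
    continuous_finsetSum _ fun s _ =>
      ((continuous_subst ha).comp (continuous_pderiv s)).mul continuous_const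
  have h3 := WithPiTopology.denseRange_toMvPowerSeries (σ := σ) (R := R)
  have h4 := h3.equalizer h1 h2 (by
    funext g
    simp only [Function.comp_apply]
    rw [subst_coe, aeval_pderiv_chain]
    refine Finset.sum_congr rfl fun s _ => ?_
    rw [pderiv_coe, subst_coe])
  exact congrFun h4 f

end chain

end Vale.Agent.P217
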