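import Vale.Agent.P217.PPSM
import Vale.Agent.P217.Chain

/-!
# P217: the group of power series without constant term under `F_v` (helper28)

`FSer p n v τ` is the abelian group of `a ∈ R[[τ]]`, `a(0) = 0`, with `a + b = F_v(a, b)`.
Formal identities between substitutions become identities in this group. Homomorphisms of formal
group laws act, `m • a = [m](a)`, and `[m]` is an endomorphism of `F_v`.
-/

set_option linter.unusedSectionVars false

namespace Vale.Agent.P217

open MvPowerSeries

section general

variable {R : Type*} [CommRing R] {σ τ : Type*}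

theorem constantCoeff_subst_pair {a b : MvPowerSeries τ R} (ha : constantCoeff a = 0)
    (hb : constantCoeff b = 0) {F : MvPowerSeries (Fin 2) R} (hF : constantCoeff F = 0) :
    constantCoeff (subst ![a, b] F) = 0 :=
  constantCoeff_subst_eq_zero (hasSubst_pair ha hb)
    (fun i => by fin_cases i; exacts [ha, hb]) hF

theorem subst_subst_pair {a b : MvPowerSeries σ R} (ha : constantCoeff a = 0)
    (hb : constantCoeff b = 0) {c : σ → MvPowerSeries τ R} (hc : HasSubst c)
    (F : MvPowerSeries (Fin 2) R) :
    subst c (subst ![a, b] F) = subst ![subst c a, subst c b] F := by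
  rw [subst_comp_subst_apply (hasSubst_pair ha hb) hc]
  congr 1
  funext s
  fin_cases s <;> rfl

theorem subst_subst_one {a : MvPowerSeries σ R} (ha : constantCoeff a = 0)
    {c : σ → MvPowerSeries τ R} (hc : HasSubst c) (g : PowerSeries R) :
    subst c (g.subst a) = g.subst (subst c a) :=
  subst_comp_subst_apply (PowerSeries.HasSubst.of_constantCoeff_zero ha).const hc g

theorem hasSubst_one {a : MvPowerSeries τ R} (ha : constantCoeff a = 0) :
    HasSubst (fun _ : Unit => a) := hasSubst_of_constantCoeff_zero fun _ => ha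

theorem subst_zero_series {c : σ → MvPowerSeries τ R} (hc : HasSubst c) :
    subst c (0 : MvPowerSeries σ R) = 0 := by
  rw [← coe_substAlgHom hc, map_zero]

end general

section grp

variable {R : Type*} [CommRing R] {p n : ℕ} [Fact p.Prime] {v w : ℕ → R} {τ : Type*}

/-- `F_v(a, 0) = a`. -/
theorem fadd_zero {a : MvPowerSeries τ R} (ha : constantCoeff a = 0) :
    subst ![a, 0] (Fv p n v) = a := by
  have h := congrArg (subst (fun _ : Unit => a)) (Fv_X_zero p n v)
  have hX : subst (fun _ : Unit => a) (PowerSeries.X : PowerSeries R) = a :=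
    subst_X (hasSubst_one ha) ()
  rw [subst_subst_pair (a := (PowerSeries.X : PowerSeries R)) (constantCoeff_X _) (map_zero _)
    (hasSubst_one ha), hX, subst_zero_series (hasSubst_one ha)] at h
  exact h

theorem fadd_comm {a b : MvPowerSeries τ R} (ha : constantCoeff a = 0)
    (hb : constantCoeff b = 0) :
    subst ![a, b] (Fv p n v) = subst ![b, a] (Fv p n v) := by
  have h := congrArg (subst ![a, b]) (Fv_comm p n v)
  have hab := hasSubst_pair ha hb
  rw [subst_subst_pair (constantCoeff_X _) (constantCoeff_X _) hab, subst_X hab, subst_X hab] at h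
  exact h.symm

theorem fadd_assoc {a b c : MvPowerSeries τ R} (ha : constantCoeff a = 0)
    (hb : constantCoeff b = 0) (hc : constantCoeff c = 0) :
    subst ![subst ![a, b] (Fv p n v), c] (Fv p n v) =
      subst ![a, subst ![b, c] (Fv p n v)] (Fv p n v) := by
  have h := congrArg (subst ![a, b, c]) (Fv_assoc p n v)
  have habc : HasSubst ![a, b, c] :=
    hasSubst_of_constantCoeff_zero fun s => by fin_cases s <;> assumption
  have h0 : constantCoeff (Fv p n v) = 0 := Fv_constantCoeff p n v
  rw [subst_subst_pair (constantCoeff_subst_pair (constantCoeff_X _) (constantCoeff_X _) h0)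
      (constantCoeff_X _) habc,
    subst_subst_pair (constantCoeff_X _)
      (constantCoeff_subst_pair (constantCoeff_X _) (constantCoeff_X _) h0) habc,
    subst_subst_pair (constantCoeff_X _) (constantCoeff_X _) habc,
    subst_subst_pair (constantCoeff_X _) (constantCoeff_X _) habc,
    subst_X habc, subst_X habc, subst_X habc] at h
  exact h

theorem fadd_inv {a : MvPowerSeries τ R} (ha : constantCoeff a = 0) :
    subst ![a, (invS p n v).subst a] (Fv p n v) = 0 := by
  have h := congrArg (subst (fun _ : Unit => a)) (Fv_inv p n v)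
  have hX : subst (fun _ : Unit => a) (PowerSeries.X : PowerSeries R) = a :=
    subst_X (hasSubst_one ha) ()
  rw [subst_subst_pair (a := (PowerSeries.X : PowerSeries R)) (constantCoeff_X _)
    (invS_constantCoeff p n v) (hasSubst_one ha), hX, subst_zero_series (hasSubst_one ha)] at h
  exact h

/-- Series without constant term, with the group law `F_v`. -/
def FSer (p n : ℕ) {R : Type*} [CommRing R] (v : ℕ → R) (τ : Type*) : Type _ :=
  let _ := (p, n, v)
  {a : MvPowerSeries τ R // constantCoeff a = 0}

/-- The underlying series. -/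
def FSer.ser (a : FSer p n v τ) : MvPowerSeries τ R := Subtype.val a

theorem FSer.cc (a : FSer p n v τ) : constantCoeff a.ser = 0 := Subtype.property a

/-- Constructor. -/
def FSer.mk' (p n : ℕ) (v : ℕ → R) (a : MvPowerSeries τ R) (ha : constantCoeff a = 0) :
    FSer p n v τ :=
  Subtype.mk a ha

theorem FSer.ext' {a b : FSer p n v τ} (h : a.ser = b.ser) : a = b := Subtype.ext h

noncomputable instance : Add (FSer p n v τ) :=
  ⟨fun a b => FSer.mk' p n v (subst ![a.ser, b.ser] (Fv p n v))
    (constantCoeff_subst_pair a.cc b.cc (Fv_constantCoeff p n v))⟩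

noncomputable instance : Zero (FSer p n v τ) := ⟨FSer.mk' p n v 0 (map_zero _)⟩

noncomputable instance : Neg (FSer p n v τ) :=
  ⟨fun a => FSer.mk' p n v ((invS p n v).subst a.ser)
    (PowerSeries.constantCoeff_subst_eq_zero a.cc _ (invS_constantCoeff p n v))⟩

theorem FSer.add_ser (a b : FSer p n v τ) :
    (a + b).ser = subst ![a.ser, b.ser] (Fv p n v) := rfl

theorem FSer.zero_ser : (0 : FSer p n v τ).ser = 0 := rfl

theorem FSer.neg_ser (a : FSer p n v τ) : (-a).ser = (invS p n v).subst a.ser := rfl

@[simp]
theorem FSer.mk'_ser (a : MvPowerSeries τ R) (ha : constantCoeff a = 0) :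
    (FSer.mk' p n v a ha).ser = a := rfl

noncomputable instance : AddCommGroup (FSer p n v τ) :=
  AddCommGroup.mk (toAddGroup := AddGroup.ofLeftAxioms
    (fun a b c => FSer.ext' (fadd_assoc a.cc b.cc c.cc))
    (fun a => FSer.ext' ((fadd_comm (map_zero _) a.cc).trans (fadd_zero a.cc)))
    (fun a => FSer.ext' ((fadd_comm (PowerSeries.constantCoeff_subst_eq_zero a.cc _
      (invS_constantCoeff p n v)) a.cc).trans (fadd_inv a.cc))))
    (fun a b => FSer.ext' (fadd_comm a.cc b.cc))

/-- `m • a = [m](a)`. -/
theorem FSer.nsmul_ser (m : ℕ) (a : FSer p n v τ) :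
    (m • a).ser = (mulS p n v m).subst a.ser := by
  induction m with
  | zero =>
    rw [zero_smul, FSer.zero_ser]
    exact (subst_zero_series (hasSubst_one a.cc)).symm
  | succ m ih =>
    rw [succ_nsmul', FSer.add_ser, ih]
    have h := subst_subst_pair (a := (PowerSeries.X : PowerSeries R)) (b := mulS p n v m)
      (constantCoeff_X _) (mulS_cc v m) (hasSubst_one a.cc) (Fv p n v)
    have hX : subst (fun _ : Unit => a.ser) (PowerSeries.X : PowerSeries R) = a.ser :=
      subst_X (hasSubst_one a.cc) ()
    rw [hX] at h
    exact h.symm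

/-- A homomorphism acts on series. -/
noncomputable def FSer.hom (g : PowerSeries R) (hg : IsHomS p n v w g) :
    FSer p n v τ →+ FSer p n w τ where
  toFun a := FSer.mk' p n w (g.subst a.ser) (PowerSeries.constantCoeff_subst_eq_zero a.cc _ hg.1)
  map_zero' := FSer.ext' (PowerSeries.subst_zero_of_constantCoeff_zero hg.1)
  map_add' a b := FSer.ext' (by
    have hab := hasSubst_pair a.cc b.cc
    have h := congrArg (subst ![a.ser, b.ser]) hg.2
    rw [subst_subst_one (Fv_constantCoeff p n v) hab,
      subst_subst_pair (PowerSeries.constantCoeff_subst_eq_zero (constantCoeff_X _) _ hg.1)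
        (PowerSeries.constantCoeff_subst_eq_zero (constantCoeff_X _) _ hg.1) hab,
      subst_subst_one (constantCoeff_X _) hab, subst_subst_one (constantCoeff_X _) hab,
      subst_X hab, subst_X hab] at h
    exact h)

theorem FSer.hom_ser (g : PowerSeries R) (hg : IsHomS p n v w g) (a : FSer p n v τ) :
    (FSer.hom g hg a).ser = g.subst a.ser := rfl

/-- To prove that `g` is a homomorphism it suffices to compute in `FSer`. -/
theorem isHomS_iff {g : PowerSeries R} (hg : PowerSeries.constantCoeff g = 0) :
    IsHomS p n v w g ↔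
      FSer.mk' p n w (g.subst (Fv p n v)) (PowerSeries.constantCoeff_subst_eq_zero
        (Fv_constantCoeff p n v) _ hg) =
      FSer.mk' p n w (g.subst (X 0 : MvPowerSeries (Fin 2) R))
        (PowerSeries.constantCoeff_subst_eq_zero (constantCoeff_X _) _ hg) +
      FSer.mk' p n w (g.subst (X 1 : MvPowerSeries (Fin 2) R))
        (PowerSeries.constantCoeff_subst_eq_zero (constantCoeff_X _) _ hg) := by
  constructor
  · intro h
    exact FSer.ext' h.2
  · intro h
    exact ⟨hg, congrArg FSer.ser h⟩

/-- `[m]` is an endomorphism of `F_v`. -/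
theorem mulS_isHomS_fser (v : ℕ → R) (m : ℕ) : IsHomS p n v v (mulS p n v m) := by
  rw [isHomS_iff (mulS_cc v m)]
  have h := nsmul_add (FSer.mk' p n v (X 0 : MvPowerSeries (Fin 2) R) (constantCoeff_X _))
    (FSer.mk' p n v (X 1) (constantCoeff_X _)) m
  apply FSer.ext'
  have h2 := congrArg FSer.ser h
  rw [FSer.nsmul_ser, FSer.add_ser, FSer.add_ser, FSer.nsmul_ser, FSer.nsmul_ser] at h2
  simp only [FSer.mk'_ser] at h2
  have h3 : subst ![(X 0 : MvPowerSeries (Fin 2) R), X 1] (Fv p n v) = Fv p n v := by
    have : ![(X 0 : MvPowerSeries (Fin 2) R), X 1] = X := by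
      funext s
      fin_cases s <;> rfl
    rw [this, subst_self]
    rfl
  rw [h3] at h2
  exact h2

end grp

end Vale.Agent.P217
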