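import Vale.Agent.P217.AsmDefs
import Vale.Agent.P217.FSer

/-!
# P217, modules AP4, AQ4: common part (helper59)

The action of `1 + p^M η` on points of the Lubin-Tate space.
-/

namespace Vale.Agent.P217

open MvPowerSeries Filter Topology

section series

variable {R : Type*} [CommRing R] {p n : ℕ} [Fact p.Prime]

/-- The series `X +_v [p^M] η(X)`. -/
noncomputable def smB (p n : ℕ) (v : ℕ → R) (η : PowerSeries R) (M : ℕ) : PowerSeries R :=
  (Fv p n v).subst ![(PowerSeries.X : PowerSeries R), (mulS p n v (p ^ M)).subst η]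

theorem sm_cc_X : constantCoeff (PowerSeries.X : PowerSeries R) = 0 := constantCoeff_X ()

theorem sm_cc_mul {v : ℕ → R} {η : PowerSeries R} (hη : PowerSeries.constantCoeff η = 0) (M : ℕ) :
    constantCoeff ((mulS p n v M).subst η : PowerSeries R) = 0 :=
  SPt.hom_aux (US1.mulS_cc v M) _ hη

theorem smB_map {R' : Type*} [CommRing R'] (φ : R →+* R') (v : ℕ → R) (η : PowerSeries R)
    (hη : PowerSeries.constantCoeff η = 0) (M : ℕ) :
    (smB p n v η M).map φ = smB p n (fun j => φ (v j)) (η.map φ) M := by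
  unfold smB
  refine (US1.map_pair φ (Fv p n v) sm_cc_X (sm_cc_mul hη _)).trans ?_
  rw [Fv_map]
  have e1 : MvPowerSeries.map φ (PowerSeries.X : PowerSeries R) = (PowerSeries.X : PowerSeries R') :=
    MvPowerSeries.map_X φ ()
  have e2 : MvPowerSeries.map φ ((mulS p n v (p ^ M)).subst η : PowerSeries R) =
      (mulS p n (fun j => φ (v j)) (p ^ M)).subst (η.map φ) := by
    rw [← US1.mulS_map]
    exact PowerSeries.map_subst (PowerSeries.HasSubst.of_constantCoeff_zero' hη) _
  rw [e1, e2]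

theorem smB_hom (v : ℕ → R) (η : PowerSeries R) (hη : IsHomS p n v v η) (M : ℕ) :
    IsHomS p n v v (smB p n v η M) := by
  have h0 : PowerSeries.constantCoeff (smB p n v η M) = 0 :=
    US1.cc (Fv_constantCoeff p n v) sm_cc_X (sm_cc_mul hη.1 _)
  refine ⟨h0, ?_⟩
  -- the homomorphism `x ↦ x + p^M • η x` of points
  let f : ∀ {τ : Type}, SPt p n v τ →+ SPt p n v τ := fun {τ} =>
    AddMonoidHom.id _ + (nsmulAddMonoidHom (p ^ M)).comp (SPt.hom η hη)
  have hf : ∀ {τ : Type} (x : SPt p n v τ), (f x).1 = PowerSeries.subst x.1 (smB p n v η M) := by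
    intro τ x
    have hx := US1.hs (a := x.1) (b := x.1) x.2 x.2
    have hx1 : HasSubst (fun _ : Unit => x.1) := hasSubst_of_constantCoeff_zero fun _ => x.2
    have e1 : (f x).1 = (Fv p n v).subst ![x.1, (p ^ M • SPt.hom η hη x).1] := rfl
    rw [e1, SPt.nsmul_val]
    have e2 := US1.comp2 (Fv p n v) (a := (PowerSeries.X : PowerSeries R))
      (b := ((mulS p n v (p ^ M)).subst η : PowerSeries R)) sm_cc_X (sm_cc_mul hη.1 _) hx1
    have e3 := US1.comp1 (mulS p n v (p ^ M)) (F := η) hη.1 hx1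
    have e4 : MvPowerSeries.subst (fun _ : Unit => x.1) (PowerSeries.X : PowerSeries R) = x.1 :=
      subst_X hx1 ()
    rw [e3, e4] at e2
    exact e2.symm
  have h := congrArg Subtype.val ((f (τ := Fin 2)).map_add (SPt.X p n v 0) (SPt.X p n v 1))
  rw [SPt.add_val, hf, hf, hf, SPt.add_val] at h
  have e : (Fv p n v).subst ![(SPt.X p n v (0 : Fin 2)).1, (SPt.X p n v 1).1] = Fv p n v := by
    have h1 : ![(SPt.X p n v (0 : Fin 2)).1, (SPt.X p n v (1 : Fin 2)).1] =
        (X : Fin 2 → MvPowerSeries (Fin 2) R) := by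
      funext i; fin_cases i <;> rfl
    rw [h1, subst_self]
    rfl
  rw [e] at h
  exact h

end series

section points

variable {O : Type*} [CommRing O] [UniformSpace O] [IsUniformAddGroup O] [IsTopologicalRing O]
  [IsLinearTopology O O] [T2Space O] [CompleteSpace O] {p n : ℕ} [Fact p.Prime] {v : ℕ → O}

theorem smB_val (η : PowerSeries O) (hη : IsHomS p n v v η) (M : ℕ) (e : FPt p n v) :
    FPt.hom (smB p n v η M) (smB_hom v η hη M) e = e + p ^ M • FPt.hom η hη e := by
  apply Subtype.ext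
  rw [FPt.hom_val, FPt.add_val, FPt.nsmul_val, FPt.hom_val, smB, ev1_def,
    eval_pair sm_cc_X (sm_cc_mul hη.1 _) (hasEval_one e.2), ← ev1_def, ev1_X,
    eval_one hη.1 (hasEval_one e.2), ← ev1_def]

end points

section adic

set_option linter.unusedSectionVars false

variable {p n : ℕ} [Fact p.Prime] {k : Type*} [Field k] [CharP k p] [PerfectRing k p]
variable {L : Type*} [NormedField L] [IsUltrametricDist L]

theorem sm_pow_le {r : ℝ} (hr0 : 0 ≤ r) (χ : E0 p n k →+* OO L)
    (hχm : ∀ f ∈ mE p n k, ‖((χ f : OO L) : L)‖ ≤ r) (N : ℕ) :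
    ∀ f ∈ mE p n k ^ N, ‖((χ f : OO L) : L)‖ ≤ r ^ N := by
  induction N with
  | zero =>
    intro f _
    rw [pow_zero]
    exact (χ f).2
  | succ N ih =>
    intro f hf
    rw [pow_succ] at hf
    have h : f ∈ (ballI L (r ^ (N + 1)) (pow_nonneg hr0 _)).comap χ := by
      refine (Ideal.mul_le.mpr ?_) hf
      intro a ha b hb
      show ‖((χ (a * b) : OO L) : L)‖ ≤ r ^ (N + 1)
      have e : ((χ (a * b) : OO L) : L) = (χ a : L) * (χ b : L) := by rw [map_mul]; rfl
      rw [e, norm_mul, pow_succ]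
      exact mul_le_mul (ih a ha) (hχm b hb) (norm_nonneg _) (pow_nonneg hr0 N)
    exact h

theorem sm_theta_mE (θ : E0 p n k ≃+* E0 p n k) {f : E0 p n k} (hf : f ∈ mE p n k) :
    θ f ∈ mE p n k := by
  by_contra h
  have h1 : IsUnit (θ f) := (isUnit_iff_resE _).mpr h
  have h2 : IsUnit f := by
    have := h1.map θ.symm
    rwa [RingEquiv.symm_apply_apply] at this
  exact (isUnit_iff_resE f).mp h2 hf

theorem sm_uPar {j : ℕ} (h1 : 1 ≤ j) (h2 : j < n) :
    uPar p n k j = X (⟨j - 1, by omega⟩ : Fin (n - 1)) := by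
  unfold uPar par
  rw [dif_pos ⟨h1, by omega⟩]

theorem sm_move {r : ℝ} (hr0 : 0 ≤ r) (χ : E0 p n k →+* OO L)
    (hχm : ∀ f ∈ mE p n k, ‖((χ f : OO L) : L)‖ ≤ r) (θ : E0 p n k ≃+* E0 p n k) (M : ℕ)
    (hθ : ∀ i, θ (X i) - X i ∈ mE p n k ^ (M + 1)) {j : ℕ} (h1 : 1 ≤ j) (h2 : j < n) :
    ‖((χ (θ (uPar p n k j)) : OO L) : L) - (χ (uPar p n k j) : L)‖ ≤ r ^ (M + 1) := by
  have h := sm_pow_le hr0 χ hχm (M + 1) _ (hθ (⟨j - 1, by omega⟩ : Fin (n - 1)))
  rw [sm_uPar h1 h2]
  rw [map_sub] at h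
  exact h

end adic

section main

variable {p h m : ℕ} [Fact p.Prime] {k : Type*} [Field k] [CharP k p] [PerfectRing k p]
variable {K L : Type*} [NormedField K] [IsUltrametricDist K] [CompleteSpace K] [CharP K p]
  [PerfectRing K p] [NormedField L] [IsUltrametricDist L] [CompleteSpace L]

/-- The general form of the action of `1 + p^M η` on points. -/
theorem sm_general (ι : k →+* OO K) (S : SharpData p K L) {r : ℝ}
    (χ : E0 p (h + m) k →+* OO L) (hχm : ∀ f ∈ mE p (h + m) k, ‖((χ f : OO L) : L)‖ ≤ r)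
    (hχC : ∀ w : WittVector p k, ‖((χ (C w) : OO L) : L) -
      S.sharp ((ι (WittVector.constantCoeff w) : OO K) : K)‖ ≤ r)
    (hpar : ∀ j, 1 ≤ j → j ≤ h + m → χ (uPar p (h + m) k j) = par h m (ptA h χ) j)
    (D : Dt p h m (ptA h χ) r) (χ' : E0 p (h + m) k →+* OO L)
    (θ : E0 p (h + m) k ≃+* E0 p (h + m) k) (hχ' : ∀ f, χ' f = χ (θ f))
    (hpar' : ∀ j, 1 ≤ j → j ≤ h + m → χ' (uPar p (h + m) k j) = par h m (ptA h χ') j)
    (D' : Dt p h m (ptA h χ') r)
    (hk : ∀ c : k, c ^ (p ^ (h + m)) = c)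
    (η : PowerSeries k) (hη : IsHomS p (h + m) (Gam (h + m)) (Gam (h + m)) η)
    (η' : PowerSeries (OO K)) (hη' : IsHomS p (h + m) (Gam (h + m)) (Gam (h + m)) η')
    (hηη' : η.map ι = η') (M : ℕ) (g : PowerSeries (E0 p (h + m) k))
    (hg : IsHomS p (h + m) (uPar p (h + m) k) (fun j => θ (uPar p (h + m) k j)) g)
    (hres : g.map (resE p (h + m) k) = (Fv p (h + m) (Gam (h + m) : ℕ → k)).subst
        ![(PowerSeries.X : PowerSeries k), (mulS p (h + m) (Gam (h + m) : ℕ → k) (p ^ M)).subst η]) :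
    ∀ e, pra D S e = 0 → pra D' S (e + p ^ M • FPt.hom η' hη' e) = 0 := by
  intro e he
  -- the homomorphism over `O_L`
  have hgχ : IsHomS p (h + m) (par h m (ptA h χ)) (par h m (ptA h χ')) (g.map χ) := by
    have h1 := hg.map χ
    refine ⟨h1.1, ?_⟩
    have h2 := h1.2
    have e1 : Fv p (h + m) (fun j => χ (uPar p (h + m) k j)) =
        Fv p (h + m) (par h m (ptA h χ)) := Fv_congr p (h + m) _ _ hpar
    have e2 : Fv p (h + m) (fun j => χ (θ (uPar p (h + m) k j))) =
        Fv p (h + m) (par h m (ptA h χ')) := Fv_congr p (h + m) _ _ (fun j hj1 hj2 => by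
        rw [← hpar' j hj1 hj2, hχ'])
    rw [e1, e2] at h2
    exact h2
  have hGam : (fun j => ι ((Gam (h + m) : ℕ → k) j)) = (Gam (h + m) : ℕ → OO K) := by
    funext j
    unfold Gam
    split_ifs
    · exact map_one ι
    · exact map_zero ι
  have hβ : smB p (h + m) (Gam (h + m) : ℕ → OO K) η' M =
      (smB p (h + m) (Gam (h + m) : ℕ → k) η M).map ι := by
    rw [smB_map ι _ η hη.1, hGam, hηη']
  have hβd : ∀ d, PowerSeries.coeff d (smB p (h + m) (Gam (h + m) : ℕ → OO K) η' M) =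
      ι (resE p (h + m) k (PowerSeries.coeff d g)) := by
    intro d
    rw [hβ, PowerSeries.coeff_map]
    have h1 : resE p (h + m) k (PowerSeries.coeff d g) =
        PowerSeries.coeff d (g.map (resE p (h + m) k)) := (PowerSeries.coeff_map _ _ _).symm
    rw [h1, hres]
    rfl
  have key : ∀ f : E0 p (h + m) k, χ f - shO S (ι (resE p (h + m) k f)) ∈
      ballI L r D.rho_nonneg := by
    intro f
    have h1 : f - C (constantCoeff f) ∈ mE p (h + m) k := by
      rw [mE, RingHom.mem_ker, map_sub, resE_C, sub_eq_zero]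
      rfl
    have h2 : χ f - shO S (ι (resE p (h + m) k f)) =
        χ (f - C (constantCoeff f)) +
          (χ (C (constantCoeff f)) - shO S (ι (resE p (h + m) k f))) := by
      rw [map_sub]; ring
    rw [h2]
    refine Ideal.add_mem _ (hχm _ h1) ?_
    exact hχC (constantCoeff f)
  have heq := prS_equivariant S (RingHom.id (OO L)) continuous_id D.adm D'.adm
    (smB p (h + m) (Gam (h + m) : ℕ → OO K) η' M) (smB_hom _ η' hη' M)
    (fun d => by rw [hβd, ← map_pow ι, hk]) (g.map χ) hgχ (fun d => by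
      rw [hβd, PowerSeries.coeff_map]
      exact key _) e
  rw [smB_val η' hη'] at heq
  refine Eq.trans heq ?_
  have he' : prS S (RingHom.id (OO L)) continuous_id D.adm e = 0 := he
  rw [he', map_zero]

end main

end Vale.Agent.P217
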