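import Vale.Agent.P217.AsmPts
import Vale.Agent.P217.SmallMove

/-!
# P217, module AP4: the action of `1 + p^M η` on points (helper95)
-/

namespace Vale.Agent.P217

open MvPowerSeries Filter Topology

variable {p h m : ℕ} [Fact p.Prime] {k : Type*} [Field k] [CharP k p] [PerfectRing k p]
variable {K : Type*} [NormedField K] [IsUltrametricDist K] [CompleteSpace K] [CharP K p]
  [PerfectRing K p]

/-- AP4: let `J` be invariant and `χ` a point of `V(J)` in the stratum `V(I_h)`. For every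
endomorphism `η` of `Γ_n` over `k` and `M ≥ 1` there is a point `χ'` (namely `χ ∘ θ_M`) of `V(J)`
with `‖χ'(u) - χ(u)‖ ≤ r^(M+1)` and `pr_{χ'}(e + p^M η e) = 0` for `e ∈ ker pr_χ`. -/
theorem exists_small_move (h1 : 1 ≤ h) (hm : 1 ≤ m) {ι : k →+* OO K} {r : ℝ}
    {χ : E0 p (h + m) k →+* OO K} (hχ : Pt ι h r χ) (J : Ideal (E0 p (h + m) k))
    (hJ : InvE p (h + m) k J) (hχJ : ∀ f ∈ J, χ f = 0)
    (hk : ∀ c : k, c ^ (p ^ (h + m)) = c)
    (S : SharpData p K K) (hS : ∀ x, S.sharp x = x)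
    (D : Dt p h m (ptA h χ) r)
    (η : PowerSeries k) (hη : IsHomS p (h + m) (Gam (h + m)) (Gam (h + m)) η)
    (η' : PowerSeries (OO K)) (hη' : IsHomS p (h + m) (Gam (h + m)) (Gam (h + m)) η')
    (hηη' : η.map ι = η') (M : ℕ) (hM : 1 ≤ M) :
    ∃ (χ' : E0 p (h + m) k →+* OO K) (_ : Pt ι h r χ') (D' : Dt p h m (ptA h χ') r),
      (∀ f ∈ J, χ' f = 0) ∧
      (∀ i, ‖((ptA h χ' i : OO K) : K) - (ptA h χ i : K)‖ ≤ r ^ (M + 1)) ∧
      ∀ e, pra D S e = 0 → pra D' S (e + p ^ M • FPt.hom η' hη' e) = 0 := by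
  obtain ⟨θ, g, hθC, hg, hu, hres, hX⟩ := lubinTate_small (k := k) (by omega) η hη M hM
  have hP : Pt ι h r (χ.comp (θ : E0 p (h + m) k →+* E0 p (h + m) k)) := by
    refine ⟨hχ.r_nonneg, hχ.r_lt, fun w => ?_, fun f hf => ?_, fun f hf => ?_⟩
    · show χ (θ (C w)) = _
      rw [hθC, hχ.map_C]
    · show χ (θ f) = 0
      apply hχ.map_I
      rw [← Iht_invariant (by omega) θ g hg hu h (by omega)]
      exact Ideal.mem_map_of_mem _ hf
    · exact hχ.map_m _ (sm_theta_mE θ hf)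
  refine ⟨_, hP, Pt.dt h1 hP, fun f hf => ?_, fun i => ?_, ?_⟩
  · apply hχJ
    show θ f ∈ J
    rw [← hJ θ g hθC hg hu]
    exact Ideal.mem_map_of_mem _ hf
  · exact sm_move hχ.r_nonneg χ hχ.map_m θ M hX (by omega) (by omega)
  · exact sm_general ι S χ hχ.map_m (fun w => by
      rw [hχ.map_C, hS, sub_self, norm_zero]; exact hχ.r_nonneg)
      (Pt.par_eq h1 hχ) D _ θ (fun f => rfl) (Pt.par_eq h1 hP) _ hk η hη η' hη' hηη' M g hg hres

end Vale.Agent.P217
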