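import Vale.Agent.P217.AsmPt0
import Vale.Agent.P217.SmallMove

/-!
# P217, module AQ4: the action of `1 + p^M η` on points in characteristic zero (helper95)
-/

namespace Vale.Agent.P217

open MvPowerSeries Filter Topology

variable {p m : ℕ} [Fact p.Prime] {k : Type*} [Field k] [CharP k p] [PerfectRing k p]
variable {K C' : Type*} [NormedField K] [IsUltrametricDist K] [CompleteSpace K] [CharP K p]
  [PerfectRing K p] [NormedField C'] [IsUltrametricDist C'] [CompleteSpace C']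

/-- AQ4: let `J` be invariant and `χ` a point of `V(J)`. For every endomorphism `η` of `Γ_n` over
`k` and `M ≥ 1` there is a point `χ'` (namely `χ ∘ θ_M`) of `V(J)` with
`‖χ'(u) - χ(u)‖ ≤ r^(M+1)` and `pr_{χ'}(e + p^M η e) = 0` for `e ∈ ker pr_χ`. -/
theorem exists_small_move0 (ω : WittVector p k →+* OO C') {r : ℝ}
    {χ : E0 p (1 + m) k →+* OO C'} (hχ : Pt0 ω r χ) (J : Ideal (E0 p (1 + m) k))
    (hJ : InvE p (1 + m) k J) (hχJ : ∀ f ∈ J, χ f = 0)
    (hk : ∀ c : k, c ^ (p ^ (1 + m)) = c) (ι : k →+* OO K)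
    (S : SharpData p K C')
    (hS : ∀ c : k, ((ω (WittVector.teichmuller p c) : OO C') : C') = S.sharp ((ι c : OO K) : K))
    (D : Dt p 1 m (ptA 1 χ) r)
    (η : PowerSeries k) (hη : IsHomS p (1 + m) (Gam (1 + m)) (Gam (1 + m)) η)
    (η' : PowerSeries (OO K)) (hη' : IsHomS p (1 + m) (Gam (1 + m)) (Gam (1 + m)) η')
    (hηη' : η.map ι = η') (M : ℕ) (hM : 1 ≤ M) :
    ∃ (χ' : E0 p (1 + m) k →+* OO C') (_ : Pt0 ω r χ') (D' : Dt p 1 m (ptA 1 χ') r),
      (∀ f ∈ J, χ' f = 0) ∧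
      (∀ i, ‖((ptA 1 χ' i : OO C') : C') - (ptA 1 χ i : C')‖ ≤ r ^ (M + 1)) ∧
      ∀ e, pra D S e = 0 → pra D' S (e + p ^ M • FPt.hom η' hη' e) = 0 := by
  obtain ⟨θ, g, hθC, hg, hu, hres, hX⟩ := lubinTate_small (k := k) (by omega) η hη M hM
  have hP : Pt0 ω r (χ.comp (θ : E0 p (1 + m) k →+* E0 p (1 + m) k)) := by
    refine ⟨hχ.r_nonneg, hχ.r_lt, fun w => ?_, fun f hf => ?_⟩
    · show χ (θ (C w)) = _
      rw [hθC, hχ.map_C]
    · exact hχ.map_m _ (sm_theta_mE θ hf)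
  refine ⟨_, hP, Pt0.dt hP, fun f hf => ?_, fun i => ?_, ?_⟩
  · apply hχJ
    show θ f ∈ J
    rw [← hJ θ g hθC hg hu]
    exact Ideal.mem_map_of_mem _ hf
  · exact sm_move hχ.r_nonneg χ hχ.map_m θ M hX (by omega) (by omega)
  · refine sm_general ι S χ hχ.map_m (fun w => ?_)
      (Pt0.par_eq hχ) D _ θ (fun f => rfl) (Pt0.par_eq hP) _ hk η hη η' hη' hηη' M g hg hres
    rw [← hS, ← hχ.map_C]
    have h1 : (C w : E0 p (1 + m) k) - C (WittVector.teichmuller p (WittVector.constantCoeff w)) ∈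
        mE p (1 + m) k := by
      rw [mE, RingHom.mem_ker, map_sub, resE_C, resE_C, sub_eq_zero]
      show _ = (WittVector.teichmuller p (WittVector.constantCoeff w)).coeff 0
      rw [WittVector.teichmuller_coeff_zero]
    have h2 := hχ.map_m _ h1
    rw [map_sub] at h2
    exact h2

end Vale.Agent.P217
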