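import Vale.Agent.P217.Sharp

/-!
# P217: base points and the universal Taylor expansion `Lam` (modules BS1, BS2, BS3)
-/

set_option linter.unusedSectionVars false

namespace Vale.Agent.P217

open MvPowerSeries Filter Topology
open scoped MvPowerSeries.WithPiTopology

variable {p h m : ℕ} [Fact p.Prime]
variable {K L : Type*} [NormedField K] [NormedField L] [IsUltrametricDist K] [IsUltrametricDist L]
  [CharP K p] [PerfectRing K p] [CompleteSpace K] [CompleteSpace L]

/-- The ideal `‖x‖ ≤ ρ` of the unit ball. -/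
def ballI (L : Type*) [NormedField L] [IsUltrametricDist L] (ρ : ℝ) (hρ : 0 ≤ ρ) :
    Ideal (OO L) where
  carrier := {x | ‖(x : L)‖ ≤ ρ}
  add_mem' := by
    intro a b ha hb
    exact (IsUltrametricDist.norm_add_le_max (a : L) (b : L)).trans (max_le ha hb)
  zero_mem' := by
    show ‖((0 : OO L) : L)‖ ≤ ρ
    simpa using hρ
  smul_mem' := by
    intro c x hx
    show ‖((c * x : OO L) : L)‖ ≤ ρ
    have hc : ‖(c : L)‖ ≤ 1 := c.2
    have hx' : ‖(x : L)‖ ≤ ρ := hx
    calc ‖((c * x : OO L) : L)‖ = ‖(c : L)‖ * ‖(x : L)‖ := by simp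
      _ ≤ 1 * ρ := mul_le_mul hc hx' (norm_nonneg _) zero_le_one
      _ = ρ := one_mul ρ

/-- The ideal of power series with constant coefficient in the ball. -/
noncomputable def ballX (L : Type*) [NormedField L] [IsUltrametricDist L] (m : ℕ) (ρ : ℝ)
    (hρ : 0 ≤ ρ) : Ideal (MvPowerSeries (Fin m) (OO L)) :=
  (ballI L ρ hρ).comap (constantCoeff (σ := Fin m) (R := OO L))

/-- The parameters `a + δ` over `O_L[[δ]]`. -/
noncomputable def parX (h m : ℕ) (a : Fin m → OO L) : ℕ → MvPowerSeries (Fin m) (OO L) :=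
  par h m (fun i => C (a i) + X i)

/-- A base point `a` in the ball of radius `ρ < 1`. -/
structure Dt (p h m : ℕ) (a : Fin m → OO L) (ρ : ℝ) : Prop where
  h_pos : 1 ≤ h
  rho_nonneg : 0 ≤ ρ
  rho_lt : ρ < 1
  p_le : ‖(p : L)‖ ≤ ρ
  a_le : ∀ i, ‖(a i : L)‖ ≤ ρ

private theorem bs1_pow_le {ρ : ℝ} (hρ : 0 ≤ ρ) (k : ℕ) :
    (ballI L ρ hρ) ^ k ≤ ballI L (ρ ^ k) (pow_nonneg hρ k) := by
  induction k with
  | zero =>
    intro x _
    show ‖(x : L)‖ ≤ ρ ^ 0
    rw [pow_zero]
    exact x.2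
  | succ k ih =>
    rw [pow_succ, Ideal.mul_le]
    intro r hr s hs
    show ‖((r * s : OO L) : L)‖ ≤ ρ ^ (k + 1)
    have h1 : ‖(r : L)‖ ≤ ρ ^ k := ih hr
    have h2 : ‖(s : L)‖ ≤ ρ := hs
    have e : ((r * s : OO L) : L) = (r : L) * (s : L) := rfl
    rw [e, norm_mul, pow_succ]
    exact mul_le_mul h1 h2 (norm_nonneg _) (pow_nonneg hρ k)

theorem ball_topnil {ρ : ℝ} (hρ : 0 ≤ ρ) (h1 : ρ < 1) :
    ∀ U ∈ 𝓝 (0 : OO L), ∃ k : ℕ, (((ballI L ρ hρ) ^ k : Ideal (OO L)) : Set (OO L)) ⊆ U := by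
  intro U hU
  obtain ⟨⟨ε, hε⟩, -, h⟩ := (nhds_zero_OO_basis (K := L)).mem_iff.1 hU
  obtain ⟨k, hk⟩ := exists_pow_lt_of_lt_one hε h1
  refine ⟨k, fun x hx => h ?_⟩
  have hx' : ‖(x : L)‖ ≤ ρ ^ k := bs1_pow_le hρ k hx
  exact lt_of_le_of_lt hx' hk

theorem ball_closed {ρ : ℝ} (hρ : 0 ≤ ρ) : IsClosed ((ballI L ρ hρ : Ideal (OO L)) : Set (OO L)) := by
  have h : Continuous fun x : OO L => ‖(x : L)‖ := continuous_norm.comp continuous_subtype_val
  exact isClosed_le h continuous_const

/-- coefficients of the elements of the powers of `ballX` -/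
private theorem bs1_coeff {ρ : ℝ} (hρ : 0 ≤ ρ) (k : ℕ) : ∀ F ∈ (ballX L m ρ hρ) ^ k,
    ∀ d : Fin m →₀ ℕ, coeff d F ∈ (ballI L ρ hρ) ^ (k - d.degree) := by
  classical
  induction k with
  | zero => intro F _ d; simp
  | succ k ih =>
    intro F hF
    rw [pow_succ'] at hF
    refine Submodule.mul_induction_on (C := fun F => ∀ d : Fin m →₀ ℕ,
      coeff d F ∈ (ballI L ρ hρ) ^ (k + 1 - d.degree)) hF ?_ ?_
    · intro G hG H hH d
      rw [coeff_mul]
      refine Ideal.sum_mem _ fun ij hij => ?_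
      rw [Finset.HasAntidiagonal.mem_antidiagonal] at hij
      have h1 := ih H hH ij.2
      have hdeg : ij.1.degree + ij.2.degree = d.degree := by
        rw [← hij, map_add]
      by_cases h0 : ij.1 = 0
      · have hG0 : coeff ij.1 G ∈ ballI L ρ hρ := by
          rw [h0]
          exact hG
        have h2 : coeff ij.1 G * coeff ij.2 H ∈ (ballI L ρ hρ) ^ (1 + (k - ij.2.degree)) := by
          rw [pow_add, pow_one]
          exact Ideal.mul_mem_mul hG0 h1
        refine Ideal.pow_le_pow_right ?_ h2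
        rw [h0, map_zero] at hdeg
        omega
      · have h3 : 1 ≤ ij.1.degree := by
          rw [Nat.one_le_iff_ne_zero]
          intro h4
          exact h0 ((Finsupp.degree_eq_zero_iff _).1 h4)
        refine Ideal.pow_le_pow_right ?_ (Ideal.mul_mem_left _ _ h1)
        omega
    · intro G H hG hH d
      rw [map_add]
      exact Ideal.add_mem _ (hG d) (hH d)

theorem ballX_topnil {ρ : ℝ} (hρ : 0 ≤ ρ) (h1 : ρ < 1) :
    ∀ U ∈ 𝓝 (0 : MvPowerSeries (Fin m) (OO L)), ∃ k : ℕ,
      (((ballX L m ρ hρ) ^ k : Ideal (MvPowerSeries (Fin m) (OO L))) :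
        Set (MvPowerSeries (Fin m) (OO L))) ⊆ U := by
  intro U hU
  obtain ⟨⟨I, d⟩, hI, hU'⟩ :=
    (MvPowerSeries.LinearTopology.hasBasis_nhds_zero (σ := Fin m) (R := OO L)).mem_iff.1 hU
  obtain ⟨k, hk⟩ := ball_topnil hρ h1 (I : Set (OO L)) hI
  refine ⟨k + d.degree, fun F hF => hU' ?_⟩
  rw [SetLike.mem_coe, MvPowerSeries.LinearTopology.mem_basis_iff]
  intro e he
  have h2 := bs1_coeff hρ _ F hF e
  refine hk (Ideal.pow_le_pow_right ?_ h2)
  have h3 : e.degree ≤ d.degree := by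
    obtain ⟨c, hc⟩ := le_iff_exists_add.1 he
    have h4 : d.degree = e.degree + c.degree := by
      have h5 : d = e + c := hc
      rw [h5, map_add]
    omega
  omega

theorem ballX_closed {ρ : ℝ} (hρ : 0 ≤ ρ) :
    IsClosed ((ballX L m ρ hρ : Ideal (MvPowerSeries (Fin m) (OO L))) :
      Set (MvPowerSeries (Fin m) (OO L))) :=
  (ball_closed hρ).preimage (WithPiTopology.continuous_constantCoeff (OO L))

theorem Dt.adm {a : Fin m → OO L} {ρ : ℝ} (D : Dt p h m a ρ) :
    Adm p (h + m) (par h m a) (ballI L ρ D.rho_nonneg) where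
  topnil := ball_topnil D.rho_nonneg D.rho_lt
  closed := ball_closed D.rho_nonneg
  p_mem := by
    show ‖(((p : ℕ) : OO L) : L)‖ ≤ ρ
    have e : (((p : ℕ) : OO L) : L) = (p : L) := by push_cast; rfl
    rw [e]
    exact D.p_le
  v_mem := by
    intro j h1 h2
    unfold par
    split_ifs with h3 h4
    · exact D.a_le _
    · omega
    · exact Ideal.zero_mem _
  v_top := by
    unfold par
    rw [dif_neg (by omega), if_pos rfl]
  n_pos := by have := D.h_pos; omega

theorem Dt.admX {a : Fin m → OO L} {ρ : ℝ} (D : Dt p h m a ρ) :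
    Adm p (h + m) (parX h m a) (ballX L m ρ D.rho_nonneg) where
  topnil := ballX_topnil D.rho_nonneg D.rho_lt
  closed := ballX_closed D.rho_nonneg
  p_mem := by
    show constantCoeff ((p : ℕ) : MvPowerSeries (Fin m) (OO L)) ∈ ballI L ρ D.rho_nonneg
    rw [map_natCast]
    exact D.adm.p_mem
  v_mem := by
    intro j h1 h2
    show constantCoeff (parX h m a j) ∈ ballI L ρ D.rho_nonneg
    unfold parX par
    split_ifs with h3 h4
    · rw [map_add, constantCoeff_C, constantCoeff_X, add_zero]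
      exact D.a_le _
    · omega
    · rw [map_zero]
      exact Ideal.zero_mem _
  v_top := by
    unfold parX par
    rw [dif_neg (by omega), if_pos rfl]
  n_pos := by have := D.h_pos; omega

theorem continuous_C_OO : Continuous (C : OO L →+* MvPowerSeries (Fin m) (OO L)) :=
  WithPiTopology.continuous_C

/-- `pr_a : E → F_a(m_L)`. -/
noncomputable def pra {a : Fin m → OO L} {ρ : ℝ} (D : Dt p h m a ρ) (S : SharpData p K L) :
    FPt p (h + m) (Gam (h + m) : ℕ → OO K) →+ FPt p (h + m) (par h m a) :=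
  prS S (RingHom.id _) continuous_id D.adm

/-- `pr_{a+δ} : E → F_{a+δ}(O_L[[δ]])`. -/
noncomputable def praX {a : Fin m → OO L} {ρ : ℝ} (D : Dt p h m a ρ) (S : SharpData p K L) :
    FPt p (h + m) (Gam (h + m) : ℕ → OO K) →+ FPt p (h + m) (parX h m a) :=
  prS S (C : OO L →+* MvPowerSeries (Fin m) (OO L)) continuous_C_OO D.admX

/-- The power series `Lam_x(δ) = pr_{a+δ}(x)`. -/
noncomputable def Lam {a : Fin m → OO L} {ρ : ℝ} (D : Dt p h m a ρ) (S : SharpData p K L)
    (x : FPt p (h + m) (Gam (h + m) : ℕ → OO K)) : MvPowerSeries (Fin m) (OO L) :=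
  (praX D S x).1

section bs2

variable {O : Type*} [CommRing O] [UniformSpace O] [IsUniformAddGroup O] [IsTopologicalRing O]
  [IsLinearTopology O O] [T2Space O] [CompleteSpace O] {n : ℕ}

/-- `prS` depends only on the parameters and the embedding -/
private theorem bs2_congr {v v' : ℕ → O} {J J' : Ideal O} (hv : v = v') (S : SharpData p K L)
    (ι ι' : OO L →+* O) (hι : Continuous ι) (hι' : Continuous ι') (hιι : ι = ι')
    (hJ : Adm p n v J) (hJ' : Adm p n v' J') (x : FPt p n (Gam n : ℕ → OO K)) :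
    (prS S ι hι hJ x).1 = (prS S ι' hι' hJ' x).1 := by
  subst hv
  subst hιι
  rfl

/-- specialisation of `Lam` along a continuous ring homomorphism -/
private theorem bs2_map {a : Fin m → OO L} {a' : Fin m → OO L} {ρ ρ' : ℝ} (D : Dt p h m a ρ)
    (D' : Dt p h m a' ρ') (S : SharpData p K L)
    (x : FPt p (h + m) (Gam (h + m) : ℕ → OO K))
    (ψ : MvPowerSeries (Fin m) (OO L) →+* OO L) (hψ : Continuous ψ)
    (hC : ∀ c, ψ (C c) = c) (hX : ∀ i, ψ (X i) = a' i - a i) :
    ψ (Lam D S x) = (pra D' S x).1 := by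
  have hv : (fun j => ψ (parX h m a j)) = par h m a' := by
    funext j
    unfold parX par
    split_ifs with h1 h2
    · rw [map_add, hC, hX]
      abel
    · exact map_one ψ
    · exact map_zero ψ
  have hadm : Adm p (h + m) (fun j => ψ (parX h m a j)) (ballI L ρ' D'.rho_nonneg) := by
    rw [hv]
    exact D'.adm
  have h1 := prS_map S (C : OO L →+* MvPowerSeries (Fin m) (OO L)) continuous_C_OO D.admX ψ hψ
    hadm x
  have h2 : ψ.comp (C : OO L →+* MvPowerSeries (Fin m) (OO L)) = RingHom.id (OO L) :=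
    RingHom.ext hC
  have h3 : ψ (Lam D S x) = (prS S (ψ.comp C) (hψ.comp continuous_C_OO) hadm x).1 := by
    rw [h1]
    rfl
  rw [h3]
  exact bs2_congr hv S _ _ _ _ h2 hadm D'.adm x

private theorem bs2_hasEval {a a' : Fin m → OO L} {ρ ρ' : ℝ} (D : Dt p h m a ρ)
    (D' : Dt p h m a' ρ') : HasEval (fun i => a' i - a i) where
  hpow := by
    intro i
    rw [tn_iff_norm_lt_one]
    have e : ((a' i - a i : OO L) : L) = (a' i : L) - (a i : L) := rfl
    rw [e]
    rw [sub_eq_add_neg]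
    refine lt_of_le_of_lt (IsUltrametricDist.norm_add_le_max _ _) (max_lt ?_ ?_)
    · exact lt_of_le_of_lt (D'.a_le i) D'.rho_lt
    · rw [norm_neg]
      exact lt_of_le_of_lt (D.a_le i) D.rho_lt
  tendsto_zero := by
    rw [Filter.cofinite_eq_bot]
    exact tendsto_bot

end bs2

theorem Lam_constantCoeff {a : Fin m → OO L} {ρ : ℝ} (D : Dt p h m a ρ) (S : SharpData p K L)
    (x : FPt p (h + m) (Gam (h + m) : ℕ → OO K)) :
    constantCoeff (Lam D S x) = (pra D S x).1 :=
  bs2_map D D S x constantCoeff (WithPiTopology.continuous_constantCoeff (OO L))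
    (fun c => constantCoeff_C c) (fun i => by rw [constantCoeff_X, sub_self])

/-- Evaluation of `Lam_x` at `δ` is `pr_{a+δ}(x)`. -/
theorem Lam_eval {a a' : Fin m → OO L} {ρ ρ' : ℝ} (D : Dt p h m a ρ) (D' : Dt p h m a' ρ')
    (S : SharpData p K L) (x : FPt p (h + m) (Gam (h + m) : ℕ → OO K)) :
    evm (Lam D S x) (fun i => a' i - a i) = (pra D' S x).1 := by
  have hE := bs2_hasEval D D'
  have hid : Continuous (RingHom.id (OO L)) := continuous_id
  have h1 := bs2_map D D' S x (eval₂Hom hid hE) (by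
    rw [coe_eval₂Hom]
    exact continuous_eval₂ hid hE) (fun c => by
    rw [coe_eval₂Hom, eval₂_C]
    rfl) (fun i => by
    rw [coe_eval₂Hom, eval₂_X])
  rw [coe_eval₂Hom] at h1
  exact h1

/-- Independence of the radius. -/
theorem pra_radius {a : Fin m → OO L} {ρ ρ' : ℝ} (D : Dt p h m a ρ) (D' : Dt p h m a ρ')
    (S : SharpData p K L) (x : FPt p (h + m) (Gam (h + m) : ℕ → OO K)) :
    pra D S x = pra D' S x := rfl

/-- Change of base point moves `pr` by at most the distance. -/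
theorem pra_dist {a a' : Fin m → OO L} {ρ ρ' r : ℝ} (D : Dt p h m a ρ) (D' : Dt p h m a' ρ')
    (hr0 : 0 ≤ r) (hr : ∀ i, ‖((a' i : OO L) : L) - (a i : L)‖ ≤ r)
    (S : SharpData p K L) (x : FPt p (h + m) (Gam (h + m) : ℕ → OO K)) :
    ‖(((pra D' S x).1 : OO L) : L) - (((pra D S x).1 : OO L) : L)‖ ≤ r := by
  classical
  have hE := bs2_hasEval D D'
  have hid : Continuous (RingHom.id (OO L)) := continuous_id
  rw [← Lam_eval D D' S x, ← Lam_constantCoeff D S x]
  set F := Lam D S x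
  have h1 := hasSum_eval₂ hid hE F
  have h2 : HasSum (fun d : Fin m →₀ ℕ => if d = 0 then constantCoeff F else 0)
      (constantCoeff F) := hasSum_ite_eq 0 _
  have h3 := h1.sub h2
  have h4 : evm F (fun i => a' i - a i) - constantCoeff F ∈ ballI L r hr0 := by
    have hcl := ball_closed (L := L) hr0
    refine hcl.mem_of_tendsto h3 (Filter.Eventually.of_forall fun s => ?_)
    refine Ideal.sum_mem _ fun d _ => ?_
    by_cases hd : d = 0
    · subst hd
      simp
    · rw [if_neg hd, sub_zero]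
      refine Ideal.mul_mem_left _ _ ?_
      obtain ⟨i, hi⟩ : ∃ i, d i ≠ 0 := by
        by_contra hcon
        push Not at hcon
        exact hd (Finsupp.ext hcon)
      have hmem : i ∈ d.support := Finsupp.mem_support_iff.2 hi
      rw [Finsupp.prod, ← Finset.mul_prod_erase _ _ hmem]
      refine Ideal.mul_mem_right _ _ ?_
      obtain ⟨k, hk⟩ := Nat.exists_eq_succ_of_ne_zero hi
      rw [hk, pow_succ]
      exact Ideal.mul_mem_left _ _ (hr i)
  exact h4

/-- The gradient of `Lam_x` at `δ = 0`. -/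
noncomputable def grad {a : Fin m → OO L} {ρ : ℝ} (D : Dt p h m a ρ) (S : SharpData p K L)
    (x : FPt p (h + m) (Gam (h + m) : ℕ → OO K)) (j : Fin m) : OO L :=
  coeff (Finsupp.single j 1) (Lam D S x)

end Vale.Agent.P217
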