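import Vale.Agent.P217.FELClosure

/-!
# P217, module FIN: the functional equation lemma
-/

namespace Vale.Agent.P217

open MvPowerSeries

namespace FinAux

variable {R : Type*} [CommRing R] {τ : Type*}

/-- all coefficients of degree `< d` vanish -/
def VB (d : ℕ) (u : MvPowerSeries τ R) : Prop := ∀ m : τ →₀ ℕ, m.degree < d → coeff m u = 0

theorem VB.zero (d : ℕ) : VB d (0 : MvPowerSeries τ R) := fun m _ => map_zero (coeff m)

theorem VB.mono {d e : ℕ} {u : MvPowerSeries τ R} (h : VB d u) (he : e ≤ d) : VB e u :=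
  fun m hm => h m (lt_of_lt_of_le hm he)

theorem VB.add {d : ℕ} {u w : MvPowerSeries τ R} (h : VB d u) (h' : VB d w) : VB d (u + w) :=
  fun m hm => by rw [map_add, h m hm, h' m hm, add_zero]

theorem VB.sum {d : ℕ} {ι : Type*} (s : Finset ι) (u : ι → MvPowerSeries τ R)
    (h : ∀ i ∈ s, VB d (u i)) : VB d (∑ i ∈ s, u i) := by
  intro m hm
  rw [map_sum]
  exact Finset.sum_eq_zero fun i hi => h i hi m hm

theorem VB.mul_right {d : ℕ} {u : MvPowerSeries τ R} (h : VB d u) (w : MvPowerSeries τ R) :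
    VB d (u * w) := by
  classical
  intro m hm
  rw [coeff_mul]
  refine Finset.sum_eq_zero fun x hx => ?_
  rw [Finset.HasAntidiagonal.mem_antidiagonal] at hx
  have h1 : x.1.degree + x.2.degree = m.degree := by rw [← map_add, hx]
  rw [h x.1 (by omega), zero_mul]

theorem VB.mul_left {d : ℕ} {u : MvPowerSeries τ R} (h : VB d u) (w : MvPowerSeries τ R) :
    VB d (w * u) := by
  rw [mul_comm]
  exact h.mul_right w

theorem VB.mul_succ {d : ℕ} {u w : MvPowerSeries τ R} (h : VB d u) (hw : constantCoeff w = 0) :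
    VB (d + 1) (u * w) := by
  classical
  intro m hm
  rw [coeff_mul]
  refine Finset.sum_eq_zero fun x hx => ?_
  rw [Finset.HasAntidiagonal.mem_antidiagonal] at hx
  have h1 : x.1.degree + x.2.degree = m.degree := by rw [← map_add, hx]
  by_cases h2 : x.1.degree < d
  · rw [h x.1 h2, zero_mul]
  · have h3 : x.2 = 0 := (Finsupp.degree_eq_zero_iff x.2).1 (by omega)
    rw [h3, coeff_zero_eq_constantCoeff_apply, hw, mul_zero]

theorem VB.map {S : Type*} [CommRing S] (φ : R →+* S) {d : ℕ} {u : MvPowerSeries τ R}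
    (h : VB d u) : VB d (MvPowerSeries.map φ u) := by
  intro m hm
  rw [coeff_map, h m hm, map_zero]

theorem VB.expand (q : ℕ) (hq : q ≠ 0) (hq2 : 2 ≤ q) {d : ℕ} (hd : 1 ≤ d)
    {u : MvPowerSeries τ R} (h : VB d u) : VB (d + 1) (MvPowerSeries.expand q hq u) := by
  intro m hm
  by_cases hdiv : ∀ i, q ∣ m i
  · have h1 : ∃ m' : τ →₀ ℕ, m = q • m' := by
      refine ⟨m.mapRange (fun k => k / q) (Nat.zero_div q), ?_⟩
      ext i
      rw [Finsupp.smul_apply, Finsupp.mapRange_apply, smul_eq_mul, Nat.mul_div_cancel' (hdiv i)]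
    obtain ⟨m', rfl⟩ := h1
    rw [coeff_expand_smul]
    apply h
    have h2 : (q • m').degree = q * m'.degree := by
      rw [map_nsmul, smul_eq_mul]
    rw [h2] at hm
    by_contra h3
    have h4 : 2 * m'.degree ≤ q * m'.degree := Nat.mul_le_mul_right _ hq2
    omega
  · push Not at hdiv
    obtain ⟨i, hi⟩ := hdiv
    exact coeff_expand_of_not_dvd q hq u hi

theorem vb_pow_sub {d : ℕ} {a b : MvPowerSeries τ R} (h : VB d (a - b)) (k : ℕ) :
    VB d (a ^ k - b ^ k) := by
  induction k with
  | zero => rw [pow_zero, pow_zero, sub_self]; exact VB.zero d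
  | succ k ih =>
    have e : a ^ (k + 1) - b ^ (k + 1) = (a ^ k - b ^ k) * a + (a - b) * b ^ k := by ring
    rw [e]
    exact (ih.mul_right _).add (h.mul_right _)

theorem vb_pow_sub' {d : ℕ} {a b : MvPowerSeries τ R} (ha : constantCoeff a = 0)
    (hb : constantCoeff b = 0) (h : VB d (a - b)) (k : ℕ) (hk : 2 ≤ k) :
    VB (d + 1) (a ^ k - b ^ k) := by
  obtain ⟨k, rfl⟩ : ∃ j, k = j + 1 := ⟨k - 1, by omega⟩
  have e : a ^ (k + 1) - b ^ (k + 1) = (a ^ k - b ^ k) * a + (a - b) * b ^ k := by ring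
  rw [e]
  refine ((vb_pow_sub h k).mul_succ ha).add (h.mul_succ ?_)
  rw [map_pow, hb, zero_pow (by omega)]

/-- the first difference of substitutions -/
theorem coeff_subst_sub (f : PowerSeries R) {d : ℕ} {a b : MvPowerSeries τ R}
    (ha : constantCoeff a = 0) (hb : constantCoeff b = 0) (h : VB d (a - b)) (m : τ →₀ ℕ)
    (hm : m.degree < d + 1) :
    coeff m (f.subst a - f.subst b) = PowerSeries.coeff 1 f * coeff m (a - b) := by
  have hsa := PowerSeries.HasSubst.of_constantCoeff_zero ha
  have hsb := PowerSeries.HasSubst.of_constantCoeff_zero hb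
  rw [map_sub, PowerSeries.coeff_subst hsa, PowerSeries.coeff_subst hsb,
    ← finsum_sub_distrib (PowerSeries.coeff_subst_finite hsa f m)
      (PowerSeries.coeff_subst_finite hsb f m), finsum_eq_single _ 1]
  · rw [pow_one, pow_one, smul_eq_mul, smul_eq_mul, ← mul_sub, map_sub]
  · intro k hk
    rw [smul_eq_mul, smul_eq_mul, ← mul_sub, ← map_sub]
    rcases Nat.lt_or_ge k 1 with h0 | h1
    · have : k = 0 := by omega
      subst this
      rw [pow_zero, pow_zero, sub_self, map_zero, mul_zero]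
    · rw [vb_pow_sub' ha hb h k (by omega) m hm, mul_zero]

theorem vb_subst_sub (f : PowerSeries R) {d : ℕ} {a b : MvPowerSeries τ R}
    (ha : constantCoeff a = 0) (hb : constantCoeff b = 0) (h : VB d (a - b)) :
    VB d (f.subst a - f.subst b) := by
  intro m hm
  rw [coeff_subst_sub f ha hb h m (by omega), h m hm, mul_zero]

end FinAux

open FinAux

namespace FELData

variable {p n : ℕ} [Fact p.Prime] {A K : Type*} [CommRing A] [CommRing K] [Algebra ℚ K]
variable (D : FELData p n A K) {τ : Type*}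

theorem op_sub (G H : MvPowerSeries τ K) : D.op (G - H) = D.op G - D.op H := by
  unfold op
  rw [← Finset.sum_sub_distrib]
  refine Finset.sum_congr rfl fun j _ => ?_
  rw [map_sub, map_sub, mul_sub]

theorem vb_op {d : ℕ} (hd : 1 ≤ d) {G : MvPowerSeries τ K} (h : VB d G) : VB (d + 1) (D.op G) := by
  unfold op
  refine VB.sum _ _ fun j hj => ?_
  rw [Finset.mem_Icc] at hj
  refine VB.mul_left ?_ _
  refine VB.expand (p ^ j) _ ?_ hd (h.map _)
  have hp : 2 ≤ p := (Fact.out : p.Prime).two_le
  calc 2 ≤ p := hp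
    _ = p ^ 1 := (pow_one p).symm
    _ ≤ p ^ j := Nat.pow_le_pow_right (by omega) hj.1

theorem integral (H : MvPowerSeries τ K) (hH : constantCoeff H = 0)
    (h : ∃ γ : MvPowerSeries τ A, H - D.op H = map D.ι γ) :
    ∃ α : MvPowerSeries τ A, constantCoeff α = 0 ∧ D.f.subst (map D.ι α) = H := by
  classical
  obtain ⟨a, ha, hfa⟩ := logOf_surj p n (fun j => D.ι (D.v j)) H hH
  have hfa' : D.f.subst a = H := hfa
  have hf1 : PowerSeries.coeff 1 D.f = 1 := logOf_coeff_one p n _
  obtain ⟨γ, hγ⟩ := h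
  have claim : ∀ (d : ℕ) (m : τ →₀ ℕ), m.degree = d → ∃ c, D.ι c = coeff m a := by
    intro d
    induction d using Nat.strong_induction_on with
    | _ d ih =>
    intro m hm
    rcases Nat.eq_zero_or_pos d with hd | hd
    · have hm0 : m = 0 := (Finsupp.degree_eq_zero_iff m).1 (by omega)
      refine ⟨0, ?_⟩
      rw [hm0, coeff_zero_eq_constantCoeff_apply, ha, map_zero]
    · have hch : ∀ m' : τ →₀ ℕ, ∃ c : A, (m'.degree < d → D.ι c = coeff m' a) ∧
          (d ≤ m'.degree → c = 0) := by
        intro m'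
        by_cases h1 : m'.degree < d
        · obtain ⟨c, hc⟩ := ih _ h1 m' rfl
          exact ⟨c, fun _ => hc, fun h2 => absurd h2 (by omega)⟩
        · exact ⟨0, fun h2 => absurd h2 h1, fun _ => rfl⟩
      choose α' hα1 hα2 using hch
      let α : MvPowerSeries τ A := α'
      have hcα : ∀ m', coeff m' α = α' m' := fun m' => rfl
      have hα0 : constantCoeff α = 0 := by
        rw [← coeff_zero_eq_constantCoeff_apply, hcα]
        apply D.inj
        rw [hα1 0 (by rw [map_zero]; omega), coeff_zero_eq_constantCoeff_apply, ha, map_zero]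
      have hb0 : constantCoeff (map D.ι α) = 0 := by
        rw [constantCoeff_map, hα0, map_zero]
      have hvb : VB d (a - map D.ι α) := by
        intro m' hm'
        rw [map_sub, coeff_map, hcα, hα1 m' hm', sub_self]
      obtain ⟨δ, hδ⟩ := D.closure α hα0
      have hG := vb_subst_sub D.f ha hb0 hvb
      have hopG := D.vb_op hd hG
      have h1 := coeff_subst_sub D.f ha hb0 hvb m (by omega)
      have h2 := hopG m (by omega)
      rw [hf1, one_mul, map_sub (coeff m) a, coeff_map, hcα, hα2 m (by omega), map_zero,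
        sub_zero] at h1
      refine ⟨coeff m γ - coeff m δ, ?_⟩
      rw [map_sub, ← coeff_map, ← coeff_map, ← hγ, ← hδ, ← h1, ← hfa']
      have h3 : coeff m (D.op (D.f.subst a)) - coeff m (D.op (D.f.subst (map D.ι α))) = 0 := by
        rw [← map_sub, ← D.op_sub, h2]
      rw [map_sub, map_sub, map_sub]
      linear_combination -h3
  choose c hc using fun m : τ →₀ ℕ => claim _ m rfl
  let α : MvPowerSeries τ A := c
  have hα : map D.ι α = a := by
    ext m
    rw [coeff_map]
    exact hc m
  refine ⟨α, ?_, ?_⟩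
  · apply D.inj
    rw [map_zero, ← constantCoeff_map, hα, ha]
  · rw [hα]
    exact hfa'

theorem congr_conv (α β : MvPowerSeries τ A) (hα : constantCoeff α = 0)
    (hβ : constantCoeff β = 0) (r : ℕ)
    (h : ∃ γ : MvPowerSeries τ A,
      D.f.subst (map D.ι α) = D.f.subst (map D.ι β) + C ((p : K) ^ r) * map D.ι γ) :
    ∃ γ, α = β + C ((p : A) ^ r) * γ := by
  classical
  rcases Nat.eq_zero_or_pos r with hr | hr
  · subst hr
    refine ⟨α - β, ?_⟩
    rw [pow_zero, map_one, one_mul, add_sub_cancel]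
  obtain ⟨γ, hγ⟩ := h
  have hf1 : PowerSeries.coeff 1 D.f = 1 := logOf_coeff_one p n _
  have claim : ∀ (d : ℕ) (m : τ →₀ ℕ), m.degree = d →
      ∃ c, coeff m (α - β) = (p : A) ^ r * c := by
    intro d
    induction d using Nat.strong_induction_on with
    | _ d ih =>
    intro m hm
    have hch : ∀ m' : τ →₀ ℕ, ∃ c : A, (m'.degree < d → coeff m' (α - β) = (p : A) ^ r * c) ∧
        (d ≤ m'.degree → c = 0) := by
      intro m'
      by_cases h1 : m'.degree < d
      · obtain ⟨c, hc⟩ := ih _ h1 m' rfl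
        exact ⟨c, fun _ => hc, fun h2 => absurd h2 (by omega)⟩
      · exact ⟨0, fun h2 => absurd h2 h1, fun _ => rfl⟩
    choose δ' hδ1 hδ2 using hch
    let δ : MvPowerSeries τ A := δ'
    have hcδ : ∀ m', coeff m' δ = δ' m' := fun m' => rfl
    set β' : MvPowerSeries τ A := β + C ((p : A) ^ r) * δ with hβ'
    have hδco : ∀ m', coeff m' (C ((p : A) ^ r) * δ) = (p : A) ^ r * δ' m' := by
      intro m'
      rw [coeff_C_mul, hcδ]
    have hβ0 : constantCoeff β' = 0 := by
      rw [hβ', map_add, hβ, zero_add, ← coeff_zero_eq_constantCoeff_apply, hδco]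
      rcases Nat.eq_zero_or_pos d with hd | hd
      · rw [hδ2 0 (by omega), mul_zero]
      · rw [← hδ1 0 (by rw [map_zero]; omega), map_sub, coeff_zero_eq_constantCoeff_apply,
          coeff_zero_eq_constantCoeff_apply, hα, hβ, sub_zero]
    have hvb : VB d (map D.ι α - map D.ι β') := by
      intro m' hm'
      rw [← map_sub (map D.ι), coeff_map, hβ', sub_add_eq_sub_sub, map_sub (coeff m'), hδco,
        hδ1 m' hm', sub_self, map_zero]
    have ha0 : constantCoeff (map D.ι α) = 0 := by rw [constantCoeff_map, hα, map_zero]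
    have hb0 : constantCoeff (map D.ι β') = 0 := by rw [constantCoeff_map, hβ0, map_zero]
    have h1 := coeff_subst_sub D.f ha0 hb0 hvb m (by omega)
    obtain ⟨ε, hε⟩ := D.congr_mod β' β hβ0 hβ r hr ⟨δ, hβ'⟩
    rw [hf1, one_mul, ← map_sub (map D.ι), coeff_map] at h1
    have h2 : coeff m (α - β') = coeff m (α - β) := by
      rw [hβ', sub_add_eq_sub_sub, map_sub (coeff m), hδco, hδ2 m (by omega), mul_zero, sub_zero]
    rw [h2, hγ, hε] at h1
    refine ⟨coeff m γ - coeff m ε, ?_⟩
    apply D.inj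
    have e : ∀ x : A, D.ι ((p : A) ^ r * x) = (p : K) ^ r * D.ι x := by
      intro x
      rw [map_mul, map_pow, map_natCast]
    rw [← h1, e, map_sub D.ι, add_sub_add_left_eq_sub, ← mul_sub, ← map_sub (map D.ι),
      coeff_C_mul, coeff_map, map_sub (coeff m), map_sub D.ι]
  choose c hc using fun m : τ →₀ ℕ => claim _ m rfl
  let γ' : MvPowerSeries τ A := c
  refine ⟨γ', ?_⟩
  ext m
  have h1 := hc m
  rw [map_sub] at h1
  rw [map_add, coeff_C_mul]
  have h2 : coeff m γ' = c m := rfl
  rw [h2, ← h1]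
  ring

end FELData

end Vale.Agent.P217
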