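import Vale.Agent.P217.LTAut
import Vale.Agent.P217.FELInt

/-!
# P217, module LTB: automorphisms `1 + p^M η` (helper95)
-/

namespace Vale.Agent.P217

open MvPowerSeries

section ltb

universe u

variable {R : Type u} [CommRing R] {p n : ℕ} [Fact p.Prime] {v w : ℕ → R} {τ : Type*}

omit [Fact p.Prime] in
theorem ltb_subst_pair {g h : PowerSeries R} (hg : PowerSeries.constantCoeff g = 0)
    (hh : PowerSeries.constantCoeff h = 0) (a : MvPowerSeries τ R) (ha : constantCoeff a = 0) :
    PowerSeries.subst a ((Fv p n w).subst ![g, h] : PowerSeries R) =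
      (Fv p n w).subst ![g.subst a, h.subst a] :=
  US1.comp2 (Fv p n w) (a := g) (b := h) hg hh (spt_hs1 ha)

/-- the sum of two homomorphisms -/
theorem ltb_add_hom {g h : PowerSeries R} (hg : IsHomS p n v w g) (hh : IsHomS p n v w h) :
    IsHomS p n v w ((Fv p n w).subst ![g, h]) := by
  have hF : constantCoeff (Fv p n v) = 0 := Fv_constantCoeff p n v
  have hX : ∀ i : Fin 2, constantCoeff (X i : MvPowerSeries (Fin 2) R) = 0 := fun i =>
    constantCoeff_X i
  refine ⟨US1.cc (Fv_constantCoeff p n w) hg.1 hh.1, ?_⟩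
  rw [ltb_subst_pair hg.1 hh.1 _ hF, ltb_subst_pair hg.1 hh.1 _ (hX 0),
    ltb_subst_pair hg.1 hh.1 _ (hX 1)]
  have h1 : SPt.hom g hg (SPt.X p n v (0 : Fin 2) + SPt.X p n v (1 : Fin 2)) +
      SPt.hom h hh (SPt.X p n v (0 : Fin 2) + SPt.X p n v (1 : Fin 2)) =
      (SPt.hom g hg (SPt.X p n v (0 : Fin 2)) + SPt.hom h hh (SPt.X p n v (0 : Fin 2))) +
      (SPt.hom g hg (SPt.X p n v (1 : Fin 2)) + SPt.hom h hh (SPt.X p n v (1 : Fin 2))) := by
    rw [map_add, map_add, add_add_add_comm]
  have h2 := congrArg Subtype.val h1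
  have h3 : (SPt.hom g hg (SPt.X p n v (0 : Fin 2) + SPt.X p n v (1 : Fin 2))).1 =
      g.subst (Fv p n v) := by
    show g.subst (SPt.X p n v (0 : Fin 2) + SPt.X p n v (1 : Fin 2)).1 = _
    rw [SPt.X_add_X]
  have h4 : (SPt.hom h hh (SPt.X p n v (0 : Fin 2) + SPt.X p n v (1 : Fin 2))).1 =
      h.subst (Fv p n v) := by
    show h.subst (SPt.X p n v (0 : Fin 2) + SPt.X p n v (1 : Fin 2)).1 = _
    rw [SPt.X_add_X]
  rw [SPt.add_val, h3, h4] at h2
  exact h2

theorem ltb_hom_congr {v' w' : ℕ → R} (hv : ∀ j, 1 ≤ j → j ≤ n → v j = v' j)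
    (hw : ∀ j, 1 ≤ j → j ≤ n → w j = w' j) {g : PowerSeries R} (hg : IsHomS p n v w g) :
    IsHomS p n v' w' g := by
  unfold IsHomS at hg ⊢
  rw [Fv_congr p n v v' hv, Fv_congr p n w w' hw] at hg
  exact hg

theorem ltb_coeff_one_add {a b : PowerSeries R} (ha : PowerSeries.constantCoeff a = 0)
    (hb : PowerSeries.constantCoeff b = 0) :
    PowerSeries.coeff 1 ((Fv p n v).subst ![a, b] : PowerSeries R) =
      PowerSeries.coeff 1 a + PowerSeries.coeff 1 b := by
  have h1 : ((Fv p n v).subst ![a, b] : PowerSeries R) =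
      a + b + a * b * (subst ![a, b] (GF p n v) : PowerSeries R) :=
    subst_Fv_eq (p := p) (n := n) (v := v) (a := a) (b := b) ha hb
  have h2 : ∀ G : PowerSeries R, PowerSeries.coeff 1 (a * b * G) = 0 := by
    intro G
    obtain ⟨a', ha'⟩ := PowerSeries.X_dvd_iff.2 ha
    have e : a * b * G = PowerSeries.X * (b * (a' * G)) := by
      rw [ha']
      ring
    rw [e, show (1 : ℕ) = 0 + 1 from rfl, PowerSeries.coeff_succ_X_mul,
      PowerSeries.coeff_zero_eq_constantCoeff_apply, map_mul, hb, zero_mul]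
  rw [h1, map_add, map_add, h2, add_zero]

theorem ltb_coeff_one_subst (f a : PowerSeries R) (hf : PowerSeries.constantCoeff f = 0)
    (ha : PowerSeries.constantCoeff a = 0) :
    PowerSeries.coeff 1 (f.subst a) = PowerSeries.coeff 1 f * PowerSeries.coeff 1 a := by
  have ha' : MvPowerSeries.constantCoeff a = 0 := ha
  have h := FinAux.coeff_subst_sub f (d := 1) (a := (a : MvPowerSeries Unit R)) (b := 0) ha'
    (map_zero _) (by
      intro m hm
      have : m = 0 := (Finsupp.degree_eq_zero_iff m).1 (by omega)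
      rw [this, sub_zero, coeff_zero_eq_constantCoeff_apply, ha'])
    (Finsupp.single () 1) (by rw [Finsupp.degree_single]; omega)
  rw [PowerSeries.subst_zero_of_constantCoeff_zero hf, sub_zero, sub_zero] at h
  exact h

/-- multiplication by `p` improves the ideal -/
theorem ltb_CI_p_smul {I N : Ideal R} (hp : (p : R) ∈ N) (hle : I ≤ N) (a : SPt p n v τ)
    (ha : CI I a.1) : CI (I * N) (p • a).1 := by
  set q : R →+* R ⧸ (I * N) := Ideal.Quotient.mk (I * N) with hq
  have hIq : ∀ x ∈ I.map q, ∀ y ∈ N.map q, x * y = 0 := by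
    intro x hx y hy
    have h1 : x * y ∈ I.map q * N.map q := Ideal.mul_mem_mul hx hy
    rw [← Ideal.map_mul, hq, Ideal.map_quotient_self] at h1
    exact h1
  have hle' : I.map q ≤ N.map q := Ideal.map_mono hle
  have h1 : p • (SPt.bc q a) = 0 := by
    refine SPt.p_smul_of_CI (I := I.map q) (fun x hx y hy => hIq x hx y (hle' hy)) ?_ _ ?_
    · intro x hx
      refine hIq x hx _ ?_
      have := Ideal.mem_map_of_mem q hp
      rwa [map_natCast] at this
    · exact ltu_CI_map q ha
  rw [← map_nsmul] at h1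
  rw [CI_iff_map]
  exact congrArg Subtype.val h1

theorem ltb_CI_pow_smul {N : Ideal R} (hp : (p : R) ∈ N) (a : SPt p n v τ) (ha : CI N a.1)
    (M : ℕ) : CI (N ^ (M + 1)) (p ^ M • a).1 := by
  induction M with
  | zero =>
    rw [pow_zero, one_smul, zero_add, pow_one]
    exact ha
  | succ M ih =>
    have h1 := ltb_CI_p_smul hp (Ideal.pow_le_self (by omega : M + 1 ≠ 0)) _ ih
    rw [smul_smul, ← pow_succ', ← pow_succ] at h1
    exact h1

/-- substitution into the point `X + p^M E` -/
theorem ltb_subst_point (E : PowerSeries R) (hE : MvPowerSeries.constantCoeff E = 0) (m : ℕ)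
    (a : MvPowerSeries τ R) (ha : constantCoeff a = 0) :
    PowerSeries.subst a ((SPt.X p n v () + m • SPt.mk p n v (E : MvPowerSeries Unit R) hE).1 :
      PowerSeries R) =
    (SPt.mk p n v a ha + m • SPt.mk p n v (PowerSeries.subst a E)
      (SPt.hom_aux hE a ha)).1 := by
  have hs : ∀ i : Unit, constantCoeff ((fun _ : Unit => a) i) = 0 := fun _ => ha
  have h1 : SPt.sbst (p := p) (n := n) (v := v) (fun _ : Unit => a) hs (SPt.X p n v () +
      m • SPt.mk p n v (E : MvPowerSeries Unit R) hE) =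
      SPt.mk p n v a ha + m • SPt.mk p n v (PowerSeries.subst a E) (SPt.hom_aux hE a ha) := by
    rw [map_add, map_nsmul]
    congr 1
    apply Subtype.ext
    exact subst_X (spt_hs1 ha) ()
  exact congrArg Subtype.val h1

end ltb

variable {p n : ℕ} [Fact p.Prime] {k : Type*} [Field k] [CharP k p] [PerfectRing k p]

/-- LTB: automorphisms `1 + p^M η` move the point only a little. (Over `E_0/m^(M+1)` the series
`X +_F [p^M]_F (η~(X))`, `η~` any lift of `η`, is an endomorphism of `F_u` lifting `1 + p^M η`;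
compare with `lubinTate_exists` by `lt_unique_pow`.) -/
theorem lubinTate_small (hn : 1 ≤ n) (η : PowerSeries k)
    (hη : IsHomS p n (Gam n) (Gam n) η) (M : ℕ) (hM : 1 ≤ M) :
    ∃ (θ : E0 p n k ≃+* E0 p n k) (g : PowerSeries (E0 p n k)),
      (∀ w : WittVector p k, θ (C w) = C w) ∧
      IsHomS p n (uPar p n k) (fun j => θ (uPar p n k j)) g ∧
      IsUnit (PowerSeries.coeff 1 g) ∧
      g.map (resE p n k) = (Fv p n (Gam n : ℕ → k)).subst
        ![(PowerSeries.X : PowerSeries k), (mulS p n (Gam n : ℕ → k) (p ^ M)).subst η] ∧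
      ∀ i, θ (X i) - X i ∈ mE p n k ^ (M + 1) := by
  classical
  obtain ⟨u, hu⟩ : ∃ u, u = uPar p n k := ⟨_, rfl⟩
  obtain ⟨γ, hγdef⟩ : ∃ γ : PowerSeries k, γ = (Fv p n (Gam n : ℕ → k)).subst
        ![(PowerSeries.X : PowerSeries k), (mulS p n (Gam n : ℕ → k) (p ^ M)).subst η] := ⟨_, rfl⟩
  have hmη : IsHomS p n (Gam n : ℕ → k) (Gam n) ((mulS p n (Gam n : ℕ → k) (p ^ M)).subst η) :=
    IsHomS.comp hη (mulS_isHomS (p ^ M))
  have hγ : IsHomS p n (Gam n) (Gam n) γ := by
    rw [hγdef]
    exact ltb_add_hom isHomS_X hmη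
  have hγ1 : PowerSeries.coeff 1 γ = 1 := by
    rw [hγdef, ltb_coeff_one_add PowerSeries.constantCoeff_X hmη.1,
      ltb_coeff_one_subst _ _ (US1.mulS_cc _ _) hη.1, mulS_coeff_one, PowerSeries.coeff_one_X,
      Nat.cast_pow, CharP.cast_eq_zero, zero_pow (by omega), zero_mul, add_zero]
  obtain ⟨θ, g, hθC, hg, hgres⟩ := lubinTate_exists hn γ hγ (by rw [hγ1]; exact one_ne_zero)
  rw [← hu] at hg
  have hker : ∀ x, x ∈ mE p n k ↔ resE p n k x = 0 := fun x => Iff.rfl
  -- residues
  have hres : ∀ j, 1 ≤ j → j ≤ n → resE p n k (u j) = (Gam n : ℕ → k) j := by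
    intro j h1 h2
    rw [hu]
    rcases Nat.lt_or_ge j n with h | h
    · rw [(hker _).1 (uPar_mem_mE j h1 h)]
      unfold Gam
      rw [if_neg (by omega)]
    · have hj : j = n := by omega
      rw [hj, uPar_top hn, map_one]
      unfold Gam
      rw [if_pos rfl]
  have hunit : ∀ f : PowerSeries (E0 p n k), f.map (resE p n k) = γ →
      IsUnit (PowerSeries.coeff 1 f) := by
    intro f hf
    rw [isUnit_iff_resE]
    have h1 := congrArg (PowerSeries.coeff 1) hf
    rw [PowerSeries.coeff_map, hγ1] at h1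
    rw [h1]
    exact one_ne_zero
  refine ⟨θ, g, hθC, by rw [← hu]; exact hg, hunit g hgres, by rw [hgres, hγdef], ?_⟩
  -- the lift of `η`
  obtain ⟨E, hE, hEres⟩ : ∃ E : PowerSeries (E0 p n k), MvPowerSeries.constantCoeff E = 0 ∧
      E.map (resE p n k) = η := by
    choose c hc using (resE_surjective : Function.Surjective (resE p n k))
    refine ⟨PowerSeries.mk fun d => if d = 0 then 0 else c (PowerSeries.coeff d η), ?_, ?_⟩
    · have : PowerSeries.constantCoeff (PowerSeries.mk fun d => if d = 0 then (0 : E0 p n k) else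
          c (PowerSeries.coeff d η)) = 0 := by
        rw [← PowerSeries.coeff_zero_eq_constantCoeff_apply, PowerSeries.coeff_mk, if_pos rfl]
      exact this
    · refine PowerSeries.ext fun d => ?_
      rw [PowerSeries.coeff_map, PowerSeries.coeff_mk]
      split_ifs with h
      · rw [h, map_zero, PowerSeries.coeff_zero_eq_constantCoeff_apply]
        exact hη.1.symm
      · exact hc _
  obtain ⟨P, hP⟩ : ∃ P : SPt p n u Unit, P = SPt.X p n u () +
      (p ^ M) • SPt.mk p n u (E : MvPowerSeries Unit _) hE := ⟨_, rfl⟩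
  obtain ⟨ψ, hψ⟩ : ∃ ψ : PowerSeries (E0 p n k), ψ = P.1 := ⟨_, rfl⟩
  have hψ0 : PowerSeries.constantCoeff ψ = 0 := by
    rw [hψ]
    exact P.2
  have hF : constantCoeff (Fv p n u) = 0 := Fv_constantCoeff p n u
  have hX : ∀ i : Fin 2, constantCoeff (X i : MvPowerSeries (Fin 2) (E0 p n k)) = 0 := fun i =>
    constantCoeff_X i
  -- the residue of `ψ`
  have hψres : ψ.map (resE p n k) = γ := by
    have h1 : SPt.bc (resE p n k) P = SPt.X p n (fun j => resE p n k (u j)) () +
        (p ^ M) • SPt.mk p n (fun j => resE p n k (u j)) (η : MvPowerSeries Unit _) hη.1 := by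
      rw [hP, map_add, map_nsmul]
      congr 1
      · exact Subtype.ext (MvPowerSeries.map_X (resE p n k) ())
      · congr 1
        exact Subtype.ext hEres
    have h2 := congrArg Subtype.val h1
    rw [SPt.add_val, SPt.nsmul_val, Fv_congr p n _ _ hres, ltu_mulS_congr hres] at h2
    rw [hψ, hγdef]
    exact h2
  -- the defect
  have hδ : CI (mE p n k) (SPt.mk p n u (PowerSeries.subst (Fv p n u) E) (SPt.hom_aux hE _ hF) -
      SPt.mk p n u (PowerSeries.subst (X 0 : MvPowerSeries (Fin 2) _) E)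
        (SPt.hom_aux hE _ (hX 0)) -
      SPt.mk p n u (PowerSeries.subst (X 1 : MvPowerSeries (Fin 2) _) E)
        (SPt.hom_aux hE _ (hX 1))).1 := by
    have hη' : IsHomS p n (fun j => resE p n k (u j)) (fun j => resE p n k (u j)) η :=
      ltb_hom_congr (fun j h1 h2 => (hres j h1 h2).symm) (fun j h1 h2 => (hres j h1 h2).symm) hη
    have hsub : ∀ (a : MvPowerSeries (Fin 2) (E0 p n k)) (ha : constantCoeff a = 0),
        (PowerSeries.subst a E).map (resE p n k) = η.subst (a.map (resE p n k)) := by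
      intro a ha
      have := PowerSeries.map_subst (PowerSeries.HasSubst.of_constantCoeff_zero ha)
        (h := resE p n k) E
      rw [hEres] at this
      exact this
    have h1 : SPt.bc (resE p n k) (SPt.mk p n u (PowerSeries.subst (Fv p n u) E)
        (SPt.hom_aux hE _ hF) -
      SPt.mk p n u (PowerSeries.subst (X 0 : MvPowerSeries (Fin 2) _) E)
        (SPt.hom_aux hE _ (hX 0)) -
      SPt.mk p n u (PowerSeries.subst (X 1 : MvPowerSeries (Fin 2) _) E)
        (SPt.hom_aux hE _ (hX 1))) = 0 := by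
      rw [map_sub, map_sub, sub_sub, sub_eq_zero]
      have e0 : SPt.bc (resE p n k) (SPt.mk p n u
          (PowerSeries.subst (X 0 : MvPowerSeries (Fin 2) _) E) (SPt.hom_aux hE _ (hX 0))) =
          SPt.hom η hη' (SPt.X p n (fun j => resE p n k (u j)) 0) :=
        Subtype.ext ((hsub _ (hX 0)).trans (by rw [MvPowerSeries.map_X]; rfl))
      have e1 : SPt.bc (resE p n k) (SPt.mk p n u
          (PowerSeries.subst (X 1 : MvPowerSeries (Fin 2) _) E) (SPt.hom_aux hE _ (hX 1))) =
          SPt.hom η hη' (SPt.X p n (fun j => resE p n k (u j)) 1) :=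
        Subtype.ext ((hsub _ (hX 1)).trans (by rw [MvPowerSeries.map_X]; rfl))
      rw [e0, e1, ← map_add]
      apply Subtype.ext
      refine (hsub _ hF).trans ?_
      rw [Fv_map, ← SPt.X_add_X]
      rfl
    intro d
    have h2 := congrArg (fun a => coeff d a.1) h1
    exact h2
  have hψdef : CI (mE p n k ^ (M + 1)) (ψ.subst (Fv p n u) - (Fv p n u).subst
      ![ψ.subst (X 0 : MvPowerSeries (Fin 2) (E0 p n k)),
        ψ.subst (X 1 : MvPowerSeries (Fin 2) (E0 p n k))]) := by
    have h1 := ltb_CI_pow_smul (p_mem_mE (p := p) (n := n) (k := k)) _ hδ M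
    have hA := ltb_subst_point (p := p) (n := n) (v := u) E hE (p ^ M) (Fv p n u) hF
    have hB := ltb_subst_point (p := p) (n := n) (v := u) E hE (p ^ M)
      (X 0 : MvPowerSeries (Fin 2) (E0 p n k)) (hX 0)
    have hC := ltb_subst_point (p := p) (n := n) (v := u) E hE (p ^ M)
      (X 1 : MvPowerSeries (Fin 2) (E0 p n k)) (hX 1)
    rw [← hP, ← hψ] at hA hB hC
    rw [hA, hB, hC]
    refine (SPt.CI_sub_iff (_ : SPt p n u (Fin 2)) (_ + _ : SPt p n u (Fin 2))).1 ?_
    have h2 : SPt.mk p n u (Fv p n u) hF + (p ^ M) • SPt.mk p n u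
          (PowerSeries.subst (Fv p n u) E) (SPt.hom_aux hE _ hF) -
        ((SPt.mk p n u (X 0) (hX 0) + (p ^ M) • SPt.mk p n u
          (PowerSeries.subst (X 0 : MvPowerSeries (Fin 2) _) E) (SPt.hom_aux hE _ (hX 0))) +
        (SPt.mk p n u (X 1) (hX 1) + (p ^ M) • SPt.mk p n u
          (PowerSeries.subst (X 1 : MvPowerSeries (Fin 2) _) E) (SPt.hom_aux hE _ (hX 1)))) =
        (p ^ M) • (SPt.mk p n u (PowerSeries.subst (Fv p n u) E) (SPt.hom_aux hE _ hF) -
      SPt.mk p n u (PowerSeries.subst (X 0 : MvPowerSeries (Fin 2) _) E)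
        (SPt.hom_aux hE _ (hX 0)) -
      SPt.mk p n u (PowerSeries.subst (X 1 : MvPowerSeries (Fin 2) _) E)
        (SPt.hom_aux hE _ (hX 1))) := by
      have e : SPt.mk p n u (Fv p n u) hF = SPt.mk p n u (X 0) (hX 0) +
          SPt.mk p n u (X 1) (hX 1) := Subtype.ext (SPt.X_add_X (p := p) (n := n) (v := u)).symm
      rw [e, smul_sub, smul_sub]
      abel
    rw [h2]
    exact h1
  -- over the quotient
  set I : Ideal (E0 p n k) := mE p n k ^ (M + 1) with hI
  set q : E0 p n k →+* E0 p n k ⧸ I := Ideal.Quotient.mk I with hq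
  have hNpow : (Ideal.map q (mE p n k)) ^ (M + 1) = ⊥ := by
    rw [← Ideal.map_pow, ← hI, hq, Ideal.map_quotient_self]
  have hpN : ((p : ℕ) : E0 p n k ⧸ I) ∈ Ideal.map q (mE p n k) := by
    have := Ideal.mem_map_of_mem q (p_mem_mE (p := p) (n := n) (k := k))
    rwa [map_natCast] at this
  have hψhom : IsHomS p n (fun j => q (u j)) (fun j => q (u j)) (ψ.map q) := by
    refine ⟨US1.cc_map q hψ0, ?_⟩
    have h1 := (CI_iff_map (I := I)).1 hψdef
    rw [ltv_defect (Ideal.Quotient.mk I) u u ψ hψ0] at h1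
    exact sub_eq_zero.1 h1
  have hψu : IsUnit (PowerSeries.coeff 1 (ψ.map q)) := by
    rw [PowerSeries.coeff_map]
    exact (hunit ψ hψres).map q
  obtain ⟨σ, hσ, _, _, hσr⟩ := hψhom.exists_inv hψu
  have hghom : IsHomS p n (fun j => q (u j)) (fun j => q (θ (u j))) (g.map q) := hg.map q
  have hcomp := hσ.comp hghom
  have hNX : CI (Ideal.map q (mE p n k)) ((g.map q).subst σ - PowerSeries.X) := by
    have hgψ : CI (mE p n k) (g - ψ) := by
      intro d
      have h1 : (g - ψ).map (resE p n k) = 0 := by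
        rw [map_sub, hgres, hψres, sub_self]
      have h2 := congrArg (coeff d) h1
      show resE p n k (coeff d (g - ψ)) = 0
      rw [← MvPowerSeries.coeff_map]
      exact h2
    have h3 : CI (Ideal.map q (mE p n k)) (g.map q - ψ.map q) := by
      have h4 := ltu_CI_map q hgψ
      have h5 : MvPowerSeries.map q (g - ψ) = g.map q - ψ.map q := by
        rw [map_sub]
        rfl
      rw [h5] at h4
      exact h4
    have h6 := CI_subst_sub (g.map q) (ψ.map q) h3 (σ : MvPowerSeries Unit _)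
      (σ : MvPowerSeries Unit _) hσ.1 hσ.1 (by
        intro d
        rw [sub_self, map_zero]
        exact Ideal.zero_mem _)
    rw [hσr] at h6
    exact h6
  have hθm : ∀ x ∈ mE p n k, θ x ∈ mE p n k := by
    intro x hx
    rw [hker]
    by_contra hne
    have h1 : IsUnit (θ x) := (isUnit_iff_resE _).2 hne
    have h2 : IsUnit x := by
      have h3 := h1.map θ.symm
      rwa [RingEquiv.symm_apply_apply] at h3
    exact (isUnit_iff_resE x).1 h2 ((hker x).1 hx)
  have hfin := lt_unique hn (Ideal.map q (mE p n k)) hpN (M + 1) hNpow (v := fun j => q (u j))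
    (w := fun j => q (θ (u j)))
    (fun j h1 h2 => Ideal.mem_map_of_mem q (by rw [hu]; exact uPar_mem_mE j h1 h2))
    (by rw [hu, uPar_top hn, map_one])
    (fun j h1 h2 => Ideal.mem_map_of_mem q (hθm _ (by rw [hu]; exact uPar_mem_mE j h1 h2)))
    (by rw [hu, uPar_top hn, map_one, map_one]) _ hcomp hNX
  intro i
  have hi : uPar p n k (i + 1) = X i := by
    unfold uPar par
    rw [dif_pos (by omega)]
    congr 1
  have h1 := hfin.1 (i + 1) (by omega) (by omega)
  rw [hu, hi] at h1
  exact (Ideal.Quotient.eq).1 h1.symm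

end Vale.Agent.P217
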