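import Vale.Agent.P217.IhtInv
import Vale.Agent.P217.LTSmall
import Vale.Agent.P217.Base

/-!
# P217, part A: assembly, definitions (helper95)

`InvE J`: the ideal `J` of `E_0` is stable under all automorphisms of `E_0` over `W(k)` attached
to automorphisms of `Γ_n`.
`Pt p h m χ`: `χ : E_0 → O_K` is a point of the stratum `V(I_h)` of the ball of radius `r < 1`.
-/

namespace Vale.Agent.P217

open MvPowerSeries Filter Topology

section inv

variable (p n : ℕ) [Fact p.Prime] (k : Type*) [Field k] [CharP k p]

/-- Invariance of an ideal of `E_0` under the Morava stabilizer group. -/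
def InvE (J : Ideal (E0 p n k)) : Prop :=
  ∀ (θ : E0 p n k ≃+* E0 p n k) (g : PowerSeries (E0 p n k)),
    (∀ w : WittVector p k, θ (C w) = C w) →
    IsHomS p n (uPar p n k) (fun j => θ (uPar p n k j)) g →
    IsUnit (PowerSeries.coeff 1 g) → J.map (θ : E0 p n k →+* E0 p n k) = J

end inv

section pts

variable {p h m : ℕ} [Fact p.Prime] {k : Type*} [Field k] [CharP k p]
variable {K : Type*} [NormedField K] [IsUltrametricDist K]

/-- `χ` is a point of the stratum `V(I_h)` over `ι : k → O_K`, in the ball of radius `r`. -/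
structure Pt (ι : k →+* OO K) (h : ℕ) (r : ℝ) (χ : E0 p (h + m) k →+* OO K) : Prop where
  r_nonneg : 0 ≤ r
  r_lt : r < 1
  map_C : ∀ w : WittVector p k, χ (C w) = ι (WittVector.constantCoeff w)
  map_I : ∀ f ∈ Iht p (h + m) k h, χ f = 0
  map_m : ∀ f ∈ mE p (h + m) k, ‖((χ f : OO K) : K)‖ ≤ r

/-- The coordinates of the point `χ`. -/
noncomputable def ptA (h : ℕ) (χ : E0 p (h + m) k →+* OO K) : Fin m → OO K :=
  fun i => χ (uPar p (h + m) k (h + i))

end pts

end Vale.Agent.P217
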