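import Vale.Agent.P217.AsmDefs

/-!
# P217, part A, characteristic zero: definitions (helper95)

`Pt0 ω r χ`: `χ : E_0 → O_C` is a point over `ω : W(k) → O_C`, in the ball of radius `r < 1`.
Its coordinates are `ptA 1 χ` (`n = 1 + m`).
-/

namespace Vale.Agent.P217

open MvPowerSeries Filter Topology

section pts

variable {p m : ℕ} [Fact p.Prime] {k : Type*} [Field k] [CharP k p]
variable {C' : Type*} [NormedField C'] [IsUltrametricDist C']

/-- `χ` is a point over `ω : W(k) → O_C`, in the ball of radius `r`. -/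
structure Pt0 (ω : WittVector p k →+* OO C') (r : ℝ) (χ : E0 p (1 + m) k →+* OO C') : Prop where
  r_nonneg : 0 ≤ r
  r_lt : r < 1
  map_C : ∀ w : WittVector p k, χ (C w) = ω w
  map_m : ∀ f ∈ mE p (1 + m) k, ‖((χ f : OO C') : C')‖ ≤ r

end pts

end Vale.Agent.P217
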