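import Vale.Agent.P217.AsmMain0

/-!
# P217, part A: invariant radical ideals (helper95)
-/

namespace Vale.Agent.P217

open MvPowerSeries Filter Topology

/-- The tilt of `ℂ_p` is nontrivially valued. -/
theorem tilt_nontrivial (p : ℕ) [Fact p.Prime] : ∃ t : TiltC p, t ≠ 0 ∧ ‖t‖ < 1 := by
  let T := tiltDataC p
  let z : ℕ → ℂ_[p] := fun j => Nat.rec (p : ℂ_[p])
    (fun _ w => (IsAlgClosed.exists_pow_nat_eq w (Fact.out : p.Prime).pos).choose) j
  have hz : ∀ j, z (j + 1) ^ p = z j := fun j =>
    (IsAlgClosed.exists_pow_nat_eq (z j) (Fact.out : p.Prime).pos).choose_spec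
  obtain ⟨x, hx⟩ := T.lift z hz
  have h1 : T.sharp x = (p : ℂ_[p]) := hx 0
  refine ⟨x, fun h0 => ?_, ?_⟩
  · rw [h0, map_zero] at h1
    exact (Nat.cast_ne_zero.2 (Fact.out : p.Prime).ne_zero : (p : ℂ_[p]) ≠ 0) h1.symm
  · rw [← T.norm_sharp, h1]
    exact (instFactComplex p).out

variable {p n : ℕ} [Fact p.Prime] {k : Type} [Field k] [CharP k p] [PerfectRing k p]

/-- Theorem A: the radical ideals of `E_0` stable under the Morava stabilizer group. -/
theorem main_radical (hn : 1 ≤ n) (hk : Nat.card k = p ^ n) (J : Ideal (E0 p n k))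
    (hJ : J.IsRadical) (hinv : InvE p n k J) : (∃ h ≤ n, J = Iht p n k h) ∨ J = ⊤ := by
  classical
  let P : ℕ → Prop := fun h => Iht p n k h ≤ J
  have hP0 : P 0 := by
    show Iht p n k 0 ≤ J
    rw [Iht_zero]
    exact bot_le
  set h := Nat.findGreatest P n with hh
  have hhn : h ≤ n := Nat.findGreatest_le n
  have hPh : P h := Nat.findGreatest_spec (P := P) (Nat.zero_le n) hP0
  rcases hhn.lt_or_eq with hlt | heq
  · left
    refine ⟨h, hhn, ?_⟩
    have hu : uSeq p n k h ∉ J := by
      intro hmem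
      have h1 : P (h + 1) := by
        show Iht p n k (h + 1) ≤ J
        rw [Iht_succ]
        refine sup_le hPh ?_
        rw [Ideal.span_singleton_le_iff_mem]
        exact hmem
      have h2 := Nat.le_findGreatest (P := P) (show h + 1 ≤ n by omega) h1
      omega
    clear_value h
    rcases Nat.eq_zero_or_pos h with h0 | hpos
    · subst h0
      obtain ⟨m, rfl⟩ : ∃ m, n = 1 + m := ⟨n - 1, by omega⟩
      rw [Iht_zero]
      refine main_char0 hk J hJ hinv ?_
      unfold uSeq at hu
      rwa [if_pos rfl] at hu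
    · obtain ⟨m, rfl⟩ : ∃ m, n = h + m := ⟨n - h, by omega⟩
      have hfin : Finite k := Nat.finite_of_card_ne_zero (by
        rw [hk]; exact pow_ne_zero _ (Fact.out : p.Prime).ne_zero)
      obtain ⟨ι⟩ := exists_iota p k (TiltC p)
      exact main_charp (instFactComplex p).out (norm_pos_iff.2
        (Nat.cast_ne_zero.2 (Fact.out : p.Prime).ne_zero)) (tiltDataC p) (tilt_nontrivial p) ι hk
        hpos (by omega) J hJ hinv hPh hu
  · have h1 : mE p n k ≤ J := by
      rw [← Iht_top hn]
      have : P n := heq ▸ hPh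
      exact this
    rcases eq_or_ne J ⊤ with hJt | hJt
    · exact Or.inr hJt
    · left
      refine ⟨n, le_rfl, ?_⟩
      rw [Iht_top hn]
      exact (mE_isMaximal.eq_of_le hJt h1).symm

end Vale.Agent.P217
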