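import Vale.Agent.P217.Base

/-!
# P217, module TAY: translation of power series (helper95)
-/

namespace Vale.Agent.P217

open MvPowerSeries Filter Topology
open scoped MvPowerSeries.WithPiTopology

variable {L : Type*} [NormedField L] [IsUltrametricDist L] [CompleteSpace L] {m : ℕ}

namespace TAY

/-- evaluation of a series at the variables -/
theorem eval_X_self (F : MvPowerSeries (Fin m) (OO L)) :
    eval₂ (C : OO L →+* MvPowerSeries (Fin m) (OO L)) X F = F := by
  have hX : HasEval (fun i : Fin m => (X i : MvPowerSeries (Fin m) (OO L))) := HasEval.X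
  have h := eval₂_unique (σ := Fin m) (R := OO L) (S := MvPowerSeries (Fin m) (OO L))
    (φ := C) (a := fun i => X i) WithPiTopology.continuous_C hX (ε := id) continuous_id (by
      intro q
      induction q using MvPolynomial.induction_on with
      | C c => simp
      | add q1 q2 h1 h2 =>
        simp only [id_eq] at h1 h2 ⊢
        rw [MvPolynomial.coe_add, h1, h2, MvPolynomial.eval₂_add]
      | mul_X q i h1 =>
        simp only [id_eq] at h1 ⊢
        rw [MvPolynomial.coe_mul, h1, MvPolynomial.eval₂_mul, MvPolynomial.eval₂_X,
          MvPolynomial.coe_X])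
  exact (congrFun h F).symm

/-- the arguments `a + X` are topologically nilpotent -/
theorem hasEval_trans {a : Fin m → OO L} (ha : ∀ i, IsTopologicallyNilpotent (a i)) :
    HasEval (fun i : Fin m => (C (a i) + X i : MvPowerSeries (Fin m) (OO L))) := by
  refine hasEval_of_finite fun i => ?_
  refine MvPowerSeries.LinearTopology.isTopologicallyNilpotent_of_constantCoeff ?_
  rw [map_add, constantCoeff_C, constantCoeff_X, add_zero]
  exact ha _

theorem hasEval_trans' {a : Fin m → OO L} (ha : ∀ i, IsTopologicallyNilpotent (a i)) :
    HasEval (fun i : Fin m => (X i - C (a i) : MvPowerSeries (Fin m) (OO L))) := by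
  refine hasEval_of_finite fun i => ?_
  refine MvPowerSeries.LinearTopology.isTopologicallyNilpotent_of_constantCoeff ?_
  rw [map_sub, constantCoeff_C, constantCoeff_X, zero_sub]
  exact (tn_iff_norm_lt_one _).2 (by
    have h2 := (tn_iff_norm_lt_one _).1 (ha i)
    simpa using h2)

end TAY

/-- TAY: the Taylor series of `F` at `a` (evaluate `F` at `C (a i) + X i` in `O_L[[X]]`; translate
back by `-a` to see that it vanishes only for `F = 0`). -/
theorem exists_translate (F : MvPowerSeries (Fin m) (OO L)) (a : Fin m → OO L)
    (ha : ∀ i, ‖((a i : OO L) : L)‖ < 1) :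
    ∃ G : MvPowerSeries (Fin m) (OO L),
      (∀ b : Fin m → OO L, (∀ i, ‖((b i : OO L) : L)‖ < 1) →
        evm G (fun i => b i - a i) = evm F b) ∧ (G = 0 → F = 0) := by
  have hatn : ∀ i, IsTopologicallyNilpotent (a i) := fun i => (tn_iff_norm_lt_one _).2 (ha i)
  have hy := TAY.hasEval_trans hatn
  set y : Fin m → MvPowerSeries (Fin m) (OO L) := fun i => C (a i) + X i with hydef
  have hCc : Continuous (C : OO L →+* MvPowerSeries (Fin m) (OO L)) := continuous_C_OO
  refine ⟨eval₂ C y F, fun b hb => ?_, fun hG => ?_⟩
  · have hx : ∀ i, IsTopologicallyNilpotent (b i - a i) := by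
      intro i
      rw [tn_iff_norm_lt_one]
      have h4 : (((b i - a i : OO L)) : L) = (b i : L) - (a i : L) := rfl
      rw [h4, sub_eq_add_neg]
      refine (IsUltrametricDist.norm_add_le_max _ _).trans_lt (max_lt (hb i) ?_)
      rw [norm_neg]
      exact ha i
    have hxe : HasEval (fun i => b i - a i) := hasEval_of_finite hx
    set ε := eval₂Hom (φ := RingHom.id (OO L)) continuous_idO hxe with hε
    have hεc : Continuous ε := by
      rw [hε, coe_eval₂Hom]
      exact continuous_eval₂ continuous_idO hxe
    have hε' : ∀ F, ε F = evm F (fun i => b i - a i) := by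
      intro F
      rw [hε, coe_eval₂Hom]
      rfl
    rw [← hε']
    have hcomp := congrFun (comp_eval₂ (φ := (C : OO L →+* MvPowerSeries (Fin m) (OO L)))
      (a := y) hCc hy hεc) F
    rw [Function.comp_apply] at hcomp
    rw [hcomp]
    have e1 : ε.comp C = RingHom.id (OO L) := by
      refine RingHom.ext fun c => ?_
      rw [RingHom.comp_apply, hε']
      exact eval₂_C _ _ _
    have e2 : (ε ∘ y) = b := by
      funext i
      rw [Function.comp_apply, hydef]
      simp only
      rw [map_add, hε', hε']
      have e3 : evm (C (a i)) (fun i => b i - a i) = a i := eval₂_C _ _ _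
      have e4 : evm (X i) (fun i => b i - a i) = b i - a i := eval₂_X _ _ _
      rw [e3, e4]
      ring
    rw [e1, e2]
    rfl
  · have hz := TAY.hasEval_trans' hatn
    set ε := eval₂Hom (φ := (C : OO L →+* MvPowerSeries (Fin m) (OO L))) hCc hz with hε
    have hεc : Continuous ε := by
      rw [hε, coe_eval₂Hom]
      exact continuous_eval₂ hCc hz
    have hε' : ∀ F, ε F = eval₂ (C : OO L →+* MvPowerSeries (Fin m) (OO L))
        (fun i => X i - C (a i)) F := by
      intro F
      rw [hε, coe_eval₂Hom]
    have hcomp := congrFun (comp_eval₂ (φ := (C : OO L →+* MvPowerSeries (Fin m) (OO L)))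
      (a := y) hCc hy hεc) F
    rw [Function.comp_apply, hG, map_zero] at hcomp
    have e1 : ε.comp C = (C : OO L →+* MvPowerSeries (Fin m) (OO L)) := by
      refine RingHom.ext fun c => ?_
      rw [RingHom.comp_apply, hε', eval₂_C]
    have e2 : (ε ∘ y) = X := by
      funext i
      rw [Function.comp_apply, hydef]
      simp only
      rw [map_add, hε', hε', eval₂_C, eval₂_X]
      ring
    rw [e1, e2, TAY.eval_X_self] at hcomp
    exact hcomp.symm

end Vale.Agent.P217
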