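import Vale.Agent.P217.E0Adic

/-!
# P217, module E0H: evaluation homomorphisms of `E_0` (helper95)

The evaluation is defined as the limit of the values of the truncated polynomials
(`E0_complete`).
-/

namespace Vale.Agent.P217

open MvPowerSeries

variable {p n : ℕ} [Fact p.Prime] {k : Type*} [Field k] [CharP k p] [PerfectRing k p]

/-! ## E0H -/

/-- the remainder of the truncation -/
theorem eh_trunc (r : ℕ) (f : E0 p n k) :
    f - ((truncTotal r f : MvPolynomial (Fin (n - 1)) (WittVector p k)) : E0 p n k) ∈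
      mE p n k ^ r := by
  rw [mem_mE_pow_iff]
  intro d
  rw [map_sub, MvPolynomial.coeff_coe, coeff_truncTotal_eq_ite]
  split_ifs with h
  · rw [sub_self]
    exact dvd_zero _
  · rw [Nat.sub_eq_zero_of_le (not_lt.1 h), pow_zero]
    exact one_dvd _

/-- Two ring homomorphisms from `E_0` that agree on `W(k)` and the variables and are continuous
agree. -/
theorem E0_hom_ext {S : Type*} [CommRing S] (J : Ideal S) (hJ : ∀ x : S, (∀ r, x ∈ J ^ r) → x = 0)
    (φ ψ : E0 p n k →+* S) (hφ : ∀ f ∈ mE p n k, φ f ∈ J) (hψ : ∀ f ∈ mE p n k, ψ f ∈ J)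
    (hC : ∀ w : WittVector p k, φ (C w) = ψ (C w)) (hX : ∀ i, φ (X i) = ψ (X i)) : φ = ψ := by
  have hpoly : ∀ P : MvPolynomial (Fin (n - 1)) (WittVector p k),
      φ (P : E0 p n k) = ψ (P : E0 p n k) := by
    intro P
    have h : φ.comp (MvPolynomial.coeToMvPowerSeries.ringHom (R := WittVector p k)
        (σ := Fin (n - 1))) = ψ.comp (MvPolynomial.coeToMvPowerSeries.ringHom
        (R := WittVector p k) (σ := Fin (n - 1))) := by
      apply MvPolynomial.ringHom_ext
      · intro w
        simp only [RingHom.comp_apply, MvPolynomial.coeToMvPowerSeries.ringHom_apply,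
          MvPolynomial.coe_C]
        exact hC w
      · intro i
        simp only [RingHom.comp_apply, MvPolynomial.coeToMvPowerSeries.ringHom_apply,
          MvPolynomial.coe_X]
        exact hX i
    exact RingHom.congr_fun h P
  have hpow : ∀ χ : E0 p n k →+* S, (∀ f ∈ mE p n k, χ f ∈ J) → ∀ r, ∀ f ∈ mE p n k ^ r,
      χ f ∈ J ^ r := by
    intro χ hχ r f hf
    have h1 : (mE p n k ^ r).map χ ≤ J ^ r := by
      rw [Ideal.map_pow]
      refine Ideal.pow_right_mono ?_ r
      rw [Ideal.map_le_iff_le_comap]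
      exact hχ
    exact h1 (Ideal.mem_map_of_mem χ hf)
  ext f
  rw [← sub_eq_zero]
  refine hJ _ fun r => ?_
  have h1 := hpow φ hφ r _ (eh_trunc r f)
  have h2 := hpow ψ hψ r _ (eh_trunc r f)
  rw [map_sub] at h1 h2
  rw [hpoly] at h1
  have h3 := sub_mem h1 h2
  have h4 : φ f - ψ f = φ f - ψ (truncTotal r f : MvPolynomial (Fin (n - 1)) (WittVector p k)) -
      (ψ f - ψ (truncTotal r f : MvPolynomial (Fin (n - 1)) (WittVector p k))) := by ring
  rw [h4]
  exact h3

omit [CharP k p] [PerfectRing k p] in
/-- polynomials without terms of degree `< r` have values in `m^r` -/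
theorem eh_small (a : Fin (n - 1) → E0 p n k) (ha : ∀ i, a i ∈ mE p n k) (r : ℕ)
    (P : MvPolynomial (Fin (n - 1)) (WittVector p k)) (hP : ∀ d, d.degree < r → P.coeff d = 0) :
    MvPolynomial.eval₂Hom (C : WittVector p k →+* E0 p n k) a P ∈ mE p n k ^ r := by
  rw [MvPolynomial.coe_eval₂Hom, MvPolynomial.eval₂_eq']
  refine sum_mem fun d hd => ?_
  by_cases h : d.degree < r
  · rw [hP d h, map_zero, zero_mul]
    exact zero_mem _
  · refine Ideal.mul_mem_left _ _ ?_
    have h1 : ∏ i, a i ^ d i ∈ mE p n k ^ d.degree := by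
      rw [Finsupp.degree_eq_sum, ← Finset.prod_pow_eq_pow_sum]
      exact Ideal.prod_mem_prod fun i _ => Ideal.pow_mem_pow (ha i) _
    exact Ideal.pow_le_pow_right (not_lt.1 h) h1

/-- Evaluation: for `a_i ∈ m` there is a ring homomorphism `E_0 → E_0` over `W(k)` with
`X_i ↦ a_i`. -/
theorem E0_eval (a : Fin (n - 1) → E0 p n k) (ha : ∀ i, a i ∈ mE p n k) :
    ∃ φ : E0 p n k →+* E0 p n k, (∀ w : WittVector p k, φ (C w) = C w) ∧ (∀ i, φ (X i) = a i) ∧
      ∀ f, resE p n k (φ f) = resE p n k f := by
  let E : MvPolynomial (Fin (n - 1)) (WittVector p k) →+* E0 p n k :=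
    MvPolynomial.eval₂Hom (C : WittVector p k →+* E0 p n k) a
  have hE : ∀ r P, (∀ d : Fin (n - 1) →₀ ℕ, d.degree < r → P.coeff d = 0) →
      E P ∈ mE p n k ^ r := fun r P hP => eh_small a ha r P hP
  have hEE : ∀ r P Q, (∀ d : Fin (n - 1) →₀ ℕ, d.degree < r → P.coeff d = Q.coeff d) →
      E P - E Q ∈ mE p n k ^ r := by
    intro r P Q hPQ
    rw [← map_sub]
    refine hE r _ fun d hd => ?_
    rw [MvPolynomial.coeff_sub, hPQ d hd, sub_self]
  have hlim : ∀ f : E0 p n k, ∃ L, ∀ r, L - E (truncTotal r f) ∈ mE p n k ^ r := by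
    intro f
    refine E0_complete (fun r => E (truncTotal r f)) fun r => ?_
    refine hEE r _ _ fun d hd => ?_
    rw [coeff_truncTotal_eq_ite, coeff_truncTotal_eq_ite, if_pos hd, if_pos (by omega)]
  choose L hL using hlim
  have huniq : ∀ f : E0 p n k, ∀ M : E0 p n k,
      (∀ r, M - E (truncTotal r f) ∈ mE p n k ^ r) → L f = M := by
    intro f M hM
    rw [← sub_eq_zero]
    refine E0_hausdorff _ fun r => ?_
    have h : L f - M = L f - E (truncTotal r f) - (M - E (truncTotal r f)) := by ring
    rw [h]
    exact sub_mem (hL f r) (hM r)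
  have hcoe : ∀ P : MvPolynomial (Fin (n - 1)) (WittVector p k), L (P : E0 p n k) = E P := by
    intro P
    refine huniq _ _ fun r => hEE r _ _ fun d hd => ?_
    rw [coeff_truncTotal_eq_ite, if_pos hd, MvPolynomial.coeff_coe]
  have hone : L 1 = 1 := by
    have h := hcoe 1
    rwa [MvPolynomial.coe_one, map_one] at h
  have hzero : L 0 = 0 := by
    have h := hcoe 0
    rwa [MvPolynomial.coe_zero, map_zero] at h
  have hadd : ∀ f g, L (f + g) = L f + L g := by
    intro f g
    refine huniq _ _ fun r => ?_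
    have h : L f + L g - E (truncTotal r (f + g)) =
        (L f - E (truncTotal r f)) + (L g - E (truncTotal r g)) := by
      rw [map_add, map_add]
      ring
    rw [h]
    exact add_mem (hL f r) (hL g r)
  have hmul : ∀ f g, L (f * g) = L f * L g := by
    intro f g
    refine huniq _ _ fun r => ?_
    have h : L f * L g - E (truncTotal r (f * g)) =
        L f * (L g - E (truncTotal r g)) + (L f - E (truncTotal r f)) * E (truncTotal r g) +
          (E (truncTotal r f * truncTotal r g) - E (truncTotal r (f * g))) := by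
      have hm : E (truncTotal r f * truncTotal r g) = E (truncTotal r f) * E (truncTotal r g) :=
        E.map_mul _ _
      rw [hm]
      ring
    rw [h]
    refine add_mem (add_mem (Ideal.mul_mem_left _ _ (hL g r))
      (Ideal.mul_mem_right _ _ (hL f r))) (hEE r _ _ fun d hd => ?_)
    rw [coeff_truncTotal_mul_truncTotal_eq_coeff_mul _ _ hd, coeff_truncTotal_eq_ite, if_pos hd]
  let φ : E0 p n k →+* E0 p n k :=
    { toFun := L
      map_one' := hone
      map_mul' := hmul
      map_zero' := hzero
      map_add' := hadd }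
  refine ⟨φ, fun w => ?_, fun i => ?_, fun f => ?_⟩
  · show L (C w) = C w
    have h := hcoe (MvPolynomial.C w)
    rw [MvPolynomial.coe_C] at h
    rw [h]
    exact MvPolynomial.eval₂_C _ _ _
  · show L (X i) = a i
    have h := hcoe (MvPolynomial.X i)
    rw [MvPolynomial.coe_X] at h
    rw [h]
    exact MvPolynomial.eval₂_X _ _ _
  · show resE p n k (L f) = resE p n k f
    have h1 : L f - E (truncTotal 1 f) ∈ mE p n k := by
      have := hL f 1
      rwa [pow_one] at this
    have h2 : E (truncTotal 1 f) - E (MvPolynomial.C (constantCoeff f)) ∈ mE p n k := by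
      have := hEE 1 (truncTotal 1 f) (MvPolynomial.C (constantCoeff f)) (fun d hd => by
        have hd0 : d = 0 := by
          rw [← Finsupp.degree_eq_zero_iff]
          omega
        subst hd0
        rw [coeff_truncTotal_eq_ite, if_pos hd, MvPolynomial.coeff_zero_C,
          coeff_zero_eq_constantCoeff_apply])
      rwa [pow_one] at this
    have h3 : E (MvPolynomial.C (constantCoeff f)) = C (constantCoeff f) :=
      MvPolynomial.eval₂_C _ _ _
    have h4 : L f - C (constantCoeff f) ∈ mE p n k := by
      have h5 : L f - C (constantCoeff f) = (L f - E (truncTotal 1 f)) +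
          (E (truncTotal 1 f) - E (MvPolynomial.C (constantCoeff f))) := by
        rw [h3]
        ring
      rw [h5]
      exact add_mem h1 h2
    unfold mE at h4
    rw [RingHom.mem_ker, map_sub, sub_eq_zero] at h4
    rw [h4, resE_C]
    rfl

end Vale.Agent.P217
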