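import Vale.Agent.P217.E0Adic

/-!
# P217, module E0I: the height ideals (helper95)
-/

namespace Vale.Agent.P217

open MvPowerSeries

variable {p n : ℕ} [Fact p.Prime] {k : Type*} [Field k] [CharP k p] [PerfectRing k p]

/-! ## E0I -/

omit [CharP k p] [PerfectRing k p] in
theorem Iht_zero : Iht p n k 0 = ⊥ := by
  unfold Iht
  have h : {j : ℕ | j < 0} = ∅ := by ext j; simp
  rw [h, Set.image_empty, Ideal.span_empty]

omit [CharP k p] [PerfectRing k p] in
theorem Iht_succ (h : ℕ) : Iht p n k (h + 1) = Iht p n k h ⊔ Ideal.span {uSeq p n k h} := by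
  unfold Iht
  have h1 : {j : ℕ | j < h + 1} = {j | j < h} ∪ {h} := by
    ext j
    simp only [Set.mem_ofPred_eq, Set.mem_union, Set.mem_singleton_iff]
    omega
  rw [h1, Set.image_union, Set.image_singleton, Ideal.span_union]

omit [CharP k p] [PerfectRing k p] in
theorem ei_uPar (j : ℕ) (h1 : 1 ≤ j) (h2 : j < n) :
    uPar p n k j = X (⟨j - 1, by omega⟩ : Fin (n - 1)) := by
  unfold uPar par
  rw [dif_pos ⟨h1, by omega⟩]

theorem Iht_top (hn : 1 ≤ n) : Iht p n k n = mE p n k := by
  rw [mE_eq_span]
  unfold Iht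
  congr 1
  ext x
  simp only [Set.mem_image, Set.mem_ofPred_eq, Set.mem_union, Set.mem_singleton_iff, Set.mem_range]
  constructor
  · rintro ⟨j, hj, rfl⟩
    unfold uSeq
    split_ifs with h0
    · exact Or.inl rfl
    · exact Or.inr ⟨⟨j - 1, by omega⟩, (ei_uPar j (by omega) hj).symm⟩
  · rintro (rfl | ⟨i, rfl⟩)
    · exact ⟨0, by omega, if_pos rfl⟩
    · refine ⟨i + 1, by omega, ?_⟩
      unfold uSeq
      rw [if_neg (by omega), ei_uPar _ (by omega) (by omega)]
      rfl

theorem uPar_mem_mE (j : ℕ) (h1 : 1 ≤ j) (h2 : j < n) : uPar p n k j ∈ mE p n k := by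
  rw [ei_uPar j h1 h2]
  exact X_mem_mE _

omit [CharP k p] [PerfectRing k p] in
theorem uPar_top (hn : 1 ≤ n) : uPar p n k n = 1 := by
  unfold uPar par
  rw [dif_neg (by omega), if_pos (by omega)]

/-- series all of whose monomials contain a variable from `S` -/
theorem ei_span {σ R : Type*} [CommRing R] [DecidableEq σ] (S : Finset σ) :
    ∀ f : MvPowerSeries σ R, (∀ d : σ →₀ ℕ, (∀ j ∈ S, d j = 0) → coeff d f = 0) →
      f ∈ Ideal.span ((X : σ → MvPowerSeries σ R) '' (S : Set σ)) := by
  induction S using Finset.induction_on with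
  | empty =>
    intro f hf
    have : f = 0 := by
      ext d
      exact hf d (by simp)
    rw [this]
    exact zero_mem _
  | insert a S ha ih =>
    intro f hf
    let f' : MvPowerSeries σ R := fun d => if d a = 0 then coeff d f else 0
    have h1 : ∀ d, coeff d f' = if d a = 0 then coeff d f else 0 := fun d => rfl
    have h2 : f' ∈ Ideal.span ((X : σ → MvPowerSeries σ R) '' (S : Set σ)) := by
      refine ih f' fun d hd => ?_
      rw [h1]
      split_ifs with h
      · refine hf d fun j hj => ?_
        rcases Finset.mem_insert.1 hj with rfl | hj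
        · exact h
        · exact hd j hj
      · rfl
    have h3 : X a ∣ f - f' := by
      rw [X_dvd_iff]
      intro m hm
      rw [map_sub, h1, if_pos hm, sub_self]
    have h4 : f = f' + (f - f') := by ring
    rw [h4]
    refine add_mem (Ideal.span_mono (Set.image_mono ?_) h2) ?_
    · intro x hx
      exact Finset.mem_coe.2 (Finset.mem_insert_of_mem (Finset.mem_coe.1 hx))
    · exact Ideal.mem_of_dvd _ h3
        (Ideal.subset_span ⟨a, Finset.mem_coe.2 (Finset.mem_insert_self _ _), rfl⟩)

/-- The quotient `E_0/I_h` for `1 ≤ h ≤ n`: reduction to `k[[u_h, …, u_{n-1}]]`. -/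
theorem exists_red (h : ℕ) (h1 : 1 ≤ h) (hn : h ≤ n) :
    ∃ φ : E0 p n k →+* MvPowerSeries (Fin (n - h)) k, Function.Surjective φ ∧
      RingHom.ker φ = Iht p n k h ∧
      (∀ w : WittVector p k, φ (C w) = C (WittVector.constantCoeff w)) ∧
      ∀ i : Fin (n - h), φ (uPar p n k (h + i)) = X i := by
  classical
  let ι : Fin (n - h) ↪ Fin (n - 1) :=
    ⟨fun i => ⟨h - 1 + i, by omega⟩, fun i j hij => by
      have := congrArg Fin.val hij
      simp only at this
      exact Fin.ext (by omega)⟩
  have hι : ∀ i : Fin (n - h), ((ι i : Fin (n - 1)) : ℕ) = h - 1 + i := fun i => rfl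
  let π : WittVector p k →+* k := WittVector.constantCoeff
  let φ : E0 p n k →+* MvPowerSeries (Fin (n - h)) k :=
    (killCompl (R := k) ι).toRingHom.comp (MvPowerSeries.map π)
  have hφ : ∀ f, φ f = killCompl (R := k) ι (MvPowerSeries.map π f) := fun f => rfl
  have hrange : ∀ j : Fin (n - 1), j ∈ Set.range ι ↔ h - 1 ≤ (j : ℕ) := by
    intro j
    constructor
    · rintro ⟨i, rfl⟩
      rw [hι]; omega
    · intro hj
      refine ⟨⟨(j : ℕ) - (h - 1), by omega⟩, Fin.ext ?_⟩
      rw [hι]
      simp only
      omega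
  refine ⟨φ, ?_, ?_, ?_, ?_⟩
  · intro g
    choose l hl using WittVector.constantCoeff_surjective (p := p) (R := k)
    obtain ⟨G, hG⟩ : ∃ G : E0 p n k, ∀ d, coeff d G = l (coeff d (rename ι g)) :=
      ⟨fun d => l (coeff d (rename ι g)), fun d => rfl⟩
    refine ⟨G, ?_⟩
    have h2 : MvPowerSeries.map π G = rename ι g := by
      ext d
      rw [coeff_map, hG]
      exact hl _
    rw [hφ, h2, killCompl_rename_app]
  · apply le_antisymm
    · intro f hf
      rw [RingHom.mem_ker, hφ] at hf
      set S : Finset (Fin (n - 1)) := Finset.univ.filter (fun j => (j : ℕ) < h - 1) with hS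
      have hcoef : ∀ d : Fin (n - 1) →₀ ℕ, (∀ j ∈ S, d j = 0) → (p : WittVector p k) ∣ coeff d f := by
        intro d hd
        have h2 : d ∈ Set.range (Finsupp.embDomain (M := ℕ) ι) := by
          rw [Finsupp.mem_range_embDomain_iff]
          intro j hj
          rw [Finset.mem_coe, Finsupp.mem_support_iff] at hj
          rw [hrange]
          by_contra hlt
          exact hj (hd j (Finset.mem_filter.2 ⟨Finset.mem_univ _, by omega⟩))
        obtain ⟨d', rfl⟩ := h2
        have h3 : coeff d' (killCompl (R := k) ι (MvPowerSeries.map π f)) = 0 := by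
          rw [hf]; rfl
        rw [coeff_killCompl, coeff_map] at h3
        have h4 : coeff (Finsupp.embDomain ι d') f ∈ RingHom.ker π := h3
        rw [WittVector.ker_constantCoeff] at h4
        exact Ideal.mem_span_singleton.1 h4
      let f0 : E0 p n k := fun d => if ∀ j ∈ S, d j = 0 then coeff d f else 0
      have hf0 : ∀ d, coeff d f0 = if ∀ j ∈ S, d j = 0 then coeff d f else 0 := fun d => rfl
      have h5 : f - f0 ∈ Ideal.span ((X : Fin (n - 1) → E0 p n k) '' (S : Set (Fin (n - 1)))) := by
        refine ei_span S _ fun d hd => ?_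
        rw [map_sub, hf0, if_pos hd, sub_self]
      have h6 : ∀ d, ∃ c : WittVector p k, coeff d f0 = p * c := by
        intro d
        rw [hf0]
        split_ifs with h
        · exact hcoef d h
        · exact ⟨0, by rw [mul_zero]⟩
      choose g' hg' using h6
      obtain ⟨g, hg⟩ : ∃ g : E0 p n k, ∀ d, coeff d f0 = p * coeff d g :=
        ⟨fun d => g' d, fun d => hg' d⟩
      have h7 : f0 = (p : E0 p n k) * g := by
        refine MvPowerSeries.ext fun d => ?_
        have h8 : (p : E0 p n k) = C (p : WittVector p k) := (map_natCast _ p).symm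
        rw [h8, coeff_C_mul]
        exact hg d
      have h9 : f = f0 + (f - f0) := by ring
      rw [h9]
      refine add_mem ?_ ?_
      · rw [h7]
        refine Ideal.mul_mem_right _ _ (Ideal.subset_span ⟨0, h1, if_pos rfl⟩)
      · refine (Ideal.span_mono ?_) h5
        rintro x ⟨j, hj, rfl⟩
        have hj' : (j : ℕ) < h - 1 := (Finset.mem_filter.1 (Finset.mem_coe.1 hj)).2
        refine ⟨j + 1, ?_, ?_⟩
        · show (j : ℕ) + 1 < h
          omega
        · unfold uSeq
          rw [if_neg (by omega), ei_uPar _ (by omega) (by omega)]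
          rfl
    · unfold Iht
      rw [Ideal.span_le]
      rintro x ⟨j, hj, rfl⟩
      have hj' : j < h := hj
      show uSeq p n k j ∈ RingHom.ker φ
      rw [RingHom.mem_ker]
      unfold uSeq
      split_ifs with h0
      · rw [map_natCast]
        have h2 : ((p : ℕ) : MvPowerSeries (Fin (n - h)) k) = C ((p : ℕ) : k) :=
          (map_natCast _ p).symm
        rw [h2, CharP.cast_eq_zero, map_zero]
      · rw [ei_uPar _ (by omega) (by omega), hφ, map_X]
        refine killCompl_X_eq_zero ?_
        rw [hrange]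
        simp only
        omega
  · intro w
    rw [hφ, map_C, killCompl_C]
  · intro i
    have h2 : (⟨h + (i : ℕ) - 1, by omega⟩ : Fin (n - 1)) = ι i := by
      apply Fin.ext
      rw [hι]
      simp only
      omega
    rw [ei_uPar _ (by omega) (by omega), hφ, map_X, h2, killCompl_X]

theorem Iht_isPrime (h : ℕ) (hn : h ≤ n) : (Iht p n k h).IsPrime := by
  rcases Nat.eq_zero_or_pos h with rfl | h1
  · rw [Iht_zero]
    exact Ideal.isPrime_bot
  · obtain ⟨φ, -, hker, -⟩ := exists_red (p := p) (k := k) h h1 hn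
    rw [← hker]
    have : IsDomain (MvPowerSeries (Fin (n - h)) k) := NoZeroDivisors.to_isDomain _
    exact RingHom.ker_isPrime φ

end Vale.Agent.P217
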