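import Vale.Agent.P217.AsmDefs0
import Vale.Agent.P217.AsmTay
import Vale.Agent.P217.Arc
import Vale.Agent.P217.E0Hom
import Vale.Agent.P217.E0Ideals

/-!
# P217, modules AQ2, AQ3: points in characteristic zero (helper95; proofs helper86)
-/

set_option linter.unusedSectionVars false

namespace Vale.Agent.P217

open MvPowerSeries Filter Topology
open scoped MvPowerSeries.WithPiTopology

variable {p m : ℕ} [Fact p.Prime] {k : Type*} [Field k] [CharP k p] [PerfectRing k p]
variable {C' : Type*} [NormedField C'] [IsUltrametricDist C'] [CompleteSpace C']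

namespace AQ2

/-- the index -/
abbrev cst (m : ℕ) (i : Fin (1 + m - 1)) : Fin m := Fin.cast (by omega) i

/-- the inverse of the index -/
abbrev cst' (m : ℕ) (i : Fin m) : Fin (1 + m - 1) := Fin.cast (by omega) i

theorem X_eq_uPar {n : ℕ} (i : Fin (n - 1)) :
    (X i : E0 p n k) = uPar p n k (i.1 + 1) := by
  have hi := i.2
  unfold uPar par
  rw [dif_pos ⟨by omega, by omega⟩]
  rfl

theorem ball_sep {ρ : ℝ} (hρ : 0 ≤ ρ) (h1 : ρ < 1) (x : OO C')
    (hx : ∀ r, x ∈ (ballI C' ρ hρ) ^ r) : x = 0 := by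
  by_contra hne
  have hU : ({x}ᶜ : Set (OO C')) ∈ 𝓝 (0 : OO C') :=
    isOpen_compl_singleton.mem_nhds (by simpa using Ne.symm hne)
  obtain ⟨r, hr⟩ := ball_topnil hρ h1 _ hU
  exact hr (hx r) rfl

theorem norm_p_le {ω : WittVector p k →+* OO C'} {r : ℝ} {χ : E0 p (1 + m) k →+* OO C'}
    (hχ : Pt0 ω r χ) : ‖(((p : ℕ) : OO C') : C')‖ ≤ r := by
  have h := hχ.map_m _ p_mem_mE
  rwa [map_natCast] at h

theorem ptA_norm {ω : WittVector p k →+* OO C'} {r : ℝ} {χ : E0 p (1 + m) k →+* OO C'}
    (hχ : Pt0 ω r χ) (i : Fin m) : ‖((ptA 1 χ i : OO C') : C')‖ ≤ r :=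
  hχ.map_m _ (uPar_mem_mE _ (by omega) (by omega))

theorem ptA_tn {ω : WittVector p k →+* OO C'} {r : ℝ} {χ : E0 p (1 + m) k →+* OO C'}
    (hχ : Pt0 ω r χ) (i : Fin m) : IsTopologicallyNilpotent (ptA 1 χ i) :=
  (tn_iff_norm_lt_one _).2 ((ptA_norm hχ i).trans_lt hχ.r_lt)

/-- The value at a point is the value of the series. -/
theorem point_eval {ω : WittVector p k →+* OO C'} {r : ℝ} {χ : E0 p (1 + m) k →+* OO C'}
    (hχ : Pt0 ω r χ) (f : E0 p (1 + m) k) :
    χ f = eval₂ (RingHom.id (OO C')) (fun i => ptA 1 χ (cst m i)) (f.map ω) := by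
  have hev : HasEval (fun i => ptA 1 χ (cst m i)) :=
    hasEval_of_finite fun i => ptA_tn hχ _
  set ev := eval₂Hom (φ := RingHom.id (OO C')) continuous_idO hev with hevdef
  have hev' : ∀ F, ev F = eval₂ (RingHom.id (OO C')) (fun i => ptA 1 χ (cst m i)) F := by
    intro F
    rw [hevdef, coe_eval₂Hom]
  set ψ : E0 p (1 + m) k →+* OO C' := ev.comp (MvPowerSeries.map ω) with hψdef
  have hψ : ∀ F, ψ F = ev (F.map ω) := fun F => rfl
  have hXeq : ∀ i : Fin (1 + m - 1), χ (X i) = ψ (X i) := by
    intro i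
    rw [hψ, map_X, hev', eval₂_X, X_eq_uPar]
    unfold ptA
    congr 2
    show i.1 + 1 = 1 + i.1
    omega
  have key : χ = ψ := by
    refine E0_hom_ext (ballI C' r hχ.r_nonneg) (ball_sep hχ.r_nonneg hχ.r_lt) χ ψ
      (fun g hg => hχ.map_m g hg) ?_ ?_ hXeq
    · have hle : mE p (1 + m) k ≤ (ballI C' r hχ.r_nonneg).comap ψ := by
        rw [mE_eq_span, Ideal.span_le]
        rintro _ (h2 | ⟨i, rfl⟩)
        · rw [Set.mem_singleton_iff] at h2
          rw [h2, SetLike.mem_coe, Ideal.mem_comap, map_natCast]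
          exact norm_p_le hχ
        · rw [SetLike.mem_coe, Ideal.mem_comap, ← hXeq]
          exact hχ.map_m _ (X_mem_mE i)
      exact hle
    · intro w
      rw [hχ.map_C, hψ, map_C, hev', eval₂_C]
      rfl
  exact (DFunLike.congr_fun key f).trans (hev' _)

/-- the arguments `a + X` are topologically nilpotent -/
theorem hasEval_trans {a : Fin m → OO C'} (ha : ∀ i, IsTopologicallyNilpotent (a i)) :
    HasEval (fun i : Fin (1 + m - 1) =>
      (C (a (cst m i)) + X (cst m i) : MvPowerSeries (Fin m) (OO C'))) := by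
  refine hasEval_of_finite fun i => ?_
  refine MvPowerSeries.LinearTopology.isTopologicallyNilpotent_of_constantCoeff ?_
  rw [map_add, constantCoeff_C, constantCoeff_X, add_zero]
  exact ha _

theorem hasEval_trans' {a : Fin m → OO C'} (ha : ∀ i, IsTopologicallyNilpotent (a i)) :
    HasEval (fun i : Fin m =>
      (X (cst' m i) - C (a i) : MvPowerSeries (Fin (1 + m - 1)) (OO C'))) := by
  refine hasEval_of_finite fun i => ?_
  refine MvPowerSeries.LinearTopology.isTopologicallyNilpotent_of_constantCoeff ?_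
  rw [map_sub, constantCoeff_C, constantCoeff_X, zero_sub]
  exact (tn_iff_norm_lt_one _).2 (by
    have h2 := (tn_iff_norm_lt_one _).1 (ha i)
    simpa using h2)

/-- evaluation of a series at the variables -/
theorem eval_X_self {n : ℕ} (F : MvPowerSeries (Fin n) (OO C')) :
    eval₂ (C : OO C' →+* MvPowerSeries (Fin n) (OO C')) X F = F := by
  have hX : HasEval (fun i : Fin n => (X i : MvPowerSeries (Fin n) (OO C'))) := HasEval.X
  have h := eval₂_unique (σ := Fin n) (R := OO C') (S := MvPowerSeries (Fin n) (OO C'))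
    (φ := C) (a := fun i => X i) WithPiTopology.continuous_C hX (ε := id) continuous_id (by
      intro q
      induction q using MvPolynomial.induction_on with
      | C c => simp
      | add q1 q2 h1 h2 =>
        simp only [id_eq] at h1 h2 ⊢
        rw [MvPolynomial.coe_add, h1, h2, MvPolynomial.eval₂_add]
      | mul_X q i h1 =>
        simp only [id_eq] at h1 ⊢
        rw [MvPolynomial.coe_mul, h1, MvPolynomial.eval₂_mul, MvPolynomial.eval₂_X,
          MvPolynomial.coe_X])
  exact (congrFun h F).symm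

end AQ2

open AQ2

/-- AQ2 -/
theorem Pt0.par_eq {ω : WittVector p k →+* OO C'} {r : ℝ} {χ : E0 p (1 + m) k →+* OO C'}
    (hχ : Pt0 ω r χ) (j : ℕ) (hj1 : 1 ≤ j) (hj : j ≤ 1 + m) :
    χ (uPar p (1 + m) k j) = par 1 m (ptA 1 χ) j := by
  rcases hj.lt_or_eq with h3 | h3
  · unfold par
    rw [dif_pos ⟨hj1, h3⟩]
    unfold ptA
    congr 2
    show j = 1 + (j - 1)
    omega
  · subst h3
    rw [uPar_top (by omega), map_one]
    unfold par
    rw [dif_neg (by omega), if_pos rfl]

/-- AQ2: the base point data. -/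
theorem Pt0.dt {ω : WittVector p k →+* OO C'} {r : ℝ} {χ : E0 p (1 + m) k →+* OO C'}
    (hχ : Pt0 ω r χ) : Dt p 1 m (ptA 1 χ) r where
  h_pos := le_rfl
  rho_nonneg := hχ.r_nonneg
  rho_lt := hχ.r_lt
  p_le := by
    have h := norm_p_le hχ
    have e : (((p : ℕ) : OO C') : C') = (p : C') := by push_cast; rfl
    rwa [e] at h
  a_le i := ptA_norm hχ i

/-- AQ3: the Taylor series of `f ∈ E_0` at the point `χ` (`exists_translate` for `f.map ω`). -/
theorem exists_taylor0 {ω : WittVector p k →+* OO C'} (hω : Function.Injective ω) {r : ℝ}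
    {χ : E0 p (1 + m) k →+* OO C'} (hχ : Pt0 ω r χ) (f : E0 p (1 + m) k) :
    ∃ G : MvPowerSeries (Fin m) (OO C'),
      (∀ (χ' : E0 p (1 + m) k →+* OO C') (r' : ℝ), Pt0 ω r' χ' →
        evm G (fun i => ptA 1 χ' i - ptA 1 χ i) = χ' f) ∧ (G = 0 → f = 0) := by
  set a := ptA 1 χ with ha
  have hatn : ∀ i, IsTopologicallyNilpotent (a i) := ptA_tn hχ
  have hy := hasEval_trans hatn
  set y : Fin (1 + m - 1) → MvPowerSeries (Fin m) (OO C') :=
    fun i => C (a (cst m i)) + X (cst m i) with hydef
  have hCc : Continuous (C : OO C' →+* MvPowerSeries (Fin m) (OO C')) := continuous_C_OO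
  refine ⟨eval₂ C y (f.map ω), fun χ' r' hχ' => ?_, fun hG => ?_⟩
  · -- evaluation at `a' - a`
    have hx : ∀ i, IsTopologicallyNilpotent (ptA 1 χ' i - a i) := by
      intro i
      rw [tn_iff_norm_lt_one]
      have h2 : ‖((ptA 1 χ' i : OO C') : C')‖ < 1 := (ptA_norm hχ' i).trans_lt hχ'.r_lt
      have h3 : ‖((a i : OO C') : C')‖ < 1 := (ptA_norm hχ i).trans_lt hχ.r_lt
      have h4 : (((ptA 1 χ' i - a i : OO C')) : C') = (ptA 1 χ' i : C') - (a i : C') := rfl
      rw [h4, sub_eq_add_neg]
      refine (IsUltrametricDist.norm_add_le_max _ _).trans_lt (max_lt h2 ?_)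
      rwa [norm_neg]
    have hxe : HasEval (fun i => ptA 1 χ' i - a i) := hasEval_of_finite hx
    set ε := eval₂Hom (φ := RingHom.id (OO C')) continuous_idO hxe with hε
    have hεc : Continuous ε := by
      rw [hε, coe_eval₂Hom]
      exact continuous_eval₂ continuous_idO hxe
    have hε' : ∀ F, ε F = evm F (fun i => ptA 1 χ' i - a i) := by
      intro F
      rw [hε, coe_eval₂Hom]
      rfl
    rw [← hε']
    have hcomp := congrFun (comp_eval₂ (φ := (C : OO C' →+* MvPowerSeries (Fin m) (OO C')))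
      (a := y) hCc hy hεc) (f.map ω)
    rw [Function.comp_apply] at hcomp
    rw [hcomp, point_eval hχ' f]
    have e1 : ε.comp C = RingHom.id (OO C') := by
      refine RingHom.ext fun c => ?_
      rw [RingHom.comp_apply, hε']
      exact eval₂_C _ _ _
    have e2 : (ε ∘ y) = fun i => ptA 1 χ' (cst m i) := by
      funext i
      rw [Function.comp_apply, hydef]
      simp only
      rw [map_add, hε', hε']
      have e3 : evm (C (a (cst m i))) (fun i => ptA 1 χ' i - a i) = a (cst m i) :=
        eval₂_C _ _ _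
      have e4 : evm (X (cst m i)) (fun i => ptA 1 χ' i - a i)
          = ptA 1 χ' (cst m i) - a (cst m i) := eval₂_X _ _ _
      rw [e3, e4]
      ring
    rw [e1, e2]
  · -- translation
    have hz := hasEval_trans' hatn
    have hCc' : Continuous (C : OO C' →+* MvPowerSeries (Fin (1 + m - 1)) (OO C')) :=
      WithPiTopology.continuous_C
    set ε := eval₂Hom (φ := (C : OO C' →+* MvPowerSeries (Fin (1 + m - 1)) (OO C'))) hCc' hz with hε
    have hεc : Continuous ε := by
      rw [hε, coe_eval₂Hom]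
      exact continuous_eval₂ hCc' hz
    have hε' : ∀ F, ε F = eval₂ (C : OO C' →+* MvPowerSeries (Fin (1 + m - 1)) (OO C'))
        (fun i => X (cst' m i) - C (a i)) F := by
      intro F
      rw [hε, coe_eval₂Hom]
    have hcomp := congrFun (comp_eval₂ (φ := (C : OO C' →+* MvPowerSeries (Fin m) (OO C')))
      (a := y) hCc hy hεc) (f.map ω)
    rw [Function.comp_apply, hG, map_zero] at hcomp
    have e1 : ε.comp C = (C : OO C' →+* MvPowerSeries (Fin (1 + m - 1)) (OO C')) := by
      refine RingHom.ext fun c => ?_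
      rw [RingHom.comp_apply, hε', eval₂_C]
    have e2 : (ε ∘ y) = X := by
      funext i
      rw [Function.comp_apply, hydef]
      simp only
      rw [map_add, hε', hε', eval₂_C, eval₂_X]
      have e3 : cst' m (cst m i) = i := by
        apply Fin.ext
        rfl
      rw [e3]
      ring
    rw [e1, e2, eval_X_self] at hcomp
    refine MvPowerSeries.ext fun d => ?_
    have hd := congrArg (coeff d) hcomp
    rw [coeff_map, map_zero] at hd
    rw [map_zero]
    exact (map_eq_zero_iff ω hω).1 hd.symm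

end Vale.Agent.P217
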