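import Mathlib

/-!
# P217: the `m`-adic structure of `W[[X]]` for a `π`-adically complete ring `W` (helper74)
-/

namespace Vale.Agent.P217

open MvPowerSeries

section gen

variable {σ W : Type*} [CommRing W]

/-- the ideal of the series whose `d`-th coefficient is divisible by `π ^ (r - |d|)` -/
def gI (σ : Type*) (π : W) (r : ℕ) : Ideal (MvPowerSeries σ W) where
  carrier := {f | ∀ d, π ^ (r - d.degree) ∣ coeff d f}
  add_mem' := fun {f g} hf hg d => by rw [map_add]; exact dvd_add (hf d) (hg d)
  zero_mem' := fun d => by rw [map_zero]; exact dvd_zero _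
  smul_mem' := fun c f hf d => by
    classical
    rw [smul_eq_mul, coeff_mul]
    refine Finset.dvd_sum fun x hx => Dvd.dvd.mul_left ?_ _
    refine dvd_trans (pow_dvd_pow _ ?_) (hf x.2)
    have : x.1 + x.2 = d := Finset.HasAntidiagonal.mem_antidiagonal.mp hx
    rw [← this, map_add]
    omega

theorem mem_gI {π : W} {r : ℕ} {f : MvPowerSeries σ W} :
    f ∈ gI σ π r ↔ ∀ d, π ^ (r - d.degree) ∣ coeff d f := Iff.rfl

theorem gI_mul {π : W} {r s : ℕ} {f g : MvPowerSeries σ W} (hf : f ∈ gI σ π r)
    (hg : g ∈ gI σ π s) : f * g ∈ gI σ π (r + s) := by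
  classical
  intro d
  rw [coeff_mul]
  refine Finset.dvd_sum fun x hx => ?_
  refine dvd_trans (pow_dvd_pow _ ?_) (pow_add π _ _ ▸ mul_dvd_mul (hf x.1) (hg x.2))
  have : x.1 + x.2 = d := Finset.HasAntidiagonal.mem_antidiagonal.mp hx
  rw [← this, map_add]
  omega

theorem mem_gI_one {π : W} {f : MvPowerSeries σ W} :
    f ∈ gI σ π 1 ↔ π ∣ constantCoeff f := by
  rw [mem_gI]
  constructor
  · intro h
    have := h 0
    simpa using this
  · intro h d
    by_cases hd : d = 0
    · subst hd
      simpa using h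
    · have : d.degree ≠ 0 := by
        rw [Ne, Finsupp.degree_eq_zero_iff]; exact hd
      have h1 : 1 - d.degree = 0 := by omega
      rw [h1, pow_zero]
      exact one_dvd _

theorem gI_pow_le {π : W} (r : ℕ) : gI σ π 1 ^ r ≤ gI σ π r := by
  induction r with
  | zero => intro f _ d; simp
  | succ r ih =>
    rw [pow_succ, Ideal.mul_le]
    intro f hf g hg
    exact gI_mul (ih hf) hg

/-- generators -/
noncomputable def gJ (σ : Type*) (π : W) : Ideal (MvPowerSeries σ W) :=
  Ideal.span ({(C π : MvPowerSeries σ W)} ∪ Set.range (X : σ → MvPowerSeries σ W))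

theorem C_mem_gJ {π : W} : (C π : MvPowerSeries σ W) ∈ gJ σ π :=
  Ideal.subset_span (Or.inl rfl)

theorem X_mem_gJ {π : W} (i : σ) : (X i : MvPowerSeries σ W) ∈ gJ σ π :=
  Ideal.subset_span (Or.inr ⟨i, rfl⟩)

theorem gJ_le {π : W} : gJ σ π ≤ gI σ π 1 := by
  rw [gJ, Ideal.span_le]
  rintro f (hf | ⟨i, rfl⟩)
  · rw [Set.mem_singleton_iff] at hf
    subst hf
    rw [SetLike.mem_coe, mem_gI_one]
    simp
  · rw [SetLike.mem_coe, mem_gI_one]
    simp

theorem monomial_mem_gJ {π : W} (r : ℕ) : ∀ e : σ →₀ ℕ, e.degree = r →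
    (monomial e (1 : W) : MvPowerSeries σ W) ∈ gJ σ π ^ r := by
  classical
  induction r with
  | zero => intro e _; simp
  | succ r ih =>
    intro e he
    have hne : e ≠ 0 := by rintro rfl; simp at he
    obtain ⟨i, hi⟩ := Finsupp.ne_iff.mp hne
    have hi' : Finsupp.single i 1 ≤ e := by
      rw [Finsupp.single_le_iff]
      have : e i ≠ 0 := by simpa using hi
      omega
    have h1 : e = (e - Finsupp.single i 1) + Finsupp.single i 1 := (tsub_add_cancel_of_le hi').symm
    have h2 : (e - Finsupp.single i 1).degree = r := by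
      have := congrArg Finsupp.degree h1
      rw [map_add, he, Finsupp.degree_single] at this
      omega
    have h3 := ih _ h2
    rw [h1, pow_succ]
    have h4 : (monomial (e - Finsupp.single i 1 + Finsupp.single i 1) (1 : W) :
        MvPowerSeries σ W) = monomial (e - Finsupp.single i 1) (1 : W) * X i := by
      rw [X_def, monomial_mul_monomial, one_mul]
    rw [h4]
    exact Ideal.mul_mem_mul h3 (X_mem_gJ i)

theorem gI_le_pow [Finite σ] {π : W} (r : ℕ) : gI σ π r ≤ gJ σ π ^ r := by
  classical
  intro f hf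
  rw [mem_gI] at hf
  -- the part of degree `≥ r`
  have hex : ∀ d : σ →₀ ℕ, r ≤ d.degree → ∃ e : σ →₀ ℕ, e ≤ d ∧ e.degree = r := by
    intro d hd
    induction hn : d.degree - r generalizing d with
    | zero => exact ⟨d, le_rfl, by omega⟩
    | succ m ih =>
      have hne : d ≠ 0 := by rintro rfl; simp at hn
      obtain ⟨i, hi⟩ := Finsupp.ne_iff.mp hne
      have hi' : Finsupp.single i 1 ≤ d := by
        rw [Finsupp.single_le_iff]
        have : d i ≠ 0 := by simpa using hi
        omega
      have h1 : d = (d - Finsupp.single i 1) + Finsupp.single i 1 :=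
        (tsub_add_cancel_of_le hi').symm
      have h2 := congrArg Finsupp.degree h1
      rw [map_add, Finsupp.degree_single] at h2
      obtain ⟨e, he1, he2⟩ := ih (d - Finsupp.single i 1) (by omega) (by omega)
      exact ⟨e, he1.trans tsub_le_self, he2⟩
  have hch : ∀ d : σ →₀ ℕ, ∃ e : σ →₀ ℕ, r ≤ d.degree → e ≤ d ∧ e.degree = r := by
    intro d
    by_cases hd : r ≤ d.degree
    · obtain ⟨e, he⟩ := hex d hd
      exact ⟨e, fun _ => he⟩
    · exact ⟨0, fun h => absurd h hd⟩
  choose ε hε using hch
  set S : Finset (σ →₀ ℕ) := (Finsupp.finite_of_degree_lt (σ := σ) r).toFinset with hS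
  set T : Finset (σ →₀ ℕ) := (Finsupp.finite_of_degree_eq (σ := σ) r).toFinset with hT
  have hmS : ∀ d, d ∈ S ↔ d.degree < r := fun d => by simp [hS]
  have hmT : ∀ d, d ∈ T ↔ d.degree = r := fun d => by simp [hT]
  set F : (σ →₀ ℕ) → MvPowerSeries σ W := fun e =>
    fun d' => if ε (d' + e) = e ∧ r ≤ (d' + e).degree then coeff (d' + e) f else 0 with hF
  have hdec : f = ∑ d ∈ S, monomial d (coeff d f) + ∑ e ∈ T, monomial e (1 : W) * F e := by
    ext d
    rw [map_add, map_sum, map_sum]
    have h1 : ∑ x ∈ S, coeff d (monomial x (coeff x f)) = if d.degree < r then coeff d f else 0 := by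
      have : ∀ x ∈ S, coeff d (monomial x (coeff x f)) = if d = x then coeff x f else 0 :=
        fun x _ => coeff_monomial _ _ _
      rw [Finset.sum_congr rfl this]
      simp only [Finset.sum_ite_eq, hmS]
    have h2 : ∑ x ∈ T, coeff d (monomial x (1 : W) * F x) =
        if r ≤ d.degree then coeff d f else 0 := by
      have h3 : ∀ x ∈ T, coeff d (monomial x (1 : W) * F x) =
          if ε d = x ∧ r ≤ d.degree then coeff d f else 0 := by
        intro x hx
        rw [hmT] at hx
        rw [coeff_monomial_mul]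
        by_cases hxd : x ≤ d
        · rw [if_pos hxd, one_mul]
          have : coeff (d - x) (F x) = F x (d - x) := rfl
          rw [this]
          simp only [hF]
          rw [tsub_add_cancel_of_le hxd]
        · rw [if_neg hxd, if_neg]
          rintro ⟨h4, h5⟩
          exact hxd (h4 ▸ (hε d h5).1)
      rw [Finset.sum_congr rfl h3]
      by_cases hd : r ≤ d.degree
      · simp only [hd, and_true, if_true]
        rw [Finset.sum_ite_eq, if_pos ((hmT _).mpr (hε d hd).2)]
      · simp [hd]
    rw [h1, h2]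
    by_cases hd : r ≤ d.degree
    · rw [if_neg (by omega), if_pos hd, zero_add]
    · rw [if_pos (by omega), if_neg hd, add_zero]
  rw [hdec]
  refine Ideal.add_mem _ (Ideal.sum_mem _ fun d hd => ?_) (Ideal.sum_mem _ fun e he => ?_)
  · rw [hmS] at hd
    obtain ⟨c, hc⟩ := hf d
    have h5 : (monomial d (coeff d f) : MvPowerSeries σ W) =
        C c * (C π ^ (r - d.degree) * monomial d (1 : W)) := by
      rw [hc, ← map_pow, ← mul_assoc, ← map_mul, ← monomial_zero_eq_C_apply,
        monomial_mul_monomial, zero_add, mul_one, mul_comm]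
    rw [h5]
    refine Ideal.mul_mem_left _ _ ?_
    have h6 : gJ σ π ^ r = gJ σ π ^ (r - d.degree) * gJ σ π ^ d.degree := by
      rw [← pow_add]; congr 1; omega
    rw [h6]
    exact Ideal.mul_mem_mul (Ideal.pow_mem_pow C_mem_gJ _) (monomial_mem_gJ _ d rfl)
  · rw [hmT] at he
    exact Ideal.mul_mem_right _ _ (monomial_mem_gJ r e he)

theorem gI_one_eq [Finite σ] {π : W} : gI σ π 1 = gJ σ π := by
  refine le_antisymm ?_ gJ_le
  have := gI_le_pow (σ := σ) (π := π) 1
  rwa [pow_one] at this

theorem gI_eq_pow [Finite σ] {π : W} (r : ℕ) : gI σ π 1 ^ r = gI σ π r := by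
  refine le_antisymm (gI_pow_le r) ?_
  rw [gI_one_eq]
  exact gI_le_pow r

theorem gI_complete {π : W} [IsPrecomplete (Ideal.span {π}) W] (f : ℕ → MvPowerSeries σ W)
    (hf : ∀ r, f (r + 1) - f r ∈ gI σ π r) : ∃ L, ∀ r, L - f r ∈ gI σ π r := by
  have h1 : ∀ d : σ →₀ ℕ, ∃ l : W, ∀ m, π ^ m ∣ l - coeff d (f (m + d.degree)) := by
    intro d
    have h2 : ∀ m, π ^ m ∣ coeff d (f (m + 1 + d.degree)) - coeff d (f (m + d.degree)) := by
      intro m
      have := hf (m + d.degree) d
      rw [map_sub] at this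
      have h3 : m + 1 + d.degree = m + d.degree + 1 := by ring
      rw [h3]
      simpa using this
    have h4 : ∀ {m n : ℕ}, m ≤ n → coeff d (f (m + d.degree)) ≡ coeff d (f (n + d.degree))
        [SMOD (Ideal.span {π} ^ m • ⊤ : Submodule W W)] := by
      intro m n hmn
      induction n, hmn using Nat.le_induction with
      | base => exact SModEq.rfl
      | succ n hmn ih =>
        refine ih.trans ?_
        rw [SModEq.sub_mem, smul_eq_mul, Ideal.mul_top, Ideal.span_singleton_pow,
          Ideal.mem_span_singleton]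
        rw [dvd_sub_comm]
        exact dvd_trans (pow_dvd_pow _ hmn) (h2 n)
    obtain ⟨l, hl⟩ := IsPrecomplete.prec' (I := Ideal.span {π}) _ h4
    refine ⟨l, fun m => ?_⟩
    have := hl m
    rw [SModEq.sub_mem, smul_eq_mul, Ideal.mul_top, Ideal.span_singleton_pow,
      Ideal.mem_span_singleton] at this
    rwa [dvd_sub_comm]
  choose l hl using h1
  obtain ⟨Lf, hLf⟩ : ∃ Lf : MvPowerSeries σ W, ∀ d, coeff d Lf = l d := ⟨fun d => l d, fun d => rfl⟩
  refine ⟨Lf, fun r d => ?_⟩
  have h5 : coeff d (Lf - f r) = l d - coeff d (f r) := by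
    rw [map_sub, hLf]
  rw [h5]
  by_cases hr : d.degree ≤ r
  · have := hl d (r - d.degree)
    rwa [Nat.sub_add_cancel hr] at this
  · have : r - d.degree = 0 := by omega
    rw [this, pow_zero]
    exact one_dvd _

theorem gI_hausdorff {π : W} [IsHausdorff (Ideal.span {π}) W] (f : MvPowerSeries σ W)
    (hf : ∀ r, f ∈ gI σ π r) : f = 0 := by
  ext d
  rw [map_zero]
  refine IsHausdorff.haus (I := Ideal.span {π}) inferInstance _ fun m => ?_
  rw [SModEq.sub_mem, smul_eq_mul, Ideal.mul_top, Ideal.span_singleton_pow,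
    Ideal.mem_span_singleton, sub_zero]
  have := hf (m + d.degree) d
  simpa using this

end gen

end Vale.Agent.P217
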