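import Vale.Agent.P217.E0Defs
import Vale.Agent.P217.E0Gen

/-!
# P217, module E0A: the `m`-adic structure of `E_0` (helper95)
-/

namespace Vale.Agent.P217

open MvPowerSeries

variable {p n : ℕ} [Fact p.Prime] {k : Type*} [Field k] [CharP k p] [PerfectRing k p]

/-! ## E0A -/

theorem resE_surjective : Function.Surjective (resE p n k) := by
  intro x
  obtain ⟨w, hw⟩ := WittVector.constantCoeff_surjective p x
  refine ⟨C w, ?_⟩
  rw [resE, RingHom.comp_apply, constantCoeff_C, hw]

theorem resE_C (w : WittVector p k) : resE p n k (C w) = WittVector.constantCoeff w := by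
  rw [resE, RingHom.comp_apply, constantCoeff_C]

theorem resE_X (i : Fin (n - 1)) : resE p n k (X i) = 0 := by
  rw [resE, RingHom.comp_apply, constantCoeff_X, map_zero]

theorem mE_eq_gI : mE p n k = gI (Fin (n - 1)) (p : WittVector p k) 1 := by
  ext f
  rw [mem_gI_one, mE, RingHom.mem_ker, resE, RingHom.comp_apply, ← RingHom.mem_ker,
    WittVector.ker_constantCoeff, Ideal.mem_span_singleton]

theorem p_mem_mE : (p : E0 p n k) ∈ mE p n k := by
  rw [mE, RingHom.mem_ker, map_natCast]
  exact CharP.cast_eq_zero k p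

theorem X_mem_mE (i : Fin (n - 1)) : (X i : E0 p n k) ∈ mE p n k := by
  rw [mE, RingHom.mem_ker]
  exact resE_X i

theorem mE_eq_span : mE p n k = Ideal.span ({(p : E0 p n k)} ∪ Set.range (X : Fin (n - 1) → _)) := by
  rw [mE_eq_gI, gI_one_eq, gJ, map_natCast]

theorem isUnit_iff_resE (f : E0 p n k) : IsUnit f ↔ resE p n k f ≠ 0 := by
  rw [MvPowerSeries.isUnit_iff_constantCoeff, resE, RingHom.comp_apply]
  constructor
  · intro h
    exact (h.map WittVector.constantCoeff).ne_zero
  · intro h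
    exact WittVector.isUnit_of_coeff_zero_ne_zero _ h

theorem mE_isMaximal : (mE p n k).IsMaximal :=
  RingHom.ker_isMaximal_of_surjective _ resE_surjective

/-- `m^r` in terms of coefficients. -/
theorem mem_mE_pow_iff (r : ℕ) (f : E0 p n k) : f ∈ mE p n k ^ r ↔
    ∀ d, (p : WittVector p k) ^ (r - d.degree) ∣ coeff d f := by
  rw [mE_eq_gI, gI_eq_pow, mem_gI]

/-- completeness -/
theorem E0_complete (f : ℕ → E0 p n k) (hf : ∀ r, f (r + 1) - f r ∈ mE p n k ^ r) :
    ∃ L, ∀ r, L - f r ∈ mE p n k ^ r := by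
  obtain ⟨L, hL⟩ := gI_complete (π := (p : WittVector p k)) f
    (fun r => by have := hf r; rwa [mE_eq_gI, gI_eq_pow] at this)
  exact ⟨L, fun r => by rw [mE_eq_gI, gI_eq_pow]; exact hL r⟩

/-- separatedness -/
theorem E0_hausdorff (f : E0 p n k) (hf : ∀ r, f ∈ mE p n k ^ r) : f = 0 := by
  refine gI_hausdorff (π := (p : WittVector p k)) f fun r => ?_
  have := hf r
  rwa [mE_eq_gI, gI_eq_pow] at this

end Vale.Agent.P217
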