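import Vale.Agent.P217.AsmDefs0
import Vale.Agent.P217.E0Adic
import Vale.Agent.P217.Arc

/-!
# P217, module AQ1: existence of points in characteristic zero (helper95)

`E_0/Q` for a prime `Q ⊇ J` maximal without `p` is one-dimensional, finite over `W(k)`; embed it in
the algebraically closed field `C'` over `ω` (same method as `Arc.lean`, with `T = p`).
-/

namespace Vale.Agent.P217

open MvPowerSeries Filter Topology

variable {p m : ℕ} [Fact p.Prime] {k : Type*} [Field k] [CharP k p] [PerfectRing k p]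
variable {C' : Type*} [NormedField C'] [IsUltrametricDist C'] [CompleteSpace C'] [IsAlgClosed C']
  [CharZero C']

/-- finite generation modulo powers of an ideal with residue ring a quotient of `W` -/
private theorem fin_modW {W A : Type*} [CommRing W] [CommRing A] [Algebra W A] (𝔪 : Ideal A)
    [IsNoetherianRing A] (h : ∀ x : A, ∃ c : W, x - algebraMap W A c ∈ 𝔪) (N : ℕ) :
    ∃ S : Finset A, ∀ x : A, ∃ y ∈ Submodule.span W (S : Set A), x - y ∈ 𝔪 ^ N := by
  classical
  induction N with
  | zero => exact ⟨∅, fun x => ⟨0, Submodule.zero_mem _, by simp⟩⟩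
  | succ N ih =>
    obtain ⟨S, hS⟩ := ih
    obtain ⟨G, hG⟩ := IsNoetherian.noetherian (𝔪 ^ N)
    refine ⟨S ∪ G, fun x => ?_⟩
    obtain ⟨y, hy, hxy⟩ := hS x
    rw [← hG] at hxy
    obtain ⟨a, -, ha⟩ := Submodule.mem_span_finset.mp hxy
    choose c hc using h
    refine ⟨y + ∑ g ∈ G, c (a g) • g, ?_, ?_⟩
    · refine Submodule.add_mem _ (Submodule.span_mono (by simp) hy) ?_
      refine Submodule.sum_mem _ fun g hg => Submodule.smul_mem _ _ (Submodule.subset_span ?_)
      simp [hg]
    · have h1 : x - (y + ∑ g ∈ G, c (a g) • g) =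
          ∑ g ∈ G, (a g - algebraMap W A (c (a g))) * g := by
        rw [← sub_sub, ← ha, ← Finset.sum_sub_distrib]
        refine Finset.sum_congr rfl fun g _ => ?_
        rw [sub_mul, smul_eq_mul, Algebra.smul_def]
      rw [h1, pow_succ']
      refine Ideal.sum_mem _ fun g hg => Ideal.mul_mem_mul (hc _) ?_
      rw [← hG]
      exact Submodule.subset_span hg

/-- ring homomorphisms of `W(k)` that do not kill `p` are injective -/
private theorem inj_of_p {B : Type*} [CommRing B] [IsDomain B] (g : WittVector p k →+* B)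
    (hp : g (p : WittVector p k) ≠ 0) : Function.Injective g := by
  rw [injective_iff_map_eq_zero]
  intro w hw
  by_contra hne
  obtain ⟨n, hn⟩ := IsDiscreteValuationRing.associated_pow_irreducible hne
    (WittVector.irreducible p (k := k))
  obtain ⟨u, hu⟩ := hn
  have h1 : g ((p : WittVector p k) ^ n) = 0 := by
    rw [← hu, map_mul, hw, zero_mul]
  rw [map_pow] at h1
  exact hp (pow_eq_zero_iff (M₀ := B) (n := n) (by rintro rfl; simp at h1) |>.1 h1)

open Arc IsLocalRing in
omit [CompleteSpace C'] in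
/-- the embedding of a one-dimensional quotient -/
private theorem exists_lift (ω : WittVector p k →+* OO C') {A : Type*} [CommRing A] [IsDomain A]
    [IsNoetherianRing A] [IsLocalRing A] (mk : E0 p (1 + m) k →+* A)
    (hmk : Function.Surjective mk) (hmem : ∀ f ∈ mE p (1 + m) k, mk f ∈ maximalIdeal A) (N : ℕ)
    (hT0 : mk (p : E0 p (1 + m) k) ≠ 0)
    (hN : maximalIdeal A ^ N ≤ Ideal.span {mk (p : E0 p (1 + m) k)}) :
    ∃ lift : A →+* C', (∀ w : WittVector p k, lift (mk (C w)) = ((ω w : OO C') : C')) ∧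
      ∀ x, ‖lift x‖ ≤ 1 := by
  classical
  set T : A := mk (p : E0 p (1 + m) k) with hT
  have hTm : T ∈ maximalIdeal A := hmem _ p_mem_mE
  -- the ring `W(k)`
  let ψ : WittVector p k →+* A := mk.comp (C (σ := Fin (1 + m - 1)) (R := WittVector p k))
  have hψp : ψ (p : WittVector p k) = T := by
    show mk (C (p : WittVector p k)) = mk (p : E0 p (1 + m) k)
    rw [map_natCast]
  let algA : Algebra (WittVector p k) A := ψ.toAlgebra
  have halgA : ∀ s, algebraMap (WittVector p k) A s = ψ s := fun s => rfl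
  have hinjA : Function.Injective (algebraMap (WittVector p k) A) :=
    inj_of_p ψ (by rw [hψp]; exact hT0)
  let I : Ideal (WittVector p k) := Ideal.span {(p : WittVector p k)}
  have hfin : Module.Finite (WittVector p k) A := by
    obtain ⟨S, hS⟩ := fin_modW (W := WittVector p k) (maximalIdeal A) (fun x => by
      obtain ⟨f, rfl⟩ := hmk x
      refine ⟨constantCoeff f, ?_⟩
      have h1 : mk f - algebraMap (WittVector p k) A (constantCoeff f) =
          mk (f - C (constantCoeff f)) := by
        rw [map_sub]; rfl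
      rw [h1]
      refine hmem _ ?_
      show resE p (1 + m) k _ = 0
      show WittVector.constantCoeff (constantCoeff (f - C (constantCoeff f))) = 0
      simp) N
    let L : (Fin S.card → WittVector p k) →ₗ[WittVector p k] A :=
      Fintype.linearCombination (WittVector p k) fun i => ((S.equivFin.symm i : S) : A)
    have hH : IsHausdorff I A := by
      rw [← IsHausdorff.map_algebraMap_iff (S := A)]
      have h1 : I.map (algebraMap (WittVector p k) A) = Ideal.span {T} := by
        rw [Ideal.map_span, Set.image_singleton, halgA, hψp]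
      rw [h1]
      refine IsHausdorff.of_isDomain (R := A) (I := Ideal.span {T}) ?_
      intro h2
      have h3 : Ideal.span {T} ≤ maximalIdeal A := by
        rw [Ideal.span_singleton_le_iff_mem]; exact hTm
      rw [h2] at h3
      exact (IsLocalRing.maximalIdeal.isMaximal A).ne_top (top_le_iff.mp h3)
    have hprec : IsPrecomplete I (WittVector p k) :=
      (WittVector.isAdicCompleteIdealSpanP (p := p) (k := k)).toIsPrecomplete
    have hL : Function.Surjective L := by
      refine surjective_of_mkQ_comp_surjective (I := I) ?_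
      intro z
      obtain ⟨x, rfl⟩ := Submodule.mkQ_surjective _ z
      obtain ⟨y, hy, hxy⟩ := hS x
      obtain ⟨c, -, hc⟩ := Submodule.mem_span_finset.mp hy
      refine ⟨fun i => c (S.equivFin.symm i : S), ?_⟩
      have h1 : L (fun i => c (S.equivFin.symm i : S)) = y := by
        rw [Fintype.linearCombination_apply, ← hc]
        rw [Equiv.sum_comp S.equivFin.symm (fun s : S => c (s : A) • (s : A)),
          Finset.sum_coe_sort S (fun a => c a • a)]
      show Submodule.mkQ _ (L _) = _
      rw [h1]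
      rw [Submodule.mkQ_apply, Submodule.mkQ_apply, Submodule.Quotient.eq]
      have h3 : y - x ∈ Ideal.span {T} := by
        rw [← neg_sub]
        exact neg_mem (hN hxy)
      obtain ⟨b, hb⟩ := Ideal.mem_span_singleton'.mp h3
      have h4 : y - x = (p : WittVector p k) • b := by
        rw [Algebra.smul_def, halgA, hψp, ← hb, mul_comm]
      rw [h4]
      exact Submodule.smul_mem_smul (Ideal.mem_span_singleton_self _) Submodule.mem_top
    exact Module.Finite.of_surjective L hL
  let ωC : WittVector p k →+* C' := (OO C').subtype.comp ω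
  have hωp : ωC (p : WittVector p k) = (p : C') := by rw [map_natCast]
  have hpC0 : (p : C') ≠ 0 := by
    exact_mod_cast (Fact.out : p.Prime).ne_zero
  let algC : Algebra (WittVector p k) C' := ωC.toAlgebra
  have halgC : ∀ s, algebraMap (WittVector p k) C' s = ωC s := fun s => rfl
  have hinjC : Function.Injective (algebraMap (WittVector p k) C') :=
    inj_of_p ωC (by rw [hωp]; exact hpC0)
  have hfA : FaithfulSMul (WittVector p k) A :=
    (faithfulSMul_iff_algebraMap_injective _ _).mpr hinjA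
  have hfC : FaithfulSMul (WittVector p k) C' :=
    (faithfulSMul_iff_algebraMap_injective _ _).mpr hinjC
  let lift : A →ₐ[WittVector p k] C' := IsAlgClosed.lift
  have hle : ∀ x : A, ‖lift x‖ ≤ 1 := by
    intro x
    have h1 : IsIntegral (WittVector p k) x := Algebra.IsIntegral.isIntegral x
    have h2 : IsIntegral (WittVector p k) (lift x) := h1.map lift
    exact norm_le_one_of_integral (algebraMap (WittVector p k) C')
      (fun s => (ω s).2) h2
  have hliftT : lift T = (p : C') := by
    rw [← hψp, ← halgA, AlgHom.commutes, halgC, hωp]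
  refine ⟨lift, fun w => ?_, hle⟩
  have : mk (C w) = algebraMap (WittVector p k) A w := rfl
  rw [this]
  show lift _ = _
  rw [AlgHom.commutes, halgC]
  rfl

open Arc IsLocalRing in
omit [CompleteSpace C'] in
/-- AQ1 for a prime ideal `P`. -/
private theorem exists_pt_prime (hp1 : ‖(p : C')‖ < 1) (ω : WittVector p k →+* OO C')
    (P : Ideal (E0 p (1 + m) k)) (hP : P.IsPrime) (hu : (p : E0 p (1 + m) k) ∉ P) :
    ∃ (χ : E0 p (1 + m) k →+* C') (r : ℝ), 0 ≤ r ∧ r < 1 ∧
      (∀ w : WittVector p k, χ (C w) = ((ω w : OO C') : C')) ∧ (∀ f, ‖χ f‖ ≤ 1) ∧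
      (∀ f ∈ mE p (1 + m) k, ‖χ f‖ ≤ r) ∧ ∀ f ∈ P, χ f = 0 := by
  classical
  -- the prime `Q`
  obtain ⟨Q, ⟨hQ, hPQ, hgQ⟩, hQmax⟩ := set_has_maximal_iff_noetherian.mpr
    (inferInstance : IsNoetherian (E0 p (1 + m) k) (E0 p (1 + m) k))
    {Q : Submodule (E0 p (1 + m) k) (E0 p (1 + m) k) |
      Ideal.IsPrime Q ∧ P ≤ Q ∧ (p : E0 p (1 + m) k) ∉ Q} ⟨P, hP, le_rfl, hu⟩
  have hQ' : Ideal.IsPrime Q := hQ
  have hlocR : IsLocalRing (E0 p (1 + m) k) := inferInstance
  let A := E0 p (1 + m) k ⧸ Q
  let mk : E0 p (1 + m) k →+* A := Ideal.Quotient.mk Q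
  have hmk : Function.Surjective mk := Ideal.Quotient.mk_surjective
  have hlocal : IsLocalRing A := IsLocalRing.of_surjective' mk hmk
  have hdomA : IsDomain A := Ideal.Quotient.isDomain Q
  have hnoethA : IsNoetherianRing A := inferInstance
  have hmem : ∀ f ∈ mE p (1 + m) k, mk f ∈ maximalIdeal A := by
    intro f hf
    rw [mem_maximalIdeal, mem_nonunits_iff]
    intro hu
    obtain ⟨b, hb⟩ := hu.exists_right_inv
    obtain ⟨b, rfl⟩ := hmk b
    have h1 : f * b - 1 ∈ Q := by
      rw [← Ideal.Quotient.mk_eq_mk_iff_sub_mem, map_mul, map_one]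
      exact hb
    have hf0 : resE p (1 + m) k f = 0 := hf
    have h2 : IsUnit (f * b - 1) := by
      rw [isUnit_iff_resE, map_sub, map_mul, hf0, zero_mul, map_one, zero_sub]
      exact neg_ne_zero.2 one_ne_zero
    exact hQ'.ne_top (Ideal.eq_top_of_isUnit_mem Q h1 h2)
  let T : A := mk (p : E0 p (1 + m) k)
  have hT0 : T ≠ 0 := by
    intro h
    exact hgQ (Ideal.Quotient.eq_zero_iff_mem.mp h)
  have hTm : T ∈ maximalIdeal A := hmem _ p_mem_mE
  have hTQ : ∀ Q' : Ideal A, Q'.IsPrime → Q' ≠ ⊥ → T ∈ Q' := by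
    intro Q' hQ'p hQ'0
    by_contra hcon
    have h1 : (Q'.comap mk).IsPrime := Ideal.IsPrime.comap mk
    have h2 : Q ≤ Q'.comap mk := by
      intro f hf
      have : mk f = 0 := Ideal.Quotient.eq_zero_iff_mem.mpr hf
      rw [Ideal.mem_comap, this]
      exact Q'.zero_mem
    refine hQmax _ ⟨h1, hPQ.trans h2, hcon⟩ (lt_of_le_of_ne h2 fun h3 => hQ'0 ?_)
    rw [eq_bot_iff]
    intro x hx
    obtain ⟨f, rfl⟩ := hmk x
    have h4 : f ∈ Q := by rw [h3]; exact hx
    exact (Submodule.mem_bot A).mpr (Ideal.Quotient.eq_zero_iff_mem.mpr h4)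
  obtain ⟨N, hN⟩ := pow_le_span hT0 hTm hTQ
  obtain ⟨lift, hliftC, hle⟩ := exists_lift ω mk hmk hmem N hT0 hN
  have hliftT : lift T = (p : C') := by
    have h1 : T = mk (C (p : WittVector p k)) := by
      show mk (p : E0 p (1 + m) k) = _
      rw [map_natCast C]
    rw [h1, hliftC, map_natCast]
    rfl
  refine ⟨lift.comp mk, ‖(p : C')‖ ^ (1 / ((N : ℝ) + 1)),
    Real.rpow_nonneg (norm_nonneg _) _, ?_, ?_, ?_, ?_, ?_⟩
  · exact Real.rpow_lt_one (norm_nonneg _) hp1 (by positivity)
  · intro w
    exact hliftC w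
  · intro f
    exact hle _
  · intro f hf
    show ‖lift (mk f)‖ ≤ _
    have h1 : mk f ^ (N + 1) ∈ Ideal.span {T} := by
      have h2 := Ideal.pow_mem_pow (hmem f hf) (N + 1)
      exact hN (Ideal.pow_le_pow_right (Nat.le_succ N) h2)
    obtain ⟨b, hb⟩ := Ideal.mem_span_singleton'.mp h1
    have h3 : ‖lift (mk f)‖ ^ (N + 1) ≤ ‖(p : C')‖ := by
      rw [← norm_pow, ← map_pow, ← hb, map_mul, norm_mul, hliftT]
      exact mul_le_of_le_one_left (norm_nonneg _) (hle b)
    have h4 : ‖lift (mk f)‖ = (‖lift (mk f)‖ ^ (N + 1)) ^ (1 / ((N : ℝ) + 1)) := by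
      rw [← Real.rpow_natCast, ← Real.rpow_mul (norm_nonneg _)]
      push_cast
      rw [mul_one_div_cancel (by positivity), Real.rpow_one]
    rw [h4]
    exact Real.rpow_le_rpow (by positivity) h3 (by positivity)
  · intro f hf
    show lift (mk f) = 0
    have h1 : mk f = 0 := Ideal.Quotient.eq_zero_iff_mem.mpr (hPQ hf)
    rw [h1, map_zero]

/-- AQ1: existence of points in characteristic zero. -/
theorem exists_chi0 (hp1 : ‖(p : C')‖ < 1) (ω : WittVector p k →+* OO C')
    (J : Ideal (E0 p (1 + m) k)) (hJ : J.IsRadical)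
    (hu : (p : E0 p (1 + m) k) ∉ J) :
    ∃ (χ : E0 p (1 + m) k →+* OO C') (r : ℝ), Pt0 ω r χ ∧ ∀ f ∈ J, χ f = 0 := by
  obtain ⟨P, hJP, hP, hpP⟩ : ∃ P : Ideal (E0 p (1 + m) k), J ≤ P ∧ P.IsPrime ∧
      (p : E0 p (1 + m) k) ∉ P := by
    by_contra hcon
    push Not at hcon
    apply hu
    rw [← hJ.radical, Ideal.radical_eq_sInf, Ideal.mem_sInf]
    intro P hP
    exact hcon P hP.1 hP.2
  obtain ⟨χ, r, hr0, hr1, hC, h1, hm, hv⟩ := exists_pt_prime hp1 ω P hP hpP
  refine ⟨χ.codRestrict (OO C') h1, r, ⟨hr0, hr1, ?_, ?_⟩, ?_⟩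
  · intro w
    exact Subtype.ext (hC w)
  · intro f hf
    exact hm f hf
  · intro f hf
    exact Subtype.ext (hv f (hJP hf))

end Vale.Agent.P217
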