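import Vale.Agent.P217.FELInt

/-!
# P217, module FGL: existence of the Hazewinkel group law over `ℤ[v]` and its formal properties
(the theorems of `Points.lean`, section `formal`, are deduced from this file)
-/

namespace Vale.Agent.P217

open MvPowerSeries

section formalA

variable (p n : ℕ) [Fact p.Prime]

/-! ### Auxiliary facts -/

/-- `ℤ[v] → ℚ[v]` -/
noncomputable def fgaI : MvPolynomial ℕ ℤ →+* MvPolynomial ℕ ℚ :=
  MvPolynomial.map (Int.castRingHom ℚ)

theorem fgaI_inj : Function.Injective fgaI :=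
  MvPolynomial.map_injective _ (RingHom.injective_int _)

theorem fga_map_inj {τ : Type*} : Function.Injective
    (MvPowerSeries.map fgaI : MvPowerSeries τ (MvPolynomial ℕ ℤ) →+* _) := by
  intro a b h
  refine MvPowerSeries.ext fun m => ?_
  have h1 := congrArg (coeff m) h
  rw [coeff_map, coeff_map] at h1
  exact fgaI_inj h1

theorem fga_specQ_X : specQ (MvPolynomial.X : ℕ → MvPolynomial ℕ ℚ) = RingHom.id _ := by
  refine MvPolynomial.ringHom_ext ?_ ?_
  · intro q
    unfold specQ
    rw [MvPolynomial.coe_eval₂Hom, MvPolynomial.eval₂_C]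
    rfl
  · intro j
    unfold specQ
    rw [MvPolynomial.coe_eval₂Hom, MvPolynomial.eval₂_X]
    rfl

omit [Fact p.Prime] in
theorem fga_logOf_X : logOf p n (MvPolynomial.X : ℕ → MvPolynomial ℕ ℚ) = logQ p n := by
  unfold logOf
  rw [fga_specQ_X, PowerSeries.map_id]
  rfl

theorem fga_D_f : (univData p n).f = logQ p n := by
  rw [← fga_logOf_X]
  unfold FELData.f
  congr 1
  funext j
  exact MvPolynomial.map_X _ j

theorem fga_D_iota : (univData p n).ι = fgaI := rfl

theorem fga_logQ_constantCoeff : PowerSeries.constantCoeff (logQ p n) = 0 := by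
  rw [← fga_logOf_X]
  exact logOf_constantCoeff p n _

theorem fga_logQ_inj {τ : Type*} (a b : MvPowerSeries τ (MvPolynomial ℕ ℚ))
    (ha : constantCoeff a = 0) (hb : constantCoeff b = 0)
    (h : (logQ p n).subst a = (logQ p n).subst b) : a = b := by
  rw [← fga_logOf_X] at h
  exact logOf_inj p n _ a b ha hb h

theorem fga_cc_map {τ : Type*} {R S : Type*} [CommRing R] [CommRing S] (φ : R →+* S)
    (a : MvPowerSeries τ R) (ha : constantCoeff a = 0) : constantCoeff (map φ a) = 0 := by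
  rw [← coeff_zero_eq_constantCoeff_apply, coeff_map, coeff_zero_eq_constantCoeff_apply, ha,
    map_zero]

theorem fga_op_add {τ : Type*} (G H : MvPowerSeries τ (MvPolynomial ℕ ℚ)) :
    (univData p n).op (G + H) = (univData p n).op G + (univData p n).op H := by
  unfold FELData.op
  rw [← Finset.sum_add_distrib]
  refine Finset.sum_congr rfl fun j _ => ?_
  rw [map_add, map_add, mul_add]

theorem fga_op_neg {τ : Type*} (G : MvPowerSeries τ (MvPolynomial ℕ ℚ)) :
    (univData p n).op (-G) = -(univData p n).op G := by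
  unfold FELData.op
  rw [← Finset.sum_neg_distrib]
  refine Finset.sum_congr rfl fun j _ => ?_
  rw [map_neg, map_neg, mul_neg]

theorem fga_exists : ∃ F : MvPowerSeries (Fin 2) (MvPolynomial ℕ ℤ),
    IsFGLQ p n (F.map (MvPolynomial.map (Int.castRingHom ℚ))) := by
  have hX : ∀ i : Fin 2, ∃ γ : MvPowerSeries (Fin 2) (MvPolynomial ℕ ℤ),
      (logQ p n).subst (X i : MvPowerSeries (Fin 2) (MvPolynomial ℕ ℚ)) -
      (univData p n).op ((logQ p n).subst (X i : MvPowerSeries (Fin 2) (MvPolynomial ℕ ℚ))) =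
      map fgaI γ := by
    intro i
    obtain ⟨γ, hγ⟩ := (univData p n).closure (X i : MvPowerSeries (Fin 2) (MvPolynomial ℕ ℤ))
      (constantCoeff_X i)
    refine ⟨γ, ?_⟩
    rw [fga_D_f, map_X] at hγ
    exact hγ
  obtain ⟨γ0, h0⟩ := hX 0
  obtain ⟨γ1, h1⟩ := hX 1
  have hcc : ∀ i : Fin 2, constantCoeff ((logQ p n).subst
      (X i : MvPowerSeries (Fin 2) (MvPolynomial ℕ ℚ))) = 0 := fun i =>
    PowerSeries.constantCoeff_subst_eq_zero (constantCoeff_X i) _ (fga_logQ_constantCoeff p n)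
  obtain ⟨α, hα, hL⟩ := (univData p n).integral
    ((logQ p n).subst (X 0 : MvPowerSeries (Fin 2) (MvPolynomial ℕ ℚ)) +
      (logQ p n).subst (X 1 : MvPowerSeries (Fin 2) (MvPolynomial ℕ ℚ)))
    (by rw [map_add, hcc 0, hcc 1, add_zero])
    (by
      refine ⟨γ0 + γ1, ?_⟩
      rw [fga_op_add, add_sub_add_comm, h0, h1, map_add]
      rfl)
  rw [fga_D_f] at hL
  exact ⟨α, fga_cc_map _ α hα, hL⟩

/-- Existence of the integral group law. -/
theorem FZ_spec_fgla : IsFGLQ p n ((FZ p n).map (MvPolynomial.map (Int.castRingHom ℚ))) := by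
  unfold FZ
  rw [dif_pos (fga_exists p n)]
  exact (fga_exists p n).choose_spec

theorem fga_cc : constantCoeff (map fgaI (FZ p n)) = 0 := (FZ_spec_fgla p n).1

theorem fga_log : (logQ p n).subst (map fgaI (FZ p n)) =
    (logQ p n).subst (X 0 : MvPowerSeries (Fin 2) (MvPolynomial ℕ ℚ))
    + (logQ p n).subst (X 1 : MvPowerSeries (Fin 2) (MvPolynomial ℕ ℚ)) := (FZ_spec_fgla p n).2

theorem FZ_constantCoeff_fgla : constantCoeff (FZ p n) = 0 := by
  have h := fga_cc p n
  rw [← coeff_zero_eq_constantCoeff_apply, coeff_map, coeff_zero_eq_constantCoeff_apply] at h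
  exact fgaI_inj (h.trans (map_zero fgaI).symm)

/-- the logarithm of an integral series -/
noncomputable def fgaL {τ : Type*} (a : MvPowerSeries τ (MvPolynomial ℕ ℤ)) :
    MvPowerSeries τ (MvPolynomial ℕ ℚ) := (logQ p n).subst (map fgaI a)

theorem fgaL_inj {τ : Type*} (a b : MvPowerSeries τ (MvPolynomial ℕ ℤ))
    (ha : constantCoeff a = 0) (hb : constantCoeff b = 0) (h : fgaL p n a = fgaL p n b) :
    a = b :=
  fga_map_inj (fga_logQ_inj p n _ _ (fga_cc_map _ a ha) (fga_cc_map _ b hb) h)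

theorem fga_hasSubst {τ : Type*} {R : Type*} [CommRing R] (a b : MvPowerSeries τ R)
    (ha : constantCoeff a = 0) (hb : constantCoeff b = 0) :
    MvPowerSeries.HasSubst ![a, b] :=
  hasSubst_of_constantCoeff_zero (by
    intro s
    fin_cases s
    · exact ha
    · exact hb)

theorem fga_cc_subst {τ : Type*} {R : Type*} [CommRing R] (F : MvPowerSeries (Fin 2) R)
    (hF : constantCoeff F = 0) (a b : MvPowerSeries τ R)
    (ha : constantCoeff a = 0) (hb : constantCoeff b = 0) :
    constantCoeff (F.subst ![a, b]) = 0 :=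
  constantCoeff_subst_eq_zero (fga_hasSubst a b ha hb) (by
    intro s
    fin_cases s
    · exact ha
    · exact hb) hF

/-- the additivity of the logarithm, over any ring with a two-variable series satisfying
the functional equation -/
theorem fga_log_subst {τ : Type*} {R : Type*} [CommRing R] (f : PowerSeries R)
    (F : MvPowerSeries (Fin 2) R) (hF : constantCoeff F = 0)
    (h : f.subst F = f.subst (X 0 : MvPowerSeries (Fin 2) R) +
      f.subst (X 1 : MvPowerSeries (Fin 2) R))
    (a b : MvPowerSeries τ R) (ha : constantCoeff a = 0) (hb : constantCoeff b = 0) :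
    f.subst (F.subst ![a, b]) = f.subst a + f.subst b := by
  have hs := fga_hasSubst a b ha hb
  have key : ∀ G : MvPowerSeries (Fin 2) R, constantCoeff G = 0 →
      (f.subst G).subst ![a, b] = f.subst (G.subst ![a, b]) := by
    intro G hG
    exact MvPowerSeries.subst_comp_subst_apply
      (PowerSeries.HasSubst.of_constantCoeff_zero hG).const hs f
  have h2 := congrArg (MvPowerSeries.subst ![a, b]) h
  rw [MvPowerSeries.subst_add hs, key F hF, key _ (constantCoeff_X 0), key _ (constantCoeff_X 1),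
    MvPowerSeries.subst_X hs, MvPowerSeries.subst_X hs] at h2
  exact h2

theorem fga_map_subst {τ : Type*} {R S : Type*} [CommRing R] [CommRing S] (φ : R →+* S)
    (F : MvPowerSeries (Fin 2) R) (a b : MvPowerSeries τ R) (ha : constantCoeff a = 0)
    (hb : constantCoeff b = 0) :
    map φ (F.subst ![a, b]) = (map φ F).subst ![map φ a, map φ b] := by
  rw [MvPowerSeries.map_subst (fga_hasSubst a b ha hb)]
  congr 1
  funext i
  fin_cases i <;> rfl

theorem fgaL_add {τ : Type*} (a b : MvPowerSeries τ (MvPolynomial ℕ ℤ))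
    (ha : constantCoeff a = 0) (hb : constantCoeff b = 0) :
    fgaL p n ((FZ p n).subst ![a, b]) = fgaL p n a + fgaL p n b := by
  unfold fgaL
  rw [fga_map_subst fgaI (FZ p n) a b ha hb]
  exact fga_log_subst (logQ p n) _ (fga_cc p n) (fga_log p n) _ _ (fga_cc_map _ a ha)
    (fga_cc_map _ b hb)

theorem fgaL_zero {τ : Type*} : fgaL p n (0 : MvPowerSeries τ (MvPolynomial ℕ ℤ)) = 0 := by
  unfold fgaL
  rw [map_zero]
  exact PowerSeries.subst_zero_of_constantCoeff_zero (fga_logQ_constantCoeff p n)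

theorem FZ_X_zero_fgla : (FZ p n).subst
    ![(PowerSeries.X : PowerSeries (MvPolynomial ℕ ℤ)), 0] = PowerSeries.X := by
  have hX : MvPowerSeries.constantCoeff (PowerSeries.X : PowerSeries (MvPolynomial ℕ ℤ)) = 0 :=
    PowerSeries.constantCoeff_X
  have h0 : MvPowerSeries.constantCoeff (0 : PowerSeries (MvPolynomial ℕ ℤ)) = 0 :=
    map_zero _
  refine fgaL_inj p n _ _ (fga_cc_subst _ (FZ_constantCoeff_fgla p n) _ _ hX h0) hX ?_
  refine (fgaL_add p n _ _ hX h0).trans ?_
  refine (congrArg (fun t => fgaL p n (PowerSeries.X : PowerSeries (MvPolynomial ℕ ℤ)) + t)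
    (fgaL_zero p n)).trans ?_
  exact add_zero _

theorem FZ_comm_fgla : (FZ p n).subst
    ![(X 1 : MvPowerSeries (Fin 2) (MvPolynomial ℕ ℤ)), X 0] = FZ p n := by
  refine fgaL_inj p n _ _ (fga_cc_subst _ (FZ_constantCoeff_fgla p n) _ _ (constantCoeff_X _)
    (constantCoeff_X _)) (FZ_constantCoeff_fgla p n) ?_
  rw [fgaL_add p n _ _ (constantCoeff_X _) (constantCoeff_X _)]
  unfold fgaL
  rw [map_X, map_X, fga_log, add_comm]

theorem FZ_assoc_fgla : (FZ p n).subst
    ![(FZ p n).subst ![(X 0 : MvPowerSeries (Fin 3) (MvPolynomial ℕ ℤ)), X 1], X 2]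
    = (FZ p n).subst
      ![X 0, (FZ p n).subst ![(X 1 : MvPowerSeries (Fin 3) (MvPolynomial ℕ ℤ)), X 2]] := by
  have hF := FZ_constantCoeff_fgla p n
  have hx : ∀ i : Fin 3, constantCoeff (X i : MvPowerSeries (Fin 3) (MvPolynomial ℕ ℤ)) = 0 :=
    fun i => constantCoeff_X i
  have h01 := fga_cc_subst _ hF _ _ (hx 0) (hx 1)
  have h12 := fga_cc_subst _ hF _ _ (hx 1) (hx 2)
  refine fgaL_inj p n _ _ (fga_cc_subst _ hF _ _ h01 (hx 2))
    (fga_cc_subst _ hF _ _ (hx 0) h12) ?_
  rw [fgaL_add p n _ _ h01 (hx 2), fgaL_add p n _ _ (hx 0) (hx 1), fgaL_add p n _ _ (hx 0) h12,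
    fgaL_add p n _ _ (hx 1) (hx 2), add_assoc]

theorem exists_invZ_fgla : ∃ g : PowerSeries (MvPolynomial ℕ ℤ),
    PowerSeries.constantCoeff g = 0 ∧
    (FZ p n).subst ![(PowerSeries.X : PowerSeries (MvPolynomial ℕ ℤ)), g] = 0 := by
  have hX : MvPowerSeries.constantCoeff (PowerSeries.X : PowerSeries (MvPolynomial ℕ ℤ)) = 0 :=
    PowerSeries.constantCoeff_X
  obtain ⟨γ, hγ⟩ := (univData p n).closure (PowerSeries.X : PowerSeries (MvPolynomial ℕ ℤ)) hX
  rw [fga_D_f] at hγ
  have hcc : MvPowerSeries.constantCoeff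
      (fgaL p n (PowerSeries.X : PowerSeries (MvPolynomial ℕ ℤ))) = 0 :=
    PowerSeries.constantCoeff_subst_eq_zero (fga_cc_map _ _ hX) _ (fga_logQ_constantCoeff p n)
  obtain ⟨g, hg, hL⟩ := (univData p n).integral
    (-(fgaL p n (PowerSeries.X : PowerSeries (MvPolynomial ℕ ℤ))))
    (by rw [map_neg, hcc, neg_zero])
    (by
      refine ⟨-γ, ?_⟩
      rw [fga_op_neg, sub_neg_eq_add, map_neg, ← hγ, neg_sub]
      unfold fgaL
      rw [fga_D_iota, neg_add_eq_sub])
  rw [fga_D_f] at hL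
  have hL' : fgaL p n g = -(fgaL p n (PowerSeries.X : PowerSeries (MvPolynomial ℕ ℤ))) := hL
  refine ⟨g, hg, ?_⟩
  have h0 : MvPowerSeries.constantCoeff (0 : PowerSeries (MvPolynomial ℕ ℤ)) = 0 :=
    map_zero _
  refine fgaL_inj p n _ _ (fga_cc_subst _ (FZ_constantCoeff_fgla p n) _ _ hX hg) h0 ?_
  refine (fgaL_add p n _ _ hX hg).trans ?_
  rw [hL', add_neg_cancel]
  exact (fgaL_zero p n).symm

theorem fga_spec {K : Type*} [CommRing K] [Algebra ℚ K] (v : ℕ → K) :
    spec v = (specQ v).comp fgaI := by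
  refine MvPolynomial.ringHom_ext ?_ ?_
  · intro q
    unfold spec specQ fgaI
    rw [RingHom.comp_apply, MvPolynomial.map_C, MvPolynomial.coe_eval₂Hom,
      MvPolynomial.coe_eval₂Hom, MvPolynomial.eval₂_C, MvPolynomial.eval₂_C]
    exact RingHom.congr_fun (RingHom.ext_int (Int.castRingHom K)
      ((algebraMap ℚ K).comp (Int.castRingHom ℚ))) q
  · intro j
    unfold spec specQ fgaI
    rw [RingHom.comp_apply, MvPolynomial.map_X, MvPolynomial.coe_eval₂Hom,
      MvPolynomial.coe_eval₂Hom, MvPolynomial.eval₂_X, MvPolynomial.eval₂_X]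

omit [Fact p.Prime] in
theorem fga_Fv {K : Type*} [CommRing K] [Algebra ℚ K] (v : ℕ → K) :
    Fv p n v = map (specQ v) (map fgaI (FZ p n)) := by
  unfold Fv
  rw [fga_spec v]
  rfl

/-- The logarithm of `F_v` over a `ℚ`-algebra. -/
theorem logOf_Fv {K : Type*} [CommRing K] [Algebra ℚ K] (v : ℕ → K) :
    (logOf p n v).subst (Fv p n v) = (logOf p n v).subst (X 0 : MvPowerSeries (Fin 2) K)
      + (logOf p n v).subst (X 1 : MvPowerSeries (Fin 2) K) := by
  have h := congrArg (map (specQ v)) (fga_log p n)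
  rw [map_add] at h
  rw [PowerSeries.map_subst (PowerSeries.HasSubst.of_constantCoeff_zero (fga_cc p n)),
    PowerSeries.map_subst (PowerSeries.HasSubst.of_constantCoeff_zero (constantCoeff_X _)),
    PowerSeries.map_subst (PowerSeries.HasSubst.of_constantCoeff_zero (constantCoeff_X _)),
    map_X, map_X, ← fga_Fv] at h
  exact h

theorem fga_ellOf_congr {K : Type*} [CommRing K] [Algebra ℚ K] (v w : ℕ → K)
    (h : ∀ j, 1 ≤ j → j ≤ n → v j = w j) (k : ℕ) : ellOf p n v k = ellOf p n w k := by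
  induction k using Nat.strong_induction_on with
  | _ k ih =>
  rcases Nat.eq_zero_or_pos k with hk | hk
  · subst hk
    rw [ellOf_zero, ellOf_zero]
  · obtain ⟨k, rfl⟩ : ∃ j, k = j + 1 := ⟨k - 1, by omega⟩
    have hp : (p : ℚ) ≠ 0 := Nat.cast_ne_zero.2 (Fact.out : p.Prime).ne_zero
    have h1 : algebraMap ℚ K ((p : ℚ)⁻¹) * (p : K) = 1 := by
      rw [← map_natCast (algebraMap ℚ K) p, ← map_mul, inv_mul_cancel₀ hp, map_one]
    have h2 : (p : K) * ellOf p n v (k + 1) = (p : K) * ellOf p n w (k + 1) := by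
      rw [ellOf_succ, ellOf_succ]
      refine Finset.sum_congr rfl fun i hi => ?_
      rw [Finset.mem_range] at hi
      by_cases hin : k + 1 - i ≤ n
      · rw [if_pos hin, if_pos hin, ih i hi, h (k + 1 - i) (by omega) hin]
      · rw [if_neg hin, if_neg hin]
    have h3 := congrArg (fun t => algebraMap ℚ K ((p : ℚ)⁻¹) * t) h2
    simp only [← mul_assoc, h1, one_mul] at h3
    exact h3

theorem fga_logOf_congr {K : Type*} [CommRing K] [Algebra ℚ K] (v w : ℕ → K)
    (h : ∀ j, 1 ≤ j → j ≤ n → v j = w j) : logOf p n v = logOf p n w := by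
  ext d
  rw [logOf_coeff, logOf_coeff, fga_ellOf_congr p n v w h]

/-- the truncation of the parameters -/
noncomputable def fgaT (R : Type*) [CommRing R] : ℕ → MvPolynomial ℕ R := fun j =>
  if 1 ≤ j ∧ j ≤ n then MvPolynomial.X j else 0

theorem fga_comp : fgaI.comp (spec (fgaT n ℤ)) = (specQ (fgaT n ℚ)).comp fgaI := by
  refine MvPolynomial.ringHom_ext ?_ ?_
  · intro q
    unfold spec specQ fgaI
    rw [RingHom.comp_apply, RingHom.comp_apply, MvPolynomial.map_C, MvPolynomial.coe_eval₂Hom,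
      MvPolynomial.coe_eval₂Hom, MvPolynomial.eval₂_C, MvPolynomial.eval₂_C]
    rw [eq_intCast, map_intCast, eq_intCast, map_intCast]
  · intro j
    unfold spec specQ fgaI
    rw [RingHom.comp_apply, RingHom.comp_apply, MvPolynomial.map_X, MvPolynomial.coe_eval₂Hom,
      MvPolynomial.coe_eval₂Hom, MvPolynomial.eval₂_X, MvPolynomial.eval₂_X]
    unfold fgaT
    split_ifs
    · exact MvPolynomial.map_X _ j
    · exact map_zero _

theorem fga_Fv_T : Fv p n (fgaT n ℤ) = FZ p n := by
  apply fga_map_inj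
  have h1 : map fgaI (Fv p n (fgaT n ℤ)) = Fv p n (fgaT n ℚ) := by
    rw [fga_Fv p n (fgaT n ℚ)]
    unfold Fv
    refine MvPowerSeries.ext fun m => ?_
    rw [coeff_map, coeff_map, coeff_map, coeff_map]
    have := RingHom.congr_fun (fga_comp n) (coeff m (FZ p n))
    rw [RingHom.comp_apply, RingHom.comp_apply] at this
    rw [this]
  rw [h1]
  have hF : constantCoeff (Fv p n (fgaT n ℚ)) = 0 := by
    rw [fga_Fv]
    exact fga_cc_map _ _ (fga_cc p n)
  refine fga_logQ_inj p n _ _ hF (fga_cc p n) ?_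
  have h2 : logOf p n (fgaT n ℚ) = logQ p n := by
    rw [← fga_logOf_X]
    refine fga_logOf_congr p n _ _ ?_
    intro j h1 h2
    unfold fgaT
    rw [if_pos ⟨h1, h2⟩]
  have h3 := logOf_Fv p n (fgaT n ℚ)
  rw [h2] at h3
  rw [h3, fga_log]

theorem fga_vars (j : ℕ) (hj : j = 0 ∨ n < j) (P : MvPolynomial ℕ ℤ) :
    j ∉ (spec (fgaT n ℤ) P).vars := by
  classical
  intro h
  have h1 : spec (fgaT n ℤ) P = MvPolynomial.bind₁ (fgaT n ℤ) P := by
    unfold spec
    rw [MvPolynomial.coe_eval₂Hom, MvPolynomial.bind₁, MvPolynomial.aeval_def]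
    congr 1
  rw [h1] at h
  obtain ⟨i, _, hi⟩ := MvPolynomial.mem_vars_bind₁ _ _ h
  unfold fgaT at hi
  split_ifs at hi with h2
  · rw [MvPolynomial.vars_X, Finset.mem_singleton] at hi
    omega
  · rw [MvPolynomial.vars_0] at hi
    exact absurd hi (Finset.notMem_empty j)

/-- `F` only involves `v_1, …, v_n`. -/
theorem FZ_vars_fgla (e : Fin 2 →₀ ℕ) (j : ℕ) (hj : j = 0 ∨ n < j) :
    j ∉ (coeff e (FZ p n)).vars := by
  rw [← fga_Fv_T p n]
  unfold Fv
  rw [coeff_map]
  exact fga_vars n j hj _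

end formalA

end Vale.Agent.P217
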