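import Vale.Agent.P217.Phi
import Vale.Agent.P217.FGLA

/-!
# P217, module KI6 (helper66): the endomorphisms `w X^(p^j)` of `Γ_n`
-/

namespace Vale.Agent.P217

open MvPowerSeries Filter Topology

section alg

variable {p n h : ℕ} [Fact p.Prime] {R : Type*} [CommRing R] [Algebra ℚ R]

theorem ki6_ell_scale [IsDomain R] [CharZero R] (c : R) (hc : c ^ (p ^ h) = c)
    (k : ℕ) : ellOf p n (Gam h : ℕ → R) k * c ^ (p ^ k) = ellOf p n (Gam h : ℕ → R) k * c := by
  induction k using Nat.strong_induction_on with
  | _ k ih =>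
  rcases Nat.eq_zero_or_pos k with hk | hk
  · subst hk
    rw [pow_zero, pow_one]
  · obtain ⟨k, rfl⟩ : ∃ j, k = j + 1 := ⟨k - 1, by omega⟩
    have hp : (p : R) ≠ 0 := Nat.cast_ne_zero.2 (Fact.out : p.Prime).ne_zero
    apply mul_left_cancel₀ hp
    rw [← mul_assoc, ← mul_assoc, ellOf_succ, Finset.sum_mul, Finset.sum_mul]
    refine Finset.sum_congr rfl fun i hi => ?_
    rw [Finset.mem_range] at hi
    by_cases h1 : k + 1 - i ≤ n
    · rw [if_pos h1]
      by_cases h2 : k + 1 - i = h
      · have h3 : (Gam h : ℕ → R) (k + 1 - i) = 1 := by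
          unfold Gam
          rw [if_pos h2]
        rw [h3, one_pow, mul_one]
        have h4 : c ^ p ^ (k + 1) = c ^ (p ^ i) := by
          have h5 : k + 1 = h + i := by omega
          rw [h5, pow_add, pow_mul, hc]
        rw [h4]
        exact ih i (by omega)
      · have h3 : (Gam h : ℕ → R) (k + 1 - i) = 0 := by
          unfold Gam
          rw [if_neg h2]
        rw [h3, zero_pow (pow_ne_zero _ (Fact.out : p.Prime).ne_zero), mul_zero, zero_mul, zero_mul]
    · rw [if_neg h1, zero_mul, zero_mul]

theorem ki6_rescale [IsDomain R] [CharZero R] (c : R) (hc : c ^ (p ^ h) = c) :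
    PowerSeries.rescale c (logOf p n (Gam h : ℕ → R)) =
      PowerSeries.C c * logOf p n (Gam h : ℕ → R) := by
  ext d
  rw [PowerSeries.coeff_rescale, PowerSeries.coeff_C_mul]
  by_cases hd : ∃ k, d = p ^ k
  · obtain ⟨k, rfl⟩ := hd
    rw [logOf_coeff_pow, mul_comm, ki6_ell_scale c hc, mul_comm]
  · push Not at hd
    rw [logOf_coeff_of_ne p n _ d hd, mul_zero, mul_zero]

theorem ki6_subst_scale {R : Type*} [CommRing R] {τ : Type*} (f : PowerSeries R) (c : R)
    (a : MvPowerSeries τ R) (ha : constantCoeff a = 0) :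
    f.subst (C c * a) = (PowerSeries.rescale c f).subst a := by
  have hs := PowerSeries.HasSubst.of_constantCoeff_zero ha
  rw [PowerSeries.rescale_eq_subst, PowerSeries.subst_comp_subst_apply
    (PowerSeries.HasSubst.smul_X' c) hs, PowerSeries.subst_smul hs, PowerSeries.subst_X hs,
    ← smul_eq_C_mul]

theorem ki6_log_scale [IsDomain R] [CharZero R] (c : R) (hc : c ^ (p ^ h) = c)
    {τ : Type*} (a : MvPowerSeries τ R) (ha : constantCoeff a = 0) :
    (logOf p n (Gam h : ℕ → R)).subst (C c * a) =
      C c * (logOf p n (Gam h : ℕ → R)).subst a := by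
  have hs := PowerSeries.HasSubst.of_constantCoeff_zero ha
  rw [ki6_subst_scale _ _ _ ha, ki6_rescale c hc, ← PowerSeries.smul_eq_C_mul,
    PowerSeries.subst_smul hs, ← smul_eq_C_mul]

theorem ki6_Fv_scale_field [IsDomain R] [CharZero R] (c : R)
    (hc : c ^ (p ^ h) = c) :
    (Fv p n (Gam h : ℕ → R)).subst ![C c * (X 0 : MvPowerSeries (Fin 2) R), C c * X 1] =
      C c * Fv p n (Gam h : ℕ → R) := by
  have hF : constantCoeff (Fv p n (Gam h : ℕ → R)) = 0 := by
    rw [fga_Fv]
    exact fga_cc_map _ _ (fga_cc p n)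
  have h0 : ∀ i : Fin 2, constantCoeff (C c * (X i : MvPowerSeries (Fin 2) R)) = 0 := by
    intro i
    rw [map_mul, constantCoeff_X, mul_zero]
  refine logOf_inj p n (Gam h) _ _ (fga_cc_subst _ hF _ _ (h0 0) (h0 1)) ?_ ?_
  · rw [map_mul, hF, mul_zero]
  · rw [fga_log_subst _ _ hF (logOf_Fv p n _) _ _ (h0 0) (h0 1),
      ki6_log_scale c hc _ (constantCoeff_X _), ki6_log_scale c hc _ (constantCoeff_X _),
      ki6_log_scale c hc _ hF, logOf_Fv, mul_add]

end alg

theorem ki6_charZero {R : Type*} [CommRing R] [IsDomain R] (p : ℕ) [Fact p.Prime] [CharP R p] :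
    CharZero (WittVector p R) := by
  refine charZero_of_inj_zero fun m hm => ?_
  by_contra hm0
  obtain ⟨a, b, hb, rfl⟩ := Nat.exists_eq_pow_mul_and_not_dvd hm0 p (Fact.out : p.Prime).ne_one
  rw [Nat.cast_mul, Nat.cast_pow] at hm
  have hp : (p : WittVector p R) ≠ 0 := WittVector.p_nonzero p R
  have h1 : (b : WittVector p R) = 0 := by
    rcases mul_eq_zero.1 hm with h | h
    · exact absurd h (pow_ne_zero _ hp)
    · exact h
  have h2 := congrArg (WittVector.constantCoeff (p := p) (R := R)) h1
  rw [map_natCast, map_zero, CharP.cast_eq_zero_iff R p] at h2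
  exact hb h2

section main

variable {p n h : ℕ} [Fact p.Prime]

theorem ki6_Fv_scale_witt {R : Type*} [CommRing R] [IsDomain R] [CharP R p] 
    (c : WittVector p R) (hc : c ^ (p ^ h) = c) :
    (Fv p n (Gam h : ℕ → WittVector p R)).subst
      ![C c * (X 0 : MvPowerSeries (Fin 2) (WittVector p R)), C c * X 1] =
      C c * Fv p n (Gam h : ℕ → WittVector p R) := by
  have := ki6_charZero (R := R) p
  have hinj : Function.Injective (algebraMap (WittVector p R) (FractionRing (WittVector p R))) :=
    IsFractionRing.injective _ _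
  have : CharZero (FractionRing (WittVector p R)) := charZero_of_injective_algebraMap hinj
  have h0 : ∀ i : Fin 2, constantCoeff (C c * (X i : MvPowerSeries (Fin 2) (WittVector p R))) = 0 := by
    intro i
    rw [map_mul, constantCoeff_X, mul_zero]
  have key : ∀ a b : MvPowerSeries (Fin 2) (WittVector p R),
      a.map (algebraMap (WittVector p R) (FractionRing (WittVector p R))) =
      b.map (algebraMap (WittVector p R) (FractionRing (WittVector p R))) → a = b := by
    intro a b h
    refine MvPowerSeries.ext fun e => hinj ?_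
    rw [← coeff_map, ← coeff_map, h]
  have hG : (fun j => algebraMap (WittVector p R) (FractionRing (WittVector p R))
      ((Gam h : ℕ → WittVector p R) j)) = Gam h := by
    funext j
    unfold Gam
    split_ifs
    · exact map_one _
    · exact map_zero _
  apply key
  rw [fga_map_subst _ _ _ _ (h0 0) (h0 1), map_mul, map_mul, map_mul, Fv_map, hG, map_X, map_X,
    map_C]
  exact ki6_Fv_scale_field _ (by rw [← map_pow, hc])

/-- scaling of `Γ_n` by `F_{p^n}` -/
theorem ki6_Fv_scale {R : Type*} [CommRing R] [IsDomain R] [CharP R p] 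
    (w : R) (hw : w ^ (p ^ h) = w) :
    (Fv p n (Gam h : ℕ → R)).subst
      ![C w * (X 0 : MvPowerSeries (Fin 2) R), C w * X 1] =
      C w * Fv p n (Gam h : ℕ → R) := by
  have hh := ki6_Fv_scale_witt (n := n) (R := R) (WittVector.teichmuller p w) (by
    rw [← map_pow, hw])
  have h0 : ∀ i : Fin 2, constantCoeff (C (WittVector.teichmuller p w) *
      (X i : MvPowerSeries (Fin 2) (WittVector p R))) = 0 := by
    intro i
    rw [map_mul, constantCoeff_X, mul_zero]
  have h2 := congrArg (MvPowerSeries.map (WittVector.constantCoeff (p := p) (R := R))) hh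
  have hG : (fun j => (WittVector.constantCoeff (p := p) (R := R))
      ((Gam h : ℕ → WittVector p R) j)) = Gam h := by
    funext j
    unfold Gam
    split_ifs
    · exact map_one _
    · exact map_zero _
  have hw0 : (WittVector.constantCoeff (p := p) (R := R)) (WittVector.teichmuller p w) = w :=
    WittVector.teichmuller_coeff_zero p w
  rw [fga_map_subst _ _ _ _ (h0 0) (h0 1), map_mul, map_mul, map_mul, Fv_map, hG, map_X, map_X,
    map_C, hw0] at h2
  exact h2

theorem ki6_isHomS {R : Type*} [CommRing R] [IsDomain R] [CharP R p] 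
    (w : R) (hw : w ^ (p ^ h) = w) (j : ℕ) :
    IsHomS p n (Gam h) (Gam h)
      (PowerSeries.C w * PowerSeries.X ^ (p ^ j) : PowerSeries R) := by
  have hp0 : p ≠ 0 := (Fact.out : p.Prime).ne_zero
  have hpj : p ^ j ≠ 0 := pow_ne_zero _ hp0
  have : ExpChar R p := ExpChar.prime (Fact.out : p.Prime)
  have hF : constantCoeff (Fv p n (Gam h : ℕ → R)) = 0 := Fv_constantCoeff p n _
  have hg : ∀ a : MvPowerSeries (Fin 2) R, constantCoeff a = 0 →
      (PowerSeries.C w * PowerSeries.X ^ (p ^ j) : PowerSeries R).subst a =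
        C w * a ^ (p ^ j) := by
    intro a ha
    have hs := PowerSeries.HasSubst.of_constantCoeff_zero ha
    rw [← PowerSeries.smul_eq_C_mul, PowerSeries.subst_smul hs, PowerSeries.subst_pow hs,
      PowerSeries.subst_X hs, smul_eq_C_mul]
  refine ⟨?_, ?_⟩
  · rw [map_mul, map_pow, PowerSeries.constantCoeff_X, zero_pow hpj, mul_zero]
  · rw [hg _ hF, hg _ (constantCoeff_X _), hg _ (constantCoeff_X _)]
    have h1 : (Fv p n (Gam h : ℕ → R)) ^ (p ^ j) =
        MvPowerSeries.subst (fun i => (X i : MvPowerSeries (Fin 2) R) ^ (p ^ j))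
          (Fv p n (Gam h : ℕ → R)) := by
      rw [← map_iterateFrobenius_expand p hp0 (Fv p n (Gam h : ℕ → R)) j, map_expand, Fv_map,
        ← US1.expand_eq hpj]
      congr 2
      funext i
      unfold Gam
      split_ifs
      · exact map_one _
      · exact map_zero _
    have hc : HasSubst (fun i => (X i : MvPowerSeries (Fin 2) R) ^ (p ^ j)) := HasSubst.X_pow hpj
    have h0 : ∀ i : Fin 2, constantCoeff (C w * (X i : MvPowerSeries (Fin 2) R)) = 0 := by
      intro i
      rw [map_mul, constantCoeff_X, mul_zero]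
    have h2 := congrArg (MvPowerSeries.subst (fun i => (X i : MvPowerSeries (Fin 2) R) ^ (p ^ j)))
      (ki6_Fv_scale (n := n) (R := R) w hw)
    have hCX : ∀ i : Fin 2, MvPowerSeries.subst (fun i => (X i : MvPowerSeries (Fin 2) R) ^ (p ^ j))
        (C w * (X i : MvPowerSeries (Fin 2) R)) = C w * (X i) ^ (p ^ j) := by
      intro i
      rw [← smul_eq_C_mul, subst_smul hc, subst_X hc, smul_eq_C_mul]
    rw [US1.comp2 _ (h0 0) (h0 1) hc, hCX, hCX, ← smul_eq_C_mul (f := Fv p n (Gam h : ℕ → R)),
      subst_smul hc, smul_eq_C_mul] at h2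
    rw [h1, h2]

end main

section chars

variable {p : ℕ} [Fact p.Prime]
variable {K C : Type*} [NormedField K] [NormedField C] [IsUltrametricDist K] [IsUltrametricDist C]
  [CharP K p] [PerfectRing K p]

theorem ki6_norm_one {w : K} {q : ℕ} (hq : 2 ≤ q) (hw : w ^ q = w) (hw0 : w ≠ 0) : ‖w‖ = 1 := by
  have h1 : w ^ (q - 1) = 1 := by
    have h2 : w * w ^ (q - 1) = w * 1 := by
      rw [← pow_succ', mul_one]
      have : q - 1 + 1 = q := by omega
      rw [this, hw]
    exact mul_left_cancel₀ hw0 h2
  have h3 : ‖w‖ ^ (q - 1) = 1 := by rw [← norm_pow, h1, norm_one]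
  exact (pow_eq_one_iff_of_nonneg (norm_nonneg w) (by omega)).1 h3

theorem ki6_sharp_inj (hp : ‖(p : C)‖ < 1) (S : SharpData p K C) {n : ℕ} (hn : 1 ≤ n) {x y : K}
    (hx : x ^ (p ^ n) = x) (hy : y ^ (p ^ n) = y) (h : S.sharp x = S.sharp y) : x = y := by
  by_contra hne
  have hq : 2 ≤ p ^ n := (Fact.out : p.Prime).two_le.trans (Nat.le_self_pow (by omega) p)
  have h1 : (x - y) ^ (p ^ n) = x - y := by
    rw [sub_pow_char_pow, hx, hy]
  have h2 : ‖x - y‖ = 1 := ki6_norm_one hq h1 (sub_ne_zero.2 hne)
  have hle : ∀ z : K, z ^ (p ^ n) = z → ‖z‖ ≤ 1 := by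
    intro z hz
    by_cases hz0 : z = 0
    · rw [hz0, norm_zero]
      exact zero_le_one
    · exact (ki6_norm_one hq hz hz0).le
  have h3 := S.add_mod (x - y) y h2.le (hle y hy)
  rw [sub_add_cancel, h, sub_right_comm, sub_self, zero_sub, norm_neg, S.norm_sharp, h2] at h3
  linarith

theorem ki6_chars [IsAlgClosed K] (hp : ‖(p : C)‖ < 1) (S : SharpData p K C) {n : ℕ}
    (hn : 1 ≤ n) (A : Fin n → C)
    (hA : ∀ w : K, w ^ (p ^ n) = w → ∑ l, A l * S.sharp w ^ (p ^ (l : ℕ)) = 0) : ∀ l, A l = 0 := by
  let G : Submonoid K :=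
    { carrier := {w | w ^ (p ^ n) = w}
      mul_mem' := by
        intro a b ha hb
        show (a * b) ^ (p ^ n) = a * b
        rw [mul_pow]
        rw [show a ^ (p ^ n) = a from ha, show b ^ (p ^ n) = b from hb]
      one_mem' := one_pow _ }
  let χ : Fin n → (G →* C) := fun l =>
    { toFun := fun w => S.sharp (w : K) ^ (p ^ (l : ℕ))
      map_one' := by
        rw [show ((1 : G) : K) = 1 from rfl, map_one, one_pow]
      map_mul' := by
        intro a b
        rw [show ((a * b : G) : K) = (a : K) * (b : K) from rfl, map_mul, mul_pow] }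
  have hχ : Function.Injective χ := by
    -- the roots of `X^(p^n) - X`
    have hlt : ∀ l l' : Fin n, (l : ℕ) < l' → χ l ≠ χ l' := by
      intro l l' hll h
      have hd : 1 ≤ (l' : ℕ) - l := by omega
      have h1 : ∀ w : K, w ^ (p ^ n) = w → w ^ (p ^ ((l' : ℕ) - l)) = w := by
        intro w hw
        have h2 := DFunLike.congr_fun h (⟨w, hw⟩ : G)
        have h3 : S.sharp (w ^ (p ^ (l : ℕ))) = S.sharp (w ^ (p ^ (l' : ℕ))) := by
          rw [map_pow, map_pow]
          exact h2
        have h4 : w ^ (p ^ (l : ℕ)) = w ^ (p ^ (l' : ℕ)) := by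
          refine ki6_sharp_inj hp S hn ?_ ?_ h3
          · rw [← pow_mul, mul_comm, pow_mul, hw]
          · rw [← pow_mul, mul_comm, pow_mul, hw]
        have h5 : (w ^ (p ^ ((l' : ℕ) - l))) ^ (p ^ (l : ℕ)) = w ^ (p ^ (l : ℕ)) := by
          rw [← pow_mul, ← pow_add, h4]
          congr 2
          omega
        exact iterateFrobenius_inj K p (l : ℕ) (by simpa [iterateFrobenius_def] using h5)
      have hp1 : 1 < p := (Fact.out : p.Prime).one_lt
      have hsep : (Polynomial.X ^ (p ^ n) - Polynomial.X : Polynomial K).Separable :=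
        galois_poly_separable p (p ^ n) (dvd_pow_self p (by omega))
      have hq : 1 < p ^ n := Nat.one_lt_pow (by omega) hp1
      have hq' : 1 < p ^ ((l' : ℕ) - l) := Nat.one_lt_pow (by omega) hp1
      have hne : ∀ {k : ℕ}, 1 < k → (Polynomial.X ^ k - Polynomial.X : Polynomial K) ≠ 0 :=
        fun hk => FiniteField.X_pow_card_sub_X_ne_zero K hk
      have hcard : Multiset.card (Polynomial.X ^ (p ^ n) - Polynomial.X : Polynomial K).roots =
          p ^ n := by
        rw [← (IsAlgClosed.splits (Polynomial.X ^ (p ^ n) - Polynomial.X :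
          Polynomial K)).natDegree_eq_card_roots,
          FiniteField.X_pow_card_sub_X_natDegree_eq K hq]
      have hnd : (Polynomial.X ^ (p ^ n) - Polynomial.X : Polynomial K).roots.Nodup :=
        Polynomial.nodup_roots hsep
      have hle : (Polynomial.X ^ (p ^ n) - Polynomial.X : Polynomial K).roots ≤
          (Polynomial.X ^ (p ^ ((l' : ℕ) - l)) - Polynomial.X : Polynomial K).roots := by
        rw [Multiset.le_iff_subset hnd]
        intro w hw
        rw [Polynomial.mem_roots (hne hq)] at hw
        rw [Polynomial.mem_roots (hne hq')]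
        have h6 : w ^ (p ^ n) = w := by
          have := hw
          rw [Polynomial.IsRoot.def, Polynomial.eval_sub, Polynomial.eval_pow, Polynomial.eval_X,
            sub_eq_zero] at this
          exact this
        rw [Polynomial.IsRoot.def, Polynomial.eval_sub, Polynomial.eval_pow, Polynomial.eval_X,
          h1 w h6, sub_self]
      have h7 := Multiset.card_le_card hle
      have h8 := Polynomial.card_roots' (Polynomial.X ^ (p ^ ((l' : ℕ) - l)) - Polynomial.X :
        Polynomial K)
      rw [FiniteField.X_pow_card_sub_X_natDegree_eq K hq'] at h8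
      rw [hcard] at h7
      have h9 : p ^ ((l' : ℕ) - l) < p ^ n := Nat.pow_lt_pow_right hp1 (by omega)
      omega
    intro l l' h
    rcases lt_trichotomy (l : ℕ) l' with h1 | h1 | h1
    · exact absurd h (hlt l l' h1)
    · exact Fin.ext h1
    · exact absurd h.symm (hlt l' l h1)
  have hli : LinearIndependent C (fun l => (χ l : G → C)) :=
    (linearIndependent_monoidHom G C).comp χ hχ
  rw [Fintype.linearIndependent_iff] at hli
  refine hli A ?_
  funext w
  have h1 := hA (w : K) w.2
  simp only [Finset.sum_apply, Pi.smul_apply, smul_eq_mul, Pi.zero_apply]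
  exact h1

end chars

end Vale.Agent.P217
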