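import Vale.Agent.P217.USeries

/-!
# P217, part C (Lubin-Tate), module SPT: the group of formal points (helper95)

`SPt p n v τ` = power series over `R` in the variables `τ` without constant term, with the
group law `F_v`.
-/

set_option linter.unusedSectionVars false

namespace Vale.Agent.P217

open MvPowerSeries

variable {R : Type*} [CommRing R]

set_option linter.unusedVariables false in
/-- Series without constant term, as points of `F_v`. -/
def SPt (p n : ℕ) (v : ℕ → R) (τ : Type*) : Type _ :=
  {a : MvPowerSeries τ R // constantCoeff a = 0}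

/-- A series without constant term as a point of `F_v`. -/
def SPt.mk {τ : Type*} (p n : ℕ) (v : ℕ → R) (a : MvPowerSeries τ R)
    (ha : constantCoeff a = 0) : SPt p n v τ := ⟨a, ha⟩

variable {p n : ℕ} [Fact p.Prime] {v w : ℕ → R} {σ τ : Type*}

theorem SPt.mk_val (a : MvPowerSeries τ R) (ha : constantCoeff a = 0) :
    (SPt.mk p n v a ha).1 = a := rfl

theorem SPt.add_aux (a b : MvPowerSeries τ R) (ha : constantCoeff a = 0)
    (hb : constantCoeff b = 0) : constantCoeff ((Fv p n v).subst ![a, b]) = 0 :=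
  US1.cc (Fv_constantCoeff p n v) ha hb

theorem SPt.neg_aux (a : MvPowerSeries τ R) (ha : constantCoeff a = 0) :
    constantCoeff ((invS p n v).subst a) = 0 :=
  PowerSeries.constantCoeff_subst_eq_zero ha _ (invS_constantCoeff p n v)

noncomputable instance : Add (SPt p n v τ) :=
  ⟨fun a b => ⟨(Fv p n v).subst ![a.1, b.1], SPt.add_aux a.1 b.1 a.2 b.2⟩⟩

noncomputable instance : Zero (SPt p n v τ) := ⟨⟨0, map_zero _⟩⟩

noncomputable instance : Neg (SPt p n v τ) :=
  ⟨fun a => ⟨(invS p n v).subst a.1, SPt.neg_aux a.1 a.2⟩⟩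

/-! ### auxiliary facts on substitutions -/

theorem spt_hs1 {a : MvPowerSeries τ R} (ha : constantCoeff a = 0) :
    HasSubst (fun _ : Unit => a) := hasSubst_of_constantCoeff_zero fun _ => ha

theorem spt_substX {a : MvPowerSeries τ R} (ha : constantCoeff a = 0) :
    (PowerSeries.X : PowerSeries R).subst a = a :=
  PowerSeries.subst_X (PowerSeries.HasSubst.of_constantCoeff_zero ha)

theorem spt_subst_zero {c : σ → MvPowerSeries τ R} (hc : HasSubst c) :
    subst c (0 : MvPowerSeries σ R) = 0 := by
  rw [← coe_substAlgHom hc, map_zero]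

theorem spt_add_zero (a : MvPowerSeries τ R) (ha : constantCoeff a = 0) :
    (Fv p n v).subst ![a, 0] = a := by
  have h := congrArg (subst (fun _ : Unit => a)) (Fv_X_zero p n v)
  have hX : subst (fun _ : Unit => a) (PowerSeries.X : PowerSeries R) = a :=
    subst_X (spt_hs1 ha) ()
  rw [US1.comp2 _ (a := (PowerSeries.X : PowerSeries R)) (constantCoeff_X _) (map_zero _)
    (spt_hs1 ha), hX, spt_subst_zero (spt_hs1 ha)] at h
  exact h

theorem spt_comm (a b : MvPowerSeries τ R) (ha : constantCoeff a = 0)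
    (hb : constantCoeff b = 0) :
    (Fv p n v).subst ![a, b] = (Fv p n v).subst ![b, a] := by
  have h := congrArg (subst ![a, b]) (Fv_comm p n v)
  have hab := US1.hs ha hb
  rw [US1.comp2 _ (constantCoeff_X _) (constantCoeff_X _) hab, subst_X hab, subst_X hab] at h
  exact h.symm

theorem spt_assoc (a b c : MvPowerSeries τ R) (ha : constantCoeff a = 0)
    (hb : constantCoeff b = 0) (hc : constantCoeff c = 0) :
    (Fv p n v).subst ![(Fv p n v).subst ![a, b], c] =
      (Fv p n v).subst ![a, (Fv p n v).subst ![b, c]] := by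
  have h := congrArg (subst ![a, b, c]) (Fv_assoc p n v)
  have habc : HasSubst ![a, b, c] :=
    hasSubst_of_constantCoeff_zero fun s => by fin_cases s <;> assumption
  have h0 : constantCoeff (Fv p n v) = 0 := Fv_constantCoeff p n v
  rw [US1.comp2 _ (US1.cc h0 (constantCoeff_X _) (constantCoeff_X _)) (constantCoeff_X _) habc,
    US1.comp2 _ (constantCoeff_X _) (US1.cc h0 (constantCoeff_X _) (constantCoeff_X _)) habc,
    US1.comp2 _ (constantCoeff_X _) (constantCoeff_X _) habc,
    US1.comp2 _ (constantCoeff_X _) (constantCoeff_X _) habc,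
    subst_X habc, subst_X habc, subst_X habc] at h
  exact h

theorem spt_add_inv (a : MvPowerSeries τ R) (ha : constantCoeff a = 0) :
    (Fv p n v).subst ![a, (invS p n v).subst a] = 0 := by
  have h := congrArg (subst (fun _ : Unit => a)) (Fv_inv p n v)
  have hX : subst (fun _ : Unit => a) (PowerSeries.X : PowerSeries R) = a :=
    subst_X (spt_hs1 ha) ()
  rw [US1.comp2 _ (a := (PowerSeries.X : PowerSeries R)) (constantCoeff_X _)
    (invS_constantCoeff p n v) (spt_hs1 ha), hX, spt_subst_zero (spt_hs1 ha)] at h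
  exact h

theorem SPt.assoc' (a b c : SPt p n v τ) : a + b + c = a + (b + c) :=
  Subtype.ext (spt_assoc a.1 b.1 c.1 a.2 b.2 c.2)

theorem SPt.comm' (a b : SPt p n v τ) : a + b = b + a :=
  Subtype.ext (spt_comm a.1 b.1 a.2 b.2)

theorem SPt.zero_add' (a : SPt p n v τ) : 0 + a = a := by
  rw [SPt.comm']
  exact Subtype.ext (spt_add_zero a.1 a.2)

theorem SPt.neg_add' (a : SPt p n v τ) : -a + a = 0 := by
  rw [SPt.comm']
  exact Subtype.ext (spt_add_inv a.1 a.2)

noncomputable instance instAddCommGroupSPt : AddCommGroup (SPt p n v τ) :=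
  AddCommGroup.mk (toAddGroup := AddGroup.ofLeftAxioms SPt.assoc' SPt.zero_add' SPt.neg_add')
    SPt.comm'

theorem SPt.add_val (a b : SPt p n v τ) : (a + b).1 = (Fv p n v).subst ![a.1, b.1] := rfl

theorem SPt.zero_val : (0 : SPt p n v τ).1 = 0 := rfl

/-- The series `X_i` as a point. -/
noncomputable def SPt.X (p n : ℕ) (v : ℕ → R) (i : τ) : SPt p n v τ :=
  ⟨MvPowerSeries.X i, constantCoeff_X i⟩

theorem SPt.hom_aux {g : PowerSeries R} (hg : PowerSeries.constantCoeff g = 0)
    (a : MvPowerSeries τ R) (ha : constantCoeff a = 0) : constantCoeff (g.subst a) = 0 :=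
  PowerSeries.constantCoeff_subst_eq_zero ha _ hg

theorem SPt.hom_add {g : PowerSeries R} (hg : IsHomS p n v w g) (a b : SPt p n v τ) :
    g.subst (a + b).1 = (Fv p n w).subst ![g.subst a.1, g.subst b.1] := by
  have hab := US1.hs a.2 b.2
  have h := congrArg (subst ![a.1, b.1]) hg.2
  rw [US1.comp1 _ (Fv_constantCoeff p n v) hab,
    US1.comp2 _ (SPt.hom_aux hg.1 _ (constantCoeff_X _)) (SPt.hom_aux hg.1 _ (constantCoeff_X _))
      hab,
    US1.comp1 _ (constantCoeff_X _) hab, US1.comp1 _ (constantCoeff_X _) hab,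
    subst_X hab, subst_X hab] at h
  exact h

theorem SPt.hom_zero {g : PowerSeries R} (hg : PowerSeries.constantCoeff g = 0) :
    g.subst (0 : MvPowerSeries τ R) = 0 :=
  PowerSeries.subst_zero_of_constantCoeff_zero hg

/-- A homomorphism of formal group laws acts on points. -/
noncomputable def SPt.hom (g : PowerSeries R) (hg : IsHomS p n v w g) :
    SPt p n v τ →+ SPt p n w τ where
  toFun a := ⟨g.subst a.1, SPt.hom_aux hg.1 a.1 a.2⟩
  map_zero' := Subtype.ext (SPt.hom_zero hg.1)
  map_add' a b := Subtype.ext (SPt.hom_add hg a b)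

theorem SPt.sub_aux [Finite σ] {s : σ → MvPowerSeries τ R} (hs : ∀ i, constantCoeff (s i) = 0)
    (a : MvPowerSeries σ R) (ha : constantCoeff a = 0) : constantCoeff (a.subst s) = 0 :=
  constantCoeff_subst_eq_zero (hasSubst_of_constantCoeff_zero hs) hs ha

theorem SPt.sub_add [Finite σ] {s : σ → MvPowerSeries τ R} (hs : ∀ i, constantCoeff (s i) = 0)
    (a b : SPt p n v σ) :
    (a + b).1.subst s = (Fv p n v).subst ![a.1.subst s, b.1.subst s] :=
  US1.comp2 _ a.2 b.2 (hasSubst_of_constantCoeff_zero hs)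

theorem SPt.sub_zero' [Finite σ] {s : σ → MvPowerSeries τ R}
    (hs : ∀ i, constantCoeff (s i) = 0) : (0 : MvPowerSeries σ R).subst s = 0 :=
  spt_subst_zero (hasSubst_of_constantCoeff_zero hs)

/-- Substitution of variables is a homomorphism. -/
noncomputable def SPt.sbst [Finite σ] (s : σ → MvPowerSeries τ R)
    (hs : ∀ i, constantCoeff (s i) = 0) : SPt p n v σ →+ SPt p n v τ where
  toFun a := ⟨a.1.subst s, SPt.sub_aux hs a.1 a.2⟩
  map_zero' := Subtype.ext (SPt.sub_zero' hs)
  map_add' a b := Subtype.ext (SPt.sub_add hs a b)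

theorem SPt.map_aux {S : Type*} [CommRing S] (φ : R →+* S) (a b : SPt p n v τ) :
    (a + b).1.map φ = (Fv p n (fun j => φ (v j))).subst ![a.1.map φ, b.1.map φ] := by
  rw [← Fv_map]
  exact US1.map_pair φ _ a.2 b.2

/-- Base change of points. -/
noncomputable def SPt.bc {S : Type*} [CommRing S] (φ : R →+* S) :
    SPt p n v τ →+ SPt p n (fun j => φ (v j)) τ where
  toFun a := ⟨a.1.map φ, by rw [constantCoeff_map, a.2, map_zero]⟩
  map_zero' := Subtype.ext (map_zero _)
  map_add' a b := Subtype.ext (SPt.map_aux φ a b)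

/-- `m • a` is the substitution in `[m]`. -/
theorem SPt.nsmul_val (a : SPt p n v τ) (m : ℕ) : (m • a).1 = (mulS p n v m).subst a.1 := by
  induction m with
  | zero =>
    rw [zero_smul, SPt.zero_val]
    exact (spt_subst_zero (spt_hs1 a.2)).symm
  | succ m ih =>
    rw [succ_nsmul', SPt.add_val, ih]
    have h := US1.comp2 (Fv p n v) (a := (PowerSeries.X : PowerSeries R)) (b := mulS p n v m)
      (constantCoeff_X _) (US1.mulS_cc v m) (spt_hs1 a.2)
    have hX : subst (fun _ : Unit => a.1) (PowerSeries.X : PowerSeries R) = a.1 :=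
      subst_X (spt_hs1 a.2) ()
    rw [hX] at h
    exact h.symm

theorem spt_subst_XX (F : MvPowerSeries (Fin 2) R) :
    F.subst ![(MvPowerSeries.X 0 : MvPowerSeries (Fin 2) R), MvPowerSeries.X 1] = F := by
  have : ![(MvPowerSeries.X 0 : MvPowerSeries (Fin 2) R), MvPowerSeries.X 1]
      = MvPowerSeries.X := by
    funext s
    fin_cases s <;> rfl
  rw [this, subst_self]
  rfl

/-- `X 0 + X 1` in the group of points is `F_v`. -/
theorem SPt.X_add_X : (SPt.X p n v (0 : Fin 2) + SPt.X p n v (1 : Fin 2)).1 = Fv p n v :=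
  spt_subst_XX _

/-- `[m]` is an endomorphism. -/
theorem mulS_isHomS (m : ℕ) : IsHomS p n v v (mulS p n v m) := by
  refine ⟨US1.mulS_cc v m, ?_⟩
  calc (mulS p n v m).subst (Fv p n v)
      = (mulS p n v m).subst (SPt.X p n v (0 : Fin 2) + SPt.X p n v (1 : Fin 2)).1 := by
        rw [SPt.X_add_X]
    _ = (m • (SPt.X p n v (0 : Fin 2) + SPt.X p n v (1 : Fin 2))).1 :=
        (SPt.nsmul_val _ m).symm
    _ = (m • SPt.X p n v (0 : Fin 2) + m • SPt.X p n v (1 : Fin 2)).1 := by rw [nsmul_add]
    _ = (Fv p n v).subst ![(m • SPt.X p n v (0 : Fin 2)).1, (m • SPt.X p n v (1 : Fin 2)).1] :=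
        rfl
    _ = _ := by
        rw [SPt.nsmul_val, SPt.nsmul_val]
        rfl

theorem mulS_coeff_one (m : ℕ) : PowerSeries.coeff 1 (mulS p n v m) = (m : R) := by
  induction m with
  | zero =>
    have : mulS p n v 0 = 0 := rfl
    rw [this]; simp
  | succ m ih =>
    have h : mulS p n v (m + 1) = subst ![(PowerSeries.X : PowerSeries R),
      mulS p n v m] (Fv p n v) := rfl
    have h2 := subst_Fv_eq (p := p) (n := n) (v := v) (a := (PowerSeries.X : PowerSeries R))
      (b := mulS p n v m) (constantCoeff_X _) (US1.mulS_cc v m)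
    rw [h, h2]
    have h3 : ∀ G : PowerSeries R, PowerSeries.coeff 1 (PowerSeries.X * mulS p n v m * G) = 0 := by
      intro G
      rw [mul_assoc, show (1 : ℕ) = 0 + 1 from rfl, PowerSeries.coeff_succ_X_mul,
        PowerSeries.coeff_zero_eq_constantCoeff_apply, map_mul]
      have : PowerSeries.constantCoeff (mulS p n v m) = 0 := US1.mulS_cc v m
      rw [this, zero_mul]
    have h4 := h3 (subst ![(PowerSeries.X : PowerSeries R), mulS p n v m] (GF p n v))
    rw [map_add, map_add, ih]
    have h5 : PowerSeries.coeff 1 (PowerSeries.X : PowerSeries R) = 1 :=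
      PowerSeries.coeff_one_X
    rw [h5]
    have h6 : (PowerSeries.coeff 1) (PowerSeries.X * mulS p n v m *
      subst ![(PowerSeries.X : PowerSeries R), mulS p n v m] (GF p n v)) = 0 := h4
    rw [h6, add_zero, Nat.cast_succ, add_comm]

theorem spt_subst_self (g : PowerSeries R) : g.subst (PowerSeries.X : PowerSeries R) = g := by
  have h : (fun _ : Unit => (PowerSeries.X : PowerSeries R)) = MvPowerSeries.X := by
    funext i
    rfl
  change MvPowerSeries.subst (fun _ : Unit => (PowerSeries.X : PowerSeries R)) g = g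
  rw [h, subst_self]
  rfl

/-- `[m]` commutes with homomorphisms. -/
theorem IsHomS.comp_mulS {g : PowerSeries R} (hg : IsHomS p n v w g) (m : ℕ) :
    g.subst (mulS p n v m) = (mulS p n w m).subst g := by
  have h4 : (mulS p n v m).subst (SPt.X p n v ()).1 = mulS p n v m := spt_subst_self _
  have h5 : g.subst (SPt.X p n v ()).1 = g := spt_subst_self _
  calc g.subst (mulS p n v m) = g.subst (m • SPt.X p n v ()).1 := by
        rw [SPt.nsmul_val]
        exact congrArg (fun a => PowerSeries.subst a g) h4.symm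
    _ = (SPt.hom g hg (m • SPt.X p n v ())).1 := rfl
    _ = (m • SPt.hom g hg (SPt.X p n v ())).1 := by rw [map_nsmul]
    _ = (mulS p n w m).subst (SPt.hom g hg (SPt.X p n v ())).1 := SPt.nsmul_val _ _
    _ = (mulS p n w m).subst g := congrArg (fun a => PowerSeries.subst a (mulS p n w m)) h5

/-- Composition of homomorphisms. -/
theorem IsHomS.comp {x : ℕ → R} {g h : PowerSeries R} (hg : IsHomS p n v w g)
    (hh : IsHomS p n w x h) : IsHomS p n v x (h.subst g) := by
  have hgs : PowerSeries.HasSubst g := PowerSeries.HasSubst.of_constantCoeff_zero hg.1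
  have key : ∀ {κ : Type} (a : MvPowerSeries κ R), constantCoeff a = 0 →
      PowerSeries.subst a (PowerSeries.subst g h) = PowerSeries.subst (PowerSeries.subst a g) h :=
    fun a ha => PowerSeries.subst_comp_subst_apply hgs
      (PowerSeries.HasSubst.of_constantCoeff_zero ha) h
  refine ⟨PowerSeries.constantCoeff_subst_eq_zero hg.1 _ hh.1, ?_⟩
  rw [key _ (Fv_constantCoeff p n v), key _ (constantCoeff_X _), key _ (constantCoeff_X _), hg.2]
  exact SPt.hom_add hh ⟨_, SPt.hom_aux hg.1 (MvPowerSeries.X 0) (constantCoeff_X _)⟩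
    ⟨_, SPt.hom_aux hg.1 (MvPowerSeries.X 1) (constantCoeff_X _)⟩

/-- The inverse of an isomorphism is a homomorphism. -/
theorem IsHomS.exists_inv {g : PowerSeries R} (hg : IsHomS p n v w g)
    (hu : IsUnit (PowerSeries.coeff 1 g)) : ∃ h : PowerSeries R, IsHomS p n w v h ∧
      IsUnit (PowerSeries.coeff 1 h) ∧ h.subst g = PowerSeries.X ∧ g.subst h = PowerSeries.X := by
  have hl := PowerSeries.subst_substInvOfIsUnit_left g hg.1 hu
  have hr := PowerSeries.subst_substInvOfIsUnit_right g hg.1 hu
  have h0 := PowerSeries.constantCoeff_substInvOfIsUnit g hu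
  have h1 := PowerSeries.coeff_one_substInvOfIsUnit g hu
  set h := g.substInvOfIsUnit hu with hdef
  refine ⟨h, ⟨h0, ?_⟩, ?_, hl, hr⟩
  · have keyl : ∀ {κ : Type} (a : MvPowerSeries κ R), constantCoeff a = 0 →
        h.subst (g.subst a) = a := by
      intro κ a ha
      rw [← PowerSeries.subst_comp_subst_apply (PowerSeries.HasSubst.of_constantCoeff_zero hg.1)
        (PowerSeries.HasSubst.of_constantCoeff_zero ha) h, hl, spt_substX ha]
    have keyr : ∀ {κ : Type} (a : MvPowerSeries κ R), constantCoeff a = 0 →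
        g.subst (h.subst a) = a := by
      intro κ a ha
      rw [← PowerSeries.subst_comp_subst_apply (PowerSeries.HasSubst.of_constantCoeff_zero h0)
        (PowerSeries.HasSubst.of_constantCoeff_zero ha) g, hr, spt_substX ha]
    have hB := SPt.hom_add hg
      ⟨_, SPt.hom_aux h0 (MvPowerSeries.X (0 : Fin 2)) (constantCoeff_X _)⟩
      ⟨_, SPt.hom_aux h0 (MvPowerSeries.X (1 : Fin 2)) (constantCoeff_X _)⟩
    have hB2 : g.subst ((Fv p n v).subst
        ![h.subst (MvPowerSeries.X 0 : MvPowerSeries (Fin 2) R),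
          h.subst (MvPowerSeries.X 1 : MvPowerSeries (Fin 2) R)])
        = (Fv p n w).subst
        ![g.subst (h.subst (MvPowerSeries.X 0 : MvPowerSeries (Fin 2) R)),
          g.subst (h.subst (MvPowerSeries.X 1 : MvPowerSeries (Fin 2) R))] := hB
    rw [keyr _ (constantCoeff_X _), keyr _ (constantCoeff_X _), spt_subst_XX] at hB2
    rw [← hB2, keyl]
    exact SPt.add_aux _ _ (SPt.hom_aux h0 _ (constantCoeff_X _))
      (SPt.hom_aux h0 _ (constantCoeff_X _))
  · rw [h1]
    exact Units.isUnit _

/-- Base change of homomorphisms. -/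
theorem IsHomS.map {S : Type*} [CommRing S] (φ : R →+* S) {g : PowerSeries R}
    (hg : IsHomS p n v w g) :
    IsHomS p n (fun j => φ (v j)) (fun j => φ (w j)) (g.map φ) := by
  refine ⟨?_, ?_⟩
  · have : PowerSeries.constantCoeff (g.map φ) = φ (PowerSeries.constantCoeff g) := by
      rw [← PowerSeries.coeff_zero_eq_constantCoeff_apply, PowerSeries.coeff_map,
        PowerSeries.coeff_zero_eq_constantCoeff_apply]
    rw [this, hg.1, map_zero]
  · have h := congrArg (MvPowerSeries.map φ) hg.2
    have hX : ∀ i : Fin 2, MvPowerSeries.map φ (g.subst (MvPowerSeries.X i :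
        MvPowerSeries (Fin 2) R)) = (g.map φ).subst (MvPowerSeries.X i) := by
      intro i
      have h2 := PowerSeries.map_subst (PowerSeries.HasSubst.of_constantCoeff_zero
        (constantCoeff_X i)) (h := φ) g
      rw [h2, MvPowerSeries.map_X]
    have hF := PowerSeries.map_subst (PowerSeries.HasSubst.of_constantCoeff_zero
        (Fv_constantCoeff p n v)) (h := φ) g
    rw [hF, US1.map_pair φ _ (SPt.hom_aux hg.1 _ (constantCoeff_X _))
      (SPt.hom_aux hg.1 _ (constantCoeff_X _)), hX, hX, Fv_map, Fv_map] at h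
    exact h

theorem isHomS_X : IsHomS p n v v PowerSeries.X := by
  refine ⟨PowerSeries.constantCoeff_X, ?_⟩
  rw [spt_substX (Fv_constantCoeff p n v), spt_substX (constantCoeff_X _),
    spt_substX (constantCoeff_X _), spt_subst_XX]

end Vale.Agent.P217
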