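import Vale.Agent.P217.Sharp
import Vale.Agent.P217.PKI6
import Vale.Agent.P217.SPt

/-!
# P217: the endomorphisms of `Γ_n` over `F_(p^n)` acting on `E` (ETA)
-/

namespace Vale.Agent.P217

open MvPowerSeries Filter Topology

/-- The endomorphisms of `Γ_n` over `F_(p^n)`, as power series over `OO K`. -/
structure Etas (p n : ℕ) [Fact p.Prime] (K : Type*) [NormedField K] [IsUltrametricDist K] where
  ser : PowerSeries (OO K)
  isHom : IsHomS p n (Gam n) (Gam n) ser
  root : ∀ d, PowerSeries.coeff d ser ^ (p ^ n) = PowerSeries.coeff d ser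

section formal

variable {p n : ℕ} [Fact p.Prime] {R : Type*} [CommRing R] {v w : ℕ → R}

/-- The sum of two homomorphisms of formal group laws is one. -/
theorem eta_isHomS_add {g g' : PowerSeries R} (hg : IsHomS p n v w g) (hg' : IsHomS p n v w g') :
    IsHomS p n v w (subst ![g, g'] (Fv p n w)) := by
  have h0 : constantCoeff (Fv p n w) = 0 := Fv_constantCoeff p n w
  have h1 : constantCoeff (Fv p n v) = 0 := Fv_constantCoeff p n v
  have key : ∀ a : SPt p n v (Fin 2),
      PowerSeries.subst a.1 (subst ![g, g'] (Fv p n w) : PowerSeries R) =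
        (SPt.hom g hg a + SPt.hom g' hg' a).1 := by
    intro a
    exact US1.comp2 _ hg.1 hg'.1 (spt_hs1 a.2)
  refine ⟨US1.cc h0 hg.1 hg'.1, ?_⟩
  have h2 := key (SPt.X p n v 0 + SPt.X p n v 1)
  rw [SPt.X_add_X, map_add, map_add, add_add_add_comm] at h2
  rw [h2, SPt.add_val, ← key, ← key]
  rfl

end formal

variable {p n : ℕ} [Fact p.Prime]
variable {K : Type*} [NormedField K] [IsUltrametricDist K] [CompleteSpace K]

/-- Action on `E`. -/
noncomputable def Etas.act (η : Etas p n K) :
    FPt p n (Gam n : ℕ → OO K) →+ FPt p n (Gam n : ℕ → OO K) := FPt.hom η.ser η.isHom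

variable [CharP K p]

/-- The sum of two endomorphisms (`FSer.lean`; `x ↦ x^(p^n)` fixes the coefficients of `F_(Gam n)`). -/
theorem Etas.exists_add (η η' : Etas p n K) :
    ∃ ζ : Etas p n K, ∀ x, ζ.act x = η.act x + η'.act x := by
  have : CharP (OO K) p := RingHom.charP (OO K).subtype (OO K).subtype_injective p
  have hmap : ∀ g : PowerSeries (OO K), (∀ d, PowerSeries.coeff d g ^ (p ^ n) =
      PowerSeries.coeff d g) → g.map (iterateFrobenius (OO K) p n) = g := by
    intro g hg
    ext d
    rw [PowerSeries.coeff_map, iterateFrobenius_def, hg]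
  have hser : PowerSeries.map (iterateFrobenius (OO K) p n)
      (subst ![η.ser, η'.ser] (Fv p n (Gam n : ℕ → OO K)) : PowerSeries (OO K)) =
      subst ![η.ser, η'.ser] (Fv p n (Gam n : ℕ → OO K)) := by
    have h1 := fga_map_subst (iterateFrobenius (OO K) p n) (Fv p n (Gam n : ℕ → OO K))
      η.ser η'.ser η.isHom.1 η'.isHom.1
    have h2 : (fun j => iterateFrobenius (OO K) p n ((Gam n : ℕ → OO K) j)) = Gam n := by
      funext j
      unfold Gam
      split_ifs
      · exact map_one _
      · exact map_zero _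
    have h3 : MvPowerSeries.map (iterateFrobenius (OO K) p n) η.ser = η.ser :=
      hmap _ η.root
    have h4 : MvPowerSeries.map (iterateFrobenius (OO K) p n) η'.ser = η'.ser :=
      hmap _ η'.root
    rw [Fv_map, h2, h3, h4] at h1
    exact h1
  refine ⟨⟨subst ![η.ser, η'.ser] (Fv p n (Gam n : ℕ → OO K)),
    eta_isHomS_add η.isHom η'.isHom, ?_⟩, ?_⟩
  · intro d
    conv_rhs => rw [← hser]
    rw [PowerSeries.coeff_map, iterateFrobenius_def]
  · intro x
    apply Subtype.ext
    exact eval_pair η.isHom.1 η'.isHom.1 (hasEval_one x.2) (Fv p n (Gam n : ℕ → OO K))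

/-- The endomorphism `w X^(p^j)`. -/
theorem Etas.exists_monomial (hn : 1 ≤ n) (w : OO K) (hw : w ^ (p ^ n) = w) (j : ℕ) :
    ∃ ζ : Etas p n K, ∀ x, (ζ.act x).1 = w * x.1 ^ (p ^ j) := by
  have : CharP (OO K) p := RingHom.charP (OO K).subtype (OO K).subtype_injective p
  refine ⟨⟨PowerSeries.C w * PowerSeries.X ^ (p ^ j), ki6_isHomS w hw j, ?_⟩, ?_⟩
  · intro d
    rw [PowerSeries.coeff_C_mul, PowerSeries.coeff_X_pow]
    split_ifs
    · rw [mul_one, hw]
    · rw [mul_zero, zero_pow (pow_ne_zero _ (Fact.out : p.Prime).ne_zero)]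
  · intro x
    change ev1 (PowerSeries.C w * PowerSeries.X ^ (p ^ j)) x.1 = _
    have hx := hasEval_one x.2
    have h1 := eval_mul hx (PowerSeries.C w : PowerSeries (OO K)) (PowerSeries.X ^ (p ^ j))
    have h2 := eval_pow hx (PowerSeries.X : PowerSeries (OO K)) (p ^ j)
    have h3 : MvPowerSeries.eval₂ (RingHom.id (OO K)) (fun _ : Unit => x.1)
        (PowerSeries.C w : PowerSeries (OO K)) = w := eval₂_C _ _ _
    have h4 := ev1_X x.1
    rw [ev1_def] at h4
    rw [ev1_def, h1, h2, h3, h4]

end Vale.Agent.P217
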