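import Vale.Agent.P217.FELDefs

/-!
# P217, module LOG: the logarithm over a `ℚ`-algebra
-/

namespace Vale.Agent.P217

open MvPowerSeries

variable {K : Type*} [CommRing K] [Algebra ℚ K]

variable (p n : ℕ) [Fact p.Prime] (v : ℕ → K)

theorem ellOf_zero : ellOf p n v 0 = 1 := by
  unfold ellOf
  rw [ell, map_one]

/-- the (right) recursion -/
theorem ellOf_succ (k : ℕ) : (p : K) * ellOf p n v (k + 1) =
    ∑ i ∈ Finset.range (k + 1), if k + 1 - i ≤ n then
      ellOf p n v i * v (k + 1 - i) ^ (p ^ i) else 0 := by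
  have hp : (p : ℚ) ≠ 0 := Nat.cast_ne_zero.2 (Fact.out : p.Prime).ne_zero
  have h1 : (p : K) * algebraMap ℚ K ((p : ℚ)⁻¹) = 1 := by
    rw [← map_natCast (algebraMap ℚ K) p, ← map_mul, mul_inv_cancel₀ hp, map_one]
  unfold ellOf
  rw [ell, map_mul, map_sum, ← mul_assoc]
  have h2 : specQ v (MvPolynomial.C ((p : ℚ)⁻¹)) = algebraMap ℚ K ((p : ℚ)⁻¹) := by
    unfold specQ
    rw [MvPolynomial.coe_eval₂Hom, MvPolynomial.eval₂_C]
  rw [h2, h1, one_mul, Finset.sum_range]
  refine Finset.sum_congr rfl fun i _ => ?_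
  by_cases h : k + 1 - (i : ℕ) ≤ n
  · rw [if_pos h, if_pos h, map_mul, map_pow]
    congr 2
    unfold specQ
    rw [MvPolynomial.coe_eval₂Hom, MvPolynomial.eval₂_X]
  · rw [if_neg h, if_neg h, map_zero]

theorem logOf_coeff (d : ℕ) : PowerSeries.coeff d (logOf p n v) =
    if d = p ^ (Nat.log p d) then ellOf p n v (Nat.log p d) else 0 := by
  unfold logOf logQ ellOf
  rw [PowerSeries.coeff_map, PowerSeries.coeff_mk]
  split_ifs
  · rfl
  · exact map_zero _

theorem logOf_constantCoeff : PowerSeries.constantCoeff (logOf p n v) = 0 := by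
  rw [← PowerSeries.coeff_zero_eq_constantCoeff_apply, logOf_coeff, if_neg]
  intro h
  have := pow_ne_zero (Nat.log p 0) (Fact.out : p.Prime).ne_zero
  exact this h.symm

theorem logOf_coeff_pow (k : ℕ) : PowerSeries.coeff (p ^ k) (logOf p n v) = ellOf p n v k := by
  rw [logOf_coeff, Nat.log_pow (Fact.out : p.Prime).one_lt, if_pos rfl]

theorem logOf_coeff_of_ne (d : ℕ) (hd : ∀ k, d ≠ p ^ k) :
    PowerSeries.coeff d (logOf p n v) = 0 := by
  rw [logOf_coeff, if_neg (hd _)]

theorem logOf_coeff_one : PowerSeries.coeff 1 (logOf p n v) = 1 := by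
  have h := logOf_coeff_pow p n v 0
  rw [pow_zero, ellOf_zero] at h
  exact h

theorem logOf_isUnit : IsUnit (PowerSeries.coeff 1 (logOf p n v)) := by
  rw [logOf_coeff_one]
  exact isUnit_one

/-- The logarithm is injective on series without constant term. -/
theorem logOf_inj {τ : Type*} (a b : MvPowerSeries τ K) (ha : constantCoeff a = 0)
    (hb : constantCoeff b = 0) (h : (logOf p n v).subst a = (logOf p n v).subst b) : a = b := by
  have hP := PowerSeries.HasSubst.of_constantCoeff_zero' (logOf_constantCoeff p n v)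
  have key : ∀ c : MvPowerSeries τ K, constantCoeff c = 0 →
      ((logOf p n v).substInvOfIsUnit (logOf_isUnit p n v)).subst ((logOf p n v).subst c) = c := by
    intro c hc
    have hsc := PowerSeries.HasSubst.of_constantCoeff_zero hc
    rw [← PowerSeries.subst_comp_subst_apply hP hsc,
      PowerSeries.subst_substInvOfIsUnit_left _ (logOf_constantCoeff p n v),
      PowerSeries.subst_X hsc]
  rw [← key a ha, ← key b hb, h]

/-- Every series without constant term is a logarithm. -/
theorem logOf_surj {τ : Type*} (a : MvPowerSeries τ K) (ha : constantCoeff a = 0) :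
    ∃ b : MvPowerSeries τ K, constantCoeff b = 0 ∧ (logOf p n v).subst b = a := by
  have hQ := PowerSeries.HasSubst.substInvOfIsUnit (logOf p n v) (logOf_isUnit p n v)
  have hsa := PowerSeries.HasSubst.of_constantCoeff_zero ha
  refine ⟨((logOf p n v).substInvOfIsUnit (logOf_isUnit p n v)).subst a, ?_, ?_⟩
  · exact PowerSeries.constantCoeff_subst_eq_zero ha _
      (PowerSeries.constantCoeff_substInvOfIsUnit _ _)
  · rw [← PowerSeries.subst_comp_subst_apply hQ hsa,
      PowerSeries.subst_substInvOfIsUnit_right _ (logOf_constantCoeff p n v),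
      PowerSeries.subst_X hsa]

theorem specQ_map {L : Type*} [CommRing L] [Algebra ℚ L] (φ : K →+* L) :
    φ.comp (specQ v) = specQ (fun j => φ (v j)) := by
  refine MvPolynomial.ringHom_ext ?_ ?_
  · intro q
    unfold specQ
    rw [RingHom.comp_apply, MvPolynomial.coe_eval₂Hom, MvPolynomial.coe_eval₂Hom,
      MvPolynomial.eval₂_C, MvPolynomial.eval₂_C]
    exact RingHom.congr_fun (Subsingleton.elim (φ.comp (algebraMap ℚ K)) (algebraMap ℚ L)) q
  · intro i
    unfold specQ
    rw [RingHom.comp_apply, MvPolynomial.coe_eval₂Hom, MvPolynomial.coe_eval₂Hom,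
      MvPolynomial.eval₂_X, MvPolynomial.eval₂_X]

theorem ellOf_map {L : Type*} [CommRing L] [Algebra ℚ L] (φ : K →+* L) (k : ℕ) :
    φ (ellOf p n v k) = ellOf p n (fun j => φ (v j)) k := by
  unfold ellOf
  rw [← specQ_map v φ, RingHom.comp_apply]

/-- Base change of the logarithm. -/
theorem logOf_map {L : Type*} [CommRing L] [Algebra ℚ L] (φ : K →+* L) :
    (logOf p n v).map φ = logOf p n (fun j => φ (v j)) := by
  ext d
  rw [PowerSeries.coeff_map, logOf_coeff, logOf_coeff]
  split_ifs
  · exact ellOf_map p n v φ _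
  · exact map_zero _

end Vale.Agent.P217
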