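import Vale.Agent.P217.LSum
import Vale.Agent.P217.FELLog

/-!
# P217, module KF1: `LL` as a limit of logarithms, additivity of `LL`
-/

namespace Vale.Agent.P217

open MvPowerSeries Filter Topology

variable {p : ℕ} [Fact p.Prime]

section ell

variable {F : Type*} [Field F] [CharZero F]

theorem ellOf_Gam {n r : ℕ} (hr : 1 ≤ r) (hrn : r ≤ n) (k : ℕ) :
    ellOf p n (Gam r : ℕ → F) k = if r ∣ k then ((p : F)⁻¹) ^ (k / r) else 0 := by
  have hpn : p ≠ 0 := (Fact.out : p.Prime).ne_zero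
  have hp : (p : F) ≠ 0 := Nat.cast_ne_zero.2 hpn
  induction k using Nat.strong_induction_on with
  | _ k ih =>
    rcases k with _ | k
    · simp [ellOf_zero]
    · have h := ellOf_succ p n (Gam r : ℕ → F) k
      have hs : (∑ i ∈ Finset.range (k + 1), if k + 1 - i ≤ n then
          ellOf p n (Gam r : ℕ → F) i * (Gam r (k + 1 - i) : F) ^ (p ^ i) else 0) =
          if r ≤ k + 1 then ellOf p n (Gam r : ℕ → F) (k + 1 - r) else 0 := by
        have e : ∀ i ∈ Finset.range (k + 1), (if k + 1 - i ≤ n then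
            ellOf p n (Gam r : ℕ → F) i * (Gam r (k + 1 - i) : F) ^ (p ^ i) else 0) =
            if k + 1 - i = r then ellOf p n (Gam r : ℕ → F) i else 0 := by
          intro i _
          unfold Gam
          by_cases h1 : k + 1 - i = r
          · rw [if_pos (by omega), if_pos h1, if_pos h1, one_pow, mul_one]
          · rw [if_neg h1, if_neg h1, zero_pow (pow_ne_zero _ hpn), mul_zero, ite_self]
        rw [Finset.sum_congr rfl e]
        by_cases h2 : r ≤ k + 1
        · rw [if_pos h2, Finset.sum_eq_single (k + 1 - r)]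
          · rw [if_pos (by omega)]
          · intro i hi hne
            rw [if_neg]
            have := Finset.mem_range.1 hi
            omega
          · intro hni
            exfalso
            apply hni
            rw [Finset.mem_range]
            omega
        · rw [if_neg h2]
          apply Finset.sum_eq_zero
          intro i hi
          rw [if_neg]
          have := Finset.mem_range.1 hi
          omega
      rw [hs] at h
      by_cases h2 : r ≤ k + 1
      · rw [if_pos h2, ih (k + 1 - r) (by omega)] at h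
        have hd : r ∣ (k + 1 - r) ↔ r ∣ (k + 1) := by
          constructor
          · intro h3
            have := dvd_add h3 (dvd_refl r)
            rwa [Nat.sub_add_cancel h2] at this
          · intro h3
            exact Nat.dvd_sub h3 (dvd_refl r)
        by_cases h3 : r ∣ k + 1
        · rw [if_pos (hd.2 h3)] at h
          rw [if_pos h3, Nat.div_eq_sub_div (by omega) h2, pow_succ', ← h, ← mul_assoc,
            inv_mul_cancel₀ hp, one_mul]
        · rw [if_neg (fun h4 => h3 (hd.1 h4))] at h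
          rw [if_neg h3]
          exact (mul_eq_zero.1 h).resolve_left hp
      · rw [if_neg h2] at h
        rw [if_neg (fun h3 => h2 (Nat.le_of_dvd (Nat.succ_pos k) h3))]
        exact (mul_eq_zero.1 h).resolve_left hp

end ell

variable {K C : Type*} [NormedField K] [NormedField C] [IsUltrametricDist K] [IsUltrametricDist C]
  [CharP K p] [PerfectRing K p] [CompleteSpace K] [CompleteSpace C] [CharZero C]

omit [IsUltrametricDist C] [CompleteSpace C] in
theorem logC_Gam {n r : ℕ} (hr : 1 ≤ r) (hrn : r ≤ n) (z : C) :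
    logC p n (Gam r : ℕ → C) z = ∑' j : ℕ, ((p : C)⁻¹) ^ j * z ^ (p ^ (r * j)) := by
  unfold logC
  have hinj : Function.Injective (fun j : ℕ => r * j) :=
    fun a b h => Nat.eq_of_mul_eq_mul_left (by omega) h
  have hsupp : Function.support (fun k => ellOf p n (Gam r : ℕ → C) k * z ^ (p ^ k)) ⊆
      Set.range (fun j : ℕ => r * j) := by
    intro k hk
    rw [Function.mem_support] at hk
    by_contra h
    apply hk
    rw [ellOf_Gam hr hrn, if_neg, zero_mul]
    rintro ⟨j, rfl⟩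
    exact h ⟨j, rfl⟩
  rw [← hinj.tsum_eq hsupp]
  refine tsum_congr fun j => ?_
  rw [ellOf_Gam hr hrn, if_pos (dvd_mul_right r j), Nat.mul_div_cancel_left j (by omega)]

omit [IsUltrametricDist C] [CharZero C] in
theorem tendsto_shift_kf (f : ℤ → C) (hs : Summable f) :
    Tendsto (fun N : ℕ => ∑' j : ℕ, f ((j : ℤ) - N)) atTop (𝓝 (∑' j, f j)) := by
  obtain ⟨g, hg⟩ : ∃ g : ℕ → C, ∀ j, g j = f (-((j : ℤ) + 1)) := ⟨_, fun _ => rfl⟩
  have hinj : Function.Injective (fun j : ℕ => (-((j : ℤ) + 1))) := by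
    intro a b h
    have h' : (-((a : ℤ) + 1)) = (-((b : ℤ) + 1)) := h
    omega
  have h2 : ∀ N : ℕ, ∑' j : ℕ, f ((j : ℤ) - N) = (∑' j, f j) - ∑' j : ℕ, g (j + N) := by
    intro N
    obtain ⟨fN, hfN⟩ : ∃ fN : ℤ → C, ∀ j, fN j = f (j - N) := ⟨_, fun _ => rfl⟩
    have hfN' : fN = f ∘ (Equiv.subRight (N : ℤ)) := funext fun j => hfN j
    have hsN : Summable fN := by
      rw [hfN']
      exact (Equiv.subRight (N : ℤ)).summable_iff.2 hs
    have h3 : Summable (fun j : ℕ => fN (j : ℤ)) := hsN.comp_injective Nat.cast_injective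
    have h4 : Summable (fun j : ℕ => fN (-((j : ℤ) + 1))) := hsN.comp_injective hinj
    have h5 := tsum_of_nat_of_neg_add_one h3 h4
    have h6 : ∑' j : ℤ, fN j = ∑' j, f j := by
      rw [hfN']
      exact (Equiv.subRight (N : ℤ)).tsum_eq f
    have h7 : ∑' j : ℕ, fN (-((j : ℤ) + 1)) = ∑' j : ℕ, g (j + N) := by
      refine tsum_congr fun j => ?_
      rw [hg, hfN]
      congr 1
      push_cast
      ring
    have h8 : ∑' j : ℕ, f ((j : ℤ) - N) = ∑' j : ℕ, fN (j : ℤ) :=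
      tsum_congr fun j => (hfN _).symm
    rw [h8, ← h6, h5, h7, add_sub_cancel_right]
  have h8 : Tendsto (fun N : ℕ => ∑' j : ℕ, g (j + N)) atTop (𝓝 0) := tendsto_sum_nat_add g
  have h9 : (fun N : ℕ => ∑' j : ℕ, f ((j : ℤ) - N)) =
      fun N : ℕ => (∑' j, f j) - ∑' j : ℕ, g (j + N) := funext h2
  rw [h9]
  simpa using h8.const_sub (∑' j, f j)

/-- KF2. -/
theorem LL_eq_lim_log_kf (hp : ‖(p : C)‖ < 1) (S : SharpData p K C) {n r : ℕ}
    (hr : 1 ≤ r) (hrn : r ≤ n) {x : K} (hx : ‖x‖ < 1) :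
    Tendsto (fun N : ℕ => (p : C) ^ N * logC p n (Gam r : ℕ → C) (S.sharp (fz p (-(r * N : ℤ)) x)))
      atTop (𝓝 (LL S r 0 x)) := by
  have hp0 : (p : C) ≠ 0 := Nat.cast_ne_zero.2 (Fact.out : p.Prime).ne_zero
  obtain ⟨f, hf⟩ : ∃ f : ℤ → C, ∀ j, f j = (p : C) ^ (-j) * S.sharp (fz p (0 + r * j) x) :=
    ⟨_, fun _ => rfl⟩
  have hff : f = fun j => (p : C) ^ (-j) * S.sharp (fz p (0 + r * j) x) := funext hf
  have hs : Summable f := by rw [hff]; exact LL_summable hp S hr 0 hx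
  have hLL : LL S r 0 x = ∑' j, f j := by rw [hff]; rfl
  have h1 : ∀ N : ℕ, (p : C) ^ N * logC p n (Gam r : ℕ → C)
      (S.sharp (fz p (-(r * N : ℤ)) x)) = ∑' j : ℕ, f ((j : ℤ) - N) := by
    intro N
    rw [logC_Gam hr hrn, ← tsum_mul_left]
    refine tsum_congr fun j => ?_
    rw [← map_pow, ← fz_nat, fz_add, hf]
    have e1 : ((r * j : ℕ) : ℤ) + -((r : ℤ) * N) = 0 + (r : ℤ) * ((j : ℤ) - N) := by
      push_cast; ring
    rw [e1, ← mul_assoc]
    congr 1
    rw [neg_sub, zpow_sub₀ hp0, zpow_natCast, zpow_natCast, inv_pow, div_eq_mul_inv]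
  have h9 : (fun N : ℕ => (p : C) ^ N * logC p n (Gam r : ℕ → C)
      (S.sharp (fz p (-(r * N : ℤ)) x))) = fun N : ℕ => ∑' j : ℕ, f ((j : ℤ) - N) :=
    funext fun N => h1 N
  rw [h9, hLL]
  exact tendsto_shift_kf f hs

/-! ### Frobenius twists as ring homomorphisms -/

/-- `x ↦ x^(p^k)` on the unit ball as a ring homomorphism. -/
noncomputable def fzR (p : ℕ) [Fact p.Prime] [CharP K p] [PerfectRing K p] (k : ℤ) :
    OO K →+* OO K where
  toFun x := ⟨fz p k (x : K), by
    show ‖fz p k (x : K)‖ ≤ 1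
    rw [norm_fz]
    exact Real.rpow_le_one (norm_nonneg _) x.2 (by positivity)⟩
  map_one' := Subtype.ext (by simp [fz])
  map_zero' := Subtype.ext (by simp [fz])
  map_mul' x y := Subtype.ext (by simp [fz])
  map_add' x y := Subtype.ext (by simp [fz])

theorem fzR_coe (k : ℤ) (x : OO K) : ((fzR p k x : OO K) : K) = fz p k (x : K) := rfl

theorem fzR_cont (k : ℤ) : Continuous (fzR p k : OO K →+* OO K) := by
  have hp0 : (0 : ℝ) < p := by exact_mod_cast (Fact.out : p.Prime).pos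
  refine continuous_of_continuousAt_zero _ ?_
  unfold ContinuousAt
  rw [map_zero, tendsto_subtype_rng]
  show Tendsto (fun x : OO K => ((fzR p k x : OO K) : K)) (𝓝 0) (𝓝 (0 : K))
  rw [tendsto_zero_iff_norm_tendsto_zero]
  have e : (fun x : OO K => ‖((fzR p k x : OO K) : K)‖) =
      fun x : OO K => ‖(x : K)‖ ^ ((p : ℝ) ^ k) :=
    funext fun x => by rw [fzR_coe, norm_fz]
  rw [e]
  have h1 : Tendsto (fun x : OO K => ‖(x : K)‖) (𝓝 0) (𝓝 0) := by
    have h2 : Continuous (fun x : OO K => ‖(x : K)‖) := continuous_subtype_val.norm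
    have h3 := h2.tendsto 0
    simpa using h3
  have h4 := h1.rpow_const (p := (p : ℝ) ^ k) (Or.inr (by positivity))
  rwa [Real.zero_rpow (by positivity)] at h4

theorem fzR_Gam (k : ℤ) (r : ℕ) : (fun j => fzR p k ((Gam r : ℕ → OO K) j)) = Gam r := by
  funext j
  unfold Gam
  split_ifs <;> simp

theorem fzR_ev2 (k : ℤ) {n r : ℕ} {x y : OO K} (hx : IsTopologicallyNilpotent x)
    (hy : IsTopologicallyNilpotent y) :
    fzR p k (ev2 (Fv p n (Gam r)) x y) = ev2 (Fv p n (Gam r)) (fzR p k x) (fzR p k y) := by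
  have h := ev2_map (p := p) (n := n) (v := (Gam r : ℕ → OO K)) (fzR_cont k) hx hy
  rw [fzR_Gam] at h
  exact h

theorem fzR_tn (k : ℤ) {x : OO K} (hx : IsTopologicallyNilpotent x) :
    IsTopologicallyNilpotent (fzR p k x) := tn_map (fzR_cont k) hx

/-! ### `♯` modulo `p` for `F_{Gam r}` -/

omit [CharZero C] in
theorem shO_ev2_mod_kf (S : SharpData p K C) {n r : ℕ} {x y : OO K}
    (hx : IsTopologicallyNilpotent x) (hy : IsTopologicallyNilpotent y) :
    ‖((shO S (ev2 (Fv p n (Gam r)) x y) : OO C) : C) -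
      ((ev2 (Fv p n (Gam r)) (shO S x) (shO S y) : OO C) : C)‖ ≤ ‖(p : C)‖ := by
  refine le_of_forall_gt fun c hc => ?_
  have hc0 : 0 < c := (norm_nonneg _).trans_lt hc
  have h := quot_eval (σ := shQ S ⟨c, hc0⟩ hc) (μ := Ideal.Quotient.mk (ballIdeal C ⟨c, hc0⟩))
    (F := Fv p n (Gam r)) (G := Fv p n (Gam r)) (x := ![x, y]) (y := ![shO S x, shO S y])
    ?_ ?_ ?_ (fun i => by fin_cases i <;> assumption)
    (fun i => by fin_cases i <;> [exact shO_tn S hx; exact shO_tn S hy])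
    (fun i => by fin_cases i <;> rfl)
  · exact Ideal.Quotient.eq.1 h
  · refine mem_of_superset (ball_mem_nhds (L := K) ⟨c, hc0⟩) fun z hz => ?_
    show Ideal.Quotient.mk (ballIdeal C ⟨c, hc0⟩) (shO S z) = 0
    rw [Ideal.Quotient.eq_zero_iff_mem]
    show ‖((shO S z : OO C) : C)‖ < c
    rw [norm_shO]
    exact hz
  · refine mem_of_superset (ball_mem_nhds (L := C) ⟨c, hc0⟩) fun z hz => ?_
    exact Ideal.Quotient.eq_zero_iff_mem.2 hz
  · rw [Fv_map, Fv_map]
    congr 1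
    funext j
    unfold Gam
    split_ifs <;> simp

/-- the logarithm of `♯` is additive up to a bounded error -/
theorem log_sharp_add_bound (hp : ‖(p : C)‖ < 1) (S : SharpData p K C) {n r : ℕ} :
    ∃ B : ℝ, ∀ a b : FPt p n (Gam r : ℕ → OO K),
      ‖logC p n (Gam r : ℕ → C) (S.sharp (((a + b).1 : OO K) : K)) -
        logC p n (Gam r : ℕ → C) (S.sharp ((a.1 : OO K) : K)) -
        logC p n (Gam r : ℕ → C) (S.sharp ((b.1 : OO K) : K))‖ ≤ B := by
  obtain ⟨B, hB⟩ := logC_bound (C := C) (n := n) hp hp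
  refine ⟨B, fun a b => ?_⟩
  have hG : (fun j => (((Gam r : ℕ → OO C) j : OO C) : C)) = Gam r := by
    funext j
    unfold Gam
    split_ifs <;> simp
  have hG1 : ∀ j, ‖(Gam r : ℕ → C) j‖ ≤ 1 := by
    intro j
    unfold Gam
    split_ifs <;> simp
  obtain ⟨A, hA⟩ : ∃ A : FPt p n (Gam r : ℕ → OO C), A.1 = shO S a.1 := ⟨⟨_, shO_tn S a.2⟩, rfl⟩
  obtain ⟨A', hA'⟩ : ∃ A : FPt p n (Gam r : ℕ → OO C), A.1 = shO S b.1 := ⟨⟨_, shO_tn S b.2⟩, rfl⟩
  obtain ⟨P, hP⟩ : ∃ A : FPt p n (Gam r : ℕ → OO C), A.1 = shO S (a + b).1 :=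
    ⟨⟨_, shO_tn S (a + b).2⟩, rfl⟩
  have h1 : P.1 - (A + A').1 ∈ ballI C ‖(p : C)‖ (norm_nonneg _) := by
    rw [hP, FPt.add_val, FPt.add_val, hA, hA']
    exact shO_ev2_mod_kf S a.2 b.2
  have h2 : (P - (A + A')).1 ∈ ballI C ‖(p : C)‖ (norm_nonneg _) :=
    (FPt.sub_mem_iff (ball_closed (norm_nonneg _)) _ _).2 h1
  have h3 : ‖(((P - (A + A')).1 : OO C) : C)‖ ≤ ‖(p : C)‖ := h2
  have h4 := logC_add hp (P - (A + A')) (A + A')
  have h5 := logC_add hp A A'
  rw [sub_add_cancel] at h4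
  rw [hG] at h4 h5
  have e1 : ((P.1 : OO C) : C) = S.sharp (((a + b).1 : OO K) : K) := by rw [hP]; rfl
  have e2 : ((A.1 : OO C) : C) = S.sharp ((a.1 : OO K) : K) := by rw [hA]; rfl
  have e3 : ((A'.1 : OO C) : C) = S.sharp ((b.1 : OO K) : K) := by rw [hA']; rfl
  rw [e1] at h4
  rw [e2, e3] at h5
  rw [h4, h5]
  have h6 := hB (Gam r) hG1 _ h3
  convert h6 using 2
  ring

/-- KF1. -/
theorem LL_add_point_kf (hp : ‖(p : C)‖ < 1) (S : SharpData p K C) {n r : ℕ}
    (hr : 1 ≤ r) (hrn : r ≤ n) (i : ℤ) (x y : FPt p n (Gam r : ℕ → OO K)) :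
    LL S r i (((x + y).1 : OO K) : K) = LL S r i ((x.1 : OO K) : K) + LL S r i ((y.1 : OO K) : K) := by
  have key : ∀ z : FPt p n (Gam r : ℕ → OO K),
      Tendsto (fun N : ℕ => (p : C) ^ N * logC p n (Gam r : ℕ → C)
        (S.sharp (fz p (-(r * N : ℤ) + i) ((z.1 : OO K) : K)))) atTop
        (𝓝 (LL S r i ((z.1 : OO K) : K))) := by
    intro z
    have hz : ‖fz p i ((z.1 : OO K) : K)‖ < 1 := by
      have h := fzR_tn (p := p) i z.2
      rw [tn_iff_norm_lt_one] at h
      exact h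
    have h := LL_eq_lim_log_kf hp S hr hrn hz
    rw [LL_fz, zero_add] at h
    simpa only [fz_add] using h
  obtain ⟨B, hB⟩ := log_sharp_add_bound (n := n) (r := r) hp S
  have h1 := ((key (x + y)).sub (key x)).sub (key y)
  have h2 : Tendsto (fun N : ℕ => (p : C) ^ N * logC p n (Gam r : ℕ → C)
        (S.sharp (fz p (-(r * N : ℤ) + i) (((x + y).1 : OO K) : K))) -
      (p : C) ^ N * logC p n (Gam r : ℕ → C)
        (S.sharp (fz p (-(r * N : ℤ) + i) ((x.1 : OO K) : K))) -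
      (p : C) ^ N * logC p n (Gam r : ℕ → C)
        (S.sharp (fz p (-(r * N : ℤ) + i) ((y.1 : OO K) : K)))) atTop (𝓝 0) := by
    refine squeeze_zero_norm (a := fun N : ℕ => ‖(p : C)‖ ^ N * B) ?_ ?_
    · intro N
      obtain ⟨k, hk⟩ : ∃ k : ℤ, k = -(r * N : ℤ) + i := ⟨_, rfl⟩
      rw [← hk]
      obtain ⟨a, ha⟩ : ∃ a : FPt p n (Gam r : ℕ → OO K), a.1 = fzR p k x.1 :=
        ⟨⟨_, fzR_tn k x.2⟩, rfl⟩
      obtain ⟨b, hb⟩ : ∃ a : FPt p n (Gam r : ℕ → OO K), a.1 = fzR p k y.1 :=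
        ⟨⟨_, fzR_tn k y.2⟩, rfl⟩
      have hab : (a + b).1 = fzR p k (x + y).1 := by
        rw [FPt.add_val, FPt.add_val, ha, hb, fzR_ev2 k x.2 y.2]
      have h3 := hB a b
      rw [hab, ha, hb, fzR_coe, fzR_coe, fzR_coe] at h3
      rw [← mul_sub, ← mul_sub, norm_mul, norm_pow]
      exact mul_le_mul_of_nonneg_left h3 (by positivity)
    · have h4 := tendsto_pow_atTop_nhds_zero_of_lt_one (norm_nonneg (p : C)) hp
      simpa using h4.mul_const B
  have h5 := tendsto_nhds_unique h1 h2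
  linear_combination h5

end Vale.Agent.P217
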