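import Vale.Agent.P217.LSum

/-!
# P217, module KF3: the logarithm of the projection (helper83)
-/

set_option linter.unusedSectionVars false

namespace Vale.Agent.P217

open MvPowerSeries Filter Topology
open scoped MvPowerSeries.WithPiTopology

variable {p h m : ℕ} [Fact p.Prime]
variable {K C : Type*} [NormedField K] [NormedField C] [IsUltrametricDist K] [IsUltrametricDist C]
  [CharP K p] [PerfectRing K p] [CompleteSpace K] [CompleteSpace C]
variable [CharZero C]

theorem logC_zero_kf {n : ℕ} (v : ℕ → C) : logC p n v 0 = 0 := by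
  unfold logC
  have : (fun k : ℕ => ellOf p n v k * (0 : C) ^ (p ^ k)) = fun _ => 0 := by
    funext k
    rw [zero_pow (pow_ne_zero _ (Fact.out : p.Prime).ne_zero), mul_zero]
  rw [this, tsum_zero]

/-- the logarithm as a homomorphism -/
noncomputable def logHom (hp : ‖(p : C)‖ < 1) {n : ℕ} (v : ℕ → OO C) :
    FPt p n v →+ C where
  toFun x := logC p n (fun j => (v j : C)) (x.1 : OO C)
  map_zero' := logC_zero_kf _
  map_add' x y := logC_add hp x y

theorem rt_eq_fz (k : ℕ) (x : OO K) : ((rt p k x : OO K) : K) = fz p (-(k : ℤ)) (x : K) := by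
  rw [fz_neg_nat]
  rfl

theorem elC_eq_lim_kf {u : Fin m → OO C} {ρ : ℝ} (D : Dt p h m u ρ)
    (S : SharpData p K C) (x : FPt p (h + m) (Gam (h + m) : ℕ → OO K)) :
    Tendsto (fun N : ℕ => (p : C) ^ N * logC p (h + m) (fun j => ((par h m u j : OO C) : C))
      (S.sharp (fz p (-((h + m) * N : ℤ)) ((x.1 : OO K) : K)))) atTop
      (𝓝 (logC p (h + m) (fun j => ((par h m u j : OO C) : C)) (((pra D S x).1 : OO C) : C))) := by
  have hp : ‖(p : C)‖ < 1 := D.p_le.trans_lt D.rho_lt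
  obtain ⟨B, hB⟩ := logC_bound (p := p) (C := C) hp (n := h + m) D.rho_lt
  have hn : 1 ≤ h + m := le_trans D.h_pos (Nat.le_add_right _ _)
  set v : ℕ → OO C := par h m u with hv
  have hv1 : ∀ j, ‖(v j : C)‖ ≤ 1 := fun j => (v j).2
  set L := logHom hp (n := h + m) v with hL
  set s : ℕ → FPt p (h + m) v := sseq S (RingHom.id _) continuous_id v x with hs
  have hsval : ∀ N : ℕ, ((s N).1 : C) = S.sharp (fz p (-((h + m) * N : ℤ)) ((x.1 : OO K) : K)) := by
    intro N
    have h1 : ((s N).1 : C) = S.sharp ((rt p ((h + m) * N) x.1 : OO K) : K) := rfl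
    rw [h1, rt_eq_fz]
    congr 2
  have hd : ∀ N : ℕ, ‖L (pra D S (Ediv N x) - s N)‖ ≤ B := by
    intro N
    have h1 := prS_mod S (RingHom.id (OO C)) continuous_id D.adm (Ediv N x)
    have h2 : (pra D S (Ediv N x) - s N).1 ∈ ballI C ρ D.rho_nonneg := by
      rw [FPt.sub_mem_iff (ball_closed D.rho_nonneg)]
      exact h1
    exact hB _ hv1 _ h2
  have key : ∀ N : ℕ, (p : C) ^ N * logC p (h + m) (fun j => ((v j : OO C) : C))
      (S.sharp (fz p (-((h + m) * N : ℤ)) ((x.1 : OO K) : K))) =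
      L (pra D S x) - (p : C) ^ N * L (pra D S (Ediv N x) - s N) := by
    intro N
    rw [← hsval]
    have h1 : pra D S x = p ^ N • pra D S (Ediv N x) := by
      rw [← map_nsmul, E_smul_Ediv hn]
    rw [h1, map_nsmul, map_sub, nsmul_eq_mul]
    have h2 : L (s N) = logC p (h + m) (fun j => ((v j : OO C) : C)) ((s N).1 : C) := rfl
    rw [← h2]
    push_cast
    ring
  have h3 : Tendsto (fun N : ℕ => L (pra D S x) - (p : C) ^ N * L (pra D S (Ediv N x) - s N))
      atTop (𝓝 (L (pra D S x) - 0)) := by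
    refine tendsto_const_nhds.sub ?_
    rw [tendsto_zero_iff_norm_tendsto_zero]
    have hB0 : 0 ≤ B := (norm_nonneg _).trans (hd 0)
    refine squeeze_zero (fun _ => norm_nonneg _) (g := fun N : ℕ => ‖(p : C)‖ ^ N * B) ?_ ?_
    · intro N
      rw [norm_mul, norm_pow]
      exact mul_le_mul_of_nonneg_left (hd N) (by positivity)
    · rw [← zero_mul B]
      exact (tendsto_pow_atTop_nhds_zero_of_lt_one (norm_nonneg _) hp).mul_const B
  rw [sub_zero] at h3
  exact h3.congr fun N => (key N).symm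

/-! ### the linear combination -/

theorem kf3_summable_pos {c r : ℝ} (hr0 : 0 ≤ r) (hr1 : r < 1) (hc : 0 < c) :
    Summable fun k : ℕ => c ^ k * r ^ (2 ^ k) := by
  rcases hr0.eq_or_lt with h0 | h0
  · subst h0
    have : (fun k : ℕ => c ^ k * (0 : ℝ) ^ (2 ^ k)) = fun _ => 0 := by
      funext k
      rw [zero_pow (pow_ne_zero _ two_ne_zero), mul_zero]
    rw [this]
    exact summable_zero
  · have h2 : Tendsto (fun k : ℕ => c * r ^ (2 ^ k)) atTop (𝓝 0) := by
      rw [← mul_zero c]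
      refine Tendsto.const_mul c ?_
      exact (tendsto_pow_atTop_nhds_zero_of_lt_one hr0 hr1).comp
        (tendsto_pow_atTop_atTop_of_one_lt one_lt_two)
    refine summable_of_ratio_test_tendsto_lt_one (l := 0) zero_lt_one
      (Eventually.of_forall fun k => by positivity) ?_
    refine h2.congr fun k => ?_
    have h3 : 0 < c ^ k * r ^ (2 ^ k) := by positivity
    have h4 : 0 < c ^ (k + 1) * r ^ (2 ^ (k + 1)) := by positivity
    rw [Real.norm_of_nonneg h3.le, Real.norm_of_nonneg h4.le, eq_div_iff h3.ne', pow_succ 2 k,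
      mul_two, pow_add, pow_succ]
    ring

/-- the dominating function -/
noncomputable def kf3g (P r : ℝ) (j : ℤ) : ℝ := P ^ (-j) * (if 0 ≤ j then r ^ (2 ^ j.toNat) else 1)

theorem kf3g_nonneg {P r : ℝ} (hP : 0 < P) (hr : 0 ≤ r) (j : ℤ) : 0 ≤ kf3g P r j := by
  unfold kf3g
  have : 0 ≤ P ^ (-j) := (zpow_pos hP _).le
  split_ifs <;> positivity

theorem kf3g_summable {P r : ℝ} (hP : 0 < P) (hP1 : P < 1) (hr0 : 0 ≤ r) (hr1 : r < 1) :
    Summable (kf3g P r) := by
  refine Summable.of_nat_of_neg ?_ ?_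
  · refine (kf3_summable_pos hr0 hr1 (inv_pos.mpr hP)).congr fun k => ?_
    unfold kf3g
    rw [if_pos (Int.natCast_nonneg k), Int.toNat_natCast, zpow_neg, zpow_natCast, inv_pow]
  · refine Summable.of_nonneg_of_le (fun k => kf3g_nonneg hP hr0 _) (fun k => ?_)
      (summable_geometric_of_lt_one hP.le hP1)
    unfold kf3g
    rw [neg_neg, zpow_natCast]
    refine mul_le_of_le_one_right (by positivity) ?_
    split_ifs
    · exact pow_le_one₀ hr0 hr1.le
    · exact le_rfl

theorem kf3_norm (S : SharpData p K C) {n : ℕ} (hn : 1 ≤ n) (i : ℕ) (j : ℤ) {y : K}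
    (hy : ‖y‖ < 1) : ‖S.sharp (fz p ((i : ℤ) + n * j) y)‖ ≤
      if 0 ≤ j then ‖y‖ ^ (2 ^ j.toNat) else 1 := by
  rw [S.norm_sharp]
  split_ifs with hj
  · obtain ⟨k, rfl⟩ := Int.eq_ofNat_of_zero_le hj
    have h1 : (i : ℤ) + n * (k : ℤ) = ((i + n * k : ℕ) : ℤ) := by push_cast; ring
    rw [h1, fz_nat, norm_pow, Int.toNat_natCast]
    refine pow_le_pow_of_le_one (norm_nonneg _) hy.le ?_
    calc 2 ^ k ≤ p ^ k := Nat.pow_le_pow_left (Fact.out : p.Prime).two_le k
      _ ≤ p ^ (i + n * k) := Nat.pow_le_pow_right (Fact.out : p.Prime).pos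
          (le_add_left (Nat.le_mul_of_pos_left k hn))
  · rw [norm_fz]
    exact Real.rpow_le_one (norm_nonneg _) hy.le (by positivity)

theorem exists_W_kf {u : Fin m → OO C} {ρ : ℝ} (D : Dt p h m u ρ)
    (S : SharpData p K C) : ∃ W : Fin (h + m) → C,
      ∀ x : FPt p (h + m) (Gam (h + m) : ℕ → OO K),
        logC p (h + m) (fun j => ((par h m u j : OO C) : C)) (((pra D S x).1 : OO C) : C) =
          ∑ i, W i * LL S (h + m) ((i : ℕ) : ℤ) ((x.1 : OO K) : K) := by
  have hp : ‖(p : C)‖ < 1 := D.p_le.trans_lt D.rho_lt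
  have hp0 : (p : C) ≠ 0 := Nat.cast_ne_zero.mpr (Fact.out : p.Prime).ne_zero
  have hpos : 0 < ‖(p : C)‖ := norm_pos_iff.mpr hp0
  have hn : 1 ≤ h + m := le_trans D.h_pos (Nat.le_add_right _ _)
  set n := h + m with hnm
  set v : ℕ → C := fun j => ((par h m u j : OO C) : C) with hv
  have hA := D.adm
  have hvρ : ∀ j, 1 ≤ j → j < n → ‖v j‖ ≤ ρ := fun j h1 h2 => hA.v_mem j h1 h2
  have hvn : v n = 1 := by
    have := hA.v_top
    show ((par h m u n : OO C) : C) = 1
    rw [this]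
    rfl
  have hex : ∀ i : Fin n, ∃ W : C, ∃ B : ℝ, Tendsto (fun N : ℕ => (p : C) ^ N *
      ellOf p n v (n * N + i)) atTop (𝓝 W) ∧ ∀ N, ‖(p : C) ^ N * ellOf p n v (n * N + i)‖ ≤ B := by
    intro i
    obtain ⟨W, hW⟩ := ell_limit hp hn D.rho_lt hvρ hvn i
    obtain ⟨B, hB⟩ := (hW.norm).bddAbove_range
    exact ⟨W, B, hW, fun N => hB ⟨N, rfl⟩⟩
  choose W Bf hW hBf using hex
  set B : ℝ := ∑ i, |Bf i| with hBdef
  have hB0 : 0 ≤ B := Finset.sum_nonneg fun i _ => abs_nonneg _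
  have hB : ∀ (i : Fin n) (N : ℕ), ‖(p : C) ^ N * ellOf p n v (n * N + i)‖ ≤ B := fun i N =>
    (hBf i N).trans ((le_abs_self _).trans
      (Finset.single_le_sum (f := fun i => |Bf i|) (fun i _ => abs_nonneg _) (Finset.mem_univ i)))
  refine ⟨W, fun x => ?_⟩
  set y : K := ((x.1 : OO K) : K) with hy
  have hy1 : ‖y‖ < 1 := (tn_iff_norm_lt_one x.1).1 x.2
  set T : ℤ → C := fun k => S.sharp (fz p k y) with hT
  set G : ℕ → Fin n × ℤ → C := fun N q => if 0 ≤ q.2 + N then
    ((p : C) ^ N * ellOf p n v (n * (q.2 + N).toNat + q.1)) * T (q.1 + n * q.2) else 0 with hG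
  have hlim := elC_eq_lim_kf D S x
  -- Claim A
  have hclA : ∀ N : ℕ, (p : C) ^ N * logC p n v (S.sharp (fz p (-((h + m) * N : ℤ)) y)) =
      ∑' q, G N q := by
    intro N
    have hNZ : NeZero n := ⟨by omega⟩
    set ι : ℕ → Fin n × ℤ := fun k => (⟨k % n, Nat.mod_lt _ hn⟩, ((k / n : ℕ) : ℤ) - N) with hι
    have hinj : Function.Injective ι := by
      intro k k' hk
      simp only [hι, Prod.mk.injEq, Fin.mk.injEq, sub_left_inj, Nat.cast_inj] at hk
      rw [← Nat.div_add_mod k n, ← Nat.div_add_mod k' n, hk.1, hk.2]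
    have hsupp : Function.support (G N) ⊆ Set.range ι := by
      intro q hq
      simp only [hG, Function.mem_support, ne_eq, ite_eq_right_iff, not_forall] at hq
      obtain ⟨h1, -⟩ := hq
      refine ⟨n * (q.2 + N).toNat + q.1, ?_⟩
      have h2 : (n * (q.2 + N).toNat + (q.1 : ℕ)) % n = q.1 := by
        rw [Nat.mul_add_mod, Nat.mod_eq_of_lt q.1.2]
      have h3 : (n * (q.2 + N).toNat + (q.1 : ℕ)) / n = (q.2 + N).toNat := by
        rw [Nat.mul_add_div hn, Nat.div_eq_of_lt q.1.2, add_zero]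
      refine Prod.ext (Fin.ext h2) ?_
      show (((n * (q.2 + N).toNat + (q.1 : ℕ)) / n : ℕ) : ℤ) - N = q.2
      rw [h3, Int.toNat_of_nonneg h1]
      ring
    rw [← hinj.tsum_eq hsupp]
    unfold logC
    rw [← tsum_mul_left]
    refine tsum_congr fun k => ?_
    have h1 : 0 ≤ (ι k).2 + (N : ℤ) := by
      show 0 ≤ ((k / n : ℕ) : ℤ) - N + N
      rw [sub_add_cancel]
      exact Int.natCast_nonneg _
    have h2 : ((ι k).2 + (N : ℤ)).toNat = k / n := by
      show (((k / n : ℕ) : ℤ) - N + N).toNat = k / n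
      rw [sub_add_cancel, Int.toNat_natCast]
    have h3 : n * (k / n) + ((ι k).1 : ℕ) = k := Nat.div_add_mod k n
    have h4 : T (((ι k).1 : ℕ) + n * (ι k).2) =
        S.sharp (fz p (-((h + m) * N : ℤ)) y) ^ (p ^ k) := by
      rw [← map_pow, ← fz_nat, fz_add, hT]
      simp only
      congr 2
      have h5 : ((ι k).2 : ℤ) = ((k / n : ℕ) : ℤ) - N := rfl
      rw [h5]
      have h6 : (k : ℤ) = n * ((k / n : ℕ) : ℤ) + (((ι k).1 : ℕ) : ℤ) := by
        exact_mod_cast h3.symm
      rw [h6]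
      have h7 : ((h : ℤ) + m) = n := by rw [hnm]; push_cast; ring
      rw [h7]
      ring
    simp only [hG]
    rw [if_pos h1, h2, h3, h4]
    ring
  -- Claim B
  have hbound : Summable fun q : Fin n × ℤ => B * kf3g ‖(p : C)‖ ‖y‖ q.2 := by
    have h1 := (kf3g_summable hpos hp (norm_nonneg y) hy1).mul_left B
    rw [summable_prod_of_nonneg (fun q => mul_nonneg hB0 (kf3g_nonneg hpos (norm_nonneg _) _))]
    exact ⟨fun _ => h1, (hasSum_fintype _).summable⟩
  have hzp : ∀ (N : ℕ) (j : ℤ), 0 ≤ j + N →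
      (p : C) ^ N = (p : C) ^ (-j) * (p : C) ^ ((j + N).toNat) := by
    intro N j hj
    rw [← zpow_natCast (p : C) ((j + N).toNat), Int.toNat_of_nonneg hj, ← zpow_add₀ hp0,
      ← zpow_natCast]
    congr 1
    ring
  have hGb : ∀ N q, ‖G N q‖ ≤ B * kf3g ‖(p : C)‖ ‖y‖ q.2 := by
    intro N q
    simp only [hG]
    split_ifs with hq
    · have e : (p : C) ^ (-q.2) * (p : C) ^ ((q.2 + N).toNat) *
          ellOf p n v (n * (q.2 + N).toNat + q.1) * T (q.1 + n * q.2) =
          (p : C) ^ (-q.2) * ((p : C) ^ ((q.2 + N).toNat) *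
          ellOf p n v (n * (q.2 + N).toNat + q.1)) * T (q.1 + n * q.2) := by ring
      rw [hzp N q.2 hq, e, norm_mul, norm_mul, norm_zpow]
      unfold kf3g
      have h1 := hB q.1 ((q.2 + N).toNat)
      have h2 := kf3_norm S hn q.1 q.2 hy1
      have h3 : 0 ≤ ‖(p : C)‖ ^ (-q.2) := (zpow_pos hpos _).le
      have h4 := mul_le_mul h1 h2 (norm_nonneg _) hB0
      calc ‖(p : C)‖ ^ (-q.2) * ‖(p : C) ^ (q.2 + N).toNat *
            ellOf p n v (n * (q.2 + N).toNat + q.1)‖ * ‖T (q.1 + n * q.2)‖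
          = ‖(p : C)‖ ^ (-q.2) * (‖(p : C) ^ (q.2 + N).toNat *
            ellOf p n v (n * (q.2 + N).toNat + q.1)‖ * ‖T (q.1 + n * q.2)‖) := by ring
        _ ≤ ‖(p : C)‖ ^ (-q.2) * (B * (if 0 ≤ q.2 then ‖y‖ ^ (2 ^ q.2.toNat) else 1)) :=
            mul_le_mul_of_nonneg_left h4 h3
        _ = _ := by ring
    · rw [norm_zero]
      exact mul_nonneg hB0 (kf3g_nonneg hpos (norm_nonneg _) _)
  have hpt : ∀ q : Fin n × ℤ, Tendsto (fun N => G N q) atTop
      (𝓝 (W q.1 * ((p : C) ^ (-q.2) * T (q.1 + n * q.2)))) := by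
    intro q
    have h1 : Tendsto (fun N : ℕ => (q.2 + N).toNat) atTop atTop := by
      refine tendsto_atTop.mpr fun b => ?_
      filter_upwards [eventually_ge_atTop (b + q.2.natAbs)] with N hN
      omega
    have h2 := (((hW q.1).comp h1).const_mul ((p : C) ^ (-q.2))).mul_const (T (q.1 + n * q.2))
    have h3 : (p : C) ^ (-q.2) * W q.1 * T (q.1 + n * q.2) =
        W q.1 * ((p : C) ^ (-q.2) * T (q.1 + n * q.2)) := by ring
    rw [h3] at h2
    refine h2.congr' ?_
    filter_upwards [eventually_ge_atTop q.2.natAbs] with N hN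
    have hq : 0 ≤ q.2 + (N : ℤ) := by omega
    simp only [hG, Function.comp]
    rw [if_pos hq, hzp N q.2 hq]
    ring
  have hclB := tendsto_tsum_of_dominated_convergence hbound hpt (Eventually.of_forall fun N q => hGb N q)
  -- Claim C
  have hfin : ∑' q : Fin n × ℤ, W q.1 * ((p : C) ^ (-q.2) * T (q.1 + n * q.2)) =
      ∑ i, W i * LL S n ((i : ℕ) : ℤ) y := by
    have hs : Summable fun q : Fin n × ℤ => W q.1 * ((p : C) ^ (-q.2) * T (q.1 + n * q.2)) := by
      refine Summable.of_norm_bounded hbound fun q => ?_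
      exact le_of_tendsto (hpt q).norm (Eventually.of_forall fun N => hGb N q)
    rw [hs.tsum_prod, tsum_fintype]
    refine Finset.sum_congr rfl fun i _ => ?_
    show ∑' j : ℤ, W i * ((p : C) ^ (-j) * T ((i : ℕ) + n * j)) = _
    rw [tsum_mul_left]
    rfl
  rw [← hfin]
  refine tendsto_nhds_unique hlim ?_
  exact hclB.congr fun N => (hclA N).symm

end Vale.Agent.P217
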