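import Vale.Agent.P217.Base

/-!
# P217, module KF6: `Lam` over `C` is congruent modulo `p` to the coefficientwise `♯` of `Lam`
over `K` (helper83)
-/

set_option linter.unusedSectionVars false

namespace Vale.Agent.P217

open MvPowerSeries Filter Topology
open scoped MvPowerSeries.WithPiTopology

variable {p h m : ℕ} [Fact p.Prime]

theorem par_map_kf6 {R S : Type*} [CommRing R] [CommRing S] (φ : R →+* S) (h m : ℕ)
    (a : Fin m → R) : (fun j => φ (par h m a j)) = par h m (fun i => φ (a i)) := by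
  funext j
  unfold par
  split_ifs <;> simp

theorem nsmul_val_congr_kf6 {O : Type*} [CommRing O] [UniformSpace O] [IsUniformAddGroup O]
    [IsTopologicalRing O] [IsLinearTopology O O] [T2Space O] [CompleteSpace O] {n : ℕ}
    {v w : ℕ → O} (hvw : v = w) (k : ℕ) (s : FPt p n v) (t : FPt p n w) (hst : s.1 = t.1) :
    (k • s).1 = (k • t).1 := by
  subst hvw
  have : s = t := Subtype.ext hst
  rw [this]

theorem continuous_map_kf6 {A Q : Type*} [CommRing A] [TopologicalSpace A] [CommRing Q]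
    [TopologicalSpace Q] (σ : A →+* Q) (hσ : Continuous σ) (m : ℕ) :
    Continuous (MvPowerSeries.map σ : MvPowerSeries (Fin m) A →+* MvPowerSeries (Fin m) Q) := by
  refine continuous_pi fun e => ?_
  exact hσ.comp (continuous_apply e)

section

variable {A B Q : Type*} [CommRing A] [UniformSpace A] [IsUniformAddGroup A]
  [IsTopologicalRing A] [IsLinearTopology A A] [T2Space A] [CompleteSpace A]
  [CommRing B] [UniformSpace B] [IsUniformAddGroup B] [IsTopologicalRing B]
  [IsLinearTopology B B] [T2Space B] [CompleteSpace B]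
  [CommRing Q] [UniformSpace Q] [IsUniformAddGroup Q] [IsTopologicalRing Q]
  [IsLinearTopology Q Q] [T2Space Q] [CompleteSpace Q]

/-- two limits `lim [p^N] s_N` become equal in a common quotient -/
theorem lim_quot_kf6 {n : ℕ} {v : ℕ → A} {w : ℕ → B} (σ : A →+* Q) (hσ : Continuous σ)
    (μ : B →+* Q) (hμ : Continuous μ) (hvw : ∀ j, σ (v j) = μ (w j))
    (s : ℕ → FPt p n v) (t : ℕ → FPt p n w) (hst : ∀ N, σ (s N).1 = μ (t N).1)
    {y : A} {z : B} (hy : Tendsto (fun N => (p ^ N • s N : FPt p n v).1) atTop (𝓝 y))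
    (hz : Tendsto (fun N => (p ^ N • t N : FPt p n w).1) atTop (𝓝 z)) : σ y = μ z := by
  have h1 := (hσ.tendsto _).comp hy
  have h2 := (hμ.tendsto _).comp hz
  refine tendsto_nhds_unique h1 (h2.congr fun N => ?_)
  have e1 : σ (p ^ N • s N : FPt p n v).1 = (p ^ N • FPt.map σ hσ (s N)).1 := by
    rw [← map_nsmul]
    rfl
  have e2 : μ (p ^ N • t N : FPt p n w).1 = (p ^ N • FPt.map μ hμ (t N)).1 := by
    rw [← map_nsmul]
    rfl
  show μ (p ^ N • t N : FPt p n w).1 = σ (p ^ N • s N : FPt p n v).1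
  rw [e1, e2]
  exact nsmul_val_congr_kf6 (funext fun j => (hvw j).symm) _ _ _ (hst N).symm

end

variable {K C : Type*} [NormedField K] [NormedField C] [IsUltrametricDist K] [IsUltrametricDist C]
  [CharP K p] [PerfectRing K p] [CompleteSpace K] [CompleteSpace C]

theorem Lam_quot_kf6 {Q : Type*} [CommRing Q] {a : Fin m → OO K} {ρ ρ' : ℝ} (D : Dt p h m a ρ)
    (S : SharpData p K C) (D' : Dt p h m (fun i => shO S (a i)) ρ')
    (S0 : SharpData p K K) (hS : ∀ x, S0.sharp x = x)
    (x : FPt p (h + m) (Gam (h + m) : ℕ → OO K)) (σ : OO K →+* Q) (μ : OO C →+* Q)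
    (hσ : {x | σ x = 0} ∈ 𝓝 (0 : OO K)) (hμ : {x | μ x = 0} ∈ 𝓝 (0 : OO C))
    (hσμ : ∀ y, σ y = μ (shO S y)) (e : Fin m →₀ ℕ) :
    σ (coeff e (Lam D S0 x)) = μ (coeff e (Lam D' S x)) := by
  let : UniformSpace Q := ⊥
  have hd : DiscreteTopology Q := ⟨rfl⟩
  have hu : DiscreteUniformity Q := ⟨rfl⟩
  have hadd : IsUniformAddGroup Q := inferInstance
  have hring : IsTopologicalRing Q := inferInstance
  have hσ : Continuous σ := continuous_of_ker_mem_nhds hσ
  have hμ : Continuous μ := continuous_of_ker_mem_nhds hμ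
  have hkey : (MvPowerSeries.map σ) (Lam D S0 x) = (MvPowerSeries.map μ) (Lam D' S x) := by
    refine lim_quot_kf6 (p := p) (n := h + m) (v := parX h m a)
      (w := parX h m (fun i => shO S (a i))) (MvPowerSeries.map σ) (continuous_map_kf6 σ hσ m)
      (MvPowerSeries.map μ) (continuous_map_kf6 μ hμ m) (fun j => ?_)
      (sseq S0 (MvPowerSeries.C : OO K →+* MvPowerSeries (Fin m) (OO K)) continuous_C_OO _ x)
      (sseq S (MvPowerSeries.C : OO C →+* MvPowerSeries (Fin m) (OO C)) continuous_C_OO _ x) (fun N => ?_)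
      (prS_tendsto S0 _ continuous_C_OO D.admX x) (prS_tendsto S _ continuous_C_OO D'.admX x)
    · have h1 := congrFun (par_map_kf6 (MvPowerSeries.map σ) h m
        (fun i => (MvPowerSeries.C (a i) + X i : MvPowerSeries (Fin m) (OO K)))) j
      have h2 := congrFun (par_map_kf6 (MvPowerSeries.map μ) h m
        (fun i => (MvPowerSeries.C (shO S (a i)) + X i : MvPowerSeries (Fin m) (OO C)))) j
      show MvPowerSeries.map σ (par h m (fun i => MvPowerSeries.C (a i) + X i) j) =
        MvPowerSeries.map μ (par h m (fun i => MvPowerSeries.C (shO S (a i)) + X i) j)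
      rw [h1, h2]
      congr 1
      funext i
      rw [map_add, map_add, map_C, map_C, map_X, map_X, hσμ]
    · show MvPowerSeries.map σ (MvPowerSeries.C (shO S0 (rt p ((h + m) * N) x.1))) =
        MvPowerSeries.map μ (MvPowerSeries.C (shO S (rt p ((h + m) * N) x.1)))
      have h3 : shO S0 (rt p ((h + m) * N) x.1) = rt p ((h + m) * N) x.1 :=
        Subtype.ext (hS _)
      rw [map_C, map_C, h3, hσμ]
  have h4 := congrArg (coeff e) hkey
  rwa [coeff_map, coeff_map] at h4

theorem Lam_sharp_kf {a : Fin m → OO K} {ρ ρ' : ℝ} (D : Dt p h m a ρ)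
    (S : SharpData p K C) (D' : Dt p h m (fun i => shO S (a i)) ρ')
    (S0 : SharpData p K K) (hS : ∀ x, S0.sharp x = x)
    (x : FPt p (h + m) (Gam (h + m) : ℕ → OO K)) (e : Fin m →₀ ℕ) :
    ‖((coeff e (Lam D' S x) : OO C) : C) - S.sharp ((coeff e (Lam D S0 x) : OO K) : K)‖
      ≤ ‖(p : C)‖ := by
  refine le_of_forall_gt fun c hc => ?_
  have hc0 : 0 < c := (norm_nonneg _).trans_lt hc
  have h5 := Lam_quot_kf6 D S D' S0 hS x (shQ S ⟨c, hc0⟩ hc)
    (Ideal.Quotient.mk (ballIdeal C ⟨c, hc0⟩)) ?_ ?_ (fun y => rfl) e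
  · exact Ideal.Quotient.eq.1 h5.symm
  · refine mem_of_superset (ball_mem_nhds (L := K) ⟨c, hc0⟩) fun z hz => ?_
    show Ideal.Quotient.mk (ballIdeal C ⟨c, hc0⟩) (shO S z) = 0
    rw [Ideal.Quotient.eq_zero_iff_mem]
    show ‖((shO S z : OO C) : C)‖ < c
    rw [norm_shO]
    exact hz
  · refine mem_of_superset (ball_mem_nhds (L := C) ⟨c, hc0⟩) fun z hz => ?_
    exact Ideal.Quotient.eq_zero_iff_mem.2 hz

end Vale.Agent.P217
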