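import Vale.Agent.P217.LSum

/-!
# P217: Frobenius twists of points, base points and of `Lam` (module KF5)
-/

set_option linter.unusedSectionVars false

namespace Vale.Agent.P217

open MvPowerSeries Filter Topology
open scoped MvPowerSeries.WithPiTopology

variable {p h m : ℕ} [Fact p.Prime]
variable {K C : Type*} [NormedField K] [NormedField C] [IsUltrametricDist K] [IsUltrametricDist C]
  [CharP K p] [PerfectRing K p] [CompleteSpace K] [CompleteSpace C]

/-- `x ↦ x^(p^k)` on the unit ball. -/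
noncomputable def fzO (p : ℕ) [Fact p.Prime] [CharP K p] [PerfectRing K p] (k : ℤ) :
    OO K ≃+* OO K where
  toFun x := ⟨fz p k (x : K), by
    show ‖fz p k (x : K)‖ ≤ 1
    rw [norm_fz]
    exact Real.rpow_le_one (norm_nonneg _) x.2 (by positivity)⟩
  invFun x := ⟨fz p (-k) (x : K), by
    show ‖fz p (-k) (x : K)‖ ≤ 1
    rw [norm_fz]
    exact Real.rpow_le_one (norm_nonneg _) x.2 (by positivity)⟩
  left_inv x := Subtype.ext (by
    show fz p (-k) (fz p k (x : K)) = x
    rw [fz_add]; simp [fz])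
  right_inv x := Subtype.ext (by
    show fz p k (fz p (-k) (x : K)) = x
    rw [fz_add]; simp [fz])
  map_mul' x y := Subtype.ext (by simp [fz])
  map_add' x y := Subtype.ext (by simp [fz])

theorem fzO_val (k : ℤ) (x : OO K) : ((fzO p k x : OO K) : K) = fz p k (x : K) := rfl

theorem fzO_nat (k : ℕ) (x : OO K) : fzO p (k : ℤ) x = x ^ (p ^ k) :=
  Subtype.ext (by rw [fzO_val, fz_nat]; rfl)

theorem norm_fzO (k : ℤ) (x : OO K) :
    ‖((fzO p k x : OO K) : K)‖ = ‖(x : K)‖ ^ ((p : ℝ) ^ k) := norm_fz k (x : K)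

theorem kf5_exp_pos (k : ℤ) : (0 : ℝ) < (p : ℝ) ^ k := by
  have hp : (0 : ℝ) < (p : ℝ) := by exact_mod_cast (Fact.out : p.Prime).pos
  positivity

theorem fzO_tn (k : ℤ) {x : OO K} (hx : IsTopologicallyNilpotent x) :
    IsTopologicallyNilpotent (fzO p k x) := by
  rw [tn_iff_norm_lt_one] at hx ⊢
  rw [norm_fzO]
  exact Real.rpow_lt_one (norm_nonneg _) hx (kf5_exp_pos k)

theorem continuous_fzO (k : ℤ) : Continuous ((fzO p k : OO K ≃+* OO K).toRingHom) := by
  refine continuous_of_continuousAt_zero (fzO p k : OO K ≃+* OO K).toRingHom ?_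
  unfold ContinuousAt
  rw [map_zero]
  have h0 : Tendsto (fun x : OO K => ‖(x : K)‖ ^ ((p : ℝ) ^ k)) (𝓝 0) (𝓝 0) := by
    have h1 : Tendsto (fun x : OO K => ‖(x : K)‖) (𝓝 0) (𝓝 0) := by
      have : Continuous fun x : OO K => ‖(x : K)‖ := continuous_norm.comp continuous_subtype_val
      have h2 := this.tendsto (0 : OO K)
      simpa using h2
    have h2 := h1.rpow_const (p := (p : ℝ) ^ k) (Or.inr (kf5_exp_pos k).le)
    rwa [Real.zero_rpow (kf5_exp_pos k).ne'] at h2
  rw [tendsto_subtype_rng, ZeroMemClass.coe_zero, tendsto_zero_iff_norm_tendsto_zero]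
  exact h0.congr fun x => (norm_fzO k x).symm

theorem fzO_Gam (k : ℤ) (r j : ℕ) :
    (fzO p k : OO K ≃+* OO K).toRingHom ((Gam r : ℕ → OO K) j) = Gam r j := by
  unfold Gam
  split_ifs
  · exact map_one _
  · exact map_zero _

/-- The twist of a point of `E`. -/
noncomputable def Etw {n r : ℕ} (k : ℤ) (x : FPt p n (Gam r : ℕ → OO K)) :
    FPt p n (Gam r : ℕ → OO K) := ⟨fzO p k x.1, fzO_tn k x.2⟩

theorem Etw_val {n r : ℕ} (k : ℤ) (x : FPt p n (Gam r : ℕ → OO K)) :
    (Etw k x).1 = fzO p k x.1 := rfl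

/-- The twist is additive. -/
theorem Etw_add {n r : ℕ} (k : ℤ) (x y : FPt p n (Gam r : ℕ → OO K)) :
    Etw k (x + y) = Etw k x + Etw k y := by
  apply Subtype.ext
  have h := ev2_map (p := p) (n := n) (v := Gam r) (continuous_fzO (K := K) (p := p) k) x.2 y.2
  have hG : (fun j => (fzO p k : OO K ≃+* OO K).toRingHom ((Gam r : ℕ → OO K) j)) = Gam r :=
    funext fun j => fzO_Gam k r j
  rw [hG] at h
  exact h

/-- `♯` of a base point in characteristic `p` is a base point in characteristic `0`; `Dt` at the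
twist. -/
theorem Dt.twist {a : Fin m → OO K} {ρ : ℝ} (D : Dt p h m a ρ) (k : ℤ) :
    ∃ ρ', Dt p h m (fun i => fzO p k (a i)) ρ' := by
  refine ⟨ρ ^ ((p : ℝ) ^ k), D.h_pos, Real.rpow_nonneg D.rho_nonneg _,
    Real.rpow_lt_one D.rho_nonneg D.rho_lt (kf5_exp_pos k), ?_, fun i => ?_⟩
  · rw [CharP.cast_eq_zero, norm_zero]
    exact Real.rpow_nonneg D.rho_nonneg _
  · show ‖((fzO p k (a i) : OO K) : K)‖ ≤ _
    rw [norm_fzO]
    exact Real.rpow_le_rpow (norm_nonneg _) (D.a_le i) (kf5_exp_pos k).le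

theorem Dt.sharp (hp : ‖(p : C)‖ < 1) (S : SharpData p K C) {a : Fin m → OO K} {ρ : ℝ}
    (D : Dt p h m a ρ) : ∃ ρ', Dt p h m (fun i => shO S (a i)) ρ' := by
  refine ⟨max ρ ‖(p : C)‖, D.h_pos, le_max_of_le_left D.rho_nonneg, max_lt D.rho_lt hp,
    le_max_right _ _, fun i => ?_⟩
  rw [norm_shO]
  exact le_max_of_le_left (D.a_le i)

section congr

variable {L : Type*} [NormedField L] [IsUltrametricDist L] [CompleteSpace L]
variable {O : Type*} [CommRing O] [UniformSpace O] [IsUniformAddGroup O] [IsTopologicalRing O]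
  [IsLinearTopology O O] [T2Space O] [CompleteSpace O] {n : ℕ}

/-- `prS` at two points with equal sequences. -/
theorem kf5_congr {v v' : ℕ → O} {J J' : Ideal O} (hv : v = v') (S S' : SharpData p K L)
    (ι ι' : OO L →+* O) (hι : Continuous ι) (hι' : Continuous ι')
    (hJ : Adm p n v J) (hJ' : Adm p n v' J') (x x' : FPt p n (Gam n : ℕ → OO K))
    (hx : ∀ N, ι (shO S (rt p (n * N) x.1)) = ι' (shO S' (rt p (n * N) x'.1))) :
    (prS S ι hι hJ x).1 = (prS S' ι' hι' hJ' x').1 := by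
  subst hv
  rw [prS_apply, prS_apply]
  have : sseq S ι hι v x = sseq S' ι' hι' v x' := by
    funext N
    exact Subtype.ext (hx N)
  rw [this]

end congr

theorem rt_fzO (j : ℕ) (k : ℤ) (x : OO K) : rt p j (fzO p k x) = fzO p k (rt p j x) := by
  symm
  refine rt_unique _ _ _ ?_
  rw [← map_pow, rt_pow]

theorem shO_refl (S : SharpData p K K) (hS : ∀ x, S.sharp x = x) (x : OO K) : shO S x = x :=
  Subtype.ext (hS (x : K))

/-- KF5: `Lam` at the twist is the coefficientwise twist of `Lam` (all over `K`). -/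
theorem Lam_twist {a : Fin m → OO K} {ρ ρ' : ℝ} (D : Dt p h m a ρ) (k : ℤ)
    (D' : Dt p h m (fun i => fzO p k (a i)) ρ') (S : SharpData p K K) (hS : ∀ x, S.sharp x = x)
    (x : FPt p (h + m) (Gam (h + m) : ℕ → OO K)) :
    Lam D' S (Etw k x) = (Lam D S x).map (fzO p k : OO K ≃+* OO K).toRingHom := by
  set ψ : MvPowerSeries (Fin m) (OO K) →+* MvPowerSeries (Fin m) (OO K) :=
    MvPowerSeries.map (fzO p k : OO K ≃+* OO K).toRingHom with hψdef
  have hψ : Continuous ψ := continuous_pi fun d =>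
    (continuous_fzO (K := K) (p := p) k).comp (WithPiTopology.continuous_coeff (OO K) d)
  have hv : (fun j => ψ (parX h m a j)) = parX h m (fun i => fzO p k (a i)) := by
    funext j
    unfold parX par
    split_ifs with h1 h2
    · rw [map_add, hψdef, map_C, map_X]
      rfl
    · exact map_one ψ
    · exact map_zero ψ
  have hadm : Adm p (h + m) (fun j => ψ (parX h m a j)) (ballX K m ρ' D'.rho_nonneg) := by
    rw [hv]
    exact D'.admX
  have h1 := prS_map S (C : OO K →+* MvPowerSeries (Fin m) (OO K)) continuous_C_OO D.admX ψ hψ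
    hadm x
  have h3 : ψ (Lam D S x) = (prS S (ψ.comp C) (hψ.comp continuous_C_OO) hadm x).1 := by
    rw [h1]
    rfl
  rw [h3]
  refine kf5_congr hv.symm S S _ _ _ _ D'.admX hadm (Etw k x) x fun N => ?_
  rw [shO_refl S hS, shO_refl S hS, Etw_val, rt_fzO, RingHom.comp_apply, hψdef, map_C]
  rfl

/-- The projection at the twist is the twist of the projection. -/
theorem pra_twist {a : Fin m → OO K} {ρ ρ' : ℝ} (D : Dt p h m a ρ) (k : ℤ)
    (D' : Dt p h m (fun i => fzO p k (a i)) ρ') (S : SharpData p K K) (hS : ∀ x, S.sharp x = x)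
    (x : FPt p (h + m) (Gam (h + m) : ℕ → OO K)) :
    (pra D' S (Etw k x)).1 = fzO p k (pra D S x).1 := by
  rw [← Lam_constantCoeff D' S, ← Lam_constantCoeff D S, Lam_twist D k D' S hS x]
  rw [← coeff_zero_eq_constantCoeff_apply, coeff_map, coeff_zero_eq_constantCoeff_apply]
  rfl

end Vale.Agent.P217
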