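import Vale.Agent.P217.LSum
import Vale.Agent.P217.KF1
import Vale.Agent.P217.PKF3
import Vale.Agent.P217.PKF6
import Vale.Agent.P217.Twist

/-!
# P217, parts H and K: `phi_a`, its lift, and the linearity formulas (modules PH1.., KF1..)
-/

namespace Vale.Agent.P217

open MvPowerSeries Filter Topology
open scoped MvPowerSeries.WithPiTopology

variable {p h m : ℕ} [Fact p.Prime]
variable {K C : Type*} [NormedField K] [NormedField C] [IsUltrametricDist K] [IsUltrametricDist C]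
  [CharP K p] [PerfectRing K p] [CompleteSpace K] [CompleteSpace C]

/-! ### Additivity of `LL` and the formula `log_u(pr_u x) = ∑ W_i(u) L_i(x)` -/

/-- KF1: `LL r i` is additive on `Γ_r(m_K)` (`r ≤ n`). -/
theorem LL_add_point [CharZero C] (hp : ‖(p : C)‖ < 1) (S : SharpData p K C) {n r : ℕ}
    (hr : 1 ≤ r) (hrn : r ≤ n) (i : ℤ) (x y : FPt p n (Gam r : ℕ → OO K)) :
    LL S r i (((x + y).1 : OO K) : K) = LL S r i ((x.1 : OO K) : K) + LL S r i ((y.1 : OO K) : K) := by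
  exact LL_add_point_kf hp S hr hrn i x y

/-- KF2: `LL r 0 x = lim p^N log_{Γ_r}((x^(p^(-rN)))^♯)`. -/
theorem LL_eq_lim_log [CharZero C] (hp : ‖(p : C)‖ < 1) (S : SharpData p K C) {n r : ℕ}
    (hr : 1 ≤ r) (hrn : r ≤ n) {x : K} (hx : ‖x‖ < 1) :
    Tendsto (fun N : ℕ => (p : C) ^ N * logC p n (Gam r : ℕ → C) (S.sharp (fz p (-(r * N : ℤ)) x)))
      atTop (𝓝 (LL S r 0 x)) := by
  exact LL_eq_lim_log_kf hp S hr hrn hx

/-- The logarithm of the projection. -/
noncomputable def elC [CharZero C] {u : Fin m → OO C} {ρ : ℝ} (D : Dt p h m u ρ) (S : SharpData p K C)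
    (x : FPt p (h + m) (Gam (h + m) : ℕ → OO K)) : C :=
  logC p (h + m) (fun j => ((par h m u j : OO C) : C)) (((pra D S x).1 : OO C) : C)

/-- KF3: `elC x = lim p^N log_u((x^(p^(-nN)))^♯)`. -/
theorem elC_eq_lim [CharZero C] {u : Fin m → OO C} {ρ : ℝ} (D : Dt p h m u ρ)
    (S : SharpData p K C) (x : FPt p (h + m) (Gam (h + m) : ℕ → OO K)) :
    Tendsto (fun N : ℕ => (p : C) ^ N * logC p (h + m) (fun j => ((par h m u j : OO C) : C))
      (S.sharp (fz p (-((h + m) * N : ℤ)) ((x.1 : OO K) : K)))) atTop (𝓝 (elC D S x)) := by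
  exact elC_eq_lim_kf D S x

/-- KF4: `elC` is a linear combination of the `LL (h+m) i`, `0 ≤ i < h + m`, with coefficients
depending only on the base point. -/
theorem exists_W [CharZero C] {u : Fin m → OO C} {ρ : ℝ} (D : Dt p h m u ρ)
    (S : SharpData p K C) : ∃ W : Fin (h + m) → C,
      ∀ x : FPt p (h + m) (Gam (h + m) : ℕ → OO K),
        elC D S x = ∑ i, W i * LL S (h + m) ((i : ℕ) : ℤ) ((x.1 : OO K) : K) := by
  exact exists_W_kf D S

/-! ### Frobenius twists (`k ∈ ℤ`) -/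

/-! `fzO`, `Etw`, `Etw_add`, `Dt.twist`, `Dt.sharp`, `Lam_twist` (KF5) are in `Twist.lean`. -/

/-- KF6: `Lam` over `C` at `a^♯` is congruent modulo `p` to the coefficientwise `♯` of `Lam` over
`K` at `a`. -/
theorem Lam_sharp (hp : ‖(p : C)‖ < 1) {a : Fin m → OO K} {ρ ρ' : ℝ} (D : Dt p h m a ρ)
    (S : SharpData p K C) (D' : Dt p h m (fun i => shO S (a i)) ρ')
    (S0 : SharpData p K K) (hS : ∀ x, S0.sharp x = x)
    (x : FPt p (h + m) (Gam (h + m) : ℕ → OO K)) (e : Fin m →₀ ℕ) :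
    ‖((coeff e (Lam D' S x) : OO C) : C) - S.sharp ((coeff e (Lam D S0 x) : OO K) : K)‖
      ≤ ‖(p : C)‖ := by
  exact Lam_sharp_kf D S D' S0 hS x e

end Vale.Agent.P217
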