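import Vale.Agent.P217.Base

/-!
# P217, part L: second order expansion of `Lam_e` (LEX)
-/

namespace Vale.Agent.P217

open MvPowerSeries Filter Topology
open scoped MvPowerSeries.WithPiTopology

variable {p h m : ℕ} [Fact p.Prime]
variable {K C : Type*} [NormedField K] [NormedField C] [IsUltrametricDist K] [IsUltrametricDist C]
  [CharP K p] [PerfectRing K p] [CompleteSpace K] [CompleteSpace C]

/-- A power series in several variables to first order: `‖G(δ) - G(0) - ∑_j ∂_j G(0) δ_j‖ ≤ r^2` if
`‖δ_j‖ ≤ r`. -/
theorem evm_expand (G : MvPowerSeries (Fin m) (OO C)) (δ : Fin m → OO C)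
    (hδ : ∀ i, ‖(δ i : C)‖ < 1) {r : ℝ} (hr0 : 0 ≤ r) (hr : ∀ i, ‖(δ i : C)‖ ≤ r) :
    ‖((evm G δ : OO C) : C) - ((constantCoeff G : OO C) : C) -
      ∑ j, ((coeff (Finsupp.single j 1) G : OO C) : C) * (δ j : C)‖ ≤ r ^ 2 := by
  classical
  have hE : HasEval δ :=
    { hpow := fun i => (tn_iff_norm_lt_one _).2 (hδ i)
      tendsto_zero := by
        rw [Filter.cofinite_eq_bot]
        exact tendsto_bot }
  have hid : Continuous (RingHom.id (OO C)) := continuous_id
  have h1 := hasSum_eval₂ hid hE G
  have h2 : HasSum (fun d : Fin m →₀ ℕ => if d = 0 then constantCoeff G else 0)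
      (constantCoeff G) := hasSum_ite_eq 0 _
  have h3 : HasSum (fun d : Fin m →₀ ℕ => ∑ j, if d = Finsupp.single j 1 then
      coeff (Finsupp.single j 1) G * δ j else 0)
      (∑ j, coeff (Finsupp.single j 1) G * δ j) :=
    hasSum_sum fun j _ => hasSum_ite_eq (Finsupp.single j 1) _
  have h4 := (h1.sub h2).sub h3
  have hr2 : 0 ≤ r ^ 2 := pow_nonneg hr0 2
  have h5 : evm G δ - constantCoeff G - ∑ j, coeff (Finsupp.single j 1) G * δ j ∈
      ballI C (r ^ 2) hr2 := by
    have hcl := ball_closed (L := C) hr2
    refine hcl.mem_of_tendsto h4 (Filter.Eventually.of_forall fun s => ?_)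
    refine Ideal.sum_mem _ fun d _ => ?_
    by_cases hd : d = 0
    · subst hd
      have h6 : ∀ j : Fin m, (0 : Fin m →₀ ℕ) ≠ Finsupp.single j 1 := by
        intro j hj
        have := congrArg (fun f : Fin m →₀ ℕ => f j) hj
        simp at this
      rw [Finset.sum_eq_zero fun j _ => if_neg (h6 j)]
      simp
    · rw [if_neg hd, sub_zero]
      obtain ⟨i, hi⟩ : ∃ i, d i ≠ 0 := by
        by_contra hcon
        push Not at hcon
        exact hd (Finsupp.ext hcon)
      by_cases hdi : d = Finsupp.single i 1
      · have h7 : (∑ j, if d = Finsupp.single j 1 then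
            coeff (Finsupp.single j 1) G * δ j else 0) =
            coeff (Finsupp.single i 1) G * δ i := by
          rw [Finset.sum_eq_single i, if_pos hdi]
          · intro j _ hj
            rw [if_neg]
            intro h8
            rw [hdi] at h8
            have := congrArg (fun f : Fin m →₀ ℕ => f i) h8
            simp [hj] at this
          · intro h8
            exact absurd (Finset.mem_univ i) h8
        rw [h7, hdi]
        simp
      · have h7 : (∑ j, if d = Finsupp.single j 1 then
            coeff (Finsupp.single j 1) G * δ j else 0) = 0 := by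
          refine Finset.sum_eq_zero fun j _ => ?_
          rw [if_neg]
          intro h8
          apply hdi
          rw [h8] at hi ⊢
          have : j = i := by
            by_contra hne
            exact hi (Finsupp.single_eq_of_ne (Ne.symm hne))
          rw [this]
        rw [h7, sub_zero]
        refine Ideal.mul_mem_left _ _ ?_
        obtain ⟨d1, hd1⟩ : ∃ d1, d = Finsupp.single i 1 + d1 := by
          refine ⟨d - Finsupp.single i 1, ?_⟩
          rw [add_tsub_cancel_of_le]
          rw [Finsupp.single_le_iff]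
          exact Nat.one_le_iff_ne_zero.2 hi
        obtain ⟨j, hj⟩ : ∃ j, d1 j ≠ 0 := by
          by_contra hcon
          push Not at hcon
          apply hdi
          rw [hd1, (Finsupp.ext hcon : d1 = 0), add_zero]
        obtain ⟨d2, hd2⟩ : ∃ d2, d1 = Finsupp.single j 1 + d2 := by
          refine ⟨d1 - Finsupp.single j 1, ?_⟩
          rw [add_tsub_cancel_of_le]
          rw [Finsupp.single_le_iff]
          exact Nat.one_le_iff_ne_zero.2 hj
        have hs : ∀ k : Fin m, ((Finsupp.single k 1 : Fin m →₀ ℕ).prod fun s e => δ s ^ e) = δ k := by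
          intro k
          rw [Finsupp.prod_single_index (h := fun s e => δ s ^ e) (pow_zero (δ k)), pow_one]
        have hm : ∀ f g : Fin m →₀ ℕ, ((f + g).prod fun s e => δ s ^ e) =
            (f.prod fun s e => δ s ^ e) * (g.prod fun s e => δ s ^ e) := fun f g =>
          Finsupp.prod_add_index' (h := fun s e => δ s ^ e) (fun _ => pow_zero _)
            (fun _ _ _ => pow_add _ _ _)
        rw [hd1, hd2, hm, hm, hs, hs, ← mul_assoc]
        refine Ideal.mul_mem_right _ _ ?_
        show ‖((δ i * δ j : OO C) : C)‖ ≤ r ^ 2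
        have e : ((δ i * δ j : OO C) : C) = (δ i : C) * (δ j : C) := rfl
        rw [e, norm_mul, pow_two]
        exact mul_le_mul (hr i) (hr j) (norm_nonneg _) hr0
  have h6 : ‖((evm G δ - constantCoeff G - ∑ j, coeff (Finsupp.single j 1) G * δ j : OO C) : C)‖ ≤
      r ^ 2 := h5
  convert h6 using 2
  push_cast
  rfl

/-- the second order expansion of `Lam_e` for `e ∈ ker pr_a` -/
theorem Lam_expand {a a' : Fin m → OO C} {ρ ρ' r : ℝ} (D : Dt p h m a ρ) (D' : Dt p h m a' ρ')
    (S : SharpData p K C) (hr0 : 0 ≤ r) (hr : ∀ i, ‖((a' i : OO C) : C) - (a i : OO C)‖ ≤ r)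
    (e : FPt p (h + m) (Gam (h + m) : ℕ → OO K)) (he : pra D S e = 0) :
    ‖(((pra D' S e).1 : OO C) : C) - ∑ j, ((grad D S e j : OO C) : C) *
      (((a' j : OO C) : C) - (a j : OO C))‖ ≤ r ^ 2 := by
  have h1 := evm_expand (Lam D S e) (fun i => a' i - a i) (fun i => by
    have e : ((a' i - a i : OO C) : C) = (a' i : C) - (a i : C) := rfl
    rw [e, sub_eq_add_neg]
    refine lt_of_le_of_lt (IsUltrametricDist.norm_add_le_max _ _) (max_lt ?_ ?_)
    · exact lt_of_le_of_lt (D'.a_le i) D'.rho_lt
    · rw [norm_neg]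
      exact lt_of_le_of_lt (D.a_le i) D.rho_lt) hr0 hr
  rw [Lam_eval D D' S e, Lam_constantCoeff D S e, he] at h1
  have h2 : (((0 : FPt p (h + m) (par h m a)).1 : OO C) : C) = 0 := rfl
  rw [h2, sub_zero] at h1
  exact h1

end Vale.Agent.P217
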