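import Vale.Agent.P217.LogC
import Vale.Agent.P217.KForm
import Vale.Agent.P217.LamExp
import Vale.Agent.P217.Etas

/-!
# P217, part L: the orbit in characteristic zero (M0B)

`λ_{i,M} = pr_{a_M}(e_i) = -p^(M+1) • z_M`, `z_M = pr_{a_M}(η e_i) → z = pr_a(η e_i)`
(`pra_dist`); `log λ_{i,M} = -p^M log z_M` (`logC_add`), `log z_M → log z` (`logC_tendsto`);
`‖log λ - λ‖ ≤ ‖λ‖²/‖p‖` (`logC_approx`), `λ_{i,M} → 0`; hence `‖λ_{i,M}‖ = O(‖p‖^M)` and
`λ_{i,M}/p^M → -log z`. Finally `λ_{i,M} = ∑_j D_ij δ_{M,j} + O(‖δ_M‖²)` (`Lam_expand`) and `D` is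
invertible.
-/

namespace Vale.Agent.P217

open MvPowerSeries Filter Topology
open scoped MvPowerSeries.WithPiTopology

variable {p m : ℕ} [Fact p.Prime]
variable {K C : Type*} [NormedField K] [NormedField C] [IsUltrametricDist K] [IsUltrametricDist C]
  [CharP K p] [PerfectRing K p] [CompleteSpace K] [CompleteSpace C] [CharZero C]

/-- The hypotheses (O1)-(O3) at `η`. -/
structure Orb0 {a : Fin m → OO C} {ρ : ℝ} (D : Dt p 1 m a ρ) (S : SharpData p K C)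
    (G : MvPowerSeries (Fin m) (OO C)) (η : Etas p (1 + m) K) where
  a' : ℕ → Fin m → OO C
  ρ' : ℕ → ℝ
  D' : ∀ M, Dt p 1 m (a' M) (ρ' M)
  tend : ∀ i, Tendsto (fun M => a' M i) atTop (𝓝 (a i))
  zero : ∀ M, evm G (fun i => a' M i - a i) = 0
  ker : ∀ M, ∀ e : FPt p (1 + m) (Gam (1 + m) : ℕ → OO K), pra D S e = 0 →
    pra (D' M) S (e + p ^ (M + 1) • η.act e) = 0

/-- The logarithm as an additive map. -/
noncomputable def m0bLog {n : ℕ} (hp : ‖(p : C)‖ < 1) (v : ℕ → OO C) : FPt p n v →+ C where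
  toFun x := logC p n (fun j => ((v j : OO C) : C)) ((x.1 : OO C) : C)
  map_zero' := logC_zero _
  map_add' x y := logC_add hp x y

theorem m0bLog_apply {n : ℕ} (hp : ‖(p : C)‖ < 1) (v : ℕ → OO C) (x : FPt p n v) :
    m0bLog hp v x = logC p n (fun j => ((v j : OO C) : C)) ((x.1 : OO C) : C) := rfl

private theorem m0b_mulVec_bound (B : Matrix (Fin m) (Fin m) C) :
    ∃ κ : ℝ, 0 < κ ∧ ∀ x : Fin m → C, ‖B.mulVec x‖ ≤ κ * ‖x‖ := by
  refine ⟨1 + ∑ i, ∑ j, ‖B i j‖, by positivity, fun x => ?_⟩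
  refine (pi_norm_le_iff_of_nonneg (by positivity)).2 fun i => ?_
  have h1 : ‖B.mulVec x i‖ ≤ ∑ j, ‖B i j‖ * ‖x‖ := by
    show ‖∑ j, B i j * x j‖ ≤ _
    refine (norm_sum_le Finset.univ fun j => B i j * x j).trans
      (Finset.sum_le_sum fun j _ => ?_)
    rw [norm_mul]
    exact mul_le_mul_of_nonneg_left (norm_le_pi_norm x j) (norm_nonneg _)
  refine h1.trans ?_
  rw [← Finset.sum_mul]
  refine mul_le_mul_of_nonneg_right ?_ (norm_nonneg _)
  have h2 : ∑ j, ‖B i j‖ ≤ ∑ i, ∑ j, ‖B i j‖ :=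
    Finset.single_le_sum (f := fun i => ∑ j, ‖B i j‖)
      (fun _ _ => Finset.sum_nonneg fun _ _ => norm_nonneg _) (Finset.mem_univ i)
  linarith

private theorem m0b_log_small {n : ℕ} (hp : ‖(p : C)‖ < 1) {v : ℕ → C} (hv : ∀ j, ‖v j‖ ≤ 1)
    {z : C} (hz : ‖z‖ < ‖(p : C)‖) : ‖z‖ ≤ ‖logC p n v z‖ ∧
      ‖logC p n v z - z‖ ≤ ‖z‖ ^ 2 * ‖(p : C)‖⁻¹ := by
  have h0 : 0 < ‖(p : C)‖ := (norm_nonneg z).trans_lt hz
  have h1 := logC_approx (n := n) hp hv hz.le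
  have h2 : ‖logC p n v z - z‖ ≤ ‖z‖ ^ 2 * ‖(p : C)‖⁻¹ := by
    rwa [← div_eq_mul_inv, le_div_iff₀ h0]
  refine ⟨?_, h2⟩
  by_contra h3
  push Not at h3
  have h4 : ‖z‖ ≤ max ‖logC p n v z‖ ‖logC p n v z - z‖ := by
    have e : z = logC p n v z + -(logC p n v z - z) := by ring
    have h5 := IsUltrametricDist.norm_add_le_max (logC p n v z) (-(logC p n v z - z))
    rw [← e, norm_neg] at h5
    exact h5
  rcases le_max_iff.1 h4 with h5 | h5
  · exact absurd h5 (not_le.2 h3)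
  · have hz0 : 0 < ‖z‖ := (norm_nonneg _).trans_lt h3
    have h6 : ‖z‖ * ‖(p : C)‖ ≤ ‖z‖ ^ 2 := by
      calc ‖z‖ * ‖(p : C)‖ ≤ ‖logC p n v z - z‖ * ‖(p : C)‖ := by gcongr
        _ ≤ ‖z‖ ^ 2 := h1
    have h7 : ‖(p : C)‖ ≤ ‖z‖ := by
      rw [pow_two] at h6
      exact le_of_mul_le_mul_left h6 hz0
    exact absurd h7 (not_le.2 hz)

/-- M0B: `D (a_M - a)/p^M → -(log_a pr_a(η e_i))_i`. -/
theorem orb_tendsto {a : Fin m → OO C} {ρ : ℝ} (D : Dt p 1 m a ρ) (S : SharpData p K C)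
    (G : MvPowerSeries (Fin m) (OO C)) (η : Etas p (1 + m) K) (T : Orb0 D S G η)
    (e : Fin m → FPt p (1 + m) (Gam (1 + m) : ℕ → OO K)) (he : ∀ i, pra D S (e i) = 0)
    (hdet : (Matrix.of fun i j => grad D S (e i) j).det ≠ 0) :
    ∃ v : Fin m → C, (∀ j, Tendsto (fun M => ((p : C) ^ M)⁻¹ *
      (((T.a' M j : OO C) : C) - ((a j : OO C) : C))) atTop (𝓝 (v j))) ∧
      ∀ i, ∑ j, ((grad D S (e i) j : OO C) : C) * v j =
        - ((p : C) * elC D S (η.act (e i))) := by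
  classical
  have hpC : (p : C) ≠ 0 := Nat.cast_ne_zero.2 (Fact.out : p.Prime).ne_zero
  have hπ0 : 0 < ‖(p : C)‖ := norm_pos_iff.2 hpC
  have hp1 : ‖(p : C)‖ < 1 := D.p_le.trans_lt D.rho_lt
  set π : ℝ := ‖(p : C)‖ with hπ
  set A : Matrix (Fin m) (Fin m) C :=
    Matrix.of fun i j => ((grad D S (e i) j : OO C) : C) with hA
  have hAdet : A.det ≠ 0 := by
    have h1 : A = (Matrix.of fun i j => grad D S (e i) j).map (OO C).subtype := rfl
    rw [h1, ← RingHom.mapMatrix_apply, ← RingHom.map_det]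
    intro h
    exact hdet (Subtype.ext h)
  have hAu : IsUnit A.det := isUnit_iff_ne_zero.2 hAdet
  have hmul : ∀ (v : Fin m → C) (i : Fin m),
      A.mulVec v i = ∑ j, ((grad D S (e i) j : OO C) : C) * v j := fun v i => rfl
  let δ : ℕ → Fin m → C := fun M j => ((T.a' M j : OO C) : C) - ((a j : OO C) : C)
  let lam : ℕ → Fin m → C := fun M i => (((pra (T.D' M) S (e i)).1 : OO C) : C)
  let ψ : Fin m → C := fun i => (p : C) * elC D S (η.act (e i))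
  let vM : ℕ → ℕ → C := fun M j => ((par 1 m (T.a' M) j : OO C) : C)
  have hvM : ∀ M j, ‖vM M j‖ ≤ 1 := fun M j => (par 1 m (T.a' M) j).2
  have hcoe : ∀ j, Tendsto (fun M => ((T.a' M j : OO C) : C)) atTop (𝓝 ((a j : OO C) : C)) :=
    fun j => (continuous_subtype_val.tendsto _).comp (T.tend j)
  have hδ : Tendsto δ atTop (𝓝 0) := by
    refine tendsto_pi_nhds.2 fun j => ?_
    have := (hcoe j).sub_const ((a j : OO C) : C)
    rwa [sub_self] at this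
  have hr : Tendsto (fun M => ‖δ M‖) atTop (𝓝 0) := by
    have := hδ.norm
    rwa [norm_zero] at this
  have hδle : ∀ M i, ‖((T.a' M i : OO C) : C) - (a i : OO C)‖ ≤ ‖δ M‖ := fun M i =>
    norm_le_pi_norm (δ M) i
  have hexp : ∀ M, ‖lam M - A.mulVec (δ M)‖ ≤ ‖δ M‖ ^ 2 := by
    intro M
    refine (pi_norm_le_iff_of_nonneg (by positivity)).2 fun i => ?_
    exact Lam_expand D (T.D' M) S (norm_nonneg _) (hδle M) (e i) (he i)
  -- the logarithm of `lam`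
  have hlog : ∀ M i, logC p (1 + m) (vM M) (lam M i) =
      -((p : C) ^ M * ((p : C) * elC (T.D' M) S (η.act (e i)))) := by
    intro M i
    have h1 := T.ker M (e i) (he i)
    rw [map_add, map_nsmul] at h1
    have h2 : m0bLog hp1 _ (pra (T.D' M) S (e i)) +
        m0bLog hp1 _ (p ^ (M + 1) • pra (T.D' M) S (η.act (e i))) = 0 := by
      rw [← map_add, h1, map_zero]
    rw [map_nsmul, nsmul_eq_mul, Nat.cast_pow, pow_succ, mul_assoc] at h2
    exact eq_neg_of_add_eq_zero_left h2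
  -- limits of the logarithms
  have hpar : ∀ j, Tendsto (fun M => vM M j) atTop (𝓝 ((par 1 m a j : OO C) : C)) := by
    intro j
    show Tendsto (fun M => ((par 1 m (T.a' M) j : OO C) : C)) atTop _
    unfold par
    by_cases h1 : 1 ≤ j ∧ j < 1 + m
    · simp only [dif_pos h1]
      exact hcoe _
    · simp only [dif_neg h1]
      exact tendsto_const_nhds
  have hel : ∀ i, Tendsto (fun M => (p : C) * elC (T.D' M) S (η.act (e i))) atTop
      (𝓝 (ψ i)) := by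
    intro i
    refine Tendsto.const_mul _ ?_
    have hz : Tendsto (fun M => (((pra (T.D' M) S (η.act (e i))).1 : OO C) : C)) atTop
        (𝓝 (((pra D S (η.act (e i))).1 : OO C) : C)) := by
      rw [tendsto_iff_norm_sub_tendsto_zero]
      exact squeeze_zero (fun _ => norm_nonneg _)
        (fun M => pra_dist D (T.D' M) (norm_nonneg _) (hδle M) S _) hr
    exact logC_tendsto hp1 (fun j => (par 1 m a j).2) hvM hpar
      ((tn_iff_norm_lt_one _).1 (pra D S (η.act (e i))).2) hz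
  -- `lam` is small
  have hlam0 : ∀ i, Tendsto (fun M => ‖lam M i‖) atTop (𝓝 0) := by
    intro i
    refine squeeze_zero (fun _ => norm_nonneg _) (fun M => ?_) hr
    have := pra_dist D (T.D' M) (norm_nonneg _) (hδle M) S (e i)
    rw [he i] at this
    have e0 : (((0 : FPt p (1 + m) (par 1 m a)).1 : OO C) : C) = 0 := rfl
    rw [e0, sub_zero] at this
    exact this
  -- bound of `lam`
  have hbd : ∀ i, ∃ B : ℝ, 0 ≤ B ∧ ∀ᶠ M in atTop, ‖lam M i‖ ≤ π ^ M * B ∧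
      ‖logC p (1 + m) (vM M) (lam M i) - lam M i‖ ≤ ‖lam M i‖ ^ 2 * π⁻¹ := by
    intro i
    have h1 : ∀ᶠ M in atTop, ‖(p : C) * elC (T.D' M) S (η.act (e i))‖ < ‖ψ i‖ + 1 :=
      (hel i).norm.eventually (gt_mem_nhds (by linarith))
    have h2 : ∀ᶠ M in atTop, ‖lam M i‖ < π := (hlam0 i).eventually (gt_mem_nhds hπ0)
    refine ⟨‖ψ i‖ + 1, by positivity, ?_⟩
    filter_upwards [h1, h2] with M hM1 hM2
    obtain ⟨h3, h4⟩ := m0b_log_small (n := 1 + m) hp1 (hvM M) hM2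
    refine ⟨h3.trans ?_, h4⟩
    rw [hlog M i, norm_neg, norm_mul ((p : C) ^ M), norm_pow]
    exact mul_le_mul_of_nonneg_left hM1.le (by positivity)
  -- `lam / p^M`
  have hπM : Tendsto (fun M : ℕ => π ^ M) atTop (𝓝 0) :=
    tendsto_pow_atTop_nhds_zero_of_lt_one hπ0.le hp1
  have hlamM : ∀ i, Tendsto (fun M => ((p : C) ^ M)⁻¹ * lam M i) atTop (𝓝 (-ψ i)) := by
    intro i
    obtain ⟨B, hB0, hB⟩ := hbd i
    have h1 : Tendsto (fun M => ((p : C) ^ M)⁻¹ * (logC p (1 + m) (vM M) (lam M i) - lam M i))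
        atTop (𝓝 0) := by
      have h2 : Tendsto (fun M => π ^ M * (B ^ 2 * π⁻¹)) atTop (𝓝 (0 * (B ^ 2 * π⁻¹))) :=
        hπM.mul_const _
      rw [zero_mul] at h2
      refine squeeze_zero_norm' ?_ h2
      filter_upwards [hB] with M hM
      rw [norm_mul, norm_inv, norm_pow]
      have hπM0 : 0 < π ^ M := pow_pos hπ0 M
      calc (π ^ M)⁻¹ * ‖logC p (1 + m) (vM M) (lam M i) - lam M i‖
          ≤ (π ^ M)⁻¹ * (‖lam M i‖ ^ 2 * π⁻¹) := by gcongr; exact hM.2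
        _ ≤ (π ^ M)⁻¹ * ((π ^ M * B) ^ 2 * π⁻¹) := by gcongr; exact hM.1
        _ = π ^ M * (B ^ 2 * π⁻¹) := by field_simp
    have h3 : Tendsto (fun M => -((p : C) * elC (T.D' M) S (η.act (e i))) -
        ((p : C) ^ M)⁻¹ * (logC p (1 + m) (vM M) (lam M i) - lam M i)) atTop (𝓝 (-ψ i - 0)) :=
      (hel i).neg.sub h1
    rw [sub_zero] at h3
    refine h3.congr fun M => ?_
    rw [hlog M i]
    have : (p : C) ^ M ≠ 0 := pow_ne_zero _ hpC
    field_simp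
    ring
  have hlamV : Tendsto (fun M => ((p : C) ^ M)⁻¹ • lam M) atTop (𝓝 (-ψ)) :=
    tendsto_pi_nhds.2 fun i => hlamM i
  -- bound of `δ`
  obtain ⟨κ, hκ0, hκ⟩ := m0b_mulVec_bound A⁻¹
  have hinv : ∀ x : Fin m → C, A⁻¹.mulVec (A.mulVec x) = x := fun x => by
    rw [Matrix.mulVec_mulVec, Matrix.nonsing_inv_mul A hAu, Matrix.one_mulVec]
  have hdec : ∀ M, δ M = A⁻¹.mulVec (lam M) - A⁻¹.mulVec (lam M - A.mulVec (δ M)) := fun M => by
    rw [← Matrix.mulVec_sub, sub_sub_cancel, hinv]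
  have hδbd : ∃ B : ℝ, 0 ≤ B ∧ ∀ᶠ M in atTop, ‖δ M‖ ≤ π ^ M * B := by
    choose Bf hB0 hB using hbd
    have h1 : ∀ᶠ M in atTop, κ * ‖δ M‖ < 1 / 2 := by
      have h2 : Tendsto (fun M => κ * ‖δ M‖) atTop (𝓝 (κ * 0)) := hr.const_mul κ
      rw [mul_zero] at h2
      exact h2.eventually (gt_mem_nhds (by norm_num))
    have h3 : ∀ᶠ M in atTop, ∀ i, ‖lam M i‖ ≤ π ^ M * Bf i ∧
      ‖logC p (1 + m) (vM M) (lam M i) - lam M i‖ ≤ ‖lam M i‖ ^ 2 * π⁻¹ :=
      eventually_all.2 hB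
    refine ⟨2 * (κ * ∑ i, Bf i), by
      have : 0 ≤ ∑ i, Bf i := Finset.sum_nonneg fun i _ => hB0 i
      positivity, ?_⟩
    filter_upwards [h1, h3] with M hM1 hM3
    have h4 : ‖lam M‖ ≤ π ^ M * ∑ i, Bf i := by
      refine (pi_norm_le_iff_of_nonneg (mul_nonneg (by positivity)
        (Finset.sum_nonneg fun i _ => hB0 i))).2 fun i => (hM3 i).1.trans ?_
      refine mul_le_mul_of_nonneg_left ?_ (by positivity)
      exact Finset.single_le_sum (f := Bf) (fun i _ => hB0 i) (Finset.mem_univ i)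
    have h5 : ‖δ M‖ ≤ κ * ‖lam M‖ + κ * ‖δ M‖ ^ 2 := by
      conv_lhs => rw [hdec M]
      refine (norm_sub_le _ _).trans (add_le_add (hκ _) ((hκ _).trans ?_))
      exact mul_le_mul_of_nonneg_left (hexp M) hκ0.le
    have h6 : κ * ‖δ M‖ ^ 2 ≤ 1 / 2 * ‖δ M‖ := by
      rw [pow_two, ← mul_assoc]
      exact mul_le_mul_of_nonneg_right hM1.le (norm_nonneg _)
    have h7 : κ * ‖lam M‖ ≤ κ * (π ^ M * ∑ i, Bf i) := mul_le_mul_of_nonneg_left h4 hκ0.le
    have h8 : κ * (π ^ M * ∑ i, Bf i) = π ^ M * (κ * ∑ i, Bf i) := by ring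
    have h9 : π ^ M * (2 * (κ * ∑ i, Bf i)) = 2 * (π ^ M * (κ * ∑ i, Bf i)) := by ring
    rw [h9]
    linarith
  obtain ⟨B, hB0, hB⟩ := hδbd
  -- the limit
  have hcont : Continuous fun x : Fin m → C => A⁻¹.mulVec x :=
    continuous_const.matrix_mulVec continuous_id
  have h1 : Tendsto (fun M => A⁻¹.mulVec (((p : C) ^ M)⁻¹ • lam M)) atTop
      (𝓝 (A⁻¹.mulVec (-ψ))) := (hcont.tendsto _).comp hlamV
  have h2 : Tendsto (fun M => ((p : C) ^ M)⁻¹ • A⁻¹.mulVec (lam M - A.mulVec (δ M))) atTop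
      (𝓝 0) := by
    have h3 : Tendsto (fun M => π ^ M * (κ * B ^ 2)) atTop (𝓝 (0 * (κ * B ^ 2))) :=
      hπM.mul_const _
    rw [zero_mul] at h3
    refine squeeze_zero_norm' ?_ h3
    filter_upwards [hB] with M hM
    rw [norm_smul, norm_inv, norm_pow]
    have hπM0 : 0 < π ^ M := pow_pos hπ0 M
    calc (π ^ M)⁻¹ * ‖A⁻¹.mulVec (lam M - A.mulVec (δ M))‖
        ≤ (π ^ M)⁻¹ * (κ * ‖δ M‖ ^ 2) := by
          gcongr
          exact (hκ _).trans (mul_le_mul_of_nonneg_left (hexp M) hκ0.le)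
      _ ≤ (π ^ M)⁻¹ * (κ * (π ^ M * B) ^ 2) := by gcongr
      _ = π ^ M * (κ * B ^ 2) := by field_simp
  have h3 : Tendsto (fun M => ((p : C) ^ M)⁻¹ • δ M) atTop (𝓝 (A⁻¹.mulVec (-ψ))) := by
    have h4 := h1.sub h2
    rw [sub_zero] at h4
    refine h4.congr fun M => ?_
    conv_rhs => rw [hdec M]
    rw [smul_sub, Matrix.mulVec_smul]
  refine ⟨A⁻¹.mulVec (-ψ), fun j => ?_, fun i => ?_⟩
  · exact (tendsto_pi_nhds.1 h3) j
  · rw [← hmul, Matrix.mulVec_mulVec, Matrix.mul_nonsing_inv A hAu, Matrix.one_mulVec]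
    rfl

end Vale.Agent.P217
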