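import Vale.Agent.P217.Core

/-!
# P217, module NRM: the closed unit ball of a nonarchimedean normed field
-/

namespace Vale.Agent.P217

open Filter Topology

variable {K : Type*} [NormedField K] [IsUltrametricDist K]

/-- the ideal of elements of norm less than `ε` -/
def ballIdeal (K : Type*) [NormedField K] [IsUltrametricDist K] (ε : {ε : ℝ // 0 < ε}) :
    Ideal (OO K) where
  carrier := {x | ‖(x : K)‖ < ε.1}
  add_mem' := by
    intro a b ha hb
    show ‖((a + b : OO K) : K)‖ < ε.1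
    have h := IsUltrametricDist.norm_add_le_max (a : K) (b : K)
    have e : ((a + b : OO K) : K) = (a : K) + (b : K) := rfl
    rw [e]
    exact lt_of_le_of_lt h (max_lt ha hb)
  zero_mem' := by
    show ‖((0 : OO K) : K)‖ < ε.1
    have e : ((0 : OO K) : K) = 0 := rfl
    rw [e, norm_zero]
    exact ε.2
  smul_mem' := by
    intro c x hx
    show ‖((c • x : OO K) : K)‖ < ε.1
    have e : ((c • x : OO K) : K) = (c : K) * (x : K) := rfl
    rw [e, norm_mul]
    have hc : ‖(c : K)‖ ≤ 1 := c.2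
    have hx' : ‖(x : K)‖ < ε.1 := hx
    calc ‖(c : K)‖ * ‖(x : K)‖ ≤ 1 * ‖(x : K)‖ :=
          mul_le_mul_of_nonneg_right hc (norm_nonneg _)
      _ = ‖(x : K)‖ := one_mul _
      _ < ε.1 := hx'

theorem nhds_zero_OO_basis : (𝓝 (0 : OO K)).HasBasis (fun _ : {ε : ℝ // 0 < ε} => True)
    (fun ε => (ballIdeal K ε : Set (OO K))) := by
  have h1 : (𝓝 (0 : OO K)).HasBasis (fun ε : ℝ => 0 < ε) (fun ε => Metric.ball 0 ε) :=
    Metric.nhds_basis_ball
  refine ⟨fun t => ?_⟩
  rw [h1.mem_iff]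
  constructor
  · rintro ⟨ε, hε, h⟩
    refine ⟨⟨ε, hε⟩, trivial, fun x hx => h ?_⟩
    have hx' : ‖(x : K)‖ < ε := hx
    rw [Metric.mem_ball, Subtype.dist_eq, dist_eq_norm]
    simpa using hx'
  · rintro ⟨ε, -, h⟩
    refine ⟨ε.1, ε.2, fun x hx => h ?_⟩
    show ‖(x : K)‖ < ε.1
    rw [Metric.mem_ball, Subtype.dist_eq, dist_eq_norm] at hx
    simpa using hx

theorem linOO : IsLinearTopology (OO K) (OO K) :=
  IsLinearTopology.mk_of_hasBasis (OO K) (S := Ideal (OO K)) nhds_zero_OO_basis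

theorem completeOO [CompleteSpace K] : CompleteSpace (OO K) := by
  have hc : IsClosed ((OO K : Subring K) : Set K) := by
    have e : ((OO K : Subring K) : Set K) = {x : K | ‖x‖ ≤ 1} := rfl
    rw [e]
    exact isClosed_le continuous_norm continuous_const
  exact hc.completeSpace_coe

theorem tn_OO (x : OO K) : IsTopologicallyNilpotent x ↔ ‖(x : K)‖ < 1 := by
  have e : ∀ n : ℕ, ((x ^ n : OO K) : K) = (x : K) ^ n := fun n => by
    exact SubmonoidClass.coe_pow x n
  have h0 : IsTopologicallyNilpotent x ↔ Tendsto (fun n : ℕ => ‖(x : K)‖ ^ n) atTop (𝓝 0) := by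
    unfold IsTopologicallyNilpotent
    rw [tendsto_subtype_rng]
    have e2 : (fun n : ℕ => ((x ^ n : OO K) : K)) = fun n => (x : K) ^ n := funext e
    rw [e2]
    rw [show (((0 : OO K) : K)) = 0 from rfl, tendsto_zero_iff_norm_tendsto_zero]
    simp only [norm_pow]
  rw [h0]
  constructor
  · intro h
    by_contra hx
    push Not at hx
    have h1 : ∀ n : ℕ, (1 : ℝ) ≤ ‖(x : K)‖ ^ n := fun n => one_le_pow₀ hx
    have := le_of_tendsto_of_tendsto tendsto_const_nhds h (Eventually.of_forall h1)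
    norm_num at this
  · intro h
    exact tendsto_pow_atTop_nhds_zero_of_lt_one (norm_nonneg _) h

end Vale.Agent.P217
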