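import Vale.Agent.P217.Core
import Vale.Agent.P217.Nrm

/-!
# P217, part L: leading forms (M0C)
-/

namespace Vale.Agent.P217

open MvPowerSeries Filter Topology

section poly

variable {C : Type*} [Field C] [CharZero C] {m : ℕ}

/-- A polynomial vanishing on an additive submonoid which spans `C^m` is zero (restrict to
`∑ n_j v_j`, `n_j ∈ ℕ`, for a basis `v_j` contained in `V`; `MvPolynomial.funext` type lemma for the
infinite set `ℕ`). -/
theorem poly_eq_zero_of_span (V : AddSubmonoid (Fin m → C))
    (hV : ∀ c : Fin m → C, (∀ v ∈ V, ∑ i, c i * v i = 0) → c = 0) (P : MvPolynomial (Fin m) C)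
    (hP : ∀ v ∈ V, MvPolynomial.eval v P = 0) : P = 0 := by
  have htop : Submodule.span C (V : Set (Fin m → C)) = ⊤ := by
    by_contra hne
    obtain ⟨f, hf0, hf⟩ := Submodule.exists_le_ker_of_lt_top _ (lt_top_iff_ne_top.2 hne)
    apply hf0
    have hval : ∀ v : Fin m → C, f v = ∑ i, f (Pi.single i 1) * v i := by
      intro v
      conv_lhs => rw [LinearMap.pi_apply_eq_sum_univ f v]
      refine Finset.sum_congr rfl fun i _ => ?_
      have e : (fun j => if i = j then (1 : C) else 0) = Pi.single i 1 := by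
        funext j
        simp [Pi.single_apply, eq_comm]
      rw [smul_eq_mul, mul_comm, e]
    have hc : (fun i => f (Pi.single i 1)) = (0 : Fin m → C) := by
      apply hV
      intro v hv
      rw [← hval v]
      exact hf (Submodule.subset_span hv)
    ext v
    have : ∀ i, f (Pi.single i 1) = 0 := fun i => congrFun hc i
    simp [this]
  refine MvPolynomial.funext fun y => ?_
  rw [map_zero]
  have hy : y ∈ Submodule.span C (V : Set (Fin m → C)) := by rw [htop]; trivial
  obtain ⟨N, x, g, hx⟩ := Submodule.mem_span_set'.1 hy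
  set Q : MvPolynomial (Fin N) C := MvPolynomial.bind₁
    (fun i => ∑ j, MvPolynomial.C ((g j : Fin m → C) i) * MvPolynomial.X j) P with hQ
  have hev : ∀ z : Fin N → C, MvPolynomial.eval z Q =
      MvPolynomial.eval (fun i => ∑ j, z j * (g j : Fin m → C) i) P := by
    intro z
    have h1 : MvPolynomial.eval z Q = MvPolynomial.eval (fun i => MvPolynomial.eval z
        (∑ j, MvPolynomial.C ((g j : Fin m → C) i) * MvPolynomial.X j)) P := by
      rw [hQ]
      exact MvPolynomial.eval₂Hom_bind₁ (RingHom.id C) z _ P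
    rw [h1]
    congr 2
    funext i
    rw [map_sum]
    refine Finset.sum_congr rfl fun j _ => ?_
    rw [map_mul, MvPolynomial.eval_C, MvPolynomial.eval_X, mul_comm]
  have hQ0 : Q = 0 := by
    refine MvPolynomial.funext_set (fun _ => Set.range ((↑) : ℕ → C))
      (fun _ => Set.infinite_range_of_injective Nat.cast_injective) fun z hz => ?_
    have hz' : ∀ j, ∃ a : ℕ, (a : C) = z j := fun j => hz j trivial
    choose a ha using hz'
    rw [map_zero, hev]
    apply hP
    have : (fun i => ∑ j, z j * (g j : Fin m → C) i) = ∑ j, a j • (g j : Fin m → C) := by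
      funext i
      rw [Finset.sum_apply]
      refine Finset.sum_congr rfl fun j _ => ?_
      rw [← ha j, Pi.smul_apply, nsmul_eq_mul]
    rw [this]
    exact AddSubmonoid.sum_mem V fun j _ => AddSubmonoid.nsmul_mem V (g j).2 _
  have h2 := hev x
  rw [hQ0, map_zero] at h2
  have h3 : (fun i => ∑ j, x j * (g j : Fin m → C) i) = y := by
    rw [← hx]
    funext i
    rw [Finset.sum_apply]
    rfl
  rw [h3] at h2
  exact h2.symm

end poly

section lead

variable {C : Type*} [NormedField C] [IsUltrametricDist C] [CompleteSpace C] {m : ℕ}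

attribute [local instance] linOO completeOO

/-- the value of a series as a sum in `C` -/
theorem mp_hasSum (G : MvPowerSeries (Fin m) (OO C)) (x : Fin m → OO C)
    (hx : ∀ i, ‖((x i : OO C) : C)‖ < 1) :
    HasSum (fun d : Fin m →₀ ℕ => ((coeff d G : OO C) : C) * ∏ i, ((x i : OO C) : C) ^ d i)
      ((evm G x : OO C) : C) := by
  have he : HasEval x := by
    refine ⟨fun s => (tn_OO _).2 (hx s), ?_⟩
    rw [Filter.cofinite_eq_bot]
    exact Filter.tendsto_bot
  have h1 := hasSum_eval₂ (φ := RingHom.id (OO C)) continuous_id he G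
  have h2 := h1.map (OO C).subtype continuous_subtype_val
  have e : (⇑(OO C).subtype ∘ fun d : Fin m →₀ ℕ => (RingHom.id (OO C)) (coeff d G) *
      d.prod fun s e => x s ^ e) =
      fun d : Fin m →₀ ℕ => ((coeff d G : OO C) : C) * ∏ i, ((x i : OO C) : C) ^ d i := by
    funext d
    simp only [Function.comp_apply, map_mul]
    congr 1
    rw [Finsupp.prod_fintype _ _ (by simp), map_prod]
    refine Finset.prod_congr rfl fun i _ => ?_
    rw [map_pow]
    rfl
  rw [e] at h2
  exact h2

/-- The leading form of a zero sequence: if `G ≠ 0` vanishes at `δ_M`, `δ_M / π^M → v`, `0 < ‖π‖ < 1`,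
then the homogeneous part of smallest degree of `G` vanishes at `v`. -/
theorem leading_form_zero (G : MvPowerSeries (Fin m) (OO C)) (hG : G ≠ 0) :
    ∃ P : MvPolynomial (Fin m) C, P ≠ 0 ∧ ∀ (π : C) (δ : ℕ → Fin m → OO C) (v : Fin m → C),
      π ≠ 0 → ‖π‖ < 1 → (∀ M i, ‖((δ M i : OO C) : C)‖ < 1) →
      (∀ i, Tendsto (fun M => (π ^ M)⁻¹ * ((δ M i : OO C) : C)) atTop (𝓝 (v i))) →
      (∀ M, evm G (δ M) = 0) → MvPolynomial.eval v P = 0 := by
  classical
  have hex : ∃ N : ℕ, ∃ d : Fin m →₀ ℕ, coeff d G ≠ 0 ∧ ∑ i, d i = N := by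
    by_contra h
    push Not at h
    apply hG
    refine MvPowerSeries.ext fun d => ?_
    by_contra hd
    exact h _ d hd rfl
  set N := Nat.find hex with hN
  obtain ⟨d₀, hd₀, hdN⟩ := Nat.find_spec hex
  have hmin : ∀ d : Fin m →₀ ℕ, ∑ i, d i < N → coeff d G = 0 := by
    intro d hd
    by_contra h
    exact Nat.find_min hex hd ⟨d, h, rfl⟩
  set T : Finset (Fin m →₀ ℕ) := Finset.univ.finsuppAntidiag N with hT
  have hTmem : ∀ d, d ∈ T ↔ ∑ i, d i = N := by
    intro d
    rw [hT, Finset.mem_finsuppAntidiag]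
    simp
  set P : MvPolynomial (Fin m) C := ∑ d ∈ T, MvPolynomial.monomial d ((coeff d G : OO C) : C)
    with hP
  have hPev : ∀ y : Fin m → C, MvPolynomial.eval y P =
      ∑ d ∈ T, ((coeff d G : OO C) : C) * ∏ i, y i ^ d i := by
    intro y
    rw [hP, map_sum]
    refine Finset.sum_congr rfl fun d _ => ?_
    rw [MvPolynomial.eval_monomial, Finsupp.prod_fintype _ _ (by simp)]
  refine ⟨P, ?_, ?_⟩
  · intro h0
    have h1 : MvPolynomial.coeff d₀ P = ((coeff d₀ G : OO C) : C) := by
      rw [hP, MvPolynomial.coeff_sum, Finset.sum_eq_single d₀]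
      · rw [MvPolynomial.coeff_monomial, if_pos rfl]
      · intro d _ hd
        rw [MvPolynomial.coeff_monomial, if_neg hd]
      · intro h
        exact absurd ((hTmem d₀).2 hdN) h
    rw [h0, MvPolynomial.coeff_zero] at h1
    exact hd₀ (Subtype.ext h1.symm)
  · intro π δ v hπ0 hπ1 hδ hlim hz
    -- the vectors
    set D : ℕ → Fin m → C := fun M i => ((δ M i : OO C) : C) with hD
    set Y : ℕ → Fin m → C := fun M i => (π ^ M)⁻¹ * ((δ M i : OO C) : C) with hY
    have hYv : Tendsto Y atTop (𝓝 v) := tendsto_pi_nhds.2 hlim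
    have hDlt : ∀ M, ‖D M‖ < 1 := fun M => (pi_norm_lt_iff one_pos).2 (hδ M)
    have hDY : ∀ M, D M = (π ^ M) • Y M := by
      intro M
      funext i
      show ((δ M i : OO C) : C) = π ^ M * ((π ^ M)⁻¹ * ((δ M i : OO C) : C))
      rw [← mul_assoc, mul_inv_cancel₀ (pow_ne_zero _ hπ0), one_mul]
    -- the estimate of the remainder
    have hrem : ∀ M, ‖MvPolynomial.eval (D M) P‖ ≤ ‖D M‖ ^ (N + 1) := by
      intro M
      have hs := mp_hasSum G (δ M) (hδ M)
      rw [hz M] at hs
      have hs0 : HasSum (fun d : Fin m →₀ ℕ => if d ∈ T then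
          ((coeff d G : OO C) : C) * ∏ i, ((δ M i : OO C) : C) ^ d i else 0)
          (∑ d ∈ T, ((coeff d G : OO C) : C) * ∏ i, ((δ M i : OO C) : C) ^ d i) := by
        have := hasSum_sum_of_ne_finset_zero (L := SummationFilter.unconditional _) (s := T)
          (f := fun d : Fin m →₀ ℕ => if d ∈ T then
          ((coeff d G : OO C) : C) * ∏ i, ((δ M i : OO C) : C) ^ d i else 0)
          (fun b hb => if_neg hb)
        convert this using 1
        refine Finset.sum_congr rfl fun d hd => ?_
        rw [if_pos hd]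
      have hs1 := hs0.sub hs
      have e0 : MvPolynomial.eval (D M) P =
          (∑ d ∈ T, ((coeff d G : OO C) : C) * ∏ i, ((δ M i : OO C) : C) ^ d i) -
            ((0 : OO C) : C) := by
        rw [hPev]
        simp [hD]
      rw [e0, ← hs1.tsum_eq]
      refine IsUltrametricDist.norm_tsum_le_of_forall_le_of_nonneg (by positivity) fun d => ?_
      by_cases hd : d ∈ T
      · simp only [if_pos hd, sub_self, norm_zero]
        positivity
      · simp only [if_neg hd, zero_sub, norm_neg]
        rcases lt_or_ge (∑ i, d i) N with h | h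
        · rw [hmin d h]
          simp
        · have h' : N + 1 ≤ ∑ i, d i := by
            have : ∑ i, d i ≠ N := fun h => hd ((hTmem d).2 h)
            omega
          rw [norm_mul, norm_prod]
          have h1 : ‖((coeff d G : OO C) : C)‖ ≤ 1 := (coeff d G).2
          have h2 : ∏ i, ‖((δ M i : OO C) : C) ^ d i‖ ≤ ∏ i, ‖D M‖ ^ d i := by
            refine Finset.prod_le_prod (fun i _ => norm_nonneg _) fun i _ => ?_
            rw [norm_pow]
            exact pow_le_pow_left₀ (norm_nonneg _) (norm_le_pi_norm (D M) i) _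
          rw [Finset.prod_pow_eq_pow_sum] at h2
          have h3 : ‖D M‖ ^ (∑ i, d i) ≤ ‖D M‖ ^ (N + 1) :=
            pow_le_pow_of_le_one (norm_nonneg _) (hDlt M).le h'
          calc ‖((coeff d G : OO C) : C)‖ * ∏ i, ‖((δ M i : OO C) : C) ^ d i‖
              ≤ 1 * ∏ i, ‖((δ M i : OO C) : C) ^ d i‖ :=
                mul_le_mul_of_nonneg_right h1 (Finset.prod_nonneg fun _ _ => norm_nonneg _)
            _ ≤ ‖D M‖ ^ (N + 1) := by rw [one_mul]; exact h2.trans h3
    -- scaling
    have hsc : ∀ M, MvPolynomial.eval (D M) P = (π ^ M) ^ N * MvPolynomial.eval (Y M) P := by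
      intro M
      rw [hPev, hPev, Finset.mul_sum]
      refine Finset.sum_congr rfl fun d hd => ?_
      have : ∏ i, D M i ^ d i = (π ^ M) ^ N * ∏ i, Y M i ^ d i := by
        have h1 : ∀ i, D M i ^ d i = (π ^ M) ^ d i * Y M i ^ d i := by
          intro i
          rw [hDY M, Pi.smul_apply, smul_eq_mul, mul_pow]
        rw [Finset.prod_congr rfl fun i _ => h1 i, Finset.prod_mul_distrib,
          Finset.prod_pow_eq_pow_sum, (hTmem d).1 hd]
      rw [this]
      ring
    have hYb : ∀ M, ‖MvPolynomial.eval (Y M) P‖ ≤ ‖Y M‖ ^ (N + 1) * ‖π‖ ^ M := by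
      intro M
      have h1 := hrem M
      rw [hsc M, norm_mul, hDY M, norm_smul, mul_pow, norm_pow, norm_pow] at h1
      have h2 : 0 < (‖π‖ ^ M) ^ N := by
        have : 0 < ‖π‖ := norm_pos_iff.2 hπ0
        positivity
      have h3 : (‖π‖ ^ M) ^ N * ‖MvPolynomial.eval (Y M) P‖ ≤
          (‖π‖ ^ M) ^ N * (‖Y M‖ ^ (N + 1) * ‖π‖ ^ M) := by
        refine h1.trans (le_of_eq ?_)
        rw [pow_succ]
        ring
      exact le_of_mul_le_mul_left h3 h2
    have hlim0 : Tendsto (fun M => ‖Y M‖ ^ (N + 1) * ‖π‖ ^ M) atTop (𝓝 0) := by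
      have h1 : Tendsto (fun M => ‖Y M‖ ^ (N + 1)) atTop (𝓝 (‖v‖ ^ (N + 1))) :=
        (hYv.norm).pow (N + 1)
      have h2 := tendsto_pow_atTop_nhds_zero_of_lt_one (norm_nonneg π) hπ1
      simpa using h1.mul h2
    have ht0 : Tendsto (fun M => MvPolynomial.eval (Y M) P) atTop (𝓝 0) :=
      squeeze_zero_norm hYb hlim0
    have ht1 : Tendsto (fun M => MvPolynomial.eval (Y M) P) atTop
        (𝓝 (MvPolynomial.eval v P)) :=
      ((MvPolynomial.continuous_eval P).tendsto v).comp hYv
    exact tendsto_nhds_unique ht1 ht0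

end lead

end Vale.Agent.P217
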