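import Vale.Agent.P217.MP0S
import Vale.Agent.P217.MP0B
import Vale.Agent.P217.MP0Poly

/-!
# P217, part L: the main theorem in characteristic zero (M0D)
-/

namespace Vale.Agent.P217

open MvPowerSeries Filter Topology
open scoped MvPowerSeries.WithPiTopology

variable {p m : ℕ} [Fact p.Prime]
variable {K C : Type*} [NormedField K] [NormedField C] [IsUltrametricDist K] [IsUltrametricDist C]
  [CharP K p] [PerfectRing K p] [CompleteSpace K] [CompleteSpace C] [CharZero C] [IsAlgClosed C]
  [IsAlgClosed K]

/-- M0D: the main theorem in characteristic zero. -/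
theorem MP0 {a : Fin m → OO C} {ρ : ℝ} (D : Dt p 1 m a ρ) (S : SharpData p K C)
    (G : MvPowerSeries (Fin m) (OO C)) (T : ∀ η : Etas p (1 + m) K, Orb0 D S G η) : G = 0 := by
  by_contra hG
  have hp1 : ‖(p : C)‖ < 1 := D.p_le.trans_lt D.rho_lt
  obtain ⟨P, hP0, hP⟩ := leading_form_zero G hG
  obtain ⟨e, he, hdet⟩ := exists_basis0 D S
  set A : Matrix (Fin m) (Fin m) C :=
    Matrix.of fun i j => ((grad D S (e i) j : OO C) : C) with hA
  have hAdet : A.det ≠ 0 := by
    have h1 : A = (Matrix.of fun i j => grad D S (e i) j).map (OO C).subtype := rfl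
    rw [h1, ← RingHom.mapMatrix_apply, ← RingHom.map_det]
    intro h
    apply hdet
    exact Subtype.ext h
  have hAu : IsUnit A.det := isUnit_iff_ne_zero.2 hAdet
  -- the logarithms
  let ψ : Etas p (1 + m) K → Fin m → C := fun η i =>
    (p : C) * elC D S (η.act (e i))
  have hmul : ∀ (v : Fin m → C) (i : Fin m),
      A.mulVec v i = ∑ j, ((grad D S (e i) j : OO C) : C) * v j := fun v i => rfl
  let V : AddSubmonoid (Fin m → C) :=
    { carrier := {v | ∃ η : Etas p (1 + m) K, A.mulVec v = - ψ η}
      add_mem' := by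
        rintro v v' ⟨η, hη⟩ ⟨η', hη'⟩
        obtain ⟨ζ, hζ⟩ := Etas.exists_add η η'
        refine ⟨ζ, ?_⟩
        rw [Matrix.mulVec_add, hη, hη']
        funext i
        show - ψ η i + - ψ η' i = - ψ ζ i
        have h1 : ψ ζ i = ψ η i + ψ η' i := by
          show (p : C) * elC D S (ζ.act (e i)) =
            (p : C) * elC D S (η.act (e i)) + (p : C) * elC D S (η'.act (e i))
          unfold elC
          rw [hζ, map_add, logC_add hp1, mul_add]
        rw [h1]
        ring
      zero_mem' := by
        obtain ⟨ζ, hζ⟩ := Etas.exists_monomial (p := p) (n := 1 + m) (K := K) (by omega) 0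
          (zero_pow (pow_ne_zero _ (Fact.out : p.Prime).ne_zero)) 0
        refine ⟨ζ, ?_⟩
        rw [Matrix.mulVec_zero]
        funext i
        show (0 : C) = - ψ ζ i
        have h1 : ζ.act (e i) = 0 := by
          apply Subtype.ext
          rw [hζ, zero_mul]
          rfl
        have h2 : ψ ζ i = 0 := by
          show (p : C) * elC D S (ζ.act (e i)) = 0
          unfold elC
          rw [h1, map_zero]
          exact mul_eq_zero_of_right _ (logC_zero _)
        rw [h2, neg_zero] }
  -- the limits
  have hlim : ∀ η : Etas p (1 + m) K, ∃ v : Fin m → C, A.mulVec v = - ψ η ∧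
      MvPolynomial.eval v P = 0 := by
    intro η
    obtain ⟨v, hv, hv2⟩ := orb_tendsto D S G η (T η) e he hdet
    refine ⟨v, funext fun i => ?_, ?_⟩
    · rw [hmul, hv2]
      rfl
    · refine hP (p : C) (fun M i => (T η).a' M i - a i) v
        (Nat.cast_ne_zero.2 (Fact.out : p.Prime).ne_zero) hp1 (fun M i => ?_) (fun i => ?_)
        (T η).zero
      · have e1 : (((T η).a' M i - a i : OO C) : C) = ((T η).a' M i : C) + -(a i : C) := by
          push_cast
          ring
        rw [e1]
        refine (IsUltrametricDist.norm_add_le_max _ _).trans_lt (max_lt ?_ ?_)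
        · exact (((T η).D' M).a_le i).trans_lt ((T η).D' M).rho_lt
        · rw [norm_neg]
          exact (D.a_le i).trans_lt D.rho_lt
      · have e1 : ∀ M, (((T η).a' M i - a i : OO C) : C) = ((T η).a' M i : C) - (a i : C) :=
          fun M => by push_cast; ring
        simp only [e1]
        exact hv i
  have hinj : ∀ v v' : Fin m → C, A.mulVec v = A.mulVec v' → v = v' := fun v v' h =>
    Matrix.mulVec_injective_of_isUnit ((Matrix.isUnit_iff_isUnit_det A).2 hAu) h
  refine hP0 (poly_eq_zero_of_span V (fun c hc => ?_) P ?_)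
  · -- spanning
    set b : Fin m → C := Matrix.vecMul c A⁻¹ with hb
    have hbA : Matrix.vecMul b A = c := by
      rw [hb, Matrix.vecMul_vecMul, Matrix.nonsing_inv_mul A hAu, Matrix.vecMul_one]
    have hb0 : b = 0 := by
      refine span0 D S e he hdet b fun η => mul_left_cancel₀
        (Nat.cast_ne_zero.2 (Fact.out : p.Prime).ne_zero : (p : C) ≠ 0) ?_
      rw [mul_zero, Finset.mul_sum]
      obtain ⟨v, hv, -⟩ := hlim η
      have h1 := hc v ⟨η, hv⟩
      have h2 : ∑ i, c i * v i = dotProduct c v := rfl
      rw [h2, ← hbA, ← Matrix.dotProduct_mulVec, hv] at h1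
      have h3 : dotProduct b (-ψ η) = -∑ i, b i * ψ η i := by
        rw [dotProduct_neg]
        rfl
      rw [h3, neg_eq_zero] at h1
      rw [← h1]
      refine Finset.sum_congr rfl fun i _ => ?_
      show (p : C) * (b i * elC D S (η.act (e i))) = b i * ((p : C) * elC D S (η.act (e i)))
      ring
    rw [← hbA, hb0, Matrix.zero_vecMul]
  · rintro v ⟨η, hη⟩
    obtain ⟨v', hv', hv2⟩ := hlim η
    rw [hinj v v' (hη.trans hv'.symm)]
    exact hv2

end Vale.Agent.P217
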