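import Vale.Agent.P217.TiltAlgClosed
import Vale.Agent.P217.Nrm

/-!
# P217, part E: Fontaine's map theta, and the tilt data for `ℂ_[p]`
-/

set_option linter.unusedSectionVars false

namespace Vale.Agent.P217

open Filter Topology

namespace Tilt

section adic

variable {p : ℕ} {C : Type*} [NormedField C] [IsUltrametricDist C]

theorem OO_dvd_iff {x y : OO C} : y ∣ x ↔ ‖(x : C)‖ ≤ ‖(y : C)‖ := by
  constructor
  · rintro ⟨c, rfl⟩
    have e : ((y * c : OO C) : C) = (y : C) * (c : C) := rfl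
    rw [e, norm_mul]
    exact mul_le_of_le_one_right (norm_nonneg _) c.2
  · intro h
    by_cases hy : (y : C) = 0
    · rw [hy, norm_zero] at h
      have hx : (x : C) = 0 := norm_le_zero_iff.1 h
      have : x = 0 := Subtype.ext hx
      rw [this]
      exact dvd_zero _
    · refine ⟨⟨(x : C) / (y : C), ?_⟩, ?_⟩
      · show ‖(x : C) / (y : C)‖ ≤ 1
        rw [norm_div]
        exact div_le_one_of_le₀ h (norm_nonneg _)
      · apply Subtype.ext
        show (x : C) = (y : C) * ((x : C) / (y : C))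
        rw [mul_div_cancel₀ _ hy]

theorem OO_mem_span_pow {x : OO C} {n : ℕ} :
    x ∈ (Ideal.span {(p : OO C)} ^ n • ⊤ : Submodule (OO C) (OO C)) ↔
      ‖(x : C)‖ ≤ ‖(p : C)‖ ^ n := by
  rw [smul_eq_mul, Ideal.mul_top, Ideal.span_singleton_pow, Ideal.mem_span_singleton, OO_dvd_iff]
  have e : (((p : OO C) ^ n : OO C) : C) = (p : C) ^ n := by
    push_cast
    rfl
  rw [e, norm_pow]

variable [CompleteSpace C] [hpC : Fact (‖(p : C)‖ < 1)]

instance instAdic : IsAdicComplete (Ideal.span {(p : OO C)}) (OO C) where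
  haus' x hx := by
    have h1 : ∀ n : ℕ, ‖(x : C)‖ ≤ ‖(p : C)‖ ^ n := fun n => by
      have h := hx n
      rw [SModEq.sub_mem, sub_zero] at h
      exact OO_mem_span_pow.1 h
    have h2 := ge_of_tendsto' (tendsto_pow_atTop_nhds_zero_of_lt_one (norm_nonneg _) hpC.out) h1
    exact Subtype.ext (norm_le_zero_iff.1 h2)
  prec' f hf := by
    have h1 : ∀ m n, m ≤ n → ‖((f m : OO C) : C) - (f n : OO C)‖ ≤ ‖(p : C)‖ ^ m := by
      intro m n hmn
      have h := hf hmn
      rw [SModEq.sub_mem] at h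
      exact OO_mem_span_pow.1 h
    have hc : CauchySeq fun n => ((f n : OO C) : C) := by
      refine cauchySeq_of_le_geometric ‖(p : C)‖ 1 hpC.out fun n => ?_
      rw [dist_eq_norm, one_mul]
      exact h1 n (n + 1) (Nat.le_succ n)
    obtain ⟨L, hL⟩ := cauchySeq_tendsto_of_complete hc
    have hL1 : ‖L‖ ≤ 1 := le_of_tendsto' hL.norm fun n => (f n).2
    refine ⟨⟨L, hL1⟩, fun n => ?_⟩
    rw [SModEq.sub_mem]
    refine OO_mem_span_pow.2 ?_
    show ‖((f n : OO C) : C) - L‖ ≤ _
    refine le_of_tendsto ((hL.const_sub ((f n : OO C) : C)).norm) ?_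
    exact eventually_atTop.2 ⟨n, fun m hm => h1 n m hm⟩

instance instNotUnit : Fact ¬IsUnit (p : OO C) := ⟨fun h => by
  have h1 : (p : OO C) ∣ 1 := h.dvd
  rw [OO_dvd_iff] at h1
  have e1 : ((1 : OO C) : C) = 1 := rfl
  have e2 : ((p : OO C) : C) = (p : C) := by push_cast; rfl
  rw [e1, e2, norm_one] at h1
  exact absurd hpC.out (not_lt.2 h1)⟩

end adic

variable {p : ℕ} [hp : Fact p.Prime] {C : Type*} [NormedField C] [IsUltrametricDist C]
  [CompleteSpace C] [hpC : Fact (‖(p : C)‖ < 1)]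

theorem norm_apply_le_one {x : Tilt p C} (hx : ‖x‖ ≤ 1) (n : ℕ) : ‖x n‖ ≤ 1 :=
  norm_apply_le (M := fun _ => 1) bd_one hx n

/-- level `n` in `OO C` -/
def lvl (n : ℕ) (x : OO (Tilt p C)) : OO C := ⟨(x : Tilt p C) n, norm_apply_le_one x.2 n⟩

theorem lvl_val (n : ℕ) (x : OO (Tilt p C)) : ((lvl n x : OO C) : C) = (x : Tilt p C) n := rfl

theorem mk_eq_iff {a b : OO C} :
    (Ideal.Quotient.mk (Ideal.span {(p : OO C)}) a = Ideal.Quotient.mk _ b) ↔
      ‖(a : C) - (b : C)‖ ≤ ‖(p : C)‖ := by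
  rw [Ideal.Quotient.eq, Ideal.mem_span_singleton, OO_dvd_iff]
  have e2 : ((p : OO C) : C) = (p : C) := by push_cast; rfl
  rw [e2]
  rfl

/-- the map to the perfection of `OO C / p` -/
noncomputable def toPre : OO (Tilt p C) →+* PreTilt (OO C) p where
  toFun x := ⟨fun n => Ideal.Quotient.mk _ (lvl n x), fun n => by
    show (Ideal.Quotient.mk _ (lvl (n + 1) x)) ^ p = Ideal.Quotient.mk _ (lvl n x)
    rw [← map_pow]
    congr 1
    exact Subtype.ext (pow_succ' (x : Tilt p C) n)⟩
  map_one' := Perfection.ext fun n => by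
    show Ideal.Quotient.mk _ (lvl n (1 : OO (Tilt p C))) = 1
    rw [← map_one (Ideal.Quotient.mk (Ideal.span {(p : OO C)}))]
    rfl
  map_zero' := Perfection.ext fun n => by
    show Ideal.Quotient.mk _ (lvl n (0 : OO (Tilt p C))) = 0
    rw [← map_zero (Ideal.Quotient.mk (Ideal.span {(p : OO C)}))]
    rfl
  map_mul' x y := Perfection.ext fun n => by
    show Ideal.Quotient.mk _ (lvl n (x * y)) =
      Ideal.Quotient.mk _ (lvl n x) * Ideal.Quotient.mk _ (lvl n y)
    rw [← map_mul]
    rfl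
  map_add' x y := Perfection.ext fun n => by
    show Ideal.Quotient.mk _ (lvl n (x + y)) =
      Ideal.Quotient.mk _ (lvl n x) + Ideal.Quotient.mk _ (lvl n y)
    rw [← map_add, mk_eq_iff]
    have h := add_close_of_le (x : Tilt p C) (y : Tilt p C) (norm_apply_le_one x.2 n)
      (norm_apply_le_one y.2 n)
    rw [mul_one] at h
    exact h

theorem coeff_toPre (x : OO (Tilt p C)) (n : ℕ) :
    PreTilt.coeff n (toPre x) = Ideal.Quotient.mk _ (lvl n x) := rfl

theorem untilt_toPre (x : OO (Tilt p C)) :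
    (((toPre x).untilt : OO C) : C) = (x : Tilt p C) 0 := by
  rw [← sub_eq_zero, ← norm_eq_zero]
  refine le_antisymm ?_ (norm_nonneg _)
  have key : ∀ n : ℕ, ‖(((toPre x).untilt : OO C) : C) - (x : Tilt p C) 0‖ ≤
      ‖(p : C)‖ ^ n := by
    intro n
    set u : OO C := PreTilt.untilt (((frobeniusEquiv (PreTilt (OO C) p) p).symm^[n]) (toPre x))
      with hu
    have h1 : u ^ p ^ n = (toPre x).untilt := PreTilt.untilt_iterate_frobeniusEquiv_symm_pow _ n
    have h2 : Ideal.Quotient.mk (Ideal.span {(p : OO C)}) u =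
        Ideal.Quotient.mk _ (lvl n x) := by
      rw [hu, PreTilt.mk_untilt_eq_coeff_zero, PreTilt.coeff_iterate_frobeniusEquiv_symm,
        zero_add, coeff_toPre]
    rw [mk_eq_iff] at h2
    have h3 := norm_pow_pow_sub (p := p) (a := (u : C)) (b := (lvl n x : C)) (M := 1)
      (δ := ‖(p : C)‖) (lam := ‖(p : C)‖) u.2 (lvl n x).2 (norm_nonneg _) le_rfl le_rfl
      hpC.out.le (by rw [mul_one]; exact h2) n
    rw [one_pow, mul_one] at h3
    have h4 : ((lvl n x : OO C) : C) ^ p ^ n = (x : Tilt p C) 0 := by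
      have := pow_add' (x : Tilt p C) 0 n
      rw [zero_add] at this
      exact this
    have h5 : (u : C) ^ p ^ n = (((toPre x).untilt : OO C) : C) := by
      rw [← h1]
      exact (SubmonoidClass.coe_pow u (p ^ n)).symm
    rw [h4, h5] at h3
    exact h3.trans (mul_le_of_le_one_right (pow_nonneg (norm_nonneg _) _) hpC.out.le)
  exact ge_of_tendsto' (tendsto_pow_atTop_nhds_zero_of_lt_one (norm_nonneg _) hpC.out) key

/-- Fontaine's map. -/
noncomputable def theta : WittVector p (OO (Tilt p C)) →+* OO C :=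
  (WittVector.fontaineTheta (OO C) p).comp (WittVector.map toPre)

theorem theta_teichmuller (x : OO (Tilt p C)) :
    ((theta (WittVector.teichmuller p x) : OO C) : C) = (x : Tilt p C) 0 := by
  rw [theta, RingHom.comp_apply, WittVector.map_teichmuller, WittVector.fontaineTheta_teichmuller,
    untilt_toPre]

/-- The tilt data. -/
noncomputable def tiltData (p : ℕ) [Fact p.Prime] (C : Type*) [NormedField C]
    [IsUltrametricDist C] [CompleteSpace C] [Fact (‖(p : C)‖ < 1)] :
    TiltData p (Tilt p C) C where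
  toSharpData := sharpData p C
  theta := theta
  theta_teich x := theta_teichmuller x

end Tilt

section padic

variable (p : ℕ) [hp : Fact p.Prime]

theorem norm_p_complex : ‖((p : ℕ) : ℂ_[p])‖ = (p : ℝ)⁻¹ := by
  have h : ((p : ℕ) : ℂ_[p]) = algebraMap ℚ_[p] ℂ_[p] (p : ℚ_[p]) := by
    rw [map_natCast]
  rw [h, norm_algebraMap', Padic.norm_p]

instance instFactComplex : Fact (‖((p : ℕ) : ℂ_[p])‖ < 1) := ⟨by
  rw [norm_p_complex]
  exact inv_lt_one_of_one_lt₀ (by exact_mod_cast hp.out.one_lt)⟩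

/-- The tilt of `ℂ_[p]`. -/
abbrev TiltC : Type _ := Tilt p ℂ_[p]

/-- The tilt data for `ℂ_[p]`. -/
noncomputable def tiltDataC : TiltData p (TiltC p) ℂ_[p] := Tilt.tiltData p ℂ_[p]

example : IsAlgClosed (TiltC p) := inferInstance
example : CompleteSpace (TiltC p) := inferInstance
example : CompleteSpace ℂ_[p] := inferInstance
example : IsAlgClosed ℂ_[p] := inferInstance

end padic

end Vale.Agent.P217
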