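import Vale.Agent.P217.AsmMainP
import Vale.Agent.P217.AsmPt0
import Vale.Agent.P217.AsmPtE0
import Vale.Agent.P217.AsmAct0
import Vale.Agent.P217.MP0
import Vale.Agent.P217.TiltTheta

/-!
# P217, part A: invariant radical ideals, characteristic zero part (helper95)
-/

namespace Vale.Agent.P217

open MvPowerSeries Filter Topology

section iota

/-- A finite field of characteristic `p` embeds in the ring of integers of an algebraically
closed normed field of characteristic `p`. -/
theorem exists_iota (p : ℕ) [Fact p.Prime] (k : Type*) [Field k] [CharP k p] [Finite k]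
    (K : Type*) [NormedField K] [IsUltrametricDist K] [CharP K p] [IsAlgClosed K] :
    Nonempty (k →+* OO K) := by
  let _ : Algebra (ZMod p) k := ZMod.algebra k p
  let _ : Algebra (ZMod p) K := ZMod.algebra K p
  have : Module.Finite (ZMod p) k := inferInstance
  have : Algebra.IsAlgebraic (ZMod p) k := inferInstance
  let φ : k →ₐ[ZMod p] K := IsAlgClosed.lift
  have h1 : ∀ x : k, ‖φ x‖ ≤ 1 := by
    intro x
    have := Fintype.ofFinite k
    have h2 : (φ x) ^ (Fintype.card k) = φ x := by
      rw [← map_pow, FiniteField.pow_card]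
    by_cases h0 : φ x = 0
    · rw [h0, norm_zero]; exact zero_le_one
    · have h3 : (φ x) ^ (Fintype.card k - 1) = 1 := by
        apply mul_right_cancel₀ h0
        rw [one_mul, ← pow_succ, Nat.sub_add_cancel Fintype.card_pos, h2]
      have h4 : Fintype.card k - 1 ≠ 0 := by
        have := Fintype.one_lt_card (α := k)
        omega
      have h5 : ‖φ x‖ ^ (Fintype.card k - 1) = 1 := by
        rw [← norm_pow, h3, norm_one]
      exact ((pow_eq_one_iff_of_nonneg (norm_nonneg _) h4).1 h5).le
  exact ⟨{ toFun := fun x => ⟨φ x, h1 x⟩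
           map_one' := Subtype.ext (map_one φ)
           map_zero' := Subtype.ext (map_zero φ)
           map_add' := fun x y => Subtype.ext (map_add φ x y)
           map_mul' := fun x y => Subtype.ext (map_mul φ x y) }⟩

end iota

section main

variable {p m : ℕ} [Fact p.Prime] {k : Type} [Field k] [CharP k p] [PerfectRing k p]

theorem witt_injective {R : Type*} [CommRing R] [IsDomain R] [CharZero R]
    (ω : WittVector p k →+* R) : Function.Injective ω := by
  rw [injective_iff_map_eq_zero]
  intro x hx
  by_contra h0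
  obtain ⟨N, b, hb⟩ := WittVector.exists_eq_pow_p_mul' x h0
  rw [hb, map_mul, map_pow, map_natCast] at hx
  have h1 : (ω b) ≠ 0 := (b.isUnit.map ω).ne_zero
  have h2 : ((p : R)) ^ N ≠ 0 := pow_ne_zero _ (Nat.cast_ne_zero.2 (Fact.out : p.Prime).ne_zero)
  exact mul_ne_zero h2 h1 hx

theorem main_char0 (hk : Nat.card k = p ^ (1 + m)) (J : Ideal (E0 p (1 + m) k))
    (hJ : J.IsRadical) (hinv : InvE p (1 + m) k J) (hu : (p : E0 p (1 + m) k) ∉ J) : J = ⊥ := by
  rw [eq_bot_iff]
  intro f hf
  rw [Ideal.mem_bot]
  have hfin : Finite k := Nat.finite_of_card_ne_zero (by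
    rw [hk]; exact pow_ne_zero _ (Fact.out : p.Prime).ne_zero)
  have hkpow : ∀ c : k, c ^ (p ^ (1 + m)) = c := by
    intro c
    have := Fintype.ofFinite k
    rw [← hk, Nat.card_eq_fintype_card, FiniteField.pow_card]
  obtain ⟨ι⟩ := exists_iota p k (TiltC p)
  let T := tiltDataC p
  let S : SharpData p (TiltC p) ℂ_[p] := T.toSharpData
  let ω : WittVector p k →+* OO ℂ_[p] := T.theta.comp (WittVector.map ι)
  have hchar : CharZero (OO ℂ_[p]) := ⟨fun a b hab => by
    have h1 := congrArg (fun z : OO ℂ_[p] => (z : ℂ_[p])) hab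
    simpa using h1⟩
  have hω : Function.Injective ω := witt_injective ω
  have hS : ∀ c : k, ((ω (WittVector.teichmuller p c) : OO ℂ_[p]) : ℂ_[p]) =
      S.sharp ((ι c : OO (TiltC p)) : TiltC p) := by
    intro c
    show ((T.theta (WittVector.map ι (WittVector.teichmuller p c)) : OO ℂ_[p]) : ℂ_[p]) = _
    rw [WittVector.map_teichmuller]
    exact T.theta_teich _
  have hp1 : ‖(p : ℂ_[p])‖ < 1 := (instFactComplex p).out
  obtain ⟨χ, r, hχ, hχJ⟩ := exists_chi0 hp1 ω J hJ hu
  obtain ⟨G, hG, hG0⟩ := exists_taylor0 hω hχ f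
  have D := hχ.dt
  apply hG0
  refine MP0 D S G (fun η => ?_)
  have hex := Etas.exists_descend ι hk (by omega) η
  have key := fun M : ℕ => exists_small_move0 ω hχ J hinv hχJ hkpow ι S hS D hex.choose
    hex.choose_spec.1 η.ser η.isHom hex.choose_spec.2 (M + 1) (by omega)
  refine { a' := fun M => ptA 1 (key M).choose, ρ' := fun _ => r,
           D' := fun M => (key M).choose_spec.choose_spec.choose, tend := fun i => ?_,
           zero := fun M => ?_, ker := fun M e he => ?_ }
  · rw [tendsto_subtype_rng, tendsto_iff_norm_sub_tendsto_zero]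
    refine squeeze_zero (fun _ => norm_nonneg _) (fun M => ?_)
      ((tendsto_pow_atTop_nhds_zero_of_lt_one hχ.r_nonneg hχ.r_lt).comp
        (tendsto_add_atTop_nat (2 : ℕ)))
    exact (key M).choose_spec.choose_spec.choose_spec.2.1 i
  · have h2 := hG (key M).choose r (key M).choose_spec.choose
    refine Eq.trans h2 ?_
    exact (key M).choose_spec.choose_spec.choose_spec.1 f hf
  · exact (key M).choose_spec.choose_spec.choose_spec.2.2 e he

end main

end Vale.Agent.P217
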