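import Vale.Agent.P217.AsmDefs
import Vale.Agent.P217.Arc

/-!
# P217, module AP1: existence of points (helper95)
-/

namespace Vale.Agent.P217

open MvPowerSeries Filter Topology

variable {p h m : ℕ} [Fact p.Prime] {k : Type*} [Field k] [CharP k p] [PerfectRing k p]
variable {K : Type*} [NormedField K] [IsUltrametricDist K] [CompleteSpace K] [CharP K p]

theorem ap1_Iht_le (n : ℕ) (hn : 1 ≤ n) {h : ℕ} (hh : h ≤ n) : Iht p n k h ≤ mE p n k := by
  rw [← Iht_top hn]
  exact Ideal.span_mono (Set.image_mono fun j (hj : j < h) => lt_of_lt_of_le hj hh)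

/-- AP1: existence of points (`Arc.exists_point` applied to `k[[u_h, …, u_{n-1}]]`,
`exists_red`). -/
theorem exists_chi [IsAlgClosed K] (hK : ∃ t : K, t ≠ 0 ∧ ‖t‖ < 1) (ι : k →+* OO K)
    (h1 : 1 ≤ h) (hm : 1 ≤ m) (J : Ideal (E0 p (h + m) k)) (hJ : J.IsRadical)
    (hI : Iht p (h + m) k h ≤ J) (hu : uSeq p (h + m) k h ∉ J) :
    ∃ (χ : E0 p (h + m) k →+* OO K) (r : ℝ), Pt ι h r χ ∧ (∀ f ∈ J, χ f = 0) ∧
      ptA h χ ⟨0, hm⟩ ≠ 0 := by
  classical
  obtain ⟨t, ht0, ht1⟩ := hK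
  -- a prime containing `J`
  obtain ⟨Q, hQp, hJQ, huQ⟩ : ∃ Q : Ideal (E0 p (h + m) k), Q.IsPrime ∧ J ≤ Q ∧
      uSeq p (h + m) k h ∉ Q := by
    have h2 : uSeq p (h + m) k h ∉ J.radical := by rwa [hJ.radical]
    rw [Ideal.radical_eq_sInf, Ideal.mem_sInf] at h2
    push Not at h2
    obtain ⟨Q, ⟨hQ1, hQ2⟩, hQ3⟩ := h2
    exact ⟨Q, hQ2, hQ1, hQ3⟩
  have hus : uSeq p (h + m) k h = uPar p (h + m) k h := by
    unfold uSeq
    rw [if_neg (by omega)]
  obtain ⟨φ, hφs, hφk, hφC, hφX⟩ := exists_red (p := p) (n := h + m) (k := k) h h1 (by omega)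
  have hker : RingHom.ker φ ≤ Q := by rw [hφk]; exact hI.trans hJQ
  have hPp : (Q.map φ).IsPrime := Ideal.map_isPrime_of_surjective hφs hker
  have hcm : (Q.map φ).comap φ = Q := by
    rw [Ideal.comap_map_of_surjective φ hφs, ← RingHom.ker_eq_comap_bot]
    exact sup_eq_left.2 hker
  have hg : φ (uPar p (h + m) k h) = X ⟨0, by omega⟩ := hφX ⟨0, by omega⟩
  have hgP : (X ⟨0, by omega⟩ : MvPowerSeries (Fin (h + m - h)) k) ∉ Q.map φ := by
    intro h2
    apply huQ
    rw [hus, ← hcm, Ideal.mem_comap, hg]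
    exact h2
  letI : Algebra k K := ((OO K).subtype.comp ι).toAlgebra
  have halg : ∀ c : k, algebraMap k K c = ((ι c : OO K) : K) := fun c => rfl
  obtain ⟨ψ, hψC, hψP, hψg, hψ1, hψ2⟩ := exists_point (k := k) (C := K)
    (fun c => (ι c).2) (Q.map φ) hPp (X ⟨0, by omega⟩) (constantCoeff_X _) hgP t ht0 ht1
  let χ : E0 p (h + m) k →+* OO K := (ψ.comp φ).codRestrict (OO K) (fun f => hψ1 (φ f))
  have hχ : ∀ f, ((χ f : OO K) : K) = ψ (φ f) := fun f => rfl
  have hφm : ∀ f ∈ mE p (h + m) k, constantCoeff (φ f) = 0 := by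
    intro f hf
    by_contra hc
    have hunit : IsUnit (φ f) := by
      rw [MvPowerSeries.isUnit_iff_constantCoeff]
      exact isUnit_iff_ne_zero.2 hc
    obtain ⟨z, hz⟩ := hunit.exists_right_inv
    obtain ⟨y, rfl⟩ := hφs z
    have h2 : f * y - 1 ∈ RingHom.ker φ := by
      rw [RingHom.mem_ker, map_sub, map_mul, hz, map_one, sub_self]
    rw [hφk] at h2
    have h3 := ap1_Iht_le (h + m) (by omega) (by omega) h2
    have h4 : f * y ∈ mE p (h + m) k := Ideal.mul_mem_right _ _ hf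
    have h5 : (1 : E0 p (h + m) k) ∈ mE p (h + m) k := by
      have := Ideal.sub_mem _ h4 h3
      rwa [sub_sub_cancel] at this
    exact (mE_isMaximal (p := p) (n := h + m) (k := k)).ne_top ((Ideal.eq_top_iff_one _).2 h5)
  have hχm : ∀ f ∈ mE p (h + m) k, ‖((χ f : OO K) : K)‖ < 1 := fun f hf => hψ2 _ (hφm f hf)
  -- the radius
  let G : Finset (E0 p (h + m) k) := insert (p : E0 p (h + m) k) (Finset.univ.image (X : Fin (h + m - 1) → _))
  have hGne : G.Nonempty := ⟨_, Finset.mem_insert_self _ _⟩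
  have hGm : ∀ f ∈ G, f ∈ mE p (h + m) k := by
    intro f hf
    rw [Finset.mem_insert] at hf
    rcases hf with rfl | hf
    · exact p_mem_mE
    · obtain ⟨i, _, rfl⟩ := Finset.mem_image.1 hf
      exact X_mem_mE i
  obtain ⟨f0, hf0, hmax⟩ := Finset.exists_max_image G (fun f => ‖((χ f : OO K) : K)‖) hGne
  refine ⟨χ, ‖((χ f0 : OO K) : K)‖, ⟨norm_nonneg _, hχm f0 (hGm f0 hf0), ?_, ?_, ?_⟩, ?_, ?_⟩
  · intro w
    apply Subtype.ext
    rw [hχ, hφC, hψC, halg]
  · intro f hf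
    apply Subtype.ext
    rw [hχ]
    have : φ f = 0 := by rw [← RingHom.mem_ker, hφk]; exact hf
    rw [this, map_zero]; rfl
  · have h2 : mE p (h + m) k ≤ (ballI K _ (norm_nonneg ((χ f0 : OO K) : K))).comap χ := by
      rw [mE_eq_span, Ideal.span_le]
      intro f hf
      have hfG : f ∈ G := by
        rcases hf with hf | ⟨i, rfl⟩
        · rw [Set.mem_singleton_iff] at hf
          subst hf
          exact Finset.mem_insert_self _ _
        · exact Finset.mem_insert_of_mem (Finset.mem_image_of_mem _ (Finset.mem_univ i))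
      exact hmax f hfG
    exact fun f hf => h2 hf
  · intro f hf
    apply Subtype.ext
    rw [hχ]
    exact hψP _ (Ideal.mem_map_of_mem φ (hJQ hf))
  · intro h2
    apply ht0
    have h3 := congrArg (fun z : OO K => (z : K)) h2
    have h4 : ((ptA h χ ⟨0, hm⟩ : OO K) : K) = ψ (φ (uPar p (h + m) k h)) := rfl
    rw [← hψg, ← hg, ← h4]
    exact h3

end Vale.Agent.P217
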