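import Vale.Agent.P217.AsmDefs

/-!
# P217, module AP2: points are determined by their coordinates (helper95)
-/

namespace Vale.Agent.P217

open MvPowerSeries Filter Topology

variable {p h m : ℕ} [Fact p.Prime] {k : Type*} [Field k] [CharP k p] [PerfectRing k p]
variable {K : Type*} [NormedField K] [IsUltrametricDist K] [CompleteSpace K] [CharP K p]

omit [CompleteSpace K] in
theorem ap2_ball_pow {ρ : ℝ} (hρ : 0 ≤ ρ) (s : ℕ) {x : OO K} (hx : x ∈ (ballI K ρ hρ) ^ s) :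
    ‖(x : K)‖ ≤ ρ ^ s := by
  have h1 : ∀ s : ℕ, (ballI K ρ hρ) ^ s ≤ ballI K (ρ ^ s) (pow_nonneg hρ s) := by
    intro s
    induction s with
    | zero =>
      intro y _
      show ‖(y : K)‖ ≤ ρ ^ 0
      rw [pow_zero]
      exact y.2
    | succ s ih =>
      rw [pow_succ, Ideal.mul_le]
      intro a ha b hb
      have ha' : ‖(a : K)‖ ≤ ρ ^ s := ih ha
      have hb' : ‖(b : K)‖ ≤ ρ := hb
      show ‖((a * b : OO K) : K)‖ ≤ ρ ^ (s + 1)
      have : ((a * b : OO K) : K) = (a : K) * (b : K) := rfl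
      rw [this, norm_mul, pow_succ]
      exact mul_le_mul ha' hb' (norm_nonneg _) (by positivity)
  exact h1 s hx

/-- the variables in terms of `uPar` -/
theorem ap2_X (n : ℕ) (i : Fin (n - 1)) : (X i : E0 p n k) = uPar p n k (i + 1) := by
  unfold uPar par
  rw [dif_pos ⟨by omega, by omega⟩]
  congr 1

theorem ap2_mem_Iht {n j : ℕ} (h1 : 1 ≤ j) (h2 : j < h) : uPar p n k j ∈ Iht p n k h := by
  refine Ideal.subset_span ⟨j, h2, ?_⟩
  unfold uSeq
  rw [if_neg (by omega)]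

/-- AP2: two points with the same coordinates agree. -/
theorem Pt.ext {ι : k →+* OO K} {r r' : ℝ} {χ χ' : E0 p (h + m) k →+* OO K} (h1 : 1 ≤ h)
    (hχ : Pt ι h r χ) (hχ' : Pt ι h r' χ') (he : ptA h χ = ptA h χ') : χ = χ' := by
  have hρ0 : 0 ≤ max r r' := hχ.r_nonneg.trans (le_max_left _ _)
  have hρ1 : max r r' < 1 := max_lt hχ.r_lt hχ'.r_lt
  refine E0_hom_ext (ballI K (max r r') hρ0) (fun x hx => ?_) χ χ'
    (fun f hf => (hχ.map_m f hf).trans (le_max_left _ _))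
    (fun f hf => (hχ'.map_m f hf).trans (le_max_right _ _))
    (fun w => by rw [hχ.map_C, hχ'.map_C]) (fun i => ?_)
  · have h2 : ∀ s : ℕ, ‖(x : K)‖ ≤ (max r r') ^ s := fun s => ap2_ball_pow hρ0 s (hx s)
    have h3 : Tendsto (fun s : ℕ => (max r r') ^ s) atTop (𝓝 0) :=
      tendsto_pow_atTop_nhds_zero_of_lt_one hρ0 hρ1
    have h4 : ‖(x : K)‖ ≤ 0 := ge_of_tendsto h3 (Eventually.of_forall h2)
    apply Subtype.ext
    exact norm_le_zero_iff.1 h4
  · rw [ap2_X]
    rcases lt_or_ge ((i : ℕ) + 1) h with h5 | h5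
    · rw [hχ.map_I _ (ap2_mem_Iht (by omega) h5), hχ'.map_I _ (ap2_mem_Iht (by omega) h5)]
    · have h6 : (i : ℕ) + 1 - h < m := by have := i.2; omega
      have h7 := congrFun he ⟨(i : ℕ) + 1 - h, h6⟩
      unfold ptA at h7
      have h8 : h + ((⟨(i : ℕ) + 1 - h, h6⟩ : Fin m) : ℕ) = (i : ℕ) + 1 := by
        show h + ((i : ℕ) + 1 - h) = (i : ℕ) + 1
        omega
      rw [h8] at h7
      exact h7

/-- AP2: the parameters of the formal group at the point `χ`. -/
theorem Pt.par_eq {ι : k →+* OO K} {r : ℝ} {χ : E0 p (h + m) k →+* OO K} (h1 : 1 ≤ h)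
    (hχ : Pt ι h r χ) (j : ℕ) (hj1 : 1 ≤ j) (hj : j ≤ h + m) :
    χ (uPar p (h + m) k j) = par h m (ptA h χ) j := by
  rcases lt_or_ge j h with h2 | h2
  · rw [hχ.map_I _ (ap2_mem_Iht hj1 h2)]
    unfold par
    rw [dif_neg (by omega), if_neg (by omega)]
  · rcases hj.lt_or_eq with h3 | h3
    · unfold par
      rw [dif_pos ⟨h2, h3⟩]
      unfold ptA
      congr 2
      show j = h + (j - h)
      omega
    · subst h3
      rw [uPar_top (by omega), map_one]
      unfold par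
      rw [dif_neg (by omega), if_pos rfl]

/-- AP2: the base point data. -/
theorem Pt.dt {ι : k →+* OO K} {r : ℝ} {χ : E0 p (h + m) k →+* OO K} (h1 : 1 ≤ h)
    (hχ : Pt ι h r χ) : Dt p h m (ptA h χ) r where
  h_pos := h1
  rho_nonneg := hχ.r_nonneg
  rho_lt := hχ.r_lt
  p_le := by
    rw [CharP.cast_eq_zero K p, norm_zero]
    exact hχ.r_nonneg
  a_le i := hχ.map_m _ (uPar_mem_mE _ (by omega) (by have := i.2; omega))

end Vale.Agent.P217
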