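import Vale.Agent.P217.AsmDefs
import Vale.Agent.P217.E0Hom
import Vale.Agent.P217.E0Ideals

/-!
# P217, module AP3: the Taylor series of `f ∈ E_0` at a point (helper15)
-/

namespace Vale.Agent.P217

open MvPowerSeries Filter Topology
open scoped MvPowerSeries.WithPiTopology

namespace AP3

variable {p h m : ℕ} [Fact p.Prime] {k : Type*} [Field k] [CharP k p]
variable {K : Type*} [NormedField K] [IsUltrametricDist K] [CompleteSpace K] [CharP K p]

/-- the index -/
abbrev cst (h m : ℕ) (i : Fin (h + m - h)) : Fin m := Fin.cast (by omega) i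

/-- the inverse of the index -/
abbrev cst' (h m : ℕ) (i : Fin m) : Fin (h + m - h) := Fin.cast (by omega) i

theorem X_eq_uPar {n : ℕ} (i : Fin (n - 1)) :
    (X i : E0 p n k) = uPar p n k (i.1 + 1) := by
  have hi := i.2
  unfold uPar par
  rw [dif_pos ⟨by omega, by omega⟩]
  rfl

theorem charP_cast_OO (p : ℕ) [CharP K p] : ((p : ℕ) : OO K) = 0 := by
  refine Subtype.ext ?_
  push_cast
  exact CharP.cast_eq_zero K p

theorem ball_sep {ρ : ℝ} (hρ : 0 ≤ ρ) (h1 : ρ < 1) (x : OO K)
    (hx : ∀ r, x ∈ (ballI K ρ hρ) ^ r) : x = 0 := by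
  by_contra hne
  have hU : ({x}ᶜ : Set (OO K)) ∈ 𝓝 (0 : OO K) :=
    isOpen_compl_singleton.mem_nhds (by simpa using Ne.symm hne)
  obtain ⟨r, hr⟩ := ball_topnil hρ h1 _ hU
  exact hr (hx r) rfl

variable [PerfectRing k p]

theorem ptA_norm {ι : k →+* OO K} {r : ℝ} {χ : E0 p (h + m) k →+* OO K} (h1 : 1 ≤ h)
    (hχ : Pt ι h r χ) (i : Fin m) : ‖((ptA h χ i : OO K) : K)‖ ≤ r :=
  hχ.map_m _ (uPar_mem_mE _ (by omega) (by omega))

theorem ptA_tn {ι : k →+* OO K} {r : ℝ} {χ : E0 p (h + m) k →+* OO K} (h1 : 1 ≤ h)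
    (hχ : Pt ι h r χ) (i : Fin m) : IsTopologicallyNilpotent (ptA h χ i) :=
  (tn_iff_norm_lt_one _).2 ((ptA_norm h1 hχ i).trans_lt hχ.r_lt)

/-- The value at a point is the value of the reduced series. -/
theorem point_eval {ι : k →+* OO K} {r : ℝ} {χ : E0 p (h + m) k →+* OO K} (h1 : 1 ≤ h)
    (hχ : Pt ι h r χ) {φ : E0 p (h + m) k →+* MvPowerSeries (Fin (h + m - h)) k}
    (hker : RingHom.ker φ = Iht p (h + m) k h)
    (hC : ∀ w : WittVector p k, φ (C w) = C (WittVector.constantCoeff w))
    (hX : ∀ i : Fin (h + m - h), φ (uPar p (h + m) k (h + i)) = X i)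
    (f : E0 p (h + m) k) :
    χ f = eval₂ (RingHom.id (OO K)) (fun i => ptA h χ (cst h m i)) ((φ f).map ι) := by
  have hev : HasEval (fun i => ptA h χ (cst h m i)) :=
    hasEval_of_finite fun i => ptA_tn h1 hχ _
  set ev := eval₂Hom (φ := RingHom.id (OO K)) continuous_idO hev with hevdef
  have hev' : ∀ F, ev F = eval₂ (RingHom.id (OO K)) (fun i => ptA h χ (cst h m i)) F := by
    intro F
    rw [hevdef, coe_eval₂Hom]
  set ψ : E0 p (h + m) k →+* OO K := ev.comp ((MvPowerSeries.map ι).comp φ) with hψdef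
  have hψ : ∀ F, ψ F = ev ((φ F).map ι) := fun F => rfl
  have hXeq : ∀ i : Fin (h + m - 1), χ (X i) = ψ (X i) := by
    intro i
    have hi := i.2
    rw [X_eq_uPar]
    by_cases hc : i.1 + 1 < h
    · have hmem : uPar p (h + m) k (i.1 + 1) ∈ Iht p (h + m) k h := by
        refine Ideal.subset_span ⟨i.1 + 1, hc, ?_⟩
        unfold uSeq
        rw [if_neg (by omega)]
      have h0 : φ (uPar p (h + m) k (i.1 + 1)) = 0 := by
        rw [← RingHom.mem_ker, hker]
        exact hmem
      rw [hχ.map_I _ hmem, hψ, h0, map_zero, map_zero]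
    · have e : i.1 + 1 = h + ((⟨i.1 + 1 - h, by omega⟩ : Fin (h + m - h)) : ℕ) := by
        show i.1 + 1 = h + (i.1 + 1 - h)
        omega
      rw [e, hψ, hX, map_X, hev', eval₂_X]
      rfl
  have key : χ = ψ := by
    refine E0_hom_ext (ballI K r hχ.r_nonneg) (ball_sep hχ.r_nonneg hχ.r_lt) χ ψ
      (fun g hg => hχ.map_m g hg) ?_ ?_ hXeq
    · have hle : mE p (h + m) k ≤ (ballI K r hχ.r_nonneg).comap ψ := by
        rw [mE_eq_span, Ideal.span_le]
        rintro _ (h2 | ⟨i, rfl⟩)
        · rw [Set.mem_singleton_iff] at h2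
          rw [h2, SetLike.mem_coe, Ideal.mem_comap, map_natCast, charP_cast_OO p]
          exact Ideal.zero_mem _
        · rw [SetLike.mem_coe, Ideal.mem_comap, ← hXeq]
          exact hχ.map_m _ (X_mem_mE i)
      exact hle
    · intro w
      rw [hχ.map_C, hψ, hC, map_C, hev', eval₂_C]
      rfl
  exact (DFunLike.congr_fun key f).trans (hev' _)

/-- the arguments `a + X` are topologically nilpotent -/
theorem hasEval_trans {a : Fin m → OO K} (ha : ∀ i, IsTopologicallyNilpotent (a i)) :
    HasEval (fun i : Fin (h + m - h) =>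
      (C (a (cst h m i)) + X (cst h m i) : MvPowerSeries (Fin m) (OO K))) := by
  refine hasEval_of_finite fun i => ?_
  refine MvPowerSeries.LinearTopology.isTopologicallyNilpotent_of_constantCoeff ?_
  rw [map_add, constantCoeff_C, constantCoeff_X, add_zero]
  exact ha _

theorem hasEval_trans' {a : Fin m → OO K} (ha : ∀ i, IsTopologicallyNilpotent (a i)) :
    HasEval (fun i : Fin m =>
      (X (cst' h m i) - C (a i) : MvPowerSeries (Fin (h + m - h)) (OO K))) := by
  refine hasEval_of_finite fun i => ?_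
  refine MvPowerSeries.LinearTopology.isTopologicallyNilpotent_of_constantCoeff ?_
  rw [map_sub, constantCoeff_C, constantCoeff_X, zero_sub]
  exact (tn_iff_norm_lt_one _).2 (by
    have h2 := (tn_iff_norm_lt_one _).1 (ha i)
    simpa using h2)

/-- evaluation of a series at the variables -/
theorem eval_X_self {n : ℕ} (F : MvPowerSeries (Fin n) (OO K)) :
    eval₂ (C : OO K →+* MvPowerSeries (Fin n) (OO K)) X F = F := by
  have hX : HasEval (fun i : Fin n => (X i : MvPowerSeries (Fin n) (OO K))) := HasEval.X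
  have h := eval₂_unique (σ := Fin n) (R := OO K) (S := MvPowerSeries (Fin n) (OO K))
    (φ := C) (a := fun i => X i) WithPiTopology.continuous_C hX (ε := id) continuous_id (by
      intro q
      induction q using MvPolynomial.induction_on with
      | C c => simp
      | add q1 q2 h1 h2 =>
        simp only [id_eq] at h1 h2 ⊢
        rw [MvPolynomial.coe_add, h1, h2, MvPolynomial.eval₂_add]
      | mul_X q i h1 =>
        simp only [id_eq] at h1 ⊢
        rw [MvPolynomial.coe_mul, h1, MvPolynomial.eval₂_mul, MvPolynomial.eval₂_X,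
          MvPolynomial.coe_X])
  exact (congrFun h F).symm

end AP3

open AP3

variable {p h m : ℕ} [Fact p.Prime] {k : Type*} [Field k] [CharP k p] [PerfectRing k p]
variable {K : Type*} [NormedField K] [IsUltrametricDist K] [CompleteSpace K] [CharP K p]

/-- AP3: the Taylor series of `f ∈ E_0` at the point `χ` of the stratum `V(I_h)`. -/
theorem exists_taylor' {ι : k →+* OO K} {r : ℝ} {χ : E0 p (h + m) k →+* OO K} (h1 : 1 ≤ h)
    (hχ : Pt ι h r χ) (f : E0 p (h + m) k) :
    ∃ G : MvPowerSeries (Fin m) (OO K),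
      (∀ (χ' : E0 p (h + m) k →+* OO K) (r' : ℝ), Pt ι h r' χ' →
        evm G (fun i => ptA h χ' i - ptA h χ i) = χ' f) ∧
      (G = 0 → f ∈ Iht p (h + m) k h) := by
  obtain ⟨φ, -, hker, hC, hX⟩ := exists_red (p := p) (n := h + m) (k := k) h h1 (by omega)
  set a := ptA h χ with ha
  have hatn : ∀ i, IsTopologicallyNilpotent (a i) := ptA_tn h1 hχ
  have hy := hasEval_trans (h := h) hatn
  set y : Fin (h + m - h) → MvPowerSeries (Fin m) (OO K) :=
    fun i => C (a (cst h m i)) + X (cst h m i) with hydef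
  have hCc : Continuous (C : OO K →+* MvPowerSeries (Fin m) (OO K)) := continuous_C_OO
  refine ⟨eval₂ C y ((φ f).map ι), fun χ' r' hχ' => ?_, fun hG => ?_⟩
  · -- evaluation at `a' - a`
    have hx : ∀ i, IsTopologicallyNilpotent (ptA h χ' i - a i) := by
      intro i
      rw [tn_iff_norm_lt_one]
      have h2 : ‖((ptA h χ' i : OO K) : K)‖ < 1 := (ptA_norm h1 hχ' i).trans_lt hχ'.r_lt
      have h3 : ‖((a i : OO K) : K)‖ < 1 := (ptA_norm h1 hχ i).trans_lt hχ.r_lt
      have h4 : (((ptA h χ' i - a i : OO K)) : K) = (ptA h χ' i : K) - (a i : K) := rfl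
      rw [h4, sub_eq_add_neg]
      refine (IsUltrametricDist.norm_add_le_max _ _).trans_lt (max_lt h2 ?_)
      rwa [norm_neg]
    have hxe : HasEval (fun i => ptA h χ' i - a i) := hasEval_of_finite hx
    set ε := eval₂Hom (φ := RingHom.id (OO K)) continuous_idO hxe with hε
    have hεc : Continuous ε := by
      rw [hε, coe_eval₂Hom]
      exact continuous_eval₂ continuous_idO hxe
    have hε' : ∀ F, ε F = evm F (fun i => ptA h χ' i - a i) := by
      intro F
      rw [hε, coe_eval₂Hom]
      rfl
    rw [← hε']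
    have hcomp := congrFun (comp_eval₂ (φ := (C : OO K →+* MvPowerSeries (Fin m) (OO K)))
      (a := y) hCc hy hεc) ((φ f).map ι)
    rw [Function.comp_apply] at hcomp
    rw [hcomp, point_eval h1 hχ' hker hC hX f]
    have e1 : ε.comp C = RingHom.id (OO K) := by
      refine RingHom.ext fun c => ?_
      rw [RingHom.comp_apply, hε']
      exact eval₂_C _ _ _
    have e2 : (ε ∘ y) = fun i => ptA h χ' (cst h m i) := by
      funext i
      rw [Function.comp_apply, hydef]
      simp only
      rw [map_add, hε', hε']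
      have e3 : evm (C (a (cst h m i))) (fun i => ptA h χ' i - a i) = a (cst h m i) :=
        eval₂_C _ _ _
      have e4 : evm (X (cst h m i)) (fun i => ptA h χ' i - a i)
          = ptA h χ' (cst h m i) - a (cst h m i) := eval₂_X _ _ _
      rw [e3, e4]
      ring
    rw [e1, e2]
  · -- translation
    have hz := hasEval_trans' (h := h) hatn
    have hCc' : Continuous (C : OO K →+* MvPowerSeries (Fin (h + m - h)) (OO K)) :=
      WithPiTopology.continuous_C
    set ε := eval₂Hom (φ := (C : OO K →+* MvPowerSeries (Fin (h + m - h)) (OO K))) hCc' hz with hε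
    have hεc : Continuous ε := by
      rw [hε, coe_eval₂Hom]
      exact continuous_eval₂ hCc' hz
    have hε' : ∀ F, ε F = eval₂ (C : OO K →+* MvPowerSeries (Fin (h + m - h)) (OO K))
        (fun i => X (cst' h m i) - C (a i)) F := by
      intro F
      rw [hε, coe_eval₂Hom]
    have hcomp := congrFun (comp_eval₂ (φ := (C : OO K →+* MvPowerSeries (Fin m) (OO K)))
      (a := y) hCc hy hεc) ((φ f).map ι)
    rw [Function.comp_apply, hG, map_zero] at hcomp
    have e1 : ε.comp C = (C : OO K →+* MvPowerSeries (Fin (h + m - h)) (OO K)) := by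
      refine RingHom.ext fun c => ?_
      rw [RingHom.comp_apply, hε', eval₂_C]
    have e2 : (ε ∘ y) = X := by
      funext i
      rw [Function.comp_apply, hydef]
      simp only
      rw [map_add, hε', hε', eval₂_C, eval₂_X]
      have e3 : cst' h m (cst h m i) = i := by
        apply Fin.ext
        rfl
      rw [e3]
      ring
    rw [e1, e2, eval_X_self] at hcomp
    rw [← hker, RingHom.mem_ker]
    ext d
    have hd := congrArg (coeff d) hcomp
    rw [coeff_map, map_zero] at hd
    rw [map_zero]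
    exact (map_eq_zero_iff ι ι.injective).1 hd.symm

end Vale.Agent.P217
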