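import Vale.Agent.P217.ClosureJ

/-!
# P217, closure part, file K: the step with a distinguished variable
-/

namespace Vale.Agent.P217

open Finset MvPowerSeries Filter Topology

set_option linter.unusedSectionVars false

theorem cls_spec_comp {R S : Type*} [CommRing R] [CommRing S] (φ : R →+* S) (v : ℕ → R) :
    φ.comp (spec v) = spec (fun j => φ (v j)) := by
  apply MvPolynomial.ringHom_ext
  · intro a
    simp [spec]
  · intro i
    simp [spec]

theorem cls_invS_map {R S : Type*} [CommRing R] [CommRing S] (φ : R →+* S) (p n : ℕ)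
    [Fact p.Prime] (v : ℕ → R) :
    (invS p n v).map φ = invS p n (fun j => φ (v j)) := by
  rw [invS, invS, ← cls_spec_comp]
  rfl

theorem cls_Gam_map {R S : Type*} [CommRing R] [CommRing S] (φ : R →+* S) (h : ℕ) :
    (fun j => φ ((Gam h : ℕ → R) j)) = (Gam h : ℕ → S) := by
  funext j
  simp only [Gam]
  split_ifs
  · exact map_one _
  · exact map_zero _

/-- endomorphisms of `Γ_h` over the finite field -/
structure ClsEnd (p n h : ℕ) [Fact p.Prime] (k₀ : Type*) [Field k₀] where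
  /-- the series -/
  ser : PowerSeries k₀
  /-- it is an endomorphism -/
  isHom : IsHomS p n (Gam h) (Gam h) ser

section

variable {p h n : ℕ} [Fact p.Prime] {k₀ K σ τ : Type*} [Field k₀] [NormedField K]
  [IsUltrametricDist K] [CompleteSpace K] [Algebra k₀ K] [ClsFix p h k₀ K] [Finite σ] [Finite τ]

include p h in
/-- the implicit function theorem on points -/
theorem cls_ift_point (Ψ : MvPowerSeries (Option σ) k₀) (h0 : constantCoeff Ψ = 0)
    (h1 : coeff (Finsupp.single none 1) Ψ ≠ 0) :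
    ∃ H : MvPowerSeries σ k₀, constantCoeff H = 0 ∧ ∀ y : Option σ → K, (∀ s, ‖y s‖ < 1) →
      clsEv y Ψ = 0 → y none = clsEv (fun s => y (some s)) H := by
  obtain ⟨H, U, hH, hΨ⟩ := cls_ift Ψ h0 h1
  refine ⟨H, hH, fun y hy hv => ?_⟩
  rw [hΨ, clsEv_mul y hy, clsEv_sub y hy, clsEv_X y hy,
    clsEv_subst y hy _ (fun s => constantCoeff_X _)] at hv
  have h2 : (fun s : σ => clsEv y (X (some s) : MvPowerSeries (Option σ) k₀)) =
      fun s => y (some s) := funext fun s => clsEv_X y hy _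
  rw [h2] at hv
  have h3 : clsEv y (U : MvPowerSeries (Option σ) k₀) ≠ 0 := by
    intro h4
    have h5 := clsEv_mul y hy (U : MvPowerSeries (Option σ) k₀)
      ((U⁻¹ : (MvPowerSeries (Option σ) k₀)ˣ) : MvPowerSeries (Option σ) k₀)
    rw [h4, zero_mul, Units.mul_inv] at h5
    have h6 := clsEv_C y hy (1 : k₀)
    rw [map_one, map_one, h5] at h6
    exact zero_ne_one h6
  exact sub_eq_zero.mp ((mul_eq_zero.mp hv).resolve_right h3)

theorem cls_isHomS_OO (α : ClsEnd p n h k₀) :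
    IsHomS p n (Gam h) (Gam h) (α.1.map (clsHom k₀ K)) := by
  have h1 := cls_isHomS_map (clsHom k₀ K) α.2
  rw [cls_Gam_map] at h1
  exact h1

variable (K) in
/-- the action on points -/
noncomputable def clsAct (α : ClsEnd p n h k₀) :
    FPt p n (Gam h : ℕ → OO K) →+ FPt p n (Gam h : ℕ → OO K) :=
  FPt.hom (α.1.map (clsHom k₀ K)) (cls_isHomS_OO α)

/-- the coordinate in the field -/
def clsVal (x : FPt p n (Gam h : ℕ → OO K)) : K := (x.1 : K)

theorem clsVal_lt (x : FPt p n (Gam h : ℕ → OO K)) : ‖clsVal x‖ < 1 := cls_pt_lt x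

theorem clsVal_add (k₀ : Type*) [Field k₀] [Algebra k₀ K] [ClsFix p h k₀ K]
    (x y : FPt p n (Gam h : ℕ → OO K)) :
    clsVal (x + y) = clsEv ![clsVal x, clsVal y] (Fv p n (Gam h : ℕ → k₀)) := cls_add_val k₀ x y

theorem clsVal_zero : clsVal (0 : FPt p n (Gam h : ℕ → OO K)) = 0 := rfl

theorem clsVal_ext {x y : FPt p n (Gam h : ℕ → OO K)} (hxy : clsVal x = clsVal y) : x = y :=
  Subtype.ext (Subtype.ext hxy)

/-- constructor -/
def clsMk (x : K) (hx : ‖x‖ < 1) : FPt p n (Gam h : ℕ → OO K) :=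
  ⟨⟨x, hx.le⟩, (tn_iff_norm_lt_one (⟨x, hx.le⟩ : OO K)).mpr hx⟩

theorem clsMk_val (x : K) (hx : ‖x‖ < 1) :
    clsVal (clsMk x hx : FPt p n (Gam h : ℕ → OO K)) = x := rfl

theorem clsAct_val (α : ClsEnd p n h k₀) (x : FPt p n (Gam h : ℕ → OO K)) :
    clsVal (clsAct K α x) = clsEv (fun _ : Unit => clsVal x) α.1 := by
  rw [clsVal, clsAct, FPt.hom_val, ev1_def]
  exact cls_bridge _ _ fun _ => cls_pt_lt x

/-- the formal identity `H(Y + Y') = H(Y) + H(Y')` -/
def ClsAddl (p n h : ℕ) [Fact p.Prime] (H : MvPowerSeries σ k₀) : Prop :=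
  subst (clsPair (Fv p n (Gam h : ℕ → k₀))) H =
      subst ![subst (fun s : σ => (X (Sum.inl s) : MvPowerSeries (σ ⊕ σ) k₀)) H,
        subst (fun s : σ => (X (Sum.inr s) : MvPowerSeries (σ ⊕ σ) k₀)) H]
        (Fv p n (Gam h : ℕ → k₀))

include p h in
/-- evaluation of the right-hand side of the additivity -/
theorem cls_rhs (H : MvPowerSeries σ k₀) (h0 : constantCoeff H = 0) (y y' : σ → K)
    (hy : ∀ s, ‖y s‖ < 1) (hy' : ∀ s, ‖y' s‖ < 1) (F : MvPowerSeries (Fin 2) k₀) :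
    clsEv (Sum.elim y y')
      (subst ![subst (fun s : σ => (X (Sum.inl s) : MvPowerSeries (σ ⊕ σ) k₀)) H,
        subst (fun s : σ => (X (Sum.inr s) : MvPowerSeries (σ ⊕ σ) k₀)) H] F) =
      clsEv ![clsEv y H, clsEv y' H] F := by
  have hyt := cls_sumElim_lt _ hy _ hy'
  have hl : constantCoeff
      (subst (fun s : σ => (X (Sum.inl s) : MvPowerSeries (σ ⊕ σ) k₀)) H) = 0 := by
    rw [cls_constantCoeff_subst _ fun s => constantCoeff_X _, h0]
  have hr : constantCoeff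
      (subst (fun s : σ => (X (Sum.inr s) : MvPowerSeries (σ ⊕ σ) k₀)) H) = 0 := by
    rw [cls_constantCoeff_subst _ fun s => constantCoeff_X _, h0]
  rw [clsEv_subst _ hyt _ (fun i => by fin_cases i; exacts [hl, hr])]
  congr 1
  funext i
  fin_cases i
  · change clsEv _ (subst _ H) = clsEv y H
    rw [clsEv_subst _ hyt _ fun s => constantCoeff_X _]
    congr 1
    funext s
    exact clsEv_X _ hyt (Sum.inl s)
  · change clsEv _ (subst _ H) = clsEv y' H
    rw [clsEv_subst _ hyt _ fun s => constantCoeff_X _]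
    congr 1
    funext s
    exact clsEv_X _ hyt (Sum.inr s)

theorem cls_hmap_add (H : MvPowerSeries σ k₀) (h0 : constantCoeff H = 0)
    (hH : ClsAddl p n h H) (y y' : σ → FPt p n (Gam h : ℕ → OO K)) :
    clsEv (fun s => clsVal (y s + y' s)) H =
      clsEv ![clsEv (fun s => clsVal (y s)) H, clsEv (fun s => clsVal (y' s)) H]
        (Fv p n (Gam h : ℕ → k₀)) := by
  simp only [clsVal_add k₀]
  have hy : ∀ s, ‖clsVal (y s)‖ < 1 := fun s => clsVal_lt (y s)
  have hy' : ∀ s, ‖clsVal (y' s)‖ < 1 := fun s => clsVal_lt (y' s)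
  rw [← clsEv_law (Fv p n (Gam h : ℕ → k₀)) (Fv_constantCoeff p n _) H _ _ hy hy', hH,
    cls_rhs H h0 _ _ hy hy']

/-- the homomorphism on points given by a series `H` with `H(Y + Y') = H(Y) + H(Y')` -/
noncomputable def clsHmap (H : MvPowerSeries σ k₀) (h0 : constantCoeff H = 0)
    (hH : ClsAddl p n h H) :
    (σ → FPt p n (Gam h : ℕ → OO K)) →+ FPt p n (Gam h : ℕ → OO K) :=
  AddMonoidHom.mk' (fun y => clsMk (clsEv (fun s => clsVal (y s)) H)
      (clsEv_norm_lt_one _ (fun s => clsVal_lt (y s)) H h0)) (by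
    intro y y'
    apply clsVal_ext
    rw [clsVal_add k₀, clsMk_val, clsMk_val, clsMk_val]
    exact cls_hmap_add H h0 hH y y')

theorem clsHmap_val (H : MvPowerSeries σ k₀) (h0 : constantCoeff H = 0) (hH : ClsAddl p n h H)
    (y : σ → FPt p n (Gam h : ℕ → OO K)) :
    clsVal (clsHmap H h0 hH y) = clsEv (fun s => clsVal (y s)) H := rfl

/-- the restriction to a coordinate axis -/
noncomputable def clsAxis [DecidableEq σ] (H : MvPowerSeries σ k₀) (h0 : constantCoeff H = 0)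
    (hH : ClsAddl p n h H) (i : σ) : ClsEnd p n h k₀ :=
  ⟨subst (fun s : σ => if s = i then (PowerSeries.X : PowerSeries k₀) else 0) H,
    cls_hom_single H h0 hH i⟩

theorem clsHmap_single [DecidableEq σ] (H : MvPowerSeries σ k₀) (h0 : constantCoeff H = 0)
    (hH : ClsAddl p n h H) (i : σ) (x : FPt p n (Gam h : ℕ → OO K)) :
    clsHmap H h0 hH (Pi.single i x) = clsAct K (clsAxis H h0 hH i) x := by
  apply clsVal_ext
  have hx : ∀ _ : Unit, ‖clsVal x‖ < 1 := fun _ => clsVal_lt x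
  rw [clsHmap_val, clsAct_val]
  change _ = clsEv _ (subst (fun s : σ => if s = i then (X () : MvPowerSeries Unit k₀) else 0) H)
  rw [clsEv_subst _ hx _ fun s => by split_ifs; exacts [constantCoeff_X _, map_zero _]]
  congr 1
  funext s
  by_cases hs : s = i
  · subst hs
    rw [if_pos rfl, Pi.single_eq_same, clsEv_X _ hx]
  · rw [if_neg hs, Pi.single_eq_of_ne hs, clsEv_zero _ hx, clsVal_zero]

theorem clsAct_inv (x : FPt p n (Gam h : ℕ → OO K)) :
    clsAct K (⟨invS p n (Gam h), cls_isHomS_inv⟩ : ClsEnd p n h k₀) x = -x := by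
  apply Subtype.ext
  rw [FPt.neg_val]
  change ev1 ((invS p n (Gam h : ℕ → k₀)).map (clsHom k₀ K)) x.1 = _
  rw [cls_invS_map, cls_Gam_map]

/-- the relation series is additive -/
theorem cls_additive (hn : h ≤ n)
    (Λ : AddSubgroup (Option σ → FPt p n (Gam h : ℕ → OO K)))
    (hinj : ∀ f : MvPowerSeries σ k₀, (∀ ν ∈ Λ, clsEv (fun s => clsVal (ν (some s))) f = 0) →
      f = 0)
    (H : MvPowerSeries σ k₀) (h0 : constantCoeff H = 0)
    (hpt : ∀ ν ∈ Λ, clsVal (ν none) = clsEv (fun s => clsVal (ν (some s))) H) :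
    ClsAddl p n h H := by
  let Λ' : AddSubgroup (σ → FPt p n (Gam h : ℕ → OO K)) :=
    Λ.map (AddMonoidHom.mk' (fun ν : Option σ → FPt p n (Gam h : ℕ → OO K) =>
      fun s => ν (some s)) fun _ _ => rfl)
  have hS := cls_stable k₀ hn Λ'
  have hmem : ∀ y ∈ clsPts Λ', ∃ ν ∈ Λ, y = fun s => clsVal (ν (some s)) := by
    rintro y ⟨ν', ⟨ν, hν, rfl⟩, rfl⟩
    exact ⟨ν, hν, rfl⟩
  have hmem' : ∀ ν ∈ Λ, (fun s => clsVal (ν (some s))) ∈ clsPts Λ' :=
    fun ν hν => ⟨fun s => ν (some s), ⟨ν, hν, rfl⟩, rfl⟩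
  have hinj' : ∀ f : MvPowerSeries σ k₀, (∀ y ∈ clsPts Λ', clsEv y f = 0) → f = 0 :=
    fun f hf => hinj f fun ν hν => hf _ (hmem' ν hν)
  rw [ClsAddl, ← sub_eq_zero]
  refine cls_double (p := p) (h := h) (clsPts Λ') (clsPts Λ') hS.lt hS.lt hS.frob hinj' hinj' _
    fun y hy t ht => ?_
  obtain ⟨ν, hν, rfl⟩ := hmem y hy
  obtain ⟨ν', hν', rfl⟩ := hmem t ht
  have hy : ∀ s, ‖clsVal (ν (some s))‖ < 1 := fun s => clsVal_lt _
  have hy' : ∀ s, ‖clsVal (ν' (some s))‖ < 1 := fun s => clsVal_lt _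
  have hyt := cls_sumElim_lt _ hy _ hy'
  rw [clsEv_sub _ hyt, clsEv_law _ (Fv_constantCoeff p n _) H _ _ hy hy',
    cls_rhs H h0 _ _ hy hy', sub_eq_zero]
  have h4 := hpt _ (Λ.add_mem hν hν')
  have h5 : (fun s => clsVal ((ν + ν') (some s))) =
      fun s => clsEv ![clsVal (ν (some s)), clsVal (ν' (some s))]
        (Fv p n (Gam h : ℕ → k₀)) :=
    funext fun s => clsVal_add k₀ _ _
  rw [h5] at h4
  rw [← h4, Pi.add_apply, clsVal_add k₀, hpt ν hν, hpt ν' hν']

/-- the step with a distinguished variable -/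
theorem cls_step [Fintype σ] [DecidableEq σ] (hn : h ≤ n)
    (Λ : AddSubgroup (Option σ → FPt p n (Gam h : ℕ → OO K)))
    (hinj : ∀ f : MvPowerSeries σ k₀, (∀ ν ∈ Λ, clsEv (fun s => clsVal (ν (some s))) f = 0) →
      f = 0)
    (Ψ : MvPowerSeries (Option σ) k₀) (hΨ : ∀ ν ∈ Λ, clsEv (fun s => clsVal (ν s)) Ψ = 0)
    (h1 : coeff (Finsupp.single none 1) Ψ ≠ 0) :
    ∃ α : Option σ → ClsEnd p n h k₀, (∃ i, (α i).1 ≠ 0) ∧
      ∀ ν ∈ Λ, ∑ i, clsAct K (α i) (ν i) = 0 := by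
  have h0 : constantCoeff Ψ = 0 := by
    have h2 := hΨ 0 Λ.zero_mem
    have h3 := clsEv_at_zero (K := K) Ψ
    have h4 : (fun s : Option σ => clsVal ((0 : Option σ → FPt p n (Gam h : ℕ → OO K)) s)) =
      fun _ => 0 := rfl
    rw [h4, h3] at h2
    exact (map_eq_zero (algebraMap k₀ K)).mp h2
  obtain ⟨H, hH0, hH⟩ := cls_ift_point (K := K) (p := p) (h := h) Ψ h0 h1
  have hpt : ∀ ν ∈ Λ, clsVal (ν none) = clsEv (fun s => clsVal (ν (some s))) H :=
    fun ν hν => hH (fun s => clsVal (ν s)) (fun s => clsVal_lt (ν s)) (hΨ ν hν)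
  have hHom := cls_additive hn Λ hinj H hH0 hpt
  refine ⟨fun o => o.elim ⟨invS p n (Gam h), cls_isHomS_inv⟩ (clsAxis H hH0 hHom), ⟨none, ?_⟩, ?_⟩
  · change invS p n (Gam h : ℕ → k₀) ≠ 0
    intro h6
    have h7 := Fv_inv (R := k₀) p n (Gam h)
    rw [h6, Fv_X_zero] at h7
    exact PowerSeries.X_ne_zero h7
  · intro ν hν
    rw [Fintype.sum_option]
    change clsAct K ⟨invS p n (Gam h), cls_isHomS_inv⟩ (ν none) +
      ∑ i, clsAct K (clsAxis H hH0 hHom i) (ν (some i)) = 0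
    have h8 : ∑ i, clsAct K (clsAxis H hH0 hHom i) (ν (some i)) =
        clsHmap H hH0 hHom (fun s => ν (some s)) := by
      simp only [← clsHmap_single]
      rw [← map_sum, Finset.univ_sum_single]
    have h9 : clsHmap H hH0 hHom (fun s => ν (some s)) = ν none := by
      apply clsVal_ext
      rw [clsHmap_val, hpt ν hν]
    rw [h8, h9, clsAct_inv, neg_add_cancel]

end

end Vale.Agent.P217
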