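import Vale.Agent.P217.Homs
import Vale.Agent.P217.ClosureK

/-!
# P217: the closure lemma (module group J; helper99)

If a nonzero `G ∈ K[[λ_1..λ_m]]` vanishes asymptotically along the Frobenius sequences of all
points of a subgroup `Λ ⊆ Γ_h(m_K)^m`, then there is a nontrivial relation
`∑ α_i ν_i = 0` on `Λ` with `α_i` endomorphisms of `Γ_h` over `F_q`, `q = p^h`.
-/

namespace Vale.Agent.P217

open MvPowerSeries

section

variable {p h n : ℕ} [Fact p.Prime] {k₀ K : Type*} [Field k₀] [NormedField K]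
  [IsUltrametricDist K] [CompleteSpace K] [Algebra k₀ K] [ClsFix p h k₀ K]

theorem clsAct_zero (x : FPt p n (Gam h : ℕ → OO K)) :
    clsAct K (⟨0, cls_isHomS_zero⟩ : ClsEnd p n h k₀) x = 0 := by
  apply clsVal_ext
  rw [clsAct_val, clsEv_zero _ fun _ => clsVal_lt x, clsVal_zero]

/-- The induction on the number of variables. -/
theorem cls_main (hn : h ≤ n) (m : ℕ) : ∀ (Λ : AddSubgroup (Fin m → FPt p n (Gam h : ℕ → OO K)))
    (f : MvPowerSeries (Fin m) k₀), f ≠ 0 →
    (∀ ν ∈ Λ, clsEv (fun s => clsVal (ν s)) f = 0) →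
    ∃ α : Fin m → ClsEnd p n h k₀, (∃ i, (α i).1 ≠ 0) ∧
      ∀ ν ∈ Λ, ∑ i, clsAct K (α i) (ν i) = 0 := by
  induction m with
  | zero =>
    intro Λ f hf hv
    exfalso
    apply hf
    have h2 := hv 0 Λ.zero_mem
    have h3 : (fun s : Fin 0 => clsVal ((0 : Fin 0 → FPt p n (Gam h : ℕ → OO K)) s)) =
      fun _ => 0 := rfl
    rw [h3, clsEv_at_zero] at h2
    have h4 := (map_eq_zero (algebraMap k₀ K)).mp h2
    refine MvPowerSeries.ext fun d => ?_
    rw [Subsingleton.elim d 0, coeff_zero_eq_constantCoeff_apply, h4, coeff_zero]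
  | succ m ih =>
    intro Λ f hf hv
    have hS := cls_stable k₀ hn Λ
    obtain ⟨g, hg, j, hj⟩ := cls_exists_linear (cls_law p n (Gam h)) hS f hf (by
      rintro y ⟨ν, hν, rfl⟩
      exact hv ν hν)
    have hgv : ∀ ν ∈ Λ, clsEv (fun s => clsVal (ν s)) g = 0 := fun ν hν => hg _ ⟨ν, hν, rfl⟩
    by_cases hcase : ∀ f' : MvPowerSeries (Fin m) k₀,
        (∀ ν ∈ Λ, clsEv (fun s => clsVal (ν (j.succAbove s))) f' = 0) → f' = 0
    · -- the distinguished variable
      let e : Fin (m + 1) ≃ Option (Fin m) := finSuccEquiv' j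
      let r : (Fin (m + 1) → FPt p n (Gam h : ℕ → OO K)) →+
          (Option (Fin m) → FPt p n (Gam h : ℕ → OO K)) :=
        AddMonoidHom.mk' (fun ν => fun o => ν (e.symm o)) fun _ _ => rfl
      have hX : ∀ s : Fin (m + 1), constantCoeff (X (e s) : MvPowerSeries (Option (Fin m)) k₀) = 0 :=
        fun s => constantCoeff_X _
      have hcoef : coeff (Finsupp.single none 1)
          (subst (fun s => (X (e s) : MvPowerSeries (Option (Fin m)) k₀)) g) =
            coeff (Finsupp.single j 1) g := by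
        have h5 : rename e.toEmbedding g =
            subst (fun s => (X (e s) : MvPowerSeries (Option (Fin m)) k₀)) g := rename_eq_subst _ _
        rw [← h5]
        have h6 := coeff_embDomain_rename e.toEmbedding g (Finsupp.single j 1)
        rw [Finsupp.embDomain_single] at h6
        have h7 : e.toEmbedding j = none := finSuccEquiv'_at j
        rw [h7] at h6
        exact h6
      obtain ⟨α, ⟨i₀, hi₀⟩, hα⟩ := cls_step hn (Λ.map r) (fun f' hf' => hcase f' fun ν hν => by
          have h8 := hf' (r ν) ⟨ν, hν, rfl⟩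
          have h9 : (fun s => clsVal ((r ν) (some s))) = fun s => clsVal (ν (j.succAbove s)) := by
            funext s
            change clsVal (ν (e.symm (some s))) = _
            rw [show e.symm (some s) = j.succAbove s from finSuccEquiv'_symm_some j s]
          rw [h9] at h8
          exact h8)
        (subst (fun s => (X (e s) : MvPowerSeries (Option (Fin m)) k₀)) g) (by
          rintro ν' ⟨ν, hν, rfl⟩
          have hlt : ∀ s, ‖clsVal ((r ν) s)‖ < 1 := fun s => clsVal_lt _
          rw [clsEv_subst _ hlt _ hX, ← hgv ν hν]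
          congr 1
          funext s
          rw [clsEv_X _ hlt]
          change clsVal (ν (e.symm (e s))) = _
          rw [Equiv.symm_apply_apply])
        (by rw [hcoef]; exact hj)
      refine ⟨fun s => α (e s), ⟨e.symm i₀, by
        change (α (e (e.symm i₀))).ser ≠ 0
        rw [Equiv.apply_symm_apply]; exact hi₀⟩,
        fun ν hν => ?_⟩
      rw [← hα (r ν) ⟨ν, hν, rfl⟩]
      refine Fintype.sum_equiv e _ _ fun s => ?_
      change _ = clsAct K (α (e s)) (ν (e.symm (e s)))
      rw [Equiv.symm_apply_apply]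
    · push Not at hcase
      obtain ⟨f', hf', hf'0⟩ := hcase
      let r : (Fin (m + 1) → FPt p n (Gam h : ℕ → OO K)) →+
          (Fin m → FPt p n (Gam h : ℕ → OO K)) :=
        AddMonoidHom.mk' (fun ν => fun o => ν (j.succAbove o)) fun _ _ => rfl
      obtain ⟨α, ⟨i₀, hi₀⟩, hα⟩ := ih (Λ.map r) f' hf'0 (by
        rintro ν' ⟨ν, hν, rfl⟩
        exact hf' ν hν)
      refine ⟨j.insertNth ⟨0, cls_isHomS_zero⟩ α, ⟨j.succAbove i₀, ?_⟩, fun ν hν => ?_⟩
      · rw [Fin.insertNth_apply_succAbove]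
        exact hi₀
      · rw [Fin.sum_univ_succAbove _ j, Fin.insertNth_apply_same, clsAct_zero, zero_add]
        simp only [Fin.insertNth_apply_succAbove]
        exact hα (r ν) ⟨ν, hν, rfl⟩

end

/-- the fixed field of the `q`-Frobenius -/
noncomputable def clsFixed (K : Type*) [Field K] (p h : ℕ) [Fact p.Prime] [CharP K p] :
    Subfield K :=
  RingHom.eqLocusField (iterateFrobenius K p h) (RingHom.id K)

theorem mem_clsFixed {K : Type*} [Field K] {p h : ℕ} [Fact p.Prime] [CharP K p] (x : K) :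
    x ∈ clsFixed K p h ↔ x ^ p ^ h = x := by
  change iterateFrobenius K p h x = x ↔ _
  rw [iterateFrobenius_def]

theorem clsFixed_fix {K : Type*} [Field K] {p h : ℕ} [hp : Fact p.Prime] [hK : CharP K p]
    (hh : 1 ≤ h) : ClsFix p h (clsFixed K p h) K where
  prime := hp.out
  charP := hK
  pos := hh
  fix := fun a => Subtype.ext ((mem_clsFixed (a : K)).mp a.2)
  mem := fun x hx => ⟨⟨x, (mem_clsFixed x).mpr hx⟩, rfl⟩

theorem closure_relation {K : Type*} [NormedField K] [IsUltrametricDist K] [CompleteSpace K]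
    {p n h m : ℕ} [Fact p.Prime] [CharP K p] (hh : 1 ≤ h) (hn : h ≤ n)
    (Λ : AddSubgroup (Fin m → FPt p n (Gam h : ℕ → OO K)))
    (G : MvPowerSeries (Fin m) K) (hG : G ≠ 0)
    (hv : ∀ ν ∈ Λ, AV (p ^ h) (fun i => ((ν i).1 : K)) G) :
    ∃ (α : Fin m → PowerSeries (OO K)) (hα : ∀ i, IsHomS p n (Gam h) (Gam h) (α i)),
      (∃ i, α i ≠ 0) ∧
      (∀ i d, (PowerSeries.coeff d (α i)) ^ (p ^ h) = PowerSeries.coeff d (α i)) ∧
      ∀ ν ∈ Λ, ∑ i, FPt.hom (α i) (hα i) (ν i) = 0 := by
  have := clsFixed_fix (K := K) (p := p) hh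
  obtain ⟨L, hL⟩ := clsMap_ne_zero (k₀ := clsFixed K p h) G hG
  obtain ⟨α, ⟨i₀, hi₀⟩, hα⟩ := cls_main hn m Λ (clsMap L G) hL fun ν hν =>
    cls_ratSeries G _ (hv ν hν) L
  refine ⟨fun i => (α i).1.map (clsHom (clsFixed K p h) K), fun i => cls_isHomS_OO (α i),
    ⟨i₀, fun h0 => hi₀ ?_⟩, fun i d => ?_, hα⟩
  · have hinj : Function.Injective (clsHom (clsFixed K p h) K) :=
      (clsHom (clsFixed K p h) K).injective
    have h1 : (α i₀).ser.map (clsHom (clsFixed K p h) K) = 0 := h0
    refine PowerSeries.ext fun d => hinj ?_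
    rw [← PowerSeries.coeff_map, h1, map_zero, map_zero, map_zero]
  · rw [PowerSeries.coeff_map, ← map_pow, ClsFix.fix (p := p) (h := h) (K := K)]

end Vale.Agent.P217
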