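import Vale.Agent.P217.Base

/-!
# P217: gradient formula (modules JC1, JC2; helper81)
-/

namespace Vale.Agent.P217

open MvPowerSeries Filter Topology
open scoped MvPowerSeries.WithPiTopology

variable {p h m : ℕ} [Fact p.Prime]
variable {K L : Type*} [NormedField K] [NormedField L] [IsUltrametricDist K] [IsUltrametricDist L]
  [CharP K p] [PerfectRing K p] [CompleteSpace K] [CompleteSpace L]

theorem pjc_charP_OO (p : ℕ) (K : Type*) [NormedField K] [IsUltrametricDist K] [CharP K p] :
    CharP (OO K) p := RingHom.charP (OO K).subtype (OO K).subtype_injective p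

theorem pjc_charP_mv (p m : ℕ) (K : Type*) [NormedField K] [IsUltrametricDist K] [CharP K p] :
    CharP (MvPowerSeries (Fin m) (OO K)) p := by
  have := pjc_charP_OO p K
  exact charP_of_injective_ringHom (C_injective (σ := Fin m) (R := OO K)) p

theorem pjc_coeff_mul {R : Type*} [CommRing R] (j : Fin m) (f g : MvPowerSeries (Fin m) R) :
    coeff (Finsupp.single j 1) (f * g) =
      constantCoeff f * coeff (Finsupp.single j 1) g +
        coeff (Finsupp.single j 1) f * constantCoeff g := by
  classical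
  rw [coeff_mul, Finsupp.antidiagonal_single, Finset.sum_map, Finset.Nat.antidiagonal_succ]
  simp [Function.Embedding.prodMap]

theorem pjc_coeff_sq {R : Type*} [CommRing R] (I : Ideal R) (j : Fin m)
    {f : MvPowerSeries (Fin m) R}
    (hf : f ∈ (I.comap (constantCoeff (σ := Fin m) (R := R))) ^ 2) :
    coeff (Finsupp.single j 1) f ∈ I := by
  rw [pow_two] at hf
  refine Submodule.mul_induction_on hf ?_ ?_
  · intro a ha b hb
    rw [pjc_coeff_mul]
    exact I.add_mem (I.mul_mem_right _ (Ideal.mem_comap.1 ha)) (I.mul_mem_left _ (Ideal.mem_comap.1 hb))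
  · intro a b ha hb
    rw [map_add]
    exact I.add_mem ha hb

theorem pjc_parX_zero (a : Fin m → OO L) {j : ℕ} (hj : j < h) : parX h m a j = 0 := by
  unfold parX par
  rw [dif_neg (by omega), if_neg (by omega)]

theorem pjc_parX_top (a : Fin m → OO L) : parX h m a (h + m) = 1 := by
  unfold parX par
  rw [dif_neg (by omega), if_pos rfl]

theorem pjc_parX_mid (a : Fin m → OO L) (k : Fin m) :
    parX h m a (h + k) = C (a k) + X k := by
  unfold parX par
  have hk := k.2
  rw [dif_pos ⟨by omega, by omega⟩]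
  have : (⟨h + (k : ℕ) - h, by omega⟩ : Fin m) = k := Fin.ext (by simp)
  rw [this]

theorem pjc_tn_pow {R : Type*} [CommRing R] [TopologicalSpace R] [IsLinearTopology R R] {x : R}
    (hx : IsTopologicallyNilpotent x) {k : ℕ} (hk : k ≠ 0) : IsTopologicallyNilpotent (x ^ k) := by
  obtain ⟨l, rfl⟩ := Nat.exists_eq_succ_of_ne_zero hk
  rw [pow_succ]
  exact hx.mul_left _

/-- JC2 -/
theorem pjc_Hs_coeff {a : Fin m → OO L} {ρ : ℝ} (D : Dt p h m a ρ) (j : Fin m) (i : ℕ)
    (hi : i < p ^ m) :
    ‖((coeff (Finsupp.single j 1) (PowerSeries.coeff i (US p (h + m) h (parX h m a))) -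
      (if i = p ^ (j : ℕ) then 1 else 0) : OO L) : L)‖ ≤ ρ := by
  have hp : p.Prime := Fact.out
  have hm : ∀ k, h ≤ k → k < h + m → parX h m a k ∈ ballX L m ρ D.rho_nonneg := by
    intro k hk1 hk2
    obtain ⟨k', rfl⟩ : ∃ k', k = h + k' := ⟨k - h, by omega⟩
    have e : parX h m a (h + k') = C (a ⟨k', by omega⟩) + X ⟨k', by omega⟩ :=
      pjc_parX_mid a ⟨k', by omega⟩
    rw [e]
    refine Ideal.mem_comap.2 ?_
    rw [map_add, constantCoeff_C, constantCoeff_X, add_zero]
    exact D.a_le _
  have h1 := US_coeff_mod_sq (p := p) (n := h + m) (h := h) (v := parX h m a) (by omega)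
    (ballX L m ρ D.rho_nonneg) hm (pjc_parX_top a) i (by
      have : h + m - h = m := by omega
      rw [this]; exact hi)
  have h2 := pjc_coeff_sq (ballI L ρ D.rho_nonneg) j h1
  rw [map_sub] at h2
  have e : coeff (Finsupp.single j 1) (if i = p ^ Nat.log p i then
      parX h m a (h + Nat.log p i) else 0 : MvPowerSeries (Fin m) (OO L)) =
      (if i = p ^ (j : ℕ) then 1 else 0) := by
    by_cases hk : i = p ^ Nat.log p i
    · have hkm : Nat.log p i < m := by
        have : p ^ Nat.log p i < p ^ m := by rw [← hk]; exact hi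
        exact (Nat.pow_lt_pow_iff_right hp.one_lt).1 this
      rw [if_pos hk]
      have e1 := pjc_parX_mid (h := h) a ⟨Nat.log p i, hkm⟩
      have e1' : parX h m a (h + Nat.log p i) = C (a ⟨Nat.log p i, hkm⟩) + X ⟨Nat.log p i, hkm⟩ := e1
      rw [e1', map_add, coeff_X]
      have e2 : coeff (Finsupp.single j 1) (C (a ⟨Nat.log p i, hkm⟩) :
          MvPowerSeries (Fin m) (OO L)) = 0 := by
        classical
        rw [coeff_C, if_neg]
        simp
      rw [e2, zero_add]
      congr 1
      rw [eq_iff_iff]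
      constructor
      · intro hs
        have h3 := Finsupp.single_left_injective (one_ne_zero) hs
        rw [hk, h3]
      · intro hs
        have h3 : Nat.log p i = (j : ℕ) := by rw [hs]; exact Nat.log_pow hp.one_lt _
        congr 1
        exact Fin.ext h3.symm
    · rw [if_neg hk, map_zero, if_neg]
      intro hs
      apply hk
      rw [hs, Nat.log_pow hp.one_lt]
  rw [e] at h2
  exact h2

/-- JC1 -/
theorem pjc_grad_p_smul {a : Fin m → OO K} {ρ : ℝ} (D : Dt p h m a ρ)
    (S : SharpData p K K) (x : FPt p (h + m) (Gam (h + m) : ℕ → OO K)) (j : Fin m) :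
    grad D S (p • x) j = ev1 (PowerSeries.mk fun i => coeff (Finsupp.single j 1)
      (PowerSeries.coeff i (US p (h + m) h (parX h m a)))) ((pra D S x).1 ^ (p ^ h)) := by
  have hp : p.Prime := Fact.out
  have hc1 := pjc_charP_OO p K
  have hc2 := pjc_charP_mv p m K
  have hq : p ^ h ≠ 0 := pow_ne_zero _ hp.ne_zero
  have hq0 : p ^ h ≠ 1 := (Nat.one_lt_pow (by have := D.h_pos; omega) hp.one_lt).ne'
  have h1 : Lam D S (p • x) = ev1 (US p (h + m) h (parX h m a)) ((Lam D S x) ^ (p ^ h)) := by
    unfold Lam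
    rw [map_nsmul]
    exact FPt.p_smul_val_US D.h_pos (by omega) (fun j _ hj => pjc_parX_zero a hj) _
  unfold grad
  rw [h1]
  obtain ⟨y, hy⟩ : ∃ y, y = Lam D S x := ⟨_, rfl⟩
  have hy0 : constantCoeff y = (pra D S x).1 := by rw [hy]; exact Lam_constantCoeff D S x
  have hytn : IsTopologicallyNilpotent y := by rw [hy]; exact (praX D S x).2
  rw [← hy]
  have hytn' : PowerSeries.HasEval (y ^ (p ^ h)) := pjc_tn_pow hytn hq
  have htn : PowerSeries.HasEval ((pra D S x).1 ^ (p ^ h)) :=
    pjc_tn_pow (pra D S x).2 hq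
  have s1 := PowerSeries.hasSum_eval₂ (φ := RingHom.id _) continuous_id hytn'
    (US p (h + m) h (parX h m a))
  have s2 := s1.map (coeff (R := OO K) (Finsupp.single j 1)).toAddMonoidHom
    (WithPiTopology.continuous_coeff (OO K) (Finsupp.single j 1))
  have s3 := PowerSeries.hasSum_eval₂ (φ := RingHom.id _) continuous_id htn
    (PowerSeries.mk fun i => coeff (Finsupp.single j 1)
      (PowerSeries.coeff i (US p (h + m) h (parX h m a))))
  have : ExpChar (OO K) p := ExpChar.prime hp
  have e1 : ∀ d : ℕ, coeff (Finsupp.single j 1) ((y ^ (p ^ h)) ^ d) = 0 := by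
    intro d
    have e0 : (y ^ (p ^ h)) ^ d = (y ^ d) ^ (p ^ h) := by rw [← pow_mul, ← pow_mul, mul_comm]
    rw [e0, ← map_iterateFrobenius_expand p hp.ne_zero (y ^ d) h, coeff_map,
      coeff_expand_of_not_dvd (i := j), map_zero]
    rw [Finsupp.single_eq_same, Nat.dvd_one]
    exact hq0
  have e2 : (⇑(coeff (R := OO K) (Finsupp.single j 1)).toAddMonoidHom ∘ fun d =>
      (RingHom.id (MvPowerSeries (Fin m) (OO K)))
        ((PowerSeries.coeff d) (US p (h + m) h (parX h m a))) * (y ^ p ^ h) ^ d) =
      fun d => (RingHom.id (OO K)) ((PowerSeries.coeff d) (PowerSeries.mk fun i =>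
        coeff (Finsupp.single j 1) (PowerSeries.coeff i (US p (h + m) h (parX h m a))))) *
        ((pra D S x).1 ^ (p ^ h)) ^ d := by
    funext d
    simp only [Function.comp_apply, LinearMap.toAddMonoidHom_coe, RingHom.id_apply,
      PowerSeries.coeff_mk]
    rw [pjc_coeff_mul, e1, mul_zero, zero_add, map_pow, map_pow, hy0]
  rw [e2] at s2
  exact s2.unique s3

end Vale.Agent.P217
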