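import Vale.Agent.P217.PRT

/-!
# P217: roots of power series over the unit ball of an algebraically closed field (RT1, RT2, RT3)

Weierstrass preparation with respect to the ideal `(π)`, `π` in the open ball.
-/

namespace Vale.Agent.P217

open Filter Topology

variable {L : Type*} [NormedField L] [IsUltrametricDist L] [CompleteSpace L]

/-- RT1: a root in the open ball. -/
theorem exists_root [IsAlgClosed L] (f : PowerSeries (OO L)) {d : ℕ} (hd : 1 ≤ d)
    (hlt : ∀ i, i < d → ‖((PowerSeries.coeff i f : OO L) : L)‖ < 1)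
    (heq : ‖((PowerSeries.coeff d f : OO L) : L)‖ = 1) :
    ∃ x : OO L, ‖(x : L)‖ < 1 ∧ ev1 f x = 0 := by
  exact exists_root' f hd hlt heq

/-- RT2: `d` distinct roots in the open ball if the derivative does not vanish at the roots. -/
theorem exists_roots [IsAlgClosed L] (f : PowerSeries (OO L)) {d : ℕ}
    (hlt : ∀ i, i < d → ‖((PowerSeries.coeff i f : OO L) : L)‖ < 1)
    (heq : ‖((PowerSeries.coeff d f : OO L) : L)‖ = 1)
    (hder : ∀ x : OO L, ‖(x : L)‖ < 1 → ev1 f x = 0 → ev1 (PowerSeries.derivative (OO L) f) x ≠ 0) :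
    ∃ s : Fin d → OO L, Function.Injective s ∧ (∀ i, ‖(s i : L)‖ < 1) ∧ ∀ i, ev1 f (s i) = 0 := by
  exact exists_roots' f hlt heq hder

/-- RT3: a power series vanishing at `d` distinct points of the open ball has its first `d`
coefficients in the open ball (divide successively by `Y - s_i`). -/
theorem coeff_lt_one_of_roots (f : PowerSeries (OO L)) {d : ℕ} (s : Fin d → OO L)
    (hs : Function.Injective s) (h1 : ∀ i, ‖(s i : L)‖ < 1) (h0 : ∀ i, ev1 f (s i) = 0) (i : ℕ)
    (hi : i < d) : ‖((PowerSeries.coeff i f : OO L) : L)‖ < 1 := by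
  exact coeff_lt_one_of_roots' f s hs h1 h0 i hi

end Vale.Agent.P217
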