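import Vale.Agent.P217.Base
import Vale.Agent.P217.Roots

/-!
# P217: surjectivity of `pr_a` (modules SJ1, SJ2)
-/

namespace Vale.Agent.P217

open MvPowerSeries Filter Topology
open scoped MvPowerSeries.WithPiTopology

variable {p h m : ℕ} [Fact p.Prime]
variable {K L : Type*} [NormedField K] [NormedField L] [IsUltrametricDist K] [IsUltrametricDist L]
  [CharP K p] [PerfectRing K p] [CompleteSpace K] [CompleteSpace L]

omit [CompleteSpace L] in
theorem sj_norm_sub_lt {x y : L} (hx : ‖x‖ < 1) (hy : ‖y‖ < 1) : ‖x - y‖ < 1 :=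
  lt_of_le_of_lt (by
    have := IsUltrametricDist.norm_add_le_max x (-y)
    rwa [← sub_eq_add_neg, norm_neg] at this) (max_lt hx hy)

omit [CompleteSpace L] in
theorem sj_norm_eq_one {x : L} (hx : ‖x - 1‖ < 1) : ‖x‖ = 1 := by
  have h1 : ‖(1 : L)‖ = 1 := norm_one
  have h2 : ‖x‖ = ‖(1 : L)‖ := by
    have h3 : ‖x - 1‖ < ‖(1 : L)‖ := by rw [h1]; exact hx
    have h4 := IsUltrametricDist.norm_add_eq_max_of_norm_ne_norm h3.ne
    rw [sub_add_cancel, max_eq_right h3.le] at h4
    exact h4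
  rw [h2, h1]

/-- SJ1: `F_a(m_L)` is `p`-divisible. -/
theorem exists_p_div_sj [IsAlgClosed L] {a : Fin m → OO L} {ρ : ℝ} (D : Dt p h m a ρ)
    (y : FPt p (h + m) (par h m a)) : ∃ z : FPt p (h + m) (par h m a), p • z = y := by
  have hJ := D.adm
  have hp := (Fact.out : p.Prime)
  have hd : 1 ≤ p ^ (h + m) := Nat.one_le_pow _ _ hp.pos
  have hy : ‖(y.1 : L)‖ < 1 := (tn_iff_norm_lt_one y.1).1 y.2
  have hcoef : ∀ i, PowerSeries.coeff i (mulS p (h + m) (par h m a) p - PowerSeries.C y.1) =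
      PowerSeries.coeff i (mulS p (h + m) (par h m a) p) - (if i = 0 then y.1 else 0) := by
    intro i
    rw [map_sub, PowerSeries.coeff_C]
  have hmem : ∀ i, ‖((PowerSeries.coeff i (mulS p (h + m) (par h m a) p) -
      (if i = p ^ (h + m) then 1 else 0) : OO L) : L)‖ ≤ ρ := fun i => hJ.coeff_mem i
  obtain ⟨z, hz1, hz2⟩ := exists_root (mulS p (h + m) (par h m a) p - PowerSeries.C y.1) hd
    (by
      intro i hi
      rw [hcoef]
      have h1 := hmem i
      rw [if_neg hi.ne, sub_zero] at h1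
      by_cases h0 : i = 0
      · rw [if_pos h0]
        show ‖((PowerSeries.coeff i (mulS p (h + m) (par h m a) p) : OO L) : L) - (y.1 : L)‖ < 1
        exact sj_norm_sub_lt (h1.trans_lt D.rho_lt) hy
      · rw [if_neg h0, sub_zero]
        exact h1.trans_lt D.rho_lt)
    (by
      rw [hcoef, if_neg (by omega), sub_zero]
      have h1 := hmem (p ^ (h + m))
      rw [if_pos rfl] at h1
      apply sj_norm_eq_one
      exact h1.trans_lt D.rho_lt)
  have hzt : IsTopologicallyNilpotent z := (tn_iff_norm_lt_one z).2 hz1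
  let Z : FPt p (h + m) (par h m a) := ⟨z, hzt⟩
  refine ⟨Z, Subtype.ext ?_⟩
  show (p • Z).1 = y.1
  rw [FPt.p_smul_val]
  show ev1 (mulS p (h + m) (par h m a) p) z = y.1
  have h1 : mulS p (h + m) (par h m a) p =
      (mulS p (h + m) (par h m a) p - PowerSeries.C y.1) + PowerSeries.C y.1 := by ring
  rw [h1, ev1_add _ _ hzt, hz2, ev1_C, zero_add]

theorem sj_pow_sub {O : Type*} [CommRing O] {J : Ideal O} (hp : (p : O) ∈ J) {A B : O}
    (h : A - B ∈ J) (i : ℕ) : A ^ (p ^ i) - B ^ (p ^ i) ∈ J ^ (i + 1) := by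
  have hpp := (Fact.out : p.Prime)
  induction i with
  | zero => simpa using h
  | succ i ih =>
    have h1 : A ^ (p ^ (i + 1)) = (A ^ (p ^ i)) ^ p := by rw [← pow_mul, ← pow_succ]
    have h2 : B ^ (p ^ (i + 1)) = (B ^ (p ^ i)) ^ p := by rw [← pow_mul, ← pow_succ]
    rw [h1, h2]
    generalize A ^ (p ^ i) = a at ih
    generalize B ^ (p ^ i) = b at ih
    obtain ⟨e, he⟩ : ∃ e, e = a - b := ⟨_, rfl⟩
    have ha : a = b + e := by rw [he]; ring
    rw [← he] at ih
    rw [ha, add_pow_prime_eq hpp]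
    have h3 : e ^ p ∈ J ^ (i + 1 + 1) := by
      have h4 := Ideal.pow_mem_pow ih p
      rw [← pow_mul] at h4
      refine Ideal.pow_le_pow_right ?_ h4
      have := hpp.two_le
      nlinarith
    have h5 : (p : O) * e ∈ J ^ (i + 1 + 1) := by
      rw [pow_succ']
      exact Ideal.mul_mem_mul hp ih
    set r := ∑ k ∈ Finset.Ioo 0 p, b ^ (k - 1) * e ^ (p - k - 1) * ((p.choose k / p : ℕ) : O)
    have h6 : b ^ p + e ^ p + p * b * e * r - b ^ p = e ^ p + (b * r) * (p * e) := by ring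
    rw [h6]
    exact Ideal.add_mem _ h3 (Ideal.mul_mem_left _ _ h5)

/-- the compatible system attached to a coherent sequence -/
theorem sj_limits {O : Type*} [CommRing O] [UniformSpace O] [IsUniformAddGroup O]
    [IsTopologicalRing O] [IsLinearTopology O O] [T2Space O] [CompleteSpace O] {n : ℕ}
    {v : ℕ → O} {J : Ideal O} (hJ : Adm p n v J) {Y : ℕ → FPt p n v} (hY : Coh J Y) :
    ∃ x : ℕ → O, (∀ j, x (j + 1) ^ (p ^ n) = x j) ∧ ∀ j, x j - (Y j).1 ∈ J := by
  have hn := hJ.n_pos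
  have hstep : ∀ j k, (Y (j + (k + 1))).1 ^ (p ^ (n * (k + 1))) - (Y (j + k)).1 ^ (p ^ (n * k)) ∈
      J ^ (n * k + 1) := by
    intro j k
    have h1 := sj_pow_sub hJ.p_mem (hY (j + k)) (n * k)
    have h2 : (Y (j + (k + 1))).1 ^ (p ^ (n * (k + 1))) =
        ((Y (j + k + 1)).1 ^ (p ^ n)) ^ (p ^ (n * k)) := by
      rw [← pow_mul, ← pow_add, ← add_assoc]
      congr 2
      ring
    rw [h2]; exact h1
  have hlim : ∀ j, ∃ x : O, Tendsto (fun k => (Y (j + k)).1 ^ (p ^ (n * k))) atTop (𝓝 x) := by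
    intro j
    have hs : Tendsto (fun k => (Y (j + (k + 1))).1 ^ (p ^ (n * (k + 1))) -
        (Y (j + k)).1 ^ (p ^ (n * k))) atTop (𝓝 0) := by
      rw [tendsto_iff_ideal]
      intro U hU
      obtain ⟨k, hk⟩ := hJ.exists_le hU
      filter_upwards [eventually_ge_atTop k] with N hN
      rw [sub_zero]
      refine hk N hN (Ideal.pow_le_pow_right ?_ (hstep j N))
      nlinarith
    have hna : NonarchimedeanAddGroup O := by
      refine ⟨fun U hU => ?_⟩
      obtain ⟨V, hV, hVU⟩ := (IsLinearTopology.hasBasis_open_ideal (R := O)).mem_iff.1 hU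
      exact ⟨⟨V.toAddSubgroup, hV⟩, hVU⟩
    have hc := NonarchimedeanAddGroup.cauchySeq_of_tendsto_sub_nhds_zero
      (f := fun k => (Y (j + k)).1 ^ (p ^ (n * k))) hs
    exact cauchySeq_tendsto_of_complete hc
  choose x hx using hlim
  refine ⟨x, ?_, ?_⟩
  · intro j
    have h1 := (hx (j + 1)).pow (p ^ n)
    have h2 := (hx j).comp (tendsto_add_atTop_nat 1)
    refine tendsto_nhds_unique h1 (h2.congr fun k => ?_)
    show (Y (j + (k + 1))).1 ^ (p ^ (n * (k + 1))) = ((Y (j + 1 + k)).1 ^ (p ^ (n * k))) ^ (p ^ n)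
    rw [← pow_mul, ← pow_add]
    have e1 : j + (k + 1) = j + 1 + k := by ring
    have e2 : n * (k + 1) = n * k + n := by ring
    rw [e1, e2]
  · intro j
    have h1 : ∀ k, (Y (j + k)).1 ^ (p ^ (n * k)) - (Y j).1 ∈ J := by
      intro k
      induction k with
      | zero => simp
      | succ k ih =>
        have h2 : (Y (j + (k + 1))).1 ^ (p ^ (n * (k + 1))) - (Y (j + k)).1 ^ (p ^ (n * k)) ∈ J :=
          Ideal.pow_le_self (by omega) (hstep j k)
        have := J.add_mem h2 ih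
        rwa [sub_add_sub_cancel] at this
    exact hJ.closed.mem_of_tendsto ((hx j).sub_const _) (Eventually.of_forall h1)

omit [Fact p.Prime] in
theorem sj_iter {O : Type*} [CommRing O] {n : ℕ} {x : ℕ → O}
    (hx : ∀ j, x (j + 1) ^ (p ^ n) = x j) (j k : ℕ) : x (j + k) ^ (p ^ (n * k)) = x j := by
  induction k with
  | zero => simp
  | succ k ih =>
    rw [← add_assoc]
    have : n * (k + 1) = n + n * k := by ring
    rw [this, pow_add, pow_mul, hx, ih]

/-- SJ2: `pr_a` is surjective: choose `[p] y_{k+1} = y_k`, `y_0 = y`; the limits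
`lim_k y_{j+k}^(p^(nk))` form a compatible system of roots. -/
theorem pra_surjective_sj [IsAlgClosed L] {a : Fin m → OO L} {ρ : ℝ} (D : Dt p h m a ρ)
    (S : SharpData p K L) : Function.Surjective (pra D S) := by
  intro y
  have hJ := D.adm
  have hn := hJ.n_pos
  choose dv hdv using fun z => exists_p_div_sj D z
  let Y : ℕ → FPt p (h + m) (par h m a) := fun k => dv^[k] y
  have hY : ∀ k, p • Y (k + 1) = Y k := by
    intro k
    show p • dv^[k + 1] y = dv^[k] y
    rw [Function.iterate_succ_apply', hdv]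
  have hYc : Coh (ballI L ρ D.rho_nonneg) Y := by
    rw [coh_iff hJ]
    intro N
    rw [hY, sub_self]
    exact AddSubgroup.zero_mem _
  have hYp : ∀ N, p ^ N • Y N = y := by
    intro N
    induction N with
    | zero => simp [Y]
    | succ N ih => rw [pow_succ, mul_smul, hY, ih]
  have hprj : prj Y = y := prj_unique hJ hYc (by
    refine tendsto_const_nhds.congr fun N => ?_
    rw [hYp])
  obtain ⟨x, hx1, hx2⟩ := sj_limits hJ hYc
  let z : ℕ → L := fun i => ((x i : OO L) : L) ^ (p ^ ((h + m) * i - i))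
  have hz : ∀ i, z (i + 1) ^ p = z i := by
    intro i
    show (((x (i + 1) : OO L) : L) ^ (p ^ ((h + m) * (i + 1) - (i + 1)))) ^ p = _
    have e1 : (h + m) * (i + 1) - (i + 1) + 1 = (h + m) + ((h + m) * i - i) := by
      have : i ≤ (h + m) * i := Nat.le_mul_of_pos_left i hn
      have h2 : (h + m) * (i + 1) = (h + m) * i + (h + m) := by ring
      rw [h2]; omega
    rw [← pow_mul, ← pow_succ, e1, pow_add, pow_mul]
    have h3 : ((x (i + 1) : OO L) : L) ^ (p ^ (h + m)) = ((x i : OO L) : L) := by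
      rw [← hx1 i]; rfl
    rw [h3]
  obtain ⟨X, hX⟩ := S.lift z hz
  have hX0 : ‖X‖ < 1 := by
    have h1 := hX 0
    simp only [Function.iterate_zero, id] at h1
    rw [← S.norm_sharp, h1]
    show ‖((x 0 : OO L) : L) ^ (p ^ ((h + m) * 0 - 0))‖ < 1
    simp only [mul_zero, Nat.sub_zero, pow_zero, pow_one]
    have h2 : ‖((x 0 : OO L) : L) - ((Y 0).1 : L)‖ ≤ ρ := hx2 0
    have h3 : ‖((Y 0).1 : L)‖ < 1 := (tn_iff_norm_lt_one _).1 (Y 0).2
    have h4 : ((x 0 : OO L) : L) = (((x 0 : OO L) : L) - ((Y 0).1 : L)) + ((Y 0).1 : L) := by ring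
    rw [h4]
    exact (IsUltrametricDist.norm_add_le_max _ _).trans_lt (max_lt (h2.trans_lt D.rho_lt) h3)
  let XO : OO K := ⟨X, hX0.le⟩
  have hXt : IsTopologicallyNilpotent XO := (tn_iff_norm_lt_one XO).2 hX0
  let E : FPt p (h + m) (Gam (h + m) : ℕ → OO K) := ⟨XO, hXt⟩
  refine ⟨E, ?_⟩
  have hval : ∀ N, ((sseq S (RingHom.id (OO L)) continuous_id (par h m a) E) N).1 = x N := by
    intro N
    apply Subtype.ext
    show S.sharp ((frobeniusEquiv K p).symm^[(h + m) * N] X) = ((x N : OO L) : L)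
    rw [hX]
    show ((x ((h + m) * N) : OO L) : L) ^ (p ^ ((h + m) * ((h + m) * N) - (h + m) * N)) = _
    have h1 : N ≤ (h + m) * N := Nat.le_mul_of_pos_left N hn
    have h2 := sj_iter hx1 N ((h + m) * N - N)
    rw [Nat.add_sub_cancel' h1, Nat.mul_sub] at h2
    rw [← h2]; rfl
  show prS S (RingHom.id _) continuous_id D.adm E = y
  rw [prS_apply]
  have h1 := (prj_congr hJ hYc (y := sseq S (RingHom.id (OO L)) continuous_id (par h m a) E)
    (fun N => by
      rw [hval N]
      have := Ideal.neg_mem_iff (ballI L ρ D.rho_nonneg) |>.2 (hx2 N)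
      rwa [neg_sub] at this)).2
  rw [← h1, hprj]

end Vale.Agent.P217
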