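import Vale.Agent.P217.Base
import Vale.Agent.P217.Roots
import Vale.Agent.P217.PJC
import Vale.Agent.P217.PSJ

/-!
# P217: surjectivity of `pr_a` and the Jacobian in characteristic `p` (SJ1, SJ2, JC1, JC2, JC3)
-/

namespace Vale.Agent.P217

open MvPowerSeries Filter Topology
open scoped MvPowerSeries.WithPiTopology

variable {p h m : ℕ} [Fact p.Prime]
variable {K L : Type*} [NormedField K] [NormedField L] [IsUltrametricDist K] [IsUltrametricDist L]
  [CharP K p] [PerfectRing K p] [CompleteSpace K] [CompleteSpace L]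

/-- SJ1: `F_a(m_L)` is `p`-divisible. -/
theorem exists_p_div [IsAlgClosed L] {a : Fin m → OO L} {ρ : ℝ} (D : Dt p h m a ρ)
    (y : FPt p (h + m) (par h m a)) : ∃ z : FPt p (h + m) (par h m a), p • z = y :=
  exists_p_div_sj D y

/-- SJ2: `pr_a` is surjective: choose `[p] y_{k+1} = y_k`, `y_0 = y`; the limits
`lim_k y_{j+k}^(p^(nk))` form a compatible system of roots. -/
theorem pra_surjective [IsAlgClosed L] {a : Fin m → OO L} {ρ : ℝ} (D : Dt p h m a ρ)
    (S : SharpData p K L) : Function.Surjective (pra D S) :=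
  pra_surjective_sj D S

/-- The series `H_j = ∂U/∂v_{h+j}` at `a`. -/
noncomputable def Hs (p h m : ℕ) (a : Fin m → OO L) (j : Fin m) : PowerSeries (OO L) :=
  PowerSeries.mk fun i => coeff (Finsupp.single j 1)
    (PowerSeries.coeff i (US p (h + m) h (parX h m a)))

/-- JC1: `∂_j Lam_{px}(0) = H_j(t^q)`, `t = pr_a(x)` (characteristic `p`). -/
theorem grad_p_smul {a : Fin m → OO K} {ρ : ℝ} (D : Dt p h m a ρ)
    (S : SharpData p K K) (x : FPt p (h + m) (Gam (h + m) : ℕ → OO K)) (j : Fin m) :
    grad D S (p • x) j = ev1 (Hs p h m a j) ((pra D S x).1 ^ (p ^ h)) :=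
  pjc_grad_p_smul D S x j

/-- JC2: `H_j ≡ Y^(p^j)` modulo the ball, in degrees `< p^m`. -/
theorem Hs_coeff {a : Fin m → OO L} {ρ : ℝ} (D : Dt p h m a ρ) (j : Fin m) (i : ℕ)
    (hi : i < p ^ m) :
    ‖((PowerSeries.coeff i (Hs p h m a j) - (if i = p ^ (j : ℕ) then 1 else 0) : OO L) : L)‖
      ≤ ρ := by
  rw [Hs, PowerSeries.coeff_mk]
  exact pjc_Hs_coeff D j i hi

omit [Fact p.Prime] [PerfectRing K p] [CompleteSpace K] in
theorem jc3_charP : CharP (OO K) p := by
  refine ⟨fun x => ?_⟩
  rw [← CharP.cast_eq_zero_iff K p x]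
  constructor
  · intro h1
    have := congrArg (fun z : OO K => (z : K)) h1
    simpa using this
  · intro h1
    apply Subtype.ext
    simpa using h1

/-- JC3: the gradients of torsion elements span. -/
theorem grad_ne_zero [IsAlgClosed K] {a : Fin m → OO K} {ρ : ℝ} (D : Dt p h m a ρ)
    (S : SharpData p K K) (hm : 1 ≤ m) (ha : a ⟨0, hm⟩ ≠ 0) (c : Fin m → OO K)
    (hc : ∃ j, ‖(c j : K)‖ = 1) :
    ∃ e : FPt p (h + m) (Gam (h + m) : ℕ → OO K), pra D S e = 0 ∧
      ∑ j, c j * grad D S e j ≠ 0 := by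
  by_contra hcon
  push Not at hcon
  have hJ := D.adm
  have hh := D.h_pos
  have hp := (Fact.out : p.Prime)
  have hchar : CharP (OO K) p := jc3_charP
  have hv0 : ∀ j, 1 ≤ j → j < h → par h m a j = 0 := by
    intro j _ hj
    unfold par
    rw [dif_neg (by omega), if_neg (by omega)]
  have hvh : par h m a h = a ⟨0, hm⟩ := by
    unfold par
    rw [dif_pos ⟨le_rfl, by omega⟩]
    congr 2
    simp
  have hco : ∀ i, ‖((PowerSeries.coeff i (US p (h + m) h (par h m a)) -
      (if i = p ^ m then 1 else 0) : OO K) : K)‖ ≤ ρ := by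
    intro i
    have h1 := US_coeff_mod (p := p) (n := h + m) (h := h) (v := par h m a) (by omega)
      (ballI K ρ D.rho_nonneg) (fun j h1 h2 => hJ.v_mem j (by omega) h2) hJ.v_top i
    rw [Nat.add_sub_cancel_left] at h1
    exact h1
  obtain ⟨s, hs1, hs2, hs3⟩ := exists_roots (US p (h + m) h (par h m a)) (d := p ^ m)
    (by
      intro i hi
      have h1 := hco i
      rw [if_neg hi.ne, sub_zero] at h1
      exact h1.trans_lt D.rho_lt)
    (by
      have h1 := hco (p ^ m)
      rw [if_pos rfl] at h1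
      exact sj_norm_eq_one (h1.trans_lt D.rho_lt))
    (by
      intro x hx _
      have hxt : IsTopologicallyNilpotent x := (tn_iff_norm_lt_one x).2 hx
      obtain ⟨g, hg1, hg2⟩ := derivative_US (p := p) (n := h + m) (h := h) (v := par h m a) hh
        (by omega) hv0
      rw [hg2, hvh, ev1_mul _ _ hxt, ev1_C]
      apply mul_ne_zero ha
      intro h0
      have h1 : g = PowerSeries.C 1 + (PowerSeries.X : PowerSeries (OO K)) *
          PowerSeries.mk fun i => PowerSeries.coeff (i + 1) g := by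
        ext i
        cases i with
        | zero => simp [hg1]
        | succ i => simp [PowerSeries.coeff_succ_X_mul]
      rw [h1, ev1_add _ _ hxt, ev1_mul _ _ hxt, ev1_C, ev1_X] at h0
      set r := ev1 (PowerSeries.mk fun i => PowerSeries.coeff (i + 1) g) x
      have h2 : ((1 : OO K) : K) = -((x : K) * (r : K)) := by
        have := congrArg (fun z : OO K => (z : K)) (eq_neg_of_add_eq_zero_left h0)
        simpa using this
      have h3 : ‖((1 : OO K) : K)‖ < 1 := by
        rw [h2, norm_neg, norm_mul]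
        calc ‖(x : K)‖ * ‖(r : K)‖ ≤ ‖(x : K)‖ * 1 :=
              mul_le_mul_of_nonneg_left r.2 (norm_nonneg _)
          _ < 1 := by rw [mul_one]; exact hx
      have h4 : ((1 : OO K) : K) = 1 := rfl
      rw [h4, norm_one] at h3
      exact lt_irrefl _ h3)
  -- the linear combination of the `H_j`
  have hev : ∀ i, ev1 (∑ j, PowerSeries.C (c j) * Hs p h m a j) (s i) = 0 := by
    intro i
    have hst : IsTopologicallyNilpotent (s i) := (tn_iff_norm_lt_one _).2 (hs2 i)
    have hsum : ev1 (∑ j, PowerSeries.C (c j) * Hs p h m a j) (s i) =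
        ∑ j, c j * ev1 (Hs p h m a j) (s i) := by
      have h1 := map_sum (PowerSeries.eval₂Hom (φ := RingHom.id (OO K)) continuous_idO hst)
        (fun j => PowerSeries.C (c j) * Hs p h m a j) Finset.univ
      rw [PowerSeries.coe_eval₂Hom] at h1
      refine h1.trans (Finset.sum_congr rfl fun j _ => ?_)
      have h2 := ev1_mul (PowerSeries.C (c j)) (Hs p h m a j) hst
      rw [ev1_C] at h2
      exact h2
    rw [hsum]
    let T : FPt p (h + m) (par h m a) := ⟨rt p h (s i), rt_tn h hst⟩
    obtain ⟨x, hx⟩ := pra_surjective D S T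
    have hTp : T.1 ^ (p ^ h) = s i := rt_pow h (s i)
    have he : pra D S (p • x) = 0 := by
      rw [map_nsmul, hx]
      apply Subtype.ext
      rw [FPt.p_smul_val_US hh (by omega) hv0, hTp, hs3 i]
      rfl
    have h3 := hcon (p • x) he
    rw [← h3]
    refine Finset.sum_congr rfl fun j _ => ?_
    rw [grad_p_smul, hx, hTp]
  obtain ⟨j0, hj0⟩ := hc
  have hi0 : p ^ (j0 : ℕ) < p ^ m := Nat.pow_lt_pow_right hp.one_lt j0.2
  have hlt := coeff_lt_one_of_roots _ s hs1 hs2 hev (p ^ (j0 : ℕ)) hi0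
  have hI : (PowerSeries.coeff (p ^ (j0 : ℕ)) (∑ j, PowerSeries.C (c j) * Hs p h m a j)) ∈
      ballIdeal K ⟨1, one_pos⟩ := hlt
  rw [map_sum] at hI
  have h5 : ∑ j, c j * (PowerSeries.coeff (p ^ (j0 : ℕ)) (Hs p h m a j) -
      (if p ^ (j0 : ℕ) = p ^ (j : ℕ) then 1 else 0)) ∈ ballIdeal K ⟨1, one_pos⟩ := by
    refine Ideal.sum_mem _ fun j _ => Ideal.mul_mem_left _ _ ?_
    exact (Hs_coeff D j _ hi0).trans_lt D.rho_lt
  have h6 := Ideal.sub_mem _ hI h5
  rw [← Finset.sum_sub_distrib] at h6
  have h7 : ∑ j, (PowerSeries.coeff (p ^ (j0 : ℕ)) (PowerSeries.C (c j) * Hs p h m a j) -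
      c j * (PowerSeries.coeff (p ^ (j0 : ℕ)) (Hs p h m a j) -
      (if p ^ (j0 : ℕ) = p ^ (j : ℕ) then 1 else 0))) = c j0 := by
    rw [Finset.sum_eq_single j0]
    · rw [PowerSeries.coeff_C_mul, if_pos rfl]; ring
    · intro j _ hj
      rw [PowerSeries.coeff_C_mul, if_neg]
      · ring
      · intro h8
        apply hj
        exact Fin.ext (Nat.pow_right_injective hp.two_le h8).symm
    · intro h8
      exact absurd (Finset.mem_univ _) h8
  rw [h7] at h6
  have h8 : ‖(c j0 : K)‖ < 1 := h6
  linarith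

/-- JC4: there are `e_1, …, e_m ∈ ker pr_a` with invertible Jacobian matrix. -/
theorem exists_basis [IsAlgClosed K] {a : Fin m → OO K} {ρ : ℝ} (D : Dt p h m a ρ)
    (S : SharpData p K K) (hm : 1 ≤ m) (ha : a ⟨0, hm⟩ ≠ 0) :
    ∃ e : Fin m → FPt p (h + m) (Gam (h + m) : ℕ → OO K), (∀ i, pra D S (e i) = 0) ∧
      (Matrix.of fun i j => grad D S (e i) j).det ≠ 0 := by
  classical
  have hne : Nonempty (Fin m) := ⟨⟨0, hm⟩⟩
  let G : FPt p (h + m) (Gam (h + m) : ℕ → OO K) → (Fin m → K) := fun e j => (grad D S e j : K)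
  let W : Set (Fin m → K) := {w | ∃ e, pra D S e = 0 ∧ w = G e}
  have hW : Submodule.span K W = ⊤ := by
    by_contra hW
    obtain ⟨f, hf0, hf⟩ := Submodule.exists_le_ker_of_lt_top _ (lt_top_iff_ne_top.2 hW)
    have hfs : ∀ w : Fin m → K, f w = ∑ j, w j * f (Pi.single j 1) := by
      intro w
      conv_lhs => rw [← Finset.univ_sum_single w]
      rw [map_sum]
      refine Finset.sum_congr rfl fun j _ => ?_
      have h1 : (Pi.single j (w j) : Fin m → K) = w j • (Pi.single j 1 : Fin m → K) := by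
        rw [← Pi.single_smul, smul_eq_mul, mul_one]
      rw [h1, map_smul, smul_eq_mul]
    obtain ⟨j1, hj1⟩ := Finite.exists_max fun j : Fin m => ‖f (Pi.single j 1)‖
    have hpos : f (Pi.single j1 1) ≠ 0 := by
      intro h0
      apply hf0
      refine LinearMap.ext fun w => ?_
      rw [LinearMap.zero_apply]
      have h1 : ∀ j, f (Pi.single j 1) = 0 := by
        intro j
        have := hj1 j
        rw [h0, norm_zero] at this
        exact norm_le_zero_iff.1 this
      rw [hfs]
      exact Finset.sum_eq_zero fun j _ => by rw [h1, mul_zero]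
    let c : Fin m → OO K := fun j => ⟨f (Pi.single j 1) / f (Pi.single j1 1), by
      show ‖f (Pi.single j 1) / f (Pi.single j1 1)‖ ≤ 1
      rw [norm_div, div_le_one (norm_pos_iff.2 hpos)]
      exact hj1 j⟩
    obtain ⟨e, he1, he2⟩ := grad_ne_zero D S hm ha c ⟨j1, by
      show ‖f (Pi.single j1 1) / f (Pi.single j1 1)‖ = 1
      rw [div_self hpos, norm_one]⟩
    apply he2
    have h1 : f (G e) = 0 := by
      have : G e ∈ Submodule.span K W := Submodule.subset_span ⟨e, he1, rfl⟩
      exact hf this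
    rw [hfs] at h1
    apply Subtype.ext
    have h2 : ((∑ j, c j * grad D S e j : OO K) : K) =
        ∑ j, (c j : K) * (grad D S e j : K) := by
      rw [← Subring.coe_subtype, map_sum]
      refine Finset.sum_congr rfl fun j _ => ?_
      rw [map_mul]
    have h3 : ∑ j, (c j : K) * (grad D S e j : K) =
        (∑ j, G e j * f (Pi.single j 1)) / f (Pi.single j1 1) := by
      rw [Finset.sum_div]
      refine Finset.sum_congr rfl fun j _ => ?_
      show f (Pi.single j 1) / f (Pi.single j1 1) * (grad D S e j : K) = _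
      ring
    rw [h2, h3, h1, zero_div]
    rfl
  obtain ⟨b, hbW, hbs, hbl⟩ := exists_linearIndependent K W
  rw [hW] at hbs
  have hbspan : ⊤ ≤ Submodule.span K (Set.range ((↑) : b → (Fin m → K))) := by
    rw [Subtype.range_coe, hbs]
  let B := Module.Basis.mk hbl hbspan
  have hfin : Finite b := Module.Finite.finite_basis B
  have := Fintype.ofFinite b
  have hcard : Fintype.card b = m := by
    rw [← Module.finrank_eq_card_basis B, Module.finrank_fintype_fun_eq_card, Fintype.card_fin]
  let φ : Fin m ≃ b := (Fintype.equivFinOfCardEq hcard).symm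
  have hch : ∀ i, ∃ e, pra D S e = 0 ∧ ((φ i : b) : Fin m → K) = G e := fun i => hbW (φ i).2
  choose e he1 he2 using hch
  refine ⟨e, he1, ?_⟩
  have hli : LinearIndependent K (fun i => G (e i)) := by
    have h1 : (fun i => G (e i)) = ((↑) : b → (Fin m → K)) ∘ φ := by
      funext i
      exact (he2 i).symm
    rw [h1]
    exact hbl.comp φ φ.injective
  intro h0
  have h1 : IsUnit (Matrix.of fun i j => (grad D S (e i) j : K)) := by
    rw [← Matrix.linearIndependent_rows_iff_isUnit]
    exact hli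
  rw [Matrix.isUnit_iff_isUnit_det, isUnit_iff_ne_zero] at h1
  apply h1
  have h2 := (RingHom.map_det (OO K).subtype (Matrix.of fun i j => grad D S (e i) j)).symm
  rw [h0, map_zero] at h2
  exact h2

end Vale.Agent.P217
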