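import Vale.Agent.P217.KForm

/-!
# P217, KI1: first order expansion of `elC`
-/

namespace Vale.Agent.P217

open MvPowerSeries Filter Topology
open scoped MvPowerSeries.WithPiTopology

variable {p h m : ℕ} [Fact p.Prime]

section lin

variable {L : Type*} [NormedField L] [IsUltrametricDist L] [CompleteSpace L]

/-- Taylor expansion of order one of a power series at a point of the ball of radius `r`. -/
theorem ki1_taylor (F : MvPowerSeries (Fin m) (OO L)) (δ : Fin m → OO L)
    {r : ℝ} (hr0 : 0 ≤ r) (hr1 : r < 1) (hr : ∀ i, ‖((δ i : OO L) : L)‖ ≤ r) :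
    ‖((evm F δ : OO L) : L) - ((constantCoeff F : OO L) : L) -
      ∑ j, ((δ j : OO L) : L) * ((coeff (Finsupp.single j 1) F : OO L) : L)‖ ≤ r ^ 2 := by
  classical
  have hE : HasEval δ := by
    refine ⟨fun i => ?_, ?_⟩
    · rw [tn_iff_norm_lt_one]
      exact lt_of_le_of_lt (hr i) hr1
    · rw [Filter.cofinite_eq_bot]
      exact tendsto_bot
  have hid : Continuous (RingHom.id (OO L)) := continuous_id
  have h1 := hasSum_eval₂ hid hE F
  have h2 : HasSum (fun d : Fin m →₀ ℕ => if d = 0 then constantCoeff F else 0)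
      (constantCoeff F) := hasSum_ite_eq 0 _
  have h3 : ∀ j : Fin m, HasSum (fun d : Fin m →₀ ℕ => if d = Finsupp.single j 1 then
      δ j * coeff (Finsupp.single j 1) F else 0) (δ j * coeff (Finsupp.single j 1) F) :=
    fun j => hasSum_ite_eq _ _
  have h4 := hasSum_sum (s := Finset.univ) fun j _ => h3 j
  have h5 := (h1.sub h2).sub h4
  have hr2 : 0 ≤ r ^ 2 := by positivity
  have h6 : evm F δ - constantCoeff F - ∑ j, δ j * coeff (Finsupp.single j 1) F ∈
      ballI L (r ^ 2) hr2 := by
    have hcl := ball_closed (L := L) hr2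
    refine hcl.mem_of_tendsto h5 (Filter.Eventually.of_forall fun s => ?_)
    refine Ideal.sum_mem _ fun d _ => ?_
    rcases Nat.lt_or_ge 1 d.degree with hd | hd
    · -- degree at least two: the monomial is in the ball of radius `r ^ 2`
      have hd0 : d ≠ 0 := by
        rintro rfl
        simp at hd
      have hd1 : ∀ j : Fin m, d ≠ Finsupp.single j 1 := by
        rintro j rfl
        simp at hd
      rw [if_neg hd0, Finset.sum_eq_zero (fun j _ => if_neg (hd1 j)), sub_zero, sub_zero]
      refine Ideal.mul_mem_left _ _ ?_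
      show ‖((d.prod fun s e => δ s ^ e : OO L) : L)‖ ≤ r ^ 2
      have e1 : ‖((d.prod fun s e => δ s ^ e : OO L) : L)‖ = ∏ i ∈ d.support, ‖(δ i : L)‖ ^ d i := by
        rw [Finsupp.prod, SubmonoidClass.coe_finsetProd, norm_prod]
        refine Finset.prod_congr rfl fun i _ => ?_
        rw [SubmonoidClass.coe_pow, norm_pow]
      rw [e1]
      calc ∏ i ∈ d.support, ‖(δ i : L)‖ ^ d i ≤ ∏ i ∈ d.support, r ^ d i :=
            Finset.prod_le_prod (fun i _ => by positivity)
              fun i _ => pow_le_pow_left₀ (norm_nonneg _) (hr i) _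
        _ = r ^ d.degree := by
            rw [Finset.prod_pow_eq_pow_sum]
            rfl
        _ ≤ r ^ 2 := pow_le_pow_of_le_one hr0 hr1.le hd
    · rcases Nat.eq_zero_or_pos d.degree with hd0 | hd0
      · have hd' : d = 0 := (Finsupp.degree_eq_zero_iff _).1 hd0
        subst hd'
        have hne : ∀ j : Fin m, (0 : Fin m →₀ ℕ) ≠ Finsupp.single j 1 := by
          intro j hj
          have := congrArg (fun f => f j) hj
          simp at this
        rw [Finset.sum_eq_zero (fun j _ => if_neg (hne j))]
        simp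
      · have hd1 : d.degree = 1 := le_antisymm hd hd0
        obtain ⟨j, rfl⟩ : ∃ j, d = Finsupp.single j 1 := by
          have hne : d ≠ 0 := by
            rintro rfl
            simp at hd1
          obtain ⟨j, hj⟩ : ∃ j, d j ≠ 0 := by
            by_contra hcon
            push Not at hcon
            exact hne (Finsupp.ext hcon)
          refine ⟨j, ?_⟩
          have hle : Finsupp.single j 1 ≤ d := by
            rw [Finsupp.single_le_iff]
            omega
          obtain ⟨c, hc⟩ := le_iff_exists_add.1 hle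
          have hcd : (Finsupp.single j 1 + c).degree = 1 := by rw [← hc, hd1]
          rw [map_add, Finsupp.degree_single] at hcd
          have hc0 : c = 0 := (Finsupp.degree_eq_zero_iff _).1 (by omega)
          rw [hc, hc0, add_zero]
        have hne : (Finsupp.single j 1 : Fin m →₀ ℕ) ≠ 0 := by
          rw [Ne, Finsupp.single_eq_zero]
          exact one_ne_zero
        rw [if_neg hne, sub_zero, Finset.sum_eq_single j]
        · rw [if_pos rfl]
          have e2 : ((Finsupp.single j 1 : Fin m →₀ ℕ).prod fun s e => δ s ^ e) = δ j := by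
            rw [Finsupp.prod_single_index (h := fun s e => δ s ^ e) (pow_zero _), pow_one]
          rw [e2, RingHom.id_apply, mul_comm, sub_self]
          exact Ideal.zero_mem _
        · intro i _ hij
          rw [if_neg]
          intro heq
          rw [Finsupp.single_left_inj one_ne_zero] at heq
          exact hij heq.symm
        · intro hj
          exact absurd (Finset.mem_univ j) hj
  have h7 : ‖((evm F δ - constantCoeff F - ∑ j, δ j * coeff (Finsupp.single j 1) F : OO L) : L)‖
      ≤ r ^ 2 := h6
  push_cast at h7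
  exact h7

end lin

variable {K C : Type*} [NormedField K] [NormedField C] [IsUltrametricDist K] [IsUltrametricDist C]
  [CharP K p] [PerfectRing K p] [CompleteSpace K] [CompleteSpace C] [CharZero C]

theorem ki1_norm_par_le (u : Fin m → OO C) (j : ℕ) : ‖((par h m u j : OO C) : C)‖ ≤ 1 :=
  (par h m u j).2

/-- KI1: first order expansion of `elC` at small displacement `δ`, `‖δ_i‖ ≤ ε ≤ ‖p‖^2`, if
`pr_u(x) ∈ p O_C`. -/
theorem elC_estimate_ki1 (hp : ‖(p : C)‖ < 1) (S : SharpData p K C) {u u' : Fin m → OO C}
    {ρ ρ' : ℝ} (D : Dt p h m u ρ) (D' : Dt p h m u' ρ') {ε : ℝ} (hε0 : 0 ≤ ε)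
    (hε : ε ≤ ‖(p : C)‖ ^ 2)
    (hu : ∀ i, ‖((u' i : OO C) : C) - (u i : C)‖ ≤ ε)
    (x : FPt p (h + m) (Gam (h + m) : ℕ → OO K)) (hx : ‖(((pra D S x).1 : OO C) : C)‖ ≤ ‖(p : C)‖) :
    ‖elC D' S x - elC D S x - ∑ j, (((u' j : OO C) : C) - (u j : C)) * ((grad D S x j : OO C) : C)‖
      ≤ ‖(p : C)‖ * ε := by
  have hp2 : ‖(p : C)‖ ^ 2 < 1 := pow_lt_one₀ (norm_nonneg _) hp two_ne_zero
  have h1 := logC_estimate hp (n := h + m) (v := fun j => ((par h m u j : OO C) : C))
    (v' := fun j => ((par h m u' j : OO C) : C)) (ki1_norm_par_le u) (ki1_norm_par_le u') hε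
    (fun j => by
      show ‖((par h m u' j : OO C) : C) - ((par h m u j : OO C) : C)‖ ≤ ε
      unfold par
      split_ifs
      · exact hu _
      · simpa using hε0
      · simpa using hε0) hx (pra_dist D D' hε0 hu S x)
  have h2 := ki1_taylor (Lam D S x) (fun i => u' i - u i) hε0 (lt_of_le_of_lt hε hp2)
    (fun i => hu i)
  rw [Lam_eval D D' S x, Lam_constantCoeff D S x] at h2
  have h3 : ε ^ 2 ≤ ‖(p : C)‖ * ε := by
    rw [pow_two]
    refine mul_le_mul_of_nonneg_right (hε.trans ?_) hε0
    rw [pow_two]
    exact mul_le_of_le_one_left (norm_nonneg _) hp.le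
  have e : elC D' S x - elC D S x -
      ∑ j, (((u' j : OO C) : C) - (u j : C)) * ((grad D S x j : OO C) : C) =
      (elC D' S x - elC D S x - ((((pra D' S x).1 : OO C) : C) - (((pra D S x).1 : OO C) : C))) +
      ((((pra D' S x).1 : OO C) : C) - (((pra D S x).1 : OO C) : C) -
        ∑ j, (((u' j : OO C) : C) - (u j : C)) * ((grad D S x j : OO C) : C)) := by ring
  rw [e]
  exact (IsUltrametricDist.norm_add_le_max _ _).trans (max_le h1 (h2.trans h3))

end Vale.Agent.P217
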