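import Vale.Agent.P217.KForm

/-!
# P217, module KI2 (helper66): auxiliary lemmas
-/

namespace Vale.Agent.P217

open MvPowerSeries Filter Topology

theorem ki2_la {Q : Type*} [CommRing Q] {m : ℕ} (g : Matrix (Fin m) (Fin m) Q) (c : Fin m → Q)
    (i0 : Fin m) (hc : IsUnit (c i0)) (h : ∀ j, ∑ i, c i * g i j = 0) : g.det = 0 := by
  have h1 : Matrix.vecMul c g = 0 := by
    funext j
    exact h j
  have h2 : Matrix.vecMul (Matrix.vecMul c g) g.adjugate = 0 := by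
    rw [h1, Matrix.zero_vecMul]
  rw [Matrix.vecMul_vecMul, Matrix.mul_adjugate, Matrix.vecMul_smul, Matrix.vecMul_one] at h2
  have h3 := congrFun h2 i0
  rw [Pi.smul_apply, smul_eq_mul, Pi.zero_apply] at h3
  exact (hc.mul_left_eq_zero).1 h3

theorem ki2_rpow {p : ℕ} [Fact p.Prime] {δ ε : ℝ} (hδ : 0 < δ) (hε : ε < 1) :
    ∃ k : ℤ, ε < δ ^ ((p : ℝ) ^ k) := by
  have hp1 : (1 : ℝ) < p := by exact_mod_cast (Fact.out : p.Prime).one_lt
  have h1 : Tendsto (fun k : ℕ => ((p : ℝ)⁻¹) ^ k) atTop (𝓝 0) :=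
    tendsto_pow_atTop_nhds_zero_of_lt_one (by positivity) (inv_lt_one_of_one_lt₀ hp1)
  have h2 : Tendsto (fun k : ℕ => δ ^ (((p : ℝ)⁻¹) ^ k)) atTop (𝓝 1) := by
    have h3 := (Real.continuous_const_rpow hδ.ne').tendsto 0
    rw [Real.rpow_zero] at h3
    exact h3.comp h1
  obtain ⟨k, hk⟩ := (h2.eventually (lt_mem_nhds hε)).exists
  refine ⟨-(k : ℤ), ?_⟩
  rw [zpow_neg, zpow_natCast, ← inv_pow]
  exact hk

end Vale.Agent.P217
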