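import Vale.Agent.P217.PKI6
import Vale.Agent.P217.SPt

/-!
# P217, module KI3 (helper66): endomorphisms of `Γ_h` with coefficients in `F_q`
-/

namespace Vale.Agent.P217

open MvPowerSeries Filter Topology

section formal

variable {R : Type*} [CommRing R] {p n : ℕ} [Fact p.Prime] {v w : ℕ → R}

/-- homomorphisms in terms of points -/
theorem ki3_hom_iff (g : PowerSeries R) (hg : PowerSeries.constantCoeff g = 0) :
    IsHomS p n v w g ↔
      SPt.sbst (fun _ : Unit => Fv p n v) (fun _ => Fv_constantCoeff p n v)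
        (SPt.mk p n w (τ := Unit) g hg) =
      SPt.sbst (fun _ : Unit => (X 0 : MvPowerSeries (Fin 2) R)) (fun _ => constantCoeff_X _)
        (SPt.mk p n w (τ := Unit) g hg) +
      SPt.sbst (fun _ : Unit => (X 1 : MvPowerSeries (Fin 2) R)) (fun _ => constantCoeff_X _)
        (SPt.mk p n w (τ := Unit) g hg) := by
  constructor
  · intro h
    exact Subtype.ext h.2
  · intro h
    exact ⟨hg, congrArg Subtype.val h⟩

/-- the difference of two homomorphisms -/
theorem ki3_sub {g k : PowerSeries R} (hg : IsHomS p n v w g) (hk : IsHomS p n v w k) :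
    IsHomS p n v w ((SPt.mk p n w (τ := Unit) g hg.1 - SPt.mk p n w (τ := Unit) k hk.1).1 :
      MvPowerSeries Unit R) := by
  have h1 := (ki3_hom_iff g hg.1).1 hg
  have h2 := (ki3_hom_iff k hk.1).1 hk
  refine (ki3_hom_iff _ (SPt.mk p n w (τ := Unit) g hg.1 - SPt.mk p n w (τ := Unit) k hk.1).2).2 ?_
  have h3 : SPt.mk p n w (τ := Unit)
      (SPt.mk p n w (τ := Unit) g hg.1 - SPt.mk p n w (τ := Unit) k hk.1).1
      (SPt.mk p n w (τ := Unit) g hg.1 - SPt.mk p n w (τ := Unit) k hk.1).2 =
      SPt.mk p n w (τ := Unit) g hg.1 - SPt.mk p n w (τ := Unit) k hk.1 := rfl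
  rw [h3, map_sub, map_sub, map_sub, h1, h2]
  abel

/-- cancelling a power substitution -/
theorem ki3_of_pow [CharP R p] {g U : PowerSeries R} (hU0 : PowerSeries.constantCoeff U = 0)
    (k : ℕ) (hg : IsHomS p n v w g) (hm : g = U.subst (PowerSeries.X ^ (p ^ k) : PowerSeries R)) :
    IsHomS p n (fun j => v j ^ (p ^ k)) w U := by
  have hp0 : p ≠ 0 := (Fact.out : p.Prime).ne_zero
  have hq : p ^ k ≠ 0 := pow_ne_zero _ hp0
  refine ⟨hU0, ?_⟩
  have : ExpChar R p := ExpChar.prime (Fact.out : p.Prime)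
  have hF0 : constantCoeff (Fv p n v) = 0 := Fv_constantCoeff p n v
  have hF0' : constantCoeff (Fv p n fun j => v j ^ (p ^ k)) = 0 := Fv_constantCoeff p n _
  have hX : ∀ i : Fin 2, constantCoeff (U.subst (X i : MvPowerSeries (Fin 2) R)) = 0 := fun i =>
    PowerSeries.constantCoeff_subst_eq_zero (constantCoeff_X i) _ hU0
  have hFq : (Fv p n v) ^ (p ^ k) =
      MvPowerSeries.subst (fun i => (X i : MvPowerSeries (Fin 2) R) ^ (p ^ k))
        (Fv p n fun j => v j ^ (p ^ k)) := by
    rw [← map_iterateFrobenius_expand p hp0 (Fv p n v) k, map_expand, Fv_map, ← US1.expand_eq hq]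
    rfl
  have key : ∀ b : MvPowerSeries (Fin 2) R, constantCoeff b = 0 →
      PowerSeries.subst b (U.subst (PowerSeries.X ^ (p ^ k) : PowerSeries R) : PowerSeries R) =
        U.subst (b ^ (p ^ k)) := by
    intro b hb
    have hb' := PowerSeries.HasSubst.of_constantCoeff_zero hb
    rw [PowerSeries.subst_comp_subst_apply (PowerSeries.HasSubst.X_pow hq) hb',
      PowerSeries.subst_pow hb', PowerSeries.subst_X hb']
  have hc : HasSubst (fun i => (X i : MvPowerSeries (Fin 2) R) ^ (p ^ k)) := HasSubst.X_pow hq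
  have hcomp := hg.2
  rw [hm, key _ hF0, key _ (constantCoeff_X 0), key _ (constantCoeff_X 1), hFq,
    ← US1.comp1 U hF0' hc] at hcomp
  have e : ∀ i : Fin 2, U.subst ((X i : MvPowerSeries (Fin 2) R) ^ (p ^ k)) =
      MvPowerSeries.subst (fun i => (X i : MvPowerSeries (Fin 2) R) ^ (p ^ k))
        (U.subst (X i : MvPowerSeries (Fin 2) R)) := by
    intro i
    rw [US1.comp1 U (constantCoeff_X i) hc, subst_X hc]
  rw [e 0, e 1, ← US1.comp2 _ (hX 0) (hX 1) hc, ← US1.expand_eq hq, ← US1.expand_eq hq] at hcomp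
  exact US1.expand_inj hq hcomp

/-- a homomorphism with vanishing linear coefficient is a series in `X^p` -/
theorem ki3_factor [CharP R p] {g : PowerSeries R} (hg : IsHomS p n v w g)
    (h1 : PowerSeries.coeff 1 g = 0) :
    PowerSeries.constantCoeff (PowerSeries.mk fun d => PowerSeries.coeff (p * d) g) = 0 ∧
    g = (PowerSeries.mk fun d => PowerSeries.coeff (p * d) g).subst
      (PowerSeries.X ^ p : PowerSeries R) := by
  have hp0 : p ≠ 0 := (Fact.out : p.Prime).ne_zero
  have h0 : PowerSeries.coeff 0 g = 0 := by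
    rw [PowerSeries.coeff_zero_eq_constantCoeff_apply, hg.1]
  refine ⟨?_, ?_⟩
  · rw [← PowerSeries.coeff_zero_eq_constantCoeff_apply, PowerSeries.coeff_mk, mul_zero, h0]
  · obtain ⟨k, _, hk⟩ := derivative_hom hg
    rw [h1, map_zero, zero_mul] at hk
    rw [← PowerSeries.expand_apply p hp0]
    ext d
    by_cases hd : p ∣ d
    · obtain ⟨c, rfl⟩ := hd
      rw [PowerSeries.coeff_expand_mul, PowerSeries.coeff_mk]
    · rw [PowerSeries.coeff_expand_of_not_dvd p hp0 _ hd]
      obtain ⟨e, rfl⟩ : ∃ e, d = e + 1 := ⟨d - 1, by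
        rcases Nat.eq_zero_or_pos d with h | h
        · exact absurd (h ▸ dvd_zero p) hd
        · omega⟩
      have h2 := congrArg (PowerSeries.coeff e) hk
      rw [PowerSeries.coeff_derivative, map_zero] at h2
      have hu : IsUnit (((e + 1 : ℕ) : R)) := by
        have hz : ((e + 1 : ℕ) : ZMod p) ≠ 0 := by
          rw [Ne, ZMod.natCast_eq_zero_iff]
          exact hd
        have h3 : ((e + 1 : ℕ) : R) = (ZMod.castHom dvd_rfl R) ((e + 1 : ℕ) : ZMod p) := by
          rw [map_natCast]
        rw [h3]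
        exact (IsUnit.mk0 _ hz).map _
      push_cast at hu
      exact (hu.mul_left_eq_zero).1 h2

end formal

section step

variable {R : Type*} [CommRing R] {p n h : ℕ} [Fact p.Prime]

theorem ki3_map_sub {v : ℕ → R} {τ : Type*} (φ : R →+* R) (hv : (fun j => φ (v j)) = v)
    (a b : SPt p n v τ) (ha : a.1.map φ = a.1) (hb : b.1.map φ = b.1) :
    (a - b).1.map φ = (a - b).1 := by
  have h1 : (a - b) + b = a := sub_add_cancel a b
  have h2 := SPt.map_aux φ (a - b) b
  rw [h1, ha, hv, hb] at h2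
  have h3 : a = SPt.mk p n v ((a - b).1.map φ)
      (by rw [constantCoeff_map, (a - b).2, map_zero]) + b := Subtype.ext h2
  have h4 : a - b = SPt.mk p n v ((a - b).1.map φ)
      (by rw [constantCoeff_map, (a - b).2, map_zero]) := by
    conv_lhs => rw [h3]
    rw [add_sub_cancel_right]
  exact (congrArg Subtype.val h4).symm

/-- one step of the decomposition -/
theorem ki3_step [IsDomain R] [CharP R p] (g : PowerSeries R)
    (hg : IsHomS p n (Gam h) (Gam h) g)
    (hq : ∀ d, PowerSeries.coeff d g ^ (p ^ h) = PowerSeries.coeff d g) :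
    ∃ g' : PowerSeries R, IsHomS p n (Gam h) (Gam h) g' ∧
      (∀ d, PowerSeries.coeff d g' ^ (p ^ h) = PowerSeries.coeff d g') ∧
      g = (Fv p n (Gam h : ℕ → R)).subst
        ![(PowerSeries.C (PowerSeries.coeff 1 g) * PowerSeries.X : PowerSeries R),
        g'.subst (PowerSeries.X ^ p : PowerSeries R)] := by
  have hp0 : p ≠ 0 := (Fact.out : p.Prime).ne_zero
  obtain ⟨w, hw⟩ : ∃ w, w = PowerSeries.coeff 1 g := ⟨_, rfl⟩
  have hwq : w ^ (p ^ h) = w := by rw [hw]; exact hq 1
  have hk := ki6_isHomS (n := n) w hwq 0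
  rw [pow_zero, pow_one] at hk
  have hd := ki3_sub hg hk
  obtain ⟨D, hD⟩ : ∃ D : SPt p n (Gam h : ℕ → R) Unit, D =
      SPt.mk p n (Gam h) (τ := Unit) g hg.1 -
      SPt.mk p n (Gam h) (τ := Unit) (PowerSeries.C w * PowerSeries.X) hk.1 := ⟨_, rfl⟩
  rw [← hD] at hd
  have hDadd : SPt.mk p n (Gam h) (τ := Unit) (PowerSeries.C w * PowerSeries.X) hk.1 + D =
      SPt.mk p n (Gam h) (τ := Unit) g hg.1 := by
    rw [hD]
    abel
  have hval : g = (Fv p n (Gam h : ℕ → R)).subst
      ![(PowerSeries.C w * PowerSeries.X : PowerSeries R), D.1] := (congrArg Subtype.val hDadd).symm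
  have hform := subst_Fv_eq (p := p) (n := n) (v := Gam h) hk.1 D.2
  have hD1 : PowerSeries.coeff 1 (D.1 : PowerSeries R) = 0 := by
    have h1 := congrArg (PowerSeries.coeff 1) (hval.trans hform)
    have h3 : ∀ f : PowerSeries R, PowerSeries.coeff 1
        ((PowerSeries.C w * PowerSeries.X) * (D.1 : PowerSeries R) * f) = 0 := by
      intro f
      have h4 : PowerSeries.constantCoeff (D.1 : PowerSeries R) = 0 := D.2
      obtain ⟨e, he⟩ := PowerSeries.X_dvd_iff.2 h4
      rw [he]
      have h5 : PowerSeries.C w * PowerSeries.X * (PowerSeries.X * e) * f =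
          PowerSeries.X ^ 2 * (PowerSeries.C w * e * f) := by ring
      rw [h5, PowerSeries.coeff_X_pow_mul', if_neg (by omega)]
    have h6 := h3 (subst ![(PowerSeries.C w * PowerSeries.X : PowerSeries R), D.1]
      (GF p n (Gam h : ℕ → R)))
    have h7 : PowerSeries.coeff 1 (PowerSeries.C w * PowerSeries.X : PowerSeries R) = w := by
      rw [PowerSeries.coeff_C_mul, PowerSeries.coeff_one_X, mul_one]
    have h8 : PowerSeries.coeff 1 g = PowerSeries.coeff 1 (PowerSeries.C w * PowerSeries.X) +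
        PowerSeries.coeff 1 (D.1 : PowerSeries R) + PowerSeries.coeff 1
          ((PowerSeries.C w * PowerSeries.X) * (D.1 : PowerSeries R) *
          (subst ![(PowerSeries.C w * PowerSeries.X : PowerSeries R), D.1]
            (GF p n (Gam h : ℕ → R)) : PowerSeries R)) := by
      rw [← map_add, ← map_add]
      exact h1
    rw [h6, h7, ← hw, add_zero] at h8
    exact left_eq_add.1 h8
  obtain ⟨hf0, hf1⟩ := ki3_factor hd hD1
  refine ⟨PowerSeries.mk fun d => PowerSeries.coeff (p * d) (D.1 : PowerSeries R), ?_, ?_, ?_⟩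
  · have h1 := ki3_of_pow hf0 1 hd (by rw [pow_one]; exact hf1)
    have h2 : (fun j => (Gam h : ℕ → R) j ^ (p ^ 1)) = Gam h := by
      funext j
      unfold Gam
      split_ifs
      · exact one_pow _
      · exact zero_pow (pow_ne_zero _ hp0)
    rw [h2] at h1
    exact h1
  · have : ExpChar R p := ExpChar.prime (Fact.out : p.Prime)
    have hG : (fun j => iterateFrobenius R p h ((Gam h : ℕ → R) j)) = Gam h := by
      funext j
      unfold Gam
      split_ifs
      · exact map_one _
      · exact map_zero _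
    have h1 : D.1.map (iterateFrobenius R p h) = D.1 := by
      rw [hD]
      refine ki3_map_sub _ hG _ _ ?_ ?_
      · refine PowerSeries.ext fun d => ?_
        change PowerSeries.coeff d (PowerSeries.map (iterateFrobenius R p h) g) = _
        rw [PowerSeries.coeff_map, iterateFrobenius_def]
        exact hq d
      · refine PowerSeries.ext fun d => ?_
        change PowerSeries.coeff d (PowerSeries.map (iterateFrobenius R p h)
          (PowerSeries.C w * PowerSeries.X)) = _
        rw [PowerSeries.coeff_map, iterateFrobenius_def]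
        change (PowerSeries.coeff d (PowerSeries.C w * PowerSeries.X)) ^ p ^ h =
          PowerSeries.coeff d (PowerSeries.C w * PowerSeries.X)
        rw [PowerSeries.coeff_C_mul, PowerSeries.coeff_X]
        split_ifs
        · rw [mul_one, hwq]
        · rw [mul_zero, zero_pow (pow_ne_zero _ hp0)]
    intro d
    rw [PowerSeries.coeff_mk]
    have h2 := congrArg (PowerSeries.coeff (p * d)) h1
    change PowerSeries.coeff (p * d) (PowerSeries.map (iterateFrobenius R p h)
      (D.1 : PowerSeries R)) = PowerSeries.coeff (p * d) (D.1 : PowerSeries R) at h2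
    rw [PowerSeries.coeff_map, iterateFrobenius_def] at h2
    exact h2
  · rw [← hf1, ← hw]
    exact hval

end step

section points

variable {p n h : ℕ} [Fact p.Prime]
variable {K : Type*} [NormedField K] [IsUltrametricDist K] [CharP K p] [PerfectRing K p]
  [CompleteSpace K]

/-- homomorphisms of `Γ_h` with coefficients in `F_q` -/
def Ki3P (p n h : ℕ) [Fact p.Prime] (g : PowerSeries (OO K)) : Prop :=
  IsHomS p n (Gam h) (Gam h) g ∧ ∀ d, PowerSeries.coeff d g ^ (p ^ h) = PowerSeries.coeff d g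

theorem ki3_points (g g' : PowerSeries (OO K)) (hg' : IsHomS p n (Gam h) (Gam h) g')
    (he : g = (Fv p n (Gam h : ℕ → OO K)).subst
        ![(PowerSeries.C (PowerSeries.coeff 1 g) * PowerSeries.X : PowerSeries (OO K)),
        g'.subst (PowerSeries.X ^ p : PowerSeries (OO K))])
    {y : OO K} (hy : IsTopologicallyNilpotent y) :
    ev1 g y = ev2 (Fv p n (Gam h : ℕ → OO K)) (PowerSeries.coeff 1 g * y) (ev1 g' (y ^ p)) := by
  have hp0 : p ≠ 0 := (Fact.out : p.Prime).ne_zero
  have h1 : constantCoeff (PowerSeries.C (PowerSeries.coeff 1 g) * PowerSeries.X :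
      PowerSeries (OO K)) = 0 := by
    change PowerSeries.constantCoeff _ = 0
    rw [map_mul, PowerSeries.constantCoeff_X, mul_zero]
  have hXp : constantCoeff (PowerSeries.X ^ p : PowerSeries (OO K)) = 0 := by
    change PowerSeries.constantCoeff _ = 0
    rw [map_pow, PowerSeries.constantCoeff_X, zero_pow hp0]
  have h2 : constantCoeff (g'.subst (PowerSeries.X ^ p : PowerSeries (OO K)) :
      PowerSeries (OO K)) = 0 := PowerSeries.constantCoeff_subst_eq_zero hXp _ hg'.1
  have h3 := eval_pair h1 h2 (hasEval_one hy) (Fv p n (Gam h : ℕ → OO K))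
  rw [← he, ← ev1_def] at h3
  rw [h3]
  congr 1
  · change ev1 (PowerSeries.C (PowerSeries.coeff 1 g) * PowerSeries.X : PowerSeries (OO K)) y = _
    rw [ev1_mul _ _ hy, ev1_C, ev1_X]
  · rw [eval_one hXp (hasEval_one hy), ← ev1_def, ev1_pow _ _ hy, ev1_X]

theorem ki3_endo_decomp (α : PowerSeries (OO K))
    (hα : IsHomS p n (Gam h) (Gam h) α)
    (hq : ∀ d, PowerSeries.coeff d α ^ (p ^ h) = PowerSeries.coeff d α) :
    ∃ w : ℕ → OO K, (∀ s, w s ^ (p ^ h) = w s) ∧ (α ≠ 0 → ∃ s, w s ≠ 0) ∧
      ∀ y : FPt p n (Gam h : ℕ → OO K), ∃ z : ℕ → FPt p n (Gam h : ℕ → OO K),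
        (∀ s, (z s).1 = w s * y.1 ^ (p ^ s)) ∧
        Tendsto (fun N => (∑ s ∈ Finset.range N, z s).1) atTop (𝓝 (FPt.hom α hα y).1) := by
  classical
  have := charP_OO p K
  have hp0 : p ≠ 0 := (Fact.out : p.Prime).ne_zero
  have hp1 : 1 < p := (Fact.out : p.Prime).one_lt
  have hnext : ∀ g : {g : PowerSeries (OO K) // Ki3P p n h g},
      ∃ g' : {g : PowerSeries (OO K) // Ki3P p n h g},
      g.1 = (Fv p n (Gam h : ℕ → OO K)).subst
        ![(PowerSeries.C (PowerSeries.coeff 1 g.1) * PowerSeries.X : PowerSeries (OO K)),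
        g'.1.subst (PowerSeries.X ^ p : PowerSeries (OO K))] := by
    intro g
    obtain ⟨g', h1, h2, h3⟩ := ki3_step g.1 g.2.1 g.2.2
    exact ⟨⟨g', h1, h2⟩, h3⟩
  choose nx hnx using hnext
  let G : ℕ → {g : PowerSeries (OO K) // Ki3P p n h g} := fun s =>
    Nat.rec ⟨α, hα, hq⟩ (fun _ g => nx g) s
  have hG0 : (G 0).1 = α := rfl
  have hGs : ∀ s, G (s + 1) = nx (G s) := fun s => rfl
  obtain ⟨w, hw⟩ : ∃ w : ℕ → OO K, ∀ s, w s = PowerSeries.coeff 1 (G s).1 := ⟨_, fun s => rfl⟩
  have hrec : ∀ s, (G s).1 = (Fv p n (Gam h : ℕ → OO K)).subst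
        ![(PowerSeries.C (PowerSeries.coeff 1 (G s).1) * PowerSeries.X : PowerSeries (OO K)),
        (G (s + 1)).1.subst (PowerSeries.X ^ p : PowerSeries (OO K))] := by
    intro s
    rw [hGs s]
    exact hnx (G s)
  have hwq : ∀ s, w s ^ (p ^ h) = w s := by
    intro s
    rw [hw]
    exact (G s).2.2 1
  refine ⟨w, hwq, ?_, ?_⟩
  · intro hne
    by_contra hcon
    push Not at hcon
    apply hne
    have hexp : ∀ s, (G s).1 = PowerSeries.expand p hp0 (G (s + 1)).1 := by
      intro s
      have h1 := hrec s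
      rw [← hw s, hcon s, map_zero, zero_mul] at h1
      rw [PowerSeries.expand_apply]
      have hXp : constantCoeff (PowerSeries.X ^ p : PowerSeries (OO K)) = 0 := by
        change PowerSeries.constantCoeff _ = 0
        rw [map_pow, PowerSeries.constantCoeff_X, zero_pow hp0]
      have h2 : constantCoeff ((G (s + 1)).1.subst (PowerSeries.X ^ p : PowerSeries (OO K)) :
          PowerSeries (OO K)) = 0 := PowerSeries.constantCoeff_subst_eq_zero hXp _ (G (s + 1)).2.1.1
      exact h1.trans (US1.Fv_zero_left _ h2)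
    have hz : ∀ d s, PowerSeries.coeff d (G s).1 = 0 := by
      intro d
      induction d using Nat.strong_induction_on with
      | _ d ih =>
      intro s
      rcases Nat.eq_zero_or_pos d with hd | hd
      · rw [hd, PowerSeries.coeff_zero_eq_constantCoeff_apply]
        exact (G s).2.1.1
      · rw [hexp s, PowerSeries.coeff_expand]
        split_ifs with hpd
        · exact ih (d / p) (Nat.div_lt_self hd hp1) (s + 1)
        · rfl
    ext d
    rw [← hG0, hz d 0, map_zero]
  · intro y
    have hytn : ∀ s, IsTopologicallyNilpotent (y.1 ^ (p ^ s)) := by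
      intro s
      rw [tn_iff_norm_lt_one]
      have h1 : ‖((y.1 : OO K) : K)‖ < 1 := (tn_iff_norm_lt_one y.1).1 y.2
      have h2 : ((y.1 ^ (p ^ s) : OO K) : K) = ((y.1 : OO K) : K) ^ (p ^ s) := rfl
      rw [h2, norm_pow]
      exact pow_lt_one₀ (norm_nonneg _) h1 (pow_ne_zero _ hp0)
    let yN : ℕ → FPt p n (Gam h : ℕ → OO K) := fun s => ⟨y.1 ^ (p ^ s), hytn s⟩
    have hztn : ∀ s, IsTopologicallyNilpotent (w s * y.1 ^ (p ^ s)) := by
      intro s
      rw [mul_comm]
      exact isTopologicallyNilpotent_mul_right (hytn s) (w s)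
    let z : ℕ → FPt p n (Gam h : ℕ → OO K) := fun s => ⟨w s * y.1 ^ (p ^ s), hztn s⟩
    refine ⟨z, fun s => rfl, ?_⟩
    have hstep : ∀ s, FPt.hom (G s).1 (G s).2.1 (yN s) =
        z s + FPt.hom (G (s + 1)).1 (G (s + 1)).2.1 (yN (s + 1)) := by
      intro s
      apply Subtype.ext
      rw [FPt.add_val, FPt.hom_val, FPt.hom_val,
        ki3_points (G s).1 (G (s + 1)).1 (G (s + 1)).2.1 (hrec s) (hytn s), ← hw s]
      have h1 : (y.1 ^ (p ^ s)) ^ p = (yN (s + 1)).1 := by
        change (y.1 ^ (p ^ s)) ^ p = y.1 ^ (p ^ (s + 1))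
        rw [← pow_mul, ← pow_succ]
      rw [h1]
    have hsum : ∀ N, FPt.hom α hα y = ∑ s ∈ Finset.range N, z s +
        FPt.hom (G N).1 (G N).2.1 (yN N) := by
      intro N
      induction N with
      | zero =>
        rw [Finset.sum_range_zero, zero_add]
        apply Subtype.ext
        rw [FPt.hom_val, FPt.hom_val]
        change ev1 α y.1 = ev1 α (y.1 ^ (p ^ 0))
        rw [pow_zero, pow_one]
      | succ N ih =>
        rw [Finset.sum_range_succ, add_assoc, ← hstep N]
        exact ih
    rw [tendsto_pt_iff]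
    intro U hU
    have hy1 : Tendsto (fun N : ℕ => y.1 ^ (p ^ N)) atTop (𝓝 0) :=
      (show Tendsto (fun m : ℕ => y.1 ^ m) atTop (𝓝 0) from y.2).comp
        (tendsto_pow_atTop_atTop_of_one_lt hp1)
    have hy2 := hy1.eventually (hU.mem_nhds U.zero_mem)
    filter_upwards [hy2] with N hN
    have h1 : ∑ s ∈ Finset.range N, z s - FPt.hom α hα y =
        - FPt.hom (G N).1 (G N).2.1 (yN N) := by
      rw [hsum N]
      abel
    rw [h1]
    refine AddSubgroup.neg_mem _ ?_
    rw [FPt.mem_sub, FPt.hom_val]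
    have h2 := ev1_sub_mem (G N).1 (isClosed_of_isOpen_ideal hU) (yN N).2 tn_zero
      (by rw [sub_zero]; exact hN)
    rwa [ev1_zero (G N).2.1.1, sub_zero] at h2

end points

end Vale.Agent.P217
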