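import Vale.Agent.P217.Phi

/-!
# P217, KI4: `L^h_0 ∘ α ∘ xi` is a linear combination of the `L_l`
-/

set_option linter.unusedSectionVars false

namespace Vale.Agent.P217

open MvPowerSeries Filter Topology
open scoped MvPowerSeries.WithPiTopology

variable {p h m : ℕ} [Fact p.Prime]
variable {K C : Type} [NormedField K] [NormedField C] [IsUltrametricDist K] [IsUltrametricDist C]
  [CharP K p] [PerfectRing K p] [CompleteSpace K] [CompleteSpace C] [CharZero C]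

/-! ### integer translates -/

theorem ki4_shift (hp : ‖(p : C)‖ < 1) (S : SharpData p K C) {r : ℕ} (hr : 1 ≤ r) (i t : ℤ)
    {x : K} (hx : ‖x‖ < 1) : LL S r (i + r * t) x = (p : C) ^ t * LL S r i x := by
  have hpC : (p : C) ≠ 0 := by exact_mod_cast (Fact.out : p.Prime).ne_zero
  have hup : ∀ (n : ℕ) (i : ℤ), LL S r (i + r * n) x = (p : C) ^ n * LL S r i x := by
    intro n
    induction n with
    | zero => intro i; simp
    | succ n ih =>
      intro i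
      have e : i + (r : ℤ) * ((n + 1 : ℕ) : ℤ) = (i + r * n) + r := by push_cast; ring
      rw [e, LL_add_r hp S hr _ hx, ih, pow_succ']
      ring
  obtain ⟨n, rfl | rfl⟩ := t.eq_nat_or_neg
  · rw [hup, zpow_natCast]
  · have h1 := hup n (i + r * -(n : ℤ))
    have e : i + (r : ℤ) * -(n : ℤ) + r * n = i := by ring
    rw [e] at h1
    rw [h1, zpow_neg, zpow_natCast, ← mul_assoc, inv_mul_cancel₀ (pow_ne_zero _ hpC), one_mul]

theorem ki4_fz (S : SharpData p K C) (r : ℕ) (k : ℤ) (x : K) :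
    LL S r 0 (fz p k x) = LL S r k x := by
  rw [LL_fz, zero_add]

/-! ### small arguments -/

theorem ki4_small_one (hp : ‖(p : C)‖ < 1) (S : SharpData p K C) {r : ℕ} (hr : 1 ≤ r)
    {x : K} (hx : ‖x‖ ≤ ‖(p : C)‖) : ‖LL S r 0 x‖ ≤ 1 := by
  have hx1 : ‖x‖ < 1 := hx.trans_lt hp
  have hpos : 0 < ‖(p : C)‖ := kl_norm_p_pos
  have hpr : (1 : ℝ) < (p : ℝ) := by exact_mod_cast (Fact.out : p.Prime).one_lt
  have hsum : Summable fun j : ℤ => (p : C) ^ (-j) * S.sharp (fz p (0 + r * j) x) :=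
    LL_summable hp S hr 0 hx1
  have hterm : ∀ j : ℤ, ‖(p : C) ^ (-j) * S.sharp (fz p (0 + r * j) x)‖ ≤ 1 := by
    intro j
    rw [norm_mul, norm_zpow, S.norm_sharp, norm_fz, zero_add]
    have h1 : ‖x‖ ^ ((p : ℝ) ^ ((r : ℤ) * j)) ≤ ‖(p : C)‖ ^ ((p : ℝ) ^ ((r : ℤ) * j)) :=
      Real.rpow_le_rpow (norm_nonneg _) hx (by positivity)
    have h2 : (j : ℝ) ≤ (p : ℝ) ^ ((r : ℤ) * j) := by
      rcases le_or_gt j 0 with hj | hj
      · exact (by exact_mod_cast hj : (j : ℝ) ≤ 0).trans (by positivity)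
      · obtain ⟨n, rfl⟩ := Int.eq_ofNat_of_zero_le hj.le
        have h3 : n < p ^ (r * n) := by
          refine lt_of_lt_of_le (Nat.lt_pow_self (Fact.out : p.Prime).one_lt) ?_
          exact Nat.pow_le_pow_right (Fact.out : p.Prime).pos (Nat.le_mul_of_pos_left n hr)
        have h4 : (p : ℝ) ^ ((r : ℤ) * (n : ℤ)) = ((p ^ (r * n) : ℕ) : ℝ) := by
          push_cast
          rw [← zpow_natCast]
          push_cast
          rfl
        rw [h4]
        exact_mod_cast h3.le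
    have h5 : ‖(p : C)‖ ^ (-j) = ‖(p : C)‖ ^ (-(j : ℝ)) := by
      rw [← Real.rpow_intCast]
      push_cast
      rfl
    calc ‖(p : C)‖ ^ (-j) * ‖x‖ ^ ((p : ℝ) ^ ((r : ℤ) * j))
        ≤ ‖(p : C)‖ ^ (-j) * ‖(p : C)‖ ^ ((p : ℝ) ^ ((r : ℤ) * j)) :=
          mul_le_mul_of_nonneg_left h1 (zpow_nonneg (norm_nonneg _) _)
      _ = ‖(p : C)‖ ^ (-(j : ℝ) + (p : ℝ) ^ ((r : ℤ) * j)) := by
          rw [h5, ← Real.rpow_add hpos]
      _ ≤ 1 := Real.rpow_le_one hpos.le hp.le (by linarith)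
  have hcl : IsClosed {z : C | ‖z‖ ≤ 1} := isClosed_le continuous_norm continuous_const
  refine hcl.mem_of_tendsto hsum.hasSum (Eventually.of_forall fun s => ?_)
  show ‖∑ j ∈ s, (p : C) ^ (-j) * S.sharp (fz p (0 + r * j) x)‖ ≤ 1
  exact IsUltrametricDist.norm_sum_le_of_forall_le_of_nonneg zero_le_one fun j _ => hterm j

theorem ki4_small (hp : ‖(p : C)‖ < 1) (S : SharpData p K C) {r : ℕ} (hr : 1 ≤ r) (J : ℕ)
    {x : K} (hx : ‖x‖ ≤ ‖(p : C)‖ ^ (p ^ (r * J))) : ‖LL S r 0 x‖ ≤ ‖(p : C)‖ ^ J := by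
  have hp0 : (p : ℕ) ≠ 0 := (Fact.out : p.Prime).ne_zero
  have hpr : (p : ℝ) ≠ 0 := by exact_mod_cast hp0
  set y : K := fz p (-((r : ℤ) * J)) x with hy
  have hyn : ‖y‖ ≤ ‖(p : C)‖ := by
    rw [hy, norm_fz]
    have h1 : ‖x‖ ^ ((p : ℝ) ^ (-((r : ℤ) * J))) ≤
        (‖(p : C)‖ ^ (p ^ (r * J))) ^ ((p : ℝ) ^ (-((r : ℤ) * J))) :=
      Real.rpow_le_rpow (norm_nonneg _) hx (by positivity)
    refine h1.trans (le_of_eq ?_)
    rw [← Real.rpow_natCast, ← Real.rpow_mul (norm_nonneg _)]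
    have h2 : ((p ^ (r * J) : ℕ) : ℝ) * (p : ℝ) ^ (-((r : ℤ) * J)) = 1 := by
      rw [zpow_neg]
      have h3 : (p : ℝ) ^ ((r : ℤ) * J) = ((p ^ (r * J) : ℕ) : ℝ) := by
        push_cast
        rw [← zpow_natCast]
        push_cast
        rfl
      rw [h3]
      exact mul_inv_cancel₀ (by positivity)
    rw [h2, Real.rpow_one]
  have hxy : x = fz p ((r : ℤ) * J) y := by
    rw [hy, fz_add]
    simp [fz]
  have h1 : LL S r 0 x = (p : C) ^ J * LL S r 0 y := by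
    rw [hxy, ki4_fz]
    have h2 := ki4_shift hp S hr 0 (J : ℤ) (hyn.trans_lt hp)
    rw [zero_add, zpow_natCast] at h2
    exact h2
  rw [h1, norm_mul, norm_pow]
  exact mul_le_of_le_one_right (by positivity) (ki4_small_one hp S hr hyn)

/-! ### `LL r 0` as a continuous homomorphism -/

/-- `LL r 0` as a homomorphism on the points. -/
noncomputable def LLhom (hp : ‖(p : C)‖ < 1) (S : SharpData p K C) {n r : ℕ}
    (hr : 1 ≤ r) (hrn : r ≤ n) : FPt p n (Gam r : ℕ → OO K) →+ C :=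
  AddMonoidHom.mk' (fun x => LL S r 0 ((x.1 : OO K) : K)) fun x y =>
    LL_add_point hp S hr hrn 0 x y

theorem LLhom_apply (hp : ‖(p : C)‖ < 1) (S : SharpData p K C) {n r : ℕ}
    (hr : 1 ≤ r) (hrn : r ≤ n) (x : FPt p n (Gam r : ℕ → OO K)) :
    LLhom hp S hr hrn x = LL S r 0 ((x.1 : OO K) : K) := rfl

theorem LLhom_tendsto (hp : ‖(p : C)‖ < 1) (S : SharpData p K C) {n r : ℕ}
    (hr : 1 ≤ r) (hrn : r ≤ n) (a : ℕ → FPt p n (Gam r : ℕ → OO K))
    (b : FPt p n (Gam r : ℕ → OO K)) (hab : Tendsto (fun N => (a N).1) atTop (𝓝 b.1)) :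
    Tendsto (fun N => LLhom hp S hr hrn (a N)) atTop (𝓝 (LLhom hp S hr hrn b)) := by
  rw [tendsto_iff_norm_sub_tendsto_zero]
  have hpos : 0 < ‖(p : C)‖ := kl_norm_p_pos
  rw [Metric.tendsto_atTop]
  intro ε hε
  obtain ⟨J, hJ⟩ := exists_pow_lt_of_lt_one hε hp
  have hr0 : 0 < ‖(p : C)‖ ^ (p ^ (r * J)) := by positivity
  have h1 : Tendsto (fun N => ‖(((a N).1 - b.1 : OO K) : K)‖) atTop (𝓝 0) := by
    have h2 : Tendsto (fun N => (((a N).1 - b.1 : OO K) : K)) atTop (𝓝 0) := by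
      have h3 : Tendsto (fun N => (a N).1 - b.1) atTop (𝓝 0) := by
        have := hab.sub_const b.1
        rwa [sub_self] at this
      have h4 := (continuous_subtype_val.tendsto (0 : OO K)).comp h3
      rw [ZeroMemClass.coe_zero] at h4
      exact h4
    have := h2.norm
    rwa [norm_zero] at this
  obtain ⟨N0, hN0⟩ := (Metric.tendsto_atTop.1 h1) _ hr0
  refine ⟨N0, fun N hN => ?_⟩
  have h2 := hN0 N hN
  rw [dist_zero_right, norm_norm] at h2
  have h3 : (a N - b).1 ∈ ballI K (‖(p : C)‖ ^ (p ^ (r * J))) hr0.le :=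
    (FPt.sub_mem_iff (ball_closed hr0.le) (a N) b).2 h2.le
  rw [dist_zero_right, norm_norm, ← map_sub, LLhom_apply]
  exact (ki4_small hp S hr J h3).trans_lt hJ

/-! ### linear combinations -/

/-- linear combinations of the `L_l`, `0 ≤ l < n` -/
noncomputable def LCsp (S : SharpData p K C) (n : ℕ) :
    Submodule C (FPt p n (Gam n : ℕ → OO K) → C) :=
  Submodule.span C (Set.range fun l : Fin n =>
    fun x : FPt p n (Gam n : ℕ → OO K) => LL S n ((l : ℕ) : ℤ) ((x.1 : OO K) : K))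

theorem LCsp_iff (S : SharpData p K C) (n : ℕ) (f : FPt p n (Gam n : ℕ → OO K) → C) :
    f ∈ LCsp S n ↔ ∃ Ξ : Fin n → C, ∀ x : FPt p n (Gam n : ℕ → OO K),
      f x = ∑ l, Ξ l * LL S n ((l : ℕ) : ℤ) ((x.1 : OO K) : K) := by
  unfold LCsp
  rw [Submodule.mem_span_range_iff_exists_fun]
  refine exists_congr fun Ξ => ?_
  constructor
  · intro hf x
    rw [← hf]
    simp [Finset.sum_apply]
  · intro hf
    funext x
    rw [hf x]
    simp [Finset.sum_apply]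

theorem LCsp_closed (hp : ‖(p : C)‖ < 1) (S : SharpData p K C) (n : ℕ) :
    IsClosed ((LCsp S n : Submodule C (FPt p n (Gam n : ℕ → OO K) → C)) :
      Set (FPt p n (Gam n : ℕ → OO K) → C)) := by
  have hpC : (p : C) ≠ 0 := by exact_mod_cast (Fact.out : p.Prime).ne_zero
  let : NontriviallyNormedField C := NontriviallyNormedField.ofNormNeOne ⟨(p : C), hpC, hp.ne⟩
  have : FiniteDimensional C (LCsp S n) :=
    FiniteDimensional.span_of_finite C (Set.finite_range _)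
  exact Submodule.closed_of_finiteDimensional (LCsp S n)

theorem LCsp_LL (hp : ‖(p : C)‖ < 1) (S : SharpData p K C) {n : ℕ} (hn : 1 ≤ n) (s : ℤ) :
    (fun x : FPt p n (Gam n : ℕ → OO K) => LL S n s ((x.1 : OO K) : K)) ∈ LCsp S n := by
  have hn0 : (0 : ℤ) < n := by exact_mod_cast hn
  obtain ⟨l, hl⟩ : ∃ l : ℕ, s % n = l := Int.eq_ofNat_of_zero_le (Int.emod_nonneg s hn0.ne')
  have hl1 : l < n := by
    have := Int.emod_lt_of_pos s hn0
    rw [hl] at this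
    exact_mod_cast this
  have e : s = (l : ℤ) + n * (s / n) := by
    rw [← hl]
    exact (Int.emod_add_mul_ediv s n).symm
  have h1 : (fun x : FPt p n (Gam n : ℕ → OO K) => LL S n s ((x.1 : OO K) : K)) =
      ((p : C) ^ (s / n)) • fun x : FPt p n (Gam n : ℕ → OO K) =>
        LL S n (l : ℤ) ((x.1 : OO K) : K) := by
    funext x
    conv_lhs => rw [e]
    rw [ki4_shift hp S hn _ _ ((tn_iff_norm_lt_one _).1 x.2)]
    rfl
  rw [h1]
  exact Submodule.smul_mem _ _ (Submodule.subset_span ⟨⟨l, hl1⟩, rfl⟩)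

theorem LCsp_comp_Etw (hp : ‖(p : C)‖ < 1) (S : SharpData p K C) {n : ℕ} (hn : 1 ≤ n) (k : ℤ)
    {f : FPt p n (Gam n : ℕ → OO K) → C} (hf : f ∈ LCsp S n) :
    (fun x => f (Etw k x)) ∈ LCsp S n := by
  obtain ⟨Ξ, hΞ⟩ := (LCsp_iff S n f).1 hf
  have h1 : (fun x => f (Etw k x)) = ∑ l, Ξ l • fun x : FPt p n (Gam n : ℕ → OO K) =>
      LL S n (((l : ℕ) : ℤ) + k) ((x.1 : OO K) : K) := by
    funext x
    rw [hΞ, Finset.sum_apply]
    refine Finset.sum_congr rfl fun l _ => ?_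
    rw [Etw_val, fzO_val, LL_fz]
    rfl
  rw [h1]
  exact Submodule.sum_mem _ fun l _ => Submodule.smul_mem _ _ (LCsp_LL hp S hn _)

theorem LCsp_elC (S : SharpData p K C) {u : Fin m → OO C} {ρ : ℝ} (D : Dt p h m u ρ) :
    (fun x => elC D S x) ∈ LCsp S (h + m) := by
  rw [LCsp_iff]
  exact exists_W D S

theorem LCsp_xi (hp : ‖(p : C)‖ < 1) (T : TiltData p K C) {a : Fin m → OO K} {ρ : ℝ}
    (D : Dt p h m a ρ) (S0 : SharpData p K K) (hS : ∀ x, S0.sharp x = x) (P : PhiData p h m a) :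
    (fun x => LL T.toSharpData h 0 (((xi D S0 P x).1 : OO K) : K)) ∈
      LCsp T.toSharpData (h + m) := by
  have hn : 1 ≤ h + m := by have := D.h_pos; omega
  have Dk : ∀ k : ℕ, ∃ ρ', Dt p h m (fun i => shO T.toSharpData (a i ^ (p ^ k))) ρ' := by
    intro k
    obtain ⟨ρ1, D1⟩ := D.twist (k : ℤ)
    have e : (fun i => fzO p (k : ℤ) (a i)) = fun i => a i ^ (p ^ k) :=
      funext fun i => fzO_nat k (a i)
    rw [e] at D1
    exact D1.sharp hp T.toSharpData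
  have h1 : (fun x => LL T.toSharpData h 0 (((xi D S0 P x).1 : OO K) : K)) =
      ∑ k ∈ Finset.range (h + m), ((T.theta (P.b k) : OO C) : C) • fun x =>
        elC (Dk k).choose_spec T.toSharpData (Etw (k : ℤ) x) := by
    funext x
    rw [LL_xi hp T D S0 hS P Dk x, Finset.sum_apply]
    rfl
  rw [h1]
  exact Submodule.sum_mem _ fun k _ => Submodule.smul_mem _ _
    (LCsp_comp_Etw hp _ hn _ (LCsp_elC _ (Dk k).choose_spec))

/-- The twist of `xi`. -/
theorem xi_twist {a : Fin m → OO K} {ρ ρ' : ℝ} (D : Dt p h m a ρ) (S0 : SharpData p K K)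
    (hS : ∀ x, S0.sharp x = x) (P : PhiData p h m a) (k : ℕ)
    (D' : Dt p h m (fun i => a i ^ (p ^ k)) ρ') (P' : PhiData p h m (fun i => a i ^ (p ^ k)))
    (hP' : ∀ d, PowerSeries.coeff d P'.phi = (PowerSeries.coeff d P.phi) ^ (p ^ k))
    (x : FPt p (h + m) (Gam (h + m) : ℕ → OO K)) :
    (xi D' S0 P' (Etw (k : ℤ) x)).1 = (xi D S0 P x).1 ^ (p ^ k) := by
  have e : (fun i => fzO p (k : ℤ) (a i)) = fun i => a i ^ (p ^ k) :=
    funext fun i => fzO_nat k (a i)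
  have hpr : (pra D' S0 (Etw (k : ℤ) x)).1 = fzO p (k : ℤ) (pra D S0 x).1 := by
    have D1 : Dt p h m (fun i => fzO p (k : ℤ) (a i)) ρ' := by rw [e]; exact D'
    rw [← pra_twist D (k : ℤ) D1 S0 hS x]
    have key : ∀ (a' a'' : Fin m → OO K) (_ : a' = a'') (D2 : Dt p h m a' ρ')
        (D3 : Dt p h m a'' ρ') (y : FPt p (h + m) (Gam (h + m) : ℕ → OO K)),
        (pra D2 S0 y).1 = (pra D3 S0 y).1 := by
      rintro a' a'' rfl D2 D3 y
      rfl
    exact key _ _ e.symm D' D1 _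
  show ev1 P'.phi (pra D' S0 (Etw (k : ℤ) x)).1 = (ev1 P.phi (pra D S0 x).1) ^ (p ^ k)
  rw [hpr, ← fzO_nat]
  have h1 := ev1_map (continuous_fzO (K := K) (p := p) (k : ℤ)) P.phi (pra D S0 x).2
  have h2 : P'.phi = P.phi.map (fzO p (k : ℤ) : OO K ≃+* OO K).toRingHom := by
    ext d
    rw [hP', PowerSeries.coeff_map, ← fzO_nat]
    rfl
  rw [h2]
  exact h1.symm

theorem LCsp_xi_nat (hp : ‖(p : C)‖ < 1) (T : TiltData p K C) {a : Fin m → OO K} {ρ : ℝ}
    (D : Dt p h m a ρ) (S0 : SharpData p K K) (hS : ∀ x, S0.sharp x = x) (P : PhiData p h m a)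
    (k : ℕ) :
    (fun x => LL T.toSharpData h (k : ℤ) (((xi D S0 P x).1 : OO K) : K)) ∈
      LCsp T.toSharpData (h + m) := by
  have hn : 1 ≤ h + m := by have := D.h_pos; omega
  obtain ⟨ρ', D'⟩ := D.twist (k : ℤ)
  have e : (fun i => fzO p (k : ℤ) (a i)) = fun i => a i ^ (p ^ k) :=
    funext fun i => fzO_nat k (a i)
  rw [e] at D'
  obtain ⟨P', -, hP'⟩ := P.twist k
  have h1 := LCsp_comp_Etw hp T.toSharpData hn (k : ℤ) (LCsp_xi hp T D' S0 hS P')
  convert h1 using 2 with x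
  rw [xi_twist D S0 hS P k D' P' hP' x, ← ki4_fz, fz_nat]
  rfl

/-- KI4, from the decomposition of `α` (KI3). -/
theorem LL_endo_xi_ki4 (hp : ‖(p : C)‖ < 1) (T : TiltData p K C) {a : Fin m → OO K} {ρ : ℝ}
    (D : Dt p h m a ρ) (S0 : SharpData p K K) (hS : ∀ x, S0.sharp x = x) (P : PhiData p h m a)
    (α : PowerSeries (OO K)) (hα : IsHomS p (h + m) (Gam h) (Gam h) α)
    (w : ℕ → OO K) (hw : ∀ s, w s ^ (p ^ h) = w s)
    (hdec : ∀ y : FPt p (h + m) (Gam h : ℕ → OO K), ∃ z : ℕ → FPt p (h + m) (Gam h : ℕ → OO K),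
        (∀ s, (z s).1 = w s * y.1 ^ (p ^ s)) ∧
        Tendsto (fun N => (∑ s ∈ Finset.range N, z s).1) atTop (𝓝 (FPt.hom α hα y).1)) :
    ∃ Ξ : Fin (h + m) → C, ∀ x : FPt p (h + m) (Gam (h + m) : ℕ → OO K),
      LL T.toSharpData h 0 (((FPt.hom α hα (xi D S0 P x)).1 : OO K) : K) =
        ∑ l, Ξ l * LL T.toSharpData (h + m) ((l : ℕ) : ℤ) ((x.1 : OO K) : K) := by
  set S := T.toSharpData with hSdef
  rw [← LCsp_iff]
  have hh : 1 ≤ h := D.h_pos
  have hhn : h ≤ h + m := Nat.le_add_right _ _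
  -- approximations
  set f : ℕ → (FPt p (h + m) (Gam (h + m) : ℕ → OO K) → C) := fun N =>
    ∑ s ∈ Finset.range N, S.sharp ((w s : OO K) : K) • fun x =>
      LL S h (s : ℤ) (((xi D S0 P x).1 : OO K) : K) with hf
  have hmem : ∀ N, f N ∈ LCsp S (h + m) := fun N =>
    Submodule.sum_mem _ fun s _ => Submodule.smul_mem _ _ (LCsp_xi_nat hp T D S0 hS P s)
  refine (LCsp_closed hp S (h + m)).mem_of_tendsto (f := f) (b := atTop) ?_
    (Eventually.of_forall hmem)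
  rw [tendsto_pi_nhds]
  intro x
  obtain ⟨z, hz, hlim⟩ := hdec (xi D S0 P x)
  have h1 := LLhom_tendsto hp S hh hhn (fun N => ∑ s ∈ Finset.range N, z s)
    (FPt.hom α hα (xi D S0 P x)) hlim
  refine h1.congr fun N => ?_
  rw [map_sum, hf]
  simp only [Finset.sum_apply, Pi.smul_apply, smul_eq_mul]
  refine Finset.sum_congr rfl fun s _ => ?_
  rw [LLhom_apply, hz s]
  have hy : ‖(((xi D S0 P x).1 : OO K) : K)‖ < 1 := (tn_iff_norm_lt_one _).1 (xi D S0 P x).2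
  have hps : p ^ s ≠ 0 := pow_ne_zero _ (Fact.out : p.Prime).ne_zero
  have e1 : (((w s * (xi D S0 P x).1 ^ (p ^ s) : OO K)) : K) =
      ((w s : OO K) : K) * (((xi D S0 P x).1 : OO K) : K) ^ (p ^ s) := rfl
  have hwK : ((w s : OO K) : K) ^ (p ^ h) = ((w s : OO K) : K) :=
    congrArg (fun t : OO K => (t : K)) (hw s)
  have hfz0 : fz p 0 ((w s : OO K) : K) = ((w s : OO K) : K) := by simp [fz]
  rw [e1, LL_omega hp S hh 0 (by rw [norm_pow]; exact pow_lt_one₀ (norm_nonneg _) hy hps) hwK,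
    hfz0, ← fz_nat, ki4_fz]

end Vale.Agent.P217
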