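import Vale.Agent.P217.Phi
import Vale.Agent.P217.Jac

/-!
# P217, module KI5: `L^h_0 ∘ α ∘ xi` does not vanish identically if `α ≠ 0`
-/

set_option linter.unusedSectionVars false
set_option linter.unusedVariables false

namespace Vale.Agent.P217

open MvPowerSeries Filter Topology

variable {p h m : ℕ} [Fact p.Prime]
variable {K C : Type} [NormedField K] [NormedField C] [IsUltrametricDist K] [IsUltrametricDist C]
  [CharP K p] [PerfectRing K p] [CompleteSpace K] [CompleteSpace C] [CharZero C]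

/-- density of the value group -/
theorem ki5_exists_norm [IsAlgClosed K] {b : K} (hb0 : b ≠ 0) (hb1 : ‖b‖ < 1) {A B : ℝ}
    (hA : 0 < A) (hAB : A < B) : ∃ z : K, A < ‖z‖ ∧ ‖z‖ < B := by
  have hb : 0 < ‖b‖ := norm_pos_iff.2 hb0
  have hl : Real.log ‖b‖ < 0 := Real.log_neg hb hb1
  have hlog : Real.log A < Real.log B := Real.log_lt_log hA hAB
  obtain ⟨r, hr1, hr2⟩ := exists_rat_btwn (div_lt_div_of_neg_of_lt hl hlog)
  obtain ⟨z, hz⟩ := IsAlgClosed.exists_pow_nat_eq (b ^ r.num) r.den_pos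
  have hz0 : z ≠ 0 := by
    rintro rfl
    rw [zero_pow r.den_nz] at hz
    exact zpow_ne_zero _ hb0 hz.symm
  have hzn : 0 < ‖z‖ := norm_pos_iff.2 hz0
  have h1 : (r.den : ℝ) * Real.log ‖z‖ = (r.num : ℝ) * Real.log ‖b‖ := by
    have h2 := congrArg (fun w : K => Real.log ‖w‖) hz
    simp only [norm_pow, norm_zpow, Real.log_pow, Real.log_zpow] at h2
    exact h2
  have hden : (0 : ℝ) < r.den := by exact_mod_cast r.den_pos
  have h3 : Real.log ‖z‖ = (r : ℝ) * Real.log ‖b‖ := by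
    have h4 : (r : ℝ) = (r.num : ℝ) / (r.den : ℝ) := by
      rw [Rat.cast_def]
    rw [h4, div_mul_eq_mul_div, ← h1]
    field_simp
  refine ⟨z, ?_, ?_⟩
  · rw [← Real.log_lt_log_iff hA hzn, h3]
    rw [lt_div_iff_of_neg hl] at hr2
    exact hr2
  · rw [← Real.log_lt_log_iff hzn (hA.trans hAB), h3]
    rw [div_lt_iff_of_neg hl] at hr1
    exact hr1

/-- the norm of `f(z)` for small `z`, from the linear coefficient -/
theorem ki5_norm_lin (f : PowerSeries (OO K)) (hf : PowerSeries.constantCoeff f = 0) {z : OO K}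
    (hz : ‖(z : K)‖ < ‖((PowerSeries.coeff 1 f : OO K) : K)‖) :
    ‖((ev1 f z : OO K) : K)‖ = ‖((PowerSeries.coeff 1 f : OO K) : K)‖ * ‖(z : K)‖ := by
  have hz1 : ‖(z : K)‖ < 1 := hz.trans_le (PowerSeries.coeff 1 f).2
  rw [ev1_eq_add_mul_sq f ((tn_iff_norm_lt_one z).2 hz1), hf, zero_add]
  set g := ev1 (PowerSeries.mk fun i => PowerSeries.coeff (i + 2) f) z
  by_cases h0 : z = 0
  · rw [h0]
    simp
  have hz0 : 0 < ‖(z : K)‖ := norm_pos_iff.2 (fun h => h0 (Subtype.ext h))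
  have hlt : ‖(((z ^ 2 * g : OO K)) : K)‖ < ‖(((PowerSeries.coeff 1 f * z : OO K)) : K)‖ := by
    have e1 : (((z ^ 2 * g : OO K)) : K) = (z : K) ^ 2 * (g : K) := by push_cast; rfl
    have e2 : (((PowerSeries.coeff 1 f * z : OO K)) : K) =
      ((PowerSeries.coeff 1 f : OO K) : K) * (z : K) := by push_cast; rfl
    rw [e1, e2, norm_mul, norm_mul, norm_pow]
    calc ‖(z : K)‖ ^ 2 * ‖(g : K)‖ ≤ ‖(z : K)‖ ^ 2 * 1 :=
          mul_le_mul_of_nonneg_left g.2 (by positivity)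
      _ = ‖(z : K)‖ * ‖(z : K)‖ := by ring
      _ < ‖((PowerSeries.coeff 1 f : OO K) : K)‖ * ‖(z : K)‖ := mul_lt_mul_of_pos_right hz hz0
  have e3 : (((PowerSeries.coeff 1 f * z + z ^ 2 * g : OO K)) : K) =
      (((PowerSeries.coeff 1 f * z : OO K)) : K) + (((z ^ 2 * g : OO K)) : K) := by push_cast; rfl
  rw [e3, IsUltrametricDist.norm_add_eq_max_of_norm_ne_norm hlt.ne', max_eq_left hlt.le]
  have e2 : (((PowerSeries.coeff 1 f * z : OO K)) : K) =
      ((PowerSeries.coeff 1 f : OO K) : K) * (z : K) := by push_cast; rfl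
  rw [e2, norm_mul]

/-- the norm of `α(y)` if the lowest coefficient of `α` has norm one -/
theorem ki5_norm_order (α : PowerSeries (OO K)) {d : ℕ} (hlow : ∀ i < d, PowerSeries.coeff i α = 0)
    (hd : ‖((PowerSeries.coeff d α : OO K) : K)‖ = 1) {y : OO K} (hy : ‖(y : K)‖ < 1) :
    ‖((ev1 α y : OO K) : K)‖ = ‖(y : K)‖ ^ d := by
  have hty : IsTopologicallyNilpotent y := (tn_iff_norm_lt_one y).2 hy
  have e : α = (PowerSeries.X : PowerSeries (OO K)) ^ d *
      PowerSeries.mk fun i => PowerSeries.coeff (i + d) α := by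
    refine PowerSeries.ext fun i => ?_
    rw [PowerSeries.coeff_X_pow_mul']
    split_ifs with hi
    · rw [PowerSeries.coeff_mk, Nat.sub_add_cancel hi]
    · exact hlow i (by omega)
  rw [e, pb_ev1_mul hty, pb_ev1_pow hty, ev1_X]
  set g : PowerSeries (OO K) := PowerSeries.mk fun i => PowerSeries.coeff (i + d) α with hg
  have hg0 : PowerSeries.constantCoeff g = PowerSeries.coeff d α := by
    rw [← PowerSeries.coeff_zero_eq_constantCoeff_apply, hg, PowerSeries.coeff_mk, zero_add]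
  have h1 : ‖((ev1 g y : OO K) : K)‖ = 1 := by
    rw [ev1_eq_add_mul g hty, hg0]
    set t := ev1 (PowerSeries.mk fun i => PowerSeries.coeff (i + 1) g) y
    have hlt : ‖(((y * t : OO K)) : K)‖ < ‖((PowerSeries.coeff d α : OO K) : K)‖ := by
      rw [hd]
      have e1 : (((y * t : OO K)) : K) = (y : K) * (t : K) := rfl
      rw [e1, norm_mul]
      calc ‖(y : K)‖ * ‖(t : K)‖ ≤ ‖(y : K)‖ * 1 := mul_le_mul_of_nonneg_left t.2 (norm_nonneg _)
        _ < 1 := by rwa [mul_one]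
    have e3 : (((PowerSeries.coeff d α + y * t : OO K)) : K) =
      ((PowerSeries.coeff d α : OO K) : K) + (((y * t : OO K)) : K) := rfl
    rw [e3, IsUltrametricDist.norm_add_eq_max_of_norm_ne_norm hlt.ne', max_eq_left hlt.le, hd]
  have e4 : (((y ^ d * ev1 g y : OO K)) : K) = (y : K) ^ d * ((ev1 g y : OO K) : K) := by
    push_cast
    rfl
  rw [e4, norm_mul, norm_pow, h1, mul_one]

/-- The generic situation: a unique dominant term. -/
theorem ki5_dominant {π θ τ q : ℝ} (hπ : 0 < π) (hθ : 0 < θ) (hq : 1 < q)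
    (hπθ : π = θ ^ (q - 1)) (hτ0 : 0 < τ) (hτ1 : τ < 1) {j0 : ℤ}
    (h1 : τ ^ (q ^ j0) < θ) (h2 : θ < τ ^ (q ^ (j0 - 1))) (j : ℤ) (hj : j ≠ j0) :
    π ^ (-j) * τ ^ (q ^ j) < π ^ (-j0) * τ ^ (q ^ j0) := by
  have hq0 : 0 < q := by linarith
  have step : ∀ j : ℤ, π ^ (-(j + 1)) * τ ^ (q ^ (j + 1)) =
      (π ^ (-j) * τ ^ (q ^ j)) * (τ ^ (q ^ j) / θ) ^ (q - 1) := by
    intro j
    have hs : 0 < τ ^ (q ^ j) := Real.rpow_pos_of_pos hτ0 _
    have e1 : τ ^ (q ^ (j + 1)) = τ ^ (q ^ j) * (τ ^ (q ^ j)) ^ (q - 1) := by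
      rw [← Real.rpow_one_add' hs.le (by linarith), ← Real.rpow_mul hτ0.le, zpow_add_one₀ hq0.ne']
      congr 1
      ring
    have e2 : π ^ (-(j + 1)) = π ^ (-j) * π⁻¹ := by
      rw [neg_add, zpow_add₀ hπ.ne', zpow_neg_one]
    rw [e1, e2, Real.div_rpow hs.le hθ.le, ← hπθ]
    field_simp
  have hpos : ∀ j : ℤ, 0 < π ^ (-j) * τ ^ (q ^ j) := fun j =>
    mul_pos (zpow_pos hπ _) (Real.rpow_pos_of_pos hτ0 _)
  have hanti : ∀ i j : ℤ, i ≤ j → τ ^ (q ^ j) ≤ τ ^ (q ^ i) := fun i j hij =>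
    Real.rpow_le_rpow_of_exponent_ge hτ0 hτ1.le (zpow_le_zpow_right₀ hq.le hij)
  have up : ∀ k : ℕ, π ^ (-(j0 + (k + 1 : ℕ))) * τ ^ (q ^ (j0 + (k + 1 : ℕ))) <
      π ^ (-j0) * τ ^ (q ^ j0) := by
    have hfac : ∀ k : ℕ, (τ ^ (q ^ (j0 + (k : ℕ))) / θ) ^ (q - 1) < 1 := by
      intro k
      refine Real.rpow_lt_one (by positivity) ?_ (by linarith)
      rw [div_lt_one hθ]
      exact (hanti _ _ (by omega)).trans_lt h1
    have hle : ∀ k : ℕ, π ^ (-(j0 + (k : ℕ))) * τ ^ (q ^ (j0 + (k : ℕ))) ≤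
        π ^ (-j0) * τ ^ (q ^ j0) := by
      intro k
      induction k with
      | zero => simp
      | succ k ih =>
        have e : (j0 + ((k + 1 : ℕ) : ℤ)) = (j0 + (k : ℕ)) + 1 := by push_cast; ring
        rw [e, step]
        exact (mul_le_of_le_one_right (hpos _).le (hfac k).le).trans ih
    intro k
    have e : (j0 + ((k + 1 : ℕ) : ℤ)) = (j0 + (k : ℕ)) + 1 := by push_cast; ring
    rw [e, step]
    exact (mul_lt_of_lt_one_right (hpos _) (hfac k)).trans_le (hle k)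
  have down : ∀ k : ℕ, π ^ (-(j0 - (k + 1 : ℕ))) * τ ^ (q ^ (j0 - (k + 1 : ℕ))) <
      π ^ (-j0) * τ ^ (q ^ j0) := by
    have hfac : ∀ k : ℕ, 1 < (τ ^ (q ^ (j0 - (k + 1 : ℕ))) / θ) ^ (q - 1) := by
      intro k
      refine Real.one_lt_rpow ?_ (by linarith)
      rw [one_lt_div hθ]
      exact h2.trans_le (hanti _ _ (by push_cast; omega))
    have hstep : ∀ k : ℕ, π ^ (-(j0 - (k + 1 : ℕ))) * τ ^ (q ^ (j0 - (k + 1 : ℕ))) <
        π ^ (-(j0 - (k : ℕ))) * τ ^ (q ^ (j0 - (k : ℕ))) := by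
      intro k
      have e : (j0 - (k : ℕ)) = (j0 - ((k + 1 : ℕ) : ℤ)) + 1 := by push_cast; ring
      rw [e, step]
      exact lt_mul_of_one_lt_right (hpos _) (hfac k)
    have hle : ∀ k : ℕ, π ^ (-(j0 - (k : ℕ))) * τ ^ (q ^ (j0 - (k : ℕ))) ≤
        π ^ (-j0) * τ ^ (q ^ j0) := by
      intro k
      induction k with
      | zero => simp
      | succ k ih => exact (hstep k).le.trans ih
    intro k
    exact (hstep k).trans_le (hle k)
  rcases lt_or_gt_of_ne hj with h | h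
  · obtain ⟨k, hk⟩ : ∃ k : ℕ, j = j0 - (k + 1 : ℕ) := ⟨(j0 - j - 1).toNat, by omega⟩
    rw [hk]
    exact down k
  · obtain ⟨k, hk⟩ : ∃ k : ℕ, j = j0 + (k + 1 : ℕ) := ⟨(j - j0 - 1).toNat, by omega⟩
    rw [hk]
    exact up k

/-- the first parameter is nonzero and small -/
theorem ki5_a0 {a : Fin m → OO K} (hh : 1 ≤ h) (hm : 1 ≤ m) (P : PhiData p h m a) :
    a ⟨0, hm⟩ ≠ 0 := by
  intro h0
  have h1 := P.beq.2 0 (by omega)
  have h2 := congrArg (WittVector.constantCoeff (p := p) (R := OO K)) h1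
  have hsum : (∑ l ∈ Finset.range h, if l ≤ 0 then
      P.b l * (WittVector.frobenius (p := p) (R := OO K))^[l] (teiPar p h m a (0 + h - l)) else 0)
      = P.b 0 * teiPar p h m a h := by
    rw [Finset.sum_eq_single_of_mem 0 (Finset.mem_range.2 (by omega))
      (fun l _ hl => if_neg (by omega))]
    simp
  rw [hsum, map_add, map_mul, map_mul] at h2
  have hpar : teiPar p h m a h = WittVector.teichmuller p (a ⟨0, hm⟩) := by
    unfold teiPar par
    rw [dif_pos ⟨le_refl h, by omega⟩]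
    simp
  have hz : WittVector.constantCoeff (teiPar p h m a h) = 0 := by
    rw [hpar, h0]
    simp
  have hpz : WittVector.constantCoeff ((p : WittVector p (OO K))) = 0 := by
    rw [map_natCast]
    exact CharP.cast_eq_zero (OO K) p
  rw [hz, hpz, mul_zero, zero_mul, add_zero] at h2
  have h3 : ∀ k : ℕ, ∀ x : WittVector p (OO K), WittVector.constantCoeff
      ((WittVector.frobenius (p := p) (R := OO K))^[k] x) = WittVector.constantCoeff x ^ (p ^ k) := by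
    intro k
    induction k with
    | zero => intro x; simp
    | succ k ih =>
      intro x
      rw [Function.iterate_succ_apply, ih, pow_succ', pow_mul]
      congr 1
      show (WittVector.frobenius x).coeff 0 = (x.coeff 0) ^ p
      exact WittVector.coeff_frobenius_charP p x 0
  rw [h3] at h2
  exact P.b0 (pow_eq_zero_iff (pow_ne_zero _ (Fact.out : p.Prime).ne_zero) |>.1 h2)

/-- KI5 -/
theorem ki5_main [IsAlgClosed K] (hp : ‖(p : C)‖ < 1) (hp0 : 0 < ‖(p : C)‖)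
    (T : TiltData p K C)
    {a : Fin m → OO K} {ρ : ℝ} (D : Dt p h m a ρ) (S0 : SharpData p K K)
    (hS : ∀ x, S0.sharp x = x) (hm : 1 ≤ m) (P : PhiData p h m a)
    (α : PowerSeries (OO K)) (hα : IsHomS p (h + m) (Gam h) (Gam h) α)
    (hq : ∀ d, PowerSeries.coeff d α ^ (p ^ h) = PowerSeries.coeff d α) (hα0 : α ≠ 0) :
    ∃ x : FPt p (h + m) (Gam (h + m) : ℕ → OO K),
      LL T.toSharpData h 0 (((FPt.hom α hα (xi D S0 P x)).1 : OO K) : K) ≠ 0 := by
  have hh : 1 ≤ h := D.h_pos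
  have hprime : p.Prime := Fact.out
  -- order of `α`
  obtain ⟨d, hdlow, hdne⟩ : ∃ d, (∀ i < d, PowerSeries.coeff i α = 0) ∧
      PowerSeries.coeff d α ≠ 0 := by
    classical
    have hex : ∃ d, PowerSeries.coeff d α ≠ 0 := by
      by_contra hcon
      push Not at hcon
      exact hα0 (PowerSeries.ext fun i => by rw [hcon i, map_zero])
    exact ⟨Nat.find hex, fun i hi => not_not.1 (Nat.find_min hex hi), Nat.find_spec hex⟩
  have hd1 : 1 ≤ d := by
    rw [Nat.one_le_iff_ne_zero]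
    rintro rfl
    apply hdne
    rw [PowerSeries.coeff_zero_eq_constantCoeff_apply]
    exact hα.1
  have hqpos : 1 < p ^ h := Nat.one_lt_pow (by omega) hprime.one_lt
  have hdn : ‖((PowerSeries.coeff d α : OO K) : K)‖ = 1 := by
    have h1 : ‖((PowerSeries.coeff d α : OO K) : K)‖ ^ (p ^ h) =
        ‖((PowerSeries.coeff d α : OO K) : K)‖ := by
      rw [← norm_pow]
      congr 1
      exact congrArg (fun w : OO K => (w : K)) (hq d)
    have h2 : 0 < ‖((PowerSeries.coeff d α : OO K) : K)‖ :=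
      norm_pos_iff.2 fun h => hdne (Subtype.ext h)
    have h3 : ‖((PowerSeries.coeff d α : OO K) : K)‖ ≤ 1 := (PowerSeries.coeff d α).2
    by_contra hne
    have h4 : ‖((PowerSeries.coeff d α : OO K) : K)‖ < 1 := lt_of_le_of_ne h3 hne
    have h5 := pow_lt_self_of_lt_one₀ h2 h4 hqpos
    linarith
  -- the linear coefficient of `phi`
  set c : ℝ := ‖((PowerSeries.coeff 1 P.phi : OO K) : K)‖ with hc
  have hc0 : 0 < c := norm_pos_iff.2 fun h => P.coeff_one hh hm (Subtype.ext h)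
  have hc1 : c ≤ 1 := (PowerSeries.coeff 1 P.phi).2
  -- real numbers
  set π : ℝ := ‖(p : C)‖ with hπ
  set q : ℝ := ((p ^ h : ℕ) : ℝ) with hqdef
  have hq1 : 1 < q := by
    rw [hqdef]
    exact_mod_cast hqpos
  have hqm : 0 < q - 1 := by linarith
  set θ : ℝ := π ^ (1 / (q - 1)) with hθdef
  have hθ0 : 0 < θ := Real.rpow_pos_of_pos hp0 _
  have hθ1 : θ < 1 := Real.rpow_lt_one hp0.le hp (by positivity)
  have hπθ : π = θ ^ (q - 1) := by
    rw [hθdef, ← Real.rpow_mul hp0.le, one_div_mul_cancel hqm.ne', Real.rpow_one]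
  obtain ⟨N, hN⟩ : ∃ N : ℕ, θ ^ ((p ^ h) ^ N) ≤ c ^ (2 * d) := by
    have ht : Tendsto (fun N : ℕ => θ ^ ((p ^ h) ^ N)) atTop (𝓝 0) :=
      (tendsto_pow_atTop_nhds_zero_of_lt_one hθ0.le hθ1).comp
        (tendsto_pow_atTop_atTop_of_one_lt hqpos)
    exact ((tendsto_order.1 ht).2 _ (pow_pos hc0 (2 * d))).exists.imp fun N hN => hN.le
  -- the radius
  have hdR : (0 : ℝ) < (d : ℝ) := by exact_mod_cast hd1
  set U : ℝ := θ ^ ((p ^ h) ^ N) with hU
  set V : ℝ := θ ^ ((p ^ h) ^ (N + 1)) with hV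
  have hV0 : 0 < V := pow_pos hθ0 _
  have hVU : V < U := by
    refine pow_lt_pow_right_of_lt_one₀ hθ0 hθ1 ?_
    exact Nat.pow_lt_pow_right hqpos (by omega)
  set A : ℝ := V ^ (1 / (d : ℝ)) / c with hA
  set B : ℝ := U ^ (1 / (d : ℝ)) / c with hB
  have hA0 : 0 < A := div_pos (Real.rpow_pos_of_pos hV0 _) hc0
  have hAB : A < B := by
    rw [hA, hB]
    exact div_lt_div_of_pos_right (Real.rpow_lt_rpow hV0.le hVU (by positivity)) hc0
  have hBc : B ≤ c := by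
    rw [hB, div_le_iff₀ hc0]
    have h1 : U ^ (1 / (d : ℝ)) ≤ (c ^ (2 * d)) ^ (1 / (d : ℝ)) :=
      Real.rpow_le_rpow (hV0.trans hVU).le hN (by positivity)
    refine h1.trans (le_of_eq ?_)
    rw [pow_mul, ← Real.rpow_natCast (c ^ 2) d, ← Real.rpow_mul (by positivity),
      mul_one_div_cancel hdR.ne', Real.rpow_one, pow_two]
  have ha0 := ki5_a0 hh hm P
  have ha0' : ((a ⟨0, hm⟩ : OO K) : K) ≠ 0 := fun h => ha0 (Subtype.ext h)
  have ha1 : ‖((a ⟨0, hm⟩ : OO K) : K)‖ < 1 := (D.a_le _).trans_lt D.rho_lt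
  obtain ⟨z0, hz1, hz2⟩ := ki5_exists_norm ha0' ha1 hA0 hAB
  have hzc : ‖z0‖ < c := hz2.trans_le hBc
  have hzlt : ‖z0‖ < 1 := hzc.trans_le hc1
  set z : OO K := ⟨z0, hzlt.le⟩ with hz
  have htz : IsTopologicallyNilpotent z := (tn_iff_norm_lt_one z).2 hzlt
  obtain ⟨x, hx⟩ := pra_surjective D S0 (⟨z, htz⟩ : FPt p (h + m) (par h m a))
  refine ⟨x, ?_⟩
  set t : OO K := (FPt.hom α hα (xi D S0 P x)).1 with ht
  have htval : t = ev1 α (ev1 P.phi z) := by
    rw [ht, FPt.hom_val]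
    congr 1
    show ev1 P.phi ((pra D S0 x).1) = _
    rw [hx]
  have hphi : ‖((ev1 P.phi z : OO K) : K)‖ = c * ‖z0‖ :=
    ki5_norm_lin P.phi (P.isHomS hh).1 hzc
  have hphi1 : ‖((ev1 P.phi z : OO K) : K)‖ < 1 := by
    rw [hphi]
    calc c * ‖z0‖ ≤ 1 * ‖z0‖ := mul_le_mul_of_nonneg_right hc1 (norm_nonneg _)
      _ < 1 := by rwa [one_mul]
  have hτ : ‖(t : K)‖ = (c * ‖z0‖) ^ d := by
    rw [htval, ki5_norm_order α hdlow hdn hphi1, hphi]
  set τ : ℝ := ‖(t : K)‖ with hτdef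
  have hτU : τ < U := by
    rw [hτ]
    have h1 : c * ‖z0‖ < U ^ (1 / (d : ℝ)) := by
      have := (lt_div_iff₀ hc0).1 hz2
      linarith
    have h2 := pow_lt_pow_left₀ h1 (by positivity) (by omega : d ≠ 0)
    rwa [← Real.rpow_natCast (U ^ (1 / (d : ℝ))) d, ← Real.rpow_mul (hV0.trans hVU).le,
      one_div_mul_cancel hdR.ne', Real.rpow_one] at h2
  have hτV : V < τ := by
    rw [hτ]
    have h1 : V ^ (1 / (d : ℝ)) < c * ‖z0‖ := by
      have := (div_lt_iff₀ hc0).1 hz1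
      linarith
    have h2 := pow_lt_pow_left₀ h1 (by positivity) (by omega : d ≠ 0)
    rwa [← Real.rpow_natCast (V ^ (1 / (d : ℝ))) d, ← Real.rpow_mul hV0.le,
      one_div_mul_cancel hdR.ne', Real.rpow_one] at h2
  have hτ0 : 0 < τ := hV0.trans hτV
  have hτ1 : τ < 1 := hτU.trans_le (pow_le_one₀ hθ0.le hθ1.le)
  have hq0 : 0 < q := by linarith
  have ht0 : (t : K) ≠ 0 := norm_pos_iff.1 hτ0
  -- the dominant index
  have key : ∀ (W : ℝ), 0 < W → ∀ M : ℕ, (W ^ ((p ^ h) ^ M)) ^ (q ^ (-(M : ℤ))) = W := by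
    intro W hW M
    rw [← Real.rpow_natCast W, ← Real.rpow_mul hW.le]
    have e : ((((p ^ h) ^ M : ℕ)) : ℝ) * q ^ (-(M : ℤ)) = 1 := by
      rw [zpow_neg, zpow_natCast, hqdef]
      push_cast
      exact mul_inv_cancel₀ (pow_ne_zero _ (pow_ne_zero _ (by exact_mod_cast hprime.ne_zero)))
    rw [e, Real.rpow_one]
  have h1 : τ ^ (q ^ (-(N : ℤ))) < θ := by
    have := Real.rpow_lt_rpow hτ0.le hτU (zpow_pos hq0 (-(N : ℤ)))
    rwa [hU, key θ hθ0 N] at this
  have h2 : θ < τ ^ (q ^ (-(N : ℤ) - 1)) := by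
    have e : (-(N : ℤ) - 1) = -((N + 1 : ℕ) : ℤ) := by push_cast; ring
    rw [e]
    have := Real.rpow_lt_rpow hV0.le hτV (zpow_pos hq0 (-((N + 1 : ℕ) : ℤ)))
    rwa [hV, key θ hθ0 (N + 1)] at this
  refine LL_ne_zero hp T.toSharpData hh hτ1 (-(N : ℤ)) ht0 fun j hj => ?_
  have hdom := ki5_dominant hp0 hθ0 hq1 hπθ hτ0 hτ1 h1 h2 j hj
  have hconv : ∀ j : ℤ, ‖(p : C) ^ (-j)‖ * ‖fz p ((h : ℤ) * j) (t : K)‖ =
      π ^ (-j) * τ ^ (q ^ j) := by
    intro j
    rw [norm_zpow, norm_fz]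
    congr 2
    rw [hqdef]
    push_cast
    rw [zpow_mul, zpow_natCast]
  rw [hconv, hconv]
  exact hdom

end Vale.Agent.P217
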