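import Vale.Agent.P217.Phi
import Vale.Agent.P217.Jac
import Vale.Agent.P217.PKI5
import Vale.Agent.P217.PKI6
import Vale.Agent.P217.PKI3
import Vale.Agent.P217.PKI2
import Vale.Agent.P217.PKI1
import Vale.Agent.P217.PKI4

/-!
# P217, part K: independence (modules KI1 ... KI5)
-/

namespace Vale.Agent.P217

open MvPowerSeries Filter Topology
open scoped MvPowerSeries.WithPiTopology

variable {p h m : ℕ} [Fact p.Prime]
variable {K C : Type} [NormedField K] [NormedField C] [IsUltrametricDist K] [IsUltrametricDist C]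
  [CharP K p] [PerfectRing K p] [CompleteSpace K] [CompleteSpace C] [CharZero C]

/-- KI1: first order expansion of `elC` at small displacement `δ`, `‖δ_i‖ ≤ ε ≤ ‖p‖^2`, if
`pr_u(x) ∈ p O_C`. -/
theorem elC_estimate (hp : ‖(p : C)‖ < 1) (S : SharpData p K C) {u u' : Fin m → OO C} {ρ ρ' : ℝ}
    (D : Dt p h m u ρ) (D' : Dt p h m u' ρ') {ε : ℝ} (hε0 : 0 ≤ ε) (hε : ε ≤ ‖(p : C)‖ ^ 2)
    (hu : ∀ i, ‖((u' i : OO C) : C) - (u i : C)‖ ≤ ε)
    (x : FPt p (h + m) (Gam (h + m) : ℕ → OO K)) (hx : ‖(((pra D S x).1 : OO C) : C)‖ ≤ ‖(p : C)‖) :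
    ‖elC D' S x - elC D S x - ∑ j, (((u' j : OO C) : C) - (u j : C)) * ((grad D S x j : OO C) : C)‖
      ≤ ‖(p : C)‖ * ε :=
  elC_estimate_ki1 hp S D D' hε0 hε hu x hx

/-- KI2: the vectors `(L_i(e_j))_{0 ≤ i < n} ∈ C^n` are linearly independent over `C`, if the
`e_j ∈ ker pr_a` have an invertible Jacobian matrix over `K`. -/
theorem LL_independent (hp : ‖(p : C)‖ < 1) (hp0 : 0 < ‖(p : C)‖) (S : SharpData p K C)
    (S0 : SharpData p K K)
    (hS : ∀ x, S0.sharp x = x) {a : Fin m → OO K} {ρ : ℝ} (D : Dt p h m a ρ)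
    (e : Fin m → FPt p (h + m) (Gam (h + m) : ℕ → OO K)) (he : ∀ i, pra D S0 (e i) = 0)
    (hdet : (Matrix.of fun i j => grad D S0 (e i) j).det ≠ 0) (c : Fin m → C)
    (hc : ∀ s : ℤ, ∑ i, c i * LL S (h + m) s (((e i).1 : OO K) : K) = 0) : c = 0 := by
  classical
  by_contra hne
  -- normalise the coefficients
  have hex : ∃ i, c i ≠ 0 := by
    by_contra hcon
    push Not at hcon
    exact hne (funext hcon)
  obtain ⟨i1, hi1⟩ := hex
  have hnem : (Finset.univ : Finset (Fin m)).Nonempty := ⟨i1, Finset.mem_univ _⟩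
  obtain ⟨i0, -, hi0⟩ := Finset.exists_max_image Finset.univ (fun i => ‖c i‖) hnem
  have hi0' : 0 < ‖c i0‖ := (norm_pos_iff.2 hi1).trans_le (hi0 i1 (Finset.mem_univ _))
  let c' : Fin m → OO C := fun i => ⟨c i / c i0, by
    show ‖c i / c i0‖ ≤ 1
    rw [norm_div]
    exact div_le_one_of_le₀ (hi0 i (Finset.mem_univ _)) (norm_nonneg _)⟩
  have hc'0 : c' i0 = 1 := Subtype.ext (div_self (norm_pos_iff.1 hi0'))
  have hc' : ∀ s : ℤ, ∑ i, ((c' i : OO C) : C) * LL S (h + m) s (((e i).1 : OO K) : K) = 0 := by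
    intro s
    have h1 : ∀ i, ((c' i : OO C) : C) * LL S (h + m) s (((e i).1 : OO K) : K) =
        (c i0)⁻¹ * (c i * LL S (h + m) s (((e i).1 : OO K) : K)) := by
      intro i
      show c i / c i0 * _ = _
      ring
    rw [Finset.sum_congr rfl fun i _ => h1 i, ← Finset.mul_sum, hc s, mul_zero]
  -- the logarithms
  have hel : ∀ (k : ℤ) {u : Fin m → OO C} {ρ : ℝ} (D' : Dt p h m u ρ),
      ∑ i, ((c' i : OO C) : C) * elC D' S (Etw k (e i)) = 0 := by
    intro k u ρ D'
    obtain ⟨W, hW⟩ := exists_W D' S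
    have h1 : ∀ i, ((c' i : OO C) : C) * elC D' S (Etw k (e i)) =
        ∑ l : Fin (h + m), W l * (((c' i : OO C) : C) *
          LL S (h + m) (((l : ℕ) : ℤ) + k) (((e i).1 : OO K) : K)) := by
      intro i
      rw [hW, Finset.mul_sum]
      refine Finset.sum_congr rfl fun l _ => ?_
      have h2 : (((Etw k (e i)).1 : OO K) : K) = fz p k (((e i).1 : OO K) : K) := rfl
      rw [h2, LL_fz]
      ring
    rw [Finset.sum_congr rfl fun i _ => h1 i, Finset.sum_comm]
    refine Finset.sum_eq_zero fun l _ => ?_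
    rw [← Finset.mul_sum, hc', mul_zero]
  obtain ⟨d, hd⟩ : ∃ d, d = (Matrix.of fun i j => grad D S0 (e i) j).det := ⟨_, rfl⟩
  have hd0 : d ≠ 0 := by rw [hd]; exact hdet
  -- key estimate
  have key : ∀ k : ℤ, ∀ ε : {ε : ℝ // 0 < ε}, ‖(p : C)‖ < ε.1 → ‖fz p k (d : K)‖ < ε.1 := by
    intro k ε hε
    obtain ⟨ρ1, D1⟩ := D.twist k
    obtain ⟨ρ2, D2⟩ := D1.sharp hp S
    have hLam : ∀ i (b : Fin m →₀ ℕ), ‖((coeff b (Lam D2 S (Etw k (e i))) : OO C) : C) -
        S.sharp (fz p k ((coeff b (Lam D S0 (e i)) : OO K) : K))‖ ≤ ‖(p : C)‖ := by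
      intro i b
      have h1 := Lam_sharp hp D1 S D2 S0 hS (Etw k (e i)) b
      rw [Lam_twist D k D1 S0 hS, coeff_map] at h1
      exact h1
    have hpra : ∀ i, ‖(((pra D2 S (Etw k (e i))).1 : OO C) : C)‖ ≤ ‖(p : C)‖ := by
      intro i
      have h1 := hLam i 0
      rw [coeff_zero_eq_constantCoeff_apply, coeff_zero_eq_constantCoeff_apply,
        Lam_constantCoeff, Lam_constantCoeff, he i, FPt.zero_val] at h1
      have h2 : fz p k (((0 : OO K)) : K) = 0 := by
        have : (((0 : OO K)) : K) = 0 := rfl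
        rw [this]
        unfold fz
        exact map_zero _
      rwa [h2, map_zero, sub_zero] at h1
    obtain ⟨g, hg⟩ : ∃ g : Matrix (Fin m) (Fin m) (OO C),
        g = Matrix.of fun i j => grad D2 S (Etw k (e i)) j := ⟨_, rfl⟩
    have hpp : ‖(p : C) ^ 2‖ = ‖(p : C)‖ ^ 2 := norm_pow _ _
    have hsum : ∀ j, ‖∑ i, ((c' i : OO C) : C) * ((g i j : OO C) : C)‖ ≤ ‖(p : C)‖ := by
      intro j
      have hp2 : ‖(p : C) ^ 2‖ ≤ 1 := by
        rw [hpp]
        exact pow_le_one₀ (norm_nonneg _) hp.le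
      let u' : Fin m → OO C := fun i => shO S (fzO p k (a i)) +
        (if i = j then ⟨(p : C) ^ 2, hp2⟩ else 0)
      have hu'c : ∀ i, ((u' i : OO C) : C) - ((shO S (fzO p k (a i)) : OO C) : C) =
          if i = j then (p : C) ^ 2 else 0 := by
        intro i
        show ((shO S (fzO p k (a i)) + (if i = j then ⟨(p : C) ^ 2, hp2⟩ else 0) : OO C) : C) -
          _ = _
        split_ifs
        · show ((shO S (fzO p k (a i)) : OO C) : C) + (p : C) ^ 2 - _ = _
          ring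
        · show ((shO S (fzO p k (a i)) : OO C) : C) + 0 - _ = _
          ring
      have hu'n : ∀ i, ‖((u' i : OO C) : C) - ((shO S (fzO p k (a i)) : OO C) : C)‖ ≤
          ‖(p : C)‖ ^ 2 := by
        intro i
        rw [hu'c i]
        split_ifs
        · rw [hpp]
        · rw [norm_zero]
          positivity
      have hpρ : ‖(p : C)‖ ^ 2 ≤ ρ2 := by
        refine le_trans ?_ D2.p_le
        rw [pow_two]
        exact mul_le_of_le_one_left (norm_nonneg _) hp.le
      have D3 : Dt p h m u' ρ2 := by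
        refine ⟨D2.h_pos, D2.rho_nonneg, D2.rho_lt, D2.p_le, fun i => ?_⟩
        have h1 : ((u' i : OO C) : C) = ((shO S (fzO p k (a i)) : OO C) : C) +
            (((u' i : OO C) : C) - ((shO S (fzO p k (a i)) : OO C) : C)) := by ring
        rw [h1]
        exact (IsUltrametricDist.norm_add_le_max _ _).trans
          (max_le (D2.a_le i) ((hu'n i).trans hpρ))
      have hest : ∀ i, ‖elC D3 S (Etw k (e i)) - elC D2 S (Etw k (e i)) -
          (p : C) ^ 2 * ((g i j : OO C) : C)‖ ≤ ‖(p : C)‖ * ‖(p : C)‖ ^ 2 := by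
        intro i
        have h1 := elC_estimate hp S D2 D3 (by positivity) le_rfl hu'n (Etw k (e i)) (hpra i)
        have h2 : ∑ j', (((u' j' : OO C) : C) - ((shO S (fzO p k (a j')) : OO C) : C)) *
            ((grad D2 S (Etw k (e i)) j' : OO C) : C) = (p : C) ^ 2 * ((g i j : OO C) : C) := by
          rw [Finset.sum_eq_single j]
          · rw [hu'c, if_pos rfl, hg]
            rfl
          · intro b _ hb
            rw [hu'c, if_neg hb, zero_mul]
          · intro hj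
            exact absurd (Finset.mem_univ j) hj
        rw [h2] at h1
        exact h1
      have htot : (p : C) ^ 2 * ∑ i, ((c' i : OO C) : C) * ((g i j : OO C) : C) =
          - ∑ i, ((c' i : OO C) : C) * (elC D3 S (Etw k (e i)) - elC D2 S (Etw k (e i)) -
          (p : C) ^ 2 * ((g i j : OO C) : C)) := by
        have h3 := hel k D3
        have h4 := hel k D2
        have h5 : ∑ i, ((c' i : OO C) : C) * (elC D3 S (Etw k (e i)) -
            elC D2 S (Etw k (e i)) - (p : C) ^ 2 * ((g i j : OO C) : C)) =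
            ∑ i, ((c' i : OO C) : C) * elC D3 S (Etw k (e i)) -
            ∑ i, ((c' i : OO C) : C) * elC D2 S (Etw k (e i)) -
            (p : C) ^ 2 * ∑ i, ((c' i : OO C) : C) * ((g i j : OO C) : C) := by
          rw [Finset.mul_sum, ← Finset.sum_sub_distrib, ← Finset.sum_sub_distrib]
          refine Finset.sum_congr rfl fun i _ => ?_
          ring
        rw [h5, h3, h4]
        ring
      have hn1 : ‖(p : C) ^ 2 * ∑ i, ((c' i : OO C) : C) * ((g i j : OO C) : C)‖ ≤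
          ‖(p : C)‖ * ‖(p : C)‖ ^ 2 := by
        rw [htot, norm_neg]
        refine IsUltrametricDist.norm_sum_le_of_forall_le_of_nonneg (by positivity) fun i _ => ?_
        rw [norm_mul]
        calc ‖((c' i : OO C) : C)‖ * _ ≤ 1 * (‖(p : C)‖ * ‖(p : C)‖ ^ 2) :=
              mul_le_mul (c' i).2 (hest i) (norm_nonneg _) zero_le_one
          _ = _ := one_mul _
      rw [norm_mul, hpp, mul_comm] at hn1
      exact le_of_mul_le_mul_right hn1 (by positivity)
    -- reduce modulo the ball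
    let π := Ideal.Quotient.mk (ballIdeal C ε)
    have hgπ : ∀ i j, π (g i j) = shQ S ε hε (fzO p k (grad D S0 (e i) j)) := by
      intro i j
      rw [hg]
      refine Ideal.Quotient.eq.2 ?_
      exact lt_of_le_of_lt (hLam i (Finsupp.single j 1)) hε
    have hdet2 : (Matrix.of fun i j => π (g i j)).det = 0 := by
      refine ki2_la _ (fun i => π (c' i)) i0 ?_ ?_
      · show IsUnit (π (c' i0))
        rw [hc'0, map_one]
        exact isUnit_one
      · intro j
        show ∑ i, π (c' i) * π (g i j) = 0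
        have h1 : ∑ i, π (c' i) * π (g i j) = π (∑ i, c' i * g i j) := by
          rw [map_sum]
          exact Finset.sum_congr rfl fun i _ => (map_mul π _ _).symm
        rw [h1, Ideal.Quotient.eq_zero_iff_mem]
        show ‖((∑ i, c' i * g i j : OO C) : C)‖ < ε.1
        have h2 : ((∑ i, c' i * g i j : OO C) : C) =
            ∑ i, ((c' i : OO C) : C) * ((g i j : OO C) : C) := by
          rw [AddSubmonoidClass.coe_finsetSum]
          rfl
        rw [h2]
        exact (hsum j).trans_lt hε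
    have hdet3 : (Matrix.of fun i j => π (g i j)).det =
        shQ S ε hε (fzO p k d) := by
      have h1 : (Matrix.of fun i j => π (g i j)) =
          (((shQ S ε hε).comp (fzO p k : OO K ≃+* OO K).toRingHom)).mapMatrix
            (Matrix.of fun i j => grad D S0 (e i) j) := by
        ext i j
        exact hgπ i j
      rw [h1, ← RingHom.map_det, ← hd]
      rfl
    rw [hdet2] at hdet3
    have h1 : shO S (fzO p k d) ∈ ballIdeal C ε := Ideal.Quotient.eq_zero_iff_mem.1 hdet3.symm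
    have h2 : ‖((shO S (fzO p k d) : OO C) : C)‖ < ε.1 := h1
    rw [norm_shO] at h2
    exact h2
  have hε1 : ‖(p : C)‖ < (‖(p : C)‖ + 1) / 2 := by linarith
  have hε2 : (‖(p : C)‖ + 1) / 2 < 1 := by linarith
  have hdpos : 0 < ‖(d : K)‖ := norm_pos_iff.2 fun h0 => hd0 (Subtype.ext h0)
  obtain ⟨k, hk⟩ := ki2_rpow (p := p) hdpos hε2
  have h1 := key k ⟨(‖(p : C)‖ + 1) / 2, by positivity⟩ hε1
  rw [norm_fz] at h1
  exact lt_asymm hk h1

/-- KI3: an endomorphism of `Γ_h` with coefficients in `F_q` is `∑^Γ w_s X^(p^s)`: on points it is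
the limit of the partial sums. -/
theorem endo_decomp {n : ℕ} (hh : 1 ≤ h) (hn : h ≤ n) (α : PowerSeries (OO K))
    (hα : IsHomS p n (Gam h) (Gam h) α)
    (hq : ∀ d, PowerSeries.coeff d α ^ (p ^ h) = PowerSeries.coeff d α) :
    ∃ w : ℕ → OO K, (∀ s, w s ^ (p ^ h) = w s) ∧ (α ≠ 0 → ∃ s, w s ≠ 0) ∧
      ∀ y : FPt p n (Gam h : ℕ → OO K), ∃ z : ℕ → FPt p n (Gam h : ℕ → OO K),
        (∀ s, (z s).1 = w s * y.1 ^ (p ^ s)) ∧
        Tendsto (fun N => (∑ s ∈ Finset.range N, z s).1) atTop (𝓝 (FPt.hom α hα y).1) := by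
  exact ki3_endo_decomp α hα hq

/-- KI4: `L^h_0 ∘ α ∘ xi` is a linear combination of the `L_l`, `0 ≤ l < n`. -/
theorem LL_endo_xi (hp : ‖(p : C)‖ < 1) (T : TiltData p K C) {a : Fin m → OO K} {ρ : ℝ}
    (D : Dt p h m a ρ) (S0 : SharpData p K K) (hS : ∀ x, S0.sharp x = x) (P : PhiData p h m a)
    (α : PowerSeries (OO K)) (hα : IsHomS p (h + m) (Gam h) (Gam h) α)
    (hq : ∀ d, PowerSeries.coeff d α ^ (p ^ h) = PowerSeries.coeff d α) :
    ∃ Ξ : Fin (h + m) → C, ∀ x : FPt p (h + m) (Gam (h + m) : ℕ → OO K),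
      LL T.toSharpData h 0 (((FPt.hom α hα (xi D S0 P x)).1 : OO K) : K) =
        ∑ l, Ξ l * LL T.toSharpData (h + m) ((l : ℕ) : ℤ) ((x.1 : OO K) : K) := by
  obtain ⟨w, hw, -, hdec⟩ := endo_decomp (n := h + m) D.h_pos (Nat.le_add_right _ _) α hα hq
  exact LL_endo_xi_ki4 hp T D S0 hS P α hα w hw hdec

/-- KI5: if `α ≠ 0` then `L^h_0(α(xi(x))) ≠ 0` for some `x ∈ E`. -/
theorem exists_LL_endo_xi_ne [IsAlgClosed K] (hp : ‖(p : C)‖ < 1) (hp0 : 0 < ‖(p : C)‖)
    (T : TiltData p K C)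
    {a : Fin m → OO K} {ρ : ℝ} (D : Dt p h m a ρ) (S0 : SharpData p K K)
    (hS : ∀ x, S0.sharp x = x) (hm : 1 ≤ m) (P : PhiData p h m a)
    (α : PowerSeries (OO K)) (hα : IsHomS p (h + m) (Gam h) (Gam h) α)
    (hq : ∀ d, PowerSeries.coeff d α ^ (p ^ h) = PowerSeries.coeff d α) (hα0 : α ≠ 0) :
    ∃ x : FPt p (h + m) (Gam (h + m) : ℕ → OO K),
      LL T.toSharpData h 0 (((FPt.hom α hα (xi D S0 P x)).1 : OO K) : K) ≠ 0 := by
  exact ki5_main hp hp0 T D S0 hS hm P α hα hq hα0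

/-- The endomorphism `x ↦ w x^(p^j)` of `E`, `w ∈ F_{p^n}`. -/
theorem isHomS_monomial {n : ℕ} (hn : 1 ≤ n) (w : OO K) (hw : w ^ (p ^ n) = w) (j : ℕ) :
    IsHomS p n (Gam n) (Gam n)
      (PowerSeries.C w * PowerSeries.X ^ (p ^ j) : PowerSeries (OO K)) := by
  have := pjc_charP_OO p K
  exact ki6_isHomS w hw j

/-- KI6: independence. If `∑_i α_i(xi(η e_i)) = 0` for all endomorphisms `η` of `Γ_n`, then all
`α_i` vanish. -/
theorem xi_independent [IsAlgClosed K] (hp : ‖(p : C)‖ < 1) (hp0 : 0 < ‖(p : C)‖)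
    (T : TiltData p K C)
    {a : Fin m → OO K} {ρ : ℝ} (D : Dt p h m a ρ) (S0 : SharpData p K K)
    (hS : ∀ x, S0.sharp x = x) (hm : 1 ≤ m) (P : PhiData p h m a)
    (e : Fin m → FPt p (h + m) (Gam (h + m) : ℕ → OO K)) (he : ∀ i, pra D S0 (e i) = 0)
    (hdet : (Matrix.of fun i j => grad D S0 (e i) j).det ≠ 0)
    (α : Fin m → PowerSeries (OO K)) (hα : ∀ i, IsHomS p (h + m) (Gam h) (Gam h) (α i))
    (hq : ∀ i d, PowerSeries.coeff d (α i) ^ (p ^ h) = PowerSeries.coeff d (α i))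
    (hrel : ∀ (η : PowerSeries (OO K)) (hη : IsHomS p (h + m) (Gam (h + m)) (Gam (h + m)) η),
      (∀ d, PowerSeries.coeff d η ^ (p ^ (h + m)) = PowerSeries.coeff d η) →
      ∑ i, FPt.hom (α i) (hα i) (xi D S0 P (FPt.hom η hη (e i))) = 0) :
    ∀ i, α i = 0 := by
  classical
  have hn : 1 ≤ h + m := by omega
  have hh : 1 ≤ h := D.h_pos
  have hp1 : p ^ (h + m) ≠ 0 := pow_ne_zero _ (Fact.out : p.Prime).ne_zero
  choose Ξ hΞ using fun i => LL_endo_xi hp T D S0 hS P (α i) (hα i) (hq i)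
  have hlt : ∀ x : FPt p (h + m) (Gam (h + m) : ℕ → OO K), ‖((x.1 : OO K) : K)‖ < 1 :=
    fun x => (tn_iff_norm_lt_one x.1).1 x.2
  -- `LL h 0` of a sum of points
  have hsum : ∀ (s : Finset (Fin m)) (z : Fin m → FPt p (h + m) (Gam h : ℕ → OO K)),
      LL T.toSharpData h 0 (((∑ i ∈ s, z i).1 : OO K) : K) =
        ∑ i ∈ s, LL T.toSharpData h 0 (((z i).1 : OO K) : K) := by
    intro s z
    induction s using Finset.induction_on with
    | empty =>
      rw [Finset.sum_empty, Finset.sum_empty]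
      have h1 := LL_add_point hp T.toSharpData hh (by omega : h ≤ h + m) 0
        (0 : FPt p (h + m) (Gam h : ℕ → OO K)) 0
      rw [add_zero] at h1
      exact left_eq_add.1 h1
    | insert a s ha ih =>
      rw [Finset.sum_insert ha, Finset.sum_insert ha, LL_add_point hp T.toSharpData hh
        (by omega : h ≤ h + m), ih]
  -- the relation after applying `LL h 0`
  have hrel2 : ∀ (j : ℕ) (w : K), w ^ (p ^ (h + m)) = w →
      ∑ l : Fin (h + m), (∑ i, Ξ i l * LL T.toSharpData (h + m) (((l : ℕ) : ℤ) + (j : ℤ))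
        (((e i).1 : OO K) : K)) * T.toSharpData.sharp w ^ (p ^ (l : ℕ)) = 0 := by
    intro j w hw
    have hw1 : ‖w‖ ≤ 1 := by
      by_cases h0 : w = 0
      · rw [h0, norm_zero]
        exact zero_le_one
      · refine (ki6_norm_one ?_ hw h0).le
        exact (Fact.out : p.Prime).two_le.trans (Nat.le_self_pow (by omega) p)
    let w' : OO K := ⟨w, hw1⟩
    have hw' : w' ^ (p ^ (h + m)) = w' := Subtype.ext hw
    have hη := isHomS_monomial (K := K) (p := p) hn w' hw' j
    have hpj : p ^ j ≠ 0 := pow_ne_zero _ (Fact.out : p.Prime).ne_zero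
    have h1 := hrel _ hη (by
      intro d
      rw [PowerSeries.coeff_C_mul, PowerSeries.coeff_X_pow]
      split_ifs
      · rw [mul_one, hw']
      · rw [mul_zero, zero_pow hp1])
    have h2 := hsum Finset.univ (fun i => FPt.hom (α i) (hα i) (xi D S0 P (FPt.hom _ hη (e i))))
    rw [h1] at h2
    have h3 : LL T.toSharpData h 0 (((0 : FPt p (h + m) (Gam h : ℕ → OO K)).1 : OO K) : K) = 0 := by
      have h4 := hsum ∅ (fun _ => 0)
      rwa [Finset.sum_empty, Finset.sum_empty] at h4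
    rw [h3] at h2
    have h5 : ∀ i, (((FPt.hom _ hη (e i)).1 : OO K) : K) =
        w * fz p (j : ℤ) ((((e i).1 : OO K)) : K) := by
      intro i
      rw [FPt.hom_val, ev1_mul _ _ (e i).2, ev1_pow _ _ (e i).2, ev1_X, ev1_C, fz_nat]
      rfl
    have h6 : ∀ i, LL T.toSharpData h 0
        (((FPt.hom (α i) (hα i) (xi D S0 P (FPt.hom _ hη (e i)))).1 : OO K) : K) =
        ∑ l : Fin (h + m), Ξ i l * LL T.toSharpData (h + m) (((l : ℕ) : ℤ) + (j : ℤ))
          (((e i).1 : OO K) : K) * T.toSharpData.sharp w ^ (p ^ (l : ℕ)) := by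
      intro i
      rw [hΞ i]
      refine Finset.sum_congr rfl fun l _ => ?_
      have h7 : ‖fz p (j : ℤ) ((((e i).1 : OO K)) : K)‖ < 1 := by
        rw [fz_nat, norm_pow]
        exact pow_lt_one₀ (norm_nonneg _) (hlt _) hpj
      rw [h5, LL_omega hp T.toSharpData hn _ h7 hw, LL_fz, fz_nat, map_pow]
      ring
    have h8 : (0 : C) = ∑ i, ∑ l : Fin (h + m), Ξ i l *
        LL T.toSharpData (h + m) (((l : ℕ) : ℤ) + (j : ℤ))
          (((e i).1 : OO K) : K) * T.toSharpData.sharp w ^ (p ^ (l : ℕ)) := by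
      rw [h2]
      exact Finset.sum_congr rfl fun i _ => h6 i
    rw [Finset.sum_comm] at h8
    rw [h8]
    exact Finset.sum_congr rfl fun l _ => Finset.sum_mul _ _ _
  have hrel3 : ∀ (j : ℕ) (l : Fin (h + m)), ∑ i, Ξ i l *
      LL T.toSharpData (h + m) (((l : ℕ) : ℤ) + (j : ℤ)) (((e i).1 : OO K) : K) = 0 :=
    fun j => ki6_chars hp T.toSharpData hn _ (hrel2 j)
  -- all shifts
  have hpC : (p : C) ≠ 0 := by
    intro h0
    rw [h0, norm_zero] at hp0
    exact lt_irrefl _ hp0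
  have hshift : ∀ (t : ℕ) (s : ℤ) (x : FPt p (h + m) (Gam (h + m) : ℕ → OO K)),
      LL T.toSharpData (h + m) (s + t * ((h + m : ℕ) : ℤ)) ((x.1 : OO K) : K) =
        (p : C) ^ t * LL T.toSharpData (h + m) s ((x.1 : OO K) : K) := by
    intro t
    induction t with
    | zero =>
      intro s x
      rw [pow_zero, one_mul, Nat.cast_zero, zero_mul, add_zero]
    | succ t ih =>
      intro s x
      have h1 := LL_add_r hp T.toSharpData hn (s + t * ((h + m : ℕ) : ℤ)) (hlt x)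
      rw [ih s x, ← mul_assoc, ← pow_succ'] at h1
      rw [← h1]
      congr 1
      push_cast
      ring
  have hall : ∀ (l : Fin (h + m)) (s : ℤ), ∑ i, Ξ i l *
      LL T.toSharpData (h + m) s (((e i).1 : OO K) : K) = 0 := by
    intro l s
    have h1 : ∃ t : ℕ, ((l : ℕ) : ℤ) ≤ s + t * ((h + m : ℕ) : ℤ) := by
      refine ⟨((l : ℕ) : ℤ).toNat + (-s).toNat, ?_⟩
      have h2 : (1 : ℤ) ≤ ((h + m : ℕ) : ℤ) := by exact_mod_cast hn
      have h3 : -s ≤ (((-s).toNat : ℕ) : ℤ) := Int.self_le_toNat (-s)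
      have h4 : (0 : ℤ) ≤ (((-s).toNat : ℕ) : ℤ) := Int.natCast_nonneg _
      have h5 : ((((l : ℕ) : ℤ).toNat : ℕ) : ℤ) = ((l : ℕ) : ℤ) := by simp
      push_cast at h5 h2 ⊢
      rw [h5]
      nlinarith [Int.natCast_nonneg (l : ℕ)]
    obtain ⟨t, ht⟩ := h1
    obtain ⟨j, hj⟩ := Int.eq_ofNat_of_zero_le (sub_nonneg.2 ht)
    have h2 := hrel3 j l
    have h3 : ((l : ℕ) : ℤ) + (j : ℤ) = s + t * ((h + m : ℕ) : ℤ) := by
      rw [← hj]
      ring
    rw [h3] at h2
    have h4 : (p : C) ^ t * ∑ i, Ξ i l *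
        LL T.toSharpData (h + m) s (((e i).1 : OO K) : K) = 0 := by
      rw [← h2, Finset.mul_sum]
      refine Finset.sum_congr rfl fun i _ => ?_
      rw [hshift]
      ring
    exact (mul_eq_zero.1 h4).resolve_left (pow_ne_zero _ hpC)
  have hΞ0 : ∀ l i, Ξ i l = 0 := by
    intro l
    have h1 := LL_independent hp hp0 T.toSharpData S0 hS D e he hdet (fun i => Ξ i l) (hall l)
    exact fun i => congrFun h1 i
  intro i
  by_contra hne
  obtain ⟨x, hx⟩ := exists_LL_endo_xi_ne hp hp0 T D S0 hS hm P (α i) (hα i) (hq i) hne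
  apply hx
  rw [hΞ i x]
  refine Finset.sum_eq_zero fun l _ => ?_
  rw [hΞ0 l i, zero_mul]

end Vale.Agent.P217
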