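import Vale.Agent.P217.LamExp
import Vale.Agent.P217.Jac

/-!
# P217, module AS6: norm of `[p^k] y` and the inverse estimate (helper42)
-/

namespace Vale.Agent.P217

open MvPowerSeries Filter Topology
open scoped MvPowerSeries.WithPiTopology

variable {p h m : ℕ} [Fact p.Prime]
variable {K : Type*} [NormedField K] [IsUltrametricDist K]
  [CharP K p] [PerfectRing K p] [CompleteSpace K]

omit [CharP K p] [PerfectRing K p] [CompleteSpace K] in
/-- a power series without constant term does not increase the norm -/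
private theorem as6_norm_ev1_le [CompleteSpace K] {g : PowerSeries (OO K)}
    (hg : PowerSeries.constantCoeff g = 0)
    {x : OO K} (hx : IsTopologicallyNilpotent x) : ‖((ev1 g x : OO K) : K)‖ ≤ ‖(x : K)‖ := by
  have h0 : IsTopologicallyNilpotent (0 : OO K) := by
    rw [tn_iff_norm_lt_one]
    show ‖((0 : OO K) : K)‖ < 1
    simp
  have h1 := ev1_sub_mem g (J := ballI K ‖(x : K)‖ (norm_nonneg _)) (ball_closed _) hx h0 (by
    rw [sub_zero]
    exact le_refl ‖(x : K)‖)
  rw [ev1_zero hg, sub_zero] at h1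
  exact h1

private theorem as6_norm_p_smul_le {a : Fin m → OO K} {ρ : ℝ} (D : Dt p h m a ρ)
    (y : FPt p (h + m) (par h m a)) :
    ‖(((p • y : FPt p (h + m) (par h m a)).1 : OO K) : K)‖ ≤
      ‖((y.1 : OO K) : K)‖ ^ (p ^ h) := by
  have hchar : CharP (OO K) p := jc3_charP
  have hh := D.h_pos
  have hv0 : ∀ j, 1 ≤ j → j < h → par h m a j = 0 := by
    intro j _ hj
    unfold par
    rw [dif_neg (by omega), if_neg (by omega)]
  rw [FPt.p_smul_val_US hh (by omega) hv0]
  have hp : p ^ h ≠ 0 := pow_ne_zero _ (Fact.out : p.Prime).ne_zero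
  have hy : ‖((y.1 : OO K) : K)‖ < 1 := (tn_iff_norm_lt_one _).1 y.2
  have h2 : ((y.1 ^ (p ^ h) : OO K) : K) = ((y.1 : OO K) : K) ^ (p ^ h) := by push_cast; rfl
  have h3 : IsTopologicallyNilpotent (y.1 ^ (p ^ h)) := by
    rw [tn_iff_norm_lt_one, h2, norm_pow]
    exact pow_lt_one₀ (norm_nonneg _) hy hp
  refine (as6_norm_ev1_le (US_constantCoeff (by omega)) h3).trans ?_
  rw [h2, norm_pow]

/-- AS6a: `‖[p^k] y‖ ≤ ‖y‖^(q^k)`. -/
theorem norm_pow_smul_le_as6 {a : Fin m → OO K} {ρ : ℝ} (D : Dt p h m a ρ)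
    (y : FPt p (h + m) (par h m a)) (k : ℕ) :
    ‖(((p ^ k • y : FPt p (h + m) (par h m a)).1 : OO K) : K)‖ ≤
      ‖((y.1 : OO K) : K)‖ ^ (p ^ (h * k)) := by
  induction k with
  | zero => simp
  | succ k ih =>
    have h1 : p ^ (k + 1) • y = p • (p ^ k • y) := by rw [← mul_smul, pow_succ']
    rw [h1]
    refine (as6_norm_p_smul_le D _).trans ?_
    have h2 : h * (k + 1) = h * k + h := by ring
    rw [h2, pow_add, pow_mul]
    exact pow_le_pow_left₀ (norm_nonneg _) ih _

/-- AS6b: inverse estimate. -/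
theorem inv_estimate_as6 {a : Fin m → OO K} {ρ : ℝ} (D : Dt p h m a ρ) (S0 : SharpData p K K)
    (e : Fin m → FPt p (h + m) (Gam (h + m) : ℕ → OO K)) (he : ∀ i, pra D S0 (e i) = 0)
    (δ : Fin m → OO K)
    (hδ : ∀ j, ‖(δ j : K)‖ < ‖(((Matrix.of fun i j => grad D S0 (e i) j).det : OO K) : K)‖)
    {B : ℝ} (hB : ∀ i, ‖((evm (Lam D S0 (e i)) δ : OO K) : K)‖ ≤ B) (j : Fin m) :
    ‖(((Matrix.of fun i j => grad D S0 (e i) j).det : OO K) : K)‖ * ‖(δ j : K)‖ ≤ B := by
  classical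
  have : Nonempty (Fin m) := ⟨j⟩
  set A : Matrix (Fin m) (Fin m) (OO K) := Matrix.of fun i j => grad D S0 (e i) j with hA
  set Δ : OO K := A.det with hΔ
  have hB0 : 0 ≤ B := (norm_nonneg _).trans (hB j)
  obtain ⟨j0, hj0⟩ := Finite.exists_max fun j : Fin m => ‖(δ j : K)‖
  set r : ℝ := ‖(δ j0 : K)‖ with hr
  have hr0 : 0 ≤ r := norm_nonneg _
  have hΔ1 : ‖(Δ : K)‖ ≤ 1 := Δ.2
  have hδ1 : ∀ i, ‖(δ i : K)‖ < 1 := fun i => (hδ i).trans_le hΔ1
  -- the value of `Lam (e i)` and its linear part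
  let w : Fin m → OO K := fun i => evm (Lam D S0 (e i)) δ
  let s : Fin m → OO K := fun i => w i - ∑ j, A i j * δ j
  have hs : ∀ i, ‖(s i : K)‖ ≤ r ^ 2 := by
    intro i
    have h1 := evm_expand (Lam D S0 (e i)) δ hδ1 hr0 hj0
    rw [Lam_constantCoeff D S0 (e i), he i] at h1
    have h2 : (((0 : FPt p (h + m) (par h m a)).1 : OO K) : K) = 0 := rfl
    rw [h2, sub_zero] at h1
    have h3 : ((s i : OO K) : K) = ((evm (Lam D S0 (e i)) δ : OO K) : K) -
        ∑ j, ((coeff (Finsupp.single j 1) (Lam D S0 (e i)) : OO K) : K) * (δ j : K) := by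
      show ((w i - ∑ j, A i j * δ j : OO K) : K) = _
      push_cast
      rfl
    rw [h3]
    exact h1
  -- `Δ δ_j = ∑ adj_{ji} (w_i - s_i)`
  have hkey : ∀ j, Δ * δ j = ∑ i, A.adjugate j i * w i - ∑ i, A.adjugate j i * s i := by
    intro j
    have h1 : A.mulVec δ = fun i => w i - s i := by
      funext i
      show ∑ j, A i j * δ j = w i - (w i - ∑ j, A i j * δ j)
      ring
    have h2 : (A.adjugate * A).mulVec δ = Δ • δ := by
      rw [Matrix.adjugate_mul, Matrix.smul_mulVec, Matrix.one_mulVec]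
    have h3 : (A.adjugate.mulVec (A.mulVec δ)) j = Δ * δ j := by
      rw [Matrix.mulVec_mulVec, h2]
      rfl
    rw [← h3, h1]
    show ∑ i, A.adjugate j i * (w i - s i) = _
    rw [← Finset.sum_sub_distrib]
    exact Finset.sum_congr rfl fun i _ => by ring
  -- norm of sums
  have hsum : ∀ (j : Fin m) (u : Fin m → OO K) (c : ℝ) (hc : 0 ≤ c), (∀ i, ‖(u i : K)‖ ≤ c) →
      ‖((∑ i, A.adjugate j i * u i : OO K) : K)‖ ≤ c := by
    intro j u c hc hu
    have h1 : ∑ i, A.adjugate j i * u i ∈ ballI K c hc :=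
      Ideal.sum_mem _ fun i _ => Ideal.mul_mem_left _ _ (hu i)
    exact h1
  have hmain : ‖(Δ : K)‖ * r ≤ B := by
    by_contra hcon
    push Not at hcon
    have hrpos : 0 < r := by
      rcases hr0.lt_or_eq with h1 | h1
      · exact h1
      · rw [← h1, mul_zero] at hcon
        exact absurd hB0 (not_le.2 hcon)
    have h1 : ‖((Δ * δ j0 : OO K) : K)‖ = ‖(Δ : K)‖ * r := by
      have e1 : ((Δ * δ j0 : OO K) : K) = (Δ : K) * (δ j0 : K) := rfl
      rw [e1, norm_mul]
    have h2 := hkey j0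
    have h3 : ‖((Δ * δ j0 : OO K) : K)‖ ≤ max B (r ^ 2) := by
      rw [h2]
      have e2 : ((∑ i, A.adjugate j0 i * w i - ∑ i, A.adjugate j0 i * s i : OO K) : K) =
          ((∑ i, A.adjugate j0 i * w i : OO K) : K) + -((∑ i, A.adjugate j0 i * s i : OO K) : K) := by
        rw [← sub_eq_add_neg]
        rfl
      rw [e2]
      refine (IsUltrametricDist.norm_add_le_max _ _).trans (max_le_max ?_ ?_)
      · exact hsum j0 w B hB0 hB
      · rw [norm_neg]
        exact hsum j0 s (r ^ 2) (pow_nonneg hr0 2) hs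
    rw [h1] at h3
    rcases le_max_iff.1 h3 with h4 | h4
    · exact absurd h4 (not_le.2 hcon)
    · rw [pow_two] at h4
      have h5 := le_of_mul_le_mul_right h4 hrpos
      exact absurd (hδ j0) (not_lt.2 h5)
  exact (mul_le_mul_of_nonneg_left (hj0 j) (norm_nonneg _)).trans hmain

end Vale.Agent.P217
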