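import Vale.Agent.P217.LTIdeal

/-!
# P217, module AS5: lifting a homomorphism `F_a → Γ_h` to `K[[δ]]` (helper83)
-/

set_option linter.unusedSectionVars false

namespace Vale.Agent.P217

open MvPowerSeries

section gen

variable {R S : Type*} [CommRing R] [CommRing S] {p n h : ℕ} [Fact p.Prime]

/-- The defect of `g : F_v → F_w` to be a homomorphism. -/
noncomputable def as5D (p n : ℕ) [Fact p.Prime] (v w : ℕ → R) (g : PowerSeries R) :
    MvPowerSeries (Fin 2) R :=
  g.subst (Fv p n v) - (Fv p n w).subst
    ![g.subst (X 0 : MvPowerSeries (Fin 2) R), g.subst (X 1 : MvPowerSeries (Fin 2) R)]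

theorem as5D_map (φ : R →+* S) (v w : ℕ → R) (g : PowerSeries R)
    (hg : PowerSeries.constantCoeff g = 0) :
    (as5D p n v w g).map φ =
      as5D p n (fun j => φ (v j)) (fun j => φ (w j)) (g.map φ) := by
  unfold as5D
  have h0 : ∀ i : Fin 2, constantCoeff (g.subst (X i : MvPowerSeries (Fin 2) R)) = 0 :=
    fun i => PowerSeries.constantCoeff_subst_eq_zero (constantCoeff_X _) g hg
  rw [map_sub, PowerSeries.map_subst
    (PowerSeries.HasSubst.of_constantCoeff_zero (Fv_constantCoeff p n v)), Fv_map,
    US1.map_pair φ _ (h0 0) (h0 1), Fv_map,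
    PowerSeries.map_subst (PowerSeries.HasSubst.of_constantCoeff_zero (constantCoeff_X _)),
    PowerSeries.map_subst (PowerSeries.HasSubst.of_constantCoeff_zero (constantCoeff_X _)),
    map_X, map_X]

theorem as5D_eq_zero_iff {v w : ℕ → R} {g : PowerSeries R}
    (hg : PowerSeries.constantCoeff g = 0) : as5D p n v w g = 0 ↔ IsHomS p n v w g := by
  unfold as5D IsHomS
  rw [sub_eq_zero]
  exact ⟨fun h => ⟨hg, h⟩, fun h => h.2⟩

theorem as5D_comp {v x w : ℕ → R} {V g : PowerSeries R} (hV : IsHomS p n v x V)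
    (hg : PowerSeries.constantCoeff g = 0) :
    as5D p n v w (g.subst V) = (as5D p n x w g).subst
      ![V.subst (X 0 : MvPowerSeries (Fin 2) R), V.subst (X 1 : MvPowerSeries (Fin 2) R)] := by
  have hV0 : ∀ i : Fin 2, constantCoeff (V.subst (X i : MvPowerSeries (Fin 2) R)) = 0 :=
    fun i => PowerSeries.constantCoeff_subst_eq_zero (constantCoeff_X _) V hV.1
  have hg0 : ∀ i : Fin 2, constantCoeff (g.subst (X i : MvPowerSeries (Fin 2) R)) = 0 :=
    fun i => PowerSeries.constantCoeff_subst_eq_zero (constantCoeff_X _) g hg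
  have hs := US1.hs (hV0 0) (hV0 1)
  have hVs : PowerSeries.HasSubst V := PowerSeries.HasSubst.of_constantCoeff_zero' hV.1
  have hc : ∀ (a : MvPowerSeries (Fin 2) R), constantCoeff a = 0 →
      PowerSeries.subst a (PowerSeries.subst V g) = g.subst (V.subst a) := fun a ha =>
    PowerSeries.subst_comp_subst_apply hVs (PowerSeries.HasSubst.of_constantCoeff_zero ha) g
  unfold as5D
  rw [← coe_substAlgHom hs, map_sub, coe_substAlgHom hs, US1.comp1 g (Fv_constantCoeff p n x) hs,
    US1.comp2 _ (hg0 0) (hg0 1) hs, US1.comp1 g (constantCoeff_X _) hs,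
    US1.comp1 g (constantCoeff_X _) hs, subst_X hs, subst_X hs, hc _ (Fv_constantCoeff p n v),
    hc _ (constantCoeff_X _), hc _ (constantCoeff_X _), hV.2]
  rfl

theorem as5_US_Gam : US p n h (Gam h : ℕ → R) = PowerSeries.X := by
  have h1 : ∀ i : ℕ, Upart p n h (Gam h : ℕ → R) (i + 1) = PowerSeries.X := by
    intro i
    induction i with
    | zero =>
      rw [Upart, Upart]
      have : (PowerSeries.C ((Gam h : ℕ → R) (h + 0)) * PowerSeries.X ^ p ^ 0 : PowerSeries R) =
          PowerSeries.X := by
        simp [Gam]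
      rw [this]
      exact Fv_zero_X p n _
    | succ i ih =>
      rw [Upart, ih]
      have : (PowerSeries.C ((Gam h : ℕ → R) (h + (i + 1))) * PowerSeries.X ^ p ^ (i + 1)
          : PowerSeries R) = 0 := by
        simp [Gam]
      rw [this]
      exact Fv_X_zero p n _
  exact h1 (n - h)

theorem as5_US_map (φ : R →+* S) (v : ℕ → R) :
    (US p n h v).map φ = US p n h (fun j => φ (v j)) := by
  unfold US
  rw [Upart_eq_Up, Upart_eq_Up]
  exact US1.Up_map φ h v _

/-- `g(X)^q = g^(q)(X^q)` -/
theorem as5_pow_eq [CharP R p] (g : PowerSeries R) :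
    (g.map (iterateFrobenius R p h)).subst (PowerSeries.X ^ (p ^ h) : PowerSeries R) =
      g ^ (p ^ h) := by
  have hp0 : p ≠ 0 := (Fact.out : p.Prime).ne_zero
  have hq : p ^ h ≠ 0 := pow_ne_zero _ hp0
  have : ExpChar R p := ExpChar.prime (Fact.out : p.Prime)
  have h1 := map_iterateFrobenius_expand p hp0 (g : MvPowerSeries Unit R) h
  rw [map_expand, US1.expand_eq] at h1
  exact h1

/-- `g ∘ U = g^(q)` for a homomorphism `g : F_v → Γ_h`. -/
theorem as5_comp_US [CharP R p] (hh : 1 ≤ h) (hn : h ≤ n) {v : ℕ → R}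
    (hv : ∀ j, 1 ≤ j → j < h → v j = 0) {g : PowerSeries R} (hg : IsHomS p n v (Gam h) g) :
    g.subst (US p n h v) = g.map (iterateFrobenius R p h) := by
  have hp0 : p ≠ 0 := (Fact.out : p.Prime).ne_zero
  have hq : p ^ h ≠ 0 := pow_ne_zero _ hp0
  have hG : ∀ j, 1 ≤ j → j < h → (Gam h : ℕ → R) j = 0 := fun j h1 h2 => by
    simp [Gam, h2.ne]
  have h1 := hg.comp_mulS p
  rw [mulS_p_eq hh hn hv, mulS_p_eq hh hn hG, as5_US_Gam] at h1
  have hXq : PowerSeries.HasSubst (PowerSeries.X ^ (p ^ h) : PowerSeries R) :=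
    PowerSeries.HasSubst.X_pow hq
  have hgs : PowerSeries.HasSubst g := PowerSeries.HasSubst.of_constantCoeff_zero' hg.1
  have hUs : PowerSeries.HasSubst (US p n h v) :=
    PowerSeries.HasSubst.of_constantCoeff_zero' (US_constantCoeff hh)
  rw [PowerSeries.subst_X hXq, PowerSeries.subst_pow hgs, PowerSeries.subst_X hgs,
    ← as5_pow_eq (h := h) g, ← PowerSeries.subst_comp_subst_apply hUs hXq] at h1
  refine US1.expand_inj hq ?_
  rw [US1.expand_eq, US1.expand_eq]
  exact h1

theorem as5_map_subst (φ : R →+* S) {V : PowerSeries R} (hV : PowerSeries.HasSubst V)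
    (g : PowerSeries R) : PowerSeries.map φ (PowerSeries.subst V g) =
      PowerSeries.subst (PowerSeries.map φ V) (PowerSeries.map φ g) :=
  PowerSeries.map_subst hV g

end gen

/-! ### the ideals `(δ)^N` -/

section JN

variable {σ k : Type*} [CommRing k]

/-- series of order at least `N` -/
noncomputable def as5JN (σ k : Type*) [CommRing k] (N : ℕ) : Ideal (MvPowerSeries σ k) where
  carrier := {f | (N : ℕ∞) ≤ f.order}
  add_mem' := by
    intro f g hf hg
    exact (le_min hf hg).trans min_order_le_add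
  zero_mem' := by
    show (N : ℕ∞) ≤ (0 : MvPowerSeries σ k).order
    rw [order_zero]
    exact le_top
  smul_mem' := by
    intro c f hf
    show (N : ℕ∞) ≤ (c * f).order
    exact (le_trans hf le_add_self).trans le_order_mul

theorem as5_mem_JN {N : ℕ} {f : MvPowerSeries σ k} :
    f ∈ as5JN σ k N ↔ (N : ℕ∞) ≤ f.order := Iff.rfl

theorem as5_mem_JN_iff {N : ℕ} {f : MvPowerSeries σ k} :
    f ∈ as5JN σ k N ↔ ∀ e : σ →₀ ℕ, e.degree < N → coeff e f = 0 := by
  constructor
  · intro hf e he
    exact coeff_of_lt_order (lt_of_lt_of_le (by exact_mod_cast he) hf)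
  · intro hf
    exact nat_le_order hf

theorem as5JN_pow {N : ℕ} {f : MvPowerSeries σ k} (hf : f ∈ as5JN σ k N) (q : ℕ) :
    f ^ q ∈ as5JN σ k (N * q) := by
  rw [as5_mem_JN] at hf ⊢
  refine le_trans ?_ (le_order_pow q)
  rw [mul_comm]
  push_cast
  rw [nsmul_eq_mul]
  gcongr

theorem as5JN_mono {N M : ℕ} (h : N ≤ M) : as5JN σ k M ≤ as5JN σ k N := fun f hf => by
  rw [as5_mem_JN] at hf ⊢
  exact le_trans (by exact_mod_cast h) hf

theorem as5_mem_JN_one {f : MvPowerSeries σ k} : f ∈ as5JN σ k 1 ↔ constantCoeff f = 0 := by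
  rw [as5_mem_JN, Nat.cast_one]
  exact one_le_order_iff_constCoeff_eq_zero

end JN

/-! ### the limit -/

section main

variable {p n h : ℕ} [Fact p.Prime] {σ k : Type*} [Field k] [CharP k p]

theorem charP_mv (p : ℕ) (σ k : Type*) [Field k] [CharP k p] : CharP (MvPowerSeries σ k) p :=
  charP_of_injective_ringHom (f := (MvPowerSeries.C : k →+* MvPowerSeries σ k))
    (fun a b hab => by
      have := congrArg (constantCoeff (σ := σ) (R := k)) hab
      simpa using this) p

theorem as5_main (hh : 1 ≤ h) (hn : h ≤ n) (v : ℕ → MvPowerSeries σ k)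
    (hv : ∀ j, 1 ≤ j → j < h → v j = 0) (hu : IsUnit (v h))
    (g0 : PowerSeries (MvPowerSeries σ k)) (hg0 : PowerSeries.constantCoeff g0 = 0)
    (hg0k : IsHomS p n (fun j => constantCoeff (v j)) (Gam h) (g0.map constantCoeff)) :
    ∃ ψ : PowerSeries (MvPowerSeries σ k), IsHomS p n v (Gam h) ψ ∧
      ∀ d, constantCoeff (PowerSeries.coeff d ψ) = constantCoeff (PowerSeries.coeff d g0) := by
  classical
  have hchar := charP_mv p σ k
  have hq1 : 1 < p ^ h := Nat.one_lt_pow (by omega) (Fact.out : p.Prime).one_lt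
  set q := p ^ h with hq
  set F := iterateFrobenius (MvPowerSeries σ k) p h with hF
  have hFq : ∀ r, F r = r ^ q := fun r => by rw [hF, iterateFrobenius_def]
  have hUhom := US_isHomS (p := p) (n := n) hh hn hv
  obtain ⟨V, hV, -, hVl, hVr⟩ := hUhom.exists_inv (by rw [US_coeff_one hh hn]; exact hu)
  have hVs : PowerSeries.HasSubst V := PowerSeries.HasSubst.of_constantCoeff_zero' hV.1
  have hGamF : (fun j => F ((Gam h : ℕ → MvPowerSeries σ k) j)) = Gam h := by
    funext j
    rw [hFq]
    unfold Gam
    split_ifs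
    · rw [one_pow]
    · rw [zero_pow (by omega)]
  have hvF : (fun j => F (v j)) = fun j => v j ^ (p ^ h) := by
    funext j
    rw [hFq]
  -- the sequence
  set gs : ℕ → PowerSeries (MvPowerSeries σ k) :=
    fun j => Nat.rec g0 (fun _ g => (g.map F).subst V) j with hgs
  have hgs0 : gs 0 = g0 := rfl
  have hgsS : ∀ j, gs (j + 1) = ((gs j).map F).subst V := fun j => rfl
  have c0 : ∀ j, PowerSeries.constantCoeff (gs j) = 0 := by
    intro j
    induction j with
    | zero => exact hg0
    | succ j ih =>
      rw [hgsS]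
      refine PowerSeries.constantCoeff_subst_eq_zero hV.1 _ ?_
      rw [← PowerSeries.coeff_zero_eq_constantCoeff_apply, PowerSeries.coeff_map,
        PowerSeries.coeff_zero_eq_constantCoeff_apply, ih, map_zero]
  -- c1
  have c1 : ∀ j d, PowerSeries.coeff d (gs (j + 1)) - PowerSeries.coeff d (gs j) ∈
      as5JN σ k (q ^ j) := by
    intro j
    induction j with
    | zero =>
      intro d
      rw [pow_zero, as5_mem_JN_one, map_sub, sub_eq_zero, ← PowerSeries.coeff_map,
        ← PowerSeries.coeff_map, hgsS, hgs0]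
      congr 1
      rw [as5_map_subst _ hVs]
      have e1 : (g0.map F).map (constantCoeff (σ := σ) (R := k)) =
          (g0.map constantCoeff).map (iterateFrobenius k p h) := by
        ext d
        rw [PowerSeries.coeff_map, PowerSeries.coeff_map, PowerSeries.coeff_map,
          PowerSeries.coeff_map, hFq, iterateFrobenius_def, map_pow]
      have hvk : ∀ j, 1 ≤ j → j < h → constantCoeff (v j) = 0 := fun j h1 h2 => by
        rw [hv j h1 h2, map_zero]
      rw [e1, ← as5_comp_US hh hn hvk hg0k, ← as5_US_map]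
      have hUs : PowerSeries.HasSubst (PowerSeries.map (constantCoeff (σ := σ) (R := k))
          (US p n h v)) := by
        rw [as5_US_map]
        exact PowerSeries.HasSubst.of_constantCoeff_zero' (US_constantCoeff hh)
      have hVs' : PowerSeries.HasSubst (PowerSeries.map (constantCoeff (σ := σ) (R := k)) V) := by
        refine PowerSeries.HasSubst.of_constantCoeff_zero' ?_
        rw [← PowerSeries.coeff_zero_eq_constantCoeff_apply, PowerSeries.coeff_map,
          PowerSeries.coeff_zero_eq_constantCoeff_apply, hV.1, map_zero]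
      have e2 : PowerSeries.subst (PowerSeries.map (constantCoeff (σ := σ) (R := k)) V)
          (PowerSeries.map (constantCoeff (σ := σ) (R := k)) (US p n h v)) = PowerSeries.X := by
        have := as5_map_subst (constantCoeff (σ := σ) (R := k)) hVs (US p n h v)
        rw [hVr] at this
        have hX : PowerSeries.map (constantCoeff (σ := σ) (R := k)) PowerSeries.X =
          PowerSeries.X := PowerSeries.map_X _
        rw [← hX]
        exact this.symm
      have e3 := PowerSeries.subst_comp_subst_apply hUs hVs'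
        (g0.map (constantCoeff (σ := σ) (R := k)))
      rw [e2] at e3
      exact e3.trans (spt_subst_self _)
    | succ j ih =>
      intro d
      have h1 : CI (as5JN σ k (q ^ (j + 1))) ((gs (j + 1)).map F - (gs j).map F : PowerSeries _) := by
        intro e
        have he : e = Finsupp.single () (e ()) := by ext; simp
        rw [he]
        show PowerSeries.coeff (e ()) ((gs (j + 1)).map F - (gs j).map F) ∈ _
        rw [map_sub, PowerSeries.coeff_map, PowerSeries.coeff_map, ← map_sub, hFq, pow_succ]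
        exact as5JN_pow (ih _) q
      have h2 := CI_subst_sub ((gs (j + 1)).map F) ((gs j).map F) h1 V V hV.1 hV.1
        (fun d => by rw [sub_self, map_zero]; exact Ideal.zero_mem _)
      have h3 := h2 (Finsupp.single () d)
      rw [← map_sub, hgsS (j + 1), hgsS j]
      exact h3
  -- c2
  have c2 : ∀ j, CI (as5JN σ k (q ^ j)) (as5D p n v (Gam h) (gs j)) := by
    intro j
    induction j with
    | zero =>
      intro e
      rw [pow_zero, as5_mem_JN_one, ← coeff_map, as5D_map _ _ _ _ (c0 0), hgs0]
      have e1 : (fun j => (constantCoeff (σ := σ) (R := k)) ((Gam h : ℕ → MvPowerSeries σ k) j)) =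
          Gam h := by
        funext j
        unfold Gam
        split_ifs <;> simp
      rw [e1, (as5D_eq_zero_iff hg0k.1).2 hg0k, map_zero]
    | succ j ih =>
      have c0' : PowerSeries.constantCoeff ((gs j).map F) = 0 := by
        rw [← PowerSeries.coeff_zero_eq_constantCoeff_apply, PowerSeries.coeff_map,
          PowerSeries.coeff_zero_eq_constantCoeff_apply, c0, map_zero]
      rw [hgsS, as5D_comp hV c0', ← hvF]
      conv => arg 2; arg 2; rw [← hGamF]
      rw [← as5D_map F _ _ _ (c0 j)]
      have h1 : CI (as5JN σ k (q ^ (j + 1))) ((as5D p n v (Gam h) (gs j)).map F) := by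
        intro e
        rw [coeff_map, hFq, pow_succ]
        exact as5JN_pow (ih e) q
      have hV0 : ∀ i : Fin 2, constantCoeff
          (![V.subst (X 0 : MvPowerSeries (Fin 2) (MvPowerSeries σ k)),
            V.subst (X 1 : MvPowerSeries (Fin 2) (MvPowerSeries σ k))] i) = 0 := by
        intro i
        fin_cases i
        · exact PowerSeries.constantCoeff_subst_eq_zero (constantCoeff_X _) V hV.1
        · exact PowerSeries.constantCoeff_subst_eq_zero (constantCoeff_X _) V hV.1
      have h2 := CI_substMv_sub ((as5D p n v (Gam h) (gs j)).map F) 0 (by rwa [sub_zero])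
        ![V.subst (X 0 : MvPowerSeries (Fin 2) (MvPowerSeries σ k)),
            V.subst (X 1 : MvPowerSeries (Fin 2) (MvPowerSeries σ k))]
        ![V.subst (X 0 : MvPowerSeries (Fin 2) (MvPowerSeries σ k)),
            V.subst (X 1 : MvPowerSeries (Fin 2) (MvPowerSeries σ k))] hV0 hV0
        (fun i d => by rw [sub_self, map_zero]; exact Ideal.zero_mem _)
      rw [spt_subst_zero (hasSubst_of_constantCoeff_zero hV0), sub_zero] at h2
      exact h2
  -- stability of the coefficients
  have hst : ∀ (e : σ →₀ ℕ) (d a b : ℕ), a ≤ b → e.degree < q ^ a →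
      coeff e (PowerSeries.coeff d (gs b)) = coeff e (PowerSeries.coeff d (gs a)) := by
    intro e d a b hab he
    induction b, hab using Nat.le_induction with
    | base => rfl
    | succ b hab ih =>
      have h1 := as5_mem_JN_iff.1 (c1 b d) e
        (lt_of_lt_of_le he (Nat.pow_le_pow_right (by omega) hab))
      rw [map_sub, sub_eq_zero] at h1
      rw [h1, ih]
  have hqlt : ∀ j : ℕ, j < q ^ j := fun j => Nat.lt_pow_self hq1
  set ψc : ℕ → MvPowerSeries σ k := fun d =>
    (fun e : σ →₀ ℕ => coeff e (PowerSeries.coeff d (gs (e.degree + 1)))) with hψc'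
  set ψ : PowerSeries (MvPowerSeries σ k) := PowerSeries.mk ψc with hψ
  have hψc : ∀ (d : ℕ) (e : σ →₀ ℕ), coeff e (PowerSeries.coeff d ψ) =
      coeff e (PowerSeries.coeff d (gs (e.degree + 1))) := by
    intro d e
    rw [hψ, PowerSeries.coeff_mk]
    rfl
  have c3 : ∀ j d, PowerSeries.coeff d ψ - PowerSeries.coeff d (gs j) ∈ as5JN σ k (q ^ j) := by
    intro j d
    rw [as5_mem_JN_iff]
    intro e he
    rw [map_sub, sub_eq_zero, hψc]
    have h1 : e.degree < q ^ (e.degree + 1) :=
      (hqlt _).trans_le (Nat.pow_le_pow_right (by omega) (Nat.le_succ _))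
    rcases le_total j (e.degree + 1) with hj | hj
    · exact hst e d _ _ hj he
    · exact (hst e d _ _ hj h1).symm
  have c3' : ∀ j, ψ.map (Ideal.Quotient.mk (as5JN σ k (q ^ j))) =
      (gs j).map (Ideal.Quotient.mk (as5JN σ k (q ^ j))) := by
    intro j
    ext d
    rw [PowerSeries.coeff_map, PowerSeries.coeff_map]
    exact Ideal.Quotient.eq.2 (c3 j d)
  have hψ1 : ∀ d, constantCoeff (PowerSeries.coeff d ψ) =
      constantCoeff (PowerSeries.coeff d g0) := by
    intro d
    have h1 := c3 0 d
    rw [pow_zero, as5_mem_JN_one, map_sub, sub_eq_zero] at h1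
    exact h1
  have hψ0 : PowerSeries.constantCoeff ψ = 0 := by
    rw [← PowerSeries.coeff_zero_eq_constantCoeff_apply]
    ext e
    have h1 := c0 (e.degree + 1)
    rw [← PowerSeries.coeff_zero_eq_constantCoeff_apply] at h1
    rw [hψc, h1]
  refine ⟨ψ, (as5D_eq_zero_iff hψ0).1 ?_, hψ1⟩
  ext e f
  rw [map_zero, map_zero]
  have h1 : CI (as5JN σ k (q ^ f.degree)) (as5D p n v (Gam h) ψ) := by
    rw [CI_iff_map, as5D_map _ _ _ _ hψ0, c3', ← as5D_map _ _ _ _ (c0 _), ← CI_iff_map]
    exact c2 _
  exact as5_mem_JN_iff.1 (h1 e) f (hqlt _)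

end main

end Vale.Agent.P217
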