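import Vale.Agent.P217.E0Gen

/-!
# P217, module AS8: formal inverse function theorem, surjectivity of the substitution (helper15)
-/

namespace Vale.Agent.P217

namespace AS8

open MvPowerSeries

variable {F : Type*} [Field F] {m : ℕ}

theorem mem_M {r : ℕ} {f : MvPowerSeries (Fin m) F} :
    f ∈ gI (Fin m) (0 : F) r ↔ ∀ d, d.degree < r → coeff d f = 0 := by
  rw [mem_gI]
  constructor
  · intro h d hd
    have := h d
    rw [zero_pow (by omega)] at this
    exact zero_dvd_iff.1 this
  · intro h d
    by_cases hd : d.degree < r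
    · rw [h d hd]
      exact dvd_zero _
    · have : r - d.degree = 0 := by omega
      rw [this, pow_zero]
      exact one_dvd _

theorem M_mono {r s : ℕ} (h : r ≤ s) : gI (Fin m) (0 : F) s ≤ gI (Fin m) (0 : F) r := by
  intro f hf
  rw [mem_M] at hf ⊢
  exact fun d hd => hf d (by omega)

theorem mem_M_zero (f : MvPowerSeries (Fin m) F) : f ∈ gI (Fin m) (0 : F) 0 :=
  mem_M.2 fun d hd => absurd hd (Nat.not_lt_zero _)

theorem mem_M_one {f : MvPowerSeries (Fin m) F} :
    f ∈ gI (Fin m) (0 : F) 1 ↔ constantCoeff f = 0 := by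
  rw [mem_gI_one, zero_dvd_iff]

theorem degree_lt_two {d : Fin m →₀ ℕ} (hd : d.degree < 2) :
    d = 0 ∨ ∃ j, d = Finsupp.single j 1 := by
  by_cases h0 : d = 0
  · exact Or.inl h0
  · right
    obtain ⟨j, hj⟩ := Finsupp.ne_iff.1 h0
    have hj' : d j ≠ 0 := by simpa using hj
    have hle : Finsupp.single j 1 ≤ d := by
      rw [Finsupp.single_le_iff]
      omega
    refine ⟨j, ?_⟩
    obtain ⟨c, hc⟩ := le_iff_exists_add.1 hle
    have h2 : d.degree = 1 + c.degree := by
      rw [hc, map_add, Finsupp.degree_single]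
    have h3 : c = 0 := by
      rw [← Finsupp.degree_eq_zero_iff]
      omega
    rw [hc, h3, add_zero]

section ident

variable {L : Fin m → MvPowerSeries (Fin m) F} (hL : HasSubst L)

theorem sig_X (i : Fin m) : substAlgHom (R := F) hL (X i) = L i := substAlgHom_X hL i

theorem sig_C (c : F) : substAlgHom (R := F) hL (C c) = C c :=
  (substAlgHom (R := F) hL).commutes c

theorem sig_one (hL0 : ∀ i, constantCoeff (L i) = 0) {f : MvPowerSeries (Fin m) F}
    (hf : f ∈ gI (Fin m) (0 : F) 1) : substAlgHom (R := F) hL f ∈ gI (Fin m) (0 : F) 1 := by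
  have hle : gI (Fin m) (0 : F) 1 ≤
      (gI (Fin m) (0 : F) 1).comap (substAlgHom (R := F) hL) := by
    conv_lhs => rw [gI_one_eq, gJ]
    rw [Ideal.span_le]
    rintro _ (h | ⟨i, rfl⟩)
    · rw [Set.mem_singleton_iff] at h
      rw [h, SetLike.mem_coe, Ideal.mem_comap, map_zero, map_zero]
      exact Ideal.zero_mem _
    · rw [SetLike.mem_coe, Ideal.mem_comap, sig_X, mem_M_one]
      exact hL0 i
  exact hle hf

theorem T_zero (hL0 : ∀ i, constantCoeff (L i) = 0) (f : MvPowerSeries (Fin m) F) :
    substAlgHom (R := F) hL f - f ∈ gI (Fin m) (0 : F) 1 := by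
  have h1 : f - C (constantCoeff f) ∈ gI (Fin m) (0 : F) 1 := by
    rw [mem_M_one, map_sub, constantCoeff_C, sub_self]
  have h2 := sig_one hL hL0 h1
  rw [map_sub, sig_C] at h2
  have h3 := Ideal.sub_mem _ h2 h1
  have e : substAlgHom (R := F) hL f - C (constantCoeff f) - (f - C (constantCoeff f)) =
      substAlgHom (R := F) hL f - f := by ring
  rwa [e] at h3

theorem T_one (hL0 : ∀ i, constantCoeff (L i) = 0)
    (hL1 : ∀ i, L i - X i ∈ gI (Fin m) (0 : F) 2) {f : MvPowerSeries (Fin m) F}
    (hf : f ∈ gI (Fin m) (0 : F) 1) :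
    substAlgHom (R := F) hL f - f ∈ gI (Fin m) (0 : F) 2 := by
  rw [gI_one_eq, gJ] at hf
  induction hf using Submodule.span_induction with
  | mem x hx =>
    rcases hx with h | ⟨i, rfl⟩
    · rw [Set.mem_singleton_iff] at h
      rw [h, map_zero, map_zero, sub_zero]
      exact Ideal.zero_mem _
    · rw [sig_X]
      exact hL1 i
  | zero =>
    rw [map_zero, sub_zero]
    exact Ideal.zero_mem _
  | add x y _ _ hx hy =>
    rw [map_add]
    have e : substAlgHom (R := F) hL x + substAlgHom (R := F) hL y - (x + y) =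
      (substAlgHom (R := F) hL x - x) + (substAlgHom (R := F) hL y - y) := by ring
    rw [e]
    exact Ideal.add_mem _ hx hy
  | smul c x hx' hx =>
    rw [smul_eq_mul, map_mul]
    have e : substAlgHom (R := F) hL c * substAlgHom (R := F) hL x - c * x =
      substAlgHom (R := F) hL c * (substAlgHom (R := F) hL x - x) +
        (substAlgHom (R := F) hL c - c) * x := by ring
    rw [e]
    refine Ideal.add_mem _ (Ideal.mul_mem_left _ _ hx) ?_
    refine gI_mul (r := 1) (s := 1) (T_zero hL hL0 c) ?_
    rw [gI_one_eq, gJ]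
    exact hx'

theorem T_mem (hL0 : ∀ i, constantCoeff (L i) = 0)
    (hL1 : ∀ i, L i - X i ∈ gI (Fin m) (0 : F) 2) (r : ℕ) :
    ∀ f ∈ gI (Fin m) (0 : F) r, substAlgHom (R := F) hL f - f ∈ gI (Fin m) (0 : F) (r + 1) := by
  induction r with
  | zero => exact fun f _ => T_zero hL hL0 f
  | succ r ih =>
    intro f hf
    rw [← gI_eq_pow, pow_succ, gI_eq_pow] at hf
    refine Submodule.mul_induction_on hf ?_ ?_
    · intro f hf g hg
      have h1 := ih f hf
      have h2 := T_one hL hL0 hL1 hg
      have h3 : substAlgHom (R := F) hL f ∈ gI (Fin m) (0 : F) r := by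
        have h4 := Ideal.add_mem _ (M_mono (Nat.le_succ r) h1) hf
        rwa [sub_add_cancel] at h4
      rw [map_mul]
      have e : substAlgHom (R := F) hL f * substAlgHom (R := F) hL g - f * g =
        substAlgHom (R := F) hL f * (substAlgHom (R := F) hL g - g) +
          (substAlgHom (R := F) hL f - f) * g := by ring
      rw [e]
      exact Ideal.add_mem _ (gI_mul (r := r) (s := 2) h3 h2)
        (gI_mul (r := r + 1) (s := 1) h1 hg)
    · intro x y hx hy
      rw [map_add]
      have e : substAlgHom (R := F) hL x + substAlgHom (R := F) hL y - (x + y) =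
        (substAlgHom (R := F) hL x - x) + (substAlgHom (R := F) hL y - y) := by ring
      rw [e]
      exact Ideal.add_mem _ hx hy

theorem surj_ident (hL0 : ∀ i, constantCoeff (L i) = 0)
    (hL1 : ∀ i, L i - X i ∈ gI (Fin m) (0 : F) 2) (G : MvPowerSeries (Fin m) F) :
    ∃ G0 : MvPowerSeries (Fin m) F, substAlgHom (R := F) hL G0 = G := by
  let T : MvPowerSeries (Fin m) F → MvPowerSeries (Fin m) F :=
    fun f => f - substAlgHom (R := F) hL f
  have hT : ∀ r, ∀ f ∈ gI (Fin m) (0 : F) r, T f ∈ gI (Fin m) (0 : F) (r + 1) := by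
    intro r f hf
    have h1 := T_mem hL hL0 hL1 r f hf
    have h2 := (gI (Fin m) (0 : F) (r + 1)).neg_mem h1
    rwa [neg_sub] at h2
  have hTk : ∀ k, T^[k] G ∈ gI (Fin m) (0 : F) k := by
    intro k
    induction k with
    | zero => exact mem_M_zero _
    | succ k ih =>
      rw [Function.iterate_succ_apply']
      exact hT k _ ih
  let S : ℕ → MvPowerSeries (Fin m) F := fun K => ∑ k ∈ Finset.range K, T^[k] G
  have hS : ∀ K, substAlgHom (R := F) hL (S K) = G - T^[K] G := by
    intro K
    induction K with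
    | zero =>
      have e : S 0 = 0 := rfl
      rw [e, map_zero]
      exact (sub_self G).symm
    | succ K ih =>
      have e : S (K + 1) = S K + T^[K] G := Finset.sum_range_succ _ _
      have e2 : T^[K + 1] G = T^[K] G - substAlgHom (R := F) hL (T^[K] G) :=
        Function.iterate_succ_apply' T K G
      rw [e, map_add, ih, e2]
      ring
  have hpre : IsPrecomplete (Ideal.span {(0 : F)}) F := by
    rw [Ideal.span_singleton_eq_bot.2 rfl]
    infer_instance
  have hhaus : IsHausdorff (Ideal.span {(0 : F)}) F := by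
    rw [Ideal.span_singleton_eq_bot.2 rfl]
    infer_instance
  obtain ⟨G0, hG0⟩ := gI_complete (π := (0 : F)) S (fun r => by
    have e : S (r + 1) - S r = T^[r] G := by
      simp only [S, Finset.sum_range_succ]
      ring
    rw [e]
    exact hTk r)
  refine ⟨G0, ?_⟩
  rw [← sub_eq_zero]
  refine gI_hausdorff (π := (0 : F)) _ fun r => ?_
  have h1 := hG0 r
  have h2 := T_mem hL hL0 hL1 r _ h1
  have h3 : substAlgHom (R := F) hL (G0 - S r) ∈ gI (Fin m) (0 : F) r := by
    have h4 := Ideal.add_mem _ (M_mono (Nat.le_succ r) h2) h1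
    rwa [sub_add_cancel] at h4
  have e : substAlgHom (R := F) hL G0 - G = substAlgHom (R := F) hL (G0 - S r) - T^[r] G := by
    rw [map_sub, hS]
    ring
  rw [e]
  exact Ideal.sub_mem _ h3 (hTk r)

end ident

/-- AS8: surjectivity of substitution by series with invertible Jacobian matrix. -/
theorem exists_subst_eq (l : Fin m → MvPowerSeries (Fin m) F)
    (hl : ∀ i, constantCoeff (l i) = 0)
    (hdet : (Matrix.of fun i j => coeff (Finsupp.single j 1) (l i)).det ≠ 0)
    (G : MvPowerSeries (Fin m) F) : ∃ G0 : MvPowerSeries (Fin m) F, G0.subst l = G := by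
  set J : Matrix (Fin m) (Fin m) F := Matrix.of fun i j => coeff (Finsupp.single j 1) (l i)
    with hJ
  have hu : IsUnit J.det := isUnit_iff_ne_zero.2 hdet
  set B := J⁻¹ with hB
  have hBJ : B * J = 1 := Matrix.nonsing_inv_mul J hu
  let L : Fin m → MvPowerSeries (Fin m) F := fun i => ∑ j, C (B i j) * l j
  let E : Fin m → MvPowerSeries (Fin m) F := fun i => ∑ j, C (B i j) * X j
  have hL0 : ∀ i, constantCoeff (L i) = 0 := by
    intro i
    simp only [L]
    rw [map_sum]
    refine Finset.sum_eq_zero fun j _ => ?_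
    rw [map_mul, hl, mul_zero]
  have hE0 : ∀ i, constantCoeff (E i) = 0 := by
    intro i
    simp only [E]
    rw [map_sum]
    refine Finset.sum_eq_zero fun j _ => ?_
    rw [map_mul, constantCoeff_X, mul_zero]
  have hsl : HasSubst l := hasSubst_of_constantCoeff_zero hl
  have hsL : HasSubst L := hasSubst_of_constantCoeff_zero hL0
  have hsE : HasSubst E := hasSubst_of_constantCoeff_zero hE0
  have hL1 : ∀ i, L i - X i ∈ gI (Fin m) (0 : F) 2 := by
    intro i
    rw [mem_M]
    intro d hd
    rcases degree_lt_two hd with rfl | ⟨k, rfl⟩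
    · have h1 : coeff 0 (L i - X i) = constantCoeff (L i - X i) := by
        rw [coeff_zero_eq_constantCoeff_apply]
      rw [h1, map_sub, hL0, constantCoeff_X, sub_zero]
    · rw [map_sub]
      have h1 : coeff (Finsupp.single k 1) (L i) = (B * J) i k := by
        simp only [L]
        rw [map_sum, Matrix.mul_apply]
        refine Finset.sum_congr rfl fun j _ => ?_
        rw [coeff_C_mul]
        rfl
      rw [h1, hBJ, coeff_X, Matrix.one_apply]
      by_cases hik : i = k
      · subst hik
        simp
      · rw [if_neg hik, if_neg, sub_zero]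
        intro h2
        rw [Finsupp.single_left_inj one_ne_zero] at h2
        exact hik h2.symm
  obtain ⟨G1, hG1⟩ := surj_ident hsL hL0 hL1 G
  refine ⟨G1.subst E, ?_⟩
  rw [subst_comp_subst_apply hsE hsl]
  have e : (fun s => subst l (E s)) = L := by
    funext i
    simp only [E, L]
    rw [← coe_substAlgHom hsl, map_sum]
    refine Finset.sum_congr rfl fun j _ => ?_
    rw [map_mul, substAlgHom_X]
    congr 1
    exact (substAlgHom (R := F) hsl).commutes (B i j)
  rw [e, ← hG1, coe_substAlgHom]

end AS8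

end Vale.Agent.P217
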