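import Vale.Agent.P217.Base
import Vale.Agent.P217.PAS5
import Vale.Agent.P217.PAS8

/-!
# P217, part I: lifting `phi_a` to `K[[δ]]` (modules KD, AS5) and the formal inverse function
theorem (AS8)
-/

namespace Vale.Agent.P217

open MvPowerSeries Filter Topology
open scoped MvPowerSeries.WithPiTopology

/-- The field `K` with the discrete topology. -/
def Kd (K : Type*) : Type _ := K

section kd

variable {K : Type*} [NormedField K]

instance : Field (Kd K) := inferInstanceAs (Field K)

instance : UniformSpace (Kd K) := ⊥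

instance : DiscreteTopology (Kd K) := ⟨rfl⟩

instance : DiscreteUniformity (Kd K) := ⟨rfl⟩

instance : IsUniformAddGroup (Kd K) := inferInstance

instance : IsTopologicalRing (Kd K) := inferInstance

instance : IsLinearTopology (Kd K) (Kd K) := inferInstance

instance : T2Space (Kd K) := inferInstance

instance : CompleteSpace (Kd K) := inferInstance

/-- `O_K → K` (discrete target; a ring homomorphism, not continuous). -/
noncomputable def toKd [IsUltrametricDist K] : OO K →+* Kd K := (OO K).subtype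

end kd

variable {p h m : ℕ} [Fact p.Prime]
variable {K : Type*} [NormedField K] [IsUltrametricDist K] [CharP K p]

/-- The parameters `a + δ` over `K[[δ]]`. -/
noncomputable def parXK (h m : ℕ) (a : Fin m → OO K) : ℕ → MvPowerSeries (Fin m) (Kd K) :=
  par h m (fun i => C (toKd (a i)) + X i)

theorem parXK_eq (h m : ℕ) (a : Fin m → OO K) (j : ℕ) :
    parXK h m a j = (parX h m a j).map toKd := by
  unfold parXK parX par
  split_ifs
  · rw [map_add, map_C, map_X]
  · rw [map_one]
  · rw [map_zero]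

/-- AS5: a homomorphism `phi : F_a → Γ_h` over `O_K` extends (over `K[[δ]]`) to a homomorphism
`psi : F_{a+δ} → Γ_h` with `psi ≡ phi mod (δ)`.

Proof: `T(ψ) = ψ^{(q)} ∘ U(a+δ)^{-1}` (`ψ^{(q)}`: `q`-Frobenius on the coefficients in `K[[δ]]`,
`U = US`, invertible because `v_h = a_0 + δ_0` is a unit of `K[[δ]]`). `φ ∘ U(a) = φ^{(q)}` gives
`T(φ) ≡ φ mod (δ)`, so `T^j(φ)` converges to a fixed point `ψ`: `ψ ∘ U(a+δ) = ψ^{(q)}`. The defect
`Δ(ψ) = ψ(X +_F Y) - ψ(X) - ψ(Y)` satisfies `Δ(Tψ) = Δ(ψ)^{(q)} ∘ (U^{-1}, U^{-1})`, so it lies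
in all `(δ)^{q^j}`. -/
theorem exists_phiDelta (hh : 1 ≤ h) (hm : 1 ≤ m) (a : Fin m → OO K) (ha : a ⟨0, hm⟩ ≠ 0)
    (φ : PowerSeries (OO K)) (hφ : IsHomS p (h + m) (par h m a) (Gam h) φ) :
    ∃ ψ : PowerSeries (MvPowerSeries (Fin m) (Kd K)),
      IsHomS p (h + m) (parXK h m a) (Gam h) ψ ∧
      ∀ d, constantCoeff (PowerSeries.coeff d ψ) = toKd (PowerSeries.coeff d φ) := by
  have hchar : CharP (Kd K) p := inferInstanceAs (CharP K p)
  have hv : ∀ j, 1 ≤ j → j < h → parXK h m a j = 0 := by
    intro j h1 h2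
    unfold parXK par
    rw [dif_neg (by omega), if_neg (by omega)]
  have hvh : parXK h m a h = C (toKd (a ⟨0, hm⟩)) + X ⟨0, hm⟩ := by
    unfold parXK par
    rw [dif_pos (by omega)]
    have : (⟨h - h, by omega⟩ : Fin m) = ⟨0, hm⟩ := Fin.ext (Nat.sub_self h)
    simp only [this]
  have hu : IsUnit (parXK h m a h) := by
    rw [hvh, MvPowerSeries.isUnit_iff_constantCoeff, map_add, constantCoeff_C, constantCoeff_X,
      add_zero, isUnit_iff_ne_zero]
    intro h0
    exact ha (Subtype.ext h0)
  have hcc : (fun j => constantCoeff (parXK h m a j)) = fun j => toKd (par h m a j) := by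
    funext j
    unfold parXK par
    split_ifs <;> simp
  have hG : (fun j => toKd ((Gam h : ℕ → OO K) j)) = (Gam h : ℕ → Kd K) := by
    funext j
    unfold Gam
    split_ifs <;> simp
  have hg0c : ((φ.map toKd).map (C : Kd K →+* MvPowerSeries (Fin m) (Kd K))).map
      (constantCoeff (σ := Fin m) (R := Kd K)) = φ.map toKd := by
    ext d
    rw [PowerSeries.coeff_map, PowerSeries.coeff_map, constantCoeff_C]
  have h1 := hφ.map (toKd (K := K))
  rw [hG, ← hcc] at h1
  obtain ⟨ψ, hψ, hψc⟩ := as5_main hh (Nat.le_add_right h m) (parXK h m a) hv hu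
    ((φ.map toKd).map (C : Kd K →+* MvPowerSeries (Fin m) (Kd K))) (by
      rw [← PowerSeries.coeff_zero_eq_constantCoeff_apply, PowerSeries.coeff_map,
        PowerSeries.coeff_map, PowerSeries.coeff_zero_eq_constantCoeff_apply, hφ.1, map_zero,
        map_zero]) (by rw [hg0c]; exact h1)
  refine ⟨ψ, hψ, fun d => ?_⟩
  rw [hψc, PowerSeries.coeff_map, constantCoeff_C, PowerSeries.coeff_map]

/-- AS5b: linear coefficients of `ψ(λ)` (evaluation in the complete ring `K[[δ]]`). -/
theorem coeff_single_ev1 (ψ : PowerSeries (MvPowerSeries (Fin m) (Kd K)))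
    (h0 : PowerSeries.constantCoeff ψ = 0)
    (l : MvPowerSeries (Fin m) (Kd K)) (hl : constantCoeff l = 0) :
    constantCoeff (ev1 ψ l) = 0 ∧ ∀ j : Fin m, coeff (Finsupp.single j 1) (ev1 ψ l) =
      constantCoeff (PowerSeries.coeff 1 ψ) * coeff (Finsupp.single j 1) l := by
  have htn : IsTopologicallyNilpotent l :=
    WithPiTopology.isTopologicallyNilpotent_of_constantCoeff_zero hl
  have hsum := PowerSeries.hasSum_eval₂ (φ := RingHom.id (MvPowerSeries (Fin m) (Kd K)))
    continuous_idO (a := l) htn ψ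
  have hcoeff : ∀ e : Fin m →₀ ℕ, HasSum (fun d : ℕ => coeff e (PowerSeries.coeff d ψ * l ^ d))
      (coeff e (ev1 ψ l)) := fun e =>
    hsum.map (coeff e : MvPowerSeries (Fin m) (Kd K) →ₗ[Kd K] Kd K)
      (WithPiTopology.continuous_coeff (Kd K) e)
  have hlM : l ∈ gI (Fin m) (0 : Kd K) 1 := AS8.mem_M_one.2 hl
  have hpow : ∀ d : ℕ, l ^ d ∈ gI (Fin m) (0 : Kd K) d := by
    intro d
    rw [← gI_eq_pow]
    exact Ideal.pow_mem_pow hlM d
  have hterm : ∀ d : ℕ, ∀ e : Fin m →₀ ℕ, e.degree < d →
      coeff e (PowerSeries.coeff d ψ * l ^ d) = 0 := fun d e he =>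
    AS8.mem_M.1 (Ideal.mul_mem_left _ _ (hpow d)) e he
  have hterm0 : ∀ e : Fin m →₀ ℕ, coeff e (PowerSeries.coeff 0 ψ * l ^ 0) = 0 := by
    intro e
    rw [PowerSeries.coeff_zero_eq_constantCoeff_apply, h0, zero_mul, map_zero]
  constructor
  · rw [← coeff_zero_eq_constantCoeff_apply]
    refine (hcoeff 0).unique ?_
    have e : (fun d : ℕ => coeff 0 (PowerSeries.coeff d ψ * l ^ d)) = fun _ => 0 := by
      funext d
      rcases Nat.eq_zero_or_pos d with rfl | hd
      · exact hterm0 0
      · exact hterm d 0 (by simpa using hd)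
    rw [e]
    exact hasSum_zero
  · intro j
    refine (hcoeff (Finsupp.single j 1)).unique ?_
    have h1 := hasSum_single (f := fun d : ℕ =>
      coeff (Finsupp.single j 1) (PowerSeries.coeff d ψ * l ^ d)) 1 (by
        intro d hd
        rcases Nat.eq_zero_or_pos d with rfl | hd'
        · exact hterm0 _
        · exact hterm d _ (by rw [Finsupp.degree_single]; omega))
    have e : coeff (Finsupp.single j 1) (PowerSeries.coeff 1 ψ * l ^ 1) =
        constantCoeff (PowerSeries.coeff 1 ψ) * coeff (Finsupp.single j 1) l := by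
      rw [pow_one]
      have h2 : PowerSeries.coeff 1 ψ * l = C (constantCoeff (PowerSeries.coeff 1 ψ)) * l +
          (PowerSeries.coeff 1 ψ - C (constantCoeff (PowerSeries.coeff 1 ψ))) * l := by ring
      rw [h2, map_add, coeff_C_mul]
      have h3 : (PowerSeries.coeff 1 ψ - C (constantCoeff (PowerSeries.coeff 1 ψ))) * l ∈
          gI (Fin m) (0 : Kd K) 2 := by
        refine gI_mul (r := 1) (s := 1) (AS8.mem_M_one.2 ?_) hlM
        rw [map_sub, constantCoeff_C, sub_self]
      rw [AS8.mem_M.1 h3 _ (by rw [Finsupp.degree_single]; omega), add_zero]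
    rw [← e]
    exact h1

/-- AS8: formal inverse function theorem (surjectivity of substitution by series with invertible
Jacobian matrix). -/
theorem exists_subst_eq {F : Type*} [Field F] (l : Fin m → MvPowerSeries (Fin m) F)
    (hl : ∀ i, constantCoeff (l i) = 0)
    (hdet : (Matrix.of fun i j => coeff (Finsupp.single j 1) (l i)).det ≠ 0)
    (G : MvPowerSeries (Fin m) F) : ∃ G0 : MvPowerSeries (Fin m) F, G0.subst l = G :=
  AS8.exists_subst_eq l hl hdet G

end Vale.Agent.P217
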