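import Vale.Agent.P217.SNring
import Vale.Agent.P217.PhiDelta
import Vale.Agent.P217.Jac
import Vale.Agent.P217.ClosureK

/-!
# P217, module AS7: the key identity in `SN` (helper99)
-/

namespace Vale.Agent.P217

open MvPowerSeries Filter Topology
open scoped MvPowerSeries.WithPiTopology

set_option linter.unusedSectionVars false

section gen

variable {O : Type*} [CommRing O] [UniformSpace O] [IsUniformAddGroup O] [IsTopologicalRing O]
  [IsLinearTopology O O] [T2Space O] [CompleteSpace O] {p n h : ℕ} [Fact p.Prime]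

theorem as7_Gam_pow_smul [CharP O p] (hh : 1 ≤ h) (hn : h ≤ n) (x : FPt p n (Gam h : ℕ → O))
    (k : ℕ) : (p ^ k • x).1 = x.1 ^ (p ^ (h * k)) := by
  induction k with
  | zero => simp
  | succ k ih =>
    rw [pow_succ', mul_smul, cls_p_smul hh hn, ih, ← pow_mul, ← pow_add, Nat.mul_succ]

theorem as7_mulS_sub_mem {J : Ideal O} {v w : ℕ → O}
    (hvw : ∀ j, 1 ≤ j → j ≤ n → v j - w j ∈ J) (k d : ℕ) :
    PowerSeries.coeff d (mulS p n v k) - PowerSeries.coeff d (mulS p n w k) ∈ J := by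
  rw [← Ideal.Quotient.eq, ← PowerSeries.coeff_map, ← PowerSeries.coeff_map,
    mulS_map p n v, mulS_map p n w, mulS_congr p n fun j h1 h2 => Ideal.Quotient.eq.2 (hvw j h1 h2)]

/-- values of a series without constant term -/
theorem as7_ev1_eq_mul (g : PowerSeries O) (hg : PowerSeries.constantCoeff g = 0) {x : O}
    (hx : IsTopologicallyNilpotent x) : ∃ y, ev1 g x = x * y :=
  ⟨_, by rw [ev1_eq_add_mul g hx, hg, zero_add]⟩

end gen

section OKpart

variable {p h m : ℕ} [Fact p.Prime]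
variable {K : Type*} [NormedField K] [IsUltrametricDist K]
  [CharP K p] [PerfectRing K p] [CompleteSpace K]

theorem as7_norm_ev1_le (g : PowerSeries (OO K)) (hg : PowerSeries.constantCoeff g = 0) {x : OO K}
    (hx : IsTopologicallyNilpotent x) : ‖((ev1 g x : OO K) : K)‖ ≤ ‖(x : K)‖ := by
  obtain ⟨y, hy⟩ := as7_ev1_eq_mul g hg hx
  rw [hy, Subring.coe_mul, norm_mul]
  exact mul_le_of_le_one_right (norm_nonneg _) y.2

theorem as7_pow_smul_norm {a : Fin m → OO K} {ρ : ℝ} (D : Dt p h m a ρ)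
    (y : FPt p (h + m) (par h m a)) (k : ℕ) :
    ‖(((p ^ k • y : FPt p (h + m) (par h m a)).1 : OO K) : K)‖ ≤
      ‖((y.1 : OO K) : K)‖ ^ (p ^ (h * k)) := by
  have hchar : CharP (OO K) p := jc3_charP
  have hv0 : ∀ j, 1 ≤ j → j < h → par h m a j = 0 := by
    intro j _ hj
    unfold par
    rw [dif_neg (by omega), if_neg (by omega)]
  induction k with
  | zero => simp
  | succ k ih =>
    rw [pow_succ', mul_smul, FPt.p_smul_val_US D.h_pos (by omega) hv0]
    have htn : IsTopologicallyNilpotent ((p ^ k • y : FPt p (h + m) (par h m a)).1 ^ (p ^ h)) := by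
      rw [tn_iff_norm_lt_one, Subring.coe_pow, norm_pow]
      exact pow_lt_one₀ (norm_nonneg _) ((tn_iff_norm_lt_one _).mp (p ^ k • y).2)
        (pow_ne_zero _ (Fact.out : p.Prime).ne_zero)
    refine (as7_norm_ev1_le _ (US_constantCoeff D.h_pos) htn).trans ?_
    rw [Subring.coe_pow, norm_pow, Nat.mul_succ, pow_add, pow_mul]
    exact pow_le_pow_left₀ (norm_nonneg _) ih _

/-- the multiples of the same element for two congruent parameters -/
theorem as7_smul_sub_mem {n : ℕ} {v w : ℕ → OO K} {I : Ideal (OO K)}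
    (hI : IsClosed (I : Set (OO K))) (hvw : ∀ j, 1 ≤ j → j ≤ n → v j - w j ∈ I)
    (y : FPt p n v) (y' : FPt p n w) (hy : y.1 = y'.1) (k : ℕ) :
    (k • y).1 - (k • y').1 ∈ I := by
  rw [FPt.nsmul_val, FPt.nsmul_val, ← hy]
  exact ev1_sub_mem' _ _ hI (fun d => as7_mulS_sub_mem hvw k d) y.2

theorem as7_par_sub_mem {a b : Fin m → OO K} {I : Ideal (OO K)} (hab : ∀ i, a i - b i ∈ I) (j : ℕ) :
    par h m a j - par h m b j ∈ I := by
  unfold par
  split_ifs
  · exact hab _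
  · simp
  · simp

/-- Frobenius powers of differences -/
theorem as7_sub_pow {k : ℕ} (x y : OO K) : (x - y) ^ (p ^ k) = x ^ (p ^ k) - y ^ (p ^ k) := by
  have hchar : CharP (OO K) p := jc3_charP
  exact sub_pow_char_pow x y k

end OKpart

/-! ### The ring `SN` -/

section SNpart

variable {K : Type*} [NormedField K] [IsUltrametricDist K] {q : ℕ} [Fact (2 ≤ q)] {r : ℝ}
  {hr : 0 ≤ r} {N : ℕ}

theorem as7_cls_eq {x y : ℕ → OO K} (hxy : Bd q (r ^ N) (fun M => (x M : K) - (y M : K))) :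
    (cls x : SN K q r hr N) = cls y := by
  rw [← sub_eq_zero, ← map_sub, cls_eq_zero_iff]
  exact hxy

theorem as7_bd_zero_of_eventually {s : ℝ} (hs : 0 ≤ s) {x : ℕ → K}
    (hx : ∀ᶠ M in atTop, x M = 0) : Bd q s x := by
  intro t ht
  filter_upwards [hx] with M hM
  rw [hM, norm_zero]
  exact pow_nonneg (hs.trans ht.le) _

theorem as7_cls_congr {x y : ℕ → OO K} (hxy : ∀ᶠ M in atTop, x M = y M) :
    (cls x : SN K q r hr N) = cls y := by
  refine as7_cls_eq (as7_bd_zero_of_eventually (pow_nonneg hr N) ?_)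
  filter_upwards [hxy] with M hM
  rw [hM, sub_self]

theorem as7_nontrivial (hr1 : r < 1) (hN : N ≠ 0) : Nontrivial (SN K q r hr N) := by
  refine ⟨⟨1, 0, fun h => ?_⟩⟩
  have h1 : (cls (1 : ℕ → OO K) : SN K q r hr N) = 0 := by rw [map_one]; exact h
  rw [cls_eq_zero_iff] at h1
  have h2 : r ^ N < 1 := pow_lt_one₀ hr hr1 hN
  obtain ⟨t, ht1, ht2⟩ := exists_between h2
  obtain ⟨M, hM⟩ := (h1 t ht1).exists
  have h3 : ‖(((1 : ℕ → OO K) M : OO K) : K)‖ = 1 := by simp
  rw [h3] at hM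
  have hq : 2 ≤ q := Fact.out
  have h4 : t ^ q ^ M < 1 := pow_lt_one₀ ((pow_nonneg hr N).trans ht1.le) ht2 (by positivity)
  linarith

theorem as7_charP {p : ℕ} [Fact p.Prime] [CharP K p] (hr1 : r < 1) (hN : N ≠ 0) :
    CharP (SN K q r hr N) p := by
  have := as7_nontrivial (K := K) (q := q) (hr := hr) hr1 hN
  rw [CharP.charP_iff_prime_eq_zero (Fact.out : p.Prime)]
  have h1 : (p : SN K q r hr N) = cls ((p : ℕ) : ℕ → OO K) := by rw [map_natCast]
  have h2 : ((p : ℕ) : ℕ → OO K) = 0 := by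
    funext M
    apply Subtype.ext
    have : (((p : ℕ → OO K) M : OO K) : K) = (p : K) := by simp
    rw [this, CharP.cast_eq_zero]
    rfl
  rw [h1, h2, map_zero]

theorem as7_tn_of_nilpotent {x : SN K q r hr N} (hx : IsNilpotent x) :
    IsTopologicallyNilpotent x := by
  obtain ⟨k, hk⟩ := hx
  refine tendsto_atTop_of_eventually_const (i₀ := k) fun i hi => ?_
  exact pow_eq_zero_of_le hi hk

theorem as7_tn {z : ℕ → OO K} (hr0 : 0 < r) {s : ℝ} (hs : s < 1)
    (hz : Bd q s (fun M => (z M : K))) : IsTopologicallyNilpotent (cls z : SN K q r hr N) :=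
  as7_tn_of_nilpotent (mkS_nilpotent hr0 _ hs hz)

end SNpart

/-! ### The evaluation `K[[δ]] → SN` -/

section sigma

variable {p h m : ℕ} [Fact p.Prime]
variable {K : Type*} [NormedField K] [IsUltrametricDist K]
  [CharP K p] [PerfectRing K p] [CompleteSpace K]
variable {q : ℕ} [Fact (2 ≤ q)] {r : ℝ} {hr : 0 ≤ r} {N : ℕ}

/-- constants from the discrete field -/
noncomputable def as7K : Kd K →+* SN K q r hr N := (constS : K →+* SN K q r hr N)

theorem as7K_continuous : Continuous (as7K : Kd K →+* SN K q r hr N) :=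
  continuous_of_discreteTopology

/-- constant sequences -/
def as7const (K : Type*) [NormedField K] [IsUltrametricDist K] : OO K →+* (ℕ → OO K) :=
  Pi.constRingHom ℕ (OO K)

theorem as7K_toKd (c : OO K) :
    (as7K (toKd c) : SN K q r hr N) = cls (as7const K c) := constS_coe c

variable (δ : Fin m → SN K q r hr N) (hδ : ∀ i, IsNilpotent (δ i))

theorem as7_hasEval (hδ : ∀ i, IsNilpotent (δ i)) : HasEval δ :=
  hasEval_of_finite fun i => as7_tn_of_nilpotent (hδ i)

/-- the evaluation at a nilpotent point -/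
noncomputable def as7sig (hδ : ∀ i, IsNilpotent (δ i)) :
    MvPowerSeries (Fin m) (Kd K) →+* SN K q r hr N :=
  eval₂Hom (φ := as7K) as7K_continuous (as7_hasEval δ hδ)

theorem as7sig_continuous : Continuous (as7sig δ hδ) := by
  rw [as7sig, coe_eval₂Hom]
  exact continuous_eval₂ as7K_continuous (as7_hasEval δ hδ)

theorem as7sig_eq (F : MvPowerSeries (Fin m) (Kd K)) :
    as7sig δ hδ F = evm (F.map as7K) δ := by
  have h1 := hasSum_eval₂ (φ := as7K) as7K_continuous (as7_hasEval δ hδ) F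
  have h2 := hasSum_eval₂ (φ := RingHom.id (SN K q r hr N)) continuous_idO (as7_hasEval δ hδ)
    (F.map as7K)
  have h3 : as7sig δ hδ F = eval₂ as7K δ F := by
    rw [as7sig, coe_eval₂Hom]
  rw [h3]
  refine h1.unique ?_
  convert! h2 using 1

theorem as7sig_hasSum (F : MvPowerSeries (Fin m) (Kd K)) :
    HasSum (fun d : Fin m →₀ ℕ => as7K (coeff d F) * d.prod fun s e => δ s ^ e)
      (as7sig δ hδ F) := by
  have h3 : as7sig δ hδ F = eval₂ as7K δ F := by
    rw [as7sig, coe_eval₂Hom]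
  rw [h3]
  exact hasSum_eval₂ (φ := as7K) as7K_continuous (as7_hasEval δ hδ) F

theorem as7sig_C (c : Kd K) : as7sig δ hδ (C c) = as7K c := by
  rw [as7sig, coe_eval₂Hom, eval₂_C]

theorem as7sig_X (i : Fin m) : as7sig δ hδ (X i) = δ i := by
  rw [as7sig, coe_eval₂Hom, eval₂_X]

end sigma

section key

variable {p h m : ℕ} [Fact p.Prime]
variable {K : Type*} [NormedField K] [IsUltrametricDist K]
  [CharP K p] [PerfectRing K p] [CompleteSpace K]
variable {q : ℕ} [Fact (2 ≤ q)] {r : ℝ} {hr : 0 ≤ r} {N : ℕ}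

/-- monomials of large degree in small sequences vanish in `SN` -/
theorem as7_bd_monomial {x : Fin m → ℕ → OO K} (hr1 : r ≤ 1)
    (hx : ∀ i, Bd q r (fun M => (x i M : K))) (d : Fin m →₀ ℕ) (hd : N ≤ d.degree) :
    (d.prod fun s e => (cls (x s) : SN K q r hr N) ^ e) = 0 := by
  classical
  have key : ∀ T : Finset (Fin m), ∀ g : Fin m → ℕ,
      Bd q (r ^ (∑ i ∈ T, g i)) (fun M => ((∏ i ∈ T, x i M ^ g i : OO K) : K)) := by
    intro T g
    induction T using Finset.induction_on with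
    | empty => simpa using Bd.const (K := K) (Fact.out : 2 ≤ q) 1
    | insert i T hi ih =>
      have h1 : Bd q (r ^ g i) (fun M => ((x i M ^ g i : OO K) : K)) := by
        generalize g i = k
        induction k with
        | zero => simpa using Bd.const (K := K) (Fact.out : 2 ≤ q) 1
        | succ k ihk =>
          have := Bd.mul (pow_nonneg hr k) hr ihk (hx i)
          simpa only [pow_succ, Subring.coe_mul] using this
      have h2 := Bd.mul (pow_nonneg hr _) (pow_nonneg hr _) h1 ih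
      rw [Finset.sum_insert hi, pow_add]
      convert! h2 using 2 with M
      rw [Finset.prod_insert hi, Subring.coe_mul]
  have h1 : (d.prod fun s e => (cls (x s) : SN K q r hr N) ^ e) =
      cls (fun M => ∏ i ∈ d.support, x i M ^ d i) := by
    rw [Finsupp.prod]
    simp only [← map_pow, ← map_prod]
    congr 1
    funext M
    simp
  rw [h1, cls_eq_zero_iff]
  refine (key d.support d).mono ?_
  refine pow_le_pow_of_le_one hr hr1 ?_
  rwa [← Finsupp.degree_apply]

/-- the evaluation kills series of large order -/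
theorem as7sig_eq_zero {x : Fin m → ℕ → OO K} (hr1 : r ≤ 1)
    (hx : ∀ i, Bd q r (fun M => (x i M : K)))
    (hδ : ∀ i, IsNilpotent (cls (x i) : SN K q r hr N)) (F : MvPowerSeries (Fin m) (Kd K))
    (hF : ∀ d : Fin m →₀ ℕ, d.degree < N → coeff d F = 0) :
    as7sig (fun i => (cls (x i) : SN K q r hr N)) hδ F = 0 := by
  refine (as7sig_hasSum _ hδ F).unique ?_
  convert! hasSum_zero using 1
  funext d
  by_cases hd : d.degree < N
  · rw [hF d hd, map_zero, zero_mul]
  · rw [as7_bd_monomial hr1 hx d (not_lt.mp hd), mul_zero]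

/-- series without constant term have nilpotent values -/
theorem as7sig_pow_eq_zero {x : Fin m → ℕ → OO K} (hr1 : r ≤ 1)
    (hx : ∀ i, Bd q r (fun M => (x i M : K)))
    (hδ : ∀ i, IsNilpotent (cls (x i) : SN K q r hr N)) (F : MvPowerSeries (Fin m) (Kd K))
    (hF : constantCoeff F = 0) (k : ℕ) (hk : N ≤ k) :
    as7sig (fun i => (cls (x i) : SN K q r hr N)) hδ F ^ k = 0 := by
  rw [← map_pow]
  refine as7sig_eq_zero hr1 hx hδ _ fun d hd => ?_
  have h1 : (1 : ℕ∞) ≤ F.order := by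
    rw [one_le_order_iff_constCoeff_eq_zero]
    exact hF
  refine coeff_of_lt_order ?_
  have h2 : (k : ℕ∞) ≤ (F ^ k).order := by
    refine le_trans ?_ (le_order_pow k)
    calc (k : ℕ∞) = k • (1 : ℕ∞) := by simp
      _ ≤ k • F.order := nsmul_le_nsmul_right h1 k
  refine lt_of_lt_of_le ?_ h2
  exact_mod_cast hd.trans_le hk

/-- step 2: the value of `Lam` in `SN` -/
theorem as7_sig_Lam {a : Fin m → OO K} {ρ : ℝ} (D : Dt p h m a ρ) (S0 : SharpData p K K)
    (aM : ℕ → Fin m → OO K) (rM : ℕ → ℝ) (DM : ∀ M, Dt p h m (aM M) (rM M))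
    (e : FPt p (h + m) (Gam (h + m) : ℕ → OO K)) (hr0 : 0 < r) (hr1 : r < 1)
    (hbd : ∀ i, Bd q r (fun M => ((aM M i - a i : OO K) : K)))
    (hδ : ∀ i, IsNilpotent (cls (fun M => aM M i - a i) : SN K q r hr N)) :
    as7sig (fun i => (cls (fun M => aM M i - a i) : SN K q r hr N)) hδ
      ((Lam D S0 e).map toKd) = cls (fun M => (pra (DM M) S0 e).1) := by
  rw [as7sig_eq]
  have h1 : ((Lam D S0 e).map toKd).map (as7K : Kd K →+* SN K q r hr N) =
      ((Lam D S0 e).map (as7const K)).map cls := by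
    ext d
    rw [coeff_map, coeff_map, coeff_map, coeff_map]
    exact as7K_toKd _
  rw [h1, ← cls_evm hr0 ((Lam D S0 e).map (as7const K)) (fun i M => aM M i - a i) hr1 hbd]
  congr 1
  funext M
  have h2 : ((Lam D S0 e).map (as7const K)).map (Pi.evalRingHom (fun _ => OO K) M) =
      Lam D S0 e := by
    ext d
    rw [coeff_map, coeff_map]
    rfl
  rw [h2]
  exact Lam_eval D (DM M) S0 e

/-- the sequence of parameters -/
def as7par (h m : ℕ) (aM : ℕ → Fin m → OO K) : ℕ → (ℕ → OO K) := fun j M => par h m (aM M) j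

theorem as7par_eval (aM : ℕ → Fin m → OO K) (M : ℕ) :
    (fun j => Pi.evalRingHom (fun _ => OO K) M (as7par h m aM j)) = par h m (aM M) := rfl

theorem as7_sig_par {a : Fin m → OO K} (aM : ℕ → Fin m → OO K)
    (hδ : ∀ i, IsNilpotent (cls (fun M => aM M i - a i) : SN K q r hr N)) :
    (fun j => as7sig (fun i => (cls (fun M => aM M i - a i) : SN K q r hr N)) hδ
      (parXK h m a j)) = fun j => cls (as7par h m aM j) := by
  funext j
  unfold parXK par as7par
  split_ifs with h1 h2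
  · rw [map_add, as7sig_C, as7sig_X, as7K_toKd, ← map_add]
    congr 1
    funext M
    simp only [par, dif_pos h1]
    exact add_sub_cancel _ _
  · rw [map_one, ← map_one cls]
    congr 1
    funext M
    simp only [par, dif_neg h1, if_pos h2]
    rfl
  · rw [map_zero, ← map_zero cls]
    congr 1
    funext M
    simp only [par, dif_neg h1, if_neg h2]
    rfl

/-- step 4: `ψ` and `φ` have the same `q^j`-th powers of values -/
theorem as7_psi_phi {x : Fin m → ℕ → OO K} (hr1 : r < 1) (hN : N ≠ 0)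
    (hx : ∀ i, Bd q r (fun M => (x i M : K)))
    (hδ : ∀ i, IsNilpotent (cls (x i) : SN K q r hr N))
    (φ : PowerSeries (OO K)) (ψ : PowerSeries (MvPowerSeries (Fin m) (Kd K)))
    (hψφ : ∀ d, constantCoeff (PowerSeries.coeff d ψ) = toKd (PowerSeries.coeff d φ))
    (z : SN K q r hr N) (hz : IsTopologicallyNilpotent z) (k : ℕ) (hk : N ≤ p ^ k) :
    ev1 (ψ.map (as7sig _ hδ)) z ^ p ^ k =
      ev1 ((φ.map (as7const K)).map (cls : _ →+* SN K q r hr N)) z ^ p ^ k := by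
  have hchar : CharP (SN K q r hr N) p := as7_charP hr1 hN
  rw [← sub_eq_zero, ← sub_pow_char_pow, ← pb_ev1_sub hz]
  set g := ψ.map (as7sig _ hδ) - (φ.map (as7const K)).map (cls : _ →+* SN K q r hr N) with hg
  have hcoef : ∀ d, PowerSeries.coeff d g ^ p ^ k = 0 := by
    intro d
    have h1 : PowerSeries.coeff d g = as7sig _ hδ (PowerSeries.coeff d ψ -
        C (constantCoeff (PowerSeries.coeff d ψ))) := by
      rw [hg, map_sub, map_sub, as7sig_C, hψφ, as7K_toKd, PowerSeries.coeff_map,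
        PowerSeries.coeff_map, PowerSeries.coeff_map]
    rw [h1]
    refine as7sig_pow_eq_zero hr1.le hx hδ _ ?_ _ hk
    rw [map_sub, constantCoeff_C, sub_self]
  have h2 := hasSum_eval₂ (φ := RingHom.id (SN K q r hr N)) continuous_idO (hasEval_one hz) g
  have h3 : HasSum (fun d : Unit →₀ ℕ => (0 : SN K q r hr N)) (ev1 g z ^ p ^ k) := by
    have h4 := h2.map (iterateFrobenius (SN K q r hr N) p k).toAddMonoidHom
      continuous_of_discreteTopology
    convert! h4 using 1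
    funext d
    simp only [Function.comp, RingHom.toAddMonoidHom_eq_coe, AddMonoidHom.coe_coe, map_mul,
      RingHom.id_apply, iterateFrobenius_def]
    have h5 : MvPowerSeries.coeff d (g : MvPowerSeries Unit (SN K q r hr N)) ^ p ^ k = 0 := by
      have := hcoef (d ())
      rwa [PowerSeries.coeff_def (s := d) rfl] at this
    rw [h5, zero_mul]
  exact h3.unique hasSum_zero

theorem as7_exists_root {t : ℝ} (ht : 0 < t) {k : ℕ} (hk : k ≠ 0) :
    ∃ s : ℝ, 0 < s ∧ s ^ k = t :=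
  ⟨t ^ ((k : ℝ)⁻¹), Real.rpow_pos_of_pos ht _, Real.rpow_inv_natCast_pow ht.le hk⟩

/-- step 6: comparison of the values of `φ` at the two multiples -/
theorem as7_err {a b : Fin m → OO K} {ρ : ℝ} (D : Dt p h m a ρ) {B : ℝ} (hB : 0 ≤ B)
    (hab : ∀ i, ‖((b i - a i : OO K) : K)‖ ≤ B)
    (φ : PowerSeries (OO K)) (hφ : IsHomS p (h + m) (par h m a) (Gam h) φ)
    (Y : FPt p (h + m) (par h m b)) (k : ℕ) :
    ‖((ev1 φ (p ^ k • Y).1 - (ev1 φ Y.1) ^ p ^ (h * k) : OO K) : K)‖ ≤ B := by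
  have hchar : CharP (OO K) p := jc3_charP
  let Y' : FPt p (h + m) (par h m a) := ⟨Y.1, Y.2⟩
  have hI := ball_closed (L := K) hB
  have h1 : (p ^ k • Y).1 - (p ^ k • Y').1 ∈ ballI K B hB :=
    as7_smul_sub_mem hI (fun j _ _ => as7_par_sub_mem (I := ballI K B hB) hab j) Y Y' rfl _
  have h2 := ev1_sub_mem φ hI (p ^ k • Y).2 (p ^ k • Y').2 h1
  have h3 : ev1 φ (p ^ k • Y').1 = (ev1 φ Y.1) ^ p ^ (h * k) := by
    have h4 : (FPt.hom φ hφ (p ^ k • Y')).1 = (FPt.hom φ hφ Y').1 ^ p ^ (h * k) := by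
      rw [map_nsmul, as7_Gam_pow_smul D.h_pos (by omega)]
    exact h4
  rw [h3] at h2
  exact h2

theorem as7_norm_ev1_sub (φ : PowerSeries (OO K)) {x y : OO K} (hx : IsTopologicallyNilpotent x)
    (hy : IsTopologicallyNilpotent y) :
    ‖((ev1 φ x - ev1 φ y : OO K) : K)‖ ≤ ‖((x - y : OO K) : K)‖ := by
  have h1 := ev1_sub_mem (J := ballI K ‖((x - y : OO K) : K)‖ (norm_nonneg _)) φ
    (ball_closed (L := K) (norm_nonneg _)) hx hy (le_refl ‖((x - y : OO K) : K)‖ :)
  exact h1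

theorem as7_final {a : Fin m → OO K} {ρ : ℝ} (D : Dt p h m a ρ) [Fact (2 ≤ p ^ h)]
    (aM : ℕ → Fin m → OO K)
    (φ : PowerSeries (OO K)) (hφ : IsHomS p (h + m) (par h m a) (Gam h) φ)
    (Y : ∀ M, FPt p (h + m) (par h m (aM M))) (Y0 : FPt p (h + m) (par h m a))
    (hYlim : Tendsto (fun M => (((Y M).1 : OO K) : K)) atTop (𝓝 ((Y0.1 : OO K) : K)))
    (hr0 : 0 < r) (hr1 : r < 1)
    (hbd : ∀ i, Bd (p ^ h) r (fun M => ((aM M i - a i : OO K) : K)))
    (j : ℕ) (hj : N ≤ (p ^ h) ^ j) :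
    (cls (fun M => ev1 φ (p ^ (M - j) • Y M).1 ^ (p ^ h) ^ j) : SN K (p ^ h) r hr N) =
      cls (fun M => ev1 φ Y0.1 ^ (p ^ h) ^ M) := by
  have hchar : CharP (OO K) p := jc3_charP
  have hpp : (p ^ h) ^ j ≠ 0 := pow_ne_zero _ (pow_ne_zero _ (Fact.out : p.Prime).ne_zero)
  have hB : Bd (p ^ h) (r ^ N) (fun M => ((ev1 φ (p ^ (M - j) • Y M).1 ^ (p ^ h) ^ j -
      ev1 φ (Y M).1 ^ (p ^ h) ^ M : OO K) : K)) := by
    intro t ht
    have ht0 : 0 < t := (pow_pos hr0 N).trans ht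
    obtain ⟨s, hs0, hs⟩ := as7_exists_root ht0 hpp
    have hrs : r < s := by
      refine lt_of_pow_lt_pow_left₀ ((p ^ h) ^ j) hs0.le ?_
      rw [hs]
      exact (pow_le_pow_of_le_one hr0.le hr1.le hj).trans_lt ht
    have h1 : ∀ᶠ M in atTop, ∀ i, ‖((aM M i - a i : OO K) : K)‖ ≤ s ^ (p ^ h) ^ M :=
      eventually_all.mpr fun i => hbd i s hrs
    filter_upwards [h1, eventually_ge_atTop j] with M hM hMj
    have h2 := as7_err D (pow_nonneg hs0.le _) hM φ hφ (Y M) (M - j)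
    have h3 : ev1 φ (p ^ (M - j) • Y M).1 ^ (p ^ h) ^ j - ev1 φ (Y M).1 ^ (p ^ h) ^ M =
        (ev1 φ (p ^ (M - j) • Y M).1 - ev1 φ (Y M).1 ^ p ^ (h * (M - j))) ^ (p ^ h) ^ j := by
      rw [← pow_mul, ← pow_mul, sub_pow_char_pow, ← pow_mul, ← pow_add, ← Nat.mul_add,
        Nat.sub_add_cancel hMj]
    rw [h3, Subring.coe_pow, norm_pow]
    calc _ ≤ (s ^ (p ^ h) ^ M) ^ (p ^ h) ^ j := pow_le_pow_left₀ (norm_nonneg _) h2 _
      _ = t ^ (p ^ h) ^ M := by rw [← hs]; exact pow_right_comm _ _ _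
  have hC : Bd (p ^ h) (r ^ N) (fun M => ((ev1 φ (Y M).1 ^ (p ^ h) ^ M -
      ev1 φ Y0.1 ^ (p ^ h) ^ M : OO K) : K)) := by
    have h1 : Tendsto (fun M => ((ev1 φ (Y M).1 - ev1 φ Y0.1 : OO K) : K)) atTop (𝓝 0) := by
      have h2 : Tendsto (fun M => (((Y M).1 - Y0.1 : OO K) : K)) atTop (𝓝 0) := by
        have := hYlim.sub_const ((Y0.1 : OO K) : K)
        rwa [sub_self] at this
      exact squeeze_zero_norm (fun M => as7_norm_ev1_sub φ (Y M).2 Y0.2)
        (tendsto_zero_iff_norm_tendsto_zero.mp h2)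
    have h3 := (Bd.zero_of_tendsto (q := p ^ h) h1).mono (pow_nonneg hr0.le N)
    convert! h3 using 2 with M
    rw [← pow_mul, ← sub_pow_char_pow]
    rfl
  refine as7_cls_eq ?_
  convert! Bd.add (pow_nonneg hr0.le N) hB hC using 2 with M
  simp only [AddSubgroupClass.coe_sub]
  ring

theorem as7_main {a : Fin m → OO K} {ρ : ℝ} (D : Dt p h m a ρ) (S0 : SharpData p K K)
    [Fact (2 ≤ p ^ h)]
    (aM : ℕ → Fin m → OO K) (rM : ℕ → ℝ) (DM : ∀ M, Dt p h m (aM M) (rM M))
    (φ : PowerSeries (OO K)) (hφ : IsHomS p (h + m) (par h m a) (Gam h) φ)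
    (ψ : PowerSeries (MvPowerSeries (Fin m) (Kd K)))
    (hψ : IsHomS p (h + m) (parXK h m a) (Gam h) ψ)
    (hψφ : ∀ d, constantCoeff (PowerSeries.coeff d ψ) = toKd (PowerSeries.coeff d φ))
    (e : FPt p (h + m) (Gam (h + m) : ℕ → OO K)) (he : pra D S0 e = 0)
    (Y : ∀ M, FPt p (h + m) (par h m (aM M))) (Y0 : FPt p (h + m) (par h m a))
    (hYlim : Tendsto (fun M => (((Y M).1 : OO K) : K)) atTop (𝓝 ((Y0.1 : OO K) : K)))
    (hYe : ∀ᶠ M in atTop, pra (DM M) S0 e = p ^ M • Y M)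
    {r : ℝ} (hr0 : 0 < r) (hr1 : r < 1)
    (hbd : ∀ i, Bd (p ^ h) r (fun M => ((aM M i : OO K) : K) - (a i : K)))
    (hy : ∀ᶠ M in atTop, ‖(((Y M).1 : OO K) : K)‖ ≤ r) (N : ℕ) :
    evm ((ev1 ψ ((Lam D S0 e).map toKd)).map as7K)
      (fun i => (cls (fun M => aM M i - a i) : SN K (p ^ h) r hr0.le N)) =
      cls (fun M => (FPt.hom φ hφ Y0).1 ^ ((p ^ h) ^ M)) := by
  by_cases hN : N = 0
  · subst hN
    have h1 : (1 : SN K (p ^ h) r hr0.le 0) = 0 := by
      rw [← map_one cls, cls_eq_zero_iff, pow_zero]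
      exact Bd.const (Fact.out : 2 ≤ p ^ h) 1
    exact eq_of_zero_eq_one h1.symm _ _
  have hpp : 2 ≤ p ^ h := Fact.out
  have hbd' : ∀ i, Bd (p ^ h) r (fun M => ((aM M i - a i : OO K) : K)) := hbd
  have hδ : ∀ i, IsNilpotent (cls (fun M => aM M i - a i) : SN K (p ^ h) r hr0.le N) :=
    fun i => mkS_nilpotent hr0 _ hr1 (hbd' i)
  have hchar : CharP (SN K (p ^ h) r hr0.le N) p := as7_charP hr1 hN
  set σ := as7sig (fun i => (cls (fun M => aM M i - a i) : SN K (p ^ h) r hr0.le N)) hδ with hσ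
  -- step 1
  have hl0 : constantCoeff ((Lam D S0 e).map toKd) = 0 := by
    rw [constantCoeff_map, Lam_constantCoeff, he]
    exact map_zero _
  have hltn : IsTopologicallyNilpotent ((Lam D S0 e).map toKd) :=
    WithPiTopology.isTopologicallyNilpotent_of_constantCoeff_zero hl0
  have e1 : evm ((ev1 ψ ((Lam D S0 e).map toKd)).map as7K)
      (fun i => (cls (fun M => aM M i - a i) : SN K (p ^ h) r hr0.le N)) =
      ev1 (ψ.map σ) (cls (fun M => (pra (DM M) S0 e).1)) := by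
    rw [← as7sig_eq _ hδ, map_ev1 (as7sig_continuous _ hδ) ψ hltn,
      as7_sig_Lam D S0 aM rM DM e hr0 hr1 hbd' hδ]
  -- the exponent `j`
  obtain ⟨j, hj⟩ : ∃ j, N ≤ (p ^ h) ^ j := ⟨N, (Nat.lt_pow_self (by omega)).le⟩
  have hppj : (p ^ h) ^ j ≠ 0 := pow_ne_zero _ (by omega)
  obtain ⟨s, hs0, hs⟩ := as7_exists_root hr0 hppj
  have hs1 : s < 1 := by
    by_contra hcon
    have := one_le_pow₀ (not_lt.mp hcon) (n := (p ^ h) ^ j)
    linarith
  -- the sequence `z`
  have hz : Bd (p ^ h) s (fun M => (((p ^ (M - j) • Y M).1 : OO K) : K)) := by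
    intro t ht
    filter_upwards [hy, eventually_ge_atTop j] with M hM hMj
    calc _ ≤ ‖(((Y M).1 : OO K) : K)‖ ^ (p ^ (h * (M - j))) := as7_pow_smul_norm (DM M) _ _
      _ ≤ r ^ (p ^ (h * (M - j))) := pow_le_pow_left₀ (norm_nonneg _) hM _
      _ = s ^ (p ^ h) ^ M := by
        rw [← hs, ← pow_mul, ← pow_mul, ← pow_mul, ← pow_add, ← Nat.mul_add,
          Nat.add_sub_cancel' hMj]
      _ ≤ t ^ (p ^ h) ^ M := pow_le_pow_left₀ hs0.le ht.le _
  have hztn : IsTopologicallyNilpotent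
      (cls (fun M => (p ^ (M - j) • Y M).1) : SN K (p ^ h) r hr0.le N) := as7_tn hr0 hs1 hz
  let vh : ℕ → SN K (p ^ h) r hr0.le N := fun i => cls (as7par h m aM i)
  let Z : FPt p (h + m) vh := ⟨cls (fun M => (p ^ (M - j) • Y M).1), hztn⟩
  -- step 3
  have e2 : (cls (fun M => (pra (DM M) S0 e).1) : SN K (p ^ h) r hr0.le N) = (p ^ j • Z).1 := by
    rw [FPt.nsmul_val]
    have h1 : mulS p (h + m) vh (p ^ j) = (mulS p (h + m) (as7par h m aM) (p ^ j)).map cls := by
      rw [mulS_map]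
    change _ = ev1 _ (cls (fun M => (p ^ (M - j) • Y M).1))
    rw [h1, ← cls_ev1 hr0 _ _ hs1 hz]
    refine as7_cls_congr ?_
    filter_upwards [eventually_ge_atTop j, hYe] with M hMj hM
    rw [mulS_map, as7par_eval, ← FPt.nsmul_val, ← mul_smul, ← pow_add, Nat.add_sub_cancel' hMj,
      hM]
  -- step 4
  have hψσ : IsHomS p (h + m) vh (Gam h) (ψ.map σ) := by
    have h1 := cls_isHomS_map σ hψ
    rw [cls_Gam_map, hσ, as7_sig_par aM hδ] at h1
    exact h1
  have e3 : ev1 (ψ.map σ) (p ^ j • Z).1 = ev1 (ψ.map σ) Z.1 ^ (p ^ h) ^ j := by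
    have h1 : (FPt.hom (ψ.map σ) hψσ (p ^ j • Z)).1 =
        (FPt.hom (ψ.map σ) hψσ Z).1 ^ p ^ (h * j) := by
      rw [map_nsmul, as7_Gam_pow_smul D.h_pos (by omega)]
    rw [← pow_mul]
    exact h1
  have e4 : ev1 (ψ.map σ) Z.1 ^ (p ^ h) ^ j =
      ev1 ((φ.map (as7const K)).map (cls : _ →+* SN K (p ^ h) r hr0.le N)) Z.1 ^ (p ^ h) ^ j := by
    have h1 := as7_psi_phi (p := p) hr1 hN hbd' hδ φ ψ hψφ Z.1 hztn (h * j) (by
      rw [pow_mul]; exact hj)
    rw [pow_mul] at h1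
    exact h1
  have e5 : ev1 ((φ.map (as7const K)).map (cls : _ →+* SN K (p ^ h) r hr0.le N)) Z.1 ^ (p ^ h) ^ j =
      cls (fun M => ev1 φ (p ^ (M - j) • Y M).1 ^ (p ^ h) ^ j) := by
    change ev1 _ (cls (fun M => (p ^ (M - j) • Y M).1)) ^ _ = _
    rw [← cls_ev1 hr0 _ _ hs1 hz, ← map_pow]
    congr 1
  rw [e1, e2, e3, e4, e5, as7_final D aM φ hφ Y Y0 hYlim hr0 hr1 hbd' j hj]
  rfl

end key

end Vale.Agent.P217
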