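import Vale.Agent.P217.FSer
import Vale.Agent.P217.Base

/-!
# P217, modules GPS, AS9a, AS6c (helper28)
-/

set_option linter.unusedSectionVars false

namespace Vale.Agent.P217

open MvPowerSeries Filter Topology

section formal

variable {R : Type*} [CommRing R] {p n : ℕ} [Fact p.Prime] {v w : ℕ → R} {τ : Type*}

theorem as9_X0_add_X1 :
    (FSer.mk' p n v (X 0 : MvPowerSeries (Fin 2) R) (constantCoeff_X _) +
      FSer.mk' p n v (X 1) (constantCoeff_X _)).ser = Fv p n v := by
  rw [FSer.add_ser]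
  simp only [FSer.mk'_ser]
  have : ![(X 0 : MvPowerSeries (Fin 2) R), X 1] = X := by
    funext s
    fin_cases s <;> rfl
  rw [this, subst_self]
  rfl

/-- A series inducing an additive map on `FSer` is a homomorphism. -/
theorem as9_isHomS_of {g : PowerSeries R} (hg : PowerSeries.constantCoeff g = 0)
    (T : FSer p n v (Fin 2) →+ FSer p n w (Fin 2))
    (hT : ∀ a : FSer p n v (Fin 2), (T a).ser = g.subst a.ser) : IsHomS p n v w g := by
  rw [isHomS_iff hg]
  apply FSer.ext'
  have h := congrArg FSer.ser (map_add T (FSer.mk' p n v (X 0) (constantCoeff_X _))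
    (FSer.mk' p n v (X 1) (constantCoeff_X _)))
  rw [hT, as9_X0_add_X1, FSer.add_ser, hT, hT] at h
  exact h

theorem as9_subst_pair {η₁ η₂ : PowerSeries R} (h₁ : PowerSeries.constantCoeff η₁ = 0)
    (h₂ : PowerSeries.constantCoeff η₂ = 0) {a : MvPowerSeries τ R} (ha : constantCoeff a = 0)
    (F : MvPowerSeries (Fin 2) R) :
    PowerSeries.subst a (subst ![η₁, η₂] F : PowerSeries R) =
      subst ![η₁.subst a, η₂.subst a] F :=
  subst_subst_pair (a := η₁) (b := η₂) h₁ h₂ (hasSubst_one ha) F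

theorem as9_cc_pair {η₁ η₂ : PowerSeries R} (h₁ : PowerSeries.constantCoeff η₁ = 0)
    (h₂ : PowerSeries.constantCoeff η₂ = 0) :
    PowerSeries.constantCoeff (subst ![η₁, η₂] (Fv p n v) : PowerSeries R) = 0 :=
  constantCoeff_subst_pair (a := η₁) (b := η₂) h₁ h₂ (Fv_constantCoeff p n v)

theorem as9_isHomS_add {η₁ η₂ : PowerSeries R} (h₁ : IsHomS p n v w η₁)
    (h₂ : IsHomS p n v w η₂) : IsHomS p n v w (subst ![η₁, η₂] (Fv p n w) : PowerSeries R) :=
  as9_isHomS_of (as9_cc_pair h₁.1 h₂.1) (FSer.hom η₁ h₁ + FSer.hom η₂ h₂) fun a => by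
    rw [AddMonoidHom.add_apply, FSer.add_ser, FSer.hom_ser, FSer.hom_ser,
      as9_subst_pair h₁.1 h₂.1 a.cc]

theorem as9_cc_neg {η : PowerSeries R} (h : PowerSeries.constantCoeff η = 0) :
    PowerSeries.constantCoeff ((invS p n v).subst η : PowerSeries R) = 0 :=
  PowerSeries.constantCoeff_subst_eq_zero h _ (invS_constantCoeff p n v)

theorem as9_subst_neg {η : PowerSeries R} (h : PowerSeries.constantCoeff η = 0)
    {a : MvPowerSeries τ R} (ha : constantCoeff a = 0) (g : PowerSeries R) :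
    PowerSeries.subst a (g.subst η : PowerSeries R) = g.subst (η.subst a) :=
  subst_subst_one (a := η) h (hasSubst_one ha) g

theorem as9_isHomS_neg {η : PowerSeries R} (h : IsHomS p n v w η) :
    IsHomS p n v w ((invS p n w).subst η : PowerSeries R) :=
  as9_isHomS_of (as9_cc_neg h.1) (-FSer.hom η h) fun a => by
    rw [AddMonoidHom.neg_apply, FSer.neg_ser, FSer.hom_ser, as9_subst_neg h.1 a.cc]

theorem as9_isHomS_zero : IsHomS p n v w (0 : PowerSeries R) :=
  as9_isHomS_of (map_zero _) 0 fun a => by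
    rw [AddMonoidHom.zero_apply, FSer.zero_ser]
    exact (subst_zero_series (hasSubst_one a.cc)).symm

/-- base change of the inverse series -/
theorem as9_invS_map {S : Type*} [CommRing S] (φ : R →+* S) :
    (invS p n v).map φ = invS p n (fun j => φ (v j)) := by
  have h : φ.comp (spec v) = spec (fun j => φ (v j)) := by
    apply MvPolynomial.ringHom_ext
    · intro r
      simp [spec]
    · intro i
      simp [spec]
  unfold invS
  rw [← h, PowerSeries.map_comp]
  rfl

theorem as9_map_pair {S : Type*} [CommRing S] (φ : R →+* S) {η₁ η₂ : PowerSeries R}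
    (h₁ : PowerSeries.constantCoeff η₁ = 0) (h₂ : PowerSeries.constantCoeff η₂ = 0)
    (F : MvPowerSeries (Fin 2) R) :
    PowerSeries.map φ (subst ![η₁, η₂] F : PowerSeries R) =
      subst ![η₁.map φ, η₂.map φ] (F.map φ) := by
  have h := map_subst (hasSubst_pair (a := η₁) (b := η₂) h₁ h₂) (h := φ) F
  refine h.trans ?_
  congr 1
  funext i
  fin_cases i <;> rfl

theorem as9_map_neg {S : Type*} [CommRing S] (φ : R →+* S) {η : PowerSeries R}
    (h : PowerSeries.constantCoeff η = 0) (g : PowerSeries R) :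
    PowerSeries.map φ (g.subst η : PowerSeries R) = (g.map φ).subst (η.map φ) :=
  PowerSeries.map_subst (PowerSeries.HasSubst.of_constantCoeff_zero h) g

/-! ### `US` for `Gam h` -/

theorem as9_Upart_Gam {h : ℕ} (i : ℕ) :
    Upart p n h (Gam h : ℕ → R) (i + 1) = PowerSeries.X := by
  induction i with
  | zero =>
    obtain ⟨G, hG⟩ := Upart_succ_eq (p := p) (n := n) (h := h) (Gam h : ℕ → R) 0
    have h0 : Upart p n h (Gam h : ℕ → R) 0 = 0 := rfl
    have h1 : (Gam h : ℕ → R) (h + 0) = 1 := by simp [Gam]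
    rw [hG, h0, h1]
    simp
  | succ i ih =>
    obtain ⟨G, hG⟩ := Upart_succ_eq (p := p) (n := n) (h := h) (Gam h : ℕ → R) (i + 1)
    have h1 : (Gam h : ℕ → R) (h + (i + 1)) = 0 := by simp [Gam]
    rw [hG, ih, h1]
    simp

theorem as9_US_Gam {h : ℕ} : US p n h (Gam h : ℕ → R) = PowerSeries.X := as9_Upart_Gam (n - h)

end formal

section pts

variable {O : Type*} [CommRing O] [UniformSpace O] [IsUniformAddGroup O]
  [IsTopologicalRing O] [IsLinearTopology O O] [T2Space O] [CompleteSpace O]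
variable {p h n : ℕ} [Fact p.Prime]

/-- GPS -/
theorem as9_Gam_p_smul [CharP O p] (hh : 1 ≤ h) (hn : h ≤ n) (x : FPt p n (Gam h : ℕ → O))
    (k : ℕ) : (p ^ k • x).1 = x.1 ^ (p ^ (h * k)) := by
  induction k with
  | zero => simp
  | succ k ih =>
    have h1 : p ^ (k + 1) • x = p • (p ^ k • x) := by rw [← mul_smul, pow_succ']
    rw [h1, FPt.p_smul_val_US hh hn (fun j _ hj => by simp [Gam]; omega), as9_US_Gam, ev1_X, ih,
      ← pow_mul, ← pow_add]
    congr 2

/-- Values of the sum of two homomorphisms. -/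
theorem as9_add_val {v w : ℕ → O} {η₁ η₂ : PowerSeries O} (h₁ : IsHomS p n v w η₁)
    (h₂ : IsHomS p n v w η₂) (x : FPt p n v) :
    FPt.hom _ (as9_isHomS_add h₁ h₂) x = FPt.hom η₁ h₁ x + FPt.hom η₂ h₂ x := by
  apply Subtype.ext
  rw [FPt.hom_val, FPt.add_val, FPt.hom_val, FPt.hom_val]
  exact eval_pair (a := η₁) (b := η₂) h₁.1 h₂.1 (hasEval_one x.2) (Fv p n w)

theorem as9_neg_val {v w : ℕ → O} {η : PowerSeries O} (h : IsHomS p n v w η) (x : FPt p n v) :
    FPt.hom _ (as9_isHomS_neg h) x = - FPt.hom η h x := by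
  apply Subtype.ext
  rw [FPt.hom_val, FPt.neg_val, FPt.hom_val]
  exact eval_one (a := η) h.1 (hasEval_one x.2) (invS p n w)

end pts

section OOK

variable {p n : ℕ} [Fact p.Prime]
variable {K : Type*} [NormedField K] [IsUltrametricDist K] [CharP K p] [CompleteSpace K]

theorem as9_charP : CharP (OO K) p := RingHom.charP (OO K).subtype (OO K).subtype_injective p

theorem as9_root_iff [CharP (OO K) p] (η : PowerSeries (OO K)) :
    (∀ d, PowerSeries.coeff d η ^ (p ^ n) = PowerSeries.coeff d η) ↔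
      PowerSeries.map (iterateFrobenius (OO K) p n) η = η := by
  constructor
  · intro h
    ext d
    rw [PowerSeries.coeff_map, iterateFrobenius_def, h]
  · intro h d
    have := congrArg (PowerSeries.coeff d) h
    rw [PowerSeries.coeff_map, iterateFrobenius_def] at this
    exact this

theorem as9_frob_Gam [CharP (OO K) p] :
    (fun j => iterateFrobenius (OO K) p n ((Gam n : ℕ → OO K) j)) = Gam n := by
  funext j
  unfold Gam
  split_ifs
  · exact map_one _
  · exact map_zero _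

theorem as9_endo_add (η₁ η₂ : PowerSeries (OO K))
    (h₁ : IsHomS p n (Gam n) (Gam n) η₁) (h₂ : IsHomS p n (Gam n) (Gam n) η₂)
    (c₁ : ∀ d, PowerSeries.coeff d η₁ ^ (p ^ n) = PowerSeries.coeff d η₁)
    (c₂ : ∀ d, PowerSeries.coeff d η₂ ^ (p ^ n) = PowerSeries.coeff d η₂) :
    ∃ (η : PowerSeries (OO K)) (h : IsHomS p n (Gam n) (Gam n) η),
      (∀ d, PowerSeries.coeff d η ^ (p ^ n) = PowerSeries.coeff d η) ∧
      ∀ x : FPt p n (Gam n : ℕ → OO K), FPt.hom η h x = FPt.hom η₁ h₁ x + FPt.hom η₂ h₂ x := by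
  have hc : CharP (OO K) p := as9_charP
  refine ⟨_, as9_isHomS_add h₁ h₂, ?_, fun x => as9_add_val h₁ h₂ x⟩
  rw [as9_root_iff] at c₁ c₂ ⊢
  rw [as9_map_pair _ h₁.1 h₂.1, c₁, c₂, Fv_map, as9_frob_Gam]

theorem as9_endo_neg (η₁ : PowerSeries (OO K)) (h₁ : IsHomS p n (Gam n) (Gam n) η₁)
    (c₁ : ∀ d, PowerSeries.coeff d η₁ ^ (p ^ n) = PowerSeries.coeff d η₁) :
    ∃ (η : PowerSeries (OO K)) (h : IsHomS p n (Gam n) (Gam n) η),
      (∀ d, PowerSeries.coeff d η ^ (p ^ n) = PowerSeries.coeff d η) ∧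
      ∀ x : FPt p n (Gam n : ℕ → OO K), FPt.hom η h x = - FPt.hom η₁ h₁ x := by
  have hc : CharP (OO K) p := as9_charP
  refine ⟨_, as9_isHomS_neg h₁, ?_, fun x => as9_neg_val h₁ x⟩
  rw [as9_root_iff] at c₁ ⊢
  rw [as9_map_neg _ h₁.1, c₁, as9_invS_map, as9_frob_Gam]

theorem as9_endo_zero (p n : ℕ) [Fact p.Prime] :
    ∃ h : IsHomS p n (Gam n : ℕ → OO K) (Gam n) (0 : PowerSeries (OO K)),
      ∀ x : FPt p n (Gam n : ℕ → OO K), FPt.hom 0 h x = 0 :=
  ⟨as9_isHomS_zero, fun x => Subtype.ext (ev1_zero_left x.1)⟩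

end OOK

end Vale.Agent.P217
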