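import Vale.Agent.P217.SNring
import Vale.Agent.P217.PhiDelta
import Vale.Agent.P217.Jac
import Vale.Agent.P217.Indep
import Vale.Agent.P217.Closure
import Vale.Agent.P217.PAS7
import Vale.Agent.P217.Etas
import Vale.Agent.P217.PAS6
import Vale.Agent.P217.PAS9

/-!
# P217, part I: asymptotics of orbits and Theorem MP (modules AS6, AS7, AS9)
-/

namespace Vale.Agent.P217

open MvPowerSeries Filter Topology
open scoped MvPowerSeries.WithPiTopology

variable {p h m : ℕ} [Fact p.Prime]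
variable {K : Type} [NormedField K] [IsUltrametricDist K]
  [CharP K p] [PerfectRing K p] [CompleteSpace K]

/-- GPS: in `Γ_h` over a ring of characteristic `p`: `p • x = x^(p^h)`. -/
theorem Gam_p_smul {O : Type*} [CommRing O] [UniformSpace O] [IsUniformAddGroup O]
    [IsTopologicalRing O] [IsLinearTopology O O] [T2Space O] [CompleteSpace O] [CharP O p]
    {n : ℕ} (hh : 1 ≤ h) (hn : h ≤ n) (x : FPt p n (Gam h : ℕ → O)) (k : ℕ) :
    (p ^ k • x).1 = x.1 ^ (p ^ (h * k)) :=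
  as9_Gam_p_smul hh hn x k

/-- AS6a: `‖[p^k] y‖ ≤ ‖y‖^(q^k)`. -/
theorem norm_pow_smul_le {a : Fin m → OO K} {ρ : ℝ} (D : Dt p h m a ρ)
    (y : FPt p (h + m) (par h m a)) (k : ℕ) :
    ‖(((p ^ k • y : FPt p (h + m) (par h m a)).1 : OO K) : K)‖ ≤
      ‖((y.1 : OO K) : K)‖ ^ (p ^ (h * k)) :=
  norm_pow_smul_le_as6 D y k

/-- AS6b: inverse estimate. -/
theorem inv_estimate {a : Fin m → OO K} {ρ : ℝ} (D : Dt p h m a ρ) (S0 : SharpData p K K)
    (e : Fin m → FPt p (h + m) (Gam (h + m) : ℕ → OO K)) (he : ∀ i, pra D S0 (e i) = 0)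
    (δ : Fin m → OO K)
    (hδ : ∀ j, ‖(δ j : K)‖ < ‖(((Matrix.of fun i j => grad D S0 (e i) j).det : OO K) : K)‖)
    {B : ℝ} (hB : ∀ i, ‖((evm (Lam D S0 (e i)) δ : OO K) : K)‖ ≤ B) (j : Fin m) :
    ‖(((Matrix.of fun i j => grad D S0 (e i) j).det : OO K) : K)‖ * ‖(δ j : K)‖ ≤ B :=
  inv_estimate_as6 D S0 e he δ hδ hB j

/-- The orbit sequence attached to an endomorphism `η` of `Γ_n`: base points `a_M → a` with
`pr_{a_M}(e + p^M η e) = 0` for all `e ∈ ker pr_a`, `M ≥ 1`. -/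
structure OrbQ {a : Fin m → OO K} {ρ : ℝ} (D : Dt p h m a ρ) (S0 : SharpData p K K)
    (η : PowerSeries (OO K)) (hη : IsHomS p (h + m) (Gam (h + m)) (Gam (h + m)) η) where
  aM : ℕ → Fin m → OO K
  rM : ℕ → ℝ
  DM : ∀ M, Dt p h m (aM M) (rM M)
  lim : ∀ i, Tendsto (fun M => ((aM M i : OO K) : K)) atTop (𝓝 (a i : K))
  rel : ∀ M, 1 ≤ M → ∀ e : FPt p (h + m) (Gam (h + m) : ℕ → OO K), pra D S0 e = 0 →
    pra (DM M) S0 (e + p ^ M • FPt.hom η hη e) = 0

variable {a : Fin m → OO K} {ρ : ℝ} {D : Dt p h m a ρ} {S0 : SharpData p K K}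
  {η : PowerSeries (OO K)} {hη : IsHomS p (h + m) (Gam (h + m)) (Gam (h + m)) η}

/-- AS6c: `y_M = - pr_{a_M}(η e)` converges to `- pr_a(η e)`, and `pr_{a_M}(e) = [p^M] y_M`. -/
theorem OrbQ.y_lim (Ω : OrbQ D S0 η hη) (e : FPt p (h + m) (Gam (h + m) : ℕ → OO K)) :
    Tendsto (fun M => (((- pra (Ω.DM M) S0 (FPt.hom η hη e)).1 : OO K) : K)) atTop
      (𝓝 (((- pra D S0 (FPt.hom η hη e)).1 : OO K) : K)) := by
  have key : ∀ w : FPt p (h + m) (Gam (h + m) : ℕ → OO K),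
      Tendsto (fun M => (((pra (Ω.DM M) S0 w).1 : OO K) : K)) atTop
        (𝓝 (((pra D S0 w).1 : OO K) : K)) := by
    intro w
    rw [Metric.tendsto_nhds]
    intro ε hε
    have h1 : ∀ᶠ M in atTop, ∀ i, ‖((Ω.aM M i : OO K) : K) - (a i : K)‖ ≤ ε / 2 := by
      rw [eventually_all]
      intro i
      have h2 := (Metric.tendsto_nhds.1 (Ω.lim i)) (ε / 2) (half_pos hε)
      filter_upwards [h2] with M hM
      rw [dist_eq_norm] at hM
      exact hM.le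
    filter_upwards [h1] with M hM
    rw [dist_eq_norm]
    exact (pra_dist D (Ω.DM M) (half_pos hε).le hM S0 w).trans_lt (half_lt_self hε)
  have h2 := key (- FPt.hom η hη e)
  simp only [map_neg] at h2
  exact h2

theorem OrbQ.pra_eq (Ω : OrbQ D S0 η hη) (e : FPt p (h + m) (Gam (h + m) : ℕ → OO K))
    (he : pra D S0 e = 0) (M : ℕ) (hM : 1 ≤ M) :
    pra (Ω.DM M) S0 e = p ^ M • (- pra (Ω.DM M) S0 (FPt.hom η hη e)) := by
  have h1 := Ω.rel M hM e he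
  rw [map_add, map_nsmul] at h1
  rw [neg_nsmul]
  exact eq_neg_of_add_eq_zero_left h1

/-- AS6d: superexponential decay of `a_M - a`: there is `r < 1` with `Bd q r (a_M - a)`, and
`r` may be taken `≥` any given `r0 < 1`. -/
theorem OrbQ.bd (Ω : OrbQ D S0 η hη) 
    (e : Fin m → FPt p (h + m) (Gam (h + m) : ℕ → OO K)) (he : ∀ i, pra D S0 (e i) = 0)
    (hdet : (Matrix.of fun i j => grad D S0 (e i) j).det ≠ 0) {r0 : ℝ} (hr0 : r0 < 1) :
    ∃ r : ℝ, 0 < r ∧ r0 ≤ r ∧ r < 1 ∧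
      (∀ i, Bd (p ^ h) r (fun M => ((Ω.aM M i : OO K) : K) - (a i : K))) ∧
      (∀ i, ∀ᶠ M in atTop,
        ‖(((- pra (Ω.DM M) S0 (FPt.hom η hη (e i))).1 : OO K) : K)‖ ≤ r) := by
  have hpp := (Fact.out : p.Prime)
  have hq2 : 2 ≤ p ^ h := hpp.two_le.trans (Nat.le_self_pow (by have := D.h_pos; omega) p)
  -- the radius
  obtain ⟨s, hs1, hs0, hsr, hsy⟩ : ∃ s : ℝ, s < 1 ∧ 0 ≤ s ∧ r0 ≤ s ∧
      ∀ i, ‖(((- pra D S0 (FPt.hom η hη (e i))).1 : OO K) : K)‖ ≤ s := by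
    have hlt : ∀ i, ‖(((- pra D S0 (FPt.hom η hη (e i))).1 : OO K) : K)‖ < 1 := fun i =>
      (tn_iff_norm_lt_one _).1 (- pra D S0 (FPt.hom η hη (e i))).2
    rcases isEmpty_or_nonempty (Fin m) with hem | hne
    · exact ⟨max r0 0, max_lt hr0 one_pos, le_max_right _ _, le_max_left _ _,
        fun i => (hem.false i).elim⟩
    · obtain ⟨i0, hi0⟩ := Finite.exists_max
        fun i : Fin m => ‖(((- pra D S0 (FPt.hom η hη (e i))).1 : OO K) : K)‖
      exact ⟨max (max r0 0) _, max_lt (max_lt hr0 one_pos) (hlt i0),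
        (le_max_right r0 0).trans (le_max_left _ _), (le_max_left r0 0).trans (le_max_left _ _),
        fun i => (hi0 i).trans (le_max_right _ _)⟩
  obtain ⟨r, hr1, hr2⟩ := exists_between hs1
  have hrpos : 0 < r := hs0.trans_lt hr1
  have hyev : ∀ i, ∀ᶠ M in atTop,
      ‖(((- pra (Ω.DM M) S0 (FPt.hom η hη (e i))).1 : OO K) : K)‖ ≤ r := by
    intro i
    have h1 := (Ω.y_lim (e i)).norm
    filter_upwards [h1.eventually (gt_mem_nhds ((hsy i).trans_lt hr1))] with M hM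
    exact hM.le
  refine ⟨r, hrpos, hsr.trans hr1.le, hr2, ?_, hyev⟩
  intro j t ht
  set d : ℝ := ‖(((Matrix.of fun i j => grad D S0 (e i) j).det : OO K) : K)‖ with hd
  have hdpos : 0 < d := by
    rw [hd, norm_pos_iff]
    intro h0
    exact hdet (Subtype.ext h0)
  have hdel : ∀ᶠ M in atTop, ∀ i, ‖((Ω.aM M i : OO K) : K) - (a i : K)‖ < d := by
    rw [eventually_all]
    intro i
    have h2 := (Metric.tendsto_nhds.1 (Ω.lim i)) d hdpos
    filter_upwards [h2] with M hM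
    rwa [dist_eq_norm] at hM
  have hgrow : ∀ᶠ M : ℕ in atTop, d⁻¹ ≤ (t / r) ^ ((p ^ h) ^ M) := by
    have h1 : 1 < t / r := by rwa [one_lt_div hrpos]
    have h2 := (tendsto_pow_atTop_atTop_of_one_lt h1).comp
      (tendsto_pow_atTop_atTop_of_one_lt (show 1 < p ^ h by omega))
    exact h2.eventually_ge_atTop d⁻¹
  filter_upwards [hdel, hgrow, eventually_all.2 hyev, eventually_ge_atTop 1] with M h1 h2 h3 h4
  have h5 : ∀ i, ‖((evm (Lam D S0 (e i)) (fun i => Ω.aM M i - a i) : OO K) : K)‖ ≤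
      r ^ ((p ^ h) ^ M) := by
    intro i
    rw [Lam_eval D (Ω.DM M) S0 (e i), Ω.pra_eq (e i) (he i) M h4]
    refine (norm_pow_smul_le (Ω.DM M) _ M).trans ?_
    rw [pow_mul]
    exact pow_le_pow_left₀ (norm_nonneg _) (h3 i) _
  have h6 := inv_estimate D S0 e he (fun i => Ω.aM M i - a i) (fun i => h1 i) h5 j
  have h7 : ‖((Ω.aM M j : OO K) : K) - (a j : K)‖ ≤ d⁻¹ * r ^ ((p ^ h) ^ M) := by
    rw [le_inv_mul_iff₀ hdpos]
    exact h6
  refine h7.trans ?_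
  calc d⁻¹ * r ^ ((p ^ h) ^ M) ≤ (t / r) ^ ((p ^ h) ^ M) * r ^ ((p ^ h) ^ M) :=
        mul_le_mul_of_nonneg_right h2 (by positivity)
    _ = t ^ ((p ^ h) ^ M) := by rw [← mul_pow, div_mul_cancel₀ _ hrpos.ne']

/-- Values of constants in `SN`, for the discrete version of `K`. -/
noncomputable def constKd {q : ℕ} [Fact (2 ≤ q)] {r : ℝ} {hr : 0 ≤ r} {N : ℕ} :
    Kd K →+* SN K q r hr N := (constS : K →+* SN K q r hr N)

/-- AS7: the coordinates `λ' = ψ(Lam_e)` along the orbit: in `SN`,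
`λ'(a_M - a) = (ν^(q^M))_M`, `ν = φ(- pr_a(η e))`.

Proof. Write `δ_M = a_M - a`, `δ̂ = cls δ` (nilpotent in `SN`), `â = cls a_M = const a + δ̂`.
The evaluation `σ : K[[δ]] → SN` at `δ̂` is a continuous ring homomorphism (it kills `(δ)^N`), it
maps `a + δ` to `â`, so `ψ̂ = ψ.map σ` is a homomorphism `F_â → Γ_h` over `SN`, and
`σ(ev1 ψ Lam) = ev1 ψ̂ (cls (M ↦ evm Lam δ_M))` (`cls_evm`, `ev1_map`), where
`evm Lam δ_M = (pra (DM M) S0 e).1 = (p^M • y_M).1`, `y_M = - pr_{a_M}(η e)` (`Lam_eval`, `OrbQ.pra_eq`).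
Choose `j` with `q^j ≥ N` and put `z_M = (p^(M-j) • y_M).1` for `M ≥ j`; `‖z_M‖ ≤ r^(q^(M-j))`, so
`Bd q (r^(q^(-j))) z`, `ẑ = cls z` is nilpotent, and `cls (p^M • y_M) = (p^j • ẑ).1` in `F_â(SN)`
(`cls_ev1` for the series `[p^j]`, i.e. `mulS`, over the product ring `ℕ → O_K`). Hence
`ev1 ψ̂ (p^j • ẑ) = (p^j • ψ̂(ẑ)) = ψ̂(ẑ)^(q^j)` (`Gam_p_smul`). The coefficients of
`ψ̂ - φ̂` (`φ̂ = φ` with constant coefficients in `SN`) lie in the ideal of classes of `Bd r`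
sequences, whose elements `κ` satisfy `κ^N = 0`; so `ψ̂(ẑ)^(q^j) = φ̂(ẑ)^(q^j) =
cls (φ(z_M)^(q^j))`. Finally `z_M = [p^(M-j)]_{a_M} y_M ≡ [p^(M-j)]_a y_M` modulo
`{‖x‖ ≤ ‖δ_M‖}`, so `φ(z_M) = φ(y_M)^(q^(M-j)) + O(‖δ_M‖)` (`φ` is a homomorphism `F_a → Γ_h`),
whose `q^j`-th power is `φ(y_M)^(q^M) + O(‖δ_M‖^(q^j))`, the error is in `JN` as
`(r^(q^j)) ≤ r^N`; and `(φ(y_M) - φ(y_∞))^(q^M)` is `Bd 0` (`Bd.zero_of_tendsto`). -/
theorem OrbQ.lambda_eq (Ω : OrbQ D S0 η hη) [Fact (2 ≤ p ^ h)]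
    (φ : PowerSeries (OO K)) (hφ : IsHomS p (h + m) (par h m a) (Gam h) φ)
    (ψ : PowerSeries (MvPowerSeries (Fin m) (Kd K)))
    (hψ : IsHomS p (h + m) (parXK h m a) (Gam h) ψ)
    (hψφ : ∀ d, constantCoeff (PowerSeries.coeff d ψ) = toKd (PowerSeries.coeff d φ))
    (e : FPt p (h + m) (Gam (h + m) : ℕ → OO K)) (he : pra D S0 e = 0)
    {r : ℝ} (hr0 : 0 < r) (hr1 : r < 1)
    (hbd : ∀ i, Bd (p ^ h) r (fun M => ((Ω.aM M i : OO K) : K) - (a i : K)))
    (hy : ∀ᶠ M in atTop, ‖(((- pra (Ω.DM M) S0 (FPt.hom η hη e)).1 : OO K) : K)‖ ≤ r) (N : ℕ) :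
    evm ((ev1 ψ ((Lam D S0 e).map toKd)).map constKd)
      (fun i => (cls (fun M => Ω.aM M i - a i) : SN K (p ^ h) r hr0.le N)) =
      cls (fun M => (FPt.hom φ hφ (- pra D S0 (FPt.hom η hη e))).1 ^ ((p ^ h) ^ M)) := by
  exact as7_main D S0 Ω.aM Ω.rM Ω.DM φ hφ ψ hψ hψφ e he
    (fun M => - pra (Ω.DM M) S0 (FPt.hom η hη e)) (- pra D S0 (FPt.hom η hη e)) (Ω.y_lim e)
    (eventually_atTop.mpr ⟨1, fun M hM => Ω.pra_eq e he M hM⟩) hr0 hr1 hbd hy N

/-- AS9a: sum and negative of endomorphisms with coefficients in `F_{p^n}`. -/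
theorem endo_add {n : ℕ} (η₁ η₂ : PowerSeries (OO K))
    (h₁ : IsHomS p n (Gam n) (Gam n) η₁) (h₂ : IsHomS p n (Gam n) (Gam n) η₂)
    (c₁ : ∀ d, PowerSeries.coeff d η₁ ^ (p ^ n) = PowerSeries.coeff d η₁)
    (c₂ : ∀ d, PowerSeries.coeff d η₂ ^ (p ^ n) = PowerSeries.coeff d η₂) :
    ∃ (η : PowerSeries (OO K)) (h : IsHomS p n (Gam n) (Gam n) η),
      (∀ d, PowerSeries.coeff d η ^ (p ^ n) = PowerSeries.coeff d η) ∧
      ∀ x : FPt p n (Gam n : ℕ → OO K), FPt.hom η h x = FPt.hom η₁ h₁ x + FPt.hom η₂ h₂ x :=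
  as9_endo_add η₁ η₂ h₁ h₂ c₁ c₂

theorem endo_neg {n : ℕ} (η₁ : PowerSeries (OO K))
    (h₁ : IsHomS p n (Gam n) (Gam n) η₁)
    (c₁ : ∀ d, PowerSeries.coeff d η₁ ^ (p ^ n) = PowerSeries.coeff d η₁) :
    ∃ (η : PowerSeries (OO K)) (h : IsHomS p n (Gam n) (Gam n) η),
      (∀ d, PowerSeries.coeff d η ^ (p ^ n) = PowerSeries.coeff d η) ∧
      ∀ x : FPt p n (Gam n : ℕ → OO K), FPt.hom η h x = - FPt.hom η₁ h₁ x :=
  as9_endo_neg η₁ h₁ c₁

theorem endo_zero (p n : ℕ) [Fact p.Prime] :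
    ∃ h : IsHomS p n (Gam n : ℕ → OO K) (Gam n) (0 : PowerSeries (OO K)),
      ∀ x : FPt p n (Gam n : ℕ → OO K), FPt.hom 0 h x = 0 :=
  as9_endo_zero p n

/-- AS9b: the series `G_0` with `G_0(λ') = G` vanishes asymptotically at `ν`.

Proof. Take `r` from `OrbQ.bd` (with `r0 ≥ ‖ν_i‖`; `‖ν_i‖ ≤ ‖pr_a(η e_i)‖ < 1`). In `SN`:
`evm (G0.map constS) (cls (ν_i^(q^M))) = evm (G0.map constKd) (σ λ'_i) = σ(G0.subst λ') =
σ(G) = cls (evm G δ_M) = 0`; now `evm_constS` and `mkS_eq_zero_iff`. -/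
theorem OrbQ.av (Ω : OrbQ D S0 η hη) (hm : 1 ≤ m)
    (φ : PowerSeries (OO K)) (hφ : IsHomS p (h + m) (par h m a) (Gam h) φ)
    (ψ : PowerSeries (MvPowerSeries (Fin m) (Kd K)))
    (hψ : IsHomS p (h + m) (parXK h m a) (Gam h) ψ)
    (hψφ : ∀ d, constantCoeff (PowerSeries.coeff d ψ) = toKd (PowerSeries.coeff d φ))
    (e : Fin m → FPt p (h + m) (Gam (h + m) : ℕ → OO K)) (he : ∀ i, pra D S0 (e i) = 0)
    (hdet : (Matrix.of fun i j => grad D S0 (e i) j).det ≠ 0)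
    (G : MvPowerSeries (Fin m) (OO K)) (hG : ∀ M, 1 ≤ M → evm G (fun i => Ω.aM M i - a i) = 0)
    (G0 : MvPowerSeries (Fin m) (Kd K))
    (hG0 : G0.subst (fun i => ev1 ψ ((Lam D S0 (e i)).map toKd)) = G.map toKd) :
    AV (p ^ h) (fun i => (((FPt.hom φ hφ (- pra D S0 (FPt.hom η hη (e i)))).1 : OO K) : K))
      (G0 : MvPowerSeries (Fin m) K) := by
  classical
  have hh : 1 ≤ h := D.h_pos
  have hfact : Fact (2 ≤ p ^ h) := ⟨(Fact.out : p.Prime).two_le.trans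
    (Nat.le_self_pow (by omega) p)⟩
  obtain ⟨ν, hν⟩ : ∃ ν : Fin m → FPt p (h + m) (Gam h : ℕ → OO K),
    ν = fun i => FPt.hom φ hφ (- pra D S0 (FPt.hom η hη (e i))) := ⟨_, rfl⟩
  have hνlt : ∀ i, ‖(((ν i).1 : OO K) : K)‖ < 1 := fun i => (tn_iff_norm_lt_one _).1 (ν i).2
  obtain ⟨r0, hr01, hr0⟩ : ∃ r0 : ℝ, r0 < 1 ∧ ∀ i, ‖(((ν i).1 : OO K) : K)‖ ≤ r0 := by
    rcases isEmpty_or_nonempty (Fin m) with hem | hne
    · exact ⟨0, one_pos, fun i => (hem.false i).elim⟩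
    · obtain ⟨i0, hi0⟩ := Finite.exists_max fun i : Fin m => ‖(((ν i).1 : OO K) : K)‖
      exact ⟨_, hνlt i0, hi0⟩
  obtain ⟨r, hrpos, hr0r, hr1, hbd, hy⟩ := Ω.bd e he hdet hr01
  refine ⟨r, hrpos, hr1, fun i => ?_, fun N ρ hρ => ?_⟩
  · have := (hr0 i).trans hr0r
    rw [hν] at this
    exact this
  let δ : Fin m → ℕ → OO K := fun i M => Ω.aM M i - a i
  have hδbd : ∀ i, Bd (p ^ h) r (fun M => ((δ i M : OO K) : K)) := hbd
  let δ' : Fin m → SN K (p ^ h) r hrpos.le N := fun i => cls (δ i)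
  have hδt : ∀ i, IsTopologicallyNilpotent (δ' i) := by
    intro i
    obtain ⟨k, hk⟩ := mkS_nilpotent (hr := hrpos.le) (N := N) hrpos (clsA (δ i)) hr1 (hδbd i)
    have h1 : δ' i ^ k = 0 := hk
    unfold IsTopologicallyNilpotent
    refine tendsto_atTop_of_eventually_const (i₀ := k) fun j hj => ?_
    rw [← Nat.sub_add_cancel hj, pow_add, h1, mul_zero]
  have hE : HasEval δ' := hasEval_of_finite hδt
  obtain ⟨lam, hlam⟩ : ∃ lam : Fin m → MvPowerSeries (Fin m) (Kd K),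
    lam = fun i => ev1 ψ ((Lam D S0 (e i)).map toKd) := ⟨_, rfl⟩
  rw [← hlam] at hG0
  have hl0 : ∀ i, constantCoeff (lam i) = 0 := by
    intro i
    have h1 : constantCoeff ((Lam D S0 (e i)).map toKd) = 0 := by
      rw [constantCoeff_map, Lam_constantCoeff, he i, FPt.zero_val, map_zero]
    rw [hlam]
    exact (coeff_single_ev1 ψ hψ.1 _ h1).1
  have hs : HasSubst lam := hasSubst_of_constantCoeff_zero hl0
  have hs' : HasSubst (fun i => (lam i).map (constKd : Kd K →+* SN K (p ^ h) r hrpos.le N)) :=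
    hs.map _
  -- the values of the coordinates
  let z : Fin m → ℕ → OO K := fun i M => (ν i).1 ^ ((p ^ h) ^ M)
  have hz : ∀ i, evm ((lam i).map constKd) δ' = cls (z i) := by
    intro i
    have h1 := Ω.lambda_eq φ hφ ψ hψ hψφ (e i) (he i) hrpos hr1 hbd (hy i) N
    rw [hlam]
    refine h1.trans ?_
    show _ = cls (fun M => (ν i).1 ^ ((p ^ h) ^ M))
    rw [hν]
  have hzbd : ∀ i, Bd (p ^ h) r (fun M => ((z i M : OO K) : K)) := by
    intro i t ht
    refine Eventually.of_forall fun M => ?_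
    have h1 : ((z i M : OO K) : K) = (((ν i).1 : OO K) : K) ^ ((p ^ h) ^ M) := rfl
    show ‖((z i M : OO K) : K)‖ ≤ t ^ (p ^ h) ^ M
    rw [h1, norm_pow]
    exact pow_le_pow_left₀ (norm_nonneg _) (((hr0 i).trans hr0r).trans ht.le) _
  have h1 : evm ((G0.subst lam).map (constKd : Kd K →+* SN K (p ^ h) r hrpos.le N)) δ' =
      evm (G0.map constKd) (fun i => cls (z i)) := by
    rw [map_subst hs]
    unfold evm
    rw [eval_subst hs' hE]
    congr 1
    funext i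
    exact hz i
  have h2 : evm ((G0.subst lam).map (constKd : Kd K →+* SN K (p ^ h) r hrpos.le N)) δ' = 0 := by
    rw [hG0]
    have h3 := cls_evm (q := p ^ h) (r := r) (hr := hrpos.le) (N := N) hrpos
      (G.map (Pi.constRingHom ℕ (OO K))) δ hr1 hδbd
    have h4 : (G.map (Pi.constRingHom ℕ (OO K))).map
        (cls : (ℕ → OO K) →+* SN K (p ^ h) r hrpos.le N) =
        (G.map toKd).map (constKd : Kd K →+* SN K (p ^ h) r hrpos.le N) := by
      ext d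
      rw [coeff_map, coeff_map, coeff_map, coeff_map]
      exact (constS_coe _).symm
    rw [h4] at h3
    refine h3.symm.trans ?_
    rw [cls_eq_zero_iff]
    intro t ht
    filter_upwards [eventually_ge_atTop 1] with M hM
    have h5 : (G.map (Pi.constRingHom ℕ (OO K))).map (Pi.evalRingHom (fun _ => OO K) M) = G := by
      ext d
      rw [coeff_map, coeff_map]
      rfl
    rw [h5]
    have h6 : evm G (fun i => δ i M) = 0 := hG M hM
    rw [h6]
    have h7 : (((0 : OO K)) : K) = 0 := rfl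
    rw [h7, norm_zero]
    exact pow_nonneg ((pow_nonneg hrpos.le N).trans ht.le) _
  obtain ⟨hB, h8⟩ := evm_constS (K := K) (q := p ^ h) (hr := hrpos.le) (N := N) G0 z hr1 hzbd
  have h10 := (mkS_eq_zero_iff _).1 (h8.symm.trans (h1.symm.trans h2))
  have h11 := h10 ρ hρ
  subst hν
  exact h11

/-- Theorem MP: the analytic heart in characteristic `p`.

Proof. `P : PhiData` (`exists_PhiData`), `φ = P.phi`, `ψ` (`exists_phiDelta`), `e` (`exists_basis`),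
`λ'_i = ψ(Lam_{e_i})` has invertible Jacobian matrix `c * grad` (`coeff_single_ev1`, `Lam_constantCoeff`),
so `G = G0(λ')` (`exists_subst_eq`). If `G ≠ 0` then `G0 ≠ 0`. `Λ` = the subgroup of all
`(xi(η e_i))_i`, `η` endomorphism (`endo_add`, `endo_neg`, `endo_zero`); each of its elements is
`φ(- pr_a(η' e_i))` with `η' = -η`. By `OrbQ.av` and `closure_relation` there is a nontrivial
relation, contradicting `xi_independent`. -/
theorem main_MP [IsAlgClosed K] {C : Type} [NormedField C] [IsUltrametricDist C]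
    [CompleteSpace C] [CharZero C] (hp : ‖(p : C)‖ < 1) (hp0 : 0 < ‖(p : C)‖)
    (T : TiltData p K C) (D : Dt p h m a ρ) (S0 : SharpData p K K)
    (hS : ∀ x, S0.sharp x = x) (hm : 1 ≤ m) (ha : a ⟨0, hm⟩ ≠ 0)
    (G : MvPowerSeries (Fin m) (OO K))
    (hG : ∀ η : Etas p (h + m) K, ∃ Ω : OrbQ D S0 η.ser η.isHom,
      ∀ M, 1 ≤ M → evm G (fun i => Ω.aM M i - a i) = 0) :
    G = 0 := by
  classical
  have hh : 1 ≤ h := D.h_pos
  obtain ⟨P⟩ := exists_PhiData (p := p) (h := h) (m := m) a hh hm ha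
  have hφ := P.isHomS hh
  have hφ1 := P.coeff_one hh hm
  obtain ⟨ψ, hψ, hψφ⟩ := exists_phiDelta hh hm a ha P.phi hφ
  obtain ⟨e, he, hdet⟩ := exists_basis D S0 hm ha
  obtain ⟨lam, hlam⟩ : ∃ lam : Fin m → MvPowerSeries (Fin m) (Kd K),
    lam = fun i => ev1 ψ ((Lam D S0 (e i)).map toKd) := ⟨_, rfl⟩
  have hinj : Function.Injective (toKd : OO K →+* Kd K) := Subtype.val_injective
  have hl0 : ∀ i, constantCoeff ((Lam D S0 (e i)).map toKd) = 0 := by
    intro i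
    rw [constantCoeff_map, Lam_constantCoeff, he i, FPt.zero_val, map_zero]
  have hc := fun i => coeff_single_ev1 ψ hψ.1 _ (hl0 i)
  have hlam0 : ∀ i, constantCoeff (lam i) = 0 := by
    intro i
    rw [hlam]
    exact (hc i).1
  have hdet' : (Matrix.of fun i j => coeff (Finsupp.single j 1) (lam i)).det ≠ 0 := by
    have h1 : (Matrix.of fun i j => coeff (Finsupp.single j 1) (lam i)) =
        toKd (PowerSeries.coeff 1 P.phi) •
          (toKd : OO K →+* Kd K).mapMatrix (Matrix.of fun i j => grad D S0 (e i) j) := by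
      ext i j
      rw [Matrix.of_apply, hlam, (hc i).2 j, hψφ, coeff_map]
      rfl
    rw [h1, Matrix.det_smul, ← RingHom.map_det]
    refine mul_ne_zero (pow_ne_zero _ fun h0 => hφ1 (hinj ?_)) fun h0 => hdet (hinj ?_)
    · rw [h0, map_zero]
    · rw [h0, map_zero]
  obtain ⟨G0, hG0⟩ := exists_subst_eq lam hlam0 hdet' (G.map toKd)
  by_contra hne
  have hs : HasSubst lam := hasSubst_of_constantCoeff_zero hlam0
  have hG0ne : G0 ≠ 0 := by
    intro h0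
    apply hne
    rw [h0, ← coe_substAlgHom hs, map_zero] at hG0
    refine MvPowerSeries.ext fun d => hinj ?_
    rw [← coeff_map, ← hG0, coeff_zero, coeff_zero, map_zero]
  rw [hlam] at hG0
  let Λ : AddSubgroup (Fin m → FPt p (h + m) (Gam h : ℕ → OO K)) :=
    { carrier := {ν | ∃ (η : PowerSeries (OO K)) (hη : IsHomS p (h + m) (Gam (h + m))
        (Gam (h + m)) η), (∀ d, PowerSeries.coeff d η ^ (p ^ (h + m)) = PowerSeries.coeff d η) ∧
          ∀ i, ν i = xi D S0 P (FPt.hom η hη (e i))}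
      add_mem' := by
        rintro x y ⟨η₁, h₁, c₁, hx⟩ ⟨η₂, h₂, c₂, hy⟩
        obtain ⟨η, h3, c, h4⟩ := endo_add η₁ η₂ h₁ h₂ c₁ c₂
        refine ⟨η, h3, c, fun i => ?_⟩
        rw [h4, map_add, ← hx, ← hy]
        rfl
      zero_mem' := by
        obtain ⟨h3, h4⟩ := endo_zero (K := K) p (h + m)
        refine ⟨0, h3, fun d => ?_, fun i => ?_⟩
        · rw [map_zero, zero_pow (pow_ne_zero _ (Fact.out : p.Prime).ne_zero)]
        · rw [h4, map_zero]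
          rfl
      neg_mem' := by
        rintro x ⟨η₁, h₁, c₁, hx⟩
        obtain ⟨η, h3, c, h4⟩ := endo_neg η₁ h₁ c₁
        refine ⟨η, h3, c, fun i => ?_⟩
        rw [h4, map_neg, ← hx]
        rfl }
  obtain ⟨α, hα, ⟨i0, hi0⟩, hαq, hrel⟩ := closure_relation (K := K) hh (by omega : h ≤ h + m) Λ
    G0 hG0ne (by
      rintro ν ⟨η, hη, hηr, hνη⟩
      obtain ⟨η', hη', hηr', hneg⟩ := endo_neg η hη hηr
      obtain ⟨Ω, hΩ⟩ := hG ⟨η', hη', hηr'⟩
      have h1 := Ω.av hm P.phi hφ ψ hψ hψφ e he hdet G hΩ G0 hG0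
      have h2 : ∀ i, FPt.hom P.phi hφ (- pra D S0 (FPt.hom η' hη' (e i))) = ν i := by
        intro i
        rw [hneg, map_neg (pra D S0), neg_neg, hνη]
        rfl
      have h3 : (fun i => (((FPt.hom P.phi hφ
          (- pra D S0 (FPt.hom η' hη' (e i)))).1 : OO K) : K)) = fun i => ((ν i).1 : K) := by
        funext i
        rw [h2]
      rw [← h3]
      exact h1)
  exact hi0 (xi_independent hp hp0 T D S0 hS hm P e he hdet α hα hαq
    (fun η hη hηr => hrel _ ⟨η, hη, hηr, fun i => rfl⟩) i0)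

end Vale.Agent.P217
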