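import Vale.Agent.P217.AsmAct
import Vale.Agent.P217.AsmPt1
import Vale.Agent.P217.AsmPt2
import Vale.Agent.P217.AsmPt3
import Vale.Agent.P217.Etas
import Vale.Agent.P217.AsyMain

/-!
# P217, part A: invariant radical ideals, characteristic `p` part (helper95)
-/

namespace Vale.Agent.P217

open MvPowerSeries Filter Topology

section endo

variable {p n : ℕ} [Fact p.Prime] {k : Type*} [Field k] [CharP k p]
variable {K : Type*} [NormedField K] [IsUltrametricDist K]

/-- Elements of `O_K` with `c^(p^n) = c` come from `k`. -/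
theorem exists_descend (ι : k →+* OO K) (hk : Nat.card k = p ^ n) (hn : 1 ≤ n)
    (c : OO K) (hc : c ^ (p ^ n) = c) : ∃ x : k, ι x = c := by
  classical
  have hp := (Fact.out : p.Prime).pos
  have hq : 1 < p ^ n := Nat.one_lt_pow (by omega) (Fact.out : p.Prime).one_lt
  have hfin : Finite k := Nat.finite_of_card_ne_zero (by rw [hk]; positivity)
  have := Fintype.ofFinite k
  have hcard : Fintype.card k = p ^ n := by rw [← Nat.card_eq_fintype_card, hk]
  have hdom : IsDomain (OO K) := inferInstance
  let P : Polynomial (OO K) := Polynomial.X ^ (p ^ n) - Polynomial.X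
  have hP0 : P ≠ 0 := by
    intro h
    have h1 : P.coeff (p ^ n) = 1 := by
      simp only [P, Polynomial.coeff_sub, Polynomial.coeff_X_pow, if_true, Polynomial.coeff_X]
      rw [if_neg (by omega)]
      simp
    rw [h] at h1
    simp at h1
  have hdeg : P.natDegree ≤ p ^ n := by
    refine (Polynomial.natDegree_sub_le _ _).trans (max_le ?_ ?_)
    · exact Polynomial.natDegree_X_pow_le _
    · exact Polynomial.natDegree_X_le.trans hq.le
  have hroot : ∀ z : OO K, z ∈ P.roots ↔ z ^ (p ^ n) = z := by
    intro z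
    rw [Polynomial.mem_roots hP0, Polynomial.IsRoot.def]
    simp [P, sub_eq_zero]
  have himg : Finset.univ.image ι ⊆ P.roots.toFinset := by
    intro z hz
    rw [Finset.mem_image] at hz
    obtain ⟨x, -, rfl⟩ := hz
    rw [Multiset.mem_toFinset, hroot, ← map_pow, ← hcard, FiniteField.pow_card]
  have hle : P.roots.toFinset.card ≤ (Finset.univ.image ι).card := by
    rw [Finset.card_image_of_injective _ ι.injective, Finset.card_univ, hcard]
    exact (Multiset.toFinset_card_le _).trans ((Polynomial.card_roots' _).trans hdeg)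
  have heq := Finset.eq_of_subset_of_card_le himg hle
  have hmem : c ∈ P.roots.toFinset := by
    rw [Multiset.mem_toFinset, hroot]; exact hc
  rw [← heq, Finset.mem_image] at hmem
  obtain ⟨x, -, hx⟩ := hmem
  exact ⟨x, hx⟩

theorem Etas.exists_descend (ι : k →+* OO K) (hk : Nat.card k = p ^ n) (hn : 1 ≤ n)
    (η : Etas p n K) : ∃ η₀ : PowerSeries k, IsHomS p n (Gam n) (Gam n) η₀ ∧ η₀.map ι = η.ser := by
  choose c hc using fun d => Vale.Agent.P217.exists_descend ι hk hn
    (PowerSeries.coeff d η.ser) (η.root d)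
  let η₀ : PowerSeries k := PowerSeries.mk c
  have hmap : η₀.map ι = η.ser := by
    ext d
    rw [PowerSeries.coeff_map, PowerSeries.coeff_mk, hc]
  have h0 : PowerSeries.constantCoeff η₀ = 0 := by
    apply ι.injective
    rw [map_zero]
    have := η.isHom.1
    rw [← PowerSeries.coeff_zero_eq_constantCoeff_apply] at this ⊢
    rw [← this, ← hmap, PowerSeries.coeff_map]
  refine ⟨η₀, ⟨h0, ?_⟩, hmap⟩
  have hinj : Function.Injective (MvPowerSeries.map (σ := Fin 2) ι) := by
    intro x y hxy
    ext e
    apply ι.injective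
    rw [← coeff_map, ← coeff_map, hxy]
  apply hinj
  have hG : (fun j => ι ((Gam n : ℕ → k) j)) = (Gam n : ℕ → OO K) := by
    funext j
    unfold Gam
    split_ifs <;> simp
  have hs : PowerSeries.HasSubst (Fv p n (Gam n : ℕ → k)) :=
    PowerSeries.HasSubst.of_constantCoeff_zero (Fv_constantCoeff p n _)
  have h1 : MvPowerSeries.map ι (η₀.subst (Fv p n (Gam n : ℕ → k))) =
      (η₀.map ι).subst ((Fv p n (Gam n : ℕ → k)).map ι) := PowerSeries.map_subst hs η₀
  have h2 : ∀ i : Fin 2, MvPowerSeries.map ι (η₀.subst (X i : MvPowerSeries (Fin 2) k)) =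
      (η₀.map ι).subst (X i : MvPowerSeries (Fin 2) (OO K)) := by
    intro i
    have := PowerSeries.map_subst (PowerSeries.HasSubst.X (S := k) i) (h := ι) η₀
    rw [MvPowerSeries.map_X] at this
    exact this
  have hc2 : ∀ i : Fin 2, constantCoeff (η₀.subst (X i : MvPowerSeries (Fin 2) k)) = 0 :=
    fun i => PowerSeries.constantCoeff_subst_eq_zero (constantCoeff_X _) η₀ h0
  rw [h1, Fv_map, hG, hmap, fga_map_subst ι _ _ _ (hc2 0) (hc2 1), h2, h2, Fv_map, hG, hmap]
  exact η.isHom.2

end endo

section main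

variable {p h m : ℕ} [Fact p.Prime] {k : Type} [Field k] [CharP k p] [PerfectRing k p]
variable {K C' : Type} [NormedField K] [NormedField C'] [IsUltrametricDist K]
  [IsUltrametricDist C'] [CharP K p] [PerfectRing K p] [CompleteSpace K] [CompleteSpace C']
  [CharZero C'] [IsAlgClosed C'] [IsAlgClosed K]

theorem main_charp (hp1 : ‖(p : C')‖ < 1) (hp0 : 0 < ‖(p : C')‖) (T : TiltData p K C')
    (hK : ∃ t : K, t ≠ 0 ∧ ‖t‖ < 1) (ι : k →+* OO K) (hk : Nat.card k = p ^ (h + m))
    (h1 : 1 ≤ h) (hm : 1 ≤ m) (J : Ideal (E0 p (h + m) k)) (hJ : J.IsRadical)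
    (hinv : InvE p (h + m) k J) (hI : Iht p (h + m) k h ≤ J) (hu : uSeq p (h + m) k h ∉ J) :
    J = Iht p (h + m) k h := by
  refine le_antisymm (fun f hf => ?_) hI
  obtain ⟨χ, r, hχ, hχJ, ha⟩ := exists_chi hK ι h1 hm J hJ hI hu
  obtain ⟨G, hG, hG0⟩ := exists_taylor' h1 hχ f
  have D := hχ.dt h1
  have hfin : Finite k := Nat.finite_of_card_ne_zero (by
    rw [hk]; exact pow_ne_zero _ (Fact.out : p.Prime).ne_zero)
  have hkpow : ∀ c : k, c ^ (p ^ (h + m)) = c := by
    intro c
    have := Fintype.ofFinite k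
    rw [← hk, Nat.card_eq_fintype_card, FiniteField.pow_card]
  apply hG0
  let S : SharpData p K K := SharpData.refl p K
  have hS : ∀ x, S.sharp x = x := fun x => rfl
  refine main_MP hp1 hp0 T D S hS hm ha G (fun η => ?_)
  have hex := Etas.exists_descend ι hk (by omega) η
  have key := fun M : ℕ => exists_small_move h1 hm hχ J hinv hχJ hkpow S hS D hex.choose
    hex.choose_spec.1 η.ser η.isHom hex.choose_spec.2 (M + 1) (by omega)
  -- shift by one: `aM (M + 1) = ` the point of `key M`
  let aM : ℕ → Fin m → OO K := fun M => match M with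
    | 0 => ptA h χ
    | M + 1 => ptA h (key M).choose
  let DM : ∀ M, Dt p h m (aM M) r := fun M => match M with
    | 0 => D
    | M + 1 => (key M).choose_spec.choose_spec.choose
  refine ⟨{ aM := aM, rM := fun _ => r, DM := DM, lim := fun i => ?_, rel := ?_ }, ?_⟩
  · rw [← tendsto_add_atTop_iff_nat 1, tendsto_iff_norm_sub_tendsto_zero]
    refine squeeze_zero (fun _ => norm_nonneg _) (fun M => ?_)
      ((tendsto_pow_atTop_nhds_zero_of_lt_one hχ.r_nonneg hχ.r_lt).comp
        (tendsto_add_atTop_nat (2 : ℕ)))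
    exact (key M).choose_spec.choose_spec.choose_spec.2.1 i
  · intro M hM
    obtain ⟨M, rfl⟩ := Nat.exists_eq_add_of_le' hM
    intro e he
    exact (key M).choose_spec.choose_spec.choose_spec.2.2 e he
  · intro M hM
    obtain ⟨M, rfl⟩ := Nat.exists_eq_add_of_le' hM
    have h2 := hG (key M).choose r (key M).choose_spec.choose
    refine Eq.trans h2 ?_
    exact (key M).choose_spec.choose_spec.choose_spec.1 f hf

end main

end Vale.Agent.P217
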