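import Mathlib

/-!
# P217: the Lubin-Tate ring and the action of the extended Morava stabilizer group

Definitions used in the statement of the final theorem.
-/

namespace Vale.Agent.P217

open MvPowerSeries

section general

variable {R : Type*} [CommRing R]

/-- `f` is an isomorphism from the formal group law `F` to the formal group law `G`:
`f(0) = 0`, `f'(0)` is a unit and `f(F(X,Y)) = G(f(X), f(Y))`. -/
def IsFGIso (F G : FormalGroup R) (f : PowerSeries R) : Prop :=
  PowerSeries.constantCoeff f = 0 ∧ IsUnit (PowerSeries.coeff 1 f) ∧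
    f.subst F.toPowerSeries = G.toPowerSeries.subst
      ![f.subst (X 0 : MvPowerSeries (Fin 2) R), f.subst (X 1 : MvPowerSeries (Fin 2) R)]

/-- `log` is a logarithm of `F`: `log(F(X,Y)) = log(X) + log(Y)`. -/
def IsLogarithm (F : FormalGroup R) (log : PowerSeries R) : Prop :=
  log.subst F.toPowerSeries =
    log.subst (X 0 : MvPowerSeries (Fin 2) R) + log.subst (X 1 : MvPowerSeries (Fin 2) R)

/-- `log` is the Hazewinkel logarithm with parameters `v_1, v_2, …`: it is `∑_k ℓ_k X^(p^k)` with
`ℓ_0 = 1` and `p ℓ_(k+1) = ∑_(i ≤ k) ℓ_i v_(k+1-i)^(p^i)`. -/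
def IsHazewinkelLog (p : ℕ) (v : ℕ → R) (log : PowerSeries R) : Prop :=
  PowerSeries.coeff 1 log = 1 ∧
  (∀ k, (p : R) * PowerSeries.coeff (p ^ (k + 1)) log =
    ∑ i ∈ Finset.range (k + 1), PowerSeries.coeff (p ^ i) log * v (k + 1 - i) ^ (p ^ i)) ∧
  (∀ d, (∀ k, d ≠ p ^ k) → PowerSeries.coeff d log = 0)

/-- The formal group law `F` over `R` has, over the field of fractions of `R`, the Hazewinkel
logarithm with parameters `v_1, v_2, … ∈ R`. -/
def HasHazewinkelLog (p : ℕ) (v : ℕ → R) (F : FormalGroup R) : Prop :=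
  ∃ log : PowerSeries (FractionRing R),
    IsHazewinkelLog p (fun j => algebraMap R (FractionRing R) (v j)) log ∧
    IsLogarithm (F.map (algebraMap R (FractionRing R))) log

/-- `γ` (over the residue ring) lifts along `res` to an isomorphism from `F` to `φ_* F`. -/
def LiftsToIso {k : Type*} [CommRing k] (res : R →+* k) (F : FormalGroup R) (γ : PowerSeries k)
    (φ : R →+* R) : Prop :=
  ∃ f : PowerSeries R, IsFGIso F (F.map φ) f ∧ f.map res = γ

end general

section

variable (p n : ℕ) [Fact p.Prime]

/-- The Lubin-Tate ring `E_0 = W(𝔽_(p^n))[[u_1, …, u_(n-1)]]`; the variable `X i` is `u_(i+1)`. -/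
abbrev LTRing : Type := MvPowerSeries (Fin (n - 1)) (WittVector p (GaloisField p n))

/-- The ring automorphisms of `E_0`. -/
abbrev LTAut : Type := LTRing p n ≃+* LTRing p n

/-- The Galois group of `𝔽_(p^n)`. -/
abbrev GalAut : Type := GaloisField p n ≃+* GaloisField p n

/-- The inclusion `W(𝔽_(p^n)) → E_0`. -/
noncomputable def ltC : WittVector p (GaloisField p n) →+* LTRing p n := C

/-- The residue map `E_0 → 𝔽_(p^n)`. -/
noncomputable def ltRes : LTRing p n →+* GaloisField p n :=
  (WittVector.constantCoeff : WittVector p (GaloisField p n) →+* GaloisField p n).comp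
    (constantCoeff : LTRing p n →+* WittVector p (GaloisField p n))

/-- The height ideal `I_h = (p, u_1, …, u_(h-1))` for `1 ≤ h ≤ n`, and `I_0 = 0`. -/
noncomputable def heightIdeal (h : ℕ) : Ideal (LTRing p n) :=
  Ideal.span {x | (1 ≤ h ∧ x = (p : LTRing p n)) ∨ ∃ i : Fin (n - 1), (i : ℕ) + 1 < h ∧ x = X i}

/-- The Hazewinkel parameters of the universal deformation: `v_j = u_j` for `1 ≤ j < n`,
`v_n = 1` and `v_j = 0` for `j > n`. -/
noncomputable def ltPar (j : ℕ) : LTRing p n :=
  if h : 1 ≤ j ∧ j < n then X ⟨j - 1, by omega⟩ else if j = n then 1 else 0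

variable {p n}

/-- `F` is the universal deformation over `E_0` of the Honda formal group law of height `n`, in
Hazewinkel's form: the `p`-typical formal group law with parameters `u_1, …, u_(n-1), 1, 0, …`. -/
def IsUniversalDeformation (F : FormalGroup (LTRing p n)) : Prop :=
  HasHazewinkelLog p (ltPar p n) F

/-- The special fibre of `F` over `𝔽_(p^n)` (the Honda formal group law `Γ_n`). -/
noncomputable def specialFibre (F : FormalGroup (LTRing p n)) : FormalGroup (GaloisField p n) :=
  F.map (ltRes p n)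

/-- `γ` is an automorphism of the special fibre of `F`. -/
def IsAutOfFibre (F : FormalGroup (LTRing p n)) (γ : PowerSeries (GaloisField p n)) : Prop :=
  IsFGIso (specialFibre F) (specialFibre F) γ

/-- The element `(γ, σ)` of `G_n = Aut(Γ_n) ⋊ Gal(𝔽_(p^n)/𝔽_p)` acts on `E_0` by the ring
automorphism `φ`: `φ` restricts to `W(σ)` on `W(𝔽_(p^n))`, and `γ` lifts to an isomorphism
from `F` to `φ_* F`. -/
def ActsBy (F : FormalGroup (LTRing p n)) (γ : PowerSeries (GaloisField p n))
    (σ : GalAut p n) (φ : LTAut p n) : Prop :=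
  φ.toRingHom.comp (ltC p n) = (ltC p n).comp (WittVector.map σ.toRingHom) ∧
    LiftsToIso (ltRes p n) F γ φ.toRingHom

/-- The ideal `J` of `E_0` is invariant under the extended Morava stabilizer group `G_n`. -/
def IsInvariantG (F : FormalGroup (LTRing p n)) (J : Ideal (LTRing p n)) : Prop :=
  ∀ (γ : PowerSeries (GaloisField p n)) (σ : GalAut p n) (φ : LTAut p n),
    IsAutOfFibre F γ → ActsBy F γ σ φ → J.map φ.toRingHom = J

/-- The ideal `J` of `E_0` is invariant under the Morava stabilizer group `Aut(Γ_n)`. -/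
def IsInvariantA (F : FormalGroup (LTRing p n)) (J : Ideal (LTRing p n)) : Prop :=
  ∀ (γ : PowerSeries (GaloisField p n)) (φ : LTAut p n),
    IsAutOfFibre F γ → ActsBy F γ (RingEquiv.refl _) φ → J.map φ.toRingHom = J

end

end Vale.Agent.P217
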