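import Vale.Agent.P217.LTIdeal
import Vale.Agent.P217.E0Ideals

/-!
# P217, module IHI: invariance of the height ideals (helper95)
-/

namespace Vale.Agent.P217

open MvPowerSeries

section low

variable {R : Type*} [CommRing R]

/-- lowest coefficient of a composition, the inner series has order `≥ N` -/
theorem ihi_low (g a : PowerSeries R) (N : ℕ) (hN : 1 ≤ N)
    (ha : ∀ i < N, PowerSeries.coeff i a = 0) (hg : PowerSeries.constantCoeff g = 0) :
    PowerSeries.coeff N (g.subst a) = PowerSeries.coeff 1 g * PowerSeries.coeff N a := by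
  have ha0 : PowerSeries.constantCoeff a = 0 := by
    rw [← PowerSeries.coeff_zero_eq_constantCoeff_apply]
    exact ha 0 (by omega)
  have hs : PowerSeries.HasSubst a := PowerSeries.HasSubst.of_constantCoeff_zero' ha0
  have h2 : g = PowerSeries.C (PowerSeries.coeff 1 g) * PowerSeries.X +
      PowerSeries.X ^ 2 * PowerSeries.mk fun i => PowerSeries.coeff (i + 2) g := by
    ext i
    match i with
    | 0 => simp [hg]
    | 1 =>
      rw [map_add, PowerSeries.coeff_C_mul, PowerSeries.coeff_one_X, pow_two, mul_assoc,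
        PowerSeries.coeff_one_mul]
      simp
    | i + 2 =>
      rw [map_add, PowerSeries.coeff_C_mul, PowerSeries.coeff_X, if_neg (by omega), mul_zero,
        zero_add, PowerSeries.coeff_X_pow_mul', if_pos (by omega)]
      simp
  have hsub : g.subst a = PowerSeries.C (PowerSeries.coeff 1 g) * a + a ^ 2 *
      (PowerSeries.mk fun i => PowerSeries.coeff (i + 2) g).subst a := by
    conv_lhs => rw [h2]
    rw [PowerSeries.subst_add hs, PowerSeries.subst_mul hs, PowerSeries.subst_mul hs,
      PowerSeries.subst_pow hs, PowerSeries.subst_X hs, PowerSeries.subst_C]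
    rfl
  have hdvd : (PowerSeries.X : PowerSeries R) ^ N ∣ a := PowerSeries.X_pow_dvd_iff.2 ha
  have hz : PowerSeries.coeff N (a ^ 2 *
      (PowerSeries.mk fun i => PowerSeries.coeff (i + 2) g).subst a) = 0 := by
    have h3 : (PowerSeries.X : PowerSeries R) ^ (N * 2) ∣ a ^ 2 *
        (PowerSeries.mk fun i => PowerSeries.coeff (i + 2) g).subst a := by
      rw [pow_mul]
      exact (pow_dvd_pow_of_dvd hdvd 2).mul_right _
    exact PowerSeries.X_pow_dvd_iff.1 h3 N (by omega)
  rw [hsub, map_add, hz, add_zero, PowerSeries.coeff_C_mul]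

/-- lowest coefficient of a composition, the outer series has order `≥ N` -/
theorem ihi_high (b g : PowerSeries R) (N : ℕ)
    (hb : ∀ i < N, PowerSeries.coeff i b = 0) (hg : PowerSeries.constantCoeff g = 0) :
    PowerSeries.coeff N (b.subst g) = PowerSeries.coeff N b * PowerSeries.coeff 1 g ^ N := by
  have hs : PowerSeries.HasSubst g := PowerSeries.HasSubst.of_constantCoeff_zero' hg
  obtain ⟨q, hq⟩ := PowerSeries.X_pow_dvd_iff.2 hb
  have hg' : (PowerSeries.X : PowerSeries R) ^ 1 ∣ g := by
    rw [PowerSeries.X_pow_dvd_iff]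
    intro m hm
    obtain rfl : m = 0 := by omega
    rw [PowerSeries.coeff_zero_eq_constantCoeff_apply, hg]
  rw [pow_one] at hg'
  obtain ⟨g', hg'⟩ := hg'
  have hq2 : q = PowerSeries.C (PowerSeries.constantCoeff q) +
      PowerSeries.X * PowerSeries.mk fun i => PowerSeries.coeff (i + 1) q := by
    ext i
    cases i with
    | zero => simp
    | succ i => simp [PowerSeries.coeff_succ_X_mul]
  have hqs : q.subst g = PowerSeries.C (PowerSeries.constantCoeff q) +
      g * (PowerSeries.mk fun i => PowerSeries.coeff (i + 1) q).subst g := by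
    conv_lhs => rw [hq2]
    rw [PowerSeries.subst_add hs, PowerSeries.subst_mul hs, PowerSeries.subst_X hs,
      PowerSeries.subst_C]
    rfl
  have hbs : b.subst g = PowerSeries.X ^ N * (g' ^ N * q.subst g) := by
    conv_lhs => rw [hq]
    rw [PowerSeries.subst_mul hs, PowerSeries.subst_pow hs, PowerSeries.subst_X hs]
    conv_lhs => rw [hg']
    rw [mul_pow, ← hg', mul_assoc]
  have e1 : PowerSeries.coeff 1 g = PowerSeries.constantCoeff g' := by
    have := PowerSeries.coeff_succ_X_mul 0 g'
    rw [zero_add] at this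
    rw [hg', this, PowerSeries.coeff_zero_eq_constantCoeff_apply]
  have e2 : PowerSeries.coeff N b = PowerSeries.constantCoeff q := by
    rw [hq]
    have := PowerSeries.coeff_X_pow_mul q N 0
    rw [zero_add] at this
    rw [this, PowerSeries.coeff_zero_eq_constantCoeff_apply]
  have e3 : PowerSeries.coeff N (b.subst g) = PowerSeries.constantCoeff (g' ^ N * q.subst g) := by
    rw [hbs]
    have := PowerSeries.coeff_X_pow_mul (g' ^ N * q.subst g) N 0
    rw [zero_add] at this
    rw [this, PowerSeries.coeff_zero_eq_constantCoeff_apply]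
  rw [e3, map_mul, map_pow, hqs, map_add, map_mul, hg, zero_mul, add_zero,
    PowerSeries.constantCoeff_C, e1, e2, mul_comm]

end low

variable {p n : ℕ} [Fact p.Prime] {k : Type*} [Field k] [CharP k p] [PerfectRing k p]

omit [PerfectRing k p] [CharP k p] in
theorem ihi_uPar_mem {h j : ℕ} (h1 : 1 ≤ j) (h2 : j < h) : uPar p n k j ∈ Iht p n k h := by
  refine Ideal.subset_span ⟨j, h2, ?_⟩
  unfold uSeq
  rw [if_neg (by omega)]

/-- IHI': the leading term of `[p]` modulo `I_h`. -/
theorem mulS_mod_Iht (hn : 1 ≤ n) (h : ℕ) (hh : h ≤ n) (i : ℕ) (hi : i ≤ p ^ h) :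
    PowerSeries.coeff i (mulS p n (uPar p n k) p)
      - (if i = p ^ h then uSeq p n k h else 0) ∈ Iht p n k h := by
  rcases Nat.eq_zero_or_pos h with rfl | hpos
  · rw [pow_zero] at hi ⊢
    rcases Nat.eq_zero_or_pos i with rfl | hi0
    · rw [if_neg (by omega), sub_zero]
      have : PowerSeries.constantCoeff (mulS p n (uPar p n k) p) = 0 :=
        US1.mulS_cc (p := p) (n := n) (uPar p n k) p
      rw [PowerSeries.coeff_zero_eq_constantCoeff_apply, this]
      exact Ideal.zero_mem _
    · obtain rfl : i = 1 := by omega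
      rw [if_pos rfl, mulS_coeff_one]
      have : uSeq p n k 0 = (p : E0 p n k) := by
        unfold uSeq
        rw [if_pos rfl]
      rw [this, sub_self]
      exact Ideal.zero_mem _
  · obtain ⟨φ, hφs, hφk, hφC, hφX⟩ := exists_red (p := p) (n := n) (k := k) h hpos hh
    have hchar : CharP (MvPowerSeries (Fin (n - h)) k) p :=
      charP_of_injective_ringHom (f := (C : k →+* MvPowerSeries (Fin (n - h)) k))
        (MvPowerSeries.C_injective) p
    have hmem : ∀ x, φ x = 0 → x ∈ Iht p n k h := fun x hx => by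
      rw [← hφk]
      exact RingHom.mem_ker.2 hx
    apply hmem
    have hv0 : ∀ j, 1 ≤ j → j < h → φ (uPar p n k j) = 0 := by
      intro j h1 h2
      have := ihi_uPar_mem (p := p) (n := n) (k := k) h1 h2
      rw [← hφk] at this
      exact RingHom.mem_ker.1 this
    have e1 : φ (PowerSeries.coeff i (mulS p n (uPar p n k) p)) =
        PowerSeries.coeff i (mulS p n (fun j => φ (uPar p n k j)) p) := by
      rw [← US1.mulS_map (p := p) (n := n) φ (uPar p n k) p]
      exact (PowerSeries.coeff_map _ _ _).symm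
    have e2 := mulS_p_eq (p := p) (n := n) (h := h) (v := fun j => φ (uPar p n k j)) hpos hh hv0
    have e3 := US_coeff_one (p := p) (n := n) (h := h) (v := fun j => φ (uPar p n k j)) hpos hh
    have e4 := US_constantCoeff (p := p) (n := n) (h := h) (v := fun j => φ (uPar p n k j)) hpos
    have hp1 : 1 ≤ p ^ h := Nat.one_le_pow _ _ (Fact.out : p.Prime).pos
    rw [map_sub, e1, e2]
    have hX : ∀ j < p ^ h, PowerSeries.coeff j
        ((PowerSeries.X : PowerSeries (MvPowerSeries (Fin (n - h)) k)) ^ (p ^ h)) = 0 := by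
      intro j hj
      rw [PowerSeries.coeff_X_pow, if_neg (by omega)]
    rcases hi.lt_or_eq with hlt | rfl
    · rw [if_neg (by omega), map_zero, sub_zero]
      have hs : PowerSeries.HasSubst
          ((PowerSeries.X : PowerSeries (MvPowerSeries (Fin (n - h)) k)) ^ (p ^ h)) :=
        PowerSeries.HasSubst.X_pow (by omega)
      obtain ⟨q, hq⟩ : (PowerSeries.X : PowerSeries (MvPowerSeries (Fin (n - h)) k)) ^ 1 ∣
          US p n h (fun j => φ (uPar p n k j)) := by
        rw [PowerSeries.X_pow_dvd_iff]
        intro m hm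
        obtain rfl : m = 0 := by omega
        rw [PowerSeries.coeff_zero_eq_constantCoeff_apply, e4]
      rw [hq, PowerSeries.subst_mul hs, PowerSeries.subst_pow hs, PowerSeries.subst_X hs, pow_one]
      have hd : (PowerSeries.X : PowerSeries (MvPowerSeries (Fin (n - h)) k)) ^ (p ^ h) ∣
          (PowerSeries.X : PowerSeries (MvPowerSeries (Fin (n - h)) k)) ^ (p ^ h) *
          q.subst ((PowerSeries.X : PowerSeries (MvPowerSeries (Fin (n - h)) k)) ^ (p ^ h)) :=
        dvd_mul_right _ _
      exact PowerSeries.X_pow_dvd_iff.1 hd i hlt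
    · rw [if_pos rfl, ihi_low _ _ _ hp1 hX e4, e3, PowerSeries.coeff_X_pow, if_pos rfl, mul_one]
      have : uSeq p n k h = uPar p n k h := by
        unfold uSeq
        rw [if_neg (by omega)]
      rw [this, sub_self]

/-- IHI: the height ideals are invariant. (Induction on `h`: modulo `I_h` one has
`[p]_u = u_h X^(p^h) + …`, `[p]_{θu} = θ(u_h) X^(p^h) + …`, and `g [p]_u = [p]_{θu} g`.) -/
theorem Iht_invariant (hn : 1 ≤ n) (θ : E0 p n k ≃+* E0 p n k) (g : PowerSeries (E0 p n k))
    (hg : IsHomS p n (uPar p n k) (fun j => θ (uPar p n k j)) g)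
    (hu : IsUnit (PowerSeries.coeff 1 g)) (h : ℕ) (hh : h ≤ n) :
    (Iht p n k h).map (θ : E0 p n k →+* E0 p n k) = Iht p n k h := by
  induction h with
  | zero => rw [Iht_zero, Ideal.map_bot]
  | succ h ih =>
    have ih' := ih (by omega)
    have hhn : h ≤ n := by omega
    have hp1 : 1 ≤ p ^ h := Nat.one_le_pow _ _ (Fact.out : p.Prime).pos
    set π := Ideal.Quotient.mk (Iht p n k h) with hπ
    -- the leading terms
    have ha : ∀ i ≤ p ^ h, π (PowerSeries.coeff i (mulS p n (uPar p n k) p)) =
        if i = p ^ h then π (uSeq p n k h) else 0 := by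
      intro i hi
      have h1 := mulS_mod_Iht (k := k) hn h hhn i hi
      rw [← Ideal.Quotient.eq_zero_iff_mem, map_sub, sub_eq_zero] at h1
      rw [hπ, h1]
      split_ifs
      · rfl
      · exact map_zero _
    have hθI : ∀ x ∈ Iht p n k h, θ x ∈ Iht p n k h := by
      intro x hx
      rw [← ih']
      exact Ideal.mem_map_of_mem (θ : E0 p n k →+* E0 p n k) hx
    have hb : ∀ i ≤ p ^ h, π (PowerSeries.coeff i
        (mulS p n (fun j => θ (uPar p n k j)) p)) =
        if i = p ^ h then π (θ (uSeq p n k h)) else 0 := by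
      intro i hi
      have h1 := hθI _ (mulS_mod_Iht (k := k) hn h hhn i hi)
      have e1 : θ (PowerSeries.coeff i (mulS p n (uPar p n k) p)) =
          PowerSeries.coeff i (mulS p n (fun j => θ (uPar p n k j)) p) := by
        have h2 := US1.mulS_map (p := p) (n := n) (θ : E0 p n k →+* E0 p n k) (uPar p n k) p
        have h3 := congrArg (PowerSeries.coeff i) h2
        refine Eq.trans ?_ h3
        exact (PowerSeries.coeff_map (θ : E0 p n k →+* E0 p n k) i
          (mulS p n (uPar p n k) p)).symm
      rw [map_sub, e1, ← Ideal.Quotient.eq_zero_iff_mem, map_sub, sub_eq_zero] at h1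
      rw [hπ, h1]
      split_ifs
      · rfl
      · rw [map_zero, map_zero]
    -- the relation
    have hcomp := hg.comp_mulS p
    have hcc : PowerSeries.constantCoeff (mulS p n (uPar p n k) p) = 0 :=
      US1.mulS_cc (p := p) (n := n) (uPar p n k) p
    have hmap : (g.map π).subst ((mulS p n (uPar p n k) p).map π) =
        ((mulS p n (fun j => θ (uPar p n k j)) p).map π).subst (g.map π) := by
      have h1 := congrArg (PowerSeries.map π) hcomp
      have h2 := PowerSeries.map_subst (h := π)
        (PowerSeries.HasSubst.of_constantCoeff_zero' hcc) g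
      have h3 := PowerSeries.map_subst (h := π)
        (PowerSeries.HasSubst.of_constantCoeff_zero' hg.1)
        (mulS p n (fun j => θ (uPar p n k j)) p)
      exact h2.symm.trans (h1.trans h3)
    have hg0 : PowerSeries.constantCoeff (g.map π) = 0 := by
      rw [← PowerSeries.coeff_zero_eq_constantCoeff_apply, PowerSeries.coeff_map,
        PowerSeries.coeff_zero_eq_constantCoeff_apply, hg.1, map_zero]
    have hl := ihi_low (g.map π) ((mulS p n (uPar p n k) p).map π) (p ^ h) hp1
      (fun i hi => by
        rw [PowerSeries.coeff_map, ha i hi.le, if_neg (by omega)]) hg0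
    have hr := ihi_high ((mulS p n (fun j => θ (uPar p n k j)) p).map π) (g.map π) (p ^ h)
      (fun i hi => by
        rw [PowerSeries.coeff_map, hb i hi.le, if_neg (by omega)]) hg0
    rw [PowerSeries.coeff_map, PowerSeries.coeff_map, ha _ le_rfl, if_pos rfl] at hl
    rw [PowerSeries.coeff_map, PowerSeries.coeff_map, hb _ le_rfl, if_pos rfl] at hr
    rw [hmap, hr] at hl
    -- hl : π (θ u_h) * π g₁ ^ p ^ h = π g₁ * π u_h
    obtain ⟨c, hc⟩ := hu
    have key1 : uSeq p n k h ∈ Iht p n k h ⊔ Ideal.span {θ (uSeq p n k h)} := by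
      have h1 : uSeq p n k h - ((c⁻¹ : (E0 p n k)ˣ) : E0 p n k) * PowerSeries.coeff 1 g ^ p ^ h *
          θ (uSeq p n k h) ∈ Iht p n k h := by
        rw [← Ideal.Quotient.eq_zero_iff_mem, map_sub, sub_eq_zero, map_mul, map_mul, map_pow]
        have h2 : π ((c⁻¹ : (E0 p n k)ˣ) : E0 p n k) * π (PowerSeries.coeff 1 g) = 1 := by
          rw [← map_mul, ← hc, Units.inv_mul, map_one]
        calc π (uSeq p n k h) = (π ((c⁻¹ : (E0 p n k)ˣ) : E0 p n k) *
              π (PowerSeries.coeff 1 g)) * π (uSeq p n k h) := by rw [h2, one_mul]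
          _ = π ((c⁻¹ : (E0 p n k)ˣ) : E0 p n k) *
              (π (PowerSeries.coeff 1 g) * π (uSeq p n k h)) := by ring
          _ = π ((c⁻¹ : (E0 p n k)ˣ) : E0 p n k) *
              (π (θ (uSeq p n k h)) * π (PowerSeries.coeff 1 g) ^ p ^ h) := by rw [hl]
          _ = _ := by ring
      have h3 := Ideal.add_mem _ (Ideal.mem_sup_left h1) (Ideal.mem_sup_right
        (Ideal.mul_mem_left (Ideal.span {θ (uSeq p n k h)}) (((c⁻¹ : (E0 p n k)ˣ) : E0 p n k) *
        PowerSeries.coeff 1 g ^ p ^ h)
        (Ideal.mem_span_singleton_self (θ (uSeq p n k h)))))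
      rwa [sub_add_cancel] at h3
    have key2 : θ (uSeq p n k h) ∈ Iht p n k h ⊔ Ideal.span {uSeq p n k h} := by
      have h1 : θ (uSeq p n k h) - ((c⁻¹ : (E0 p n k)ˣ) : E0 p n k) ^ p ^ h *
          PowerSeries.coeff 1 g * uSeq p n k h ∈ Iht p n k h := by
        rw [← Ideal.Quotient.eq_zero_iff_mem, map_sub, sub_eq_zero, map_mul, map_mul, map_pow]
        have h2 : π ((c⁻¹ : (E0 p n k)ˣ) : E0 p n k) * π (PowerSeries.coeff 1 g) = 1 := by
          rw [← map_mul, ← hc, Units.inv_mul, map_one]
        calc π (θ (uSeq p n k h)) = (π ((c⁻¹ : (E0 p n k)ˣ) : E0 p n k) *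
              π (PowerSeries.coeff 1 g)) ^ p ^ h * π (θ (uSeq p n k h)) := by
              rw [h2, one_pow, one_mul]
          _ = π ((c⁻¹ : (E0 p n k)ˣ) : E0 p n k) ^ p ^ h *
              (π (θ (uSeq p n k h)) * π (PowerSeries.coeff 1 g) ^ p ^ h) := by
              rw [mul_pow]; ring
          _ = π ((c⁻¹ : (E0 p n k)ˣ) : E0 p n k) ^ p ^ h *
              (π (PowerSeries.coeff 1 g) * π (uSeq p n k h)) := by rw [hl]
          _ = _ := by ring
      have h3 := Ideal.add_mem _ (Ideal.mem_sup_left h1) (Ideal.mem_sup_right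
        (Ideal.mul_mem_left (Ideal.span {uSeq p n k h}) (((c⁻¹ : (E0 p n k)ˣ) : E0 p n k) ^ p ^ h *
        PowerSeries.coeff 1 g)
        (Ideal.mem_span_singleton_self (uSeq p n k h))))
      rwa [sub_add_cancel] at h3
    rw [Iht_succ, Ideal.map_sup, ih', Ideal.map_span, Set.image_singleton]
    apply le_antisymm
    · refine sup_le le_sup_left ?_
      rw [Ideal.span_le, Set.singleton_subset_iff]
      exact key2
    · refine sup_le le_sup_left ?_
      rw [Ideal.span_le, Set.singleton_subset_iff]
      exact key1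

end Vale.Agent.P217
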