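import Vale.Agent.P217.LTUniq
import Vale.Agent.P217.E0Hom
import Vale.Agent.P217.E0Ideals

/-!
# P217, module LTV: uniqueness over `E_0` (helper95)
-/

namespace Vale.Agent.P217

open MvPowerSeries

/-- base change of the defect of a homomorphism -/
theorem ltv_defect {p n : ℕ} [Fact p.Prime] {R S : Type*} [CommRing R] [CommRing S] (φ : R →+* S)
    (v w : ℕ → R) (ψ : PowerSeries R) (h0 : PowerSeries.constantCoeff ψ = 0) :
    (ψ.subst (Fv p n v) - (Fv p n w).subst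
      ![ψ.subst (X 0 : MvPowerSeries (Fin 2) R), ψ.subst (X 1 : MvPowerSeries (Fin 2) R)]).map φ =
    (ψ.map φ).subst (Fv p n (fun j => φ (v j))) - (Fv p n (fun j => φ (w j))).subst
      ![(ψ.map φ).subst (X 0 : MvPowerSeries (Fin 2) S),
        (ψ.map φ).subst (X 1 : MvPowerSeries (Fin 2) S)] := by
  have hF : constantCoeff (Fv p n v) = 0 := Fv_constantCoeff p n v
  have hX : ∀ i : Fin 2, constantCoeff (X i : MvPowerSeries (Fin 2) R) = 0 := fun i =>
    constantCoeff_X i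
  have hXs : ∀ i : Fin 2, constantCoeff (ψ.subst (X i : MvPowerSeries (Fin 2) R)) = 0 := fun i =>
    PowerSeries.constantCoeff_subst_eq_zero (hX i) ψ h0
  rw [map_sub, US1.map_pair φ _ (hXs 0) (hXs 1), Fv_map,
    PowerSeries.map_subst (PowerSeries.HasSubst.of_constantCoeff_zero hF),
    PowerSeries.map_subst (PowerSeries.HasSubst.of_constantCoeff_zero (hX 0)),
    PowerSeries.map_subst (PowerSeries.HasSubst.of_constantCoeff_zero (hX 1)), Fv_map, map_X,
    map_X]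

variable {p n : ℕ} [Fact p.Prime] {k : Type*} [Field k] [CharP k p] [PerfectRing k p]

/-- LTV': uniqueness modulo `m^r`. -/
theorem ltv_pow (hn : 1 ≤ n) (r : ℕ) (v w : ℕ → E0 p n k)
    (hv : ∀ j, 1 ≤ j → j < n → v j ∈ mE p n k) (hvn : v n = 1)
    (hw : ∀ j, 1 ≤ j → j < n → w j ∈ mE p n k) (hwn : w n = 1)
    (ψ : PowerSeries (E0 p n k)) (hψ0 : PowerSeries.constantCoeff ψ = 0)
    (hψ : CI (mE p n k ^ r) (ψ.subst (Fv p n v) - (Fv p n w).subst
      ![ψ.subst (X 0 : MvPowerSeries (Fin 2) (E0 p n k)),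
        ψ.subst (X 1 : MvPowerSeries (Fin 2) (E0 p n k))]))
    (hψN : CI (mE p n k) (ψ - PowerSeries.X)) :
    (∀ j, 1 ≤ j → j ≤ n → v j - w j ∈ mE p n k ^ r) ∧ CI (mE p n k ^ r) (ψ - PowerSeries.X) := by
  set I : Ideal (E0 p n k) := mE p n k ^ r with hI
  set q : E0 p n k →+* E0 p n k ⧸ I := Ideal.Quotient.mk I with hq
  have hN : (Ideal.map q (mE p n k)) ^ r = ⊥ := by
    rw [← Ideal.map_pow, ← hI, hq, Ideal.map_quotient_self]
  have hp : ((p : ℕ) : E0 p n k ⧸ I) ∈ Ideal.map q (mE p n k) := by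
    have := Ideal.mem_map_of_mem q (p_mem_mE (p := p) (n := n) (k := k))
    rwa [map_natCast] at this
  have hhom : IsHomS p n (fun j => q (v j)) (fun j => q (w j)) (ψ.map q) := by
    refine ⟨?_, ?_⟩
    · exact US1.cc_map q hψ0
    · have h1 := (CI_iff_map (I := I)).1 hψ
      rw [ltv_defect (Ideal.Quotient.mk I) v w ψ hψ0] at h1
      exact sub_eq_zero.1 h1
  have hNX : CI (Ideal.map q (mE p n k)) (ψ.map q - PowerSeries.X) := by
    intro d
    have h1 : coeff d (ψ.map q - PowerSeries.X) = q (coeff d (ψ - PowerSeries.X)) := by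
      have h2 : (ψ - PowerSeries.X).map q = ψ.map q - PowerSeries.X := by
        rw [map_sub]
        congr 1
        exact MvPowerSeries.map_X q ()
      rw [← h2]
      exact MvPowerSeries.coeff_map q d _
    rw [h1]
    exact Ideal.mem_map_of_mem q (hψN d)
  have h := lt_unique hn (Ideal.map q (mE p n k)) hp r hN (v := fun j => q (v j))
    (w := fun j => q (w j)) (fun j h1 h2 => Ideal.mem_map_of_mem q (hv j h1 h2))
    (by rw [hvn, map_one]) (fun j h1 h2 => Ideal.mem_map_of_mem q (hw j h1 h2))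
    (by rw [hwn, map_one]) (ψ.map q) hhom hNX
  refine ⟨fun j h1 h2 => ?_, ?_⟩
  · exact (Ideal.Quotient.eq).1 (h.1 j h1 h2)
  · refine (CI_iff_map (I := I)).2 ?_
    rw [map_sub]
    refine sub_eq_zero.2 ?_
    refine h.2.trans ?_
    exact (MvPowerSeries.map_X q ()).symm

/-- LTV: uniqueness over `E_0` (from `lt_unique` over `E_0/m^r` and `E0_hausdorff`). -/
theorem lt_unique_E0 (hn : 1 ≤ n) (v w : ℕ → E0 p n k)
    (hv : ∀ j, 1 ≤ j → j < n → v j ∈ mE p n k) (hvn : v n = 1)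
    (hw : ∀ j, 1 ≤ j → j < n → w j ∈ mE p n k) (hwn : w n = 1)
    (ψ : PowerSeries (E0 p n k)) (hψ : IsHomS p n v w ψ)
    (hψN : ψ.map (resE p n k) = PowerSeries.X) :
    (∀ j, 1 ≤ j → j ≤ n → v j = w j) ∧ ψ = PowerSeries.X := by
  have hN : CI (mE p n k) (ψ - PowerSeries.X) := by
    intro d
    have h1 : (ψ - PowerSeries.X).map (resE p n k) = 0 := by
      rw [map_sub, hψN]
      refine sub_eq_zero.2 ?_
      exact (MvPowerSeries.map_X (resE p n k) ()).symm
    have h2 := congrArg (coeff d) h1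
    show resE p n k (coeff d (ψ - PowerSeries.X)) = 0
    rw [← MvPowerSeries.coeff_map]
    exact h2
  have key : ∀ r, (∀ j, 1 ≤ j → j ≤ n → v j - w j ∈ mE p n k ^ r) ∧
      CI (mE p n k ^ r) (ψ - PowerSeries.X) := by
    intro r
    refine ltv_pow hn r v w hv hvn hw hwn ψ hψ.1 ?_ hN
    intro d
    rw [hψ.2, sub_self]
    exact Ideal.zero_mem _
  refine ⟨fun j h1 h2 => ?_, ?_⟩
  · exact sub_eq_zero.1 (E0_hausdorff _ fun r => (key r).1 j h1 h2)
  · refine sub_eq_zero.1 (MvPowerSeries.ext fun d => ?_)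
    exact (E0_hausdorff _ fun r => (key r).2 d).trans (map_zero _).symm

/-- LTV': uniqueness modulo `m^r`. -/
theorem lt_unique_pow (hn : 1 ≤ n) (r : ℕ) (v w : ℕ → E0 p n k)
    (hv : ∀ j, 1 ≤ j → j < n → v j ∈ mE p n k) (hvn : v n = 1)
    (hw : ∀ j, 1 ≤ j → j < n → w j ∈ mE p n k) (hwn : w n = 1)
    (ψ : PowerSeries (E0 p n k)) (hψ0 : PowerSeries.constantCoeff ψ = 0)
    (hψ : CI (mE p n k ^ r) (ψ.subst (Fv p n v) - (Fv p n w).subst
      ![ψ.subst (X 0 : MvPowerSeries (Fin 2) (E0 p n k)),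
        ψ.subst (X 1 : MvPowerSeries (Fin 2) (E0 p n k))]))
    (hψN : CI (mE p n k) (ψ - PowerSeries.X)) :
    (∀ j, 1 ≤ j → j ≤ n → v j - w j ∈ mE p n k ^ r) ∧ CI (mE p n k ^ r) (ψ - PowerSeries.X) :=
  ltv_pow hn r v w hv hvn hw hwn ψ hψ0 hψ hψN

end Vale.Agent.P217
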