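import Vale.Agent.P217.LTExist
import Vale.Agent.P217.LTUniqE

/-!
# P217, module LTA: the Lubin-Tate automorphisms (helper95; proofs helper56)
-/

namespace Vale.Agent.P217

open MvPowerSeries

variable {p n : ℕ} [Fact p.Prime] {k : Type*} [Field k] [CharP k p] [PerfectRing k p]

section aux

variable {R S : Type*} [CommRing R] [CommRing S] {v v' w w' : ℕ → R}

theorem lta_congr (hv : ∀ j, 1 ≤ j → j ≤ n → v j = v' j) (hw : ∀ j, 1 ≤ j → j ≤ n → w j = w' j)
    {g : PowerSeries R} (hg : IsHomS p n v w g) : IsHomS p n v' w' g := by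
  unfold IsHomS at *
  rw [← Fv_congr p n v v' hv, ← Fv_congr p n w w' hw]
  exact hg

theorem lta_map_subst (φ : R →+* S) (g h : PowerSeries R) (hg : PowerSeries.constantCoeff g = 0) :
    (h.subst g).map φ = (h.map φ).subst (g.map φ) :=
  PowerSeries.map_subst (PowerSeries.HasSubst.of_constantCoeff_zero' hg) h

end aux

theorem lta_uPar_eq (hn : 1 ≤ n) {φ : E0 p n k →+* E0 p n k} {w : ℕ → E0 p n k}
    (hφ : ∀ i : Fin (n - 1), φ (X i) = w ((i : ℕ) + 1)) (hwn : w n = 1) (j : ℕ) (h1 : 1 ≤ j)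
    (h2 : j ≤ n) : φ (uPar p n k j) = w j := by
  rcases Nat.lt_or_ge j n with h | h
  · have h3 : uPar p n k j = X (⟨j - 1, by omega⟩ : Fin (n - 1)) := by
      unfold uPar par
      rw [dif_pos ⟨h1, by omega⟩]
    rw [h3, hφ]
    simp only
    rw [Nat.sub_add_cancel h1]
  · have h3 : j = n := le_antisymm h2 h
    subst h3
    rw [uPar_top hn, map_one, hwn]

theorem lta_X_eq (i : Fin (n - 1)) : (X i : E0 p n k) = uPar p n k ((i : ℕ) + 1) := by
  unfold uPar par
  rw [dif_pos ⟨by omega, by have := i.2; omega⟩]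
  simp

/-- An endomorphism over `W(k)` which fixes the parameters is the identity. -/
theorem lta_eq_id {φ : E0 p n k →+* E0 p n k} (hC : ∀ w : WittVector p k, φ (C w) = C w)
    (hm : ∀ f ∈ mE p n k, φ f ∈ mE p n k)
    (hX : ∀ j, 1 ≤ j → j ≤ n → uPar p n k j = φ (uPar p n k j)) : φ = RingHom.id _ := by
  refine E0_hom_ext (mE p n k) (fun x hx => E0_hausdorff x hx) φ (RingHom.id _) hm
    (fun f hf => hf) hC fun i => ?_
  rw [lta_X_eq, RingHom.id_apply]
  exact (hX _ (by omega) (by have := i.2; omega)).symm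

/-- The data attached to `γ` : the endomorphism of `E_0` and the homomorphism. -/
theorem lta_endo (hn : 1 ≤ n) (γ : PowerSeries k)
    (hγ : IsHomS p n (Gam n) (Gam n) γ) (h1 : PowerSeries.coeff 1 γ ≠ 0) :
    ∃ (θ : E0 p n k →+* E0 p n k) (g : PowerSeries (E0 p n k)),
      (∀ w : WittVector p k, θ (C w) = C w) ∧ (∀ f, resE p n k (θ f) = resE p n k f) ∧
      IsHomS p n (uPar p n k) (fun j => θ (uPar p n k j)) g ∧ g.map (resE p n k) = γ := by
  obtain ⟨w, g, hw, hwn, hg, hgγ⟩ := lt_exists hn γ hγ h1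
  obtain ⟨θ, hθC, hθX, hθr⟩ := E0_eval (p := p) (n := n) (k := k)
    (fun i => w ((i : ℕ) + 1)) (fun i => hw _ (by omega) (by have := i.2; omega))
  refine ⟨θ, g, hθC, hθr, ?_, hgγ⟩
  exact lta_congr (fun _ _ _ => rfl) (fun j h2 h3 => (lta_uPar_eq hn hθX hwn j h2 h3).symm) hg

/-- The composition of the data attached to `γ` and an inverse `γ'`. -/
theorem lta_comp (hn : 1 ≤ n) {γ γ' : PowerSeries k}
    (hγγ : γ'.subst γ = PowerSeries.X)
    {θ θ' : E0 p n k →+* E0 p n k} {g g' : PowerSeries (E0 p n k)}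
    (hC : ∀ w : WittVector p k, θ (C w) = C w) (hr : ∀ f, resE p n k (θ f) = resE p n k f)
    (hg : IsHomS p n (uPar p n k) (fun j => θ (uPar p n k j)) g) (hgγ : g.map (resE p n k) = γ)
    (hC' : ∀ w : WittVector p k, θ' (C w) = C w) (hr' : ∀ f, resE p n k (θ' f) = resE p n k f)
    (hg' : IsHomS p n (uPar p n k) (fun j => θ' (uPar p n k j)) g')
    (hgγ' : g'.map (resE p n k) = γ') : θ.comp θ' = RingHom.id _ := by
  have h1 : IsHomS p n (fun j => θ (uPar p n k j)) (fun j => θ (θ' (uPar p n k j)))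
      (g'.map θ) := hg'.map θ
  have h2 := hg.comp h1
  have hmθ : ∀ f ∈ mE p n k, θ f ∈ mE p n k := fun f hf => by
    change resE p n k (θ f) = 0
    rw [hr]
    exact hf
  have hmθ' : ∀ f ∈ mE p n k, θ' f ∈ mE p n k := fun f hf => by
    change resE p n k (θ' f) = 0
    rw [hr']
    exact hf
  have h3 : ((g'.map θ).subst g).map (resE p n k) = PowerSeries.X := by
    rw [lta_map_subst _ _ _ hg.1, hgγ]
    have : (g'.map θ).map (resE p n k) = γ' := by
      ext i
      rw [PowerSeries.coeff_map, PowerSeries.coeff_map, hr, ← PowerSeries.coeff_map, hgγ']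
    rw [this, hγγ]
  have h4 := lt_unique_E0 hn (uPar p n k) (fun j => θ (θ' (uPar p n k j)))
    (fun j h1 h2 => uPar_mem_mE j h1 h2) (uPar_top hn)
    (fun j h1 h2 => hmθ _ (hmθ' _ (uPar_mem_mE j h1 h2)))
    (by simp only [uPar_top hn, map_one]) _ h2 h3
  refine lta_eq_id (fun w => ?_) (fun f hf => hmθ _ (hmθ' _ hf)) h4.1
  rw [RingHom.comp_apply, hC', hC]

/-- LTA: the Lubin-Tate automorphism attached to `γ`. -/
theorem lubinTate_exists (hn : 1 ≤ n) (γ : PowerSeries k)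
    (hγ : IsHomS p n (Gam n) (Gam n) γ) (h1 : PowerSeries.coeff 1 γ ≠ 0) :
    ∃ (θ : E0 p n k ≃+* E0 p n k) (g : PowerSeries (E0 p n k)),
      (∀ w : WittVector p k, θ (C w) = C w) ∧
      IsHomS p n (uPar p n k) (fun j => θ (uPar p n k j)) g ∧ g.map (resE p n k) = γ := by
  obtain ⟨γ', hγ', hu', hγγ, hγγ'⟩ := hγ.exists_inv (isUnit_iff_ne_zero.2 h1)
  obtain ⟨θ, g, hC, hr, hg, hgγ⟩ := lta_endo hn γ hγ h1
  obtain ⟨θ', g', hC', hr', hg', hgγ'⟩ := lta_endo hn γ' hγ' hu'.ne_zero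
  have h2 := lta_comp hn hγγ hC hr hg hgγ hC' hr' hg' hgγ'
  have h3 := lta_comp hn hγγ' hC' hr' hg' hgγ' hC hr hg hgγ
  exact ⟨RingEquiv.ofRingHom θ θ' h2 h3, g, hC, hg, hgγ⟩

theorem lta_equiv_mem (θ : E0 p n k ≃+* E0 p n k) (f : E0 p n k) (hf : f ∈ mE p n k) :
    θ f ∈ mE p n k := by
  by_contra h
  have h1 : IsUnit (θ f) := (isUnit_iff_resE _).2 h
  have h2 : IsUnit f := by
    have := h1.map θ.symm
    rwa [RingEquiv.symm_apply_apply] at this
  exact (isUnit_iff_resE f).1 h2 hf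

/-- LTA: uniqueness of the automorphism. -/
theorem lubinTate_unique (hn : 1 ≤ n) (θ θ' : E0 p n k ≃+* E0 p n k)
    (g g' : PowerSeries (E0 p n k)) (hθ : ∀ w : WittVector p k, θ (C w) = C w)
    (hθ' : ∀ w : WittVector p k, θ' (C w) = C w)
    (hg : IsHomS p n (uPar p n k) (fun j => θ (uPar p n k j)) g)
    (hg' : IsHomS p n (uPar p n k) (fun j => θ' (uPar p n k j)) g')
    (hu : IsUnit (PowerSeries.coeff 1 g))
    (hres : g.map (resE p n k) = g'.map (resE p n k)) : θ = θ' ∧ g = g' := by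
  obtain ⟨h, hh, -, hhg, hgh⟩ := hg.exists_inv hu
  have h1 := hh.comp hg'
  have h2 : (g'.subst h).map (resE p n k) = PowerSeries.X := by
    rw [lta_map_subst _ _ _ hh.1, ← hres, ← lta_map_subst _ _ _ hh.1, hgh]
    exact PowerSeries.map_X _
  obtain ⟨h3, h4⟩ := lt_unique_E0 hn (fun j => θ (uPar p n k j)) (fun j => θ' (uPar p n k j))
    (fun j h1 h2 => lta_equiv_mem θ _ (uPar_mem_mE j h1 h2))
    (by simp only [uPar_top hn, map_one])
    (fun j h1 h2 => lta_equiv_mem θ' _ (uPar_mem_mE j h1 h2))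
    (by simp only [uPar_top hn, map_one]) _ h1 h2
  refine ⟨?_, ?_⟩
  · have h5 : (θ : E0 p n k →+* E0 p n k) = (θ' : E0 p n k →+* E0 p n k) := by
      refine E0_hom_ext (mE p n k) (fun x hx => E0_hausdorff x hx) _ _
        (fun f hf => lta_equiv_mem θ f hf) (fun f hf => lta_equiv_mem θ' f hf)
        (fun w => (hθ w).trans (hθ' w).symm) fun i => ?_
      rw [lta_X_eq]
      exact h3 _ (by omega) (by have := i.2; omega)
    exact RingEquiv.ext fun x => RingHom.congr_fun h5 x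
  · have hgs : PowerSeries.HasSubst g := PowerSeries.HasSubst.of_constantCoeff_zero' hg.1
    have hhs : PowerSeries.HasSubst h := PowerSeries.HasSubst.of_constantCoeff_zero' hh.1
    have h5 : PowerSeries.subst g (PowerSeries.subst h g' : PowerSeries (E0 p n k)) =
        PowerSeries.subst (PowerSeries.subst g h : PowerSeries (E0 p n k)) g' :=
      PowerSeries.subst_comp_subst_apply hhs hgs g'
    rw [h4, hhg, PowerSeries.subst_X hgs] at h5
    rw [h5]
    exact (spt_subst_self g')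

end Vale.Agent.P217
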