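import Vale.Agent.P217.ChaiDefs
import Vale.Agent.P217.LTAut
import Vale.Agent.P217.IhtInv

/-!
# P217: the bridge between `Fv` and Mathlib's formal group laws (helper95)
-/

namespace Vale.Agent.P217

open MvPowerSeries

section general

variable {p n : ℕ} [Fact p.Prime] {R S : Type*} [CommRing R] [CommRing S]

/-- `F_v` as a formal group law. -/
noncomputable def FvG (p n : ℕ) [Fact p.Prime] (v : ℕ → R) : FormalGroup R where
  toPowerSeries := Fv p n v
  zero_constantCoeff := Fv_constantCoeff p n v
  lin_coeff_X := by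
    classical
    rw [Fv_eq_form, map_add, map_add, mul_assoc, coeff_X, if_pos rfl, coeff_X,
      if_neg (by
        intro h
        have := congrArg (fun e => e 0) h
        simp at this), add_zero]
    rw [add_eq_left]
    have h1 : ∀ G : MvPowerSeries (Fin 2) R, coeff (Finsupp.single 0 1) (X 0 * (X 1 * G)) = 0 := by
      intro G
      have h2 := coeff_add_monomial_mul (Finsupp.single 0 1) 0 (X 1 * G) (1 : R)
      rw [add_zero, one_mul] at h2
      show coeff (Finsupp.single 0 1) (monomial (Finsupp.single 0 1) 1 * (X 1 * G)) = 0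
      rw [h2, coeff_zero_eq_constantCoeff_apply, map_mul, constantCoeff_X, zero_mul]
    exact h1 _
  lin_coeff_Y := by
    classical
    rw [Fv_eq_form, map_add, map_add, coeff_X, if_neg (by
        intro h
        have := congrArg (fun e => e 0) h
        simp at this), coeff_X, if_pos rfl, zero_add]
    rw [add_eq_left]
    have h1 : ∀ G : MvPowerSeries (Fin 2) R, coeff (Finsupp.single 1 1) (X 0 * X 1 * G) = 0 := by
      intro G
      have h2 := coeff_add_monomial_mul (Finsupp.single 1 1) 0 (X 0 * G) (1 : R)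
      rw [add_zero, one_mul] at h2
      have h3 : (X 0 * X 1 * G : MvPowerSeries (Fin 2) R) =
          monomial (Finsupp.single 1 1) 1 * (X 0 * G) := by
        rw [show (monomial (Finsupp.single 1 1) 1 : MvPowerSeries (Fin 2) R) = X 1 from rfl]
        ring
      rw [h3, h2, coeff_zero_eq_constantCoeff_apply, map_mul, constantCoeff_X, zero_mul]
    exact h1 _
  assoc := Fv_assoc p n v

theorem FvG_map (v : ℕ → R) (φ : R →+* S) :
    (FvG p n v).map φ = FvG p n (fun j => φ (v j)) :=
  FormalGroup.ext (Fv_map p n v φ)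

theorem FvG_congr {v w : ℕ → R} (h : ∀ j, 1 ≤ j → j ≤ n → v j = w j) :
    FvG p n v = FvG p n w := FormalGroup.ext (Fv_congr p n v w h)

theorem isFGIso_FvG_iff {v w : ℕ → R} {f : PowerSeries R} :
    IsFGIso (FvG p n v) (FvG p n w) f ↔
      IsHomS p n v w f ∧ IsUnit (PowerSeries.coeff 1 f) := by
  unfold IsFGIso IsHomS
  constructor
  · rintro ⟨h1, h2, h3⟩
    exact ⟨⟨h1, h3⟩, h2⟩
  · rintro ⟨⟨h1, h3⟩, h2⟩
    exact ⟨h1, h2, h3⟩

end general

end Vale.Agent.P217
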