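import Vale.Agent.P217.ChaiFGL
import Vale.Agent.P217.AsmMain

/-!
# P217: proof of the final theorem (helper95)
-/

namespace Vale.Agent.P217

open MvPowerSeries

section

variable (p n : ℕ) [Fact p.Prime]

local instance chp_charZeroW : CharZero (WittVector p (GaloisField p n)) := ki6_charZero p

local instance chp_charZeroE : CharZero (LTRing p n) :=
  charZero_of_injective_ringHom (MvPowerSeries.C_injective (σ := Fin (n - 1))
    (R := WittVector p (GaloisField p n)))

local instance chp_charZeroK : CharZero (FractionRing (LTRing p n)) :=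
  charZero_of_injective_ringHom (IsFractionRing.injective (LTRing p n)
    (FractionRing (LTRing p n)))

theorem ltPar_eq (hn : 1 ≤ n) (j : ℕ) (h1 : 1 ≤ j) :
    ltPar p n j = if j ≤ n then uPar p n (GaloisField p n) j else 0 := by
  unfold ltPar uPar par
  by_cases h : j < n
  · rw [dif_pos ⟨h1, h⟩, if_pos h.le, dif_pos ⟨h1, by omega⟩]
  · rw [dif_neg (by omega)]
    by_cases h2 : j = n
    · rw [if_pos h2, if_pos h2.le, dif_neg (by omega), if_pos (by omega)]
    · rw [if_neg h2, if_neg (by omega)]

theorem heightIdeal_eq (hn : 1 ≤ n) (h : ℕ) (hh : h ≤ n) :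
    heightIdeal p n h = Iht p n (GaloisField p n) h := by
  unfold heightIdeal Iht
  congr 1
  ext x
  simp only [Set.mem_ofPred_eq, Set.mem_image]
  constructor
  · rintro (⟨h1, rfl⟩ | ⟨i, hi, rfl⟩)
    · refine ⟨0, by omega, ?_⟩
      unfold uSeq
      rw [if_pos rfl]
    · refine ⟨(i : ℕ) + 1, hi, ?_⟩
      unfold uSeq
      rw [if_neg (by omega), ← lta_X_eq]
  · rintro ⟨j, hj, rfl⟩
    unfold uSeq
    by_cases h0 : j = 0
    · left
      rw [if_pos h0]
      exact ⟨by omega, rfl⟩
    · right
      refine ⟨⟨j - 1, by omega⟩, ?_, ?_⟩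
      · show j - 1 + 1 < h
        omega
      · rw [if_neg h0, lta_X_eq]
        congr 1
        show j = j - 1 + 1
        omega

/-- The universal deformation. -/
noncomputable def univF : FormalGroup (LTRing p n) := FvG p n (uPar p n (GaloisField p n))

theorem univF_spec (hn : 1 ≤ n) : IsUniversalDeformation (univF p n) := by
  let K := FractionRing (LTRing p n)
  let α : LTRing p n →+* K := algebraMap (LTRing p n) K
  refine ⟨logOf p n (fun j => α (uPar p n (GaloisField p n) j)),
    ⟨logOf_coeff_one p n _, ?_, ?_⟩, ?_⟩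
  · intro k
    rw [logOf_coeff_pow, ellOf_succ]
    refine Finset.sum_congr rfl fun i hi => ?_
    rw [Finset.mem_range] at hi
    rw [logOf_coeff_pow]
    beta_reduce
    rw [ltPar_eq p n hn _ (by omega)]
    split_ifs with h
    · rfl
    · rw [map_zero, zero_pow (pow_ne_zero _ (Fact.out : p.Prime).ne_zero), mul_zero]
  · intro d hd
    exact logOf_coeff_of_ne p n _ d hd
  · have h1 := logOf_Fv p n (fun j => α (uPar p n (GaloisField p n) j))
    rw [← Fv_map] at h1
    exact h1

theorem univF_unique (hn : 1 ≤ n) (F : FormalGroup (LTRing p n))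
    (hF : IsUniversalDeformation F) : F = univF p n := by
  obtain ⟨L, ⟨h1, h2, h3⟩, h4⟩ := hF
  have h4 : L.subst (F.toPowerSeries.map (algebraMap (LTRing p n) (FractionRing (LTRing p n)))) =
      L.subst (X 0 : MvPowerSeries (Fin 2) (FractionRing (LTRing p n))) +
      L.subst (X 1 : MvPowerSeries (Fin 2) (FractionRing (LTRing p n))) := h4
  let K := FractionRing (LTRing p n)
  let α : LTRing p n →+* K := algebraMap (LTRing p n) K
  let v : ℕ → K := fun j => α (uPar p n (GaloisField p n) j)
  have hc : ∀ k, PowerSeries.coeff (p ^ k) L = ellOf p n v k := by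
    intro k
    induction k using Nat.strong_induction_on with
    | _ k ih =>
    rcases Nat.eq_zero_or_pos k with h0 | h0
    · subst h0
      rw [pow_zero, h1, ellOf_zero]
    · obtain ⟨k, rfl⟩ : ∃ j, k = j + 1 := ⟨k - 1, by omega⟩
      have hp0 : (p : K) ≠ 0 := Nat.cast_ne_zero.2 (Fact.out : p.Prime).ne_zero
      apply mul_left_cancel₀ hp0
      rw [h2, ellOf_succ]
      refine Finset.sum_congr rfl fun i hi => ?_
      rw [Finset.mem_range] at hi
      rw [ih i (by omega)]
      beta_reduce
      rw [ltPar_eq p n hn _ (by omega)]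
      split_ifs with h
      · rfl
      · rw [map_zero, zero_pow (pow_ne_zero _ (Fact.out : p.Prime).ne_zero), mul_zero]
  have hL : L = logOf p n v := by
    ext d
    by_cases hd : ∃ k, d = p ^ k
    · obtain ⟨k, rfl⟩ := hd
      rw [hc, logOf_coeff_pow]
    · push Not at hd
      rw [h3 d hd, logOf_coeff_of_ne p n v d hd]
  have h5 := logOf_Fv p n v
  rw [← hL, ← h4, hL] at h5
  have h6 := logOf_inj p n v _ _ (Fv_constantCoeff p n v) (by
    rw [constantCoeff_map, F.zero_constantCoeff, map_zero]) h5
  apply FormalGroup.ext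
  have hinj : Function.Injective (MvPowerSeries.map (σ := Fin 2) α) := by
    intro x y hxy
    refine MvPowerSeries.ext fun e => ?_
    apply IsFractionRing.injective (LTRing p n) (FractionRing (LTRing p n))
    have := congrArg (coeff e) hxy
    rwa [coeff_map, coeff_map] at this
  apply hinj
  rw [← h6]
  exact (Fv_map p n _ α).symm

theorem chp_card (hn : 1 ≤ n) : Nat.card (GaloisField p n) = p ^ n :=
  GaloisField.card p n (by omega)

theorem chp_resE_uPar (hn : 1 ≤ n) (j : ℕ) (h1 : 1 ≤ j) (h2 : j ≤ n) :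
    resE p n (GaloisField p n) (uPar p n (GaloisField p n) j) = Gam n j :=
  lte_resE_uPar hn j h1 h2

theorem specialFibre_univF (hn : 1 ≤ n) :
    specialFibre (univF p n) = FvG p n (Gam n : ℕ → GaloisField p n) := by
  unfold specialFibre univF
  rw [FvG_map]
  exact FvG_congr fun j h1 h2 => chp_resE_uPar p n hn j h1 h2

theorem univF_map (φ : LTRing p n →+* LTRing p n) :
    (univF p n).map φ = FvG p n (fun j => φ (uPar p n (GaloisField p n) j)) :=
  FvG_map _ φ

/-- The coefficientwise action of the Galois group. -/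
noncomputable def coefAut (σ : GaloisField p n ≃+* GaloisField p n) :
    LTRing p n ≃+* LTRing p n :=
  RingEquiv.ofRingHom
    (MvPowerSeries.map (WittVector.map (σ : GaloisField p n →+* GaloisField p n)))
    (MvPowerSeries.map (WittVector.map (σ.symm : GaloisField p n →+* GaloisField p n)))
    (by
      ext f e m
      simp [coeff_map])
    (by
      ext f e m
      simp [coeff_map])

theorem coefAut_apply (σ : GaloisField p n ≃+* GaloisField p n) (f : LTRing p n) :
    coefAut p n σ f =
      MvPowerSeries.map (WittVector.map (σ : GaloisField p n →+* GaloisField p n)) f := rfl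

theorem coefAut_C (σ : GaloisField p n ≃+* GaloisField p n)
    (w : WittVector p (GaloisField p n)) : coefAut p n σ (C w) =
      C (WittVector.map (σ : GaloisField p n →+* GaloisField p n) w) := by
  rw [coefAut_apply, map_C]

theorem coefAut_uPar (σ : GaloisField p n ≃+* GaloisField p n) (j : ℕ) :
    coefAut p n σ (uPar p n (GaloisField p n) j) = uPar p n (GaloisField p n) j := by
  rw [coefAut_apply]
  unfold uPar par
  split_ifs
  · exact map_X _ _
  · exact map_one _
  · exact map_zero _

theorem witt_map_symm (σ : GaloisField p n ≃+* GaloisField p n)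
    (w : WittVector p (GaloisField p n)) :
    WittVector.map (σ : GaloisField p n →+* GaloisField p n)
      (WittVector.map (σ.symm : GaloisField p n →+* GaloisField p n) w) = w := by
  ext m
  simp

theorem coefAut_symm_C (σ : GaloisField p n ≃+* GaloisField p n)
    (w : WittVector p (GaloisField p n)) : (coefAut p n σ).symm (C w) =
      C (WittVector.map (σ.symm : GaloisField p n →+* GaloisField p n) w) := by
  rw [RingEquiv.symm_apply_eq, coefAut_C, witt_map_symm]

theorem coefAut_symm_uPar (σ : GaloisField p n ≃+* GaloisField p n) (j : ℕ) :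
    (coefAut p n σ).symm (uPar p n (GaloisField p n) j) = uPar p n (GaloisField p n) j := by
  rw [RingEquiv.symm_apply_eq, coefAut_uPar]

variable {p n}

/-- `ActsBy` for the universal deformation in terms of `IsHomS`. -/
theorem actsBy_univF_iff {γ : PowerSeries (GaloisField p n)}
    {σ : GaloisField p n ≃+* GaloisField p n} {φ : LTRing p n ≃+* LTRing p n} :
    ActsBy (univF p n) γ σ φ ↔
    (∀ w, φ (C w) = C (WittVector.map (σ : GaloisField p n →+* GaloisField p n) w)) ∧
    ∃ f : PowerSeries (LTRing p n),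
      IsHomS p n (uPar p n (GaloisField p n)) (fun j => φ (uPar p n (GaloisField p n) j)) f ∧
      IsUnit (PowerSeries.coeff 1 f) ∧ f.map (resE p n (GaloisField p n)) = γ := by
  unfold ActsBy LiftsToIso
  refine and_congr ⟨fun h w => RingHom.congr_fun h w, fun h => RingHom.ext h⟩
    (exists_congr fun f => ?_)
  rw [univF_map]
  unfold univF
  rw [isFGIso_FvG_iff, and_assoc]
  rfl

theorem chp_unit_of_map {g : PowerSeries (LTRing p n)} {γ : PowerSeries (GaloisField p n)}
    (hg : g.map (resE p n (GaloisField p n)) = γ) (h1 : PowerSeries.coeff 1 γ ≠ 0) :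
    IsUnit (PowerSeries.coeff 1 g) := by
  refine (isUnit_iff_resE _).2 ?_
  rw [← PowerSeries.coeff_map, hg]
  exact h1

theorem univF_exists (hn : 1 ≤ n) (γ : PowerSeries (GaloisField p n))
    (σ : GaloisField p n ≃+* GaloisField p n)
    (hγ : IsAutOfFibre (univF p n) γ) :
    ∃! φ : LTRing p n ≃+* LTRing p n, ActsBy (univF p n) γ σ φ := by
  unfold IsAutOfFibre at hγ
  rw [specialFibre_univF p n hn, isFGIso_FvG_iff] at hγ
  obtain ⟨θ, g, hC, hg, hgγ⟩ := lubinTate_exists hn γ hγ.1 hγ.2.ne_zero
  refine ⟨(coefAut p n σ).trans θ, ?_, ?_⟩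
  · show ActsBy _ _ _ _
    rw [actsBy_univF_iff]
    refine ⟨fun w => ?_, g, ?_, chp_unit_of_map hgγ hγ.2.ne_zero, hgγ⟩
    · rw [RingEquiv.trans_apply, coefAut_C, hC]
    · have h1 : (fun j => ((coefAut p n σ).trans θ) (uPar p n (GaloisField p n) j)) =
          fun j => θ (uPar p n (GaloisField p n) j) := by
        funext j
        rw [RingEquiv.trans_apply, coefAut_uPar]
      rw [h1]
      exact hg
  · intro φ hφ
    rw [actsBy_univF_iff] at hφ
    obtain ⟨hφC, f, hf, hfu, hfγ⟩ := hφ
    have h1 := lubinTate_unique hn ((coefAut p n σ).symm.trans φ) θ f g (fun w => by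
      rw [RingEquiv.trans_apply, coefAut_symm_C, hφC, witt_map_symm]) hC (by
      have h1 : (fun j => ((coefAut p n σ).symm.trans φ) (uPar p n (GaloisField p n) j)) =
          fun j => φ (uPar p n (GaloisField p n) j) := by
        funext j
        rw [RingEquiv.trans_apply, coefAut_symm_uPar]
      rw [h1]
      exact hf) hg hfu (hfγ.trans hgγ.symm)
    rw [← h1.1]
    ext x
    rw [RingEquiv.trans_apply, RingEquiv.trans_apply, RingEquiv.symm_apply_apply]

theorem chp_res_theta {θ : LTRing p n ≃+* LTRing p n}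
    (hθ : ∀ w : WittVector p (GaloisField p n), θ (C w) = C w) (hn : 1 ≤ n) (j : ℕ) (h1 : 1 ≤ j)
    (h2 : j ≤ n) :
    resE p n (GaloisField p n) (θ (uPar p n (GaloisField p n) j)) = Gam n j := by
  rw [← chp_resE_uPar p n hn j h1 h2]
  rcases Nat.lt_or_ge j n with h | h
  · have h3 : uPar p n (GaloisField p n) j ∈ mE p n (GaloisField p n) := uPar_mem_mE j h1 h
    have h4 : θ (uPar p n (GaloisField p n) j) ∈ mE p n (GaloisField p n) :=
      lta_equiv_mem θ _ h3
    exact Eq.trans h4 (Eq.symm h3)
  · have h3 : j = n := le_antisymm h2 h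
    subst h3
    rw [uPar_top hn, map_one]

theorem invA_iff (hn : 1 ≤ n) (J : Ideal (LTRing p n)) :
    IsInvariantA (univF p n) J ↔ InvE p n (GaloisField p n) J := by
  constructor
  · intro h θ g hθ hg hu
    refine h (g.map (resE p n (GaloisField p n))) θ ?_ ?_
    · unfold IsAutOfFibre
      rw [specialFibre_univF p n hn, isFGIso_FvG_iff]
      refine ⟨?_, ?_⟩
      · have h1 := hg.map (resE p n (GaloisField p n))
        refine lta_congr (fun j h2 h3 => ?_) (fun j h2 h3 => ?_) h1
        · exact chp_resE_uPar p n hn j h2 h3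
        · exact chp_res_theta hθ hn j h2 h3
      · rw [PowerSeries.coeff_map]
        exact hu.map _
    · rw [actsBy_univF_iff]
      refine ⟨fun w => ?_, g, hg, hu, rfl⟩
      rw [hθ]
      congr 1
  · intro h γ φ _ hφ
    rw [actsBy_univF_iff] at hφ
    obtain ⟨hφC, f, hf, hfu, -⟩ := hφ
    refine h φ f (fun w => ?_) hf hfu
    rw [hφC]
    congr 1

theorem invA_of_invG {F : FormalGroup (LTRing p n)} {J : Ideal (LTRing p n)}
    (h : IsInvariantG F J) : IsInvariantA F J := fun γ φ hγ hφ => h γ _ φ hγ hφ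

theorem heightIdeal_invG (hn : 1 ≤ n) (h : ℕ) (hh : h ≤ n) :
    IsInvariantG (univF p n) (heightIdeal p n h) := by
  intro γ σ φ _ hφ
  rw [actsBy_univF_iff] at hφ
  obtain ⟨-, f, hf, hfu, -⟩ := hφ
  rw [heightIdeal_eq p n hn h hh]
  exact Iht_invariant hn φ f hf hfu h hh

/-- Chai's conjecture for the universal deformation `univF`. -/
theorem chai_radical (hn : 1 ≤ n) (J : Ideal (LTRing p n)) (hJ : J.IsRadical)
    (hinv : IsInvariantA (univF p n) J) : (∃ h ≤ n, J = heightIdeal p n h) ∨ J = ⊤ := by
  rcases main_radical hn (chp_card p n hn) J hJ ((invA_iff hn J).1 hinv) with ⟨h, hh, h1⟩ | h1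
  · left
    refine ⟨h, hh, ?_⟩
    rw [h1, heightIdeal_eq p n hn h hh]
  · exact Or.inr h1

theorem invG_top (F : FormalGroup (LTRing p n)) : IsInvariantG F ⊤ := by
  intro γ σ φ _ _
  exact Ideal.map_top _

end

section honda

variable {p n : ℕ} [Fact p.Prime] {R : Type*} [CommRing R]

theorem FvG_nsmul {v : ℕ → R} {τ : Type*} (x : (FvG p n v).Point τ)
    (hx : constantCoeff x.1 = 0) (m : ℕ) : (m • x).1 = (m • SPt.mk p n v x.1 hx).1 := by
  induction m with
  | zero =>
    rw [zero_smul, zero_smul]
    rfl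
  | succ m ih =>
    rw [succ_nsmul, succ_nsmul, FormalGroup.add_apply, SPt.add_val, ih]
    rfl

theorem chp_subst_pow {τ : Type*} (x : MvPowerSeries τ R) (hx : constantCoeff x = 0) (q : ℕ) :
    PowerSeries.subst x ((PowerSeries.X : PowerSeries R) ^ q) = x ^ q := by
  have hsx : PowerSeries.HasSubst x := PowerSeries.HasSubst.of_constantCoeff_zero hx
  rw [PowerSeries.subst_pow hsx, PowerSeries.subst_X hsx]

/-- The `p`-series of the Honda formal group law. -/
theorem FvG_honda [CharP R p] [IsReduced R] (hn : 1 ≤ n) {τ : Type*}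
    (x : (FvG p n (Gam n : ℕ → R)).Point τ) : (p • x).1 = x.1 ^ (p ^ n) := by
  have hx : constantCoeff x.1 = 0 := by
    have h1 : IsNilpotent (constantCoeff x.1) := x.2
    exact h1.eq_zero
  rw [FvG_nsmul x hx, SPt.nsmul_val, mulS_p_eq hn le_rfl (fun j _ h2 => by
    unfold Gam
    rw [if_neg (by omega)]), as9_US_Gam]
  have hs : PowerSeries.HasSubst ((PowerSeries.X : PowerSeries R) ^ (p ^ n)) :=
    PowerSeries.HasSubst.of_constantCoeff_zero' (by
      rw [map_pow, PowerSeries.constantCoeff_X,
        zero_pow (pow_ne_zero _ (Fact.out : p.Prime).ne_zero)])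
  rw [PowerSeries.subst_X hs]
  exact chp_subst_pow x.1 hx (p ^ n)

end honda

/-- The final theorem (see the hand-in file). -/
theorem chai_final (p n : ℕ) [Fact p.Prime] (hn : 1 ≤ n) :
    (∃! F : FormalGroup (LTRing p n), IsUniversalDeformation F) ∧
    ∀ F : FormalGroup (LTRing p n), IsUniversalDeformation F →
      (∀ x : (specialFibre F).Point Unit, (p • x).val = x.val ^ (p ^ n)) ∧
      (∀ (γ : PowerSeries (GaloisField p n)) (σ : GalAut p n),
        IsAutOfFibre F γ → ∃! φ : LTAut p n, ActsBy F γ σ φ) ∧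
      (∀ J : Ideal (LTRing p n),
        (J.IsPrime ∧ IsInvariantG F J) ↔ ∃ h ≤ n, J = heightIdeal p n h) ∧
      (∀ J : Ideal (LTRing p n),
        (J.IsRadical ∧ IsInvariantG F J) ↔ (∃ h ≤ n, J = heightIdeal p n h) ∨ J = ⊤) ∧
      (∀ J : Ideal (LTRing p n), J.IsRadical → (IsInvariantG F J ↔ IsInvariantA F J)) := by
  refine ⟨⟨univF p n, univF_spec p n hn, fun F hF => univF_unique p n hn F hF⟩, ?_⟩
  intro F hF
  obtain rfl := univF_unique p n hn F hF
  have hprime : ∀ h ≤ n, (heightIdeal p n h).IsPrime := fun h hh => by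
    rw [heightIdeal_eq p n hn h hh]
    exact Iht_isPrime h hh
  refine ⟨?_, fun γ σ hγ => univF_exists hn γ σ hγ, ?_, ?_, ?_⟩
  · rw [specialFibre_univF p n hn]
    exact fun x => FvG_honda hn x
  · intro J
    constructor
    · rintro ⟨hJ, hinv⟩
      rcases chai_radical hn J hJ.isRadical (invA_of_invG hinv) with h | h
      · exact h
      · exact absurd h hJ.ne_top
    · rintro ⟨h, hh, rfl⟩
      exact ⟨hprime h hh, heightIdeal_invG hn h hh⟩
  · intro J
    constructor
    · rintro ⟨hJ, hinv⟩
      exact chai_radical hn J hJ (invA_of_invG hinv)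
    · rintro (⟨h, hh, rfl⟩ | rfl)
      · exact ⟨(hprime h hh).isRadical, heightIdeal_invG hn h hh⟩
      · exact ⟨fun _ _ => trivial, invG_top _⟩
  · intro J hJ
    refine ⟨invA_of_invG, fun hinv => ?_⟩
    rcases chai_radical hn J hJ hinv with ⟨h, hh, rfl⟩ | rfl
    · exact heightIdeal_invG hn h hh
    · exact invG_top _

end Vale.Agent.P217
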