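import Mathlib

/-!
# P217, closure part, file A: the rationality lemma

`q = p ^ h`, `k₀` is the field of the elements `x` of `K` with `x ^ q = x`. If `e_i ∈ K` are
linearly independent over `k₀` and `∑ e_i z_i ^ (q ^ l) = O(ρ ^ (q ^ l))`, then `|z_i| ≤ ρ`.
-/

namespace Vale.Agent.P217

open Finset

/-- `k₀` is the fixed field of the `q`-Frobenius of `K`, `q = p ^ h` -/
class ClsFix (p h : outParam ℕ) (k₀ K : Type*) [Field k₀] [Field K] [Algebra k₀ K] : Prop where
  prime : p.Prime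
  charP : CharP K p
  pos : 1 ≤ h
  fix : ∀ a : k₀, a ^ p ^ h = a
  mem : ∀ x : K, x ^ p ^ h = x → x ∈ Set.range (algebraMap k₀ K)

theorem ClsFix.two_le (p h : ℕ) (k₀ K : Type*) [Field k₀] [Field K] [Algebra k₀ K]
    [H : ClsFix p h k₀ K] : 2 ≤ p ^ h :=
  H.prime.two_le.trans (Nat.le_self_pow (by have := H.pos; omega) p)

theorem ClsFix.sum_pow (p h : ℕ) (k₀ K : Type*) [Field k₀] [Field K] [Algebra k₀ K]
    [H : ClsFix p h k₀ K] {ι : Type*} (T : Finset ι) (f : ι → K) :
    (∑ i ∈ T, f i) ^ p ^ h = ∑ i ∈ T, f i ^ p ^ h := by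
  have := H.charP
  have : Fact p.Prime := ⟨H.prime⟩
  exact sum_pow_char_pow p h T f

variable {p h : ℕ} {k₀ K : Type*} [Field k₀] [NormedField K] [Algebra k₀ K]

theorem cls_frob_sum [ClsFix p h k₀ K] {s : ℕ} (e z : Fin s → K) (l : ℕ) :
    (∑ i, e i * z i ^ (p ^ h) ^ l) ^ p ^ h =
      ∑ i, e i ^ p ^ h * z i ^ (p ^ h) ^ (l + 1) := by
  rw [ClsFix.sum_pow p h k₀ K]
  refine Finset.sum_congr rfl fun i _ => ?_
  rw [mul_pow, ← pow_mul, pow_succ]

variable (p h k₀ K) in
/-- the `q`-Frobenius as a linear map -/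
def clsFrob [ClsFix p h k₀ K] : K →ₗ[k₀] K where
  toFun x := x ^ p ^ h
  map_add' x y := by
    have := ClsFix.sum_pow p h k₀ K Finset.univ ![x, y]
    simpa using this
  map_smul' a x := by
    simp only [RingHom.id_apply, Algebra.smul_def, mul_pow]
    rw [← map_pow, ClsFix.fix (p := p) (h := h) (K := K) a]

/-- a growth argument -/
theorem cls_growth {x ρ C : ℝ} {q l₀ : ℕ} (hq : 2 ≤ q) (hρ : 0 ≤ ρ)
    (h : ∀ l ≥ l₀, x ^ q ^ l ≤ C * ρ ^ q ^ l) : x ≤ ρ := by
  by_contra hlt
  rw [not_le] at hlt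
  rcases hρ.eq_or_lt with h0 | hpos
  · have h1 := h l₀ le_rfl
    rw [← h0, zero_pow (by positivity), mul_zero] at h1
    have : 0 < x ^ q ^ l₀ := pow_pos (h0 ▸ hlt) _
    linarith
  · have hr : 1 < x / ρ := (one_lt_div hpos).mpr hlt
    obtain ⟨N, hN⟩ := pow_unbounded_of_one_lt C hr
    have h1 := h (max l₀ N) (le_max_left _ _)
    have h2 : N ≤ q ^ max l₀ N :=
      (le_max_right l₀ N).trans ((Nat.lt_pow_self (by omega)).le)
    have h3 : (x / ρ) ^ N ≤ (x / ρ) ^ q ^ max l₀ N := pow_le_pow_right₀ hr.le h2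
    have h4 : (x / ρ) ^ q ^ max l₀ N ≤ C := by
      rw [div_pow, div_le_iff₀ (by positivity)]
      exact h1
    linarith

/-- the rationality lemma -/
theorem cls_rational [ClsFix p h k₀ K] (s : ℕ) : ∀ (e z : Fin s → K) (ρ C : ℝ) (l₀ : ℕ),
    LinearIndependent k₀ e → 0 ≤ ρ →
    (∀ l ≥ l₀, ‖∑ i, e i * z i ^ (p ^ h) ^ l‖ ≤ C * ρ ^ (p ^ h) ^ l) →
    ∀ i, ‖z i‖ ≤ ρ := by
  have hq : 2 ≤ p ^ h := ClsFix.two_le p h k₀ K
  induction s with
  | zero => intro e z ρ C l₀ _ _ _ i; exact i.elim0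
  | succ s ih =>
    intro e z ρ C l₀ he hρ hD
    set q := p ^ h with hqdef
    have hlast : e (Fin.last s) ≠ 0 := he.ne_zero _
    set c : K := (e (Fin.last s) ^ (q - 1))⁻¹ with hc
    -- the eliminated system
    let e' : Fin s → K := fun i => e i.castSucc - c * e i.castSucc ^ q
    let z' : Fin s → K := fun i => z i.castSucc
    have hE : ∀ l, ∑ i, e' i * z' i ^ q ^ (l + 1) =
        (∑ i, e i * z i ^ q ^ (l + 1)) - c * (∑ i, e i * z i ^ q ^ l) ^ q := by
      intro l
      rw [cls_frob_sum (k₀ := k₀) (p := p) (h := h), Fin.sum_univ_castSucc, Fin.sum_univ_castSucc, mul_add, mul_sum,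
        add_sub_add_comm, ← Finset.sum_sub_distrib]
      have h0 : e (Fin.last s) * z (Fin.last s) ^ q ^ (l + 1) -
          c * (e (Fin.last s) ^ q * z (Fin.last s) ^ q ^ (l + 1)) = 0 := by
        have h1 : c * e (Fin.last s) ^ q = e (Fin.last s) := by
          rw [hc, ← Nat.sub_add_cancel (show 1 ≤ q by omega), pow_succ, Nat.add_sub_cancel]
          field_simp
        rw [← mul_assoc, h1, sub_self]
      rw [h0, add_zero]
      refine Finset.sum_congr rfl fun i _ => ?_
      simp only [e', z']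
      ring
    have hind : LinearIndependent k₀ e' := by
      -- the map `x ↦ x - c x ^ q` is linear with kernel `k₀ e_s`
      let f : K →ₗ[k₀] K := LinearMap.id -
        (LinearMap.mulLeft k₀ c) ∘ₗ clsFrob p h k₀ K
      have hf : ∀ x, f x = x - c * x ^ q := fun x => rfl
      have he' : e' = f ∘ (fun i : Fin s => e i.castSucc) := by
        funext i
        simp only [e', Function.comp, hf]
      have hker : ∀ x, f x = 0 → ∃ a : k₀, x = a • e (Fin.last s) := by
        intro x hx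
        by_cases hx0 : x = 0
        · exact ⟨0, by simp [hx0]⟩
        rw [hf, sub_eq_zero] at hx
        set w := x / e (Fin.last s) with hw
        have hxw : x = w * e (Fin.last s) := by rw [hw]; field_simp
        have hw1 : w ^ q = w := by
          have h1 : c * x ^ q * e (Fin.last s) ^ (q - 1) = x ^ q := by
            rw [hc]; field_simp
          have h2 : x * e (Fin.last s) ^ (q - 1) = x ^ q := by
            rw [← h1, ← hx]
          have h3 : x ^ q = w ^ q * e (Fin.last s) ^ q := by rw [hxw, mul_pow]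
          have h4 : e (Fin.last s) ^ q = e (Fin.last s) ^ (q - 1) * e (Fin.last s) := by
            rw [← pow_succ, Nat.sub_add_cancel (by omega)]
          have h5 : w * e (Fin.last s) * e (Fin.last s) ^ (q - 1) =
              w ^ q * (e (Fin.last s) ^ (q - 1) * e (Fin.last s)) := by
            rw [← h4, ← h3, ← h2]
            nth_rewrite 1 [hxw]
            rfl
          have h6 : e (Fin.last s) ^ (q - 1) * e (Fin.last s) ≠ 0 :=
            mul_ne_zero (pow_ne_zero _ hlast) hlast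
          apply mul_right_cancel₀ h6
          rw [← h5]; ring
        have hroot : w ∈ Set.range (algebraMap k₀ K) := by
          exact ClsFix.mem (p := p) (h := h) w hw1
        obtain ⟨a, ha⟩ := hroot
        exact ⟨a, by rw [Algebra.smul_def, ha, ← hxw]⟩
      rw [he']
      rw [linearIndependent_finSucc'] at he
      refine he.1.map ?_
      rw [Submodule.disjoint_def]
      intro x hx hx'
      obtain ⟨a, rfl⟩ := hker x (LinearMap.mem_ker.mp hx')
      by_cases ha : a = 0
      · simp [ha]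
      · exfalso
        apply he.2
        have h1 := Submodule.smul_mem _ a⁻¹ hx
        rwa [smul_smul, inv_mul_cancel₀ ha, one_smul] at h1
    have hmain : ∀ i : Fin s, ‖z i.castSucc‖ ≤ ρ := by
      refine ih e' z' ρ (C + ‖c‖ * C ^ q) (l₀ + 1) hind hρ ?_
      intro l hl
      obtain ⟨l, rfl⟩ : ∃ l', l = l' + 1 := ⟨l - 1, by omega⟩
      rw [hE]
      have h1 := hD (l + 1) (by omega)
      have h2 := hD l (by omega)
      have h3 : ‖c * (∑ i, e i * z i ^ q ^ l) ^ q‖ ≤ ‖c‖ * C ^ q * ρ ^ q ^ (l + 1) := by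
        rw [norm_mul, norm_pow, mul_assoc]
        refine mul_le_mul_of_nonneg_left ?_ (norm_nonneg _)
        calc ‖∑ i, e i * z i ^ q ^ l‖ ^ q ≤ (C * ρ ^ q ^ l) ^ q :=
              pow_le_pow_left₀ (norm_nonneg _) h2 _
          _ = C ^ q * ρ ^ q ^ (l + 1) := by rw [mul_pow, ← pow_mul, ← pow_succ]
      calc _ ≤ ‖∑ i, e i * z i ^ q ^ (l + 1)‖ + ‖c * (∑ i, e i * z i ^ q ^ l) ^ q‖ :=
            norm_sub_le _ _
        _ ≤ C * ρ ^ q ^ (l + 1) + ‖c‖ * C ^ q * ρ ^ q ^ (l + 1) := add_le_add h1 h3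
        _ = _ := by ring
    intro i
    refine Fin.lastCases ?_ hmain i
    -- the last one
    refine cls_growth (C := (C + ∑ i : Fin s, ‖e i.castSucc‖) / ‖e (Fin.last s)‖) (l₀ := l₀)
      hq hρ fun l hl => ?_
    rw [div_mul_eq_mul_div, le_div_iff₀ (norm_pos_iff.mpr hlast)]
    have h1 := hD l hl
    rw [Fin.sum_univ_castSucc] at h1
    have h2 : ‖∑ i : Fin s, e i.castSucc * z i.castSucc ^ q ^ l‖ ≤
        (∑ i : Fin s, ‖e i.castSucc‖) * ρ ^ q ^ l := by
      refine (norm_sum_le _ _).trans ?_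
      rw [Finset.sum_mul]
      refine Finset.sum_le_sum fun i _ => ?_
      rw [norm_mul, norm_pow]
      exact mul_le_mul_of_nonneg_left (pow_le_pow_left₀ (norm_nonneg _) (hmain i) _)
        (norm_nonneg _)
    have h3 : ‖e (Fin.last s) * z (Fin.last s) ^ q ^ l‖ ≤
        ‖∑ i : Fin s, e i.castSucc * z i.castSucc ^ q ^ l +
          e (Fin.last s) * z (Fin.last s) ^ q ^ l‖ +
        ‖∑ i : Fin s, e i.castSucc * z i.castSucc ^ q ^ l‖ := by
      have := norm_sub_le (∑ i : Fin s, e i.castSucc * z i.castSucc ^ q ^ l +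
          e (Fin.last s) * z (Fin.last s) ^ q ^ l)
        (∑ i : Fin s, e i.castSucc * z i.castSucc ^ q ^ l)
      rwa [add_sub_cancel_left] at this
    rw [norm_mul, norm_pow] at h3
    calc ‖z (Fin.last s)‖ ^ q ^ l * ‖e (Fin.last s)‖ =
        ‖e (Fin.last s)‖ * ‖z (Fin.last s)‖ ^ q ^ l := mul_comm _ _
      _ ≤ C * ρ ^ q ^ l + (∑ i : Fin s, ‖e i.castSucc‖) * ρ ^ q ^ l :=
          h3.trans (add_le_add h1 h2)
      _ = _ := by ring

end Vale.Agent.P217
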