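import Vale.Agent.P217.ClosureA
import Vale.Agent.P217.Nrm

/-!
# P217, closure part, file B: evaluation of power series over a finite field at points of the open
unit ball of a complete ultrametric field
-/

namespace Vale.Agent.P217

open Finset MvPowerSeries Filter Topology

attribute [local instance] linOO completeOO

section

variable {K σ : Type*} [NormedField K]

/-- a bound for the monomials -/
theorem cls_monomial_le (y : σ → K) {ρ : ℝ} (hρ : ∀ s, ‖y s‖ ≤ ρ) (d : σ →₀ ℕ) :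
    ‖d.prod fun s e => y s ^ e‖ ≤ ρ ^ d.degree := by
  rw [Finsupp.prod, norm_prod, Finsupp.degree_apply, ← Finset.prod_pow_eq_pow_sum]
  refine Finset.prod_le_prod (fun i _ => norm_nonneg _) fun i _ => ?_
  rw [norm_pow]
  exact pow_le_pow_left₀ (norm_nonneg _) (hρ i) _

/-- a common radius -/
theorem cls_exists_radius [Finite σ] (y : σ → K) (hy : ∀ s, ‖y s‖ < 1) :
    ∃ ρ : ℝ, 0 ≤ ρ ∧ ρ < 1 ∧ ∀ s, ‖y s‖ ≤ ρ := by
  cases nonempty_fintype σ
  have h1 : ((Finset.univ.sup fun s => ‖y s‖₊ : NNReal)) < 1 := by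
    rw [Finset.sup_lt_iff zero_lt_one]
    intro s _
    exact_mod_cast hy s
  refine ⟨(Finset.univ.sup fun s => ‖y s‖₊ : NNReal), NNReal.coe_nonneg _, by exact_mod_cast h1,
    fun s => ?_⟩
  exact_mod_cast Finset.le_sup (f := fun s => ‖y s‖₊) (Finset.mem_univ s)

variable [IsUltrametricDist K]

/-- the point as a point of the unit ball -/
def clsPt (y : σ → K) (hy : ∀ s, ‖y s‖ < 1) : σ → OO K := fun s => ⟨y s, (hy s).le⟩

theorem cls_hasEval [Finite σ] (y : σ → K) (hy : ∀ s, ‖y s‖ < 1) : HasEval (clsPt y hy) where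
  hpow s := by
    have h1 : Tendsto (fun n => (y s) ^ n) atTop (𝓝 0) :=
      tendsto_pow_atTop_nhds_zero_of_norm_lt_one (hy s)
    rw [IsTopologicallyNilpotent, tendsto_subtype_rng]
    exact h1
  tendsto_zero := by
    rw [Filter.cofinite_eq_bot]
    exact tendsto_bot

end

section

variable {p h : ℕ} {k₀ K : Type*} [Field k₀] [NormedField K] [Algebra k₀ K] [ClsFix p h k₀ K]

include p h

theorem cls_algebraMap_fix (a : k₀) : algebraMap k₀ K a ^ p ^ h = algebraMap k₀ K a := by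
  rw [← map_pow, ClsFix.fix (p := p) (h := h) (K := K) a]

/-- elements of a finite field have norm at most one -/
theorem cls_norm_le_one (a : k₀) : ‖algebraMap k₀ K a‖ ≤ 1 := by
  have h1 := cls_algebraMap_fix (p := p) (h := h) (K := K) a
  by_contra hlt
  rw [not_le] at hlt
  have h2 : ‖algebraMap k₀ K a‖ ^ p ^ h = ‖algebraMap k₀ K a‖ := by
    rw [← norm_pow, h1]
  have h3 := lt_self_pow₀ hlt (ClsFix.two_le p h k₀ K)
  linarith

variable (k₀) in
/-- the ring homomorphism into the unit ball -/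
noncomputable def clsHom (K : Type*) [NormedField K] [IsUltrametricDist K] [Algebra k₀ K]
    [ClsFix p h k₀ K] : k₀ →+* OO K :=
  (algebraMap k₀ K).codRestrict (OO K) fun a => cls_norm_le_one a

end

section

variable {k₀ K σ : Type*} [Field k₀] [NormedField K] [Algebra k₀ K]

/-- evaluation of a power series over the finite field `k₀` at a point of the open unit ball -/
noncomputable def clsEv (y : σ → K) (f : MvPowerSeries σ k₀) : K :=
  ∑' d : σ →₀ ℕ, algebraMap k₀ K (coeff d f) * d.prod fun s e => y s ^ e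

end

section

variable {p h : ℕ} {k₀ K σ τ : Type*} [Field k₀] [NormedField K] [IsUltrametricDist K]
  [CompleteSpace K] [Algebra k₀ K] [ClsFix p h k₀ K] [Finite σ] [Finite τ]

include p h

variable (k₀) in
/-- the evaluation as an algebra homomorphism into the unit ball -/
noncomputable def clsEvHom (y : σ → K) (hy : ∀ s, ‖y s‖ < 1) : MvPowerSeries σ k₀ →+* OO K :=
  letI : UniformSpace k₀ := ⊥
  haveI : DiscreteUniformity k₀ := inferInstance
  eval₂Hom (φ := clsHom k₀ K) (a := clsPt y hy) continuous_of_discreteTopology (cls_hasEval y hy)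

theorem clsEvHom_apply (y : σ → K) (hy : ∀ s, ‖y s‖ < 1) (f : MvPowerSeries σ k₀) :
    clsEvHom k₀ y hy f = (letI : UniformSpace k₀ := ⊥
      eval₂ (clsHom k₀ K) (clsPt y hy) f) := by
  let _ : UniformSpace k₀ := ⊥
  change _ = eval₂ (clsHom k₀ K) (clsPt y hy) f
  rw [← coe_eval₂Hom (φ := clsHom k₀ K) (a := clsPt y hy) continuous_of_discreteTopology
    (cls_hasEval y hy)]
  rfl

theorem cls_hasSum (y : σ → K) (hy : ∀ s, ‖y s‖ < 1) (f : MvPowerSeries σ k₀) :
    HasSum (fun d : σ →₀ ℕ => algebraMap k₀ K (coeff d f) * d.prod fun s e => y s ^ e)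
      (clsEvHom k₀ y hy f : K) := by
  let _ : UniformSpace k₀ := ⊥
  have h1 := hasSum_eval₂ (φ := clsHom k₀ K) (a := clsPt y hy) continuous_of_discreteTopology
    (cls_hasEval y hy) f
  have h2 := h1.map (OO K).subtype.toAddMonoidHom continuous_subtype_val
  convert! h2 using 1
  · funext d
    simp only [Function.comp, RingHom.toAddMonoidHom_eq_coe, AddMonoidHom.coe_coe, map_mul]
    congr 1
    rw [Finsupp.prod, Finsupp.prod, map_prod]
    rfl
  · rw [clsEvHom_apply]
    rfl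

theorem clsEvHom_eq (y : σ → K) (hy : ∀ s, ‖y s‖ < 1) (f : MvPowerSeries σ k₀) :
    (clsEvHom k₀ y hy f : K) = clsEv y f :=
  (cls_hasSum y hy f).tsum_eq.symm

theorem clsEv_hasSum (y : σ → K) (hy : ∀ s, ‖y s‖ < 1) (f : MvPowerSeries σ k₀) :
    HasSum (fun d : σ →₀ ℕ => algebraMap k₀ K (coeff d f) * d.prod fun s e => y s ^ e)
      (clsEv y f) := by
  rw [← clsEvHom_eq y hy]
  exact cls_hasSum y hy f

theorem clsEv_add (y : σ → K) (hy : ∀ s, ‖y s‖ < 1) (f g : MvPowerSeries σ k₀) :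
    clsEv y (f + g) = clsEv y f + clsEv y g := by
  rw [← clsEvHom_eq y hy, ← clsEvHom_eq y hy, ← clsEvHom_eq y hy, map_add, Subring.coe_add]

theorem clsEv_sub (y : σ → K) (hy : ∀ s, ‖y s‖ < 1) (f g : MvPowerSeries σ k₀) :
    clsEv y (f - g) = clsEv y f - clsEv y g := by
  rw [← clsEvHom_eq y hy, ← clsEvHom_eq y hy, ← clsEvHom_eq y hy, map_sub]
  rfl

theorem clsEv_mul (y : σ → K) (hy : ∀ s, ‖y s‖ < 1) (f g : MvPowerSeries σ k₀) :
    clsEv y (f * g) = clsEv y f * clsEv y g := by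
  rw [← clsEvHom_eq y hy, ← clsEvHom_eq y hy, ← clsEvHom_eq y hy, map_mul, Subring.coe_mul]

theorem clsEv_pow (y : σ → K) (hy : ∀ s, ‖y s‖ < 1) (f : MvPowerSeries σ k₀) (n : ℕ) :
    clsEv y (f ^ n) = clsEv y f ^ n := by
  rw [← clsEvHom_eq y hy, ← clsEvHom_eq y hy, map_pow, Subring.coe_pow]

theorem clsEv_zero (y : σ → K) (hy : ∀ s, ‖y s‖ < 1) :
    clsEv y (0 : MvPowerSeries σ k₀) = 0 := by
  rw [← clsEvHom_eq y hy, map_zero, Subring.coe_zero]

theorem clsEv_X (y : σ → K) (hy : ∀ s, ‖y s‖ < 1) (s : σ) :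
    clsEv y (X s : MvPowerSeries σ k₀) = y s := by
  let _ : UniformSpace k₀ := ⊥
  rw [← clsEvHom_eq y hy]
  rw [clsEvHom_apply, eval₂_X]
  rfl

theorem clsEv_C (y : σ → K) (hy : ∀ s, ‖y s‖ < 1) (c : k₀) :
    clsEv y (C c : MvPowerSeries σ k₀) = algebraMap k₀ K c := by
  let _ : UniformSpace k₀ := ⊥
  rw [← clsEvHom_eq y hy]
  rw [clsEvHom_apply, eval₂_C]
  rfl

theorem clsEv_norm_le_one (y : σ → K) (hy : ∀ s, ‖y s‖ < 1) (f : MvPowerSeries σ k₀) :
    ‖clsEv y f‖ ≤ 1 := by
  rw [← clsEvHom_eq y hy]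
  exact (clsEvHom k₀ y hy f).2

omit [CompleteSpace K] [Finite σ] in
/-- series without terms of small degree are small -/
theorem clsEv_norm_le (y : σ → K) {ρ : ℝ} (hρ : ∀ s, ‖y s‖ ≤ ρ) (hρ0 : 0 ≤ ρ) (hρ1 : ρ < 1)
    (f : MvPowerSeries σ k₀) (N : ℕ) (hf : ∀ d : σ →₀ ℕ, d.degree < N → coeff d f = 0) :
    ‖clsEv y f‖ ≤ ρ ^ N := by
  refine IsUltrametricDist.norm_tsum_le_of_forall_le_of_nonneg (by positivity) fun d => ?_
  by_cases hd : d.degree < N
  · rw [hf d hd, map_zero, zero_mul, norm_zero]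
    positivity
  · rw [norm_mul]
    calc _ ≤ 1 * ρ ^ d.degree :=
          mul_le_mul (cls_norm_le_one _) (cls_monomial_le y hρ d) (norm_nonneg _) zero_le_one
      _ ≤ ρ ^ N := by
          rw [one_mul]
          exact pow_le_pow_of_le_one hρ0 hρ1.le (not_lt.mp hd)

omit [CompleteSpace K] in
theorem clsEv_norm_lt_one (y : σ → K) (hy : ∀ s, ‖y s‖ < 1) (f : MvPowerSeries σ k₀)
    (hf : constantCoeff f = 0) : ‖clsEv y f‖ < 1 := by
  obtain ⟨ρ, hρ0, hρ1, hρ⟩ := cls_exists_radius y hy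
  refine (clsEv_norm_le y hρ hρ0 hρ1 f 1 fun d hd => ?_).trans_lt (by simpa using hρ1)
  have : d = 0 := by
    rw [← Finsupp.degree_eq_zero_iff]
    omega
  rw [this, coeff_zero_eq_constantCoeff_apply, hf]

/-- compatibility with substitution -/
theorem clsEv_subst (t : τ → K) (ht : ∀ s, ‖t s‖ < 1) (a : σ → MvPowerSeries τ k₀)
    (ha : ∀ s, constantCoeff (a s) = 0) (f : MvPowerSeries σ k₀) :
    clsEv t (subst a f) = clsEv (fun s => clsEv t (a s)) f := by
  let _ : UniformSpace k₀ := ⊥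
  let _ : Algebra k₀ (OO K) := (clsHom k₀ K).toAlgebra
  have hsub : HasSubst a := hasSubst_of_constantCoeff_zero ha
  have h1 := eval₂_subst (R := k₀) (S := k₀) (T := OO K) hsub (cls_hasEval t ht) f
  have hlt : ∀ s, ‖clsEv t (a s)‖ < 1 := fun s => clsEv_norm_lt_one t ht (a s) (ha s)
  rw [← clsEvHom_eq t ht, ← clsEvHom_eq _ hlt, clsEvHom_apply, clsEvHom_apply]
  have h2 : (fun s => eval₂ (algebraMap k₀ (OO K)) (clsPt t ht) (a s)) =
      clsPt (fun s => clsEv t (a s)) hlt := by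
    funext s
    apply Subtype.ext
    change ((eval₂ (clsHom k₀ K) (clsPt t ht) (a s) : OO K) : K) = clsEv t (a s)
    rw [← clsEvHom_eq t ht, clsEvHom_apply]
  rw [h2] at h1
  exact congrArg Subtype.val h1

/-- evaluation at the Frobenius image of the point -/
theorem clsEv_frob (y : σ → K) (hy : ∀ s, ‖y s‖ < 1) (f : MvPowerSeries σ k₀) :
    clsEv (fun s => y s ^ p ^ h) f = clsEv y f ^ p ^ h := by
  have hF : ClsFix p h k₀ K := inferInstance
  have := hF.charP
  have : Fact p.Prime := ⟨hF.prime⟩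
  have h1 := clsEv_hasSum y hy f
  have hcont : Continuous (frobenius K p ^ h) := by
    have : ((frobenius K p ^ h : K →+* K) : K → K) = fun x => x ^ p ^ h := by
      funext x
      simp [RingHom.coe_pow, iterate_frobenius]
    rw [this]
    exact continuous_pow _
  have h2 := h1.map (frobenius K p ^ h).toAddMonoidHom hcont
  have h3 : HasSum (fun d : σ →₀ ℕ => algebraMap k₀ K (coeff d f) *
      d.prod fun s e => (y s ^ p ^ h) ^ e) (clsEv y f ^ p ^ h) := by
    convert! h2 using 1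
    · funext d
      simp only [Function.comp, RingHom.toAddMonoidHom_eq_coe, AddMonoidHom.coe_coe, map_mul,
        RingHom.coe_pow, iterate_frobenius]
      rw [cls_algebraMap_fix (p := p) (h := h)]
      congr 1
      rw [Finsupp.prod, Finsupp.prod, ← Finset.prod_pow]
      refine Finset.prod_congr rfl fun s _ => ?_
      rw [← pow_mul, ← pow_mul, mul_comm]
    · simp [iterate_frobenius]
  exact h3.tsum_eq

end

end Vale.Agent.P217
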