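import Vale.Agent.P217.ClosureB

/-!
# P217, closure part, file C: the rationality lemma for power series
-/

namespace Vale.Agent.P217

open Finset MvPowerSeries Filter Topology

section

variable {k₀ K σ : Type*} [Field k₀] [NormedField K] [Algebra k₀ K]

/-- the series obtained by applying a linear functional to the coefficients -/
def clsMap (L : K →ₗ[k₀] k₀) (Φ : MvPowerSeries σ K) : MvPowerSeries σ k₀ :=
  fun d => L (coeff d Φ)

theorem coeff_clsMap (L : K →ₗ[k₀] k₀) (Φ : MvPowerSeries σ K) (d : σ →₀ ℕ) :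
    coeff d (clsMap L Φ) = L (coeff d Φ) := rfl

theorem clsMap_ne_zero (Φ : MvPowerSeries σ K) (hΦ : Φ ≠ 0) :
    ∃ L : K →ₗ[k₀] k₀, clsMap L Φ ≠ 0 := by
  obtain ⟨d, hd⟩ : ∃ d, coeff d Φ ≠ 0 := by
    by_contra h
    push Not at h
    exact hΦ (MvPowerSeries.ext fun d => by rw [h d, coeff_zero])
  by_contra hall
  push Not at hall
  refine hd ((Module.forall_dual_apply_eq_zero_iff k₀ (coeff d Φ)).mp fun L => ?_)
  change L (coeff d Φ) = 0
  rw [← coeff_clsMap, hall L, coeff_zero]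

/-- asymptotic vanishing along the points `y ^ (q ^ l)` -/
def ClsAV [Finite σ] (q : ℕ) (y : σ → K) (Φ : MvPowerSeries σ K) : Prop :=
  ∃ r : ℝ, 0 < r ∧ r < 1 ∧ (∀ i, ‖y i‖ ≤ r) ∧ ∀ N : ℕ, ∀ ρ : ℝ, r ^ N < ρ →
    ∀ᶠ M : ℕ in Filter.atTop,
      ‖MvPolynomial.eval (fun i => y i ^ (q ^ M)) (MvPowerSeries.truncTotal N Φ)‖ ≤ ρ ^ (q ^ M)

theorem cls_eval₂_sum {R S : Type*} [CommSemiring R] [CommSemiring S] (f : R →+* S) (g : σ → S)
    (p : MvPolynomial σ R) (T : Finset (σ →₀ ℕ)) (hT : ∀ d, d ∉ T → p.coeff d = 0) :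
    MvPolynomial.eval₂ f g p = ∑ d ∈ T, f (p.coeff d) * d.prod fun s e => g s ^ e := by
  classical
  rw [MvPolynomial.eval₂, Finsupp.sum]
  refine Finset.sum_subset ?_ ?_
  · intro d hd
    by_contra h
    exact (MvPolynomial.mem_support_iff.mp hd) (hT d h)
  · intro d _ hd
    have : p.coeff d = 0 := by
      by_contra h
      exact hd (MvPolynomial.mem_support_iff.mpr h)
    change f (p.coeff d) * _ = 0
    rw [this, map_zero, zero_mul]

end

variable {p h : ℕ} {k₀ K σ τ : Type*} [Field k₀] [NormedField K] [IsUltrametricDist K]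
  [CompleteSpace K] [Algebra k₀ K] [ClsFix p h k₀ K] [Finite σ] [Finite τ]

include p h

theorem clsEv_coe (y : σ → K) (hy : ∀ s, ‖y s‖ < 1) (P : MvPolynomial σ k₀) :
    clsEv y (P : MvPowerSeries σ k₀) = MvPolynomial.eval₂ (algebraMap k₀ K) y P := by
  let _ : UniformSpace k₀ := ⊥
  rw [← clsEvHom_eq y hy, clsEvHom_apply]
  rw [MvPowerSeries.eval₂_coe]
  change (OO K).subtype (MvPolynomial.eval₂ (clsHom k₀ K) (clsPt y hy) P) = _
  rw [MvPolynomial.eval₂_comp_left (OO K).subtype (clsHom k₀ K) (clsPt y hy) P]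
  rfl

omit [IsUltrametricDist K] [CompleteSpace K] in
theorem cls_frob_pow_sum (k₀ : Type*) [Field k₀] [Algebra k₀ K] [ClsFix p h k₀ K] {ι : Type*}
    (T : Finset ι) (f : ι → K) (l : ℕ) :
    (∑ i ∈ T, f i) ^ (p ^ h) ^ l = ∑ i ∈ T, f i ^ (p ^ h) ^ l := by
  induction l with
  | zero => simp
  | succ l ih =>
    rw [pow_succ, pow_mul, ih, ClsFix.sum_pow p h k₀ K]
    refine Finset.sum_congr rfl fun i _ => ?_
    rw [← pow_mul]

omit [IsUltrametricDist K] [CompleteSpace K] in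
theorem cls_algebraMap_pow (a : k₀) (l : ℕ) :
    algebraMap k₀ K a ^ (p ^ h) ^ l = algebraMap k₀ K a := by
  induction l with
  | zero => simp
  | succ l ih => rw [pow_succ, pow_mul, ih, cls_algebraMap_fix]

/-- the rationality lemma for power series -/
theorem cls_ratSeries (Φ : MvPowerSeries σ K) (y : σ → K)
    (hAV : ClsAV (p ^ h) y Φ) (L : K →ₗ[k₀] k₀) : clsEv y (clsMap L Φ) = 0 := by
  classical
  obtain ⟨r, hr0, hr1, hρ, hAV⟩ := hAV
  have hy : ∀ s, ‖y s‖ < 1 := fun s => (hρ s).trans_lt hr1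
  suffices hN : ∀ N, ‖clsEv y (clsMap L Φ)‖ ≤ r ^ N by
    have h1 : Tendsto (fun N : ℕ => r ^ N) atTop (𝓝 0) :=
      tendsto_pow_atTop_nhds_zero_of_lt_one hr0.le hr1
    have h2 : ‖clsEv y (clsMap L Φ)‖ ≤ 0 := ge_of_tendsto' h1 hN
    exact norm_le_zero_iff.mp h2
  intro N
  set q := p ^ h with hq
  let T : Finset (σ →₀ ℕ) := (Finsupp.finite_of_degree_lt N).toFinset
  have hT : ∀ d : σ →₀ ℕ, d ∈ T ↔ d.degree < N := fun d => by simp [T]
  let V : Submodule k₀ K := Submodule.span k₀ ((T.image fun d => coeff d Φ : Finset K) : Set K)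
  have hVfin : FiniteDimensional k₀ V := FiniteDimensional.span_finset k₀ _
  let b := Module.finBasis k₀ V
  have hmem : ∀ d ∈ T, coeff d Φ ∈ V := fun d hd =>
    Submodule.subset_span (Finset.mem_coe.mpr (Finset.mem_image_of_mem _ hd))
  let a : (σ →₀ ℕ) → Fin (Module.finrank k₀ V) → k₀ := fun d i =>
    if hd : d ∈ T then b.repr ⟨coeff d Φ, hmem d hd⟩ i else 0
  let e : Fin (Module.finrank k₀ V) → K := fun i => (b i : K)
  have he : LinearIndependent k₀ e := b.linearIndependent.map' V.subtype V.ker_subtype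
  have hcoef : ∀ d ∈ T, coeff d Φ = ∑ i, a d i • e i := by
    intro d hd
    have h1 := congrArg (fun v : V => (v : K)) (b.sum_repr ⟨coeff d Φ, hmem d hd⟩)
    simp only [Submodule.coe_sum, Submodule.coe_smul] at h1
    rw [← h1]
    refine Finset.sum_congr rfl fun i _ => ?_
    simp only [a, dif_pos hd, e]
  let z : Fin (Module.finrank k₀ V) → K := fun i =>
    ∑ d ∈ T, algebraMap k₀ K (a d i) * d.prod fun s e => y s ^ e
  have hz : ∀ i, ‖z i‖ ≤ r ^ N := by
    intro i
    refine le_of_forall_gt_imp_ge_of_dense fun ρ hρN => ?_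
    obtain ⟨l₀, hl₀⟩ := eventually_atTop.mp (hAV N ρ hρN)
    refine cls_rational (k₀ := k₀) _ e z ρ 1 l₀ he ((by positivity : (0 : ℝ) ≤ r ^ N).trans hρN.le)
      ?_ i
    intro l hl
    rw [one_mul]
    convert! hl₀ l hl using 2
    rw [MvPolynomial.eval, MvPolynomial.coe_eval₂Hom, cls_eval₂_sum _ _ _ T
      (fun d hd => coeff_truncTotal_eq_zero _ (not_lt.mp fun h' => hd ((hT d).mpr h')))]
    simp only [z, hq, cls_frob_pow_sum k₀]
    simp only [Finset.mul_sum]
    rw [Finset.sum_comm]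
    refine Finset.sum_congr rfl fun d hd => ?_
    rw [coeff_truncTotal _ ((hT d).mp hd), hcoef d hd, RingHom.id_apply, Finset.sum_mul]
    refine Finset.sum_congr rfl fun i _ => ?_
    rw [mul_pow, cls_algebraMap_pow, Algebra.smul_def]
    have h2 : (d.prod fun s e => y s ^ e) ^ q ^ l = d.prod fun s e => (y s ^ q ^ l) ^ e := by
      rw [Finsupp.prod, Finsupp.prod, ← Finset.prod_pow]
      exact Finset.prod_congr rfl fun s _ => pow_right_comm _ _ _
    rw [← hq, h2]
    ring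
  -- split off the polynomial part
  set Ψ := clsMap L Φ with hΨ
  have hsplit : clsEv y Ψ = MvPolynomial.eval₂ (algebraMap k₀ K) y (truncTotal N Ψ) +
      clsEv y (Ψ - (truncTotal N Ψ : MvPowerSeries σ k₀)) := by
    rw [clsEv_sub y hy, clsEv_coe y hy]
    ring
  have hpoly : MvPolynomial.eval₂ (algebraMap k₀ K) y (truncTotal N Ψ) =
      ∑ i, algebraMap k₀ K (L (e i)) * z i := by
    rw [cls_eval₂_sum _ _ _ T
      (fun d hd => coeff_truncTotal_eq_zero _ (not_lt.mp fun h' => hd ((hT d).mpr h')))]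
    simp only [z, Finset.mul_sum]
    rw [Finset.sum_comm]
    refine Finset.sum_congr rfl fun d hd => ?_
    rw [coeff_truncTotal _ ((hT d).mp hd), hΨ, coeff_clsMap, hcoef d hd, map_sum, map_sum,
      Finset.sum_mul]
    refine Finset.sum_congr rfl fun i _ => ?_
    rw [map_smul, smul_eq_mul, map_mul]
    ring
  rw [hsplit]
  refine (IsUltrametricDist.norm_add_le_max _ _).trans (max_le ?_ ?_)
  · rw [hpoly]
    refine IsUltrametricDist.norm_sum_le_of_forall_le_of_nonneg (by positivity) fun i _ => ?_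
    rw [norm_mul]
    calc _ ≤ 1 * r ^ N := mul_le_mul (cls_norm_le_one _) (hz i) (norm_nonneg _) zero_le_one
      _ = _ := one_mul _
  · refine clsEv_norm_le y hρ hr0.le hr1 _ N fun d hd => ?_
    rw [map_sub, MvPolynomial.coeff_coe, coeff_truncTotal _ hd, sub_self]

end Vale.Agent.P217
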