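import Mathlib

/-!
# P217, closure part, file D: the chain rule for multivariate power series (module CLD1)
-/

namespace Vale.Agent.P217

open MvPowerSeries

/-- the chain rule for polynomials -/
private theorem cls_chain_poly {R σ τ : Type*} [CommRing R] [Fintype σ] [Finite τ]
    (a : σ → MvPowerSeries τ R) (ha : ∀ s, constantCoeff (a s) = 0) (p : MvPolynomial σ R)
    (j : τ) :
    pderiv R j (subst a (p : MvPowerSeries σ R)) =
      ∑ s, subst a (pderiv R s (p : MvPowerSeries σ R)) * pderiv R j (a s) := by
  classical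
  have hs : HasSubst a := hasSubst_of_constantCoeff_zero ha
  induction p using MvPolynomial.induction_on with
  | C r =>
    have h1 : ((MvPolynomial.C r : MvPolynomial σ R) : MvPowerSeries σ R) = C r :=
      MvPolynomial.coe_C r
    rw [h1, subst_C, pderiv_C]
    symm
    apply Finset.sum_eq_zero
    intro s _
    rw [pderiv_C]
    have h2 : subst a (0 : MvPowerSeries σ R) = 0 := by
      rw [← substAlgHom_apply hs, map_zero]
    rw [h2, zero_mul]
  | add p q hp hq =>
    rw [MvPolynomial.coe_add, subst_add hs, map_add, hp, hq, ← Finset.sum_add_distrib]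
    refine Finset.sum_congr rfl fun s _ => ?_
    rw [map_add, subst_add hs]
    ring
  | mul_X p i hp =>
    rw [MvPolynomial.coe_mul, MvPolynomial.coe_X, subst_mul hs, subst_X hs, Derivation.leibniz,
      hp, smul_eq_mul, smul_eq_mul, Finset.mul_sum]
    have h1 : ∀ s, subst a (pderiv R s ((p : MvPowerSeries σ R) * X i)) * pderiv R j (a s) =
        (if s = i then subst a (p : MvPowerSeries σ R) * pderiv R j (a i) else 0) +
        a i * (subst a (pderiv R s (p : MvPowerSeries σ R)) * pderiv R j (a s)) := by
      intro s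
      rw [Derivation.leibniz, smul_eq_mul, smul_eq_mul, subst_add hs, subst_mul hs, subst_mul hs,
        subst_X hs]
      by_cases h : s = i
      · subst h
        rw [if_pos rfl, pderiv_X_self]
        have h2 : subst a (1 : MvPowerSeries σ R) = 1 := by
          rw [← substAlgHom_apply hs, map_one]
        rw [h2]
        ring
      · rw [if_neg h, pderiv_X_of_ne (Ne.symm h)]
        have h2 : subst a (0 : MvPowerSeries σ R) = 0 := by
          rw [← substAlgHom_apply hs, map_zero]
        rw [h2]
        ring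
    rw [Finset.sum_congr rfl fun s _ => h1 s, Finset.sum_add_distrib, Finset.sum_ite_eq' Finset.univ i]
    simp

/-- no terms of degree `< n` after substitution -/
private theorem cls_coeff_subst_low {R σ τ : Type*} [CommRing R] [Finite σ]
    (a : σ → MvPowerSeries τ R) (ha : ∀ s, constantCoeff (a s) = 0) (f : MvPowerSeries σ R)
    (n : ℕ) (hf : ∀ d : σ →₀ ℕ, d.degree < n → coeff d f = 0) (e : τ →₀ ℕ) (he : e.degree < n) :
    coeff e (subst a f) = 0 := by
  have hs : HasSubst a := hasSubst_of_constantCoeff_zero ha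
  apply coeff_of_lt_order
  have h1 := le_order_subst hs f
  have h2 : (n : ℕ∞) ≤ f.order := nat_le_order hf
  have h3 : (1 : ℕ∞) ≤ ⨅ i, (a i).order :=
    le_iInf fun i => one_le_order_iff_constCoeff_eq_zero.2 (ha i)
  refine lt_of_lt_of_le ?_ h1
  calc ((e.degree : ℕ) : ℕ∞) < (n : ℕ∞) := by exact_mod_cast he
    _ ≤ f.order := h2
    _ = 1 * f.order := (one_mul _).symm
    _ ≤ (⨅ i, (a i).order) * f.order := mul_le_mul_left h3 _

/-- The chain rule. Proof: both sides are additive in `Ψ`; for polynomials (also for `Ψ` times a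
variable) use the Leibniz rule (`MvPolynomial.induction_on`, `pderiv_coe`); in general fix a
coefficient `γ`, `N = degree γ + 2`, and write `Ψ = truncTotal N Ψ + R`: then `subst a R` and
`subst a (pderiv s R)` have no terms of degree `< N`, `< N - 1`. (The one-variable version is
`PowerSeries.derivative_subst`.) -/
theorem cls_chain {R σ τ : Type*} [CommRing R] [Fintype σ] [Finite τ]
    (a : σ → MvPowerSeries τ R) (ha : ∀ s, constantCoeff (a s) = 0) (Ψ : MvPowerSeries σ R)
    (j : τ) :
    pderiv R j (subst a Ψ) = ∑ s, subst a (pderiv R s Ψ) * pderiv R j (a s) := by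
  classical
  have hs : HasSubst a := hasSubst_of_constantCoeff_zero ha
  ext γ
  obtain ⟨N, hN⟩ : ∃ N, N = γ.degree + 2 := ⟨_, rfl⟩
  obtain ⟨T, hT⟩ : ∃ T : MvPolynomial σ R, T = truncTotal N Ψ := ⟨_, rfl⟩
  obtain ⟨Q, hQ⟩ : ∃ Q : MvPowerSeries σ R, Q = Ψ - (T : MvPowerSeries σ R) := ⟨_, rfl⟩
  have hΨ : Ψ = (T : MvPowerSeries σ R) + Q := by rw [hQ]; ring
  have hQlow : ∀ d : σ →₀ ℕ, d.degree < N → coeff d Q = 0 := by
    intro d hd
    rw [hQ, map_sub, MvPolynomial.coeff_coe, hT, coeff_truncTotal _ hd, sub_self]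
  have hQd : ∀ s, ∀ d : σ →₀ ℕ, d.degree < N - 1 → coeff d (pderiv R s Q) = 0 := by
    intro s d hd
    rw [coeff_pderiv, hQlow, zero_mul]
    rw [map_add, Finsupp.degree_single]
    omega
  have h1 : coeff γ (pderiv R j (subst a Q)) = 0 := by
    rw [coeff_pderiv, cls_coeff_subst_low a ha Q N hQlow, zero_mul]
    rw [map_add, Finsupp.degree_single]
    omega
  have h2 : coeff γ (∑ s, subst a (pderiv R s Q) * pderiv R j (a s)) = 0 := by
    rw [map_sum]
    apply Finset.sum_eq_zero
    intro s _
    rw [coeff_mul]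
    apply Finset.sum_eq_zero
    intro x hx
    rw [Finset.HasAntidiagonal.mem_antidiagonal] at hx
    rw [cls_coeff_subst_low a ha (pderiv R s Q) (N - 1) (hQd s), zero_mul]
    have h3 : x.1.degree ≤ γ.degree := by
      rw [← hx, map_add]
      omega
    omega
  have h4 : ∑ s, subst a (pderiv R s Ψ) * pderiv R j (a s) =
      ∑ s, subst a (pderiv R s (T : MvPowerSeries σ R)) * pderiv R j (a s) +
      ∑ s, subst a (pderiv R s Q) * pderiv R j (a s) := by
    rw [← Finset.sum_add_distrib]
    refine Finset.sum_congr rfl fun s _ => ?_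
    rw [hΨ, map_add, subst_add hs]
    ring
  rw [h4, map_add, h2, add_zero, hΨ, subst_add hs, map_add, map_add, h1, add_zero,
    cls_chain_poly a ha T j]

end Vale.Agent.P217
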