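import Mathlib

/-!
# P217, closure part, file D2: ideals stable under derivations and p-th roots (module CLD2)
-/

namespace Vale.Agent.P217

open MvPowerSeries

private theorem clsA_coeff_theta {σ k₀ : Type*} [Field k₀] (j : σ) (f : MvPowerSeries σ k₀)
    (β : σ →₀ ℕ) : coeff β (X j * pderiv k₀ j f) = (β j : k₀) * coeff β f := by
  classical
  have hX : (X j : MvPowerSeries σ k₀) = monomial (Finsupp.single j 1) 1 := rfl
  rw [hX, coeff_monomial_mul]
  split_ifs with h
  · rw [coeff_pderiv, one_mul, tsub_add_cancel_of_le h]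
    have h1 : 1 ≤ β j := by
      have := h j
      simpa using this
    have h2 : (((β - Finsupp.single j 1 : σ →₀ ℕ) j : ℕ) : k₀) + 1 = (β j : k₀) := by
      rw [Finsupp.tsub_apply, Finsupp.single_eq_same]
      have h3 : β j - 1 + 1 = β j := by omega
      exact_mod_cast congrArg (Nat.cast (R := k₀)) h3
    rw [h2, mul_comm]
  · have h1 : β j = 0 := by
      by_contra hne
      apply h
      rw [Finsupp.single_le_iff]
      omega
    rw [h1]
    simp

private theorem clsA_iter {σ k₀ : Type*} [Field k₀] (J : Ideal (MvPowerSeries σ k₀))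
    (hD : ∀ j, ∀ Ψ ∈ J, pderiv k₀ j Ψ ∈ J) (j : σ) (n : ℕ) (f : MvPowerSeries σ k₀) (hf : f ∈ J) :
    ∃ g ∈ J, ∀ β : σ →₀ ℕ, coeff β g = (β j : k₀) ^ n * coeff β f := by
  induction n with
  | zero => exact ⟨f, hf, fun β => by simp⟩
  | succ n ih =>
    obtain ⟨g, hg, hc⟩ := ih
    refine ⟨X j * pderiv k₀ j g, J.mul_mem_left _ (hD j g hg), fun β => ?_⟩
    rw [clsA_coeff_theta, hc β]
    ring

private theorem clsA_proj {σ k₀ : Type*} [Field k₀] {p : ℕ} (hp : p.Prime) [CharP k₀ p]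
    (J : Ideal (MvPowerSeries σ k₀)) (hD : ∀ j, ∀ Ψ ∈ J, pderiv k₀ j Ψ ∈ J)
    (f : MvPowerSeries σ k₀) (hf : f ∈ J) (s : Finset σ) :
    ∃ g ∈ J, ∀ β : σ →₀ ℕ, coeff β g = if ∀ j ∈ s, p ∣ β j then coeff β f else 0 := by
  classical
  induction s using Finset.induction_on with
  | empty => exact ⟨f, hf, fun β => by simp⟩
  | insert j s hj ih =>
    obtain ⟨g, hg, hc⟩ := ih
    obtain ⟨g', hg', hc'⟩ := clsA_iter J hD j (p - 1) g hg
    refine ⟨g - g', J.sub_mem hg hg', fun β => ?_⟩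
    rw [map_sub, hc' β]
    have hfact : Fact p.Prime := ⟨hp⟩
    by_cases hdv : p ∣ β j
    · have h1 : (β j : k₀) = 0 := (CharP.cast_eq_zero_iff k₀ p (β j)).2 hdv
      have h2 : p - 1 ≠ 0 := by
        have := hp.two_le
        omega
      rw [h1, zero_pow h2, zero_mul, sub_zero, hc β]
      by_cases hs : ∀ i ∈ s, p ∣ β i
      · rw [if_pos hs, if_pos]
        intro i hi
        rcases Finset.mem_insert.1 hi with h | h
        · rw [h]; exact hdv
        · exact hs i h
      · rw [if_neg hs, if_neg]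
        intro hcon
        exact hs fun i hi => hcon i (Finset.mem_insert_of_mem hi)
    · have h1 : (β j : k₀) ^ (p - 1) = 1 := by
        have h3 : ((β j : ZMod p)) ^ (p - 1) = 1 := by
          apply ZMod.pow_card_sub_one_eq_one
          rwa [Ne, ZMod.natCast_eq_zero_iff]
        have h4 := congrArg (ZMod.castHom (dvd_refl p) k₀) h3
        simpa using h4
      rw [h1, one_mul, sub_self, if_neg]
      intro hcon
      exact hdv (hcon j (Finset.mem_insert_self j s))

/-- An ideal of power series without constant term, over a field in which every element is its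
own `p^h`-th power, stable under the partial derivatives and radical, is zero.
Proof: let `d` be minimal such that some `Ψ ∈ J` has a nonzero coefficient at some `α` with
`α.degree = d`; `p ∣ α j` for all `j` (otherwise `pderiv j Ψ` has the nonzero coefficient `α - e_j`
of degree `d - 1`). With `θ_j f = X j * pderiv j f` (`coeff β (θ_j f) = (β j) * coeff β f`), the
operator `∏_j (1 - θ_j^(p-1))` maps `J` to `J` and keeps exactly the coefficients with all
exponents divisible by `p`. The result is a `p`-th power `Ξ^p`, `coeff β Ξ =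
(coeff (p β) Ψ)^(p^(h-1))`, so `Ξ ∈ J` and `coeff (α / p) Ξ ≠ 0`, hence `d = 0`: contradiction to
the constant term. -/
theorem cls_stepA {σ k₀ : Type*} [Finite σ] [Field k₀] {p h : ℕ} (hp : p.Prime) [CharP k₀ p]
    (hh : 1 ≤ h) (hfix : ∀ a : k₀, a ^ p ^ h = a) (J : Ideal (MvPowerSeries σ k₀))
    (h0 : ∀ Ψ ∈ J, constantCoeff Ψ = 0) (hD : ∀ j, ∀ Ψ ∈ J, pderiv k₀ j Ψ ∈ J)
    (hroot : ∀ Ψ, Ψ ^ p ∈ J → Ψ ∈ J) : J = ⊥ := by
  classical
  have hfin : Fintype σ := Fintype.ofFinite σ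
  have hfact : Fact p.Prime := ⟨hp⟩
  have hexp : ExpChar k₀ p := ExpChar.prime hp
  rw [Submodule.eq_bot_iff]
  by_contra hcon
  push Not at hcon
  obtain ⟨Φ, hΦJ, hΦ⟩ := hcon
  have hex : ∃ d : ℕ, ∃ Ψ ∈ J, ∃ α : σ →₀ ℕ, α.degree = d ∧ coeff α Ψ ≠ 0 := by
    have h1 : ∃ α, coeff α Φ ≠ 0 := by
      by_contra hall
      push Not at hall
      exact hΦ (MvPowerSeries.ext fun α => by rw [hall α]; simp)
    obtain ⟨α, hα⟩ := h1
    exact ⟨α.degree, Φ, hΦJ, α, rfl, hα⟩
  obtain ⟨Ψ, hΨ, α, hαd, hα⟩ := Nat.find_spec hex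
  have hmin : ∀ Ψ' ∈ J, ∀ β : σ →₀ ℕ, coeff β Ψ' ≠ 0 → α.degree ≤ β.degree := by
    intro Ψ' hΨ' β hβ
    rw [hαd]
    exact Nat.find_min' hex ⟨Ψ', hΨ', β, rfl, hβ⟩
  -- all exponents are divisible by `p`
  have hdvd : ∀ j, p ∣ α j := by
    intro j
    by_contra hndv
    have h1 : α j ≠ 0 := fun h => hndv (h ▸ dvd_zero p)
    have h2 : Finsupp.single j 1 ≤ α := by
      rw [Finsupp.single_le_iff]; omega
    have h3 : coeff (α - Finsupp.single j 1) (pderiv k₀ j Ψ) ≠ 0 := by
      rw [coeff_pderiv, tsub_add_cancel_of_le h2]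
      apply mul_ne_zero hα
      have h4 : (((α - Finsupp.single j 1 : σ →₀ ℕ) j : ℕ) : k₀) + 1 = (α j : k₀) := by
        rw [Finsupp.tsub_apply, Finsupp.single_eq_same]
        have h5 : α j - 1 + 1 = α j := by omega
        exact_mod_cast congrArg (Nat.cast (R := k₀)) h5
      rw [h4, Ne, CharP.cast_eq_zero_iff k₀ p]
      exact hndv
    have h4 := hmin _ (hD j Ψ hΨ) _ h3
    have h5 : (α - Finsupp.single j 1).degree + 1 = α.degree := by
      have h6 : α = (α - Finsupp.single j 1) + Finsupp.single j 1 := (tsub_add_cancel_of_le h2).symm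
      conv_rhs => rw [h6, map_add, Finsupp.degree_single]
    omega
  obtain ⟨f, hf, hfc⟩ := clsA_proj hp J hD Ψ hΨ Finset.univ
  have hp0 : p ≠ 0 := hp.ne_zero
  -- `f = expand p g`
  obtain ⟨g, hg⟩ : ∃ g : MvPowerSeries σ k₀, ∀ β, coeff β g = coeff (p • β) Ψ :=
    ⟨fun β => coeff (p • β) Ψ, fun β => rfl⟩
  have hfg : f = expand p hp0 g := by
    ext β
    rw [hfc β]
    split_ifs with hall
    · obtain ⟨m, hm⟩ : ∃ m : σ →₀ ℕ, p • m = β := ⟨β.mapRange (fun a ↦ a / p) (by simp), by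
        ext i; simp [(Nat.mul_div_cancel' (hall i (Finset.mem_univ i)))]⟩
      rw [← hm, coeff_expand_smul, hg m]
    · push Not at hall
      obtain ⟨i, _, hi⟩ := hall
      rw [coeff_expand_of_not_dvd p hp0 g hi]
  -- the `p`-th root
  obtain ⟨Ξ, hΞ⟩ : ∃ Ξ : MvPowerSeries σ k₀, Ξ = map (iterateFrobenius k₀ p (h - 1)) g := ⟨_, rfl⟩
  have hΞp : Ξ ^ p = f := by
    rw [← map_frobenius_expand p hp0, hΞ, ← map_expand, hfg]
    ext β
    rw [coeff_map, coeff_map, iterateFrobenius_def, frobenius_def, ← pow_mul, ← pow_succ,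
      Nat.sub_add_cancel hh, hfix]
  have hΞJ : Ξ ∈ J := hroot Ξ (by rw [hΞp]; exact hf)
  obtain ⟨m, hm⟩ : ∃ m : σ →₀ ℕ, p • m = α := ⟨α.mapRange (fun a ↦ a / p) (by simp), by
        ext i; simp [(Nat.mul_div_cancel' (hdvd i))]⟩
  have hmc : coeff m Ξ ≠ 0 := by
    rw [hΞ, coeff_map, iterateFrobenius_def, hg m, hm]
    exact pow_ne_zero _ hα
  have h1 := hmin Ξ hΞJ m hmc
  have h2 : α.degree = p * m.degree := by
    rw [← hm, map_nsmul, smul_eq_mul]
  have h3 : m.degree = 0 := by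
    have := hp.two_le
    nlinarith
  have h4 : m = 0 := by
    rwa [Finsupp.degree_eq_zero_iff] at h3
  rw [h4, smul_zero] at hm
  rw [← hm] at hα
  exact hα (h0 Ψ hΨ)

end Vale.Agent.P217
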