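import Mathlib

/-!
# P217, closure part, file E: the implicit function theorem for power series (module CLE)
-/

namespace Vale.Agent.P217

open MvPowerSeries

/-- a power series without constant term is in the ideal spanned by the variables -/
private theorem cle_mem_span {k₀ σ : Type*} [Field k₀] [Finite σ] (f : MvPowerSeries σ k₀)
    (hf : constantCoeff f = 0) : f ∈ Ideal.span (Set.range (X : σ → MvPowerSeries σ k₀)) := by
  classical
  cases nonempty_fintype σ
  have hch : ∀ m : σ →₀ ℕ, m ≠ 0 → ∃ s, m s ≠ 0 := by
    intro m hm
    by_contra h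
    push Not at h
    exact hm (Finsupp.ext h)
  let ch : (σ →₀ ℕ) → Option σ := fun m => if h : m = 0 then none else some (hch m h).choose
  have hch0 : ∀ m, m ≠ 0 → ∃ s, ch m = some s ∧ m s ≠ 0 := by
    intro m hm
    refine ⟨(hch m hm).choose, ?_, (hch m hm).choose_spec⟩
    simp only [ch, dif_neg hm]
  let g : σ → MvPowerSeries σ k₀ := fun s n =>
    if ch (n + Finsupp.single s 1) = some s then coeff (n + Finsupp.single s 1) f else 0
  have hg : ∀ s n, coeff n (g s) =
      if ch (n + Finsupp.single s 1) = some s then coeff (n + Finsupp.single s 1) f else 0 :=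
    fun s n => rfl
  have hsum : f = ∑ s, X s * g s := by
    ext m
    rw [map_sum]
    by_cases hm : m = 0
    · subst hm
      rw [coeff_zero_eq_constantCoeff_apply, hf, Finset.sum_eq_zero]
      intro s _
      rw [coeff_zero_eq_constantCoeff_apply, map_mul, constantCoeff_X, zero_mul]
    · obtain ⟨s, hs, hms⟩ := hch0 m hm
      rw [Finset.sum_eq_single s]
      · rw [X_def, coeff_monomial_mul, if_pos, one_mul, hg]
        · have e : m - Finsupp.single s 1 + Finsupp.single s 1 = m := by
            apply tsub_add_cancel_of_le
            rw [Finsupp.single_le_iff]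
            omega
          rw [e, if_pos hs]
        · rw [Finsupp.single_le_iff]
          omega
      · intro t _ hts
        rw [X_def, coeff_monomial_mul]
        split_ifs with h
        · rw [hg]
          have e : m - Finsupp.single t 1 + Finsupp.single t 1 = m := tsub_add_cancel_of_le h
          rw [e, if_neg, mul_zero]
          rw [hs]
          intro h2
          exact hts (Option.some.inj h2).symm
        · rfl
      · intro h
        exact absurd (Finset.mem_univ s) h
  rw [hsum]
  apply Ideal.sum_mem
  intro s _
  exact Ideal.mul_mem_right _ _ (Ideal.subset_span ⟨s, rfl⟩)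

private theorem cle_max {k₀ σ : Type*} [Field k₀] [Finite σ] :
    IsLocalRing.maximalIdeal (MvPowerSeries σ k₀) =
      Ideal.span (Set.range (X : σ → MvPowerSeries σ k₀)) := by
  apply le_antisymm
  · intro f hf
    rw [IsLocalRing.mem_maximalIdeal, mem_nonunits_iff, isUnit_iff_constantCoeff] at hf
    apply cle_mem_span
    by_contra h
    exact hf (isUnit_iff_ne_zero.2 h)
  · rw [Ideal.span_le]
    rintro _ ⟨s, rfl⟩
    rw [SetLike.mem_coe, IsLocalRing.mem_maximalIdeal, mem_nonunits_iff, isUnit_iff_constantCoeff,
      constantCoeff_X]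
    exact not_isUnit_zero

private theorem cle_rename {k₀ σ : Type*} [Field k₀] (H : MvPowerSeries σ k₀) :
    optionEquivLeft σ k₀ (subst (fun s : σ => (X (some s) : MvPowerSeries (Option σ) k₀)) H) =
      PowerSeries.C H := by
  classical
  have e1 : subst (fun s : σ => (X (some s) : MvPowerSeries (Option σ) k₀)) H =
      rename (Function.Embedding.some : σ ↪ Option σ) H := by
    rw [rename_eq_subst]
    rfl
  rw [e1]
  apply PowerSeries.ext
  intro n
  ext x
  rw [coeff_coeff_optionEquivLeft, PowerSeries.coeff_C]
  cases n with
  | zero =>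
    rw [if_pos rfl]
    have e2 : x.optionElim 0 = Finsupp.embDomain Function.Embedding.some x := by
      ext a
      cases a with
      | none =>
        rw [Finsupp.optionElim_apply_none, Finsupp.embDomain_of_notMem_range]
        simp
      | some a =>
        rw [Finsupp.optionElim_apply_some]
        exact (Finsupp.embDomain_apply_self Function.Embedding.some x a).symm
    rw [e2, coeff_embDomain_rename]
  | succ n =>
    rw [if_neg (by omega), coeff_zero]
    apply coeff_rename_eq_zero
    rintro ⟨y, hy⟩
    have h1 := DFunLike.congr_fun hy none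
    rw [Finsupp.optionElim_apply_none, Finsupp.mapDomain_of_notMem_range] at h1
    · omega
    · simp

/-- Implicit function theorem as a factorisation. Proof: `MvPowerSeries.optionEquivLeft` and
Weierstrass preparation (`PowerSeries.exists_isWeierstrassFactorization` over the complete local
ring `MvPowerSeries σ k₀`, `MvPowerSeries.isAdicComplete`; the maximal ideal is
`span (range X)`), the distinguished polynomial has degree one. -/
theorem cls_ift {k₀ σ : Type*} [Field k₀] [Finite σ] (Ψ : MvPowerSeries (Option σ) k₀)
    (h0 : constantCoeff Ψ = 0) (h1 : coeff (Finsupp.single none 1) Ψ ≠ 0) :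
    ∃ (H : MvPowerSeries σ k₀) (U : (MvPowerSeries (Option σ) k₀)ˣ), constantCoeff H = 0 ∧
      Ψ = (X none - subst (fun s : σ => (X (some s) : MvPowerSeries (Option σ) k₀)) H) *
        (U : MvPowerSeries (Option σ) k₀) := by
  classical
  set g := optionEquivLeft σ k₀ Ψ with hg
  have : IsAdicComplete (IsLocalRing.maximalIdeal (MvPowerSeries σ k₀)) (MvPowerSeries σ k₀) := by
    rw [cle_max]
    infer_instance
  have c1 : constantCoeff (PowerSeries.coeff 1 g) ≠ 0 := by
    have e : (0 : σ →₀ ℕ).optionElim 1 = Finsupp.single none 1 := by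
      ext a
      cases a with
      | none => simp
      | some a => simp
    rw [← coeff_zero_eq_constantCoeff_apply, hg, coeff_coeff_optionEquivLeft, e]
    exact h1
  have c0 : constantCoeff (PowerSeries.coeff 0 g) = 0 := by
    have e : (0 : σ →₀ ℕ).optionElim 0 = 0 := by
      ext a
      cases a with
      | none => simp
      | some a => simp
    rw [← coeff_zero_eq_constantCoeff_apply, hg, coeff_coeff_optionEquivLeft, e,
      coeff_zero_eq_constantCoeff_apply]
    exact h0
  have r1 : PowerSeries.coeff 1 (g.map (IsLocalRing.residue (MvPowerSeries σ k₀))) ≠ 0 := by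
    rw [PowerSeries.coeff_map, Ne, IsLocalRing.residue_eq_zero_iff, IsLocalRing.mem_maximalIdeal,
      mem_nonunits_iff, not_not, isUnit_iff_constantCoeff]
    exact isUnit_iff_ne_zero.2 c1
  have r0 : PowerSeries.coeff 0 (g.map (IsLocalRing.residue (MvPowerSeries σ k₀))) = 0 := by
    rw [PowerSeries.coeff_map, IsLocalRing.residue_eq_zero_iff, IsLocalRing.mem_maximalIdeal,
      mem_nonunits_iff, isUnit_iff_constantCoeff, c0]
    exact not_isUnit_zero
  have hne : g.map (IsLocalRing.residue (MvPowerSeries σ k₀)) ≠ 0 := by
    intro h
    rw [h, map_zero] at r1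
    exact r1 rfl
  have hord : (g.map (IsLocalRing.residue (MvPowerSeries σ k₀))).order = (1 : ℕ) := by
    rw [PowerSeries.order_eq_nat]
    refine ⟨r1, fun i hi => ?_⟩
    have : i = 0 := by omega
    rw [this, r0]
  obtain ⟨f, h, W⟩ := PowerSeries.exists_isWeierstrassFactorization hne
  have hdeg : f.natDegree = 1 := by
    rw [W.natDegree_eq_toNat_order_map, hord]
    rfl
  have hmon := W.isDistinguishedAt.monic
  have hf : f = Polynomial.X + Polynomial.C (f.coeff 0) := by
    have := hmon.as_sum
    rw [hdeg, pow_one, Finset.sum_range_one, pow_zero, mul_one] at this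
    exact this
  have ha : f.coeff 0 ∈ IsLocalRing.maximalIdeal (MvPowerSeries σ k₀) :=
    W.isDistinguishedAt.mem (by rw [hdeg]; exact one_pos)
  have hac : constantCoeff (f.coeff 0) = 0 := by
    rw [IsLocalRing.mem_maximalIdeal, mem_nonunits_iff, isUnit_iff_constantCoeff] at ha
    by_contra hc
    exact ha (isUnit_iff_ne_zero.2 hc)
  refine ⟨-(f.coeff 0), (W.isUnit.map (optionEquivLeft σ k₀).symm).unit, ?_, ?_⟩
  · rw [map_neg, hac, neg_zero]
  · apply (optionEquivLeft σ k₀).injective
    rw [map_mul, map_sub, cle_rename, optionEquivLeft_X_none, IsUnit.unit_spec,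
      AlgEquiv.apply_symm_apply, ← hg, W.eq_mul, map_neg, sub_neg_eq_add]
    congr 1
    conv_lhs => rw [hf]
    simp

end Vale.Agent.P217
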