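import Vale.Agent.P217.Points

/-!
# P217, closure part, file F: components of homomorphisms `F^σ → F` (module CLF)
-/

namespace Vale.Agent.P217

open MvPowerSeries

theorem clf_subst_zero {R σ τ : Type*} [CommRing R] {b : σ → MvPowerSeries τ R}
    (hb : HasSubst b) : subst b (0 : MvPowerSeries σ R) = 0 := by
  rw [← coe_substAlgHom hb, map_zero]

theorem clf_subst_zero_right {R σ τ : Type*} [CommRing R] [Finite σ] (F : MvPowerSeries σ R)
    (hF : constantCoeff F = 0) {b : σ → MvPowerSeries τ R} (hb : ∀ s, b s = 0) :
    subst b F = 0 := by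
  have hb' : b = fun _ => 0 := funext hb
  have h : HasSubst b := hasSubst_of_constantCoeff_zero fun s => by rw [hb s, map_zero]
  ext e
  rw [coeff_subst h, map_zero]
  apply finsum_eq_zero_of_forall_eq_zero
  intro d
  by_cases hd : d = 0
  · rw [hd, coeff_zero_eq_constantCoeff_apply, hF, zero_smul]
  · have h1 : (d.prod fun s e => b s ^ e) = 0 := by
      obtain ⟨s, hs⟩ := Finsupp.ne_iff.1 hd
      rw [Finsupp.prod]
      refine Finset.prod_eq_zero (Finsupp.mem_support_iff.2 hs) ?_
      rw [hb s]
      exact zero_pow hs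
    rw [h1, map_zero, smul_zero]

/-- The restriction of a homomorphism `F^σ → F` to a coordinate axis is an endomorphism of `F`.
Proof: substitute `X (inl s) ↦ if s = i then X 0 else 0`, `X (inr s) ↦ if s = i then X 1 else 0`
in `hH` (`subst_comp_subst_apply`). -/
theorem cls_hom_single {R σ : Type*} [CommRing R] [Finite σ] [DecidableEq σ] {p n : ℕ}
    [Fact p.Prime] {v : ℕ → R} (H : MvPowerSeries σ R) (h0 : constantCoeff H = 0)
    (hH : subst (fun s : σ => subst ![(X (Sum.inl s) : MvPowerSeries (σ ⊕ σ) R), X (Sum.inr s)]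
        (Fv p n v)) H =
      subst ![subst (fun s : σ => (X (Sum.inl s) : MvPowerSeries (σ ⊕ σ) R)) H,
        subst (fun s : σ => (X (Sum.inr s) : MvPowerSeries (σ ⊕ σ) R)) H] (Fv p n v)) (i : σ) :
    IsHomS p n v v (subst (fun s : σ => if s = i then (PowerSeries.X : PowerSeries R) else 0) H
      : PowerSeries R) := by
  have hF0 : constantCoeff (Fv p n v) = 0 := Fv_constantCoeff p n v
  set a : σ → MvPowerSeries Unit R := fun s => if s = i then (PowerSeries.X : PowerSeries R) else 0
    with ha
  have ha0 : ∀ s, constantCoeff (a s) = 0 := by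
    intro s
    rw [ha]
    dsimp only
    split_ifs
    · exact constantCoeff_X _
    · exact map_zero _
  have hsa : HasSubst a := hasSubst_of_constantCoeff_zero ha0
  set c : σ ⊕ σ → MvPowerSeries (Fin 2) R :=
    Sum.elim (fun s => if s = i then X 0 else 0) (fun s => if s = i then X 1 else 0) with hc
  have hc0 : ∀ s, constantCoeff (c s) = 0 := by
    rintro (s | s) <;> rw [hc] <;> simp only [Sum.elim_inl, Sum.elim_inr] <;> split_ifs <;>
      first | exact constantCoeff_X _ | exact map_zero _
  have hsc : HasSubst c := hasSubst_of_constantCoeff_zero hc0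
  have hl : HasSubst (fun s : σ => (X (Sum.inl s) : MvPowerSeries (σ ⊕ σ) R)) :=
    hasSubst_of_constantCoeff_zero fun s => constantCoeff_X _
  have hr : HasSubst (fun s : σ => (X (Sum.inr s) : MvPowerSeries (σ ⊕ σ) R)) :=
    hasSubst_of_constantCoeff_zero fun s => constantCoeff_X _
  have hlr : ∀ s : σ, HasSubst ![(X (Sum.inl s) : MvPowerSeries (σ ⊕ σ) R), X (Sum.inr s)] :=
    fun s => hasSubst_of_constantCoeff_zero fun t => by fin_cases t <;> exact constantCoeff_X _
  have hH0l : constantCoeff (subst (fun s : σ => (X (Sum.inl s) : MvPowerSeries (σ ⊕ σ) R)) H) = 0 :=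
    constantCoeff_subst_eq_zero hl (fun s => constantCoeff_X _) h0
  have hH0r : constantCoeff (subst (fun s : σ => (X (Sum.inr s) : MvPowerSeries (σ ⊕ σ) R)) H) = 0 :=
    constantCoeff_subst_eq_zero hr (fun s => constantCoeff_X _) h0
  have hHp : HasSubst ![subst (fun s : σ => (X (Sum.inl s) : MvPowerSeries (σ ⊕ σ) R)) H,
        subst (fun s : σ => (X (Sum.inr s) : MvPowerSeries (σ ⊕ σ) R)) H] :=
    hasSubst_of_constantCoeff_zero fun t => by fin_cases t <;> assumption
  have hFs : HasSubst (fun s : σ => subst ![(X (Sum.inl s) : MvPowerSeries (σ ⊕ σ) R),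
      X (Sum.inr s)] (Fv p n v)) :=
    hasSubst_of_constantCoeff_zero fun s => constantCoeff_subst_eq_zero (hlr s)
      (fun t => by fin_cases t <;> exact constantCoeff_X _) hF0
  -- the axis substitution `Unit → Fin 2`
  have hone : ∀ (f : MvPowerSeries (Fin 2) R), constantCoeff f = 0 →
      HasSubst (fun _ : Unit => f) := fun f hf => hasSubst_of_constantCoeff_zero fun _ => hf
  have hsub : ∀ (f : MvPowerSeries (Fin 2) R), constantCoeff f = 0 →
      PowerSeries.subst f (subst a H : PowerSeries R) =
        subst (fun s : σ => if s = i then f else 0) H := by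
    intro f hf
    have h := subst_comp_subst_apply hsa (hone f hf) H
    refine h.trans ?_
    congr 1
    funext s
    rw [ha]
    dsimp only
    split_ifs
    · exact subst_X (hone f hf) _
    · exact clf_subst_zero (hone f hf)
  refine ⟨constantCoeff_subst_eq_zero hsa ha0 h0, ?_⟩
  rw [hsub _ hF0, hsub _ (constantCoeff_X _), hsub _ (constantCoeff_X _)]
  have h := congrArg (subst c) hH
  rw [subst_comp_subst_apply hFs hsc, subst_comp_subst_apply hHp hsc] at h
  have e1 : (fun s : σ => subst c (subst ![(X (Sum.inl s) : MvPowerSeries (σ ⊕ σ) R),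
      X (Sum.inr s)] (Fv p n v))) = fun s => if s = i then Fv p n v else 0 := by
    funext s
    rw [subst_comp_subst_apply (hlr s) hsc]
    split_ifs with hs
    · have e : (fun t : Fin 2 => subst c (![(X (Sum.inl s) : MvPowerSeries (σ ⊕ σ) R),
          X (Sum.inr s)] t)) = X := by
        funext t
        fin_cases t
        · show subst c (X (Sum.inl s)) = X 0
          rw [subst_X hsc, hc]
          simp [hs]
        · show subst c (X (Sum.inr s)) = X 1
          rw [subst_X hsc, hc]
          simp [hs]
      rw [e, subst_self]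
      rfl
    · refine clf_subst_zero_right _ hF0 fun t => ?_
      fin_cases t
      · show subst c (X (Sum.inl s)) = 0
        rw [subst_X hsc, hc]
        simp [hs]
      · show subst c (X (Sum.inr s)) = 0
        rw [subst_X hsc, hc]
        simp [hs]
  have e2 : (fun t : Fin 2 => subst c (![subst (fun s : σ =>
        (X (Sum.inl s) : MvPowerSeries (σ ⊕ σ) R)) H,
        subst (fun s : σ => (X (Sum.inr s) : MvPowerSeries (σ ⊕ σ) R)) H] t)) =
      ![subst (fun s : σ => if s = i then X 0 else 0) H,
        subst (fun s : σ => if s = i then X 1 else 0) H] := by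
    funext t
    fin_cases t
    · show subst c (subst (fun s : σ => (X (Sum.inl s) : MvPowerSeries (σ ⊕ σ) R)) H) =
        subst (fun s : σ => if s = i then X 0 else 0) H
      rw [subst_comp_subst_apply hl hsc]
      congr 1
      funext s
      rw [subst_X hsc, hc]
      rfl
    · show subst c (subst (fun s : σ => (X (Sum.inr s) : MvPowerSeries (σ ⊕ σ) R)) H) =
        subst (fun s : σ => if s = i then X 1 else 0) H
      rw [subst_comp_subst_apply hr hsc]
      congr 1
      funext s
      rw [subst_X hsc, hc]
      rfl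
  rw [e1, e2] at h
  exact h

end Vale.Agent.P217
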