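import Vale.Agent.P217.ClosureC

/-!
# P217, closure part, file G: slices of power series in two groups of variables
-/

namespace Vale.Agent.P217

open Finset MvPowerSeries Filter Topology

section

variable {R σ τ : Type*} [Semiring R]

/-- coefficients of a series in two groups of variables -/
def clsSlice (β : τ →₀ ℕ) (H : MvPowerSeries (σ ⊕ τ) R) : MvPowerSeries σ R :=
  fun α => coeff (α.sumElim β) H

theorem coeff_clsSlice (α : σ →₀ ℕ) (β : τ →₀ ℕ) (H : MvPowerSeries (σ ⊕ τ) R) :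
    coeff α (clsSlice β H) = coeff (α.sumElim β) H := rfl

theorem cls_eq_zero_of_slices (H : MvPowerSeries (σ ⊕ τ) R) (hH : ∀ β, clsSlice β H = 0) :
    H = 0 := by
  refine MvPowerSeries.ext fun d => ?_
  have h1 := coeff_clsSlice (R := R) (Finsupp.sumFinsuppEquivProdFinsupp d).1
    (Finsupp.sumFinsuppEquivProdFinsupp d).2 H
  rw [hH, coeff_zero] at h1
  have h2 : (Finsupp.sumFinsuppEquivProdFinsupp d).1.sumElim
      (Finsupp.sumFinsuppEquivProdFinsupp d).2 = d :=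
    Finsupp.sumFinsuppEquivProdFinsupp.symm_apply_apply d
  rw [h2] at h1
  rw [← h1, coeff_zero]

end

section

variable {p h : ℕ} {k₀ K σ τ : Type*} [Field k₀] [NormedField K] [IsUltrametricDist K]
  [CompleteSpace K] [Algebra k₀ K] [ClsFix p h k₀ K] [Finite σ] [Finite τ]

/-- partial evaluation -/
noncomputable def clsPev (y : σ → K) (H : MvPowerSeries (σ ⊕ τ) k₀) : MvPowerSeries τ K :=
  fun β => clsEv y (clsSlice β H)

omit [IsUltrametricDist K] [CompleteSpace K] [ClsFix p h k₀ K] [Finite σ] [Finite τ] in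
theorem coeff_clsPev (y : σ → K) (H : MvPowerSeries (σ ⊕ τ) k₀) (β : τ →₀ ℕ) :
    coeff β (clsPev y H) = clsEv y (clsSlice β H) := rfl

omit [IsUltrametricDist K] [CompleteSpace K] [Finite τ] in
theorem cls_iter_mem (q : ℕ) (S : Set (τ → K)) (hfrob : ∀ t ∈ S, (fun s => t s ^ q) ∈ S) (t : τ → K)
    (ht : t ∈ S) (l : ℕ) : (fun s => t s ^ q ^ l) ∈ S := by
  induction l with
  | zero => simpa using ht
  | succ l ih =>
    have := hfrob _ ih
    simpa only [← pow_mul, ← pow_succ] using this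

include p h

theorem clsSlice_hasSum (y : σ → K) (hy : ∀ s, ‖y s‖ < 1) (t : τ → K) (ht : ∀ s, ‖t s‖ < 1)
    (H : MvPowerSeries (σ ⊕ τ) k₀) :
    HasSum (fun β : τ →₀ ℕ => coeff β (clsPev y H) * β.prod fun s e => t s ^ e)
      (clsEv (Sum.elim y t) H) := by
  have hyt : ∀ s, ‖Sum.elim y t s‖ < 1 := by
    rintro (s | s)
    · exact hy s
    · exact ht s
  have h1 := clsEv_hasSum (Sum.elim y t) hyt H
  let e : (τ →₀ ℕ) × (σ →₀ ℕ) ≃ (σ ⊕ τ →₀ ℕ) :=
    (Equiv.prodComm _ _).trans Finsupp.sumFinsuppEquivProdFinsupp.symm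
  rw [← e.hasSum_iff] at h1
  refine h1.prod_fiberwise fun β => ?_
  have h2 := (clsEv_hasSum y hy (clsSlice β H)).mul_right (β.prod fun s e => t s ^ e)
  convert! h2 using 1
  funext α
  change algebraMap k₀ K (coeff (α.sumElim β) H) * ((α.sumElim β).prod fun s e =>
    Sum.elim y t s ^ e) = _
  rw [Finsupp.prod_sumElim, coeff_clsSlice, mul_assoc]
  rfl

omit [Finite τ] in
theorem clsPev_norm_le (y : σ → K) (hy : ∀ s, ‖y s‖ < 1) (H : MvPowerSeries (σ ⊕ τ) k₀)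
    (β : τ →₀ ℕ) : ‖coeff β (clsPev y H)‖ ≤ 1 := clsEv_norm_le_one y hy _

omit [CompleteSpace K] [Finite σ] in
/-- exact vanishing along the Frobenius orbit implies asymptotic vanishing -/
theorem cls_AV_of_vanish (k₀ : Type*) [Field k₀] [Algebra k₀ K] [ClsFix p h k₀ K]
    (Φ : MvPowerSeries τ K) (hΦ : ∀ β, ‖coeff β Φ‖ ≤ 1) (t : τ → K)
    (ht : ∀ s, ‖t s‖ < 1) (hvan : ∀ l : ℕ, HasSum (fun β : τ →₀ ℕ => coeff β Φ *
      β.prod fun s e => (t s ^ (p ^ h) ^ l) ^ e) 0) : ClsAV (p ^ h) t Φ := by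
  classical
  obtain ⟨r₀, hr₀, hr₀1, hr₀t⟩ := cls_exists_radius t ht
  refine ⟨max r₀ (1 / 2), lt_of_lt_of_le (by norm_num) (le_max_right _ _),
    max_lt hr₀1 (by norm_num), fun i => (hr₀t i).trans (le_max_left _ _), fun N ρ hρ =>
    Eventually.of_forall fun l => ?_⟩
  set r := max r₀ (1 / 2) with hr
  have hr0 : 0 ≤ r := hr₀.trans (le_max_left _ _)
  have hr1 : r < 1 := max_lt hr₀1 (by norm_num)
  have hrt : ∀ s, ‖t s‖ ≤ r := fun i => (hr₀t i).trans (le_max_left _ _)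
  have hq : 2 ≤ p ^ h := ClsFix.two_le p h k₀ K
  set Q := (p ^ h) ^ l with hQ
  have hQ1 : Q ≠ 0 := by positivity
  let T : Finset (τ →₀ ℕ) := (Finsupp.finite_of_degree_lt N).toFinset
  have hT : ∀ d : τ →₀ ℕ, d ∈ T ↔ d.degree < N := fun d => by simp [T]
  rw [MvPolynomial.eval, MvPolynomial.coe_eval₂Hom, cls_eval₂_sum _ _ _ T
      (fun d hd => coeff_truncTotal_eq_zero _ (not_lt.mp fun h' => hd ((hT d).mpr h')))]
  have e1 : ∑ d ∈ T, (RingHom.id K) (MvPolynomial.coeff d (truncTotal N Φ)) *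
        d.prod (fun s e => (t s ^ Q) ^ e) =
      ∑ d ∈ T, coeff d Φ * d.prod fun s e => (t s ^ Q) ^ e := by
    refine Finset.sum_congr rfl fun d hd => ?_
    rw [coeff_truncTotal _ ((hT d).mp hd), RingHom.id_apply]
  rw [e1]
  let g : (τ →₀ ℕ) → K := fun d => if d ∈ T then coeff d Φ * d.prod fun s e => (t s ^ Q) ^ e else 0
  have hg : HasSum g (∑ d ∈ T, coeff d Φ * d.prod fun s e => (t s ^ Q) ^ e) := by
    have h3 : HasSum g (∑ d ∈ T, g d) := hasSum_sum_of_ne_finset_zero fun d hd => if_neg hd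
    convert h3 using 1
    exact Finset.sum_congr rfl fun d hd => (if_pos hd).symm
  have hd := (hvan l).sub hg
  rw [zero_sub] at hd
  rw [← norm_neg, ← hd.tsum_eq]
  refine (IsUltrametricDist.norm_tsum_le_of_forall_le_of_nonneg (C := (r ^ N) ^ Q) (by positivity)
    fun d => ?_).trans (pow_le_pow_left₀ (by positivity) hρ.le _)
  by_cases hdT : d ∈ T
  · simp only [g, if_pos hdT, ← hQ, sub_self, norm_zero]
    positivity
  · simp only [g, if_neg hdT, sub_zero]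
    rw [norm_mul]
    have h4 : ‖d.prod fun s e => (t s ^ Q) ^ e‖ ≤ (r ^ Q) ^ d.degree :=
      cls_monomial_le (fun s => t s ^ Q) (fun s => by
        rw [norm_pow]; exact pow_le_pow_left₀ (norm_nonneg _) (hrt s) _) d
    calc ‖coeff d Φ‖ * _ ≤ 1 * (r ^ Q) ^ d.degree :=
          mul_le_mul (hΦ d) h4 (norm_nonneg _) zero_le_one
      _ ≤ (r ^ Q) ^ N := by
          rw [one_mul]
          exact pow_le_pow_of_le_one (by positivity) (pow_le_one₀ hr0 hr1.le)
            (not_lt.mp fun h' => hdT ((hT d).mpr h'))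
      _ = (r ^ N) ^ Q := pow_right_comm _ _ _

/-- Lemma A: the partial evaluations decompose into series over the finite field -/
theorem cls_lemmaA (y : σ → K) (hy : ∀ s, ‖y s‖ < 1) (t : τ → K) (ht : ∀ s, ‖t s‖ < 1)
    (H : MvPowerSeries (σ ⊕ τ) k₀)
    (hvan : ∀ l : ℕ, clsEv (Sum.elim y fun s => t s ^ (p ^ h) ^ l) H = 0) (L : K →ₗ[k₀] k₀) :
    clsEv t (clsMap L (clsPev y H)) = 0 := by
  refine cls_ratSeries _ _ (cls_AV_of_vanish k₀ _ (clsPev_norm_le y hy H) t ht fun l => ?_) L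
  rw [← hvan l]
  have hq : 2 ≤ p ^ h := ClsFix.two_le p h k₀ K
  exact clsSlice_hasSum y hy (fun s => t s ^ (p ^ h) ^ l) (fun s => by
    rw [norm_pow]; exact pow_lt_one₀ (norm_nonneg _) (ht s) (by positivity)) H

/-- double vanishing -/
theorem cls_double (S : Set (σ → K)) (S' : Set (τ → K)) (hS : ∀ y ∈ S, ∀ s, ‖y s‖ < 1)
    (hS' : ∀ t ∈ S', ∀ s, ‖t s‖ < 1) (hfrob : ∀ t ∈ S', (fun s => t s ^ p ^ h) ∈ S')
    (h1 : ∀ f : MvPowerSeries σ k₀, (∀ y ∈ S, clsEv y f = 0) → f = 0)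
    (h2 : ∀ f : MvPowerSeries τ k₀, (∀ t ∈ S', clsEv t f = 0) → f = 0)
    (H : MvPowerSeries (σ ⊕ τ) k₀) (hH : ∀ y ∈ S, ∀ t ∈ S', clsEv (Sum.elim y t) H = 0) :
    H = 0 := by
  refine cls_eq_zero_of_slices H fun β => h1 _ fun y hy => ?_
  have h3 : clsPev y H = 0 := by
    by_contra hne
    obtain ⟨L, hL⟩ := clsMap_ne_zero (k₀ := k₀) _ hne
    exact hL (h2 _ fun t ht => cls_lemmaA y (hS y hy) t (hS' t ht) H
      (fun l => hH y hy _ (cls_iter_mem _ S' hfrob t ht l)) L)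
  rw [← coeff_clsPev, h3, coeff_zero]

end

end Vale.Agent.P217
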