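import Vale.Agent.P217.ClosureG
import Vale.Agent.P217.ClosureD
import Vale.Agent.P217.ClosureD2

/-!
# P217, closure part, file I: vanishing ideals are stable under derivations; existence of an
element with nonzero linear part
-/

namespace Vale.Agent.P217

open Finset MvPowerSeries Filter Topology

theorem cls_constantCoeff_subst {R τ τ' : Type*} [CommRing R] [Finite τ]
    (a : τ → MvPowerSeries τ' R) (ha : ∀ s, constantCoeff (a s) = 0) (g : MvPowerSeries τ R) :
    constantCoeff (subst a g) = constantCoeff g := by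
  have ha' : HasSubst a := hasSubst_of_constantCoeff_zero ha
  have h2 : g = C (constantCoeff g) + (g - C (constantCoeff g)) := by ring
  rw [← coe_substAlgHom ha']
  conv_lhs => rw [h2]
  rw [map_add, map_add]
  have h3 : constantCoeff (substAlgHom ha' (g - C (constantCoeff g))) = 0 := by
    rw [coe_substAlgHom ha']
    exact constantCoeff_subst_eq_zero ha' ha (by simp)
  rw [h3, add_zero, coe_substAlgHom ha', subst_C, constantCoeff_C]

set_option linter.unusedSectionVars false

section

variable {R σ : Type*} [CommRing R] [Finite σ]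

/-- the substitution which kills the second group of variables -/
noncomputable def clsE (R σ : Type*) [CommRing R] : σ ⊕ σ → MvPowerSeries σ R :=
  Sum.elim X fun _ => 0

theorem clsE_const (s : σ ⊕ σ) : constantCoeff (clsE R σ s) = 0 := by
  rcases s with s | s
  · exact constantCoeff_X _
  · exact map_zero _

theorem clsE_hasSubst : HasSubst (clsE R σ) := hasSubst_of_constantCoeff_zero clsE_const

theorem cls_slice_zero (H : MvPowerSeries (σ ⊕ σ) R) : clsSlice 0 H = subst (clsE R σ) H := by
  classical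
  ext α
  rw [coeff_clsSlice, coeff_subst clsE_hasSubst]
  have key : ∀ d1 d2 : σ →₀ ℕ, (d1.sumElim d2).prod (fun s e => clsE R σ s ^ e) =
      if d2 = 0 then monomial d1 1 else 0 := by
    intro d1 d2
    rw [Finsupp.prod_sumElim]
    split_ifs with h0
    · rw [h0, Finsupp.prod_zero_index, mul_one]
      rw [monomial_one_eq]
      rfl
    · obtain ⟨s, hs⟩ := Finsupp.ne_iff.mp h0
      rw [Finsupp.zero_apply] at hs
      have h1 : d2.prod ((fun s e => clsE R σ s ^ e) ∘ Sum.inr) = 0 := by
        refine Finset.prod_eq_zero (i := s) (Finsupp.mem_support_iff.mpr hs) ?_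
        exact zero_pow hs
      rw [h1, mul_zero]
  rw [finsum_eq_single _ (α.sumElim 0)]
  · rw [key, if_pos rfl, coeff_monomial_same, smul_eq_mul, mul_one]
  · intro d hd
    have h2 : (Finsupp.sumFinsuppEquivProdFinsupp d).1.sumElim
        (Finsupp.sumFinsuppEquivProdFinsupp d).2 = d :=
      Finsupp.sumFinsuppEquivProdFinsupp.symm_apply_apply d
    rw [← h2, key]
    split_ifs with h3
    · rw [coeff_monomial_ne, smul_zero]
      intro h4
      apply hd
      rw [← h2, h3, h4]
    · rw [map_zero, smul_zero]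

theorem cls_slice_single (j : σ) (H : MvPowerSeries (σ ⊕ σ) R) :
    clsSlice (Finsupp.single j 1) H = clsSlice 0 (pderiv R (Sum.inr j) H) := by
  ext α
  rw [coeff_clsSlice, coeff_clsSlice, coeff_pderiv]
  have h1 : α.sumElim 0 + Finsupp.single (Sum.inr j) 1 = α.sumElim (Finsupp.single j 1) := by
    rw [← Finsupp.sumElim_zero_single, ← Finsupp.sumElim_add, add_zero, zero_add]
  rw [h1]
  simp

/-- the formal group law in the pairs of variables -/
noncomputable def clsPair (F : MvPowerSeries (Fin 2) R) (s : σ) : MvPowerSeries (σ ⊕ σ) R :=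
  subst ![(X (Sum.inl s) : MvPowerSeries (σ ⊕ σ) R), X (Sum.inr s)] F

theorem cls_pair_hasSubst (s : σ) :
    HasSubst ![(X (Sum.inl s) : MvPowerSeries (σ ⊕ σ) R), X (Sum.inr s)] :=
  hasSubst_of_constantCoeff_zero fun i => by fin_cases i <;> exact constantCoeff_X _

theorem clsPair_const (F : MvPowerSeries (Fin 2) R) (hF0 : constantCoeff F = 0) (s : σ) :
    constantCoeff (clsPair F s) = 0 :=
  constantCoeff_subst_eq_zero (cls_pair_hasSubst s)
    (fun i => by fin_cases i <;> exact constantCoeff_X _) hF0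

theorem clsPair_kill (F : MvPowerSeries (Fin 2) R)
    (hF1 : subst ![(PowerSeries.X : PowerSeries R), 0] F = PowerSeries.X) (s : σ) :
    subst (clsE R σ) (clsPair F s) = X s := by
  have h1 : HasSubst (fun _ : Unit => (X s : MvPowerSeries σ R)) :=
    hasSubst_of_constantCoeff_zero fun _ => constantCoeff_X _
  have h2 : HasSubst ![(PowerSeries.X : PowerSeries R), 0] :=
    hasSubst_of_constantCoeff_zero fun i => by
      fin_cases i
      · exact constantCoeff_X _
      · exact map_zero _
  have h3 := congrArg (subst (fun _ : Unit => (X s : MvPowerSeries σ R))) hF1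
  rw [subst_comp_subst_apply h2 h1] at h3
  rw [clsPair, subst_comp_subst_apply (cls_pair_hasSubst s) clsE_hasSubst]
  convert! h3 using 1
  · congr 1
    funext i
    fin_cases i
    · change subst (clsE R σ) (X (Sum.inl s)) = subst (fun _ : Unit => (X s : MvPowerSeries σ R))
        (X () : MvPowerSeries Unit R)
      rw [subst_X clsE_hasSubst, subst_X h1]
      rfl
    · change subst (clsE R σ) (X (Sum.inr s)) = subst (fun _ : Unit => (X s : MvPowerSeries σ R))
        (0 : MvPowerSeries Unit R)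
      rw [subst_X clsE_hasSubst, ← coe_substAlgHom h1, map_zero]
      rfl
  · change _ = subst (fun _ : Unit => (X s : MvPowerSeries σ R)) (X () : MvPowerSeries Unit R)
    rw [subst_X h1]

theorem clsPair_deriv [DecidableEq σ] (F : MvPowerSeries (Fin 2) R) (s j : σ) :
    pderiv R (Sum.inr j) (clsPair F s) =
      subst ![(X (Sum.inl s) : MvPowerSeries (σ ⊕ σ) R), X (Sum.inr s)] (pderiv R 1 F) *
        (if s = j then 1 else 0) := by
  rw [clsPair, cls_chain _ (fun i => by fin_cases i <;> exact constantCoeff_X _),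
    Fin.sum_univ_two]
  have h1 : pderiv R (Sum.inr j) (![(X (Sum.inl s) : MvPowerSeries (σ ⊕ σ) R), X (Sum.inr s)] 0)
      = 0 := pderiv_X_of_ne (by simp)
  have h2 : pderiv R (Sum.inr j) (![(X (Sum.inl s) : MvPowerSeries (σ ⊕ σ) R), X (Sum.inr s)] 1)
      = if s = j then 1 else 0 := by
    split_ifs with h
    · subst h
      exact pderiv_X_self
    · exact pderiv_X_of_ne (by simpa using h)
  rw [h1, h2, mul_zero, zero_add]

theorem cls_slice_deriv (F : MvPowerSeries (Fin 2) R) (hF0 : constantCoeff F = 0)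
    (hF1 : subst ![(PowerSeries.X : PowerSeries R), 0] F = PowerSeries.X)
    (hF2 : constantCoeff (pderiv R 1 F) = 1) (f : MvPowerSeries σ R) (j : σ) :
    ∃ w : MvPowerSeries σ R, constantCoeff w = 1 ∧
      clsSlice (Finsupp.single j 1) (subst (clsPair F) f) = pderiv R j f * w := by
  classical
  cases nonempty_fintype σ
  refine ⟨subst (clsE R σ) (subst ![(X (Sum.inl j) : MvPowerSeries (σ ⊕ σ) R), X (Sum.inr j)]
    (pderiv R 1 F)), ?_, ?_⟩
  · rw [cls_constantCoeff_subst _ clsE_const, cls_constantCoeff_subst _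
      (fun i => by fin_cases i <;> exact constantCoeff_X _), hF2]
  · rw [cls_slice_single, cls_slice_zero, cls_chain _ (clsPair_const F hF0)]
    rw [← coe_substAlgHom (clsE_hasSubst (R := R) (σ := σ)), map_sum]
    simp only [map_mul]
    rw [coe_substAlgHom (clsE_hasSubst (R := R) (σ := σ))]
    have hP : HasSubst (clsPair F : σ → MvPowerSeries (σ ⊕ σ) R) :=
      hasSubst_of_constantCoeff_zero (clsPair_const F hF0)
    have h4 : ∀ g : MvPowerSeries σ R, subst (clsE R σ) (subst (clsPair F) g) = g := by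
      intro g
      rw [subst_comp_subst_apply hP clsE_hasSubst]
      have : (fun s : σ => subst (clsE R σ) (clsPair F s)) = X := funext fun s => clsPair_kill F hF1 s
      rw [this, subst_self]
      rfl
    simp only [h4, clsPair_deriv]
    rw [← coe_substAlgHom (clsE_hasSubst (R := R) (σ := σ))]
    simp only [map_mul]
    rw [Finset.sum_eq_single j]
    · rw [if_pos rfl, map_one, mul_one]
    · intro s _ hs
      rw [if_neg hs, map_zero, mul_zero, mul_zero]
    · simp

end

theorem cls_sumElim_lt {K σ τ : Type*} [NormedField K] (y : σ → K) (hy : ∀ s, ‖y s‖ < 1)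
    (t : τ → K) (ht : ∀ s, ‖t s‖ < 1) : ∀ s, ‖Sum.elim y t s‖ < 1 := by
  rintro (s | s)
  · exact hy s
  · exact ht s

/-- the properties of the formal group law used here -/
structure ClsLaw {R : Type*} [CommRing R] (F : MvPowerSeries (Fin 2) R) : Prop where
  const : constantCoeff F = 0
  unit : subst ![(PowerSeries.X : PowerSeries R), 0] F = PowerSeries.X
  deriv : constantCoeff (pderiv R 1 F) = 1

/-- a set of points of the open unit ball stable under Frobenius and a formal group law -/
structure ClsStable {k₀ K σ : Type*} [Field k₀] [NormedField K] [Algebra k₀ K] (p h : ℕ)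
    (F : MvPowerSeries (Fin 2) k₀) (S : Set (σ → K)) : Prop where
  lt : ∀ y ∈ S, ∀ s, ‖y s‖ < 1
  zero : (fun _ => 0) ∈ S
  frob : ∀ y ∈ S, (fun s => y s ^ p ^ h) ∈ S
  add : ∀ y ∈ S, ∀ t ∈ S, (fun s => clsEv ![y s, t s] F) ∈ S

section

variable {p h : ℕ} {k₀ K σ τ : Type*} [Field k₀] [NormedField K] [IsUltrametricDist K]
  [CompleteSpace K] [Algebra k₀ K] [ClsFix p h k₀ K] [Finite σ] [Finite τ]

include p h

theorem clsEv_pair (F : MvPowerSeries (Fin 2) k₀) (y t : σ → K) (hy : ∀ s, ‖y s‖ < 1)
    (ht : ∀ s, ‖t s‖ < 1) (s : σ) :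
    clsEv (Sum.elim y t) (clsPair F s) = clsEv ![y s, t s] F := by
  have hyt := cls_sumElim_lt y hy t ht
  rw [clsPair, clsEv_subst _ hyt _ (fun i => by fin_cases i <;> exact constantCoeff_X _)]
  congr 1
  funext i
  fin_cases i
  · exact clsEv_X _ hyt _
  · exact clsEv_X _ hyt _

theorem clsEv_law (F : MvPowerSeries (Fin 2) k₀) (hF : constantCoeff F = 0) (f : MvPowerSeries σ k₀)
    (y t : σ → K) (hy : ∀ s, ‖y s‖ < 1) (ht : ∀ s, ‖t s‖ < 1) :
    clsEv (Sum.elim y t) (subst (clsPair F) f) = clsEv (fun s => clsEv ![y s, t s] F) f := by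
  have hyt := cls_sumElim_lt y hy t ht
  rw [clsEv_subst _ hyt _ (clsPair_const F hF)]
  congr 1
  funext s
  exact clsEv_pair F y t hy ht s

theorem clsEv_ne_zero (y : σ → K) (hy : ∀ s, ‖y s‖ < 1) (w : MvPowerSeries σ k₀)
    (hw : constantCoeff w = 1) : clsEv y w ≠ 0 := by
  intro h0
  have h1 := clsEv_norm_lt_one y hy (w - 1) (by rw [map_sub, hw, map_one, sub_self])
  rw [clsEv_sub y hy, h0, zero_sub, norm_neg] at h1
  have h2 := clsEv_C y hy (1 : k₀)
  rw [map_one, map_one] at h2
  rw [h2, norm_one] at h1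
  exact lt_irrefl _ h1

theorem cls_deriv_stable {F : MvPowerSeries (Fin 2) k₀} (hF : ClsLaw F) {S : Set (σ → K)}
    (hS : ClsStable p h F S)
    (hlin : ∀ f : MvPowerSeries σ k₀, (∀ y ∈ S, clsEv y f = 0) → ∀ j,
      coeff (Finsupp.single j 1) f = 0)
    (f : MvPowerSeries σ k₀) (hf : ∀ y ∈ S, clsEv y f = 0) (j : σ) :
    ∀ y ∈ S, clsEv y (pderiv k₀ j f) = 0 := by
  intro y hy
  set D := subst (clsPair F) f with hD
  have h1 : ∀ L : K →ₗ[k₀] k₀, ∀ t ∈ S, clsEv t (clsMap L (clsPev y D)) = 0 := by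
    intro L t ht
    refine cls_lemmaA y (hS.lt y hy) t (hS.lt t ht) D (fun l => ?_) L
    have ht' := cls_iter_mem _ S hS.frob t ht l
    rw [hD, clsEv_law F hF.const f y _ (hS.lt y hy) (hS.lt _ ht')]
    exact hf _ (hS.add _ hy _ ht')
  have h2 : coeff (Finsupp.single j 1) (clsPev y D) = 0 := by
    refine (Module.forall_dual_apply_eq_zero_iff k₀ _).mp fun L => ?_
    change L _ = 0
    rw [← coeff_clsMap]
    exact hlin _ (h1 L) j
  rw [coeff_clsPev] at h2
  obtain ⟨w, hw, hw2⟩ := cls_slice_deriv F hF.const hF.unit hF.deriv f j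
  rw [← hD] at hw2
  rw [hw2, clsEv_mul y (hS.lt y hy)] at h2
  exact (mul_eq_zero.mp h2).resolve_right (clsEv_ne_zero y (hS.lt y hy) w hw)

omit [CompleteSpace K] [Finite σ] in
theorem clsEv_at_zero (f : MvPowerSeries σ k₀) :
    clsEv (fun _ => (0 : K)) f = algebraMap k₀ K (constantCoeff f) := by
  rw [clsEv, tsum_eq_single 0]
  · simp
  · intro d hd
    obtain ⟨s, hs⟩ := Finsupp.ne_iff.mp hd
    rw [Finsupp.zero_apply] at hs
    rw [Finsupp.prod, Finset.prod_eq_zero (Finsupp.mem_support_iff.mpr hs) (zero_pow hs), mul_zero]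

/-- the ideal of series vanishing on a set of points -/
def clsIdeal (k₀ : Type*) [Field k₀] [Algebra k₀ K] [ClsFix p h k₀ K] (S : Set (σ → K))
    (hS : ∀ y ∈ S, ∀ s, ‖y s‖ < 1) : Ideal (MvPowerSeries σ k₀) where
  carrier := {f | ∀ y ∈ S, clsEv y f = 0}
  add_mem' := by
    intro f g hf hg y hy
    rw [clsEv_add y (hS y hy), hf y hy, hg y hy, add_zero]
  zero_mem' := fun y hy => clsEv_zero y (hS y hy)
  smul_mem' := by
    intro c f hf y hy
    rw [smul_eq_mul, clsEv_mul y (hS y hy), hf y hy, mul_zero]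

/-- a nonzero series vanishing on a stable set gives one with nonzero linear part -/
theorem cls_exists_linear {F : MvPowerSeries (Fin 2) k₀} (hF : ClsLaw F) {S : Set (σ → K)}
    (hS : ClsStable p h F S) (f : MvPowerSeries σ k₀) (hf0 : f ≠ 0)
    (hf : ∀ y ∈ S, clsEv y f = 0) :
    ∃ g : MvPowerSeries σ k₀, (∀ y ∈ S, clsEv y g = 0) ∧ ∃ j,
      coeff (Finsupp.single j 1) g ≠ 0 := by
  by_contra hcon
  push Not at hcon
  have hfix : ClsFix p h k₀ K := inferInstance
  have hK := hfix.charP
  have hk : CharP k₀ p := (algebraMap k₀ K).charP (algebraMap k₀ K).injective p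
  have hJ := cls_stepA hfix.prime hfix.pos (hfix.fix) (clsIdeal k₀ S hS.lt) (fun Ψ hΨ => ?_)
    (fun j Ψ hΨ => cls_deriv_stable hF hS (fun f hf j => hcon f hf j) Ψ hΨ j) (fun Ψ hΨ y hy => ?_)
  · have h1 : f ∈ clsIdeal k₀ S hS.lt := hf
    rw [hJ] at h1
    exact hf0 h1
  · have h1 := hΨ _ hS.zero
    rw [clsEv_at_zero] at h1
    exact (map_eq_zero (algebraMap k₀ K)).mp h1
  · have h1 := hΨ y hy
    rw [clsEv_pow y (hS.lt y hy)] at h1
    exact pow_eq_zero_iff hfix.prime.ne_zero |>.mp h1

end

end Vale.Agent.P217
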