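import Vale.Agent.P217.Points

/-!
# P217: module CP (helper33). Functoriality of `mulS`, and the reduction of `mulS_CP` to the
formula for `[p]` over `F_p[ε]` (Taylor expansion of the universal coefficient).
-/

namespace Vale.Agent.P217

open MvPowerSeries

theorem mulS_constantCoeff {R : Type*} [CommRing R] (p n : ℕ) [Fact p.Prime] (v : ℕ → R) (m : ℕ) :
    PowerSeries.constantCoeff (mulS p n v m) = 0 := by
  induction m with
  | zero => simp [mulS]
  | succ m ih =>
    rw [mulS]
    have h0 : constantCoeff (Fv p n v) = 0 := Fv_constantCoeff p n v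
    refine constantCoeff_subst_eq_zero (a := ![(PowerSeries.X : PowerSeries R), mulS p n v m])
      ?_ ?_ h0
    · apply hasSubst_of_constantCoeff_zero
      intro i
      fin_cases i
      · exact PowerSeries.constantCoeff_X
      · exact ih
    · intro i
      fin_cases i
      · exact PowerSeries.constantCoeff_X
      · exact ih

theorem hasSubst_X_mulS {R : Type*} [CommRing R] (p n : ℕ) [Fact p.Prime] (v : ℕ → R) (m : ℕ) :
    HasSubst ![(PowerSeries.X : PowerSeries R), mulS p n v m] := by
  apply hasSubst_of_constantCoeff_zero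
  intro i
  fin_cases i
  · exact PowerSeries.constantCoeff_X
  · exact mulS_constantCoeff p n v m

/-- Functoriality of the multiplication series. -/
theorem mulS_map {R S : Type*} [CommRing R] [CommRing S] (p n : ℕ) [Fact p.Prime] (v : ℕ → R)
    (φ : R →+* S) (m : ℕ) :
    (mulS p n v m).map φ = mulS p n (fun j => φ (v j)) m := by
  induction m with
  | zero => simp [mulS]
  | succ m ih =>
    rw [mulS, mulS]
    have h := map_subst (hasSubst_X_mulS p n v m) (h := φ) (Fv p n v)
    refine h.trans ?_
    rw [Fv_map p n v φ]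
    congr 1
    funext i
    fin_cases i
    · simp
      exact PowerSeries.map_X φ
    · exact ih

theorem mulS_congr {R : Type*} [CommRing R] (p n : ℕ) [Fact p.Prime] {v w : ℕ → R}
    (hvw : ∀ j, 1 ≤ j → j ≤ n → v j = w j) (m : ℕ) : mulS p n v m = mulS p n w m := by
  induction m with
  | zero => simp [mulS]
  | succ m ih =>
    rw [mulS, mulS, ih, Fv_congr p n v w hvw]

/-- The universal coefficient. -/
noncomputable def uc (p n i : ℕ) : MvPolynomial ℕ ℤ :=
  PowerSeries.coeff i (mulS p n (fun j => (MvPolynomial.X j : MvPolynomial ℕ ℤ)) p)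

theorem coeff_mulS {R : Type*} [CommRing R] (p n : ℕ) [Fact p.Prime] (v : ℕ → R) (i : ℕ) :
    PowerSeries.coeff i (mulS p n v p) = spec v (uc p n i) := by
  have h := mulS_map p n (fun j => (MvPolynomial.X j : MvPolynomial ℕ ℤ)) (spec v) p
  have h2 : (fun j => spec v (MvPolynomial.X j : MvPolynomial ℕ ℤ)) = v := by
    funext j
    simp [spec]
  rw [h2] at h
  rw [← h, PowerSeries.coeff_map]
  rfl

/-- Taylor expansion to first order. -/
theorem taylor {R : Type*} [CommRing R] (I : Ideal R) (n : ℕ) (w : ℕ → ℤ) (v : ℕ → R)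
    (hI : ∀ j, v j - (w j : R) ∈ I) (h0 : ∀ j, n ≤ j → v j = (w j : R))
    (c : MvPolynomial ℕ ℤ) :
    spec v c - ((MvPolynomial.eval w c : ℤ) : R) -
      ∑ j ∈ Finset.range n, (v j - (w j : R)) *
        ((MvPolynomial.eval w (MvPolynomial.pderiv j c) : ℤ) : R) ∈ I ^ 2 := by
  induction c using MvPolynomial.induction_on with
  | C a => simp [spec]
  | add f g hf hg =>
    have := Ideal.add_mem _ hf hg
    convert this using 1
    simp only [map_add, Int.cast_add, mul_add, Finset.sum_add_distrib]
    ring
  | mul_X f k hf =>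
    have h1 : (spec v f - ((MvPolynomial.eval w f : ℤ) : R)) ∈ I := by
      have hI2 : I ^ 2 ≤ I := Ideal.pow_le_self (by norm_num)
      have h3 : ∑ j ∈ Finset.range n, (v j - (w j : R)) *
        ((MvPolynomial.eval w (MvPolynomial.pderiv j f) : ℤ) : R) ∈ I :=
        Ideal.sum_mem _ fun j _ => Ideal.mul_mem_right _ _ (hI j)
      have := Ideal.add_mem _ (hI2 hf) h3
      simpa using this
    have h2 : (spec v f - ((MvPolynomial.eval w f : ℤ) : R)) * (v k - (w k : R)) ∈ I ^ 2 := by
      rw [pow_two]
      exact Ideal.mul_mem_mul h1 (hI k)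
    have h3 := Ideal.mul_mem_right ((w k : R)) _ hf
    have h4 := Ideal.add_mem _ h2 h3
    convert h4 using 1
    have hk : ∑ j ∈ Finset.range n, (v j - (w j : R)) *
        ((MvPolynomial.eval w (MvPolynomial.pderiv j (f * MvPolynomial.X k)) : ℤ) : R)
        = (∑ j ∈ Finset.range n, (v j - (w j : R)) *
        ((MvPolynomial.eval w (MvPolynomial.pderiv j f) : ℤ) : R)) * (w k : R)
          + ((MvPolynomial.eval w f : ℤ) : R) * (v k - (w k : R)) := by
      rw [Finset.sum_mul]
      have hs : ((MvPolynomial.eval w f : ℤ) : R) * (v k - (w k : R)) =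
          ∑ j ∈ Finset.range n, (if j = k then ((MvPolynomial.eval w f : ℤ) : R) * (v k - (w k : R))
            else 0) := by
        by_cases hkn : k < n
        · rw [Finset.sum_ite_eq' (Finset.range n) k]
          simp [hkn]
        · rw [h0 k (by omega)]
          simp
      rw [hs, ← Finset.sum_add_distrib]
      refine Finset.sum_congr rfl fun j _ => ?_
      rw [Derivation.leibniz, MvPolynomial.pderiv_X]
      by_cases hjk : j = k
      · subst hjk
        simp
        ring
      · have : (Pi.single j (1 : MvPolynomial ℕ ℤ) : ℕ → MvPolynomial ℕ ℤ) k = 0 := by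
          rw [Pi.single_apply, if_neg (fun h => hjk h.symm)]
        simp [hjk]
        ring
    rw [hk]
    simp only [spec] at *
    simp only [map_mul, MvPolynomial.coe_eval₂Hom, MvPolynomial.eval₂_X, MvPolynomial.eval_X,
      Int.cast_mul]
    ring


/-- The coefficient formula over the dual numbers of `F_p` (follows from US1 and US5). -/
def DualForm (p n : ℕ) : Prop :=
  ∀ v : ℕ → DualNumber (ZMod p),
    (∀ j, 1 ≤ j → j < n → v j ∈ Ideal.span {(DualNumber.eps : DualNumber (ZMod p))}) → v n = 1 →
    ∀ i, i < p ^ n → PowerSeries.coeff i (mulS p n v p) =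
      if i = p ^ (Nat.log p i) ∧ i ≠ 1 then v (Nat.log p i) else 0

theorem eps_ideal_sq (p : ℕ) :
    (Ideal.span {(DualNumber.eps : DualNumber (ZMod p))}) ^ 2 = ⊥ := by
  rw [Ideal.span_singleton_pow, pow_two, DualNumber.eps_mul_eps]
  simp

theorem dual_intCast (p : ℕ) (a : ℤ) : ((a : DualNumber (ZMod p))).fst = (a : ZMod p) := by
  simp

theorem dual_intCast_snd (p : ℕ) (a : ℤ) : ((a : DualNumber (ZMod p))).snd = 0 := by
  simp

/-- `1 < i = p ^ log i < p ^ n` forces `1 ≤ log i < n`. -/
theorem log_range {p n i : ℕ} (hp : 1 < p) (hi : i < p ^ n) (h : i = p ^ (Nat.log p i) ∧ i ≠ 1) :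
    1 ≤ Nat.log p i ∧ Nat.log p i < n := by
  obtain ⟨h1, h2⟩ := h
  constructor
  · rcases Nat.eq_zero_or_pos (Nat.log p i) with h0 | h0
    · rw [h0, pow_zero] at h1
      exact absurd h1 h2
    · exact h0
  · by_contra hc
    push Not at hc
    have := Nat.pow_le_pow_right (by omega : 0 < p) hc
    omega

theorem dvd_coeff_mulS_Gam {p n : ℕ} [Fact p.Prime] (H : DualForm p n) {i : ℕ} (hi : i < p ^ n) :
    (p : ℤ) ∣ PowerSeries.coeff i (mulS p n (Gam n : ℕ → ℤ) p) := by
  have h1 := H (fun j => ((Gam n j : ℤ) : DualNumber (ZMod p))) (by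
    intro j _ h2
    have : (Gam n j : ℤ) = 0 := by simp [Gam]; omega
    rw [this]
    simp) (by simp [Gam]) i hi
  have h2 := mulS_map p n (Gam n : ℕ → ℤ) (Int.castRingHom (DualNumber (ZMod p))) p
  have h3 := congrArg (PowerSeries.coeff i) h2
  rw [PowerSeries.coeff_map] at h3
  have h4 : (fun j => (Int.castRingHom (DualNumber (ZMod p))) ((Gam n : ℕ → ℤ) j)) =
      (fun j => ((Gam n j : ℤ) : DualNumber (ZMod p))) := by
    funext j; simp
  rw [h4, h1] at h3
  have h5 : (if i = p ^ (Nat.log p i) ∧ i ≠ 1 then
      ((Gam n (Nat.log p i) : ℤ) : DualNumber (ZMod p)) else 0) = 0 := by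
    split_ifs with hc
    · have := log_range (Fact.out : p.Prime).one_lt hi hc
      have h6 : (Gam n (Nat.log p i) : ℤ) = 0 := by simp [Gam]; omega
      rw [h6]; simp
    · rfl
  rw [h5] at h3
  have h6 := congrArg TrivSqZeroExt.fst h3
  simp only [eq_intCast, TrivSqZeroExt.fst_intCast, TrivSqZeroExt.fst_zero] at h6
  exact (ZMod.intCast_zmod_eq_zero_iff_dvd _ p).mp h6

theorem mulS_CP_of {R : Type*} [CommRing R] {p n : ℕ} [Fact p.Prime] (H : DualForm p n)
    {v : ℕ → R} (hn : 1 ≤ n) (I : Ideal R) (hp : (p : R) ∈ I)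
    (hI : ∀ j, 1 ≤ j → j < n → v j ∈ I) (h1 : v n = 1) (i : ℕ) (hi : i < p ^ n) :
    PowerSeries.coeff i (mulS p n v p) -
      (if i = p ^ (Nat.log p i) ∧ i ≠ 1 then v (Nat.log p i) else 0) -
      (p : R) * (((PowerSeries.coeff i (mulS p n (Gam n : ℕ → ℤ) p) / (p : ℤ) : ℤ)) : R)
        ∈ I ^ 2 := by
  classical
  -- normalise `v`
  set u : ℕ → R := fun j => if 1 ≤ j ∧ j ≤ n then v j else 0 with hu
  have huv : mulS p n v p = mulS p n u p := by
    apply mulS_congr p n
    intro j h2 h3
    simp [hu, h2, h3]
  have huI : ∀ j, u j - ((Gam n j : ℤ) : R) ∈ I := by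
    intro j
    by_cases hj : j = n
    · subst hj
      simp [hu, Gam, h1, hn]
    · by_cases hj2 : 1 ≤ j ∧ j ≤ n
      · simp only [hu, hj2, Gam, hj, if_true, if_false, and_self]
        simpa using hI j hj2.1 (by omega)
      · simp [hu, hj2, Gam, hj]
  have hu0 : ∀ j, n ≤ j → u j = ((Gam n j : ℤ) : R) := by
    intro j hj
    by_cases hj2 : j = n
    · subst hj2; simp [hu, Gam, h1, hn]
    · have : ¬ (1 ≤ j ∧ j ≤ n) := by omega
      simp [hu, Gam, this, hj2]
  have hT := taylor I n (Gam n : ℕ → ℤ) u huI hu0 (uc p n i)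
  have hG : MvPolynomial.eval (Gam n : ℕ → ℤ) (uc p n i) =
      PowerSeries.coeff i (mulS p n (Gam n : ℕ → ℤ) p) := by
    rw [coeff_mulS]
    rfl
  have hdvd := dvd_coeff_mulS_Gam H hi
  -- derivatives modulo p
  have hder : ∀ j, 1 ≤ j → j < n → (p : ℤ) ∣
      MvPolynomial.eval (Gam n : ℕ → ℤ) (MvPolynomial.pderiv j (uc p n i)) -
        (if i = p ^ j then 1 else 0) := by
    intro j hj1 hj2
    set z : ℕ → DualNumber (ZMod p) := fun k =>
      if k = n then 1 else if k = j then DualNumber.eps else 0 with hz
    have hzI : ∀ k, z k - ((Gam n k : ℤ) : DualNumber (ZMod p)) ∈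
        Ideal.span {(DualNumber.eps : DualNumber (ZMod p))} := by
      intro k
      by_cases hk : k = n
      · simp [hz, hk, Gam]
      · by_cases hk2 : k = j
        · subst hk2
          simp only [hz, Gam, hk, if_true, if_false, Int.cast_zero, sub_zero]
          exact Ideal.subset_span rfl
        · simp [hz, hk, hk2, Gam]
    have hz0 : ∀ k, n ≤ k → z k = ((Gam n k : ℤ) : DualNumber (ZMod p)) := by
      intro k hk
      by_cases hk1 : k = n
      · simp [hz, Gam, hk1]
      · have : k ≠ j := by omega
        simp [hz, Gam, hk1, this]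
    have hT2 := taylor _ n (Gam n : ℕ → ℤ) z hzI hz0 (uc p n i)
    rw [eps_ideal_sq, Ideal.mem_bot] at hT2
    have hc := H z (by
      intro k hk1 hk2
      have := hzI k
      have hk3 : (Gam n k : ℤ) = 0 := by simp [Gam]; omega
      rw [hk3] at this
      simpa using this) (by simp [hz]) i hi
    rw [coeff_mulS] at hc
    rw [hc] at hT2
    have hsum : ∑ k ∈ Finset.range n, (z k - ((Gam n k : ℤ) : DualNumber (ZMod p))) *
        ((MvPolynomial.eval (Gam n : ℕ → ℤ) (MvPolynomial.pderiv k (uc p n i)) : ℤ) :
          DualNumber (ZMod p)) = DualNumber.eps *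
        ((MvPolynomial.eval (Gam n : ℕ → ℤ) (MvPolynomial.pderiv j (uc p n i)) : ℤ) :
          DualNumber (ZMod p)) := by
      rw [Finset.sum_eq_single j]
      · have : j ≠ n := by omega
        simp [hz, this, Gam]
      · intro k hk1 hk2
        rw [Finset.mem_range] at hk1
        have : k ≠ n := by omega
        simp [hz, this, hk2, Gam]
      · intro h
        rw [Finset.mem_range] at h
        exact absurd hj2 h
    rw [hsum] at hT2
    have h6 := congrArg TrivSqZeroExt.snd hT2
    simp only [TrivSqZeroExt.snd_sub, TrivSqZeroExt.snd_intCast, TrivSqZeroExt.snd_zero,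
      sub_zero, TrivSqZeroExt.snd_mul, DualNumber.fst_eps, DualNumber.snd_eps,
      TrivSqZeroExt.fst_intCast] at h6
    have h7 : (TrivSqZeroExt.snd (if i = p ^ (Nat.log p i) ∧ i ≠ 1 then z (Nat.log p i) else 0) :
        ZMod p) = if i = p ^ j then 1 else 0 := by
      by_cases hij : i = p ^ j
      · have hlog : Nat.log p i = j := by
          rw [hij, Nat.log_pow (Fact.out : p.Prime).one_lt]
        have hi1 : i ≠ 1 := by
          rw [hij]
          have := Nat.one_lt_pow (show j ≠ 0 by omega) (Fact.out : p.Prime).one_lt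
          omega
        have hjn : j ≠ n := by omega
        rw [hlog, if_pos ⟨hij, hi1⟩, if_pos hij]
        simp [hz, hjn]
      · rw [if_neg hij]
        split_ifs with hc2
        · have hne : Nat.log p i ≠ j := by
            intro h
            rw [h] at hc2
            exact hij hc2.1
          have hlr := log_range (Fact.out : p.Prime).one_lt hi hc2
          have hne2 : Nat.log p i ≠ n := by omega
          simp [hz, hne, hne2]
        · simp
    rw [h7] at h6
    rw [← ZMod.intCast_zmod_eq_zero_iff_dvd]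
    push_cast
    simp at h6
    rw [sub_eq_zero] at h6 ⊢
    exact h6.symm
  -- conclusion
  rw [huv, coeff_mulS]
  rw [hG] at hT
  have hgp : ((PowerSeries.coeff i (mulS p n (Gam n : ℕ → ℤ) p) : ℤ) : R) =
      (p : R) * (((PowerSeries.coeff i (mulS p n (Gam n : ℕ → ℤ) p) / (p : ℤ) : ℤ)) : R) := by
    conv_lhs => rw [← Int.mul_ediv_cancel' hdvd]
    push_cast
    rfl
  rw [hgp] at hT
  have hlast : (∑ j ∈ Finset.range n, (u j - ((Gam n j : ℤ) : R)) *
        ((MvPolynomial.eval (Gam n : ℕ → ℤ) (MvPolynomial.pderiv j (uc p n i)) : ℤ) : R)) -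
      (if i = p ^ (Nat.log p i) ∧ i ≠ 1 then v (Nat.log p i) else 0) ∈ I ^ 2 := by
    have h8 : (if i = p ^ (Nat.log p i) ∧ i ≠ 1 then v (Nat.log p i) else 0) =
        ∑ j ∈ Finset.range n, (u j - ((Gam n j : ℤ) : R)) *
          (((if i = p ^ j then 1 else 0 : ℤ)) : R) := by
      split_ifs with hc
      · have hlr := log_range (Fact.out : p.Prime).one_lt hi hc
        rw [Finset.sum_eq_single (Nat.log p i)]
        · rw [if_pos hc.1]
          have hne : Nat.log p i ≠ n := by omega
          simp only [hu, Gam, hlr.1, hlr.2.le, hne, and_self, if_true, if_false]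
          simp
        · intro k hk1 hk2
          have : i ≠ p ^ k := by
            intro h
            apply hk2
            rw [h, Nat.log_pow (Fact.out : p.Prime).one_lt]
          simp [this]
        · intro h
          rw [Finset.mem_range] at h
          exact absurd hlr.2 h
      · symm
        apply Finset.sum_eq_zero
        intro k hk
        rw [Finset.mem_range] at hk
        by_cases hik : i = p ^ k
        · rcases Nat.eq_zero_or_pos k with hk0 | hk0
          · subst hk0
            simp only [hu, Gam]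
            have : (0 : ℕ) ≠ n := by omega
            simp [this]
          · exfalso
            apply hc
            refine ⟨?_, ?_⟩
            · rw [hik, Nat.log_pow (Fact.out : p.Prime).one_lt]
            · rw [hik]
              have := Nat.one_lt_pow (show k ≠ 0 by omega) (Fact.out : p.Prime).one_lt
              omega
        · simp [hik]
    rw [h8, ← Finset.sum_sub_distrib]
    refine Ideal.sum_mem _ fun j hj => ?_
    rw [Finset.mem_range] at hj
    rw [← mul_sub]
    rcases Nat.eq_zero_or_pos j with hj0 | hj0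
    · subst hj0
      have : (u 0 - ((Gam n 0 : ℤ) : R)) = 0 := by
        have : (0 : ℕ) ≠ n := by omega
        simp [hu, Gam, this]
      rw [this, zero_mul]
      exact Ideal.zero_mem _
    · obtain ⟨a, ha⟩ := hder j hj0 hj
      rw [pow_two]
      refine Ideal.mul_mem_mul (huI j) ?_
      rw [← Int.cast_sub, ha]
      push_cast
      exact Ideal.mul_mem_right _ _ hp
  have := Ideal.add_mem _ hT hlast
  convert this using 1
  ring

end Vale.Agent.P217
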