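import Vale.Agent.P217.PPSM

/-!
# P217, module US3: the coefficients of `U` (helper28)
-/

set_option linter.unusedSectionVars false

namespace Vale.Agent.P217

open MvPowerSeries

variable {R : Type*} [CommRing R] {p n h : ℕ} [Fact p.Prime] {v : ℕ → R}

/-- Series with coefficients in an ideal. -/
def KI (I : Ideal R) : Ideal (PowerSeries R) where
  carrier := {f | ∀ d, PowerSeries.coeff d f ∈ I}
  add_mem' := fun ha hb d => by
    rw [map_add]
    exact I.add_mem (ha d) (hb d)
  zero_mem' := fun d => by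
    rw [map_zero]
    exact I.zero_mem
  smul_mem' := fun c x hx d => by
    rw [smul_eq_mul, PowerSeries.coeff_mul]
    exact Ideal.sum_mem _ fun i _ => I.mul_mem_left _ (hx _)

theorem mem_KI {I : Ideal R} {f : PowerSeries R} :
    f ∈ KI I ↔ ∀ d, PowerSeries.coeff d f ∈ I := Iff.rfl

theorem mul_mem_KI {I J : Ideal R} {f g : PowerSeries R} (hf : f ∈ KI I) (hg : g ∈ KI J) :
    f * g ∈ KI (I * J) := fun d => by
  rw [PowerSeries.coeff_mul]
  exact Ideal.sum_mem _ fun i _ => Ideal.mul_mem_mul (hf _) (hg _)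

theorem CXpow_constantCoeff (r : R) (i : ℕ) :
    PowerSeries.constantCoeff (PowerSeries.C r * PowerSeries.X ^ (p ^ i) : PowerSeries R) = 0 := by
  have hp : p ^ i ≠ 0 := pow_ne_zero _ (Fact.out : p.Prime).ne_zero
  rw [map_mul, map_pow, PowerSeries.constantCoeff_X, zero_pow hp, mul_zero]

/-- `U_{i+1} = U_i + v_{h+i} Y^{p^i} + U_i v_{h+i} Y^{p^i} G_i`. -/
theorem Upart_succ_eq (v : ℕ → R) (i : ℕ) : ∃ G : PowerSeries R,
    Upart p n h v (i + 1) = Upart p n h v i +
      PowerSeries.C (v (h + i)) * PowerSeries.X ^ (p ^ i) +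
      Upart p n h v i * (PowerSeries.C (v (h + i)) * PowerSeries.X ^ (p ^ i)) * G :=
  ⟨_, subst_Fv_eq p n v (Upart_constantCoeff v i) (CXpow_constantCoeff _ i)⟩

theorem Upart_coeff_one (v : ℕ → R) (i : ℕ) :
    PowerSeries.coeff 1 (Upart p n h v (i + 1)) = v h := by
  induction i with
  | zero =>
    obtain ⟨G, hG⟩ := Upart_succ_eq (p := p) (n := n) (h := h) v 0
    rw [hG]
    have h0 : Upart p n h v 0 = 0 := rfl
    rw [h0, zero_mul, zero_mul, add_zero, zero_add, PowerSeries.coeff_C_mul]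
    simp
  | succ i ih =>
    obtain ⟨G, hG⟩ := Upart_succ_eq (p := p) (n := n) (h := h) v (i + 1)
    rw [hG, map_add, map_add, ih, PowerSeries.coeff_C_mul, PowerSeries.coeff_X_pow]
    have h1 : 1 < p ^ (i + 1) := Nat.one_lt_pow (Nat.succ_ne_zero i) (Fact.out : p.Prime).one_lt
    rw [if_neg h1.ne, mul_zero, add_zero]
    have h2 : Upart p n h v (i + 1) * (PowerSeries.C (v (h + (i + 1))) *
        PowerSeries.X ^ (p ^ (i + 1))) * G =
        PowerSeries.X ^ (p ^ (i + 1)) * (Upart p n h v (i + 1) *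
          PowerSeries.C (v (h + (i + 1))) * G) := by ring
    rw [h2, PowerSeries.coeff_X_pow_mul', if_neg (not_le.mpr h1), add_zero]

theorem Upart_mem_KI {I : Ideal R} (v : ℕ → R) (i : ℕ) (hv : ∀ j, j < i → v (h + j) ∈ I) :
    Upart p n h v i ∈ KI I := by
  induction i with
  | zero => exact Ideal.zero_mem _
  | succ i ih =>
    obtain ⟨G, hG⟩ := Upart_succ_eq (p := p) (n := n) (h := h) v i
    have h1 := ih fun j hj => hv j (by omega)
    have h2 : (PowerSeries.C (v (h + i)) * PowerSeries.X ^ (p ^ i) : PowerSeries R) ∈ KI I := by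
      intro d
      rw [PowerSeries.coeff_C_mul]
      exact I.mul_mem_right _ (hv i (by omega))
    rw [hG]
    exact Ideal.add_mem _ (Ideal.add_mem _ h1 h2) (Ideal.mul_mem_right _ _
      (Ideal.mul_mem_right _ _ h1))

theorem Upart_sub_mem_KI {I : Ideal R} (v : ℕ → R) (i : ℕ) (hv : ∀ j, j < i → v (h + j) ∈ I) :
    Upart p n h v i - ∑ j ∈ Finset.range i,
      (PowerSeries.C (v (h + j)) * PowerSeries.X ^ (p ^ j) : PowerSeries R) ∈ KI (I ^ 2) := by
  induction i with
  | zero =>
    have : Upart p n h v 0 = 0 := rfl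
    rw [this]
    simp
  | succ i ih =>
    obtain ⟨G, hG⟩ := Upart_succ_eq (p := p) (n := n) (h := h) v i
    have h1 := ih fun j hj => hv j (by omega)
    have h3 := Upart_mem_KI (p := p) (n := n) v i fun j hj => hv j (by omega)
    have h2 : (PowerSeries.C (v (h + i)) * PowerSeries.X ^ (p ^ i) : PowerSeries R) ∈ KI I := by
      intro d
      rw [PowerSeries.coeff_C_mul]
      exact I.mul_mem_right _ (hv i (by omega))
    rw [hG, Finset.sum_range_succ]
    have e : Upart p n h v i + PowerSeries.C (v (h + i)) * PowerSeries.X ^ (p ^ i) +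
        Upart p n h v i * (PowerSeries.C (v (h + i)) * PowerSeries.X ^ (p ^ i)) * G -
        (∑ j ∈ Finset.range i,
          (PowerSeries.C (v (h + j)) * PowerSeries.X ^ (p ^ j) : PowerSeries R) +
          PowerSeries.C (v (h + i)) * PowerSeries.X ^ (p ^ i)) =
        (Upart p n h v i - ∑ j ∈ Finset.range i,
          (PowerSeries.C (v (h + j)) * PowerSeries.X ^ (p ^ j) : PowerSeries R)) +
        (Upart p n h v i * (PowerSeries.C (v (h + i)) * PowerSeries.X ^ (p ^ i))) * G := by ring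
    rw [e]
    refine Ideal.add_mem _ h1 (Ideal.mul_mem_right _ _ ?_)
    have := mul_mem_KI h3 h2
    rwa [← sq] at this

theorem US_coeff_one_us3 (hn : h ≤ n) : PowerSeries.coeff 1 (US p n h v) = v h :=
  Upart_coeff_one v (n - h)

theorem US_sub_mem_KI (hn : h ≤ n) (I : Ideal R) (hI : ∀ j, h ≤ j → j < n → v j ∈ I)
    (h1 : v n = 1) : ∃ W : PowerSeries R, US p n h v =
      Upart p n h v (n - h) + PowerSeries.X ^ (p ^ (n - h)) * W ∧
      W - 1 ∈ KI I := by
  obtain ⟨G, hG⟩ := Upart_succ_eq (p := p) (n := n) (h := h) v (n - h)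
  have h2 : h + (n - h) = n := by omega
  rw [h2, h1, map_one, one_mul] at hG
  refine ⟨1 + Upart p n h v (n - h) * G, ?_, ?_⟩
  · rw [US, hG]
    ring
  · rw [add_sub_cancel_left]
    exact Ideal.mul_mem_right _ _ (Upart_mem_KI v _ fun j hj => hI _ (by omega) (by omega))

theorem US_coeff_mod_us3 (hn : h ≤ n) (I : Ideal R) (hI : ∀ j, h ≤ j → j < n → v j ∈ I)
    (h1 : v n = 1) (i : ℕ) :
    PowerSeries.coeff i (US p n h v) - (if i = p ^ (n - h) then 1 else 0) ∈ I := by
  obtain ⟨W, hW, hW1⟩ := US_sub_mem_KI (p := p) hn I hI h1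
  have h3 := Upart_mem_KI (p := p) (n := n) (h := h) (I := I) v (n - h)
    fun j hj => hI _ (by omega) (by omega)
  have h4 : US p n h v - PowerSeries.X ^ (p ^ (n - h)) ∈ KI I := by
    have e : US p n h v - PowerSeries.X ^ (p ^ (n - h)) = Upart p n h v (n - h) +
        PowerSeries.X ^ (p ^ (n - h)) * (W - 1) := by
      rw [hW]; ring
    rw [e]
    exact Ideal.add_mem _ h3 (Ideal.mul_mem_left _ _ hW1)
  have := h4 i
  rwa [map_sub, PowerSeries.coeff_X_pow] at this

theorem US_coeff_mod_sq_us3 (hn : h ≤ n) (I : Ideal R) (hI : ∀ j, h ≤ j → j < n → v j ∈ I)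
    (h1 : v n = 1) (i : ℕ) (hi : i < p ^ (n - h)) :
    PowerSeries.coeff i (US p n h v) - (if i = p ^ (Nat.log p i) then v (h + Nat.log p i) else 0)
      ∈ I ^ 2 := by
  obtain ⟨W, hW, -⟩ := US_sub_mem_KI (p := p) hn I hI h1
  have h3 := Upart_sub_mem_KI (p := p) (n := n) (h := h) (I := I) v (n - h)
    (fun j hj => hI _ (by omega) (by omega)) i
  have hp := (Fact.out : p.Prime).one_lt
  rw [hW, map_add, PowerSeries.coeff_X_pow_mul', if_neg (not_le.mpr hi), add_zero]
  rw [map_sub, map_sum] at h3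
  simp only [PowerSeries.coeff_C_mul, PowerSeries.coeff_X_pow] at h3
  convert h3 using 2
  split_ifs with h5
  · rw [Finset.sum_eq_single (Nat.log p i)]
    · rw [if_pos h5, mul_one]
    · intro j _ hj
      rw [if_neg, mul_zero]
      intro h6
      apply hj
      rw [h6, Nat.log_pow hp]
    · intro h6
      exfalso
      apply h6
      rw [Finset.mem_range]
      rw [h5] at hi
      exact (Nat.pow_lt_pow_iff_right hp).mp hi
  · symm
    apply Finset.sum_eq_zero
    intro j _
    rw [if_neg, mul_zero]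
    intro h6
    apply h5
    rw [h6, Nat.log_pow hp]

end Vale.Agent.P217
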