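import Vale.Agent.P217.FSer
import Vale.Agent.P217.PUS3

/-!
# P217, module DER: derivatives of homomorphisms (helper28)

If `g : F_v → F_w` is a homomorphism then `g'(X) P_v(X) = g'(0) P_w(g(X))` where
`P_v(T) = ∂_1 F_v(0, T)`, so `g' = g'(0) * (1 + …)`.
-/

set_option linter.unusedSectionVars false

namespace Vale.Agent.P217

open MvPowerSeries

variable {R : Type*} [CommRing R] {p n h : ℕ} [Fact p.Prime] {v w : ℕ → R}

/-- `P_v(T) = ∂_1 F_v(0, T)`. -/
noncomputable def Pinv (p n : ℕ) (v : ℕ → R) : PowerSeries R :=
  subst ![(0 : PowerSeries R), PowerSeries.X] (pderiv R 0 (Fv p n v))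

theorem coeff_single_zero_Fv (v : ℕ → R) (k : ℕ) :
    coeff (Finsupp.single 0 k) (Fv p n v) = if k = 1 then 1 else 0 := by
  rw [← coeff_subst_X_zero, Fv_X_zero, PowerSeries.coeff_X]

theorem constantCoeff_subst_of {σ τ : Type*} [Finite σ] {a : σ → MvPowerSeries τ R}
    (ha : ∀ s, constantCoeff (a s) = 0) (f : MvPowerSeries σ R) :
    constantCoeff (subst a f) = constantCoeff f := by
  have hs : HasSubst a := hasSubst_of_constantCoeff_zero ha
  have e : f = (f - C (constantCoeff f)) + C (constantCoeff f) := by ring
  conv_lhs => rw [e]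
  rw [subst_add hs, map_add, constantCoeff_subst_eq_zero hs ha (by simp), zero_add, subst_C]
  simp

theorem Pinv_constantCoeff (v : ℕ → R) : PowerSeries.constantCoeff (Pinv p n v) = 1 := by
  change constantCoeff (subst ![(0 : PowerSeries R), PowerSeries.X] (pderiv R 0 (Fv p n v))) = 1
  rw [constantCoeff_subst_of (fun s => by fin_cases s; exacts [map_zero _, constantCoeff_X _]),
    ← coeff_zero_eq_constantCoeff_apply, coeff_pderiv, zero_add, coeff_single_zero_Fv]
  simp

theorem derivative_hom_mul {g : PowerSeries R} (hg : IsHomS p n v w g) :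
    PowerSeries.derivative R g * Pinv p n v =
      (Pinv p n w).subst g * PowerSeries.C (PowerSeries.coeff 1 g) := by
  have h0F : constantCoeff (Fv p n v) = 0 := Fv_constantCoeff p n v
  have hgX : ∀ i : Fin 2, constantCoeff (g.subst (X i : MvPowerSeries (Fin 2) R)) = 0 :=
    fun i => PowerSeries.constantCoeff_subst_eq_zero (constantCoeff_X _) _ hg.1
  have h := congrArg (pderiv R 0) hg.2
  have hL : pderiv R 0 (g.subst (Fv p n v)) =
      subst (fun _ : Unit => Fv p n v) (pderiv R () g) * pderiv R 0 (Fv p n v) := by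
    have := pderiv_subst (hasSubst_one h0F) (0 : Fin 2) g
    rw [Finset.univ_unique, Finset.sum_singleton] at this
    exact this
  have hR := pderiv_subst (hasSubst_pair (hgX 0) (hgX 1)) (0 : Fin 2) (Fv p n w)
  rw [Fin.sum_univ_two] at hR
  simp only [Matrix.cons_val_zero, Matrix.cons_val_one] at hR
  have hX : ∀ i : Fin 2, pderiv R 0 (g.subst (X i : MvPowerSeries (Fin 2) R)) =
      subst (fun _ : Unit => (X i : MvPowerSeries (Fin 2) R)) (pderiv R () g) *
        pderiv R 0 (X i) := by
    intro i
    have := pderiv_subst (hasSubst_one (constantCoeff_X i)) (0 : Fin 2) g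
    rw [Finset.univ_unique, Finset.sum_singleton] at this
    exact this
  rw [hL, hR, hX 0, hX 1, pderiv_X_self, pderiv_X_of_ne (by decide), mul_zero, mul_zero, add_zero,
    mul_one] at h
  -- now set X_0 = 0, X_1 = T
  have hc : HasSubst ![(0 : PowerSeries R), PowerSeries.X] :=
    hasSubst_pair (map_zero _) (constantCoeff_X _)
  have h2 := congrArg (subst ![(0 : PowerSeries R), PowerSeries.X]) h
  rw [subst_mul hc, subst_mul hc] at h2
  have e1 : subst ![(0 : PowerSeries R), PowerSeries.X]
      (subst (fun _ : Unit => Fv p n v) (pderiv R () g)) = PowerSeries.derivative R g := by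
    rw [subst_comp_subst_apply (hasSubst_one h0F) hc, Fv_zero_X]
    exact PowerSeries.X_subst _
  have e2 : subst ![(0 : PowerSeries R), PowerSeries.X]
      (subst ![g.subst (X 0 : MvPowerSeries (Fin 2) R), g.subst (X 1 : MvPowerSeries (Fin 2) R)]
        (pderiv R 0 (Fv p n w))) = (Pinv p n w).subst g := by
    rw [subst_subst_pair (hgX 0) (hgX 1) hc, subst_subst_one (constantCoeff_X _) hc,
      subst_subst_one (constantCoeff_X _) hc, subst_X hc, subst_X hc]
    simp only [Matrix.cons_val_zero, Matrix.cons_val_one]
    rw [PowerSeries.subst_zero_of_constantCoeff_zero hg.1]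
    have e3 : g.subst (PowerSeries.X : PowerSeries R) = g := PowerSeries.X_subst g
    rw [e3]
    have e4 := subst_subst_pair (a := (0 : PowerSeries R)) (b := PowerSeries.X) (map_zero _)
      (constantCoeff_X _) (hasSubst_one hg.1) (pderiv R 0 (Fv p n w))
    rw [subst_zero_series (hasSubst_one hg.1)] at e4
    have e5 : subst (fun _ : Unit => g) (PowerSeries.X : PowerSeries R) = g :=
      subst_X (hasSubst_one hg.1) ()
    rw [e5] at e4
    exact e4.symm
  have e6 : subst ![(0 : PowerSeries R), PowerSeries.X]
      (subst (fun _ : Unit => (X 0 : MvPowerSeries (Fin 2) R)) (pderiv R () g)) =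
      PowerSeries.C (PowerSeries.coeff 1 g) := by
    rw [subst_comp_subst_apply (hasSubst_one (constantCoeff_X _)) hc, subst_X hc]
    simp only [Matrix.cons_val_zero]
    have h3 := PowerSeries.subst_zero_eq_C_constantCoeff (τ := Unit) (S := R)
      (f := PowerSeries.derivative R g)
    rw [← PowerSeries.coeff_zero_eq_constantCoeff_apply, PowerSeries.coeff_derivative] at h3
    simp only [zero_add, Nat.cast_zero, mul_one] at h3
    rw [Algebra.algebraMap_self] at h3
    exact h3
  rw [e1, e2, e6] at h2
  exact h2

theorem derivative_hom {g : PowerSeries R} (hg : IsHomS p n v w g) :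
    ∃ k : PowerSeries R, PowerSeries.constantCoeff k = 1 ∧
      PowerSeries.derivative R g = PowerSeries.C (PowerSeries.coeff 1 g) * k := by
  have h1 : Pinv p n v * PowerSeries.invOfUnit (Pinv p n v) 1 = 1 :=
    PowerSeries.mul_invOfUnit _ 1 (by rw [Pinv_constantCoeff]; rfl)
  have h2 : PowerSeries.constantCoeff (PowerSeries.invOfUnit (Pinv p n v) 1) = 1 := by
    rw [PowerSeries.constantCoeff_invOfUnit]
    simp
  refine ⟨(Pinv p n w).subst g * PowerSeries.invOfUnit (Pinv p n v) 1, ?_, ?_⟩
  · rw [map_mul, h2, mul_one]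
    exact (constantCoeff_subst_of (fun _ : Unit => hg.1) (Pinv p n w)).trans
      (Pinv_constantCoeff w)
  · have h3 := derivative_hom_mul hg
    calc PowerSeries.derivative R g
        = PowerSeries.derivative R g * (Pinv p n v * PowerSeries.invOfUnit (Pinv p n v) 1) := by
          rw [h1, mul_one]
      _ = (PowerSeries.derivative R g * Pinv p n v) * PowerSeries.invOfUnit (Pinv p n v) 1 := by
          ring
      _ = _ := by
          rw [h3]
          ring

theorem mulS_coeff_one_der (v : ℕ → R) (m : ℕ) :
    PowerSeries.coeff 1 (mulS p n v m) = m := by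
  induction m with
  | zero =>
    rw [Nat.cast_zero]
    exact map_zero _
  | succ m ih =>
    have h := subst_Fv_eq p n v (a := (PowerSeries.X : PowerSeries R)) (b := mulS p n v m)
      (constantCoeff_X _) (mulS_cc v m)
    have h2 : mulS p n v (m + 1) = PowerSeries.X + mulS p n v m +
        PowerSeries.X * (mulS p n v m * subst ![(PowerSeries.X : PowerSeries R), mulS p n v m]
          (GF p n v)) := by
      rw [← mul_assoc]
      exact h
    rw [h2, map_add, map_add, ih, PowerSeries.coeff_one_X]
    have h3 : PowerSeries.coeff 1 (PowerSeries.X * (mulS p n v m *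
        subst ![(PowerSeries.X : PowerSeries R), mulS p n v m] (GF p n v))) = 0 := by
      rw [show (1 : ℕ) = 0 + 1 from rfl, PowerSeries.coeff_succ_X_mul,
        PowerSeries.coeff_zero_eq_constantCoeff_apply, map_mul, mulS_cc, zero_mul]
    rw [h3, add_zero, add_comm]
    push_cast
    ring

/-- The derivative of `[m]` is `m` times a series with constant term `1`. -/
theorem derivative_mulS_der (v : ℕ → R) (m : ℕ) : ∃ g : PowerSeries R,
    PowerSeries.constantCoeff g = 1 ∧
    PowerSeries.derivative R (mulS p n v m) = PowerSeries.C (m : R) * g := by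
  obtain ⟨k, hk, h⟩ := derivative_hom (mulS_isHomS_fser (p := p) (n := n) v m)
  exact ⟨k, hk, by rw [h, mulS_coeff_one_der]⟩

end Vale.Agent.P217
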