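import Vale.Agent.P217.Points

/-!
# P217, module US1 (helper81): the series `[p]` in characteristic `p`

Everything is proved over `ℤ[v]` with the logarithm and then specialised. The functional equation
lemma is used only through `FZ_spec`; `exp(pX) = p G(X)` with `G` integral is proved directly
(`G` is the compositional inverse of `log(pX)/p`, which is integral).
-/

namespace Vale.Agent.P217

open MvPowerSeries

namespace US1

/-! ### composition -/

section comp

variable {R : Type*} [CommRing R] {σ τ : Type*}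

theorem hs {a b : MvPowerSeries σ R} (ha : constantCoeff a = 0) (hb : constantCoeff b = 0) :
    HasSubst ![a, b] :=
  hasSubst_of_constantCoeff_zero fun s => by fin_cases s <;> assumption

theorem cc {F : MvPowerSeries (Fin 2) R} (hF : constantCoeff F = 0) {a b : MvPowerSeries σ R}
    (ha : constantCoeff a = 0) (hb : constantCoeff b = 0) :
    constantCoeff (F.subst ![a, b]) = 0 :=
  constantCoeff_subst_eq_zero (hs ha hb) (fun s => by fin_cases s <;> assumption) hF

theorem comp2 (F : MvPowerSeries (Fin 2) R) {a b : MvPowerSeries σ R}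
    (ha : constantCoeff a = 0) (hb : constantCoeff b = 0) {c : σ → MvPowerSeries τ R}
    (hc : HasSubst c) : MvPowerSeries.subst c (F.subst ![a, b]) =
      F.subst ![MvPowerSeries.subst c a, MvPowerSeries.subst c b] := by
  rw [subst_comp_subst_apply (hs ha hb) hc]
  congr 1
  funext s
  fin_cases s <;> rfl

theorem comp1 (g : PowerSeries R) {F : MvPowerSeries σ R} (hF : constantCoeff F = 0)
    {c : σ → MvPowerSeries τ R} (hc : HasSubst c) :
    MvPowerSeries.subst c (g.subst F) = g.subst (MvPowerSeries.subst c F) :=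
  subst_comp_subst_apply (PowerSeries.HasSubst.of_constantCoeff_zero hF).const hc g

theorem map_pair {S : Type*} [CommRing S] (φ : R →+* S) (F : MvPowerSeries (Fin 2) R)
    {a b : MvPowerSeries σ R} (ha : constantCoeff a = 0) (hb : constantCoeff b = 0) :
    (F.subst ![a, b]).map φ = (F.map φ).subst ![a.map φ, b.map φ] := by
  rw [map_subst (hs ha hb)]
  congr 1
  funext s
  fin_cases s <;> rfl

theorem cc_map {S : Type*} [CommRing S] (φ : R →+* S) {a : MvPowerSeries σ R}
    (ha : constantCoeff a = 0) : constantCoeff (a.map φ) = 0 := by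
  rw [constantCoeff_map, ha, map_zero]

end comp

/-! ### the logarithm -/

section log

variable (p n : ℕ)

theorem logQ_cc : PowerSeries.constantCoeff (logQ p n) = 0 := by
  rw [← PowerSeries.coeff_zero_eq_constantCoeff_apply, logQ, PowerSeries.coeff_mk]
  simp

theorem logQ_one : PowerSeries.coeff 1 (logQ p n) = 1 := by
  rw [logQ, PowerSeries.coeff_mk]
  simp [ell]

variable {p n} {σ τ : Type*}

theorem log_inj {a b : MvPowerSeries σ (MvPolynomial ℕ ℚ)} (ha : constantCoeff a = 0)
    (hb : constantCoeff b = 0) (h : (logQ p n).subst a = (logQ p n).subst b) : a = b := by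
  have h1 : IsUnit (PowerSeries.coeff 1 (logQ p n)) := by rw [logQ_one]; exact isUnit_one
  have h2 := PowerSeries.subst_substInvOfIsUnit_left (logQ p n) (logQ_cc p n) h1
  have h3 : ∀ c : MvPowerSeries σ (MvPolynomial ℕ ℚ), constantCoeff c = 0 →
      ((logQ p n).substInvOfIsUnit h1).subst ((logQ p n).subst c) = c := by
    intro c hc
    have h4 := PowerSeries.subst_comp_subst_apply (a := logQ p n) (b := c)
      (PowerSeries.HasSubst.of_constantCoeff_zero' (logQ_cc p n))
      (PowerSeries.HasSubst.of_constantCoeff_zero hc) ((logQ p n).substInvOfIsUnit h1)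
    rw [← h4, h2, PowerSeries.subst_X (PowerSeries.HasSubst.of_constantCoeff_zero hc)]
  rw [← h3 a ha, ← h3 b hb, h]

/-- `ℤ[v] → ℚ[v]` -/
noncomputable def io : MvPolynomial ℕ ℤ →+* MvPolynomial ℕ ℚ :=
  MvPolynomial.map (Int.castRingHom ℚ)

theorem io_inj : Function.Injective io :=
  MvPolynomial.map_injective _ (RingHom.injective_int _)

theorem map_inj {a b : MvPowerSeries σ (MvPolynomial ℕ ℤ)} (h : a.map io = b.map io) : a = b := by
  refine MvPowerSeries.ext fun e => io_inj ?_
  rw [← coeff_map, ← coeff_map, h]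

theorem eq_of_log {a b : MvPowerSeries σ (MvPolynomial ℕ ℤ)} (ha : constantCoeff a = 0)
    (hb : constantCoeff b = 0)
    (h : (logQ p n).subst (a.map io) = (logQ p n).subst (b.map io)) : a = b :=
  map_inj (log_inj (cc_map io ha) (cc_map io hb) h)

variable [Fact p.Prime]

theorem FZ_cc : constantCoeff (FZ p n) = 0 := by
  have h := (FZ_spec p n).1
  rw [constantCoeff_map] at h
  exact io_inj (h.trans (map_zero _).symm)

theorem log_add {a b : MvPowerSeries σ (MvPolynomial ℕ ℚ)} (ha : constantCoeff a = 0)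
    (hb : constantCoeff b = 0) :
    (logQ p n).subst (((FZ p n).map io).subst ![a, b]) =
      (logQ p n).subst a + (logQ p n).subst b := by
  have hF : constantCoeff ((FZ p n).map io) = 0 := cc_map io FZ_cc
  rw [← comp1 (logQ p n) hF (hs ha hb)]
  have h : (logQ p n).subst ((FZ p n).map io) = _ := (FZ_spec p n).2
  rw [h, MvPowerSeries.subst_add (hs ha hb), comp1 _ (constantCoeff_X _) (hs ha hb),
    comp1 _ (constantCoeff_X _) (hs ha hb), subst_X (hs ha hb), subst_X (hs ha hb)]
  rfl

theorem log_FZ {a b : MvPowerSeries σ (MvPolynomial ℕ ℤ)} (ha : constantCoeff a = 0)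
    (hb : constantCoeff b = 0) :
    (logQ p n).subst (((FZ p n).subst ![a, b]).map io) =
      (logQ p n).subst (a.map io) + (logQ p n).subst (b.map io) := by
  rw [map_pair io _ ha hb]
  exact log_add (cc_map io ha) (cc_map io hb)

/-! ### multiplication series and partial sums -/

variable {R : Type*} [CommRing R]

theorem mulS_cc (v : ℕ → R) (m : ℕ) : MvPowerSeries.constantCoeff (mulS p n v m) = 0 := by
  induction m with
  | zero => exact map_zero _
  | succ m ih => exact cc (Fv_constantCoeff p n v) (constantCoeff_X ()) ih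

theorem mulS_map {S : Type*} [CommRing S] (φ : R →+* S) (v : ℕ → R) (m : ℕ) :
    (mulS p n v m).map φ = mulS p n (fun j => φ (v j)) m := by
  induction m with
  | zero => exact map_zero _
  | succ m ih =>
    rw [mulS, mulS, ← ih, ← Fv_map p n v φ]
    refine (map_pair φ (Fv p n v) (constantCoeff_X ()) (mulS_cc v m)).trans ?_
    have e : MvPowerSeries.map φ (X () : MvPowerSeries Unit R) = (X () : MvPowerSeries Unit S) :=
      MvPowerSeries.map_X φ ()
    rw [e]
    rfl

variable (p n) in
/-- partial formal sums -/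
noncomputable def Up (h : ℕ) (v : ℕ → R) : ℕ → PowerSeries R
  | 0 => 0
  | (i + 1) => (Fv p n v).subst ![Up h v i,
      (PowerSeries.C (v (h + i)) * PowerSeries.X ^ (p ^ i) : PowerSeries R)]

theorem cX_cc (c : R) (i : ℕ) : MvPowerSeries.constantCoeff
    (PowerSeries.C c * PowerSeries.X ^ (p ^ i) : PowerSeries R) = 0 := by
  have h : PowerSeries.constantCoeff (PowerSeries.C c * PowerSeries.X ^ (p ^ i) :
      PowerSeries R) = 0 := by
    rw [map_mul, map_pow, PowerSeries.constantCoeff_X, zero_pow (pow_ne_zero _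
      (Fact.out : p.Prime).ne_zero), mul_zero]
  exact h

theorem Up_cc (h : ℕ) (v : ℕ → R) (i : ℕ) : MvPowerSeries.constantCoeff (Up p n h v i) = 0 := by
  induction i with
  | zero => exact map_zero _
  | succ i ih => exact cc (Fv_constantCoeff p n v) ih (cX_cc _ _)

theorem Up_map {S : Type*} [CommRing S] (φ : R →+* S) (h : ℕ) (v : ℕ → R) (i : ℕ) :
    (Up p n h v i).map φ = Up p n h (fun j => φ (v j)) i := by
  induction i with
  | zero => exact map_zero _
  | succ i ih =>
    rw [Up, Up, ← ih, ← Fv_map p n v φ]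
    refine (map_pair φ (Fv p n v) (Up_cc h v i) (cX_cc _ _)).trans ?_
    have e : MvPowerSeries.map φ (PowerSeries.C (v (h + i)) * PowerSeries.X ^ (p ^ i) :
        PowerSeries R) = (PowerSeries.C (φ (v (h + i))) * PowerSeries.X ^ (p ^ i) :
        PowerSeries S) := by
      have e1 : PowerSeries.map φ (PowerSeries.C (v (h + i)) * PowerSeries.X ^ (p ^ i)) =
          (PowerSeries.C (φ (v (h + i))) * PowerSeries.X ^ (p ^ i) : PowerSeries S) := by
        rw [map_mul, map_pow, PowerSeries.map_C, PowerSeries.map_X]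
      exact e1
    rw [e]
    rfl

theorem hsX {k : ℕ} (hk : k ≠ 0) : HasSubst (fun _ : Unit => (PowerSeries.X ^ k : PowerSeries R)) :=
  (PowerSeries.HasSubst.X_pow hk).const

/-- one step of `Up`, substituted -/
theorem Up_succ_subst (h : ℕ) (v : ℕ → R) (i : ℕ) {k : ℕ} (hk : k ≠ 0) :
    (Up p n h v (i + 1)).subst (PowerSeries.X ^ k : PowerSeries R) =
      (Fv p n v).subst ![(Up p n h v i).subst (PowerSeries.X ^ k : PowerSeries R),
        (PowerSeries.C (v (h + i)) * PowerSeries.X ^ (p ^ i * k) : PowerSeries R)] := by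
  rw [Up]
  refine (comp2 (Fv p n v) (Up_cc h v i) (cX_cc _ _) (hsX hk)).trans ?_
  have e : MvPowerSeries.subst (fun _ : Unit => (PowerSeries.X ^ k : PowerSeries R))
      (PowerSeries.C (v (h + i)) * PowerSeries.X ^ (p ^ i) : PowerSeries R) =
      (PowerSeries.C (v (h + i)) * PowerSeries.X ^ (p ^ i * k) : PowerSeries R) := by
    have e1 : PowerSeries.subst (PowerSeries.X ^ k : PowerSeries R)
        (PowerSeries.C (v (h + i)) * PowerSeries.X ^ (p ^ i) : PowerSeries R) =
        (PowerSeries.C (v (h + i)) * PowerSeries.X ^ (p ^ i * k) : PowerSeries R) := by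
      rw [PowerSeries.subst_mul (PowerSeries.HasSubst.X_pow hk),
        PowerSeries.subst_pow (PowerSeries.HasSubst.X_pow hk),
        PowerSeries.subst_X (PowerSeries.HasSubst.X_pow hk), PowerSeries.subst_C, ← pow_mul,
        mul_comm k]
      rfl
    exact e1
  rw [e]
  rfl

/-- universal parameters -/
noncomputable def vu : ℕ → MvPolynomial ℕ ℤ := fun j => MvPolynomial.X j

omit [Fact p.Prime] in
theorem Fv_univ : Fv p n vu = FZ p n := by
  have h : spec vu = RingHom.id (MvPolynomial ℕ ℤ) := by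
    apply MvPolynomial.ringHom_ext
    · intro r; simp [spec]
    · intro j; simp [spec, vu]
  unfold Fv
  rw [h, MvPowerSeries.map_id]
  rfl

theorem log_mulS (m : ℕ) : (logQ p n).subst ((mulS p n vu m).map io) =
    (m : PowerSeries (MvPolynomial ℕ ℚ)) * logQ p n := by
  induction m with
  | zero =>
    rw [Nat.cast_zero, zero_mul]
    have : (mulS p n vu 0).map io = (0 : PowerSeries (MvPolynomial ℕ ℚ)) := map_zero _
    rw [this]
    exact PowerSeries.subst_zero_of_constantCoeff_zero (logQ_cc p n)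
  | succ m ih =>
    rw [mulS, Fv_univ]
    refine (log_FZ (constantCoeff_X ()) (mulS_cc vu m)).trans ?_
    have e : MvPowerSeries.map io (X () : MvPowerSeries Unit (MvPolynomial ℕ ℤ)) =
      (PowerSeries.X : PowerSeries (MvPolynomial ℕ ℚ)) := PowerSeries.map_X io
    rw [e, PowerSeries.X_subst]
    have ih' : PowerSeries.subst ((MvPowerSeries.map io) (mulS p n vu m)) (logQ p n) =
      (m : PowerSeries (MvPolynomial ℕ ℚ)) * logQ p n := ih
    rw [ih']
    push_cast
    ring

/-- `log` of the partial sums -/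
theorem log_Up (i : ℕ) :
    (logQ p n).subst (((Up p n 1 vu i).subst (PowerSeries.X ^ p :
      PowerSeries (MvPolynomial ℕ ℤ))).map io) =
    ∑ j ∈ Finset.Icc 1 i, (logQ p n).subst
      (PowerSeries.C (MvPolynomial.X j) * PowerSeries.X ^ (p ^ j) :
        PowerSeries (MvPolynomial ℕ ℚ)) := by
  have hp0 : p ≠ 0 := (Fact.out : p.Prime).ne_zero
  induction i with
  | zero =>
    have e : (Up p n 1 vu 0).subst (PowerSeries.X ^ p : PowerSeries (MvPolynomial ℕ ℤ)) =
        (0 : PowerSeries (MvPolynomial ℕ ℤ)) := by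
      rw [Up, ← PowerSeries.coe_substAlgHom (PowerSeries.HasSubst.X_pow hp0)]
      exact map_zero _
    rw [e]
    have e2 : MvPowerSeries.map io (0 : PowerSeries (MvPolynomial ℕ ℤ)) =
      (0 : PowerSeries (MvPolynomial ℕ ℚ)) := map_zero _
    rw [e2, PowerSeries.subst_zero_of_constantCoeff_zero (logQ_cc p n)]
    simp
  | succ i ih =>
    rw [Up_succ_subst _ _ _ hp0, Fv_univ]
    have h1 : MvPowerSeries.constantCoeff ((Up p n 1 vu i).subst
        (PowerSeries.X ^ p : PowerSeries (MvPolynomial ℕ ℤ))) = 0 :=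
      PowerSeries.constantCoeff_subst_eq_zero (by
        have : PowerSeries.constantCoeff (PowerSeries.X ^ p : PowerSeries (MvPolynomial ℕ ℤ)) = 0 := by
          rw [map_pow, PowerSeries.constantCoeff_X, zero_pow hp0]
        exact this) _ (Up_cc 1 vu i)
    have h2 : MvPowerSeries.constantCoeff (PowerSeries.C (vu (1 + i)) *
        PowerSeries.X ^ (p ^ i * p) : PowerSeries (MvPolynomial ℕ ℤ)) = 0 := by
      rw [← pow_succ]; exact cX_cc _ _
    refine (log_FZ h1 h2).trans ?_
    rw [ih, Finset.sum_Icc_succ_top (by omega)]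
    congr 2
    have e1 : PowerSeries.map io (PowerSeries.C (vu (1 + i)) * PowerSeries.X ^ (p ^ i * p)) =
        (PowerSeries.C (MvPolynomial.X (i + 1)) * PowerSeries.X ^ (p ^ (i + 1)) :
        PowerSeries (MvPolynomial ℕ ℚ)) := by
      rw [map_mul, map_pow, PowerSeries.map_C, PowerSeries.map_X, ← pow_succ, add_comm 1 i]
      simp [vu, io]
    exact e1

/-! ### the functional equation `p log = p X + ∑ log (v_j X^(p^j))` -/

theorem coeff_log_pow (k : ℕ) : PowerSeries.coeff (p ^ k) (logQ p n) = ell p n k := by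
  have h : Nat.log p (p ^ k) = k := Nat.log_pow (Fact.out : p.Prime).one_lt k
  rw [logQ, PowerSeries.coeff_mk, h, if_pos rfl]

omit [Fact p.Prime] in
theorem coeff_log_not {d : ℕ} (hd : ∀ k, d ≠ p ^ k) : PowerSeries.coeff d (logQ p n) = 0 := by
  rw [logQ, PowerSeries.coeff_mk, if_neg (hd _)]

omit [Fact p.Prime] in
theorem coeff_sub (c : MvPolynomial ℕ ℚ) {k : ℕ} (hk : k ≠ 0) (d : ℕ) :
    PowerSeries.coeff d ((logQ p n).subst (PowerSeries.C c * PowerSeries.X ^ k :
      PowerSeries (MvPolynomial ℕ ℚ))) =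
    if k ∣ d then c ^ (d / k) * PowerSeries.coeff (d / k) (logQ p n) else 0 := by
  have e : (PowerSeries.C c * PowerSeries.X ^ k : PowerSeries (MvPolynomial ℕ ℚ)) =
      (c • PowerSeries.X : PowerSeries (MvPolynomial ℕ ℚ)).subst
        (PowerSeries.X ^ k : PowerSeries (MvPolynomial ℕ ℚ)) := by
    rw [PowerSeries.subst_smul (PowerSeries.HasSubst.X_pow hk),
      PowerSeries.subst_X (PowerSeries.HasSubst.X_pow hk), PowerSeries.smul_eq_C_mul]
  rw [e, ← PowerSeries.subst_comp_subst_apply (PowerSeries.HasSubst.smul_X' c)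
    (PowerSeries.HasSubst.X_pow hk), ← PowerSeries.rescale_eq_subst, PowerSeries.coeff_subst_X_pow hk,
    PowerSeries.coeff_rescale]
  rfl

theorem p_ell (k : ℕ) : (p : MvPolynomial ℕ ℚ) * ell p n (k + 1) =
    ∑ i ∈ Finset.range (k + 1), if k + 1 - i ≤ n then
      ell p n i * (MvPolynomial.X (k + 1 - i)) ^ (p ^ i) else 0 := by
  have hp0 : (p : ℚ) ≠ 0 := by exact_mod_cast (Fact.out : p.Prime).ne_zero
  rw [ell, ← mul_assoc, Finset.sum_range]
  have e : (p : MvPolynomial ℕ ℚ) * MvPolynomial.C ((p : ℚ)⁻¹) = 1 := by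
    rw [← map_natCast (MvPolynomial.C : ℚ →+* MvPolynomial ℕ ℚ) p, ← map_mul,
      mul_inv_cancel₀ hp0, map_one]
  rw [e, one_mul]

theorem log_feq : (p : PowerSeries (MvPolynomial ℕ ℚ)) * logQ p n =
    (p : PowerSeries (MvPolynomial ℕ ℚ)) * PowerSeries.X + ∑ j ∈ Finset.Icc 1 n,
      (logQ p n).subst (PowerSeries.C (MvPolynomial.X j) * PowerSeries.X ^ (p ^ j) :
        PowerSeries (MvPolynomial ℕ ℚ)) := by
  have hp : p.Prime := Fact.out
  ext1 d
  have hc : ∀ f : PowerSeries (MvPolynomial ℕ ℚ), PowerSeries.coeff d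
      ((p : PowerSeries (MvPolynomial ℕ ℚ)) * f) = (p : MvPolynomial ℕ ℚ) * PowerSeries.coeff d f := by
    intro f
    rw [← map_natCast (PowerSeries.C : MvPolynomial ℕ ℚ →+* _) p, PowerSeries.coeff_C_mul]
  rw [map_add, hc, hc, map_sum, Finset.sum_congr rfl fun j _ => coeff_sub _
    (pow_ne_zero j hp.ne_zero) d]
  by_cases hd : ∃ k, d = p ^ k
  · obtain ⟨k, rfl⟩ := hd
    rw [coeff_log_pow]
    cases k with
    | zero =>
      rw [pow_zero, PowerSeries.coeff_one_X]
      have h0 : ∀ j ∈ Finset.Icc 1 n, (if p ^ j ∣ 1 then (MvPolynomial.X j : MvPolynomial ℕ ℚ) ^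
          (1 / p ^ j) * PowerSeries.coeff (1 / p ^ j) (logQ p n) else 0) = 0 := by
        intro j hj
        have hj1 : 1 ≤ j := (Finset.mem_Icc.1 hj).1
        rw [if_neg]
        rw [Nat.dvd_one]
        exact (Nat.one_lt_pow (by omega) hp.one_lt).ne'
      rw [Finset.sum_congr rfl h0]
      simp [ell]
    | succ k =>
      rw [p_ell, PowerSeries.coeff_X, if_neg (Nat.one_lt_pow (by omega) hp.one_lt).ne', mul_zero,
        zero_add]
      have h0 : ∀ j ∈ Finset.Icc 1 n, (if p ^ j ∣ p ^ (k + 1) then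
          (MvPolynomial.X j : MvPolynomial ℕ ℚ) ^ (p ^ (k + 1) / p ^ j) *
            PowerSeries.coeff (p ^ (k + 1) / p ^ j) (logQ p n) else 0) =
          if j ≤ k + 1 then ell p n (k + 1 - j) * (MvPolynomial.X j) ^ (p ^ (k + 1 - j)) else 0 := by
        intro j hj
        by_cases hjk : j ≤ k + 1
        · rw [if_pos (pow_dvd_pow p hjk), if_pos hjk, Nat.pow_div hjk hp.pos, coeff_log_pow,
            mul_comm]
        · rw [if_neg hjk, if_neg]
          intro hdvd
          exact hjk ((Nat.pow_dvd_pow_iff_le_right hp.one_lt).1 hdvd)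
      rw [Finset.sum_congr rfl h0, ← Finset.sum_filter, ← Finset.sum_filter]
      refine Finset.sum_nbij' (fun i => k + 1 - i) (fun j => k + 1 - j) ?_ ?_ ?_ ?_ ?_
      · intro i hi
        simp only [Finset.mem_filter, Finset.mem_range, Finset.mem_Icc] at hi ⊢
        omega
      · intro j hj
        simp only [Finset.mem_filter, Finset.mem_range, Finset.mem_Icc] at hj ⊢
        omega
      · intro i hi
        simp only [Finset.mem_filter, Finset.mem_range] at hi
        omega
      · intro j hj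
        simp only [Finset.mem_filter, Finset.mem_Icc] at hj
        omega
      · intro i hi
        simp only [Finset.mem_filter, Finset.mem_range] at hi
        have : k + 1 - (k + 1 - i) = i := by omega
        rw [this]
  · push Not at hd
    rw [coeff_log_not hd, mul_zero, PowerSeries.coeff_X, if_neg (by simpa using hd 0), mul_zero,
      zero_add]
    symm
    apply Finset.sum_eq_zero
    intro j _
    split_ifs with hj
    · obtain ⟨e, he⟩ := hj
      have h1 : d / p ^ j = e := by
        rw [he, Nat.mul_div_cancel_left _ (pow_pos hp.pos j)]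
      rw [h1, coeff_log_not, mul_zero]
      intro k hk
      apply hd (j + k)
      rw [he, hk, pow_add]
    · rfl

/-! ### `exp (pX) = p G(X)` -/

theorem ell_int (k : ℕ) : ∃ c : MvPolynomial ℕ ℤ, io c = (p : MvPolynomial ℕ ℚ) ^ k * ell p n k := by
  induction k using Nat.strong_induction_on with
  | _ k ih =>
    cases k with
    | zero => exact ⟨1, by simp [ell]⟩
    | succ k =>
      choose! c hc using ih
      refine ⟨∑ i ∈ Finset.range (k + 1), if k + 1 - i ≤ n then
        (p : MvPolynomial ℕ ℤ) ^ (k - i) * c i * (MvPolynomial.X (k + 1 - i)) ^ (p ^ i) else 0, ?_⟩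
      rw [pow_succ, mul_assoc, p_ell, map_sum, Finset.mul_sum]
      refine Finset.sum_congr rfl fun i hi => ?_
      have hi' : i < k + 1 := Finset.mem_range.1 hi
      split_ifs
      · rw [map_mul, map_mul, map_pow, map_pow, hc i hi', map_natCast]
        have e1 : io (MvPolynomial.X (k + 1 - i)) = MvPolynomial.X (k + 1 - i) := by simp [io]
        have e2 : (p : MvPolynomial ℕ ℚ) ^ k = (p : MvPolynomial ℕ ℚ) ^ (k - i) * p ^ i := by
          rw [← pow_add]; congr 1; omega
        rw [e1, e2]
        ring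
      · rw [map_zero, mul_zero]

theorem exists_M : ∃ M : PowerSeries (MvPolynomial ℕ ℤ), PowerSeries.constantCoeff M = 0 ∧
    PowerSeries.coeff 1 M = 1 ∧
    PowerSeries.rescale (p : MvPolynomial ℕ ℚ) (logQ p n) =
      (p : PowerSeries (MvPolynomial ℕ ℚ)) * PowerSeries.map io M := by
  have hp : p.Prime := Fact.out
  choose c hc using ell_int (p := p) (n := n)
  refine ⟨PowerSeries.mk fun d => if d = p ^ (Nat.log p d) then
    (p : MvPolynomial ℕ ℤ) ^ (d - 1 - Nat.log p d) * c (Nat.log p d) else 0, ?_, ?_, ?_⟩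
  · rw [← PowerSeries.coeff_zero_eq_constantCoeff_apply, PowerSeries.coeff_mk]
    simp
  · rw [PowerSeries.coeff_mk]
    have h0 : c 0 = 1 := io_inj (by rw [hc]; simp [ell])
    simp [h0]
  · ext1 d
    rw [PowerSeries.coeff_rescale, ← map_natCast (PowerSeries.C : MvPolynomial ℕ ℚ →+* _) p,
      PowerSeries.coeff_C_mul, PowerSeries.coeff_map, PowerSeries.coeff_mk]
    by_cases hd : ∃ k, d = p ^ k
    · obtain ⟨k, rfl⟩ := hd
      have hl : Nat.log p (p ^ k) = k := Nat.log_pow hp.one_lt k
      rw [coeff_log_pow, hl, if_pos rfl, map_mul, map_pow, hc, map_natCast, ← mul_assoc,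
        ← mul_assoc, ← pow_succ', ← pow_add]
      congr 2
      have : k < p ^ k := Nat.lt_pow_self hp.one_lt
      omega
    · push Not at hd
      rw [coeff_log_not hd, if_neg (hd _), map_zero, mul_zero, mul_zero]

/-- `exp (pX) = p G(X)` -/
theorem exists_G : ∃ G : PowerSeries (MvPolynomial ℕ ℤ), PowerSeries.constantCoeff G = 0 ∧
    (logQ p n).subst ((p : PowerSeries (MvPolynomial ℕ ℚ)) * PowerSeries.map io G) =
      (p : PowerSeries (MvPolynomial ℕ ℚ)) * PowerSeries.X := by
  obtain ⟨M, hM0, hM1, hM⟩ := exists_M (p := p) (n := n)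
  have hu : IsUnit (PowerSeries.coeff 1 M) := by rw [hM1]; exact isUnit_one
  have h1 := PowerSeries.subst_substInvOfIsUnit_right M hM0 hu
  have h2 := PowerSeries.constantCoeff_substInvOfIsUnit M hu
  refine ⟨M.substInvOfIsUnit hu, h2, ?_⟩
  set G := M.substInvOfIsUnit hu with hG
  have hGQ : PowerSeries.constantCoeff (PowerSeries.map io G) = 0 := by
    rw [← PowerSeries.coeff_zero_eq_constantCoeff_apply, PowerSeries.coeff_map,
      PowerSeries.coeff_zero_eq_constantCoeff_apply, h2, map_zero]
  have hsG : PowerSeries.HasSubst (PowerSeries.map io G) :=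
    PowerSeries.HasSubst.of_constantCoeff_zero' hGQ
  have e1 : (p : PowerSeries (MvPolynomial ℕ ℚ)) * PowerSeries.map io G =
      ((p : MvPolynomial ℕ ℚ) • PowerSeries.X : PowerSeries (MvPolynomial ℕ ℚ)).subst
        (PowerSeries.map io G) := by
    rw [PowerSeries.subst_smul hsG, PowerSeries.subst_X hsG, PowerSeries.smul_eq_C_mul,
      map_natCast]
  rw [e1, ← PowerSeries.subst_comp_subst_apply (PowerSeries.HasSubst.smul_X' _) hsG,
    ← PowerSeries.rescale_eq_subst, hM, PowerSeries.subst_mul hsG]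
  have e2 : (PowerSeries.map io M).subst (PowerSeries.map io G) =
      (PowerSeries.X : PowerSeries (MvPolynomial ℕ ℚ)) := by
    have h3 := PowerSeries.map_subst (h := io) (PowerSeries.HasSubst.of_constantCoeff_zero' h2) M
    rw [h1] at h3
    have h4 : MvPowerSeries.map io (PowerSeries.X : PowerSeries (MvPolynomial ℕ ℤ)) =
      (PowerSeries.X : PowerSeries (MvPolynomial ℕ ℚ)) := PowerSeries.map_X io
    rw [h4] at h3
    exact h3.symm
  rw [e2]
  congr 1
  rw [← PowerSeries.coe_substAlgHom hsG, map_natCast]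

theorem cc_subst_X_pow {k : ℕ} (hk : k ≠ 0) {f : PowerSeries R}
    (hf : MvPowerSeries.constantCoeff f = 0) :
    MvPowerSeries.constantCoeff (f.subst (PowerSeries.X ^ k : PowerSeries R)) = 0 :=
  PowerSeries.constantCoeff_subst_eq_zero (by
    have : PowerSeries.constantCoeff (PowerSeries.X ^ k : PowerSeries R) = 0 := by
      rw [map_pow, PowerSeries.constantCoeff_X, zero_pow hk]
    exact this) _ hf

/-- `[p] = exp (pX) +_F ∑^F v_j X^(p^j)` over `ℤ[v]` -/
theorem mulS_univ : ∃ G : PowerSeries (MvPolynomial ℕ ℤ), PowerSeries.constantCoeff G = 0 ∧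
    mulS p n vu p = (FZ p n).subst ![((p : PowerSeries (MvPolynomial ℕ ℤ)) * G :
      PowerSeries (MvPolynomial ℕ ℤ)), (Up p n 1 vu n).subst
        (PowerSeries.X ^ p : PowerSeries (MvPolynomial ℕ ℤ))] := by
  obtain ⟨G, hG0, hG⟩ := exists_G (p := p) (n := n)
  refine ⟨G, hG0, ?_⟩
  have hp0 : p ≠ 0 := (Fact.out : p.Prime).ne_zero
  have h1 : MvPowerSeries.constantCoeff ((p : PowerSeries (MvPolynomial ℕ ℤ)) * G :
      PowerSeries (MvPolynomial ℕ ℤ)) = 0 := by
    have : PowerSeries.constantCoeff ((p : PowerSeries (MvPolynomial ℕ ℤ)) * G) = 0 := by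
      rw [map_mul, hG0, mul_zero]
    exact this
  have h2 := cc_subst_X_pow hp0 (Up_cc (p := p) (n := n) 1 vu n)
  refine eq_of_log (p := p) (n := n) (mulS_cc vu p) (cc FZ_cc h1 h2) ?_
  rw [log_FZ h1 h2, log_Up]
  have e1 : (logQ p n).subst ((mulS p n vu p).map io) = _ := log_mulS p
  have e2 : MvPowerSeries.map io ((p : PowerSeries (MvPolynomial ℕ ℤ)) * G :
      PowerSeries (MvPolynomial ℕ ℤ)) = (p : PowerSeries (MvPolynomial ℕ ℚ)) *
        PowerSeries.map io G := by
    have : PowerSeries.map io ((p : PowerSeries (MvPolynomial ℕ ℤ)) * G) =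
      (p : PowerSeries (MvPolynomial ℕ ℚ)) * PowerSeries.map io G := by
      rw [map_mul, map_natCast]
    exact this
  rw [e2, hG, ← log_feq]
  exact e1

theorem Fv_zero_right (v : ℕ → R) {a : MvPowerSeries σ R} (ha : constantCoeff a = 0) :
    (Fv p n v).subst ![a, 0] = a := by
  have h := congrArg (MvPowerSeries.subst (fun _ : Unit => a)) (Fv_X_zero p n v)
  have hc : HasSubst (fun _ : Unit => a) := hasSubst_of_constantCoeff_zero fun _ => ha
  have h1 := comp2 (Fv p n v) (a := (X () : MvPowerSeries Unit R)) (b := 0) (constantCoeff_X _)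
    (map_zero _) hc
  rw [subst_X hc] at h1
  have h0 : MvPowerSeries.subst (fun _ : Unit => a) (0 : MvPowerSeries Unit R) = 0 := by
    rw [← substAlgHom_apply hc, map_zero]
  rw [h0] at h1
  have h2 : MvPowerSeries.subst (fun _ : Unit => a) (PowerSeries.X : PowerSeries R) = a :=
    subst_X hc ()
  rw [h2] at h
  exact h1.symm.trans h

theorem Fv_zero_left (v : ℕ → R) {a : MvPowerSeries σ R} (ha : constantCoeff a = 0) :
    (Fv p n v).subst ![0, a] = a := by
  have hc := hs (R := R) (σ := σ) (a := 0) (b := a) (map_zero _) ha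
  have h := congrArg (MvPowerSeries.subst ![0, a]) (Fv_comm p n v)
  rw [comp2 _ (constantCoeff_X _) (constantCoeff_X _) hc, subst_X hc, subst_X hc] at h
  rw [← h]
  exact Fv_zero_right v ha

theorem spec_vu (v : ℕ → R) : (fun j => spec v (vu j)) = v := by
  funext j
  simp [spec, vu]

theorem mulS_charp [CharP R p] (v : ℕ → R) : mulS p n v p =
    (Up p n 1 v n).subst (PowerSeries.X ^ p : PowerSeries R) := by
  have hp0 : p ≠ 0 := (Fact.out : p.Prime).ne_zero
  obtain ⟨G, hG0, hG⟩ := mulS_univ (p := p) (n := n)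
  have h1 : MvPowerSeries.constantCoeff ((p : PowerSeries (MvPolynomial ℕ ℤ)) * G :
      PowerSeries (MvPolynomial ℕ ℤ)) = 0 := by
    have : PowerSeries.constantCoeff ((p : PowerSeries (MvPolynomial ℕ ℤ)) * G) = 0 := by
      rw [map_mul, hG0, mul_zero]
    exact this
  have h2 := cc_subst_X_pow hp0 (Up_cc (p := p) (n := n) 1 vu n)
  have e1 : mulS p n v p = (mulS p n vu p).map (spec v) := by
    rw [mulS_map, spec_vu]
  rw [e1, hG]
  refine (map_pair (spec v) (FZ p n) h1 h2).trans ?_
  have e2 : MvPowerSeries.map (spec v) ((p : PowerSeries (MvPolynomial ℕ ℤ)) * G :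
      PowerSeries (MvPolynomial ℕ ℤ)) = 0 := by
    have e0 : (p : PowerSeries R) = 0 := by
      rw [← map_natCast (PowerSeries.C : R →+* PowerSeries R) p, CharP.cast_eq_zero, map_zero]
    have : PowerSeries.map (spec v) ((p : PowerSeries (MvPolynomial ℕ ℤ)) * G) = 0 := by
      rw [map_mul, map_natCast, e0, zero_mul]
    exact this
  have e3 : MvPowerSeries.map (spec v) ((Up p n 1 vu n).subst
        (PowerSeries.X ^ p : PowerSeries (MvPolynomial ℕ ℤ))) =
      (Up p n 1 v n).subst (PowerSeries.X ^ p : PowerSeries R) := by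
    rw [PowerSeries.map_subst (PowerSeries.HasSubst.X_pow hp0), Up_map, spec_vu]
    congr 1
    have : PowerSeries.map (spec v) (PowerSeries.X ^ p) = (PowerSeries.X ^ p : PowerSeries R) := by
      rw [map_pow, PowerSeries.map_X]
    exact this
  rw [e2, e3]
  exact Fv_zero_left v (cc_subst_X_pow hp0 (Up_cc 1 v n))

theorem Up_zero (v : ℕ → R) {h : ℕ} (hv : ∀ j, 1 ≤ j → j < h → v j = 0) (k : ℕ) (hk : k + 1 ≤ h) :
    Up p n 1 v k = 0 := by
  induction k with
  | zero => rfl
  | succ k ih =>
    rw [Up, ih (by omega), hv (1 + k) (by omega) (by omega), map_zero, zero_mul]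
    exact Fv_zero_right v (map_zero _)

theorem Up_shift (v : ℕ → R) {h : ℕ} (hh : 1 ≤ h) (hv : ∀ j, 1 ≤ j → j < h → v j = 0) (i : ℕ) :
    Up p n 1 v (h - 1 + i) =
      (Up p n h v i).subst (PowerSeries.X ^ (p ^ (h - 1)) : PowerSeries R) := by
  have hp0 : p ≠ 0 := (Fact.out : p.Prime).ne_zero
  have hk : p ^ (h - 1) ≠ 0 := pow_ne_zero _ hp0
  induction i with
  | zero =>
    rw [add_zero, Up_zero v hv (h - 1) (by omega), Up, ← PowerSeries.coe_substAlgHom
      (PowerSeries.HasSubst.X_pow hk)]
    exact (map_zero _).symm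
  | succ i ih =>
    rw [Up_succ_subst h v i hk, ← ih, ← add_assoc, Up]
    have e1 : 1 + (h - 1 + i) = h + i := by omega
    rw [e1, pow_add, mul_comm (p ^ (h - 1))]

/-- `[p](X) = U(X^(p^h))` -/
theorem mulS_eq [CharP R p] (v : ℕ → R) {h : ℕ} (hh : 1 ≤ h) (hn : h ≤ n)
    (hv : ∀ j, 1 ≤ j → j < h → v j = 0) :
    mulS p n v p = (Up p n h v (n - h + 1)).subst (PowerSeries.X ^ (p ^ h) : PowerSeries R) := by
  have hp0 : p ≠ 0 := (Fact.out : p.Prime).ne_zero
  have hk : p ^ (h - 1) ≠ 0 := pow_ne_zero _ hp0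
  have e : n = h - 1 + (n - h + 1) := by omega
  rw [mulS_charp]
  conv_lhs => rw [show Up p n 1 v n = Up p n 1 v (h - 1 + (n - h + 1)) from congrArg _ e]
  rw [Up_shift v hh hv, PowerSeries.subst_comp_subst_apply (PowerSeries.HasSubst.X_pow hk)
    (PowerSeries.HasSubst.X_pow hp0)]
  congr 1
  rw [PowerSeries.subst_pow (PowerSeries.HasSubst.X_pow hp0),
    PowerSeries.subst_X (PowerSeries.HasSubst.X_pow hp0), ← pow_mul, ← pow_succ']
  congr 2
  omega

/-! ### homomorphisms -/

theorem mulS_hom_univ (m : ℕ) : (mulS p n vu m).subst (FZ p n) = (FZ p n).subst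
    ![(mulS p n vu m).subst (X 0 : MvPowerSeries (Fin 2) (MvPolynomial ℕ ℤ)),
      (mulS p n vu m).subst (X 1 : MvPowerSeries (Fin 2) (MvPolynomial ℕ ℤ))] := by
  have hX : ∀ i : Fin 2, constantCoeff ((mulS p n vu m).subst
      (X i : MvPowerSeries (Fin 2) (MvPolynomial ℕ ℤ))) = 0 := fun i =>
    PowerSeries.constantCoeff_subst_eq_zero (constantCoeff_X i) _ (mulS_cc vu m)
  have hF0 : constantCoeff (FZ p n) = 0 := FZ_cc
  have key : ∀ b : MvPowerSeries (Fin 2) (MvPolynomial ℕ ℤ), constantCoeff b = 0 →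
      (logQ p n).subst (((mulS p n vu m).subst b).map io) =
        (m : MvPowerSeries (Fin 2) (MvPolynomial ℕ ℚ)) * (logQ p n).subst (b.map io) := by
    intro b hb
    have hb' : PowerSeries.HasSubst (b.map io) :=
      PowerSeries.HasSubst.of_constantCoeff_zero (cc_map io hb)
    rw [PowerSeries.map_subst (PowerSeries.HasSubst.of_constantCoeff_zero hb)]
    have h1 := PowerSeries.subst_comp_subst_apply (a := PowerSeries.map io (mulS p n vu m))
      (b := b.map io) (PowerSeries.HasSubst.of_constantCoeff_zero' (cc_map io (mulS_cc vu m)))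
      hb' (logQ p n)
    rw [← h1]
    have h2 : (logQ p n).subst (PowerSeries.map io (mulS p n vu m)) = _ := log_mulS m
    rw [h2, PowerSeries.subst_mul hb']
    congr 1
    rw [← PowerSeries.coe_substAlgHom hb', map_natCast]
  refine eq_of_log (p := p) (n := n) (PowerSeries.constantCoeff_subst_eq_zero hF0 _ (mulS_cc vu m))
    (cc hF0 (hX 0) (hX 1)) ?_
  rw [log_FZ (hX 0) (hX 1), key _ hF0, key _ (constantCoeff_X 0), key _ (constantCoeff_X 1),
    ← mul_add]
  congr 1
  have h3 : (logQ p n).subst ((FZ p n).map io) = _ := (FZ_spec p n).2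
  rw [h3, MvPowerSeries.map_X, MvPowerSeries.map_X]

theorem mulS_hom (v : ℕ → R) (m : ℕ) : (mulS p n v m).subst (Fv p n v) = (Fv p n v).subst
    ![(mulS p n v m).subst (X 0 : MvPowerSeries (Fin 2) R),
      (mulS p n v m).subst (X 1 : MvPowerSeries (Fin 2) R)] := by
  have hX : ∀ i : Fin 2, constantCoeff ((mulS p n vu m).subst
      (X i : MvPowerSeries (Fin 2) (MvPolynomial ℕ ℤ))) = 0 := fun i =>
    PowerSeries.constantCoeff_subst_eq_zero (constantCoeff_X i) _ (mulS_cc vu m)
  have hF0 : constantCoeff (FZ p n) = 0 := FZ_cc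
  have e1 : PowerSeries.map (spec v) (mulS p n vu m) = mulS p n v m := by
    rw [mulS_map, spec_vu]
  have h := congrArg (MvPowerSeries.map (spec v)) (mulS_hom_univ (p := p) (n := n) m)
  rw [PowerSeries.map_subst (PowerSeries.HasSubst.of_constantCoeff_zero hF0),
    map_pair (spec v) _ (hX 0) (hX 1),
    PowerSeries.map_subst (PowerSeries.HasSubst.of_constantCoeff_zero (constantCoeff_X 0)),
    PowerSeries.map_subst (PowerSeries.HasSubst.of_constantCoeff_zero (constantCoeff_X 1)),
    MvPowerSeries.map_X, MvPowerSeries.map_X, e1] at h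
  exact h

theorem expand_inj {k : ℕ} (hk : k ≠ 0) {f g : MvPowerSeries σ R}
    (h : expand k hk f = expand k hk g) : f = g := by
  ext e
  rw [← coeff_expand_smul k hk f, ← coeff_expand_smul k hk g, h]

theorem expand_eq {k : ℕ} (hk : k ≠ 0) (f : MvPowerSeries σ R) :
    expand k hk f = MvPowerSeries.subst (fun i => (X i : MvPowerSeries σ R) ^ k) f := by
  rw [expand, substAlgHom_apply]

/-- `U` is a homomorphism from the Frobenius twist -/
theorem Up_hom [CharP R p] (v : ℕ → R) {h : ℕ} (hh : 1 ≤ h) (hn : h ≤ n)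
    (hv : ∀ j, 1 ≤ j → j < h → v j = 0) :
    IsHomS p n (fun j => v j ^ (p ^ h)) v (Up p n h v (n - h + 1)) := by
  have hp0 : p ≠ 0 := (Fact.out : p.Prime).ne_zero
  have hq : p ^ h ≠ 0 := pow_ne_zero _ hp0
  obtain ⟨U, hU⟩ : ∃ U, U = Up p n h v (n - h + 1) := ⟨_, rfl⟩
  have hU0 : MvPowerSeries.constantCoeff U = 0 := by rw [hU]; exact Up_cc h v _
  have hm : mulS p n v p = U.subst (PowerSeries.X ^ (p ^ h) : PowerSeries R) := by
    rw [hU]; exact mulS_eq v hh hn hv
  rw [← hU]
  refine ⟨hU0, ?_⟩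
  have : ExpChar R p := ExpChar.prime (Fact.out : p.Prime)
  have hF0 : constantCoeff (Fv p n v) = 0 := Fv_constantCoeff p n v
  have hF0' : constantCoeff (Fv p n fun j => v j ^ (p ^ h)) = 0 := Fv_constantCoeff p n _
  have hX : ∀ i : Fin 2, constantCoeff (U.subst (X i : MvPowerSeries (Fin 2) R)) = 0 := fun i =>
    PowerSeries.constantCoeff_subst_eq_zero (constantCoeff_X i) _ hU0
  -- the `q`-th power of the group law
  have hFq : (Fv p n v) ^ (p ^ h) =
      MvPowerSeries.subst (fun i => (X i : MvPowerSeries (Fin 2) R) ^ (p ^ h))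
        (Fv p n fun j => v j ^ (p ^ h)) := by
    rw [← map_iterateFrobenius_expand p hp0 (Fv p n v) h, map_expand, Fv_map, ← expand_eq hq]
    rfl
  have key : ∀ b : MvPowerSeries (Fin 2) R, constantCoeff b = 0 →
      PowerSeries.subst b (U.subst (PowerSeries.X ^ (p ^ h) : PowerSeries R) : PowerSeries R) =
        U.subst (b ^ (p ^ h)) := by
    intro b hb
    have hb' := PowerSeries.HasSubst.of_constantCoeff_zero hb
    rw [PowerSeries.subst_comp_subst_apply (PowerSeries.HasSubst.X_pow hq) hb',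
      PowerSeries.subst_pow hb', PowerSeries.subst_X hb']
  have hc : HasSubst (fun i => (X i : MvPowerSeries (Fin 2) R) ^ (p ^ h)) := HasSubst.X_pow hq
  have hcomp := mulS_hom (p := p) (n := n) v p
  rw [hm, key _ hF0, key _ (constantCoeff_X 0), key _ (constantCoeff_X 1), hFq,
    ← comp1 U hF0' hc] at hcomp
  have e : ∀ i : Fin 2, U.subst ((X i : MvPowerSeries (Fin 2) R) ^ (p ^ h)) =
      MvPowerSeries.subst (fun i => (X i : MvPowerSeries (Fin 2) R) ^ (p ^ h))
        (U.subst (X i : MvPowerSeries (Fin 2) R)) := by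
    intro i
    rw [comp1 U (constantCoeff_X i) hc, subst_X hc]
  rw [e 0, e 1, ← comp2 _ (hX 0) (hX 1) hc, ← expand_eq hq, ← expand_eq hq] at hcomp
  exact expand_inj hq hcomp

end log

end US1

end Vale.Agent.P217
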