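import Vale.Agent.P217.UDefs
import Vale.Agent.P217.PUS3
import Vale.Agent.P217.PDER
import Vale.Agent.P217.PCP
import Vale.Agent.P217.US1

/-!
# P217: the series `[p]` and `U` (modules US1 ... US5)

`[p]_v(X) = exp_v(pX) +_F ∑^F_{1≤j≤n} v_j X^(p^j)` (apply the logarithm), `exp_v(pX) ≡ 0 mod p`
(functional equation lemma). In characteristic `p` with `v_j = 0` for `j < h`:
`[p]_v(X) = U(X^(p^h))`, `U(Y) = ∑^F_{h≤j≤n} v_j Y^(p^(j-h))`.
-/

namespace Vale.Agent.P217

open MvPowerSeries

variable {R : Type*} [CommRing R]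

variable {p n h : ℕ} [Fact p.Prime] {v : ℕ → R}

theorem Upart_eq_Up (i : ℕ) : Upart p n h v i = US1.Up p n h v i := by
  induction i with
  | zero => rfl
  | succ i ih => rw [Upart, US1.Up, ih]

/-- US1: `[p](X) = U(X^(p^h))` in characteristic `p`. -/
theorem mulS_p_eq [CharP R p] (hh : 1 ≤ h) (hn : h ≤ n) (hv : ∀ j, 1 ≤ j → j < h → v j = 0) :
    mulS p n v p = (US p n h v).subst ((PowerSeries.X : PowerSeries R) ^ (p ^ h)) := by
  rw [US, Upart_eq_Up]
  exact US1.mulS_eq v hh hn hv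

/-- US2: `U` is a homomorphism from the Frobenius twist. -/
theorem US_isHomS [CharP R p] (hh : 1 ≤ h) (hn : h ≤ n) (hv : ∀ j, 1 ≤ j → j < h → v j = 0) :
    IsHomS p n (fun j => v j ^ (p ^ h)) v (US p n h v) := by
  rw [US, Upart_eq_Up]
  exact US1.Up_hom v hh hn hv

theorem US_constantCoeff (hh : 1 ≤ h) : PowerSeries.constantCoeff (US p n h v) = 0 :=
  Upart_constantCoeff v _

/-- US3: the linear coefficient of `U` is `v_h`. -/
theorem US_coeff_one (hh : 1 ≤ h) (hn : h ≤ n) : PowerSeries.coeff 1 (US p n h v) = v h :=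
  US_coeff_one_us3 hn

/-- US4: `U ≡ Y^(p^(n-h))` modulo an ideal containing `v_h, …, v_{n-1}`. -/
theorem US_coeff_mod (hn : h ≤ n) (I : Ideal R) (hI : ∀ j, h ≤ j → j < n → v j ∈ I)
    (h1 : v n = 1) (i : ℕ) :
    PowerSeries.coeff i (US p n h v) - (if i = p ^ (n - h) then 1 else 0) ∈ I :=
  US_coeff_mod_us3 hn I hI h1 i

/-- US5: `U ≡ ∑ v_j Y^(p^(j-h))` modulo `I^2` in degrees `< p^(n-h)`. -/
theorem US_coeff_mod_sq (hn : h ≤ n) (I : Ideal R) (hI : ∀ j, h ≤ j → j < n → v j ∈ I)
    (h1 : v n = 1) (i : ℕ) (hi : i < p ^ (n - h)) :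
    PowerSeries.coeff i (US p n h v) - (if i = p ^ (Nat.log p i) then v (h + Nat.log p i) else 0)
      ∈ I ^ 2 :=
  US_coeff_mod_sq_us3 hn I hI h1 i hi

theorem charP_dual (p : ℕ) [Fact p.Prime] : CharP (DualNumber (ZMod p)) p := by
  refine (CharP.charP_iff_prime_eq_zero (Fact.out : p.Prime)).mpr ?_
  apply TrivSqZeroExt.ext
  · simp
  · simp

theorem dualForm (hn : 1 ≤ n) : DualForm p n := by
  intro w hw hw1 i hi
  have := charP_dual p
  have hp1 : 1 < p := (Fact.out : p.Prime).one_lt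
  rw [mulS_p_eq (h := 1) le_rfl hn (fun j h1 h2 => by omega), pow_one,
    PowerSeries.coeff_subst_X_pow (by omega)]
  by_cases hpi : p ∣ i
  · rw [if_pos hpi]
    obtain ⟨i', rfl⟩ := hpi
    rw [Nat.mul_div_cancel_left _ (by omega)]
    have hi' : i' < p ^ (n - 1) := by
      have : p ^ n = p * p ^ (n - 1) := by
        rw [← pow_succ', Nat.sub_add_cancel hn]
      rw [this] at hi
      exact Nat.lt_of_mul_lt_mul_left hi
    have h1 := US_coeff_mod_sq (h := 1) hn _ hw hw1 i' hi'
    rw [eps_ideal_sq, Ideal.mem_bot, sub_eq_zero] at h1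
    rw [Algebra.algebraMap_self_apply, h1]
    rcases Nat.eq_zero_or_pos i' with h0 | h0
    · subst h0; simp
    · have hlog : Nat.log p (p * i') = Nat.log p i' + 1 := by
        rw [mul_comm, Nat.log_mul_base hp1 (by omega)]
      rw [hlog]
      have hiff : (i' = p ^ Nat.log p i') ↔ (p * i' = p ^ (Nat.log p i' + 1) ∧ p * i' ≠ 1) := by
        constructor
        · intro h
          refine ⟨?_, ?_⟩
          · rw [pow_succ']
            exact congrArg _ h
          · intro h2
            have := Nat.eq_one_of_mul_eq_one_right h2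
            omega
        · rintro ⟨h, _⟩
          rw [pow_succ'] at h
          exact Nat.eq_of_mul_eq_mul_left (by omega) h
      rw [add_comm 1]
      exact if_congr hiff rfl rfl
  · rw [if_neg hpi, if_neg]
    rintro ⟨h1, h2⟩
    apply hpi
    have : Nat.log p i ≠ 0 := by
      intro h0
      rw [h0, pow_zero] at h1
      exact h2 h1
    rw [h1]
    exact dvd_pow_self p this

/-- CP: `[p]_v ≡ ∑_j v_j X^(p^j) + p * kappa(X)` modulo `I^2` in degrees `< p^n`. (Taylor expansion
of the universal coefficient at `v = (0, …, 0, 1)`; the derivatives are computed modulo `p`,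
over `F_p[ε]`, where `[p](X) = ∑^F v_j X^(p^j)`.) -/
theorem mulS_CP (hn : 1 ≤ n) (I : Ideal R) (hp : (p : R) ∈ I)
    (hI : ∀ j, 1 ≤ j → j < n → v j ∈ I) (h1 : v n = 1) (i : ℕ) (hi : i < p ^ n) :
    PowerSeries.coeff i (mulS p n v p) -
      (if i = p ^ (Nat.log p i) ∧ i ≠ 1 then v (Nat.log p i) else 0) - (p : R) * (kappa p n i : R)
        ∈ I ^ 2 := by
  exact mulS_CP_of (dualForm hn) hn I hp hI h1 i hi

/-- `[p]_v ≡ X^(p^n)` modulo `I`. -/
theorem mulS_coeff_mod (hn : 1 ≤ n) (I : Ideal R) (hp : (p : R) ∈ I)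
    (hI : ∀ j, 1 ≤ j → j < n → v j ∈ I) (h1 : v n = 1) (i : ℕ) :
    PowerSeries.coeff i (mulS p n v p) - (if i = p ^ n then 1 else 0) ∈ I := by
  by_cases hT : I = ⊤
  · rw [hT]; exact Submodule.mem_top
  · have : Nontrivial (R ⧸ I) := Ideal.Quotient.nontrivial_iff.mpr hT
    have hp1 : 1 < p := (Fact.out : p.Prime).one_lt
    have : CharP (R ⧸ I) p := by
      refine (CharP.charP_iff_prime_eq_zero (Fact.out : p.Prime)).mpr ?_
      rw [← map_natCast (Ideal.Quotient.mk I)]
      exact Ideal.Quotient.eq_zero_iff_mem.mpr hp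
    rw [← Ideal.Quotient.eq_zero_iff_mem, map_sub, sub_eq_zero, ← PowerSeries.coeff_map,
      mulS_map, mulS_p_eq (h := 1) le_rfl hn (fun j h1 h2 => by omega), pow_one,
      PowerSeries.coeff_subst_X_pow (by omega)]
    have h2 := fun i' => US_coeff_mod (p := p) (n := n) (h := 1) (v := fun j => Ideal.Quotient.mk I (v j)) hn
      (⊥ : Ideal (R ⧸ I))
      (fun j h1 h2 => by
        rw [Ideal.mem_bot]
        exact Ideal.Quotient.eq_zero_iff_mem.mpr (hI j h1 h2))
      (by simp only [h1, map_one]) i'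
    by_cases hpi : p ∣ i
    · obtain ⟨i', rfl⟩ := hpi
      rw [if_pos (dvd_mul_right _ _), Nat.mul_div_cancel_left _ (by omega)]
      have h3 := h2 i'
      rw [Ideal.mem_bot, sub_eq_zero] at h3
      rw [Algebra.algebraMap_self_apply, h3]
      have hiff : (i' = p ^ (n - 1)) ↔ (p * i' = p ^ n) := by
        have : p ^ n = p * p ^ (n - 1) := by
          rw [← pow_succ', Nat.sub_add_cancel hn]
        rw [this]
        constructor
        · intro h; rw [h]
        · intro h; exact Nat.eq_of_mul_eq_mul_left (by omega) h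
      by_cases hc : i' = p ^ (n - 1)
      · rw [if_pos hc, if_pos (hiff.mp hc), map_one]
      · rw [if_neg hc, if_neg (fun h => hc (hiff.mpr h)), map_zero]
    · rw [if_neg hpi, if_neg, map_zero]
      intro h
      apply hpi
      rw [h]
      exact dvd_pow_self p (by omega)

/-- The derivative of `[p]` is `p` times a unit. -/
theorem derivative_mulS : ∃ g : PowerSeries R, PowerSeries.constantCoeff g = 1 ∧
    PowerSeries.derivative R (mulS p n v p) = PowerSeries.C (p : R) * g :=
  derivative_mulS_der v p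

/-- The derivative of `U` is `v_h` times a unit (char `p`, `v_j = 0` for `j < h`). -/
theorem derivative_US [CharP R p] (hh : 1 ≤ h) (hn : h ≤ n)
    (hv : ∀ j, 1 ≤ j → j < h → v j = 0) : ∃ g : PowerSeries R,
    PowerSeries.constantCoeff g = 1 ∧
    PowerSeries.derivative R (US p n h v) = PowerSeries.C (v h) * g := by
  obtain ⟨k, hk, h1⟩ := derivative_hom (US_isHomS (p := p) (n := n) (v := v) hh hn hv)
  exact ⟨k, hk, by rw [h1, US_coeff_one hh hn]⟩

/-- Points: `p • x = U(x^(p^h))`. -/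
theorem FPt.p_smul_val {O : Type*} [CommRing O] [UniformSpace O] [IsUniformAddGroup O]
    [IsTopologicalRing O] [IsLinearTopology O O] [T2Space O] [CompleteSpace O]
    {v : ℕ → O} (x : FPt p n v) : (p • x).1 = ev1 (mulS p n v p) x.1 :=
  FPt.nsmul_val p x

theorem FPt.p_smul_val_US {O : Type*} [CommRing O] [UniformSpace O] [IsUniformAddGroup O]
    [IsTopologicalRing O] [IsLinearTopology O O] [T2Space O] [CompleteSpace O] [CharP O p]
    {v : ℕ → O} (hh : 1 ≤ h) (hn : h ≤ n) (hv : ∀ j, 1 ≤ j → j < h → v j = 0) (x : FPt p n v) :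
    (p • x).1 = ev1 (US p n h v) (x.1 ^ (p ^ h)) :=
  FPt.p_smul_val_US_psm (mulS_p_eq hh hn hv) x

end Vale.Agent.P217
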