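import Vale.Agent.P217.ClosureI
import Vale.Agent.P217.ClosureE
import Vale.Agent.P217.ClosureF
import Vale.Agent.P217.FSer
import Vale.Agent.P217.USeries

/-!
# P217, closure part, file J: points of `Γ_h` in the unit ball, the step with a distinguished
variable
-/

namespace Vale.Agent.P217

open Finset MvPowerSeries Filter Topology

set_option linter.unusedSectionVars false

/-! ## Homomorphisms -/

section homs

variable {R : Type*} [CommRing R] {p n : ℕ} [Fact p.Prime] {v w : ℕ → R}

theorem cls_subst_X01 (F : MvPowerSeries (Fin 2) R) :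
    subst ![(X 0 : MvPowerSeries (Fin 2) R), X 1] F = F := by
  have : ![(X 0 : MvPowerSeries (Fin 2) R), X 1] = X := by
    funext s
    fin_cases s <;> rfl
  rw [this, subst_self]
  rfl

theorem cls_isHomS_inv : IsHomS p n v v (invS p n v) := by
  rw [isHomS_iff (invS_constantCoeff p n v)]
  have h := neg_add (FSer.mk' p n v (X 0 : MvPowerSeries (Fin 2) R) (constantCoeff_X _))
    (FSer.mk' p n v (X 1) (constantCoeff_X _))
  apply FSer.ext'
  have h2 := congrArg FSer.ser h
  rw [FSer.neg_ser, FSer.add_ser, FSer.add_ser, FSer.neg_ser, FSer.neg_ser] at h2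
  simp only [FSer.mk'_ser] at h2
  rw [cls_subst_X01] at h2
  exact h2

theorem cls_isHomS_zero : IsHomS p n v w (0 : PowerSeries R) := by
  rw [isHomS_iff (map_zero _)]
  apply FSer.ext'
  have h0 : ∀ (a : MvPowerSeries (Fin 2) R) (_ : constantCoeff a = 0),
      (0 : PowerSeries R).subst a = 0 := fun a ha => subst_zero_series (hasSubst_one ha)
  rw [FSer.add_ser]
  simp only [FSer.mk'_ser]
  rw [h0 _ (Fv_constantCoeff p n v), h0 _ (constantCoeff_X _), h0 _ (constantCoeff_X _)]
  exact (fadd_zero (p := p) (n := n) (v := w) (a := (0 : MvPowerSeries (Fin 2) R))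
    (map_zero _)).symm

theorem cls_isHomS_map {S : Type*} [CommRing S] (φ : R →+* S) {g : PowerSeries R}
    (hg : IsHomS p n v w g) :
    IsHomS p n (fun j => φ (v j)) (fun j => φ (w j)) (g.map φ) := by
  refine ⟨?_, ?_⟩
  · rw [← PowerSeries.coeff_zero_eq_constantCoeff_apply, PowerSeries.coeff_map,
      PowerSeries.coeff_zero_eq_constantCoeff_apply, hg.1, map_zero]
  · have h1 : HasSubst (fun _ : Unit => Fv p n v) := hasSubst_one (Fv_constantCoeff p n v)
    have hX : ∀ i : Fin 2, HasSubst (fun _ : Unit => (X i : MvPowerSeries (Fin 2) R)) :=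
      fun i => hasSubst_one (constantCoeff_X _)
    have hc : ∀ i : Fin 2, constantCoeff (g.subst (X i : MvPowerSeries (Fin 2) R)) = 0 :=
      fun i => PowerSeries.constantCoeff_subst_eq_zero (constantCoeff_X _) g hg.1
    have h2 := congrArg (MvPowerSeries.map φ) hg.2
    have e1 : MvPowerSeries.map φ (g.subst (Fv p n v)) =
        (g.map φ).subst (Fv p n fun j => φ (v j)) := by
      rw [← Fv_map]
      exact map_subst h1 g
    have e2 : ∀ i : Fin 2, MvPowerSeries.map φ (g.subst (X i : MvPowerSeries (Fin 2) R)) =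
        (g.map φ).subst (X i : MvPowerSeries (Fin 2) S) := by
      intro i
      have := map_subst (h := φ) (hX i) g
      rw [map_X] at this
      exact this
    rw [e1, map_subst (hasSubst_pair (hc 0) (hc 1)), Fv_map] at h2
    rw [h2]
    congr 1
    funext s
    fin_cases s
    · exact e2 0
    · exact e2 1

variable (p n v) in
theorem cls_law : ClsLaw (Fv p n v) where
  const := Fv_constantCoeff p n v
  unit := Fv_X_zero p n v
  deriv := by
    rw [← coeff_zero_eq_constantCoeff_apply, coeff_pderiv, zero_add, ← coeff_subst_zero_X,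
      Fv_zero_X]
    simp

end homs

/-! ## `p • x = x ^ (p ^ h)` for `Γ_h` in characteristic `p` -/

theorem cls_US_Gam {R : Type*} [CommRing R] {p n h : ℕ} [Fact p.Prime] :
    US p n h (Gam h : ℕ → R) = PowerSeries.X := by
  have h1 : ∀ i : ℕ, Upart p n h (Gam h : ℕ → R) (i + 1) = PowerSeries.X := by
    intro i
    induction i with
    | zero =>
      rw [Upart, Upart]
      have : (PowerSeries.C ((Gam h : ℕ → R) (h + 0)) * PowerSeries.X ^ p ^ 0 : PowerSeries R) =
          PowerSeries.X := by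
        simp [Gam]
      rw [this]
      exact Fv_zero_X p n _
    | succ i ih =>
      rw [Upart, ih]
      have : (PowerSeries.C ((Gam h : ℕ → R) (h + (i + 1))) * PowerSeries.X ^ p ^ (i + 1)
          : PowerSeries R) = 0 := by
        simp [Gam]
      rw [this]
      exact Fv_X_zero p n _
  exact h1 (n - h)

theorem cls_p_smul {O : Type*} [CommRing O] [UniformSpace O] [IsUniformAddGroup O]
    [IsTopologicalRing O] [IsLinearTopology O O] [T2Space O] [CompleteSpace O] {p n h : ℕ}
    [Fact p.Prime] [CharP O p] (hh : 1 ≤ h) (hn : h ≤ n) (x : FPt p n (Gam h : ℕ → O)) :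
    (p • x).1 = x.1 ^ p ^ h := by
  rw [FPt.p_smul_val_US hh hn (fun j hj hj' => by simp [Gam, hj'.ne]), cls_US_Gam, ev1_X]

/-! ## Points of `Γ_h` in the unit ball -/

section pts

variable {p h : ℕ} {k₀ K σ τ : Type*} [Field k₀] [NormedField K] [IsUltrametricDist K]
  [CompleteSpace K] [Algebra k₀ K] [ClsFix p h k₀ K] [Finite σ] [Finite τ]

/-- evaluation in the unit ball and in the field -/
theorem cls_bridge (f : MvPowerSeries σ k₀) (y : σ → OO K) (hy : ∀ s, ‖(y s : K)‖ < 1) :
    ((MvPowerSeries.eval₂ (RingHom.id (OO K)) y (f.map (clsHom k₀ K)) : OO K) : K) =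
      clsEv (fun s => (y s : K)) f := by
  have hev : HasEval y := hasEval_of_finite fun s => (tn_iff_norm_lt_one (y s)).mpr (hy s)
  have h1 := hasSum_eval₂ (φ := RingHom.id (OO K)) continuous_idO hev (f.map (clsHom k₀ K))
  have h2 := h1.map (OO K).subtype.toAddMonoidHom continuous_subtype_val
  refine h2.unique ?_
  convert! clsEv_hasSum (fun s => (y s : K)) hy f using 1
  funext d
  simp only [Function.comp, RingHom.toAddMonoidHom_eq_coe, AddMonoidHom.coe_coe, map_mul,
    RingHom.id_apply, coeff_map]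
  congr 1
  rw [Finsupp.prod, Finsupp.prod, map_prod]
  rfl

variable {n : ℕ} [Fact p.Prime]

theorem cls_Fv_map (k₀ : Type*) [Field k₀] [Algebra k₀ K] [ClsFix p h k₀ K] :
    (Fv p n (Gam h : ℕ → k₀)).map (clsHom k₀ K) = Fv p n (Gam h : ℕ → OO K) := by
  rw [Fv_map]
  congr 1
  funext j
  simp only [Gam]
  split_ifs
  · exact map_one _
  · exact map_zero _

theorem cls_pt_lt (x : FPt p n (Gam h : ℕ → OO K)) : ‖(x.1 : K)‖ < 1 :=
  (tn_iff_norm_lt_one x.1).mp x.2

theorem cls_add_val (k₀ : Type*) [Field k₀] [Algebra k₀ K] [ClsFix p h k₀ K]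
    (x y : FPt p n (Gam h : ℕ → OO K)) :
    ((x + y).1 : K) = clsEv ![(x.1 : K), (y.1 : K)] (Fv p n (Gam h : ℕ → k₀)) := by
  rw [FPt.add_val, ev2, ← cls_Fv_map k₀, cls_bridge _ _ (fun s => by
    fin_cases s
    · exact cls_pt_lt x
    · exact cls_pt_lt y)]
  congr 1
  funext s
  fin_cases s <;> rfl

/-- the set of points -/
def clsPts {ι : Type*} (Λ : AddSubgroup (ι → FPt p n (Gam h : ℕ → OO K))) : Set (ι → K) :=
  {y | ∃ ν ∈ Λ, y = fun i => ((ν i).1 : K)}

theorem cls_charP_OO (k₀ : Type*) [Field k₀] [Algebra k₀ K] [H : ClsFix p h k₀ K] :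
    CharP (OO K) p := by
  have := H.charP
  exact (OO K).subtype.charP (Subtype.coe_injective) p

theorem cls_stable (k₀ : Type*) [Field k₀] [Algebra k₀ K] [H : ClsFix p h k₀ K] (hn : h ≤ n)
    {ι : Type*} (Λ : AddSubgroup (ι → FPt p n (Gam h : ℕ → OO K))) :
    ClsStable p h (Fv p n (Gam h : ℕ → k₀)) (clsPts Λ) where
  lt := by
    rintro y ⟨ν, hν, rfl⟩ s
    exact cls_pt_lt _
  zero := ⟨0, Λ.zero_mem, rfl⟩
  frob := by
    rintro y ⟨ν, hν, rfl⟩
    refine ⟨p • ν, Λ.nsmul_mem hν p, ?_⟩
    have := cls_charP_OO (p := p) (h := h) (K := K) k₀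
    funext i
    rw [Pi.smul_apply, cls_p_smul H.pos hn]
    rfl
  add := by
    rintro y ⟨ν, hν, rfl⟩ t ⟨ν', hν', rfl⟩
    refine ⟨ν + ν', Λ.add_mem hν hν', ?_⟩
    funext i
    rw [Pi.add_apply, cls_add_val k₀]

end pts

end Vale.Agent.P217
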