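import Mathlib

/-!
# P217: core definitions (helper50)

One Hazewinkel formal group law over `ℤ[v_1, …, v_n]` (variables `v_j`, `j : ℕ`, only
`1 ≤ j ≤ n` occur) and its specialisations `Fv p n v`, `v : ℕ → R`.
-/

namespace Vale.Agent.P217

open MvPowerSeries

/-- Coefficients of the logarithm: `ell_0 = 1`, and for `k ≥ 1`
`p * ell_k = ∑_{i < k, k - i ≤ n} ell_i * v_{k-i}^(p^i)`. -/
noncomputable def ell (p n : ℕ) : ℕ → MvPolynomial ℕ ℚ
  | 0 => 1
  | (k + 1) => MvPolynomial.C ((p : ℚ)⁻¹) *
      ∑ i : Fin (k + 1), if k + 1 - (i : ℕ) ≤ n then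
        ell p n i * (MvPolynomial.X (k + 1 - (i : ℕ))) ^ (p ^ (i : ℕ)) else 0
  decreasing_by exact i.isLt

/-- The logarithm `∑_k ell_k X^(p^k)`. -/
noncomputable def logQ (p n : ℕ) : PowerSeries (MvPolynomial ℕ ℚ) :=
  PowerSeries.mk fun d => if d = p ^ (Nat.log p d) then ell p n (Nat.log p d) else 0

/-- The formal group law over `ℚ[v]`: the unique series in two variables without constant term
with `log (F(X,Y)) = log X + log Y`. -/
def IsFGLQ (p n : ℕ) (F : MvPowerSeries (Fin 2) (MvPolynomial ℕ ℚ)) : Prop :=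
  constantCoeff F = 0 ∧
  (logQ p n).subst F = (logQ p n).subst (X 0 : MvPowerSeries (Fin 2) (MvPolynomial ℕ ℚ))
    + (logQ p n).subst (X 1 : MvPowerSeries (Fin 2) (MvPolynomial ℕ ℚ))

open Classical in
/-- The Hazewinkel formal group law over `ℤ[v]` (it exists and is unique: see `FZ_spec`). -/
noncomputable def FZ (p n : ℕ) : MvPowerSeries (Fin 2) (MvPolynomial ℕ ℤ) :=
  if h : ∃ F : MvPowerSeries (Fin 2) (MvPolynomial ℕ ℤ),
      IsFGLQ p n (F.map (MvPolynomial.map (Int.castRingHom ℚ))) then h.choose else 0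

/-- Specialisation of integral polynomials in the `v_j`. -/
noncomputable def spec {R : Type*} [CommRing R] (v : ℕ → R) : MvPolynomial ℕ ℤ →+* R :=
  MvPolynomial.eval₂Hom (Int.castRingHom R) v

/-- The specialised formal group law `F_v` over `R`. -/
noncomputable def Fv {R : Type*} [CommRing R] (p n : ℕ) (v : ℕ → R) : MvPowerSeries (Fin 2) R :=
  (FZ p n).map (spec v)

/-- The multiplication by `m` series of `F_v`: `[0] = 0`, `[m+1] = F_v(X, [m])`. -/
noncomputable def mulS {R : Type*} [CommRing R] (p n : ℕ) (v : ℕ → R) : ℕ → PowerSeries R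
  | 0 => 0
  | (m + 1) => (Fv p n v).subst ![(PowerSeries.X : PowerSeries R), mulS p n v m]

/-- The parameters `v_j = 0` for `j < h`, `v_{h+i} = a_i` for `i < m`, `v_{h+m} = 1`. -/
def par {R : Type*} [CommRing R] (h m : ℕ) (a : Fin m → R) : ℕ → R := fun j =>
  if hj : h ≤ j ∧ j < h + m then a ⟨j - h, by omega⟩ else if j = h + m then 1 else 0

/-- Honda parameters: `v_h = 1`, all others `0`. -/
def Gam {R : Type*} [CommRing R] (h : ℕ) : ℕ → R := fun j => if j = h then 1 else 0

/-- `g` is a homomorphism from `F_v` to `F_w` (power series over `R`). -/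
def IsHomS {R : Type*} [CommRing R] (p n : ℕ) (v w : ℕ → R) (g : PowerSeries R) : Prop :=
  PowerSeries.constantCoeff g = 0 ∧
  g.subst (Fv p n v) = (Fv p n w).subst
    ![g.subst (X 0 : MvPowerSeries (Fin 2) R), g.subst (X 1 : MvPowerSeries (Fin 2) R)]

/-! ## Points in topological rings -/

section points

variable {O : Type*} [CommRing O] [UniformSpace O]

/-- Evaluation of a series in two variables at `x, y`. -/
noncomputable def ev2 (F : MvPowerSeries (Fin 2) O) (x y : O) : O :=
  MvPowerSeries.eval₂ (RingHom.id O) ![x, y] F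

/-- Evaluation of a series in one variable. -/
noncomputable def ev1 (g : PowerSeries O) (x : O) : O :=
  PowerSeries.eval₂ (RingHom.id O) x g

/-- Evaluation of a series in several variables. -/
noncomputable def evm {m : ℕ} (g : MvPowerSeries (Fin m) O) (x : Fin m → O) : O :=
  MvPowerSeries.eval₂ (RingHom.id O) x g

set_option linter.unusedVariables false in
/-- The points of `F_v` in `O`: topologically nilpotent elements. -/
def FPt (p n : ℕ) (v : ℕ → O) : Type _ := {x : O // IsTopologicallyNilpotent x}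

/-! The group structure on `FPt p n v` is in `Points.lean`. -/

end points

/-! ## Normed fields -/

/-- The closed unit ball of a nonarchimedean normed field. -/
def OO (K : Type*) [NormedField K] [IsUltrametricDist K] : Subring K where
  carrier := {x | ‖x‖ ≤ 1}
  mul_mem' := by
    intro a b ha hb
    simp only [Set.mem_setOf_eq, norm_mul] at *
    exact mul_le_one₀ ha (norm_nonneg _) hb
  one_mem' := by simp
  add_mem' := by
    intro a b ha hb
    exact (IsUltrametricDist.norm_add_le_max a b).trans (max_le ha hb)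
  zero_mem' := by simp
  neg_mem' := by intro a ha; simpa using ha

/-- A multiplicative, norm preserving map `K → L`, additive modulo `p`, such that compatible
systems of `p`-power roots in `L` come from `K`. (`L = K` with the identity, or `K` the tilt
of `L`.) -/
structure SharpData (p : ℕ) [Fact p.Prime] (K L : Type*) [NormedField K] [NormedField L]
    [CharP K p] [PerfectRing K p] where
  sharp : K →*₀ L
  norm_sharp : ∀ x, ‖sharp x‖ = ‖x‖
  add_mod : ∀ x y : K, ‖x‖ ≤ 1 → ‖y‖ ≤ 1 → ‖sharp (x + y) - sharp x - sharp y‖ ≤ ‖(p : L)‖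
  lift : ∀ z : ℕ → L, (∀ j, z (j + 1) ^ p = z j) →
    ∃ x : K, ∀ j, sharp ((frobeniusEquiv K p).symm^[j] x) = z j

/-- `K` is the tilt of `C`, with Fontaine's map `theta`. -/
structure TiltData (p : ℕ) [Fact p.Prime] (K C : Type*) [NormedField K] [NormedField C]
    [IsUltrametricDist K] [IsUltrametricDist C] [CharP K p] [PerfectRing K p]
    extends SharpData p K C where
  theta : WittVector p (OO K) →+* OO C
  theta_teich : ∀ x : OO K, ((theta (WittVector.teichmuller p x) : OO C) : C) = sharp (x : K)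

/-! ## Asymptotic vanishing along Frobenius sequences -/

/-- `G ∈ K[[λ_1..λ_m]]` vanishes asymptotically on the sequence `(ν_i^(q^M))_M`: all
truncations `G_{<N}` satisfy `limsup |G_{<N}(ν^(q^M))|^(1/q^M) ≤ r^N`. -/
def AV {K : Type*} [NormedField K] {m : ℕ} (q : ℕ) (ν : Fin m → K)
    (G : MvPowerSeries (Fin m) K) : Prop :=
  ∃ r : ℝ, 0 < r ∧ r < 1 ∧ (∀ i, ‖ν i‖ ≤ r) ∧ ∀ N : ℕ, ∀ ρ : ℝ, r ^ N < ρ →
    ∀ᶠ M : ℕ in Filter.atTop,
      ‖MvPolynomial.eval (fun i => ν i ^ (q ^ M)) (MvPowerSeries.truncTotal N G)‖ ≤ ρ ^ (q ^ M)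

end Vale.Agent.P217
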