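import Vale.Agent.P217.SPt

/-!
# P217, module E0D: the Lubin-Tate ring (definitions; helper95)
-/

namespace Vale.Agent.P217

open MvPowerSeries

/-- The Lubin-Tate ring `E_0 = W(k)[[u_1, …, u_{n-1}]]` (the variable `X i` is `u_{i+1}`). -/
abbrev E0 (p n : ℕ) [Fact p.Prime] (k : Type*) [CommRing k] : Type _ :=
  MvPowerSeries (Fin (n - 1)) (WittVector p k)

section defs

variable (p n : ℕ) [Fact p.Prime] (k : Type*) [Field k] [CharP k p]

/-- The parameters of the universal deformation: `v_j = u_j` (`1 ≤ j < n`), `v_n = 1`. -/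
noncomputable def uPar : ℕ → E0 p n k :=
  par 1 (n - 1) (fun i => (X i : E0 p n k))

/-- `u_0 = p`, `u_j` for `1 ≤ j < n`, `u_n = 1`: the sequence whose first `h` members generate
`I_h`. -/
noncomputable def uSeq (j : ℕ) : E0 p n k := if j = 0 then (p : E0 p n k) else uPar p n k j

/-- The height ideal `I_h = (p, u_1, …, u_{h-1})`, `I_0 = 0`. -/
noncomputable def Iht (h : ℕ) : Ideal (E0 p n k) :=
  Ideal.span (uSeq p n k '' {j | j < h})

/-- The residue map `E_0 → k`. -/
noncomputable def resE : E0 p n k →+* k :=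
  (WittVector.constantCoeff : WittVector p k →+* k).comp constantCoeff

/-- The maximal ideal of `E_0`. -/
noncomputable def mE : Ideal (E0 p n k) := RingHom.ker (resE p n k)

end defs

end Vale.Agent.P217
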