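import Vale.Agent.P217.FELCongr

/-!
# P217, module FCL: closure of the functional equation under substitution
-/

namespace Vale.Agent.P217

open MvPowerSeries

namespace FELData

variable {p n : ℕ} [Fact p.Prime] {A K : Type*} [CommRing A] [CommRing K] [Algebra ℚ K]
variable (D : FELData p n A K) {τ : Type*}

private theorem fcl_specQ_map {L : Type*} [CommRing L] [Algebra ℚ L] (φ : K →+* L) (w : ℕ → K)
    (P : MvPolynomial ℕ ℚ) : φ (specQ w P) = specQ (fun j => φ (w j)) P := by
  have h : φ.comp (specQ w) = specQ (fun j => φ (w j)) := by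
    apply MvPolynomial.ringHom_ext
    · intro r
      simp [specQ]
    · intro i
      simp [specQ]
  rw [← h]
  rfl

private theorem fcl_specQ_expand (w : ℕ → K) (k : ℕ) (P : MvPolynomial ℕ ℚ) :
    specQ w (MvPolynomial.expand k P) = specQ (fun j => w j ^ k) P := by
  have h : (specQ w).comp (MvPolynomial.expand k : MvPolynomial ℕ ℚ →ₐ[ℚ] _).toRingHom =
      specQ (fun j => w j ^ k) := by
    apply MvPolynomial.ringHom_ext
    · intro r
      simp [specQ]
    · intro i
      simp [specQ]
  rw [← h]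
  rfl

private theorem fcl_sigK (j : ℕ) (a : A) : (D.σK ^ j) (D.ι a) = D.ι ((D.σ ^ j) a) := by
  induction j generalizing a with
  | zero => simp
  | succ j ih => rw [pow_succ, pow_succ, RingHom.mul_def, RingHom.mul_def, RingHom.comp_apply,
      RingHom.comp_apply, D.σ_comm, ih]

private theorem fcl_sig_v (j i : ℕ) : (D.σ ^ j) (D.v i) = D.v i ^ (p ^ j) := by
  induction j with
  | zero => simp
  | succ j ih =>
    rw [pow_succ, RingHom.mul_def, RingHom.comp_apply, D.σ_v, map_pow, ih, ← pow_mul, ← pow_succ]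

/-- left recursion for the coefficients -/
private theorem fcl_left (k : ℕ) : (p : K) * ellOf p n (fun j => D.ι (D.v j)) (k + 1) =
    ∑ j ∈ Finset.Icc 1 (k + 1), if j ≤ n then
      D.ι (D.v j) * (D.σK ^ j) (ellOf p n (fun j => D.ι (D.v j)) (k + 1 - j)) else 0 := by
  have h := congrArg (specQ (fun j => D.ι (D.v j))) (ell_left p n k)
  rw [map_mul, map_sum] at h
  have h1 : (specQ (fun j => D.ι (D.v j))) (MvPolynomial.C (p : ℚ)) = (p : K) := by
    simp [specQ]
  rw [h1] at h
  rw [ellOf, h]
  apply Finset.sum_congr rfl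
  intro j _
  split_ifs with hj
  · rw [map_mul, fcl_specQ_expand]
    congr 1
    · simp [specQ]
    · rw [ellOf, fcl_specQ_map]
      congr 1
      have h2 : (fun j' => D.ι (D.v j') ^ p ^ j) = fun j' => (D.σK ^ j) (D.ι (D.v j')) := by
        funext i
        rw [fcl_sigK, fcl_sig_v, map_pow]
      rw [h2]
  · simp

private theorem fcl_coeff_op (d : ℕ) : PowerSeries.coeff d (D.op D.f : PowerSeries K) =
    ∑ j ∈ Finset.Icc 1 n, algebraMap ℚ K ((p : ℚ)⁻¹) * D.ι (D.v j) *
      (if p ^ j ∣ d then (D.σK ^ j) (PowerSeries.coeff (d / p ^ j) D.f) else 0) := by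
  have hp : p ≠ 0 := Nat.Prime.ne_zero Fact.out
  rw [PowerSeries.coeff, op, map_sum]
  apply Finset.sum_congr rfl
  intro j _
  rw [MvPowerSeries.coeff_C_mul]
  congr 1
  have h := PowerSeries.coeff_expand (p ^ j) (pow_ne_zero j hp)
    (PowerSeries.map (D.σK ^ j) D.f) (n := d)
  rw [PowerSeries.coeff_map] at h
  exact h

/-- `f(X) - op f (X)` is `X`: the functional equation of the logarithm. -/
theorem f_funcEq : D.f - D.op D.f = PowerSeries.X := by
  have hpr : p.Prime := Fact.out
  have hp : p ≠ 0 := Nat.Prime.ne_zero Fact.out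
  have hpK : algebraMap ℚ K ((p : ℚ)⁻¹) * (p : K) = 1 := by
    have : (p : K) = algebraMap ℚ K (p : ℚ) := by simp
    rw [this, ← map_mul, inv_mul_cancel₀ (by exact_mod_cast hp), map_one]
  apply PowerSeries.ext
  intro d
  rw [map_sub, fcl_coeff_op]
  by_cases hd : ∃ k, d = p ^ k
  · obtain ⟨k, rfl⟩ := hd
    rw [show PowerSeries.coeff (p ^ k) D.f = ellOf p n (fun j => D.ι (D.v j)) k from
      logOf_coeff_pow p n _ k]
    cases k with
    | zero =>
      rw [pow_zero, PowerSeries.coeff_one_X, ellOf_zero, Finset.sum_eq_zero, sub_zero]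
      intro j hj
      rw [Finset.mem_Icc] at hj
      rw [if_neg, mul_zero]
      intro h
      have h1 : 1 < p ^ j := Nat.one_lt_pow (by omega) hpr.one_lt
      have h2 := Nat.le_of_dvd one_pos h
      omega
    | succ k =>
      have hX : PowerSeries.coeff (p ^ (k + 1)) (PowerSeries.X : PowerSeries K) = 0 := by
        rw [PowerSeries.coeff_X, if_neg]
        have h1 : 1 < p ^ (k + 1) := Nat.one_lt_pow (by omega) hpr.one_lt
        omega
      rw [hX, sub_eq_zero]
      have h1 : ellOf p n (fun j => D.ι (D.v j)) (k + 1) = algebraMap ℚ K ((p : ℚ)⁻¹) *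
          ((p : K) * ellOf p n (fun j => D.ι (D.v j)) (k + 1)) := by
        rw [← mul_assoc, hpK, one_mul]
      rw [h1, fcl_left, Finset.mul_sum]
      have h2 : ∀ j ∈ Finset.Icc 1 n, algebraMap ℚ K ((p : ℚ)⁻¹) * D.ι (D.v j) *
          (if p ^ j ∣ p ^ (k + 1) then (D.σK ^ j) (PowerSeries.coeff (p ^ (k + 1) / p ^ j) D.f)
            else 0) = if j ≤ k + 1 then algebraMap ℚ K ((p : ℚ)⁻¹) * (D.ι (D.v j) *
            (D.σK ^ j) (ellOf p n (fun j => D.ι (D.v j)) (k + 1 - j))) else 0 := by
        intro j _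
        by_cases hj : j ≤ k + 1
        · rw [if_pos hj, if_pos (pow_dvd_pow p hj), Nat.pow_div hj hpr.pos,
            show PowerSeries.coeff (p ^ (k + 1 - j)) D.f =
              ellOf p n (fun j => D.ι (D.v j)) (k + 1 - j) from logOf_coeff_pow p n _ _, mul_assoc]
        · rw [if_neg hj, if_neg, mul_zero]
          intro h
          exact hj ((Nat.pow_dvd_pow_iff_le_right hpr.one_lt).1 h)
      rw [Finset.sum_congr rfl h2]
      have h3 : ∀ j ∈ Finset.Icc 1 (k + 1), algebraMap ℚ K ((p : ℚ)⁻¹) * (if j ≤ n then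
          D.ι (D.v j) * (D.σK ^ j) (ellOf p n (fun j => D.ι (D.v j)) (k + 1 - j)) else 0) =
          if j ≤ n then algebraMap ℚ K ((p : ℚ)⁻¹) * (D.ι (D.v j) *
            (D.σK ^ j) (ellOf p n (fun j => D.ι (D.v j)) (k + 1 - j))) else 0 := by
        intro j _
        rw [mul_ite, mul_zero]
      rw [Finset.sum_congr rfl h3, ← Finset.sum_filter, ← Finset.sum_filter]
      congr 1
      ext j
      simp only [Finset.mem_filter, Finset.mem_Icc]
      omega
  · push Not at hd
    rw [show PowerSeries.coeff d D.f = 0 from logOf_coeff_of_ne p n _ d hd]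
    have h1 : d ≠ 1 := by simpa using hd 0
    rw [PowerSeries.coeff_X, if_neg h1, Finset.sum_eq_zero, sub_zero]
    intro j _
    split_ifs with hj
    · obtain ⟨e, rfl⟩ := hj
      rw [Nat.mul_div_cancel_left _ (pow_pos hpr.pos j),
        show PowerSeries.coeff e D.f = 0 from logOf_coeff_of_ne p n _ e (fun k hk => by
          apply hd (j + k)
          rw [hk, pow_add]), map_zero, mul_zero]
    · rw [mul_zero]

/-- the data with parameters `σ^j v` -/
private noncomputable def tw (j : ℕ) : FELData p n A K where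
  ι := D.ι
  inj := D.inj
  σ := D.σ
  σK := D.σK
  σ_comm := D.σ_comm
  σ_frob := D.σ_frob
  v := fun i => (D.σ ^ j) (D.v i)
  σ_v := fun i => by
    rw [fcl_sig_v, map_pow, D.σ_v, ← pow_mul, ← pow_mul, mul_comm]

theorem closure (α : MvPowerSeries τ A) (hα : constantCoeff α = 0) :
    ∃ γ : MvPowerSeries τ A,
      D.f.subst (map D.ι α) - D.op (D.f.subst (map D.ι α)) = map D.ι γ := by
  classical
  have hpr : p.Prime := Fact.out
  have hp : p ≠ 0 := Nat.Prime.ne_zero Fact.out
  have hpK : algebraMap ℚ K ((p : ℚ)⁻¹) * (p : K) = 1 := by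
    have : (p : K) = algebraMap ℚ K (p : ℚ) := by simp
    rw [this, ← map_mul, inv_mul_cancel₀ (by exact_mod_cast hp), map_one]
  have hcc : constantCoeff (map D.ι α) = 0 := by
    rw [constantCoeff_map, hα, map_zero]
  have ha : PowerSeries.HasSubst (map D.ι α) := PowerSeries.HasSubst.of_constantCoeff_zero hcc
  -- the transformed terms
  have h1 : ∀ j : ℕ, ∃ γ : MvPowerSeries τ A,
      expand (p ^ j) (pow_ne_zero j hp) (map (D.σK ^ j) (D.f.subst (map D.ι α))) =
        PowerSeries.subst (map D.ι α ^ p ^ j) (PowerSeries.map (D.σK ^ j) D.f) +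
          C (p : K) * map D.ι γ := by
    intro j
    obtain ⟨γ₁, hγ₁⟩ := frob_congr D α j
    have hc1 : constantCoeff (expand (p ^ j) (pow_ne_zero j hp) (map (D.σ ^ j) α)) = 0 := by
      rw [constantCoeff_expand, constantCoeff_map, hα, map_zero]
    have hc2 : constantCoeff (α ^ p ^ j) = 0 := by
      rw [map_pow, hα, zero_pow (pow_ne_zero j hp)]
    obtain ⟨γ, hγ⟩ := congr_mod (D.tw j) (expand (p ^ j) (pow_ne_zero j hp) (map (D.σ ^ j) α))
      (α ^ p ^ j) hc1 hc2 1 le_rfl ⟨γ₁, by rw [hγ₁, pow_one]⟩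
    refine ⟨γ, ?_⟩
    have hf : (D.tw j).f = PowerSeries.map (D.σK ^ j) D.f := by
      change logOf p n (fun i => D.ι ((D.σ ^ j) (D.v i))) =
        PowerSeries.map (D.σK ^ j) (logOf p n (fun i => D.ι (D.v i)))
      rw [logOf_map]
      congr 1
      funext i
      rw [fcl_sigK]
    have hι : (D.tw j).ι = D.ι := rfl
    rw [hf, hι, pow_one, map_pow] at hγ
    rw [← hγ]
    have e1 : map (D.σK ^ j) (PowerSeries.subst (map D.ι α) D.f) =
        PowerSeries.subst (map (D.σK ^ j) (map D.ι α)) (PowerSeries.map (D.σK ^ j) D.f) :=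
      PowerSeries.map_subst ha D.f
    have e2 : map (D.σK ^ j) (map D.ι α) = map D.ι (map (D.σ ^ j) α) := by
      ext m
      simp only [coeff_map]
      exact fcl_sigK D j _
    have ha2 : PowerSeries.HasSubst (map D.ι (map (D.σ ^ j) α)) := by
      apply PowerSeries.HasSubst.of_constantCoeff_zero
      rw [constantCoeff_map, constantCoeff_map, hα, map_zero, map_zero]
    rw [e1, e2]
    rw [PowerSeries.subst, MvPowerSeries.expand_subst _ _ (PowerSeries.HasSubst.const ha2)]
    rw [PowerSeries.subst, map_expand]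
  choose γ hγ using h1
  -- the functional equation after substitution
  have h2 : PowerSeries.subst (map D.ι α) (D.op D.f : PowerSeries K) =
      ∑ j ∈ Finset.Icc 1 n, C (algebraMap ℚ K ((p : ℚ)⁻¹) * D.ι (D.v j)) *
        PowerSeries.subst (map D.ι α ^ p ^ j) (PowerSeries.map (D.σK ^ j) D.f) := by
    rw [op, ← PowerSeries.coe_substAlgHom ha, map_sum]
    apply Finset.sum_congr rfl
    intro j _
    rw [map_mul, PowerSeries.coe_substAlgHom ha]
    congr 1
    · exact PowerSeries.subst_C _
    · have e3 : (expand (p ^ j) (pow_ne_zero j hp) (map (D.σK ^ j) D.f) : PowerSeries K) =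
          PowerSeries.subst (PowerSeries.X ^ p ^ j) (PowerSeries.map (D.σK ^ j) D.f) :=
        PowerSeries.expand_apply (p ^ j) (pow_ne_zero j hp) (PowerSeries.map (D.σK ^ j) D.f)
      rw [e3, PowerSeries.subst_comp_subst_apply
        (PowerSeries.HasSubst.X_pow (pow_ne_zero j hp)) ha, PowerSeries.subst_pow ha,
        PowerSeries.subst_X ha]
  have h3 : D.f.subst (map D.ι α) - PowerSeries.subst (map D.ι α) (D.op D.f : PowerSeries K) =
      map D.ι α := by
    rw [← PowerSeries.subst_sub ha, f_funcEq, PowerSeries.subst_X ha]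
  refine ⟨α - ∑ j ∈ Finset.Icc 1 n, C (D.v j) * γ j, ?_⟩
  have h4 : D.op (D.f.subst (map D.ι α)) =
      PowerSeries.subst (map D.ι α) (D.op D.f : PowerSeries K) +
        ∑ j ∈ Finset.Icc 1 n, C (D.ι (D.v j)) * map D.ι (γ j) := by
    rw [h2, ← Finset.sum_add_distrib, op]
    apply Finset.sum_congr rfl
    intro j _
    rw [hγ j, mul_add]
    congr 1
    rw [← mul_assoc, ← map_mul]
    congr 2
    calc algebraMap ℚ K ((p : ℚ)⁻¹) * D.ι (D.v j) * (p : K)
        = (algebraMap ℚ K ((p : ℚ)⁻¹) * (p : K)) * D.ι (D.v j) := by ring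
      _ = D.ι (D.v j) := by rw [hpK, one_mul]
  rw [h4, ← sub_sub, h3, map_sub, map_sum]
  congr 1
  apply Finset.sum_congr rfl
  intro j _
  rw [map_mul, map_C]

end FELData

end Vale.Agent.P217
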