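import Vale.Agent.P217.FELDefs

/-!
# P217, module UNI: integrality and left recursion for `ell`; the universal data
-/

namespace Vale.Agent.P217

open MvPowerSeries

section universal

variable (p n : ℕ) [Fact p.Prime]

theorem uni_right (m : ℕ) (hm : 1 ≤ m) : MvPolynomial.C (p : ℚ) * ell p n m =
    ∑ i ∈ Finset.range m, if m - i ≤ n then
      ell p n i * (MvPolynomial.X (m - i)) ^ (p ^ i) else 0 := by
  obtain ⟨k, rfl⟩ : ∃ k, m = k + 1 := ⟨m - 1, by omega⟩
  have hp : (p : ℚ) ≠ 0 := Nat.cast_ne_zero.2 (Fact.out : p.Prime).ne_zero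
  rw [ell, ← mul_assoc, ← map_mul, mul_inv_cancel₀ hp, map_one, one_mul, Finset.sum_range]

/-- `p^k * ell_k` has integral coefficients. -/
theorem ell_int (k : ℕ) : ∃ P : MvPolynomial ℕ ℤ,
    P.map (Int.castRingHom ℚ) = MvPolynomial.C ((p : ℚ) ^ k) * ell p n k := by
  induction k using Nat.strong_induction_on with
  | _ k ih =>
  rcases Nat.eq_zero_or_pos k with hk | hk
  · subst hk
    refine ⟨1, ?_⟩
    rw [map_one, pow_zero, map_one, one_mul, ell]
  · have hex : ∀ i : ℕ, ∃ P : MvPolynomial ℕ ℤ, i < k →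
        P.map (Int.castRingHom ℚ) = MvPolynomial.C ((p : ℚ) ^ i) * ell p n i := by
      intro i
      by_cases hi : i < k
      · obtain ⟨P, hP⟩ := ih i hi
        exact ⟨P, fun _ => hP⟩
      · exact ⟨0, fun h => absurd h hi⟩
    choose P hP using hex
    refine ⟨∑ i ∈ Finset.range k, if k - i ≤ n then
      MvPolynomial.C ((p : ℤ) ^ (k - 1 - i)) * P i * (MvPolynomial.X (k - i)) ^ (p ^ i) else 0, ?_⟩
    have e : MvPolynomial.C ((p : ℚ) ^ k) * ell p n k =
        MvPolynomial.C ((p : ℚ) ^ (k - 1)) * (MvPolynomial.C (p : ℚ) * ell p n k) := by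
      rw [← mul_assoc, ← map_mul, ← pow_succ]
      congr 3
      omega
    rw [e, uni_right p n k hk, Finset.mul_sum, map_sum]
    refine Finset.sum_congr rfl fun i hi => ?_
    have hi' : i < k := Finset.mem_range.1 hi
    by_cases h : k - i ≤ n
    · have hC : MvPolynomial.map (Int.castRingHom ℚ)
          (MvPolynomial.C ((p : ℤ) ^ (k - 1 - i)) : MvPolynomial ℕ ℤ) =
          MvPolynomial.C ((p : ℚ) ^ (k - 1 - i)) := by
        rw [MvPolynomial.map_C, map_pow, map_natCast]
      have hX : MvPolynomial.map (Int.castRingHom ℚ)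
          ((MvPolynomial.X (k - i) : MvPolynomial ℕ ℤ) ^ (p ^ i)) =
          (MvPolynomial.X (k - i)) ^ (p ^ i) := by
        rw [map_pow, MvPolynomial.map_X]
      have e2 : (p : ℚ) ^ (k - 1) = (p : ℚ) ^ (k - 1 - i) * (p : ℚ) ^ i := by
        rw [← pow_add]
        congr 1
        omega
      rw [if_pos h, if_pos h, map_mul, map_mul, hC, hX, hP i hi', e2, map_mul]
      ring
    · rw [if_neg h, if_neg h, map_zero, mul_zero]

omit [Fact p.Prime] in
theorem uni_expand_X (j i e : ℕ) :
    MvPolynomial.expand (p ^ j) ((MvPolynomial.X i : MvPolynomial ℕ ℚ) ^ (p ^ e)) =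
      (MvPolynomial.X i) ^ (p ^ (j + e)) := by
  rw [map_pow, MvPolynomial.expand_X, ← pow_mul, ← pow_add]

/-- left recursion -/
theorem uni_left (m : ℕ) (hm : 1 ≤ m) : MvPolynomial.C (p : ℚ) * ell p n m =
    ∑ j ∈ Finset.Ico 1 (m + 1), if j ≤ n then
      MvPolynomial.X j * MvPolynomial.expand (p ^ j) (ell p n (m - j)) else 0 := by
  induction m using Nat.strong_induction_on with
  | _ m ih =>
  have hp : (p : ℚ) ≠ 0 := Nat.cast_ne_zero.2 (Fact.out : p.Prime).ne_zero
  have hC : (MvPolynomial.C (p : ℚ) : MvPolynomial ℕ ℚ) ≠ 0 := by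
    rw [Ne, MvPolynomial.C_eq_zero]
    exact hp
  apply mul_left_cancel₀ hC
  -- left side
  have h1 : MvPolynomial.C (p : ℚ) * (MvPolynomial.C (p : ℚ) * ell p n m) =
      (if m ≤ n then MvPolynomial.C (p : ℚ) * MvPolynomial.X m else 0) +
      ∑ i ∈ Finset.Ico 1 m, ∑ j ∈ Finset.Ico 1 (i + 1),
        (if m - i ≤ n then (if j ≤ n then
          MvPolynomial.X j * MvPolynomial.expand (p ^ j) (ell p n (i - j)) else 0) *
            (MvPolynomial.X (m - i)) ^ (p ^ i) else 0) := by
    rw [uni_right p n m hm, Finset.mul_sum, Finset.range_eq_Ico,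
      Finset.sum_eq_sum_Ico_succ_bot (by omega : 0 < m)]
    congr 1
    · rw [Nat.sub_zero, pow_zero, pow_one, ell, one_mul]
      split_ifs
      · rfl
      · rw [mul_zero]
    · refine Finset.sum_congr rfl fun i hi => ?_
      rw [Finset.mem_Ico] at hi
      by_cases h : m - i ≤ n
      · simp only [if_pos h]
        rw [← Finset.sum_mul, ← ih i hi.2 (by omega)]
        ring
      · simp only [if_neg h, mul_zero, Finset.sum_const_zero]
  -- right side
  have h2 : MvPolynomial.C (p : ℚ) * (∑ j ∈ Finset.Ico 1 (m + 1), if j ≤ n then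
      MvPolynomial.X j * MvPolynomial.expand (p ^ j) (ell p n (m - j)) else 0) =
      (if m ≤ n then MvPolynomial.C (p : ℚ) * MvPolynomial.X m else 0) +
      ∑ j ∈ Finset.Ico 1 m, ∑ i ∈ Finset.Ico j m,
        (if m - i ≤ n then (if j ≤ n then
          MvPolynomial.X j * MvPolynomial.expand (p ^ j) (ell p n (i - j)) else 0) *
            (MvPolynomial.X (m - i)) ^ (p ^ i) else 0) := by
    rw [Finset.sum_Ico_succ_top hm, mul_add, add_comm]
    congr 1
    · rw [Nat.sub_self, ell, map_one, mul_one]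
      split_ifs
      · rfl
      · rw [mul_zero]
    · rw [Finset.mul_sum]
      refine Finset.sum_congr rfl fun j hj => ?_
      rw [Finset.mem_Ico] at hj
      rw [Finset.sum_Ico_eq_sum_range]
      by_cases h : j ≤ n
      · simp only [if_pos h]
        have e : MvPolynomial.C (p : ℚ) * (MvPolynomial.X j *
            MvPolynomial.expand (p ^ j) (ell p n (m - j))) = MvPolynomial.X j *
            MvPolynomial.expand (p ^ j) (MvPolynomial.C (p : ℚ) * ell p n (m - j)) := by
          rw [map_mul, MvPolynomial.expand_C]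
          ring
        rw [e, uni_right p n (m - j) (by omega), map_sum, Finset.mul_sum]
        refine Finset.sum_congr rfl fun i hi => ?_
        rw [Finset.mem_range] at hi
        have e1 : m - (j + i) = m - j - i := by omega
        have e2 : j + i - j = i := by omega
        rw [e1, e2]
        split_ifs with h3
        · rw [map_mul, uni_expand_X]
          ring
        · rw [map_zero, mul_zero]
      · simp only [if_neg h, mul_zero, zero_mul, ite_self, Finset.sum_const_zero]
  rw [h1, h2]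
  congr 1
  refine Finset.sum_comm' ?_
  intro i j
  rw [Finset.mem_Ico, Finset.mem_Ico, Finset.mem_Ico, Finset.mem_Ico]
  omega

/-- left recursion -/
theorem ell_left (k : ℕ) : MvPolynomial.C (p : ℚ) * ell p n (k + 1) =
    ∑ j ∈ Finset.Icc 1 (k + 1), if j ≤ n then
      MvPolynomial.X j * MvPolynomial.expand (p ^ j) (ell p n (k + 1 - j)) else 0 :=
  uni_left p n (k + 1) (by omega)

end universal

/-- The universal data: `A = ℤ[v]`, `K = ℚ[v]`, `σ(v_j) = v_j^p`. -/
noncomputable def univData (p n : ℕ) [Fact p.Prime] :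
    FELData p n (MvPolynomial ℕ ℤ) (MvPolynomial ℕ ℚ) where
  ι := MvPolynomial.map (Int.castRingHom ℚ)
  inj := MvPolynomial.map_injective _ (RingHom.injective_int _)
  σ := (MvPolynomial.expand p : MvPolynomial ℕ ℤ →ₐ[ℤ] MvPolynomial ℕ ℤ).toRingHom
  σK := (MvPolynomial.expand p : MvPolynomial ℕ ℚ →ₐ[ℚ] MvPolynomial ℕ ℚ).toRingHom
  σ_comm := by
    intro a
    exact (MvPolynomial.map_expand p (Int.castRingHom ℚ) a).symm
  σ_frob := by
    intro a
    have h1 : (MvPolynomial.C (p : ℤ) : MvPolynomial ℕ ℤ) ∣ MvPolynomial.expand p a - a ^ p := by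
      rw [MvPolynomial.C_dvd_iff_zmod, map_sub, MvPolynomial.map_expand, map_pow,
        MvPolynomial.expand_zmod, sub_self]
    obtain ⟨b, hb⟩ := h1
    refine ⟨b, ?_⟩
    have h2 : (MvPolynomial.expand p : MvPolynomial ℕ ℤ →ₐ[ℤ] MvPolynomial ℕ ℤ) a
        = a ^ p + MvPolynomial.C (p : ℤ) * b := by
      rw [← hb, add_sub_cancel]
    have h3 : (MvPolynomial.C (p : ℤ) : MvPolynomial ℕ ℤ) = (p : MvPolynomial ℕ ℤ) :=
      map_natCast MvPolynomial.C p
    rw [h3] at h2
    exact h2
  v := MvPolynomial.X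
  σ_v := by
    intro j
    exact MvPolynomial.expand_X p j

end Vale.Agent.P217
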