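import Vale.Agent.P217.FELLog
import Vale.Agent.P217.FELUniv

/-!
# P217, module FCG: congruences `mod p^r` for the logarithm; Frobenius congruence
-/

namespace Vale.Agent.P217

open MvPowerSeries

namespace FELData

/-! auxiliary lemmas -/

theorem fcg_pow_dvd {R : Type*} [CommRing R] {p : ℕ} {r : ℕ} (hr : 1 ≤ r) {x y : R}
    (h : ((p : R) ^ r) ∣ x - y) : ((p : R) ^ (r + 1)) ∣ x ^ p - y ^ p := by
  have hp : (p : R) ∣ x - y := (dvd_pow_self _ (by omega)).trans h
  have h1 : (p : R) ∣ ∑ i ∈ Finset.range p, x ^ i * y ^ (p - 1 - i) := by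
    have e : ∑ i ∈ Finset.range p, x ^ i * y ^ (p - 1 - i) =
        (∑ i ∈ Finset.range p, (x ^ i * y ^ (p - 1 - i) - y ^ (p - 1))) + (p : R) * y ^ (p - 1) := by
      rw [Finset.sum_sub_distrib, Finset.sum_const, Finset.card_range, nsmul_eq_mul, sub_add_cancel]
    rw [e]
    refine dvd_add (Finset.dvd_sum fun i hi => ?_) (Dvd.intro _ rfl)
    have hi' : i < p := Finset.mem_range.1 hi
    have e2 : y ^ (p - 1) = y ^ i * y ^ (p - 1 - i) := by
      rw [← pow_add]
      congr 1
      omega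
    rw [e2, ← sub_mul]
    exact (hp.trans (sub_dvd_pow_sub_pow x y i)).mul_right _
  rw [← geom_sum₂_mul, pow_succ, mul_comm]
  exact mul_dvd_mul h1 h

theorem fcg_pow_pow_dvd {R : Type*} [CommRing R] {p : ℕ} {r : ℕ} (hr : 1 ≤ r) {x y : R}
    (h : ((p : R) ^ r) ∣ x - y) (k : ℕ) : ((p : R) ^ (r + k)) ∣ x ^ (p ^ k) - y ^ (p ^ k) := by
  induction k with
  | zero => simpa using h
  | succ k ih =>
    rw [pow_succ p k, pow_mul, pow_mul, ← add_assoc]
    exact fcg_pow_dvd (r := r + k) (by omega) ih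

variable {p n : ℕ} [Fact p.Prime] {A K : Type*} [CommRing A] [CommRing K] [Algebra ℚ K]
variable (D : FELData p n A K) {τ : Type*}

/-- `p^k ell_k` is integral -/
theorem ellOf_int (k : ℕ) : ∃ e : A,
    D.ι e = (p : K) ^ k * ellOf p n (fun j => D.ι (D.v j)) k := by
  obtain ⟨P, hP⟩ := ell_int p n k
  refine ⟨spec D.v P, ?_⟩
  have h1 : ∀ Q : MvPolynomial ℕ ℤ,
      D.ι (spec D.v Q) = specQ (fun j => D.ι (D.v j)) (Q.map (Int.castRingHom ℚ)) := by
    intro Q
    have e : D.ι.comp (spec D.v) = (specQ (fun j => D.ι (D.v j))).comp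
        (MvPolynomial.map (Int.castRingHom ℚ)) := by
      refine MvPolynomial.ringHom_ext ?_ ?_
      · intro a
        exact RingHom.congr_fun (Subsingleton.elim
          ((D.ι.comp (spec D.v)).comp MvPolynomial.C)
          (((specQ (fun j => D.ι (D.v j))).comp
            (MvPolynomial.map (Int.castRingHom ℚ))).comp MvPolynomial.C)) a
      · intro i
        rw [RingHom.comp_apply, RingHom.comp_apply, MvPolynomial.map_X]
        unfold spec specQ
        rw [MvPolynomial.coe_eval₂Hom, MvPolynomial.coe_eval₂Hom, MvPolynomial.eval₂_X,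
          MvPolynomial.eval₂_X]
    exact RingHom.congr_fun e Q
  rw [h1, hP, map_mul]
  unfold ellOf
  congr 1
  unfold specQ
  rw [MvPolynomial.coe_eval₂Hom, MvPolynomial.eval₂_C, map_pow, map_natCast]

theorem congr_mod (α β : MvPowerSeries τ A) (hα : constantCoeff α = 0) (hβ : constantCoeff β = 0)
    (r : ℕ) (hr : 1 ≤ r) (h : ∃ γ, α = β + C ((p : A) ^ r) * γ) :
    ∃ γ : MvPowerSeries τ A,
      D.f.subst (map D.ι α) = D.f.subst (map D.ι β) + C ((p : K) ^ r) * map D.ι γ := by
  classical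
  obtain ⟨γ, hγ⟩ := h
  have hdvd : ((p : MvPowerSeries τ A) ^ r) ∣ α - β := by
    refine ⟨γ, ?_⟩
    rw [hγ, add_sub_cancel_left, map_pow, map_natCast]
  have ha0 : constantCoeff (map D.ι α) = 0 := by rw [constantCoeff_map, hα, map_zero]
  have hb0 : constantCoeff (map D.ι β) = 0 := by rw [constantCoeff_map, hβ, map_zero]
  have hsa := PowerSeries.HasSubst.of_constantCoeff_zero ha0
  have hsb := PowerSeries.HasSubst.of_constantCoeff_zero hb0
  have key : ∀ m : τ →₀ ℕ, ∃ c : A,
      coeff m (D.f.subst (map D.ι α) - D.f.subst (map D.ι β)) = (p : K) ^ r * D.ι c := by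
    intro m
    rw [map_sub, PowerSeries.coeff_subst hsa, PowerSeries.coeff_subst hsb,
      ← finsum_sub_distrib (PowerSeries.coeff_subst_finite hsa D.f m)
        (PowerSeries.coeff_subst_finite hsb D.f m)]
    refine finsum_induction (fun x : K => ∃ c : A, x = (p : K) ^ r * D.ι c) ?_ ?_ ?_
    · exact ⟨0, by rw [map_zero, mul_zero]⟩
    · rintro x y ⟨c, rfl⟩ ⟨c', rfl⟩
      exact ⟨c + c', by rw [map_add, mul_add]⟩
    · intro d
      rw [smul_eq_mul, smul_eq_mul, ← mul_sub, ← map_sub, ← map_pow, ← map_pow, ← map_sub,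
        coeff_map]
      by_cases hd : ∃ k, d = p ^ k
      · obtain ⟨k, rfl⟩ := hd
        obtain ⟨g, hg⟩ := fcg_pow_pow_dvd hr hdvd k
        obtain ⟨e, he⟩ := D.ellOf_int k
        have hf : PowerSeries.coeff (p ^ k) D.f = ellOf p n (fun j => D.ι (D.v j)) k :=
          logOf_coeff_pow p n _ k
        have hc : coeff m ((p : MvPowerSeries τ A) ^ (r + k) * g) = (p : A) ^ (r + k) * coeff m g := by
          have e1 : (p : MvPowerSeries τ A) ^ (r + k) = C ((p : A) ^ (r + k)) := by
            rw [map_pow, map_natCast]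
          rw [e1, coeff_C_mul]
        refine ⟨e * coeff m g, ?_⟩
        rw [hf, hg, hc, map_mul, map_mul, he, map_pow, map_natCast, pow_add]
        ring
      · have hf : PowerSeries.coeff d D.f = 0 :=
          logOf_coeff_of_ne p n _ d fun k hk => hd ⟨k, hk⟩
        exact ⟨0, by rw [hf, zero_mul, map_zero, mul_zero]⟩
  choose c hc using key
  let δ : MvPowerSeries τ A := c
  refine ⟨δ, ?_⟩
  rw [← sub_eq_iff_eq_add']
  ext m
  rw [hc m, coeff_C_mul, coeff_map]
  rfl

/-- `σ^j_* α (X^{p^j}) = α^{p^j} mod p`. -/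
theorem frob_congr (α : MvPowerSeries τ A) (j : ℕ) : ∃ γ : MvPowerSeries τ A,
    expand (p ^ j) (pow_ne_zero j (Nat.Prime.ne_zero Fact.out)) (map (D.σ ^ j) α)
      = α ^ (p ^ j) + C (p : A) * γ := by
  classical
  by_cases hu : IsUnit (p : A)
  · obtain ⟨u, hu⟩ := hu
    refine ⟨C (↑u⁻¹ : A) * (expand (p ^ j) (pow_ne_zero j (Nat.Prime.ne_zero Fact.out))
      (map (D.σ ^ j) α) - α ^ (p ^ j)), ?_⟩
    rw [← mul_assoc, ← map_mul, ← hu, Units.mul_inv, map_one, one_mul, add_sub_cancel]
  · let I : Ideal A := Ideal.span {(p : A)}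
    have hch : CharP (A ⧸ I) p := CharP.quotient A p hu
    have hnt : Nontrivial (A ⧸ I) := by
      apply CharP.nontrivial_of_char_ne_one (v := p) (Fact.out : p.Prime).ne_one
    have hex : ExpChar (A ⧸ I) p := expChar_prime _ p
    let q : A →+* A ⧸ I := Ideal.Quotient.mk I
    have hqp : q (p : A) = 0 := Ideal.Quotient.eq_zero_iff_mem.2 (Ideal.subset_span rfl)
    have hσ1 : ∀ a, q (D.σ a) = (q a) ^ p := by
      intro a
      obtain ⟨b, hb⟩ := D.σ_frob a
      rw [hb, map_add, map_mul, hqp, zero_mul, add_zero, map_pow]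
    have hσ : ∀ (k : ℕ) (a : A), q ((D.σ ^ k) a) = (q a) ^ (p ^ k) := by
      intro k
      induction k with
      | zero => intro a; simp
      | succ k ih =>
        intro a
        rw [pow_succ, RingHom.mul_def, RingHom.comp_apply, ih, hσ1, ← pow_mul, pow_succ' p k]
    have hmap : map q (map (D.σ ^ j) α) = map (iterateFrobenius (A ⧸ I) p j) (map q α) := by
      ext m
      rw [coeff_map, coeff_map, coeff_map, coeff_map, hσ, iterateFrobenius_def]
    have key : map q (expand (p ^ j) (pow_ne_zero j (Nat.Prime.ne_zero Fact.out))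
        (map (D.σ ^ j) α) - α ^ (p ^ j)) = 0 := by
      rw [map_sub, map_expand, hmap, map_pow, ← map_expand]
      rw [map_iterateFrobenius_expand p (Fact.out : p.Prime).ne_zero, sub_self]
    have key2 : ∀ m : τ →₀ ℕ, ∃ c : A, coeff m (expand (p ^ j)
        (pow_ne_zero j (Nat.Prime.ne_zero Fact.out)) (map (D.σ ^ j) α) - α ^ (p ^ j))
          = (p : A) * c := by
      intro m
      have h1 := congrArg (coeff m) key
      rw [coeff_map, map_zero] at h1
      have h2 := Ideal.Quotient.eq_zero_iff_mem.1 h1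
      obtain ⟨c, hc⟩ := Ideal.mem_span_singleton'.1 h2
      exact ⟨c, by rw [← hc, mul_comm]⟩
    choose c hc using key2
    let δ : MvPowerSeries τ A := c
    refine ⟨δ, ?_⟩
    rw [← sub_eq_iff_eq_add']
    ext m
    rw [hc m, coeff_C_mul]
    rfl

end FELData

end Vale.Agent.P217
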