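import Vale.Agent.P217.Core

/-!
# P217, part B: the functional equation lemma (helper95)

Setting (`FELData`): `ι : A → K` injective, `K` a `ℚ`-algebra, `σ` a lift of Frobenius on `A`
extended to `K`, `v : ℕ → A` with `σ (v j) = v j ^ p`.  `f = logOf p n (ι ∘ v)` is the Hazewinkel
logarithm.  Integral means: in the image of `MvPowerSeries.map D.ι`.

* `ell_int`  : `p^k * ell_k` is integral (in `ℤ[v]`).
* `ell_left` : left recursion `p ell_k = ∑_{1 ≤ j ≤ min(n,k)} v_j σ^j(ell_{k-j})`.
* `FELData.congr_mod` : `α = β mod p^r ⟹ f(α) = f(β) mod p^r` (`r ≥ 1`).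
* `FELData.closure` : `f(α) - ∑_j (v_j/p) σ^j_*(f(α))(X^{p^j})` is integral for integral `α`.
* `FELData.integral` : if `H - ∑_j (v_j/p) σ^j_* H (X^{p^j})` is integral then `H = f(α)`, `α` integral.
* `FELData.congr_conv` : `f(α) = f(β) mod p^r ⟹ α = β mod p^r`.
-/

namespace Vale.Agent.P217

open MvPowerSeries

section log

variable {K : Type*} [CommRing K] [Algebra ℚ K]

/-- Evaluation of `ℚ[v]` in a `ℚ`-algebra. -/
noncomputable def specQ (v : ℕ → K) : MvPolynomial ℕ ℚ →+* K :=
  MvPolynomial.eval₂Hom (algebraMap ℚ K) v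

/-- The logarithm with parameters `v` over a `ℚ`-algebra. -/
noncomputable def logOf (p n : ℕ) (v : ℕ → K) : PowerSeries K := (logQ p n).map (specQ v)

/-- Coefficient of `X^(p^k)` of the logarithm. -/
noncomputable def ellOf (p n : ℕ) (v : ℕ → K) (k : ℕ) : K := specQ v (ell p n k)

end log

/-- Data for the functional equation lemma. -/
structure FELData (p n : ℕ) (A K : Type*) [CommRing A] [CommRing K] [Algebra ℚ K] where
  ι : A →+* K
  inj : Function.Injective ι
  σ : A →+* A
  σK : K →+* K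
  σ_comm : ∀ a, σK (ι a) = ι (σ a)
  σ_frob : ∀ a, ∃ b, σ a = a ^ p + (p : A) * b
  v : ℕ → A
  σ_v : ∀ j, σ (v j) = v j ^ p

namespace FELData

variable {p n : ℕ} [Fact p.Prime] {A K : Type*} [CommRing A] [CommRing K] [Algebra ℚ K]
variable (D : FELData p n A K) {τ : Type*}

/-- The logarithm attached to the data. -/
noncomputable def f : PowerSeries K := logOf p n (fun j => D.ι (D.v j))

/-- The operator `H ↦ ∑_{1 ≤ j ≤ n} (v_j/p) (σ^j_* H)(X^{p^j})`. -/
noncomputable def op (H : MvPowerSeries τ K) : MvPowerSeries τ K :=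
  ∑ j ∈ Finset.Icc 1 n, C (algebraMap ℚ K ((p : ℚ)⁻¹) * D.ι (D.v j)) *
    expand (p ^ j) (pow_ne_zero j (Nat.Prime.ne_zero Fact.out)) (map (D.σK ^ j) H)

end FELData

end Vale.Agent.P217
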