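import Vale.Agent.P217.Points
import Vale.Agent.P217.Nrm

/-!
# P217: homomorphisms acting on points, continuous base change, the unit ball (module HOM, NRM)
-/

namespace Vale.Agent.P217

open MvPowerSeries

section pts

variable {O : Type*} [CommRing O] [UniformSpace O] [IsUniformAddGroup O] [IsTopologicalRing O]
  [IsLinearTopology O O] [T2Space O] [CompleteSpace O]
variable {O' : Type*} [CommRing O'] [UniformSpace O'] [IsUniformAddGroup O'] [IsTopologicalRing O']
  [IsLinearTopology O' O'] [T2Space O'] [CompleteSpace O']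
variable {p n : ℕ} [Fact p.Prime] {v w : ℕ → O}

theorem ev1_tn {g : PowerSeries O} (hg : PowerSeries.constantCoeff g = 0) {x : O}
    (hx : IsTopologicallyNilpotent x) : IsTopologicallyNilpotent (ev1 g x) := by
  exact tn_ev1 hg hx

theorem ev1_add_of_isHomS {g : PowerSeries O} (hg : IsHomS p n v w g) {x y : O}
    (hx : IsTopologicallyNilpotent x) (hy : IsTopologicallyNilpotent y) :
    ev1 g (ev2 (Fv p n v) x y) = ev2 (Fv p n w) (ev1 g x) (ev1 g y) := by
  have hc := hasEval_pair hx hy
  have h0 : constantCoeff (Fv p n v) = 0 := Fv_constantCoeff p n v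
  have hX : ∀ i : Fin 2, constantCoeff (g.subst (X i : MvPowerSeries (Fin 2) O)) = 0 :=
    fun i => PowerSeries.constantCoeff_subst_eq_zero (constantCoeff_X _) g hg.1
  have h1 := eval_one h0 hc g
  have h2 := eval_pair (hX 0) (hX 1) hc (Fv p n w)
  rw [hg.2] at h1
  rw [eval_one (constantCoeff_X _) hc, eval_one (constantCoeff_X _) hc, eval₂_X, eval₂_X] at h2
  exact h1.symm.trans h2

theorem ev1_zero {g : PowerSeries O} (hg : PowerSeries.constantCoeff g = 0) : ev1 g 0 = 0 := by
  exact ev1_zero_right hg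

/-- A homomorphism of formal group laws acts on points. -/
noncomputable def FPt.hom (g : PowerSeries O) (hg : IsHomS p n v w g) :
    FPt p n v →+ FPt p n w where
  toFun x := ⟨ev1 g x.1, ev1_tn hg.1 x.2⟩
  map_zero' := Subtype.ext (ev1_zero hg.1)
  map_add' x y := Subtype.ext (ev1_add_of_isHomS hg x.2 y.2)

theorem FPt.hom_val (g : PowerSeries O) (hg : IsHomS p n v w g) (x : FPt p n v) :
    (FPt.hom g hg x).1 = ev1 g x.1 := rfl

theorem tn_map {ψ : O →+* O'} (hψ : Continuous ψ) {x : O} (hx : IsTopologicallyNilpotent x) :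
    IsTopologicallyNilpotent (ψ x) := by
  exact hx.map hψ

theorem ev2_map {ψ : O →+* O'} (hψ : Continuous ψ) {x y : O}
    (hx : IsTopologicallyNilpotent x) (hy : IsTopologicallyNilpotent y) :
    ψ (ev2 (Fv p n v) x y) = ev2 (Fv p n (fun j => ψ (v j))) (ψ x) (ψ y) := by
  rw [map_ev2 hψ _ hx hy, Fv_map]

theorem ev1_map {ψ : O →+* O'} (hψ : Continuous ψ) (g : PowerSeries O) {x : O}
    (hx : IsTopologicallyNilpotent x) :
    ψ (ev1 g x) = ev1 (g.map ψ) (ψ x) := by
  exact map_ev1 hψ g hx

/-- Base change of points along a continuous ring homomorphism. -/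
noncomputable def FPt.map (ψ : O →+* O') (hψ : Continuous ψ) :
    FPt p n v →+ FPt p n (fun j => ψ (v j)) where
  toFun x := ⟨ψ x.1, tn_map hψ x.2⟩
  map_zero' := Subtype.ext (map_zero ψ)
  map_add' x y := Subtype.ext (ev2_map hψ x.2 y.2)

end pts

section normed

variable {K : Type*} [NormedField K] [IsUltrametricDist K]

instance instLinOO : IsLinearTopology (OO K) (OO K) := linOO

instance instCompleteOO [CompleteSpace K] : CompleteSpace (OO K) := completeOO

theorem tn_iff_norm_lt_one (x : OO K) : IsTopologicallyNilpotent x ↔ ‖(x : K)‖ < 1 := tn_OO x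

end normed

end Vale.Agent.P217
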