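import Vale.Agent.P217.Roots

/-!
# P217, part L: Lagrange interpolation at the roots of a power series (J0B)

`f` has its first `d` coefficients in the open ball, the `d`-th one is a unit, `s_1, …, s_d` are
distinct roots in the open ball. Then `f = ∏ (X - s_i) * u`, `u` a unit (divide successively; reduce
modulo the open ball), hence `‖f'(s_i)‖ = ∏_{j≠i} ‖s_i - s_j‖`. If `‖H(s_i)‖ ≤ ‖f'(s_i)‖` for all `i`,
then with `c_i = H(s_i)/∏_{j≠i}(s_i - s_j) ∈ OO L` the series `H - ∑ c_i ∏_{j≠i} (X - s_j)` vanishes at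
all `s_i`, so its first `d` coefficients are in the open ball (`coeff_lt_one_of_roots`), and
`∏_{j≠i} (X - s_j) ≡ X^(d-1)`.
-/

namespace Vale.Agent.P217

open Filter Topology

variable {L : Type*} [NormedField L] [IsUltrametricDist L] [CompleteSpace L]

private theorem j0b_ev_X_sub (s x : OO L) :
    ev1 (PowerSeries.X - PowerSeries.C s : PowerSeries (OO L)) x = x - s := by
  rw [← Polynomial.coe_X, ← Polynomial.coe_C, ← Polynomial.coe_sub, ev1_poly]
  simp

private theorem j0b_ev_prod {d : ℕ} (s : Fin d → OO L) (T : Finset (Fin d)) {x : OO L}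
    (hx : ‖(x : L)‖ < 1) :
    ev1 (∏ j ∈ T, (PowerSeries.X - PowerSeries.C (s j)) : PowerSeries (OO L)) x =
      ∏ j ∈ T, (x - s j) := by
  rw [← evH_apply hx, map_prod]
  refine Finset.prod_congr rfl fun j _ => ?_
  rw [evH_apply, j0b_ev_X_sub]

theorem coeff_lt_one_of_interp (f H : PowerSeries (OO L)) {d : ℕ}
    (hlt : ∀ i, i < d → ‖((PowerSeries.coeff i f : OO L) : L)‖ < 1)
    (heq : ‖((PowerSeries.coeff d f : OO L) : L)‖ = 1)
    (s : Fin d → OO L) (hs : Function.Injective s) (h1 : ∀ i, ‖(s i : L)‖ < 1)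
    (h0 : ∀ i, ev1 f (s i) = 0)
    (hH : ∀ i, ‖((ev1 H (s i) : OO L) : L)‖ ≤
      ‖((ev1 (PowerSeries.derivative (OO L) f) (s i) : OO L) : L)‖)
    (i : ℕ) (hi : i + 1 < d) : ‖((PowerSeries.coeff i H : OO L) : L)‖ < 1 := by
  classical
  obtain ⟨g, hg⟩ := div_roots d f s hs h1 h0
  set J : Ideal (OO L) := ballIdeal L ⟨1, one_pos⟩ with hJ
  have hmem : ∀ x : OO L, x ∈ J ↔ ‖(x : L)‖ < 1 := fun x => Iff.rfl
  have hX : ∀ k : Fin d, (PowerSeries.map (Ideal.Quotient.mk J))
      (PowerSeries.X - PowerSeries.C (s k)) = PowerSeries.X := by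
    intro k
    rw [map_sub, PowerSeries.map_X, PowerSeries.map_C]
    have : Ideal.Quotient.mk J (s k) = 0 := Ideal.Quotient.eq_zero_iff_mem.mpr (h1 k)
    rw [this, map_zero, sub_zero]
  -- the constant coefficient of `g` is a unit
  have hg0 : ‖((PowerSeries.coeff 0 g : OO L) : L)‖ = 1 := by
    refine norm_one_of_sub_lt heq ?_
    have h2 : PowerSeries.coeff d f - PowerSeries.coeff 0 g ∈ J := by
      rw [← Ideal.Quotient.eq_zero_iff_mem, map_sub, ← PowerSeries.coeff_map,
        ← PowerSeries.coeff_map, hg, map_mul, map_prod, Finset.prod_congr rfl (fun k _ => hX k),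
        Finset.prod_const, Finset.card_univ, Fintype.card_fin, PowerSeries.coeff_X_pow_mul',
        if_pos le_rfl, Nat.sub_self, sub_self]
    exact (hmem _).1 h2
  -- the products without one factor
  let P : Fin d → PowerSeries (OO L) := fun k =>
    ∏ j ∈ Finset.univ.erase k, (PowerSeries.X - PowerSeries.C (s j))
  let e : Fin d → OO L := fun k => ∏ j ∈ Finset.univ.erase k, (s k - s j)
  have hfP : ∀ k, f = (PowerSeries.X - PowerSeries.C (s k)) * (P k * g) := by
    intro k
    have h3 : (PowerSeries.X - PowerSeries.C (s k)) * P k =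
        ∏ j, (PowerSeries.X - PowerSeries.C (s j)) :=
      Finset.mul_prod_erase Finset.univ
        (fun j => (PowerSeries.X - PowerSeries.C (s j) : PowerSeries (OO L))) (Finset.mem_univ k)
    rw [← mul_assoc, h3]
    exact hg
  have hder : ∀ k, ev1 (PowerSeries.derivative (OO L) f) (s k) = e k * ev1 g (s k) := by
    intro k
    have h3 : PowerSeries.derivative (OO L) f = (P k * g) +
        (PowerSeries.X - PowerSeries.C (s k)) * PowerSeries.derivative (OO L) (P k * g) := by
      conv_lhs => rw [hfP k]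
      rw [Derivation.leibniz, map_sub, PowerSeries.derivative_X, PowerSeries.derivative_C,
        sub_zero, smul_eq_mul, smul_eq_mul, mul_one, add_comm]
    rw [h3, ev1_add_rt (h1 k), ev1_mul_rt (h1 k), ev1_mul_rt (h1 k), j0b_ev_X_sub, sub_self,
      zero_mul, add_zero, j0b_ev_prod s _ (h1 k)]
  have hgs : ∀ k, ‖((ev1 g (s k) : OO L) : L)‖ = 1 := fun k => ev1_norm_unit (h1 k) hg0
  have hHe : ∀ k, ‖((ev1 H (s k) : OO L) : L)‖ ≤ ‖((e k : OO L) : L)‖ := by
    intro k
    have h3 := hH k
    rw [hder k] at h3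
    have e3 : ((e k * ev1 g (s k) : OO L) : L) = (e k : L) * ((ev1 g (s k) : OO L) : L) := rfl
    rwa [e3, norm_mul, hgs k, mul_one] at h3
  have he0 : ∀ k, ((e k : OO L) : L) ≠ 0 := by
    intro k h3
    have h4 : e k = 0 := Subtype.ext h3
    have h5 := Finset.prod_eq_zero_iff.1 h4
    obtain ⟨j, hj, hj0⟩ := h5
    exact (Finset.ne_of_mem_erase hj) (hs (sub_eq_zero.1 hj0)).symm
  have hc : ∀ k, ∃ c : OO L, c * e k = ev1 H (s k) := by
    intro k
    refine ⟨⟨((ev1 H (s k) : OO L) : L) / ((e k : OO L) : L), ?_⟩, ?_⟩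
    · show ‖((ev1 H (s k) : OO L) : L) / ((e k : OO L) : L)‖ ≤ 1
      rw [norm_div]
      exact div_le_one_of_le₀ (hHe k) (norm_nonneg _)
    · apply Subtype.ext
      show ((ev1 H (s k) : OO L) : L) / ((e k : OO L) : L) * ((e k : OO L) : L) = _
      exact div_mul_cancel₀ _ (he0 k)
  choose c hc using hc
  let F : PowerSeries (OO L) := H - ∑ k, PowerSeries.C (c k) * P k
  have hF0 : ∀ k, ev1 F (s k) = 0 := by
    intro k
    have h3 : ev1 F (s k) = ev1 H (s k) - ∑ l, c l * ev1 (P l) (s k) := by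
      rw [← evH_apply (h1 k), ← evH_apply (h1 k), map_sub, map_sum]
      congr 1
      refine Finset.sum_congr rfl fun l _ => ?_
      rw [map_mul, evH_apply, evH_apply]
      congr 1
      rw [← Polynomial.coe_C, ev1_poly, Polynomial.eval_C]
    rw [h3, Finset.sum_eq_single k]
    · have h4 : ev1 (P k) (s k) = e k := j0b_ev_prod s _ (h1 k)
      rw [h4, hc k, sub_self]
    · intro l _ hl
      have h4 : ev1 (P l) (s k) = ∏ j ∈ Finset.univ.erase l, (s k - s j) :=
        j0b_ev_prod s _ (h1 k)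
      rw [h4, Finset.prod_eq_zero (Finset.mem_erase.2 ⟨hl.symm, Finset.mem_univ k⟩) (sub_self _),
        mul_zero]
    · intro h
      exact absurd (Finset.mem_univ k) h
  have hFc := coeff_lt_one_of_roots F s hs h1 hF0 i (by omega)
  have hPc : ∀ k, PowerSeries.coeff i (P k) ∈ J := by
    intro k
    rw [← Ideal.Quotient.eq_zero_iff_mem, ← PowerSeries.coeff_map, map_prod,
      Finset.prod_congr rfl (fun k _ => hX k), Finset.prod_const,
      Finset.card_erase_of_mem (Finset.mem_univ k), Finset.card_univ, Fintype.card_fin,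
      PowerSeries.coeff_X_pow, if_neg (by omega)]
  have hfin : PowerSeries.coeff i H ∈ J := by
    have h3 : PowerSeries.coeff i H = PowerSeries.coeff i F +
        ∑ k, c k * PowerSeries.coeff i (P k) := by
      have h4 : H = F + ∑ k, PowerSeries.C (c k) * P k := by
        show H = H - ∑ k, PowerSeries.C (c k) * P k + ∑ k, PowerSeries.C (c k) * P k
        rw [sub_add_cancel]
      conv_lhs => rw [h4]
      rw [map_add, map_sum]
      congr 1
      refine Finset.sum_congr rfl fun k _ => ?_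
      rw [PowerSeries.coeff_C_mul]
    rw [h3]
    exact J.add_mem ((hmem _).2 hFc) (J.sum_mem fun k _ => J.mul_mem_left _ (hPc k))
  exact (hmem _).1 hfin

end Vale.Agent.P217
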