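import Vale.Agent.P217.Jac
import Vale.Agent.P217.Interp

/-!
# P217, part L: the Jacobian in characteristic zero (J0A, J0C)

`h = 1`, `n = 1 + m`, `L` of characteristic zero.
-/

namespace Vale.Agent.P217

open MvPowerSeries Filter Topology
open scoped MvPowerSeries.WithPiTopology

variable {p m : ℕ} [Fact p.Prime]
variable {K L : Type*} [NormedField K] [NormedField L] [IsUltrametricDist K] [IsUltrametricDist L]
  [CharP K p] [PerfectRing K p] [CompleteSpace K] [CompleteSpace L]

/-- The series `∂[p]/∂v_{1+j}` at `a`. -/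
noncomputable def Ms (p m : ℕ) (a : Fin m → OO L) (j : Fin m) : PowerSeries (OO L) :=
  PowerSeries.mk fun i => coeff (Finsupp.single j 1)
    (PowerSeries.coeff i (mulS p (1 + m) (parX 1 m a) p))

omit [CompleteSpace L] in
theorem j0_norm_le (z : OO L) : ‖(z : L)‖ ≤ 1 := z.2

theorem j0_coeff_pow {R : Type*} [CommRing R] (j : Fin m) (y : MvPowerSeries (Fin m) R) (d : ℕ) :
    coeff (Finsupp.single j 1) (y ^ d) =
      (d : R) * constantCoeff y ^ (d - 1) * coeff (Finsupp.single j 1) y := by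
  induction d with
  | zero =>
    classical
    rw [pow_zero, coeff_one, if_neg (by simp)]
    simp
  | succ d ih =>
    rw [pow_succ, pjc_coeff_mul, ih, map_pow, Nat.add_sub_cancel]
    rcases d with _ | d
    · simp
    · rw [Nat.add_sub_cancel]
      push_cast
      ring

/-- J0A: `∂_j Lam_{px}(0) = (∂_j [p])(t) + [p]'(t) ∂_j Lam_x(0)`, `t = pr_a(x)`. -/
theorem grad_p_smul0 {a : Fin m → OO L} {ρ : ℝ} (D : Dt p 1 m a ρ)
    (S : SharpData p K L) (x : FPt p (1 + m) (Gam (1 + m) : ℕ → OO K)) (j : Fin m) :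
    grad D S (p • x) j = ev1 (Ms p m a j) (pra D S x).1 +
      ev1 (PowerSeries.derivative (OO L) (mulS p (1 + m) (par 1 m a) p)) (pra D S x).1 *
        grad D S x j := by
  have h1 : Lam D S (p • x) = ev1 (mulS p (1 + m) (parX 1 m a) p) (Lam D S x) := by
    unfold Lam
    rw [map_nsmul]
    exact FPt.p_smul_val _
  unfold grad
  rw [h1]
  obtain ⟨y, hy⟩ : ∃ y, y = Lam D S x := ⟨_, rfl⟩
  obtain ⟨t, ht⟩ : ∃ t, t = (pra D S x).1 := ⟨_, rfl⟩
  have hy0 : constantCoeff y = t := by rw [hy, ht]; exact Lam_constantCoeff D S x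
  have hytn : IsTopologicallyNilpotent y := by rw [hy]; exact (praX D S x).2
  have httn : IsTopologicallyNilpotent t := by rw [ht]; exact (pra D S x).2
  rw [← hy, ← ht]
  have hF0 : ∀ i, constantCoeff (PowerSeries.coeff i (mulS p (1 + m) (parX 1 m a) p)) =
      PowerSeries.coeff i (mulS p (1 + m) (par 1 m a) p) := by
    intro i
    have h2 := mulS_map p (1 + m) (parX 1 m a) (constantCoeff (σ := Fin m) (R := OO L)) p
    have h3 : (fun k => constantCoeff (parX 1 m a k)) = par 1 m a := by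
      funext k
      unfold parX par
      split_ifs with h4 h5
      · rw [map_add, constantCoeff_C, constantCoeff_X, add_zero]
      · exact map_one _
      · exact map_zero _
    rw [h3] at h2
    rw [← h2, PowerSeries.coeff_map]
  have s1 := PowerSeries.hasSum_eval₂ (φ := RingHom.id _) continuous_id hytn
    (mulS p (1 + m) (parX 1 m a) p)
  have s2 := s1.map (coeff (R := OO L) (Finsupp.single j 1)).toAddMonoidHom
    (WithPiTopology.continuous_coeff (OO L) (Finsupp.single j 1))
  have s3 := PowerSeries.hasSum_eval₂ (φ := RingHom.id _) continuous_id httn (Ms p m a j)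
  have s4 := PowerSeries.hasSum_eval₂ (φ := RingHom.id _) continuous_id httn
    (PowerSeries.derivative (OO L) (mulS p (1 + m) (par 1 m a) p))
  have s5 : HasSum (fun d : ℕ => PowerSeries.coeff d (mulS p (1 + m) (par 1 m a) p) *
      ((d : OO L) * t ^ (d - 1))) (PowerSeries.eval₂ (RingHom.id (OO L)) t
        (PowerSeries.derivative (OO L) (mulS p (1 + m) (par 1 m a) p))) := by
    have h6 := (hasSum_nat_add_iff (f := fun d : ℕ =>
      PowerSeries.coeff d (mulS p (1 + m) (par 1 m a) p) * ((d : OO L) * t ^ (d - 1))) 1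
      (g := PowerSeries.eval₂ (RingHom.id (OO L)) t
        (PowerSeries.derivative (OO L) (mulS p (1 + m) (par 1 m a) p)))).1 (by
      have h7 : (fun d : ℕ => PowerSeries.coeff (d + 1) (mulS p (1 + m) (par 1 m a) p) *
          (((d + 1 : ℕ) : OO L) * t ^ (d + 1 - 1))) = fun d : ℕ =>
          (RingHom.id (OO L)) (PowerSeries.coeff d
            (PowerSeries.derivative (OO L) (mulS p (1 + m) (par 1 m a) p))) * t ^ d := by
        funext d
        rw [PowerSeries.coeff_derivative, RingHom.id_apply, Nat.add_sub_cancel]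
        push_cast
        ring
      rw [h7]
      exact s4)
    simpa using h6
  have s6 := s3.add (s5.mul_right (coeff (Finsupp.single j 1) y))
  have e2 : (⇑(coeff (R := OO L) (Finsupp.single j 1)).toAddMonoidHom ∘ fun d =>
      (RingHom.id (MvPowerSeries (Fin m) (OO L)))
        ((PowerSeries.coeff d) (mulS p (1 + m) (parX 1 m a) p)) * y ^ d) =
      fun d => (RingHom.id (OO L)) ((PowerSeries.coeff d) (Ms p m a j)) * t ^ d +
        PowerSeries.coeff d (mulS p (1 + m) (par 1 m a) p) * ((d : OO L) * t ^ (d - 1)) *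
          coeff (Finsupp.single j 1) y := by
    funext d
    simp only [Function.comp_apply, LinearMap.toAddMonoidHom_coe, RingHom.id_apply,
      PowerSeries.coeff_mk, Ms]
    rw [pjc_coeff_mul, j0_coeff_pow, hF0, map_pow, hy0]
    ring
  rw [e2] at s2
  exact s2.unique s6

/-- J0A: from `mulS_CP` with `I = ballX`: the coefficients of `∂_j [p]` in degrees `< p^(1+m)`. -/
theorem Ms_coeff {a : Fin m → OO L} {ρ : ℝ} (D : Dt p 1 m a ρ) (j : Fin m) (i : ℕ)
    (hi : i < p ^ (1 + m)) :
    ‖((PowerSeries.coeff i (Ms p m a j) - (if i = p ^ ((j : ℕ) + 1) then 1 else 0) : OO L) : L)‖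
      ≤ ρ := by
  have hp : p.Prime := Fact.out
  have h1 := mulS_CP (p := p) (n := 1 + m) (v := parX 1 m a) (by omega)
    (ballX L m ρ D.rho_nonneg) D.admX.p_mem D.admX.v_mem D.admX.v_top i hi
  have h2 := pjc_coeff_sq (ballI L ρ D.rho_nonneg) j h1
  rw [map_sub, map_sub] at h2
  have e0 : coeff (Finsupp.single j 1) ((p : MvPowerSeries (Fin m) (OO L)) *
      ((kappa p (1 + m) i : ℤ) : MvPowerSeries (Fin m) (OO L))) = 0 := by
    classical
    have e1 : (p : MvPowerSeries (Fin m) (OO L)) *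
        ((kappa p (1 + m) i : ℤ) : MvPowerSeries (Fin m) (OO L)) =
        C ((p : OO L) * ((kappa p (1 + m) i : ℤ) : OO L)) := by
      rw [map_mul, map_natCast, map_intCast]
    rw [e1, coeff_C, if_neg]
    simp
  have e : coeff (Finsupp.single j 1) (if i = p ^ Nat.log p i ∧ i ≠ 1 then
      parX 1 m a (Nat.log p i) else 0 : MvPowerSeries (Fin m) (OO L)) =
      (if i = p ^ ((j : ℕ) + 1) then 1 else 0) := by
    by_cases hk : i = p ^ Nat.log p i ∧ i ≠ 1
    · obtain ⟨hk1, hk2⟩ := log_range hp.one_lt hi hk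
      obtain ⟨k, hk3⟩ : ∃ k, Nat.log p i = 1 + k := ⟨Nat.log p i - 1, by omega⟩
      have hkm : k < m := by omega
      rw [if_pos hk]
      have e1 : parX 1 m a (Nat.log p i) = C (a ⟨k, hkm⟩) + X ⟨k, hkm⟩ := by
        rw [hk3]
        exact pjc_parX_mid (h := 1) a ⟨k, hkm⟩
      rw [e1, map_add, coeff_X]
      have e2 : coeff (Finsupp.single j 1) (C (a ⟨k, hkm⟩) :
          MvPowerSeries (Fin m) (OO L)) = 0 := by
        classical
        rw [coeff_C, if_neg]
        simp
      rw [e2, zero_add]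
      congr 1
      rw [eq_iff_iff]
      constructor
      · intro hs
        have h3 := Finsupp.single_left_injective (one_ne_zero) hs
        rw [hk.1, hk3, h3, add_comm]
      · intro hs
        have h3 : Nat.log p i = (j : ℕ) + 1 := by rw [hs]; exact Nat.log_pow hp.one_lt _
        congr 1
        apply Fin.ext
        show (j : ℕ) = k
        omega
    · rw [if_neg hk, map_zero, if_neg]
      intro hs
      apply hk
      have h3 : Nat.log p i = (j : ℕ) + 1 := by rw [hs]; exact Nat.log_pow hp.one_lt _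
      refine ⟨by rw [h3]; exact hs, ?_⟩
      rw [hs]
      exact (Nat.one_lt_pow (Nat.succ_ne_zero _) hp.one_lt).ne'
  rw [e, e0, sub_zero] at h2
  rw [Ms, PowerSeries.coeff_mk]
  exact h2

omit [CompleteSpace L] in
theorem j0_norm_unit {x : OO L} (hx : ‖((x - 1 : OO L) : L)‖ < 1) : ‖(x : L)‖ = 1 :=
  sj_norm_eq_one hx

/-- J0C: the `p^n` torsion points. -/
theorem exists_torsion [IsAlgClosed L] [CharZero L] {a : Fin m → OO L} {ρ : ℝ}
    (D : Dt p 1 m a ρ) :
    ∃ s : Fin (p ^ (1 + m)) → OO L, Function.Injective s ∧ (∀ i, ‖(s i : L)‖ < 1) ∧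
      (∀ i, ev1 (mulS p (1 + m) (par 1 m a) p) (s i) = 0) ∧
      ∀ i, ‖((ev1 (PowerSeries.derivative (OO L) (mulS p (1 + m) (par 1 m a) p)) (s i) : OO L) : L)‖
        = ‖(p : L)‖ := by
  have hp := (Fact.out : p.Prime)
  have hJ := D.adm
  have hder : ∀ x : OO L, ‖(x : L)‖ < 1 →
      ‖((ev1 (PowerSeries.derivative (OO L) (mulS p (1 + m) (par 1 m a) p)) x : OO L) : L)‖
        = ‖(p : L)‖ := by
    intro x hx
    have hxt : IsTopologicallyNilpotent x := (tn_iff_norm_lt_one x).2 hx
    obtain ⟨g, hg1, hg2⟩ := derivative_mulS (p := p) (n := 1 + m) (v := par 1 m a)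
    rw [hg2, ev1_mul _ _ hxt, ev1_C]
    have h1 := ev1_eq_add_mul g hxt
    rw [hg1] at h1
    have h2 : ‖((ev1 g x : OO L) : L)‖ = 1 := by
      apply j0_norm_unit
      rw [h1, add_sub_cancel_left]
      have e : ((x * ev1 (PowerSeries.mk fun i => PowerSeries.coeff (i + 1) g) x : OO L) : L) =
        (x : L) * ((ev1 (PowerSeries.mk fun i => PowerSeries.coeff (i + 1) g) x : OO L) : L) := rfl
      rw [e, norm_mul]
      calc _ ≤ ‖(x : L)‖ * 1 := mul_le_mul_of_nonneg_left (j0_norm_le _) (norm_nonneg _)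
        _ < 1 := by rw [mul_one]; exact hx
    have e : (((p : OO L) * ev1 g x : OO L) : L) = (p : L) * ((ev1 g x : OO L) : L) := by
      push_cast
      rfl
    rw [e, norm_mul, h2, mul_one]
  obtain ⟨s, hs1, hs2, hs3⟩ := exists_roots (mulS p (1 + m) (par 1 m a) p) (d := p ^ (1 + m))
    (by
      intro i hi
      have h1 : ‖((PowerSeries.coeff i (mulS p (1 + m) (par 1 m a) p) -
        (if i = p ^ (1 + m) then 1 else 0) : OO L) : L)‖ ≤ ρ := hJ.coeff_mem i
      rw [if_neg hi.ne, sub_zero] at h1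
      exact h1.trans_lt D.rho_lt)
    (by
      have h1 : ‖((PowerSeries.coeff (p ^ (1 + m)) (mulS p (1 + m) (par 1 m a) p) -
        (if p ^ (1 + m) = p ^ (1 + m) then 1 else 0) : OO L) : L)‖ ≤ ρ := hJ.coeff_mem _
      rw [if_pos rfl] at h1
      exact sj_norm_eq_one (h1.trans_lt D.rho_lt))
    (by
      intro x hx _ h0
      have h1 := hder x hx
      rw [h0] at h1
      have h2 : ‖(p : L)‖ = 0 := by
        rw [← h1]
        exact norm_zero
      rw [norm_eq_zero, Nat.cast_eq_zero] at h2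
      exact hp.ne_zero h2)
  exact ⟨s, hs1, hs2, hs3, fun i => hder _ (hs2 i)⟩

/-- J0C: the gradients of the elements of `ker pr_a` span. Otherwise `H = ∑ c_j ∂_j [p]` satisfies
`‖H(t)‖ ≤ ‖[p]'(t)‖ = ‖p‖` at all torsion points `t = pr_a(x)` (`p • x ∈ ker pr_a`,
`grad_p_smul0`), so its coefficients in degrees `< p^n - 1` are in the open ball
(`coeff_lt_one_of_interp`), contradicting `Ms_coeff` at `i = p^(j+1) < p^n - 1`, `‖c_j‖ = 1`. -/
theorem grad_ne_zero0 [IsAlgClosed L] [CharZero L] {a : Fin m → OO L} {ρ : ℝ} (D : Dt p 1 m a ρ)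
    (S : SharpData p K L) (c : Fin m → OO L) (hc : ∃ j, ‖(c j : L)‖ = 1) :
    ∃ e : FPt p (1 + m) (Gam (1 + m) : ℕ → OO K), pra D S e = 0 ∧
      ∑ j, c j * grad D S e j ≠ 0 := by
  by_contra hcon
  push Not at hcon
  have hJ := D.adm
  have hp := (Fact.out : p.Prime)
  obtain ⟨s, hs1, hs2, hs3, hs4⟩ := exists_torsion D
  have hev : ∀ i, ‖((ev1 (∑ j, PowerSeries.C (c j) * Ms p m a j) (s i) : OO L) : L)‖ ≤
      ‖((ev1 (PowerSeries.derivative (OO L) (mulS p (1 + m) (par 1 m a) p)) (s i) : OO L) :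
        L)‖ := by
    intro i
    have hst : IsTopologicallyNilpotent (s i) := (tn_iff_norm_lt_one _).2 (hs2 i)
    have hsum : ev1 (∑ j, PowerSeries.C (c j) * Ms p m a j) (s i) =
        ∑ j, c j * ev1 (Ms p m a j) (s i) := by
      have h1 := map_sum (PowerSeries.eval₂Hom (φ := RingHom.id (OO L)) continuous_idO hst)
        (fun j => PowerSeries.C (c j) * Ms p m a j) Finset.univ
      rw [PowerSeries.coe_eval₂Hom] at h1
      refine h1.trans (Finset.sum_congr rfl fun j _ => ?_)
      have h2 := ev1_mul (PowerSeries.C (c j)) (Ms p m a j) hst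
      rw [ev1_C] at h2
      exact h2
    let T : FPt p (1 + m) (par 1 m a) := ⟨s i, hst⟩
    obtain ⟨x, hx⟩ := pra_surjective D S T
    have he : pra D S (p • x) = 0 := by
      rw [map_nsmul, hx]
      apply Subtype.ext
      rw [FPt.p_smul_val, hs3 i]
      rfl
    have h3 := hcon (p • x) he
    have h4 : ∑ j, c j * grad D S (p • x) j = ∑ j, c j * ev1 (Ms p m a j) (s i) +
        ev1 (PowerSeries.derivative (OO L) (mulS p (1 + m) (par 1 m a) p)) (s i) *
          ∑ j, c j * grad D S x j := by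
      rw [Finset.mul_sum, ← Finset.sum_add_distrib]
      refine Finset.sum_congr rfl fun j _ => ?_
      rw [grad_p_smul0, hx]
      show c j * (ev1 (Ms p m a j) (s i) + _ * grad D S x j) = _
      ring
    rw [h3, ← hsum] at h4
    have h5 : ev1 (∑ j, PowerSeries.C (c j) * Ms p m a j) (s i) =
        -(ev1 (PowerSeries.derivative (OO L) (mulS p (1 + m) (par 1 m a) p)) (s i) *
          ∑ j, c j * grad D S x j) := eq_neg_of_add_eq_zero_left h4.symm
    rw [h5]
    have e : ((-(ev1 (PowerSeries.derivative (OO L) (mulS p (1 + m) (par 1 m a) p)) (s i) *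
          ∑ j, c j * grad D S x j) : OO L) : L) =
        -(((ev1 (PowerSeries.derivative (OO L) (mulS p (1 + m) (par 1 m a) p)) (s i) : OO L) : L) *
          ((∑ j, c j * grad D S x j : OO L) : L)) := rfl
    rw [e, norm_neg, norm_mul]
    exact mul_le_of_le_one_right (norm_nonneg _) (j0_norm_le _)
  obtain ⟨j0, hj0⟩ := hc
  have hm : 1 ≤ m := by have := j0.2; omega
  have hi1 : p ^ ((j0 : ℕ) + 1) ≤ p ^ m := Nat.pow_le_pow_right hp.pos (by have := j0.2; omega)
  have hi2 : 2 ≤ p ^ m := le_trans hp.two_le (Nat.le_self_pow (by omega) p)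
  have hi3 : p ^ (1 + m) = p * p ^ m := by rw [pow_add, pow_one]
  have hi4 : 2 * p ^ m ≤ p * p ^ m := Nat.mul_le_mul_right _ hp.two_le
  have hi0 : p ^ ((j0 : ℕ) + 1) + 1 < p ^ (1 + m) := by omega
  have hlt := coeff_lt_one_of_interp (mulS p (1 + m) (par 1 m a) p)
    (∑ j, PowerSeries.C (c j) * Ms p m a j) (d := p ^ (1 + m))
    (by
      intro i hi
      have h1 : ‖((PowerSeries.coeff i (mulS p (1 + m) (par 1 m a) p) -
        (if i = p ^ (1 + m) then 1 else 0) : OO L) : L)‖ ≤ ρ := hJ.coeff_mem i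
      rw [if_neg hi.ne, sub_zero] at h1
      exact h1.trans_lt D.rho_lt)
    (by
      have h1 : ‖((PowerSeries.coeff (p ^ (1 + m)) (mulS p (1 + m) (par 1 m a) p) -
        (if p ^ (1 + m) = p ^ (1 + m) then 1 else 0) : OO L) : L)‖ ≤ ρ := hJ.coeff_mem _
      rw [if_pos rfl] at h1
      exact sj_norm_eq_one (h1.trans_lt D.rho_lt))
    s hs1 hs2 hs3 hev (p ^ ((j0 : ℕ) + 1)) hi0
  have hI : (PowerSeries.coeff (p ^ ((j0 : ℕ) + 1)) (∑ j, PowerSeries.C (c j) * Ms p m a j)) ∈
      ballIdeal L ⟨1, one_pos⟩ := hlt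
  rw [map_sum] at hI
  have h5 : ∑ j, c j * (PowerSeries.coeff (p ^ ((j0 : ℕ) + 1)) (Ms p m a j) -
      (if p ^ ((j0 : ℕ) + 1) = p ^ ((j : ℕ) + 1) then 1 else 0)) ∈ ballIdeal L ⟨1, one_pos⟩ := by
    refine Ideal.sum_mem _ fun j _ => Ideal.mul_mem_left _ _ ?_
    exact (Ms_coeff D j _ (by omega)).trans_lt D.rho_lt
  have h6 := Ideal.sub_mem _ hI h5
  rw [← Finset.sum_sub_distrib] at h6
  have h7 : ∑ j, (PowerSeries.coeff (p ^ ((j0 : ℕ) + 1)) (PowerSeries.C (c j) * Ms p m a j) -
      c j * (PowerSeries.coeff (p ^ ((j0 : ℕ) + 1)) (Ms p m a j) -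
      (if p ^ ((j0 : ℕ) + 1) = p ^ ((j : ℕ) + 1) then 1 else 0))) = c j0 := by
    rw [Finset.sum_eq_single j0]
    · rw [PowerSeries.coeff_C_mul, if_pos rfl]; ring
    · intro j _ hj
      rw [PowerSeries.coeff_C_mul, if_neg]
      · ring
      · intro h8
        apply hj
        have := (Nat.pow_right_injective hp.two_le h8).symm
        exact Fin.ext (by omega)
    · intro h8
      exact absurd (Finset.mem_univ _) h8
  rw [h7] at h6
  have h8 : ‖(c j0 : L)‖ < 1 := h6
  linarith

/-- J0C: there are `e_1, …, e_m ∈ ker pr_a` with invertible Jacobian matrix. -/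
theorem exists_basis0 [IsAlgClosed L] [CharZero L] {a : Fin m → OO L} {ρ : ℝ} (D : Dt p 1 m a ρ)
    (S : SharpData p K L) :
    ∃ e : Fin m → FPt p (1 + m) (Gam (1 + m) : ℕ → OO K), (∀ i, pra D S (e i) = 0) ∧
      (Matrix.of fun i j => grad D S (e i) j).det ≠ 0 := by
  classical
  rcases Nat.eq_zero_or_pos m with hm0 | hm
  · subst hm0
    refine ⟨fun i => 0, fun i => map_zero _, ?_⟩
    rw [Matrix.det_isEmpty]
    exact one_ne_zero
  have hne : Nonempty (Fin m) := ⟨⟨0, hm⟩⟩
  let G : FPt p (1 + m) (Gam (1 + m) : ℕ → OO K) → (Fin m → L) := fun e j => (grad D S e j : L)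
  let W : Set (Fin m → L) := {w | ∃ e, pra D S e = 0 ∧ w = G e}
  have hW : Submodule.span L W = ⊤ := by
    by_contra hW
    obtain ⟨f, hf0, hf⟩ := Submodule.exists_le_ker_of_lt_top _ (lt_top_iff_ne_top.2 hW)
    have hfs : ∀ w : Fin m → L, f w = ∑ j, w j * f (Pi.single j 1) := by
      intro w
      conv_lhs => rw [← Finset.univ_sum_single w]
      rw [map_sum]
      refine Finset.sum_congr rfl fun j _ => ?_
      have h1 : (Pi.single j (w j) : Fin m → L) = w j • (Pi.single j 1 : Fin m → L) := by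
        rw [← Pi.single_smul, smul_eq_mul, mul_one]
      rw [h1, map_smul, smul_eq_mul]
    obtain ⟨j1, hj1⟩ := Finite.exists_max fun j : Fin m => ‖f (Pi.single j 1)‖
    have hpos : f (Pi.single j1 1) ≠ 0 := by
      intro h0
      apply hf0
      refine LinearMap.ext fun w => ?_
      rw [LinearMap.zero_apply]
      have h1 : ∀ j, f (Pi.single j 1) = 0 := by
        intro j
        have := hj1 j
        rw [h0, norm_zero] at this
        exact norm_le_zero_iff.1 this
      rw [hfs]
      exact Finset.sum_eq_zero fun j _ => by rw [h1, mul_zero]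
    let c : Fin m → OO L := fun j => ⟨f (Pi.single j 1) / f (Pi.single j1 1), by
      show ‖f (Pi.single j 1) / f (Pi.single j1 1)‖ ≤ 1
      rw [norm_div, div_le_one (norm_pos_iff.2 hpos)]
      exact hj1 j⟩
    obtain ⟨e, he1, he2⟩ := grad_ne_zero0 D S c ⟨j1, by
      show ‖f (Pi.single j1 1) / f (Pi.single j1 1)‖ = 1
      rw [div_self hpos, norm_one]⟩
    apply he2
    have h1 : f (G e) = 0 := by
      have : G e ∈ Submodule.span L W := Submodule.subset_span ⟨e, he1, rfl⟩
      exact hf this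
    rw [hfs] at h1
    apply Subtype.ext
    have h2 : ((∑ j, c j * grad D S e j : OO L) : L) =
        ∑ j, (c j : L) * (grad D S e j : L) := by
      rw [← Subring.coe_subtype, map_sum]
      refine Finset.sum_congr rfl fun j _ => ?_
      rw [map_mul]
    have h3 : ∑ j, (c j : L) * (grad D S e j : L) =
        (∑ j, G e j * f (Pi.single j 1)) / f (Pi.single j1 1) := by
      rw [Finset.sum_div]
      refine Finset.sum_congr rfl fun j _ => ?_
      show f (Pi.single j 1) / f (Pi.single j1 1) * (grad D S e j : L) = _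
      ring
    rw [h2, h3, h1, zero_div]
    rfl
  obtain ⟨b, hbW, hbs, hbl⟩ := exists_linearIndependent L W
  rw [hW] at hbs
  have hbspan : ⊤ ≤ Submodule.span L (Set.range ((↑) : b → (Fin m → L))) := by
    rw [Subtype.range_coe, hbs]
  let B := Module.Basis.mk hbl hbspan
  have hfin : Finite b := Module.Finite.finite_basis B
  have := Fintype.ofFinite b
  have hcard : Fintype.card b = m := by
    rw [← Module.finrank_eq_card_basis B, Module.finrank_fintype_fun_eq_card, Fintype.card_fin]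
  let φ : Fin m ≃ b := (Fintype.equivFinOfCardEq hcard).symm
  have hch : ∀ i, ∃ e, pra D S e = 0 ∧ ((φ i : b) : Fin m → L) = G e := fun i => hbW (φ i).2
  choose e he1 he2 using hch
  refine ⟨e, he1, ?_⟩
  have hli : LinearIndependent L (fun i => G (e i)) := by
    have h1 : (fun i => G (e i)) = ((↑) : b → (Fin m → L)) ∘ φ := by
      funext i
      exact (he2 i).symm
    rw [h1]
    exact hbl.comp φ φ.injective
  intro h0
  have h1 : IsUnit (Matrix.of fun i j => (grad D S (e i) j : L)) := by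
    rw [← Matrix.linearIndependent_rows_iff_isUnit]
    exact hli
  rw [Matrix.isUnit_iff_isUnit_det, isUnit_iff_ne_zero] at h1
  apply h1
  have h2 := (RingHom.map_det (OO L).subtype (Matrix.of fun i j => grad D S (e i) j)).symm
  rw [h0, map_zero] at h2
  exact h2

end Vale.Agent.P217
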