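import Vale.Agent.P217.Homs
import Vale.Agent.P217.FGLA

/-!
# P217, helper file for module KL4 (helper88): additivity of sparse series on points

`kl4_add`: if `‖a k‖ ≤ c^k` and `F = ∑ a_k X^(p^k)` satisfies `F(G) = F(X_0) + F(X_1)` for a
series `G` over the unit ball, then `z ↦ ∑ a_k z^(p^k)` turns `G(x, y)` into a sum.
-/

namespace Vale.Agent.P217

open MvPowerSeries Filter Topology

section klog

variable {p : ℕ} [Fact p.Prime]
variable {C : Type*} [NormedField C] [IsUltrametricDist C] [CompleteSpace C]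

omit [CompleteSpace C] [IsUltrametricDist C] in
theorem kl4_congr {ι : Type*} {f g : ι → C} {s : C} (h : HasSum f s) (hfg : ∀ i, f i = g i) :
    HasSum g s := (funext hfg : f = g) ▸ h

theorem kl4_bound (c : ℝ) (ρ : ℝ) (h0 : 0 ≤ ρ) (h1 : ρ < 1) (ε : ℝ)
    (hε : 0 < ε) : ∃ D : ℕ, ∀ d : ℕ, D ≤ d → ∀ k : ℕ, p ^ k ≤ d → c ^ k * ρ ^ d < ε ∨ c < 0 := by
  by_cases hc : c < 0
  · exact ⟨0, fun _ _ _ _ => Or.inr hc⟩
  push Not at hc
  have hp : 1 < (p : ℝ) := by exact_mod_cast (Fact.out : p.Prime).one_lt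
  obtain ⟨m, hm⟩ := pow_unbounded_of_one_lt c hp
  have ht := tendsto_pow_const_mul_const_pow_of_abs_lt_one m
    (show |ρ| < 1 by rw [abs_of_nonneg h0]; exact h1)
  obtain ⟨D, hD⟩ := (ht.eventually (gt_mem_nhds hε)).exists_forall_of_atTop
  refine ⟨D, fun d hd k hk => Or.inl (lt_of_le_of_lt ?_ (hD d hd))⟩
  refine mul_le_mul_of_nonneg_right ?_ (pow_nonneg h0 d)
  have h2 : ((p : ℝ) ^ k) ≤ (d : ℝ) := by exact_mod_cast hk
  calc c ^ k ≤ ((p : ℝ) ^ m) ^ k := pow_le_pow_left₀ hc hm.le k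
    _ = ((p : ℝ) ^ k) ^ m := by rw [← pow_mul, ← pow_mul, mul_comm]
    _ ≤ (d : ℝ) ^ m := pow_le_pow_left₀ (pow_nonneg (by linarith) k) h2 m

omit [CompleteSpace C] in
theorem kl4_norm_coe (x : OO C) : ‖(x : C)‖ ≤ 1 := x.2

/-- the double family -/
noncomputable def kl4U (p : ℕ) (a : ℕ → C) (G : MvPowerSeries (Fin 2) (OO C)) (x y : OO C) :
    ℕ × (Fin 2 →₀ ℕ) → C := fun q =>
  a q.1 * (((coeff q.2 (G ^ (p ^ q.1)) : OO C) : C) * ((x : C) ^ (q.2 0) * (y : C) ^ (q.2 1)))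

theorem kl4_summable (a : ℕ → C) (c : ℝ) (hc : 0 ≤ c) (ha : ∀ k, ‖a k‖ ≤ c ^ k)
    (G : MvPowerSeries (Fin 2) (OO C)) (hG : constantCoeff G = 0) (x y : OO C)
    (hx : ‖(x : C)‖ < 1) (hy : ‖(y : C)‖ < 1) : Summable (kl4U p a G x y) := by
  apply NonarchimedeanAddGroup.summable_of_tendsto_cofinite_zero
  rw [tendsto_zero_iff_norm_tendsto_zero]
  rw [Metric.tendsto_nhds]
  intro ε hε
  have hρ0 : 0 ≤ max ‖(x : C)‖ ‖(y : C)‖ := le_max_of_le_left (norm_nonneg _)
  have hρ1 : max ‖(x : C)‖ ‖(y : C)‖ < 1 := max_lt hx hy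
  obtain ⟨D, hD⟩ := kl4_bound (p := p) c _ hρ0 hρ1 ε hε
  have hfin : (Set.Iio D ×ˢ {e : Fin 2 →₀ ℕ | e.degree ≤ D}).Finite :=
    (Set.finite_Iio D).prod (Finsupp.finite_of_degree_le D)
  refine hfin.subset ?_
  intro q hq
  by_contra hq2
  apply hq
  show dist ‖kl4U p a G x y q‖ 0 < ε
  rw [dist_zero_right, norm_norm]
  by_cases hlt : q.2.degree < p ^ q.1
  · have h0 : coeff q.2 (G ^ (p ^ q.1)) = 0 :=
      coeff_eq_zero_of_constantCoeff_nilpotent (m := 1) (by rw [hG, pow_one]) (by omega)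
    unfold kl4U
    rw [h0]
    simp [hε]
  · push Not at hlt
    have hdeg : q.2.degree = q.2 0 + q.2 1 := by
      rw [Finsupp.degree_eq_sum, Fin.sum_univ_two]
    have hDle : D ≤ q.2.degree := by
      by_contra h
      push Not at h
      apply hq2
      refine ⟨?_, h.le⟩
      have h3 : q.1 < p ^ q.1 := Nat.lt_pow_self (Fact.out : p.Prime).one_lt
      show q.1 < D
      omega
    rcases hD _ hDle q.1 hlt with h | h
    · refine lt_of_le_of_lt ?_ h
      unfold kl4U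
      rw [norm_mul, norm_mul, norm_mul, norm_pow, norm_pow, hdeg, pow_add]
      refine mul_le_mul (ha _) ?_ (by positivity) (pow_nonneg hc _)
      calc ‖((coeff q.2 (G ^ (p ^ q.1)) : OO C) : C)‖ * (‖(x : C)‖ ^ (q.2 0) *
            ‖(y : C)‖ ^ (q.2 1)) ≤ 1 * (‖(x : C)‖ ^ (q.2 0) * ‖(y : C)‖ ^ (q.2 1)) :=
            mul_le_mul_of_nonneg_right (kl4_norm_coe _) (by positivity)
        _ = ‖(x : C)‖ ^ (q.2 0) * ‖(y : C)‖ ^ (q.2 1) := one_mul _
        _ ≤ _ := mul_le_mul (pow_le_pow_left₀ (norm_nonneg _) (le_max_left _ _) _)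
          (pow_le_pow_left₀ (norm_nonneg _) (le_max_right _ _) _) (by positivity)
          (pow_nonneg hρ0 _)
    · exact absurd h (not_lt.2 hc)

/-- the value as a sum in `C` -/
theorem kl4_ev2_hasSum (G : MvPowerSeries (Fin 2) (OO C)) (x y : OO C)
    (hx : IsTopologicallyNilpotent x) (hy : IsTopologicallyNilpotent y) :
    HasSum (fun e : Fin 2 →₀ ℕ => ((coeff e G : OO C) : C) * ((x : C) ^ (e 0) * (y : C) ^ (e 1)))
      ((ev2 G x y : OO C) : C) := by
  have h := hasSum_eval₂ (φ := RingHom.id (OO C)) continuous_idO (hasEval_pair hx hy) G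
  have h2 := h.map (OO C).subtype.toAddMonoidHom continuous_subtype_val
  refine kl4_congr h2 ?_
  intro e
  show (((RingHom.id (OO C)) (coeff e G) * (e.prod fun s k => (![x, y] s) ^ k) : OO C) : C) = _
  rw [Finsupp.prod_fintype _ _ (fun i => pow_zero _), Fin.prod_univ_two]
  rfl

theorem kl4_ev2_pow (G : MvPowerSeries (Fin 2) (OO C)) (x y : OO C)
    (hx : IsTopologicallyNilpotent x) (hy : IsTopologicallyNilpotent y) (k : ℕ) :
    ev2 (G ^ k) x y = ev2 G x y ^ k := by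
  unfold ev2
  have h := map_pow (eval₂Hom (φ := RingHom.id (OO C)) continuous_idO (hasEval_pair hx hy)) G k
  rw [coe_eval₂Hom] at h
  exact h

theorem kl4_hasSum (a : ℕ → C) (c : ℝ) (hc : 0 ≤ c) (ha : ∀ k, ‖a k‖ ≤ c ^ k)
    (F : PowerSeries C) (hF : ∀ k, PowerSeries.coeff (p ^ k) F = a k)
    (hF' : ∀ d, (∀ k, d ≠ p ^ k) → PowerSeries.coeff d F = 0)
    (G : MvPowerSeries (Fin 2) (OO C)) (hG : constantCoeff G = 0) (x y : OO C)
    (hx : ‖(x : C)‖ < 1) (hy : ‖(y : C)‖ < 1) :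
    HasSum (fun e : Fin 2 →₀ ℕ => coeff e (F.subst (map (OO C).subtype G)) *
      ((x : C) ^ (e 0) * (y : C) ^ (e 1)))
      (∑' k : ℕ, a k * ((ev2 G x y : OO C) : C) ^ (p ^ k)) := by
  have hxt : IsTopologicallyNilpotent x := (tn_OO x).2 hx
  have hyt : IsTopologicallyNilpotent y := (tn_OO y).2 hy
  have hS := (kl4_summable (p := p) a c hc ha G hG x y hx hy).hasSum
  have h1 : HasSum (fun k : ℕ => a k * ((ev2 G x y : OO C) : C) ^ (p ^ k))
      (∑' q, kl4U p a G x y q) := by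
    refine hS.prod_fiberwise fun k => ?_
    have h := (kl4_ev2_hasSum (G ^ (p ^ k)) x y hxt hyt).mul_left (a k)
    rw [kl4_ev2_pow G x y hxt hyt] at h
    exact h
  rw [h1.tsum_eq]
  have hS2 := (Equiv.prodComm (Fin 2 →₀ ℕ) ℕ).hasSum_iff.2 hS
  refine hS2.prod_fiberwise fun e => ?_
  have hG' : PowerSeries.HasSubst (map (OO C).subtype G) :=
    PowerSeries.HasSubst.of_constantCoeff_zero (fga_cc_map _ G hG)
  have h2 : HasSum (fun k : ℕ => a k * ((coeff e (G ^ (p ^ k)) : OO C) : C))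
      (coeff e (F.subst (map (OO C).subtype G))) := by
    rw [PowerSeries.coeff_subst hG', ← tsum_eq_finsum (L := .unconditional _) (PowerSeries.coeff_subst_finite hG' F e)]
    have hs := (summable_of_hasFiniteSupport (L := .unconditional _)
      (PowerSeries.coeff_subst_finite hG' F e)).hasSum
    have hinj : Function.Injective (fun k : ℕ => p ^ k) :=
      Nat.pow_right_injective (Fact.out : p.Prime).two_le
    have hs2 := (hinj.hasSum_iff (f := fun d => PowerSeries.coeff d F •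
      coeff e (map (OO C).subtype G ^ d)) (by
        intro d hd
        rw [hF' d, zero_smul]
        intro k hk
        exact hd ⟨k, hk.symm⟩)).2 hs
    refine kl4_congr hs2 ?_
    intro k
    show PowerSeries.coeff (p ^ k) F • coeff e (map (OO C).subtype G ^ (p ^ k)) = _
    rw [hF, ← map_pow, coeff_map, smul_eq_mul]
    rfl
  have h3 := h2.mul_right ((x : C) ^ (e 0) * (y : C) ^ (e 1))
  refine kl4_congr h3 ?_
  intro k
  show _ = kl4U p a G x y (k, e)
  unfold kl4U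
  rw [mul_assoc]

theorem kl4_add (a : ℕ → C) (c : ℝ) (hc : 0 ≤ c) (ha : ∀ k, ‖a k‖ ≤ c ^ k)
    (F : PowerSeries C) (hF : ∀ k, PowerSeries.coeff (p ^ k) F = a k)
    (hF' : ∀ d, (∀ k, d ≠ p ^ k) → PowerSeries.coeff d F = 0)
    (G : MvPowerSeries (Fin 2) (OO C)) (hG : constantCoeff G = 0)
    (h : F.subst (map (OO C).subtype G) = F.subst (X 0 : MvPowerSeries (Fin 2) C) +
      F.subst (X 1 : MvPowerSeries (Fin 2) C)) (x y : OO C)
    (hx : ‖(x : C)‖ < 1) (hy : ‖(y : C)‖ < 1) :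
    (∑' k : ℕ, a k * ((ev2 G x y : OO C) : C) ^ (p ^ k)) =
      (∑' k : ℕ, a k * (x : C) ^ (p ^ k)) + ∑' k : ℕ, a k * (y : C) ^ (p ^ k) := by
  have hxt : IsTopologicallyNilpotent x := (tn_OO x).2 hx
  have hyt : IsTopologicallyNilpotent y := (tn_OO y).2 hy
  have h1 := kl4_hasSum (p := p) a c hc ha F hF hF' G hG x y hx hy
  have h2 := kl4_hasSum (p := p) a c hc ha F hF hF' (X 0) (constantCoeff_X 0) x y hx hy
  have h3 := kl4_hasSum (p := p) a c hc ha F hF hF' (X 1) (constantCoeff_X 1) x y hx hy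
  have e0 : ev2 (X 0 : MvPowerSeries (Fin 2) (OO C)) x y = x := by
    unfold ev2
    rw [eval₂_X]
    rfl
  have e1 : ev2 (X 1 : MvPowerSeries (Fin 2) (OO C)) x y = y := by
    unfold ev2
    rw [eval₂_X]
    rfl
  rw [map_X, e0] at h2
  rw [map_X, e1] at h3
  rw [h] at h1
  refine h1.unique (kl4_congr (h2.add h3) ?_)
  intro e
  rw [map_add, add_mul]

end klog

end Vale.Agent.P217
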