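import Vale.Agent.P217.Base
import Vale.Agent.P217.FELDefs
import Vale.Agent.P217.KLog
import Vale.Agent.P217.FELLog

/-!
# P217, part K: the sums `LL r i x = ∑_{j ∈ ℤ} p^(-j) (x^(p^(i+rj)))^♯` (modules KL1 ... KL5)

`K` perfect complete of characteristic `p`, `C` complete of characteristic `0` with `‖p‖ < 1`,
`S : SharpData p K C`.
-/

set_option linter.unusedSectionVars false
set_option linter.unusedVariables false

namespace Vale.Agent.P217

open Filter Topology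

variable {p : ℕ} [Fact p.Prime]
variable {K C : Type*} [NormedField K] [NormedField C] [IsUltrametricDist K] [IsUltrametricDist C]
  [CharP K p] [PerfectRing K p] [CompleteSpace K] [CompleteSpace C]

/-- `x ↦ x^(p^k)` for `k ∈ ℤ`. -/
noncomputable def fz (p : ℕ) [Fact p.Prime] [CharP K p] [PerfectRing K p] (k : ℤ) (x : K) : K :=
  ((frobeniusEquiv K p : RingAut K) ^ k : RingAut K) x

theorem fz_nat (k : ℕ) (x : K) : fz p (k : ℤ) x = x ^ (p ^ k) := by
  unfold fz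
  rw [zpow_natCast]
  induction k with
  | zero => simp
  | succ k ih =>
    rw [pow_succ', RingAut.mul_apply, ih, frobeniusEquiv_apply, frobenius_def, ← pow_mul,
      ← pow_succ]

theorem fz_add (j k : ℤ) (x : K) : fz p j (fz p k x) = fz p (j + k) x := by
  unfold fz
  rw [zpow_add, RingAut.mul_apply]

theorem fz_neg_nat (k : ℕ) (x : K) : fz p (-(k : ℤ)) x = (frobeniusEquiv K p).symm^[k] x := by
  unfold fz
  rw [zpow_neg, zpow_natCast, ← inv_pow]
  induction k with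
  | zero => simp
  | succ k ih =>
    rw [pow_succ', RingAut.mul_apply, ih, Function.iterate_succ_apply']
    rfl

theorem norm_fz (k : ℤ) (x : K) : ‖fz p k x‖ = ‖x‖ ^ ((p : ℝ) ^ k) := by
  have hp : (p : ℝ) ≠ 0 := by exact_mod_cast (Fact.out : p.Prime).ne_zero
  obtain ⟨n, rfl | rfl⟩ := k.eq_nat_or_neg
  · rw [fz_nat, norm_pow, zpow_natCast, ← Real.rpow_natCast, Nat.cast_pow]
  · have h1 : (fz p (-(n : ℤ)) x) ^ (p ^ n) = x := by
      rw [← fz_nat, fz_add, add_neg_cancel]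
      simp [fz]
    have h2 : ‖x‖ = ‖fz p (-(n : ℤ)) x‖ ^ (p ^ n) := by
      rw [← norm_pow, h1]
    rw [h2, ← Real.rpow_natCast, ← Real.rpow_mul (norm_nonneg _), Nat.cast_pow, zpow_neg,
      zpow_natCast, mul_inv_cancel₀ (pow_ne_zero _ hp), Real.rpow_one]

/-- The sums `L_i` (`r = n`) and `L^h_i` (`r = h`). -/
noncomputable def LL (S : SharpData p K C) (r : ℕ) (i : ℤ) (x : K) : C :=
  ∑' j : ℤ, (p : C) ^ (-j) * S.sharp (fz p (i + r * j) x)

theorem kl_norm_term (S : SharpData p K C) (r : ℕ) (i j : ℤ) (x : K) :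
    ‖(p : C) ^ (-j) * S.sharp (fz p (i + r * j) x)‖ =
      ‖(p : C)‖ ^ (-j) * ‖x‖ ^ ((p : ℝ) ^ (i + r * j)) := by
  rw [norm_mul, norm_zpow, S.norm_sharp, norm_fz]

theorem kl_tendsto_real {c y : ℝ} (hc : 0 < c) (hy0 : 0 ≤ y) (hy : y < 1) {Q : ℕ} (hQ : 2 ≤ Q) :
    Tendsto (fun n : ℕ => c ^ n * y ^ (Q ^ n)) atTop (𝓝 0) := by
  obtain ⟨k, hk⟩ := pow_unbounded_of_one_lt c (by exact_mod_cast hQ : (1 : ℝ) < (Q : ℝ))
  have h1 : Tendsto (fun n : ℕ => ((Q ^ n : ℕ) : ℝ) ^ k * y ^ (Q ^ n)) atTop (𝓝 0) :=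
    (tendsto_pow_const_mul_const_pow_of_abs_lt_one k (by rwa [abs_of_nonneg hy0])).comp
      (tendsto_pow_atTop_atTop_of_one_lt (by omega))
  refine squeeze_zero (fun n => mul_nonneg (pow_nonneg hc.le _) (pow_nonneg hy0 _))
    (fun n => ?_) h1
  refine mul_le_mul_of_nonneg_right ?_ (pow_nonneg hy0 _)
  calc c ^ n ≤ ((Q : ℝ) ^ k) ^ n := pow_le_pow_left₀ hc.le hk.le _
    _ = ((Q ^ n : ℕ) : ℝ) ^ k := by rw [← pow_mul, mul_comm, pow_mul]; push_cast; ring

variable [CharZero C]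

theorem kl_norm_p_pos : 0 < ‖(p : C)‖ := by
  rw [norm_pos_iff]
  exact_mod_cast (Fact.out : p.Prime).ne_zero

theorem LL_summable (hp : ‖(p : C)‖ < 1) (S : SharpData p K C) {r : ℕ} (hr : 1 ≤ r) (i : ℤ)
    {x : K} (hx : ‖x‖ < 1) :
    Summable fun j : ℤ => (p : C) ^ (-j) * S.sharp (fz p (i + r * j) x) := by
  apply NonarchimedeanAddGroup.summable_of_tendsto_cofinite_zero
  rw [tendsto_zero_iff_norm_tendsto_zero]
  simp only [kl_norm_term]
  have hp2 : (2 : ℕ) ≤ p ^ r := (Fact.out : p.Prime).two_le.trans (Nat.le_self_pow (by omega) p)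
  have hpp : (0 : ℝ) < (p : ℝ) := by exact_mod_cast (Fact.out : p.Prime).pos
  rw [Int.cofinite_eq, tendsto_sup]
  constructor
  · -- negative indices
    have h1 : Tendsto (fun n : ℕ => ‖(p : C)‖ ^ n) atTop (𝓝 0) :=
      tendsto_pow_atTop_nhds_zero_of_lt_one (norm_nonneg _) hp
    have h2 : Tendsto (fun j : ℤ => ‖(p : C)‖ ^ ((-j).toNat)) atBot (𝓝 0) := by
      refine h1.comp ?_
      refine tendsto_atTop.2 fun N => ?_
      filter_upwards [eventually_le_atBot (-(N : ℤ))] with j hj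
      omega
    refine squeeze_zero' (Eventually.of_forall fun j => by positivity) ?_ h2
    filter_upwards [eventually_le_atBot (0 : ℤ)] with j hj
    have e : ‖(p : C)‖ ^ (-j) = ‖(p : C)‖ ^ ((-j).toNat) := by
      rw [← zpow_natCast]
      congr 1
      omega
    rw [e]
    refine mul_le_of_le_one_right (pow_nonneg (norm_nonneg _) _) ?_
    exact Real.rpow_le_one (norm_nonneg _) hx.le (by positivity)
  · -- positive indices
    set y : ℝ := ‖x‖ ^ ((p : ℝ) ^ i) with hy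
    have hy0 : 0 ≤ y := Real.rpow_nonneg (norm_nonneg _) _
    have hy1 : y < 1 := Real.rpow_lt_one (norm_nonneg _) hx (by positivity)
    have h1 := kl_tendsto_real (c := ‖(p : C)‖⁻¹) (inv_pos.2 kl_norm_p_pos) hy0 hy1 hp2
    have h2 : Tendsto (fun j : ℤ => ‖(p : C)‖⁻¹ ^ j.toNat * y ^ ((p ^ r) ^ j.toNat))
        atTop (𝓝 0) := by
      refine h1.comp ?_
      refine tendsto_atTop.2 fun N => ?_
      filter_upwards [eventually_ge_atTop (N : ℤ)] with j hj
      omega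
    refine h2.congr' ?_
    filter_upwards [eventually_ge_atTop (0 : ℤ)] with j hj
    have e0 : j = (j.toNat : ℤ) := by omega
    have e1 : ‖(p : C)‖ ^ (-j) = ‖(p : C)‖⁻¹ ^ j.toNat := by
      conv_lhs => rw [e0]
      rw [zpow_neg, zpow_natCast, inv_pow]
    have e2 : y ^ ((p ^ r) ^ j.toNat) = ‖x‖ ^ ((p : ℝ) ^ (i + r * j)) := by
      have e3 : ((((p ^ r) ^ j.toNat : ℕ)) : ℝ) = (p : ℝ) ^ ((r : ℤ) * j) := by
        conv_rhs => rw [e0]
        push_cast
        rw [zpow_mul, zpow_natCast, zpow_natCast]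
      rw [hy, ← Real.rpow_natCast (‖x‖ ^ ((p : ℝ) ^ i)) _, ← Real.rpow_mul (norm_nonneg _), e3,
        ← zpow_add₀ hpp.ne']
    rw [e1, e2]

theorem LL_add_r (hp : ‖(p : C)‖ < 1) (S : SharpData p K C) {r : ℕ} (hr : 1 ≤ r) (i : ℤ)
    {x : K} (hx : ‖x‖ < 1) : LL S r (i + r) x = (p : C) * LL S r i x := by
  have hpC : (p : C) ≠ 0 := by exact_mod_cast (Fact.out : p.Prime).ne_zero
  unfold LL
  rw [← tsum_mul_left, ← (Equiv.addRight (1 : ℤ)).tsum_eq
    (fun j : ℤ => (p : C) * ((p : C) ^ (-j) * S.sharp (fz p (i + r * j) x)))]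
  congr 1
  funext j
  rw [Equiv.coe_addRight, ← mul_assoc]
  congr 1
  · rw [← zpow_one_add₀ hpC]
    congr 1
    ring
  · congr 2
    ring

theorem LL_fz (S : SharpData p K C) (r : ℕ) (i k : ℤ) (x : K) :
    LL S r i (fz p k x) = LL S r (i + k) x := by
  unfold LL
  congr 1
  funext j
  rw [fz_add]
  congr 3
  ring

theorem LL_omega (hp : ‖(p : C)‖ < 1) (S : SharpData p K C) {r : ℕ} (hr : 1 ≤ r) (i : ℤ)
    {x w : K} (hx : ‖x‖ < 1) (hw : w ^ (p ^ r) = w) :
    LL S r i (w * x) = S.sharp (fz p i w) * LL S r i x := by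
  have h1 : fz p (r : ℤ) w = w := by rw [fz_nat, hw]
  have h2 : ∀ j : ℕ, fz p ((r : ℤ) * j) w = w := by
    intro j
    induction j with
    | zero =>
      rw [Nat.cast_zero, mul_zero]
      exact (fz_nat 0 w).trans (by simp)
    | succ j ih =>
      have e : (r : ℤ) * ((j + 1 : ℕ) : ℤ) = r + r * j := by push_cast; ring
      rw [e, ← fz_add, ih, h1]
  have h3 : ∀ j : ℤ, fz p ((r : ℤ) * j) w = w := by
    intro j
    obtain ⟨n, rfl | rfl⟩ := j.eq_nat_or_neg
    · exact h2 n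
    · have h4 : fz p ((r : ℤ) * -(n : ℤ)) (fz p ((r : ℤ) * n) w) = w := by
        rw [fz_add]
        have e : (r : ℤ) * -(n : ℤ) + r * n = (0 : ℕ) := by push_cast; ring
        rw [e]
        exact (fz_nat 0 w).trans (by simp)
      rwa [h2 n] at h4
  unfold LL
  rw [← tsum_mul_left]
  congr 1
  funext j
  have h5 : fz p (i + r * j) (w * x) = fz p i w * fz p (i + r * j) x := by
    have h6 : fz p (i + r * j) (w * x) = fz p (i + r * j) w * fz p (i + r * j) x :=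
      map_mul ((frobeniusEquiv K p : RingAut K) ^ (i + r * j) : RingAut K) w x
    rw [h6, ← fz_add i (r * j) w, h3]
  rw [h5, map_mul]
  ring

/-- `LL` is nonzero if there is a unique dominant term. -/
theorem LL_ne_zero (hp : ‖(p : C)‖ < 1) (S : SharpData p K C) {r : ℕ} (hr : 1 ≤ r)
    {x : K} (hx : ‖x‖ < 1) (j0 : ℤ) (hx0 : x ≠ 0)
    (hgen : ∀ j : ℤ, j ≠ j0 → ‖(p : C) ^ (-j)‖ * ‖fz p (r * j) x‖ <
      ‖(p : C) ^ (-j0)‖ * ‖fz p (r * j0) x‖) : LL S r 0 x ≠ 0 := by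
  set t : ℤ → C := fun j => (p : C) ^ (-j) * S.sharp (fz p (0 + r * j) x) with ht
  have hsum : Summable t := LL_summable hp S hr 0 hx
  have hn : ∀ j, ‖t j‖ = ‖(p : C) ^ (-j)‖ * ‖fz p (r * j) x‖ := by
    intro j
    rw [ht]
    dsimp only
    rw [norm_mul, S.norm_sharp, zero_add]
  have hlt : ∀ j, j ≠ j0 → ‖t j‖ < ‖t j0‖ := by
    intro j hj
    rw [hn, hn]
    exact hgen j hj
  have hpos : 0 < ‖t j0‖ := by
    have := hlt (j0 + 1) (by omega)
    exact (norm_nonneg _).trans_lt this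
  have hfin : ∀ s : Finset ℤ, j0 ∉ s → ‖∑ j ∈ s, t j‖ < ‖t j0‖ := by
    intro s
    induction s using Finset.induction_on with
    | empty => intro _; simpa using hpos
    | insert a s ha ih =>
      intro h
      rw [Finset.mem_insert, not_or] at h
      rw [Finset.sum_insert ha]
      exact (IsUltrametricDist.norm_add_le_max _ _).trans_lt
        (max_lt (hlt a (Ne.symm h.1)) (ih h.2))
  have hpart : ∀ s : Finset ℤ, j0 ∈ s → ‖∑ j ∈ s, t j‖ = ‖t j0‖ := by
    intro s hs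
    rw [← Finset.add_sum_erase s t hs]
    have h := hfin (s.erase j0) (Finset.notMem_erase _ _)
    rw [IsUltrametricDist.norm_add_eq_max_of_norm_ne_norm h.ne', max_eq_left h.le]
  have hlim : Tendsto (fun s : Finset ℤ => ‖∑ j ∈ s, t j‖) atTop (𝓝 ‖∑' j, t j‖) :=
    hsum.hasSum.norm
  have hconst : Tendsto (fun s : Finset ℤ => ‖∑ j ∈ s, t j‖) atTop (𝓝 ‖t j0‖) := by
    refine tendsto_const_nhds.congr' ?_
    filter_upwards [eventually_ge_atTop ({j0} : Finset ℤ)] with s hs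
    exact (hpart s (hs (Finset.mem_singleton_self j0))).symm
  have heq := tendsto_nhds_unique hlim hconst
  intro h0
  have : LL S r 0 x = ∑' j, t j := rfl
  rw [← this, h0, norm_zero] at heq
  exact hpos.ne heq

/-! ### The logarithm over `C` -/

/-- `log_v(z) = ∑_k ell_k(v) z^(p^k)`. -/
noncomputable def logC (p n : ℕ) (v : ℕ → C) (z : C) : C :=
  ∑' k : ℕ, ellOf p n v k * z ^ (p ^ k)

theorem kl3_lim {q : ℕ} (hq : 1 < q) {c ρ : ℝ} (hc : 0 ≤ c) (h0 : 0 ≤ ρ) (h1 : ρ < 1) :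
    Tendsto (fun k : ℕ => c ^ k * ρ ^ (q ^ k)) atTop (𝓝 0) := by
  have hqR : (1 : ℝ) < q := by exact_mod_cast hq
  obtain ⟨A, hA⟩ := pow_unbounded_of_one_lt c hqR
  have hlim := (tendsto_pow_const_mul_const_pow_of_lt_one A h0 h1).comp
    (tendsto_pow_atTop_atTop_of_one_lt hq)
  refine squeeze_zero (fun k => by positivity) (fun k => ?_) hlim
  rw [Function.comp_apply]
  apply mul_le_mul_of_nonneg_right _ (by positivity)
  rw [Nat.cast_pow, ← pow_mul, mul_comm k A, pow_mul]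
  exact pow_le_pow_left₀ hc hA.le k

omit [CompleteSpace C] [CharZero C] in
theorem kl3_norm_p : ‖(p : C)‖ ≤ 1 := IsUltrametricDist.norm_natCast_le_one C p

omit [IsUltrametricDist C] [CompleteSpace C] in
theorem kl3_norm_p_pos : 0 < ‖(p : C)‖ :=
  norm_pos_iff.2 (Nat.cast_ne_zero.2 (Fact.out : p.Prime).ne_zero)

/-- `‖ell_k(v)‖ ≤ ‖p‖^(-k)`. -/
theorem norm_ellOf_le {n : ℕ} {v : ℕ → C} (hv : ∀ j, ‖v j‖ ≤ 1) (k : ℕ) :
    ‖ellOf p n v k‖ ≤ (‖(p : C)‖ ^ k)⁻¹ := by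
  have h0 : 0 < ‖(p : C)‖ := kl3_norm_p_pos
  have h1 : ‖(p : C)‖ ≤ 1 := kl3_norm_p
  induction k using Nat.strong_induction_on with
  | _ k ih =>
    cases k with
    | zero => rw [ellOf_zero, norm_one, pow_zero, inv_one]
    | succ k =>
      have h2 : ‖(p : C) * ellOf p n v (k + 1)‖ ≤ (‖(p : C)‖ ^ k)⁻¹ := by
        rw [ellOf_succ]
        refine IsUltrametricDist.norm_sum_le_of_forall_le_of_nonneg (by positivity) ?_
        intro i hi
        rw [Finset.mem_range] at hi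
        split_ifs
        · rw [norm_mul, norm_pow]
          have h3 := ih i hi
          have h4 : ‖v (k + 1 - i)‖ ^ (p ^ i) ≤ 1 := pow_le_one₀ (norm_nonneg _) (hv _)
          have h5 : (‖(p : C)‖ ^ i)⁻¹ ≤ (‖(p : C)‖ ^ k)⁻¹ :=
            inv_anti₀ (by positivity) (pow_le_pow_of_le_one h0.le h1 (by omega))
          calc ‖ellOf p n v i‖ * ‖v (k + 1 - i)‖ ^ (p ^ i) ≤ (‖(p : C)‖ ^ i)⁻¹ * 1 :=
                mul_le_mul h3 h4 (by positivity) (by positivity)
            _ ≤ _ := by rw [mul_one]; exact h5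
        · rw [norm_zero]
          positivity
      rw [norm_mul] at h2
      rw [pow_succ, mul_inv, le_mul_inv_iff₀ h0, mul_comm]
      exact h2

theorem logC_summable (hp : ‖(p : C)‖ < 1) {n : ℕ} {v : ℕ → C} (hv : ∀ j, ‖v j‖ ≤ 1) {z : C}
    (hz : ‖z‖ < 1) : Summable fun k : ℕ => ellOf p n v k * z ^ (p ^ k) := by
  have _ := hp
  have h0 : 0 < ‖(p : C)‖ := kl3_norm_p_pos
  refine NonarchimedeanAddGroup.summable_of_tendsto_cofinite_zero ?_
  rw [Nat.cofinite_eq_atTop]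
  have hlim := kl3_lim (Fact.out : p.Prime).one_lt (c := (‖(p : C)‖)⁻¹) (by positivity)
    (norm_nonneg z) hz
  refine squeeze_zero_norm (fun k => ?_) hlim
  rw [norm_mul, norm_pow, inv_pow]
  exact mul_le_mul_of_nonneg_right (norm_ellOf_le hv k) (by positivity)

/-- additivity of the logarithm on points -/
theorem logC_add (hp : ‖(p : C)‖ < 1) {n : ℕ} {v : ℕ → OO C} (x y : FPt p n v) :
    logC p n (fun j => (v j : C)) ((x + y).1 : OO C) =
      logC p n (fun j => (v j : C)) (x.1 : OO C) + logC p n (fun j => (v j : C)) (y.1 : OO C) := by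
  unfold logC
  rw [FPt.add_val]
  refine kl4_add (p := p) (fun k => ellOf p n (fun j => (v j : C)) k) (‖(p : C)‖⁻¹)
    (inv_nonneg.2 (norm_nonneg _)) ?_ (logOf p n (fun j => (v j : C))) (logOf_coeff_pow p n _)
    (fun d hd => logOf_coeff_of_ne p n _ d hd) (Fv p n v) (Fv_constantCoeff p n v) ?_ x.1 y.1
    ((tn_OO _).1 x.2) ((tn_OO _).1 y.2)
  · intro k
    rw [inv_pow]
    exact norm_ellOf_le (fun j => (v j).2) k
  · have h1 : MvPowerSeries.map (OO C).subtype (Fv p n v) = Fv p n (fun j => (v j : C)) :=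
      Fv_map p n v (OO C).subtype
    rw [h1]
    exact logOf_Fv p n _

/-- boundedness on a smaller ball -/
theorem logC_bound (hp : ‖(p : C)‖ < 1) {n : ℕ} {ρ : ℝ} (hρ : ρ < 1) : ∃ B : ℝ, ∀ (v : ℕ → C),
    (∀ j, ‖v j‖ ≤ 1) → ∀ z : C, ‖z‖ ≤ ρ → ‖logC p n v z‖ ≤ B := by
  have _ := hp
  have h0 : 0 < ‖(p : C)‖ := kl3_norm_p_pos
  have hlim := kl3_lim (Fact.out : p.Prime).one_lt (c := (‖(p : C)‖)⁻¹) (by positivity)
    (le_max_right ρ 0) (max_lt hρ one_pos)
  obtain ⟨B, hB⟩ := hlim.bddAbove_range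
  refine ⟨B, fun v hv z hz => ?_⟩
  have hterm : ∀ k : ℕ, ‖ellOf p n v k * z ^ (p ^ k)‖ ≤ B := by
    intro k
    refine le_trans ?_ (hB ⟨k, rfl⟩)
    rw [norm_mul, norm_pow]
    simp only [inv_pow]
    exact mul_le_mul (norm_ellOf_le hv k)
      (pow_le_pow_left₀ (norm_nonneg _) (hz.trans (le_max_left _ _)) _) (by positivity)
      (by positivity)
  unfold logC
  exact IsUltrametricDist.norm_tsum_le_of_forall_le hterm

theorem kl5_pow_sub {a b : C} {ε M : ℝ} (ha : ‖a‖ ≤ M) (hb : ‖b‖ ≤ M) (hab : ‖a - b‖ ≤ ε)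
    {m : ℕ} (hm : 1 ≤ m) : ‖a ^ m - b ^ m‖ ≤ ε * M ^ (m - 1) := by
  have hM : 0 ≤ M := (norm_nonneg _).trans ha
  rw [← geom_sum₂_mul, norm_mul, mul_comm]
  refine mul_le_mul hab ?_ (norm_nonneg _) ((norm_nonneg _).trans hab)
  refine IsUltrametricDist.norm_sum_le_of_forall_le_of_nonneg (pow_nonneg hM _) fun i hi => ?_
  rw [Finset.mem_range] at hi
  rw [norm_mul, norm_pow, norm_pow]
  calc ‖a‖ ^ i * ‖b‖ ^ (m - 1 - i) ≤ M ^ i * M ^ (m - 1 - i) :=
        mul_le_mul (pow_le_pow_left₀ (norm_nonneg _) ha _)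
          (pow_le_pow_left₀ (norm_nonneg _) hb _) (pow_nonneg (norm_nonneg _) _) (pow_nonneg hM _)
    _ = M ^ (m - 1) := by
        rw [← pow_add]
        congr 1
        omega

theorem kl5_inv_mono (hp : ‖(p : C)‖ < 1) {i k : ℕ} (hik : i ≤ k) :
    (‖(p : C)‖ ^ i)⁻¹ ≤ (‖(p : C)‖ ^ k)⁻¹ := by
  have h0 : 0 < ‖(p : C)‖ := kl_norm_p_pos
  exact inv_anti₀ (pow_pos h0 _) (pow_le_pow_of_le_one h0.le hp.le hik)

theorem kl5_ell_diff (hp : ‖(p : C)‖ < 1) {n : ℕ} {v v' : ℕ → C} (hv : ∀ j, ‖v j‖ ≤ 1)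
    (hv' : ∀ j, ‖v' j‖ ≤ 1) {ε : ℝ} (hvv : ∀ j, ‖v' j - v j‖ ≤ ε) (k : ℕ) :
    ‖ellOf p n v' k - ellOf p n v k‖ ≤ ε * (‖(p : C)‖ ^ k)⁻¹ := by
  have h0 : 0 < ‖(p : C)‖ := kl_norm_p_pos
  have hε : 0 ≤ ε := (norm_nonneg _).trans (hvv 0)
  induction k using Nat.strong_induction_on with
  | _ k ih =>
  rcases Nat.eq_zero_or_pos k with rfl | hk
  · rw [ellOf_zero, ellOf_zero, sub_self, norm_zero]
    positivity
  · obtain ⟨k, rfl⟩ : ∃ l, k = l + 1 := ⟨k - 1, by omega⟩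
    have h1 : ‖(p : C) * (ellOf p n v' (k + 1) - ellOf p n v (k + 1))‖ ≤
        ε * (‖(p : C)‖ ^ k)⁻¹ := by
      rw [mul_sub, ellOf_succ, ellOf_succ, ← Finset.sum_sub_distrib]
      refine IsUltrametricDist.norm_sum_le_of_forall_le_of_nonneg (by positivity) fun i hi => ?_
      rw [Finset.mem_range] at hi
      split_ifs with hin
      · have e : ellOf p n v' i * v' (k + 1 - i) ^ (p ^ i) -
            ellOf p n v i * v (k + 1 - i) ^ (p ^ i) =
            (ellOf p n v' i - ellOf p n v i) * v' (k + 1 - i) ^ (p ^ i) +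
              ellOf p n v i * (v' (k + 1 - i) ^ (p ^ i) - v (k + 1 - i) ^ (p ^ i)) := by ring
        rw [e]
        refine (IsUltrametricDist.norm_add_le_max _ _).trans (max_le ?_ ?_)
        · rw [norm_mul, norm_pow]
          calc ‖ellOf p n v' i - ellOf p n v i‖ * ‖v' (k + 1 - i)‖ ^ (p ^ i)
              ≤ (ε * (‖(p : C)‖ ^ i)⁻¹) * 1 :=
                mul_le_mul (ih i (by omega)) (pow_le_one₀ (norm_nonneg _) (hv' _))
                  (pow_nonneg (norm_nonneg _) _) (by positivity)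
            _ ≤ ε * (‖(p : C)‖ ^ k)⁻¹ := by
                rw [mul_one]
                exact mul_le_mul_of_nonneg_left (kl5_inv_mono hp (by omega)) hε
        · rw [norm_mul, mul_comm]
          have h2 := kl5_pow_sub (hv' (k + 1 - i)) (hv (k + 1 - i)) (hvv (k + 1 - i))
            (m := p ^ i) (Nat.one_le_iff_ne_zero.2 (pow_ne_zero _ (Fact.out : p.Prime).ne_zero))
          rw [one_pow, mul_one] at h2
          exact mul_le_mul h2 ((norm_ellOf_le hv i).trans (kl5_inv_mono hp (by omega)))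
            (norm_nonneg _) hε
      · rw [sub_self, norm_zero]
        positivity
    rw [norm_mul] at h1
    rw [pow_succ, mul_inv, ← mul_assoc]
    rw [← div_eq_mul_inv, le_div_iff₀ h0]
    linarith

theorem kl5_pow_p (hp : ‖(p : C)‖ < 1) {z h : C} {ε : ℝ} (hε : ε ≤ ‖(p : C)‖ ^ 2)
    (hz : ‖z‖ ≤ ‖(p : C)‖) (hh : ‖h‖ ≤ ε) :
    ‖(z + h) ^ p - z ^ p‖ ≤ ε * ‖(p : C)‖ ^ p := by
  have h0 : 0 < ‖(p : C)‖ := kl_norm_p_pos
  have hε0 : 0 ≤ ε := (norm_nonneg _).trans hh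
  have hp2 := (Fact.out : p.Prime).two_le
  have hnat : ∀ c : ℕ, ‖(c : C)‖ ≤ 1 := fun c => IsUltrametricDist.norm_natCast_le_one C c
  have hhp : ∀ j : ℕ, 1 ≤ j → ‖h‖ ^ j ≤ ε * ‖(p : C)‖ ^ (2 * (j - 1)) := by
    intro j hj
    obtain ⟨l, rfl⟩ : ∃ l, j = l + 1 := ⟨j - 1, by omega⟩
    rw [pow_succ', Nat.add_sub_cancel, pow_mul]
    exact mul_le_mul hh (pow_le_pow_left₀ (norm_nonneg _) (hh.trans hε) _)
      (pow_nonneg (norm_nonneg _) _) hε0
  rw [add_pow_prime_eq' Fact.out]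
  have e : z ^ p + h ^ p + (p : C) * ∑ k ∈ Finset.Ioo 0 p, z ^ k * h ^ (p - k) *
      ((p.choose k / p : ℕ) : C) - z ^ p = h ^ p + (p : C) * ∑ k ∈ Finset.Ioo 0 p,
        z ^ k * h ^ (p - k) * ((p.choose k / p : ℕ) : C) := by ring
  rw [e]
  refine (IsUltrametricDist.norm_add_le_max _ _).trans (max_le ?_ ?_)
  · rw [norm_pow]
    refine (hhp p (by omega)).trans (mul_le_mul_of_nonneg_left ?_ hε0)
    exact pow_le_pow_of_le_one h0.le hp.le (by omega)
  · rw [norm_mul]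
    have h1 : ‖∑ k ∈ Finset.Ioo 0 p, z ^ k * h ^ (p - k) * ((p.choose k / p : ℕ) : C)‖ ≤
        ε * ‖(p : C)‖ ^ (p - 1) := by
      refine IsUltrametricDist.norm_sum_le_of_forall_le_of_nonneg (by positivity) fun k hk => ?_
      rw [Finset.mem_Ioo] at hk
      rw [norm_mul, norm_mul, norm_pow, norm_pow]
      calc ‖z‖ ^ k * ‖h‖ ^ (p - k) * ‖((p.choose k / p : ℕ) : C)‖
          ≤ ‖(p : C)‖ ^ k * (ε * ‖(p : C)‖ ^ (2 * (p - k - 1))) * 1 := by
            refine mul_le_mul (mul_le_mul (pow_le_pow_left₀ (norm_nonneg _) hz _)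
              (hhp _ (by omega)) (pow_nonneg (norm_nonneg _) _) (by positivity)) (hnat _)
              (norm_nonneg _) (by positivity)
        _ = ε * ‖(p : C)‖ ^ (k + 2 * (p - k - 1)) := by rw [pow_add]; ring
        _ ≤ ε * ‖(p : C)‖ ^ (p - 1) := by
            refine mul_le_mul_of_nonneg_left ?_ hε0
            exact pow_le_pow_of_le_one h0.le hp.le (by omega)
    calc ‖(p : C)‖ * ‖∑ k ∈ Finset.Ioo 0 p, z ^ k * h ^ (p - k) * ((p.choose k / p : ℕ) : C)‖
        ≤ ‖(p : C)‖ * (ε * ‖(p : C)‖ ^ (p - 1)) := mul_le_mul_of_nonneg_left h1 h0.le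
      _ = ε * (‖(p : C)‖ * ‖(p : C)‖ ^ (p - 1)) := by ring
      _ = ε * ‖(p : C)‖ ^ p := by
          rw [← pow_succ']
          congr 2
          omega

/-- For small arguments: first order estimate. -/
theorem logC_estimate (hp : ‖(p : C)‖ < 1) {n : ℕ} {v v' : ℕ → C} (hv : ∀ j, ‖v j‖ ≤ 1)
    (hv' : ∀ j, ‖v' j‖ ≤ 1) {ε : ℝ} (hε : ε ≤ ‖(p : C)‖ ^ 2) (hvv : ∀ j, ‖v' j - v j‖ ≤ ε)
    {z z' : C} (hz : ‖z‖ ≤ ‖(p : C)‖) (hzz : ‖z' - z‖ ≤ ε) :
    ‖logC p n v' z' - logC p n v z - (z' - z)‖ ≤ ‖(p : C)‖ * ε := by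
  have h0 : 0 < ‖(p : C)‖ := kl_norm_p_pos
  have hε0 : 0 ≤ ε := (norm_nonneg _).trans hzz
  have hz' : ‖z'‖ ≤ ‖(p : C)‖ := by
    have e : z' = (z' - z) + z := by ring
    rw [e]
    refine (IsUltrametricDist.norm_add_le_max _ _).trans (max_le ?_ hz)
    refine hzz.trans (hε.trans ?_)
    rw [pow_two]
    exact mul_le_of_le_one_left h0.le hp.le
  have hs := logC_summable hp (n := n) hv (hz.trans_lt hp)
  have hs' := logC_summable hp (n := n) hv' (hz'.trans_lt hp)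
  have hsum : Summable fun k : ℕ => ellOf p n v' k * z' ^ (p ^ k) - ellOf p n v k * z ^ (p ^ k) :=
    hs'.sub hs
  have e1 : logC p n v' z' - logC p n v z - (z' - z) = ∑' k : ℕ,
      (ellOf p n v' (k + 1) * z' ^ (p ^ (k + 1)) - ellOf p n v (k + 1) * z ^ (p ^ (k + 1))) := by
    unfold logC
    rw [← hs'.tsum_sub hs, hsum.tsum_eq_zero_add, ellOf_zero, ellOf_zero]
    simp only [pow_zero, pow_one, one_mul]
    ring
  rw [e1]
  have hterm : ∀ k : ℕ, ‖ellOf p n v' (k + 1) * z' ^ (p ^ (k + 1)) -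
      ellOf p n v (k + 1) * z ^ (p ^ (k + 1))‖ ≤ ‖(p : C)‖ * ε := by
    intro k
    have hk : k + 1 + 1 ≤ p ^ (k + 1) := Nat.lt_pow_self (Fact.out : p.Prime).one_lt
    have hpow : (‖(p : C)‖ ^ (k + 1))⁻¹ * ‖(p : C)‖ ^ (p ^ (k + 1)) ≤ ‖(p : C)‖ := by
      rw [inv_mul_le_iff₀ (pow_pos h0 _), ← pow_succ]
      exact pow_le_pow_of_le_one h0.le hp.le hk
    have e : ellOf p n v' (k + 1) * z' ^ (p ^ (k + 1)) - ellOf p n v (k + 1) * z ^ (p ^ (k + 1)) =
        (ellOf p n v' (k + 1) - ellOf p n v (k + 1)) * z' ^ (p ^ (k + 1)) +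
          ellOf p n v (k + 1) * (z' ^ (p ^ (k + 1)) - z ^ (p ^ (k + 1))) := by ring
    rw [e]
    refine (IsUltrametricDist.norm_add_le_max _ _).trans (max_le ?_ ?_)
    · rw [norm_mul, norm_pow]
      calc ‖ellOf p n v' (k + 1) - ellOf p n v (k + 1)‖ * ‖z'‖ ^ (p ^ (k + 1))
          ≤ (ε * (‖(p : C)‖ ^ (k + 1))⁻¹) * ‖(p : C)‖ ^ (p ^ (k + 1)) :=
            mul_le_mul (kl5_ell_diff hp hv hv' hvv _) (pow_le_pow_left₀ (norm_nonneg _) hz' _)
              (pow_nonneg (norm_nonneg _) _) (by positivity)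
        _ = ε * ((‖(p : C)‖ ^ (k + 1))⁻¹ * ‖(p : C)‖ ^ (p ^ (k + 1))) := by ring
        _ ≤ ε * ‖(p : C)‖ := mul_le_mul_of_nonneg_left hpow hε0
        _ = ‖(p : C)‖ * ε := mul_comm _ _
    · have h2 : ‖z' ^ p - z ^ p‖ ≤ ε * ‖(p : C)‖ ^ p := by
        have := kl5_pow_p hp hε hz hzz
        rwa [add_sub_cancel] at this
      have hzp : ∀ w : C, ‖w‖ ≤ ‖(p : C)‖ → ‖w ^ p‖ ≤ ‖(p : C)‖ ^ p := fun w hw => by
        rw [norm_pow]
        exact pow_le_pow_left₀ (norm_nonneg _) hw _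
      have h3 := kl5_pow_sub (hzp z' hz') (hzp z hz) h2 (m := p ^ k)
        (Nat.one_le_iff_ne_zero.2 (pow_ne_zero _ (Fact.out : p.Prime).ne_zero))
      rw [← pow_mul, ← pow_mul, ← pow_succ'] at h3
      have h4 : ε * ‖(p : C)‖ ^ p * (‖(p : C)‖ ^ p) ^ (p ^ k - 1) =
          ε * ‖(p : C)‖ ^ (p ^ (k + 1)) := by
        rw [mul_assoc, ← pow_succ', ← pow_mul]
        congr 2
        have : 1 ≤ p ^ k := Nat.one_le_iff_ne_zero.2 (pow_ne_zero _ (Fact.out : p.Prime).ne_zero)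
        rw [Nat.sub_add_cancel this, ← pow_succ']
      rw [h4] at h3
      rw [norm_mul]
      calc ‖ellOf p n v (k + 1)‖ * ‖z' ^ (p ^ (k + 1)) - z ^ (p ^ (k + 1))‖
          ≤ (‖(p : C)‖ ^ (k + 1))⁻¹ * (ε * ‖(p : C)‖ ^ (p ^ (k + 1))) :=
            mul_le_mul (norm_ellOf_le hv _) h3 (norm_nonneg _) (by positivity)
        _ = ε * ((‖(p : C)‖ ^ (k + 1))⁻¹ * ‖(p : C)‖ ^ (p ^ (k + 1))) := by ring
        _ ≤ ε * ‖(p : C)‖ := mul_le_mul_of_nonneg_left hpow hε0
        _ = ‖(p : C)‖ * ε := mul_comm _ _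
  exact IsUltrametricDist.norm_tsum_le_of_forall_le_of_nonneg (by positivity) hterm

/-- `ell_{k}(v)`-asymptotics: `p^N ell_{nN+i}(v)` converges if `v_n = 1`, `‖v_j‖ ≤ ρ < 1`, `j < n`. -/
theorem ell_limit (hp : ‖(p : C)‖ < 1) {n : ℕ} (hn : 1 ≤ n) {v : ℕ → C} {ρ : ℝ} (hρ : ρ < 1)
    (hv : ∀ j, 1 ≤ j → j < n → ‖v j‖ ≤ ρ) (h1 : v n = 1) (i : ℕ) :
    ∃ W : C, Tendsto (fun N : ℕ => (p : C) ^ N * ellOf p n v (n * N + i)) atTop (𝓝 W) := by
  have _ := hp
  have h0 : 0 < ‖(p : C)‖ := kl3_norm_p_pos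
  have h1p : ‖(p : C)‖ ≤ 1 := kl3_norm_p
  have hlim := kl3_lim (Fact.out : p.Prime).one_lt (c := (‖(p : C)‖)⁻¹) (by positivity)
    (le_max_right ρ 0) (max_lt hρ one_pos)
  set v' : ℕ → C := fun j => if 1 ≤ j ∧ j ≤ n then v j else 0 with hv'
  have hv'1 : ∀ j, ‖v' j‖ ≤ 1 := by
    intro j
    rw [hv']
    simp only
    split_ifs with h
    · rcases Nat.lt_or_ge j n with h2 | h2
      · exact (hv j h.1 h2).trans hρ.le
      · have : j = n := le_antisymm h.2 h2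
        rw [this, h1, norm_one]
    · rw [norm_zero]
      exact zero_le_one
  have hell : ∀ k, ellOf p n v k = ellOf p n v' k := by
    intro k
    induction k using Nat.strong_induction_on with
    | _ k ih =>
      cases k with
      | zero => rw [ellOf_zero, ellOf_zero]
      | succ k =>
        have hpne : (p : C) ≠ 0 := norm_pos_iff.1 h0
        apply mul_left_cancel₀ hpne
        rw [ellOf_succ, ellOf_succ]
        refine Finset.sum_congr rfl fun j hj => ?_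
        rw [Finset.mem_range] at hj
        split_ifs with h2
        · rw [ih j hj]
          congr 2
          rw [hv']
          simp only
          rw [if_pos ⟨by omega, h2⟩]
        · rfl
  have hcauchy : CauchySeq fun N : ℕ => (p : C) ^ N * ellOf p n v (n * N + i) := by
    apply NonarchimedeanAddGroup.cauchySeq_of_tendsto_sub_nhds_zero
    rw [NormedAddCommGroup.tendsto_nhds_zero]
    intro ε hε
    have hev := (Metric.tendsto_atTop.1 hlim) ε hε
    obtain ⟨M0, hM0⟩ := hev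
    rw [eventually_atTop]
    refine ⟨M0, fun N hN => ?_⟩
    obtain ⟨k, hk⟩ : ∃ k, n * (N + 1) + i = k + 1 := ⟨n * (N + 1) + i - 1, by
      have : 1 ≤ n * (N + 1) := Nat.one_le_iff_ne_zero.2 (by positivity)
      omega⟩
    have hkN : n * N + i = k + 1 - n := by
      rw [← hk, Nat.mul_succ]
      omega
    have hnk : n ≤ k + 1 := by
      rw [← hk, Nat.mul_succ]
      omega
    have hNk : N ≤ k + 1 - n := by
      rw [← hkN]
      calc N ≤ n * N := Nat.le_mul_of_pos_left N hn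
        _ ≤ _ := Nat.le_add_right _ _
    have e1 : (p : C) ^ (N + 1) * ellOf p n v (n * (N + 1) + i) -
        (p : C) ^ N * ellOf p n v (n * N + i) =
        (p : C) ^ N * ((p : C) * ellOf p n v (k + 1) - ellOf p n v (k + 1 - n)) := by
      rw [hk, hkN]
      ring
    rw [e1, ellOf_succ]
    have hmem : k + 1 - n ∈ Finset.range (k + 1) := by
      rw [Finset.mem_range]
      omega
    rw [← Finset.add_sum_erase _ _ hmem]
    have e2 : k + 1 - (k + 1 - n) = n := by omega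
    rw [if_pos (by omega), e2, h1, one_pow, mul_one, add_sub_cancel_left, norm_mul, norm_pow]
    have hS : ‖∑ j ∈ (Finset.range (k + 1)).erase (k + 1 - n), (if k + 1 - j ≤ n then
        ellOf p n v j * v (k + 1 - j) ^ (p ^ j) else 0)‖ < ε := by
      obtain ⟨j0, hj0⟩ : ∃ j, j ∈ Finset.range (k + 1) := ⟨0, Finset.mem_range.2 (by omega)⟩
      rcases ((Finset.range (k + 1)).erase (k + 1 - n)).eq_empty_or_nonempty with he | hne
      · rw [he, Finset.sum_empty, norm_zero]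
        exact hε
      · obtain ⟨j, hj, hle⟩ := IsUltrametricDist.exists_norm_finset_sum_le_of_nonempty hne
          (fun j => if k + 1 - j ≤ n then ellOf p n v j * v (k + 1 - j) ^ (p ^ j) else 0)
        refine lt_of_le_of_lt hle ?_
        rw [Finset.mem_erase, Finset.mem_range] at hj
        split_ifs with h2
        · have h3 : M0 ≤ j := by omega
          have h4 := hM0 j h3
          rw [Real.dist_eq, sub_zero, abs_of_nonneg (by positivity)] at h4
          refine lt_of_le_of_lt ?_ h4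
          rw [norm_mul, norm_pow, hell, inv_pow]
          exact mul_le_mul (norm_ellOf_le hv'1 j)
            (pow_le_pow_left₀ (norm_nonneg _)
              ((hv _ (by omega) (by omega)).trans (le_max_left _ _)) _) (by positivity)
            (by positivity)
        · rw [norm_zero]
          exact hε
    calc ‖(p : C)‖ ^ N * ‖∑ j ∈ (Finset.range (k + 1)).erase (k + 1 - n),
          (if k + 1 - j ≤ n then ellOf p n v j * v (k + 1 - j) ^ (p ^ j) else 0)‖ ≤
          1 * ‖∑ j ∈ (Finset.range (k + 1)).erase (k + 1 - n),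
          (if k + 1 - j ≤ n then ellOf p n v j * v (k + 1 - j) ^ (p ^ j) else 0)‖ :=
          mul_le_mul_of_nonneg_right (pow_le_one₀ (norm_nonneg _) h1p) (norm_nonneg _)
      _ < ε := by rw [one_mul]; exact hS
  exact cauchySeq_tendsto_of_complete hcauchy

end Vale.Agent.P217
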