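import Vale.Agent.P217.USeries

/-!
# P217, module CPD: first order change of `[p]` (helper28)
-/

namespace Vale.Agent.P217

open MvPowerSeries

theorem cpd_spec_sub_mem {R : Type*} [CommRing R] (I : Ideal R) (w v : ℕ → R)
    (h : ∀ j, w j - v j ∈ I) (c : MvPolynomial ℕ ℤ) : spec w c - spec v c ∈ I := by
  rw [← Ideal.Quotient.eq_zero_iff_mem, map_sub, sub_eq_zero]
  have h1 : ∀ u : ℕ → R, Ideal.Quotient.mk I (spec u c) =
      spec (fun j => Ideal.Quotient.mk I (u j)) c := by
    intro u
    have : (Ideal.Quotient.mk I).comp (spec u) = spec (fun j => Ideal.Quotient.mk I (u j)) := by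
      apply MvPolynomial.ringHom_ext
      · intro r
        simp [spec]
      · intro i
        simp [spec]
    rw [← this]
    rfl
  rw [h1, h1]
  congr 2
  funext j
  rw [← sub_eq_zero, ← map_sub]
  exact Ideal.Quotient.eq_zero_iff_mem.mpr (h j)

/-- Exact first order Taylor expansion if the increments multiply to zero. -/
theorem cpd_taylor {R : Type*} [CommRing R] (I : Ideal R) (hI : ∀ x ∈ I, ∀ y ∈ I, x * y = 0)
    (n : ℕ) (w v : ℕ → R) (h : ∀ j, w j - v j ∈ I) (h0 : ∀ j, n ≤ j → w j = v j)
    (c : MvPolynomial ℕ ℤ) :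
    spec w c - spec v c =
      ∑ j ∈ Finset.range n, (w j - v j) * spec v (MvPolynomial.pderiv j c) := by
  induction c using MvPolynomial.induction_on with
  | C a => simp [spec]
  | add f g hf hg =>
    simp only [map_add, mul_add, Finset.sum_add_distrib, ← hf, ← hg]
    ring
  | mul_X f k hf =>
    have h1 : (spec w f - spec v f) * (w k - v k) = 0 :=
      hI _ (cpd_spec_sub_mem I w v h f) _ (h k)
    have hX : ∀ u : ℕ → R, spec u (MvPolynomial.X k) = u k := fun u => by simp [spec]
    have hs : ∑ j ∈ Finset.range n, (w j - v j) *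
        spec v (MvPolynomial.pderiv j (f * MvPolynomial.X k)) =
        (∑ j ∈ Finset.range n, (w j - v j) * spec v (MvPolynomial.pderiv j f)) * v k +
          (w k - v k) * spec v f := by
      have hs2 : (w k - v k) * spec v f = ∑ j ∈ Finset.range n,
          (if j = k then (w k - v k) * spec v f else 0) := by
        by_cases hkn : k < n
        · rw [Finset.sum_ite_eq' (Finset.range n) k]
          simp [hkn]
        · rw [h0 k (by omega)]
          simp
      rw [hs2, Finset.sum_mul, ← Finset.sum_add_distrib]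
      refine Finset.sum_congr rfl fun j _ => ?_
      rw [Derivation.leibniz, MvPolynomial.pderiv_X, map_add, smul_eq_mul, smul_eq_mul, map_mul,
        map_mul, hX]
      by_cases hjk : j = k
      · subst hjk
        simp
        ring
      · have : (Pi.single j (1 : MvPolynomial ℕ ℤ) : ℕ → MvPolynomial ℕ ℤ) k = 0 := by
          rw [Pi.single_apply, if_neg (fun h => hjk h.symm)]
        rw [this, if_neg hjk, map_zero]
        ring
    rw [hs, ← hf, map_mul, map_mul, hX, hX]
    linear_combination h1

/-- The derivatives of the universal coefficient of `[p]` at `(0, …, 0, 1)` modulo `p`. -/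
theorem cpd_der {p n : ℕ} [Fact p.Prime] (hn : 1 ≤ n) {i : ℕ} (hi : i < p ^ n) {j : ℕ}
    (hj1 : 1 ≤ j) (hj2 : j < n) : (p : ℤ) ∣
      MvPolynomial.eval (Gam n : ℕ → ℤ) (MvPolynomial.pderiv j (uc p n i)) -
        (if i = p ^ j then 1 else 0) := by
  have H := dualForm (p := p) hn
  set z : ℕ → DualNumber (ZMod p) := fun k =>
    if k = n then 1 else if k = j then DualNumber.eps else 0 with hz
  have hzI : ∀ k, z k - ((Gam n k : ℤ) : DualNumber (ZMod p)) ∈
      Ideal.span {(DualNumber.eps : DualNumber (ZMod p))} := by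
    intro k
    by_cases hk : k = n
    · simp [hz, hk, Gam]
    · by_cases hk2 : k = j
      · subst hk2
        simp only [hz, Gam, hk, if_true, if_false, Int.cast_zero, sub_zero]
        exact Ideal.subset_span rfl
      · simp [hz, hk, hk2, Gam]
  have hz0 : ∀ k, n ≤ k → z k = ((Gam n k : ℤ) : DualNumber (ZMod p)) := by
    intro k hk
    by_cases hk1 : k = n
    · simp [hz, Gam, hk1]
    · have : k ≠ j := by omega
      simp [hz, Gam, hk1, this]
  have hT2 := taylor _ n (Gam n : ℕ → ℤ) z hzI hz0 (uc p n i)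
  rw [eps_ideal_sq, Ideal.mem_bot] at hT2
  have hc := H z (by
    intro k hk1 hk2
    have := hzI k
    have hk3 : (Gam n k : ℤ) = 0 := by simp [Gam]; omega
    rw [hk3] at this
    simpa using this) (by simp [hz]) i hi
  rw [coeff_mulS] at hc
  rw [hc] at hT2
  have hsum : ∑ k ∈ Finset.range n, (z k - ((Gam n k : ℤ) : DualNumber (ZMod p))) *
      ((MvPolynomial.eval (Gam n : ℕ → ℤ) (MvPolynomial.pderiv k (uc p n i)) : ℤ) :
        DualNumber (ZMod p)) = DualNumber.eps *
      ((MvPolynomial.eval (Gam n : ℕ → ℤ) (MvPolynomial.pderiv j (uc p n i)) : ℤ) :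
        DualNumber (ZMod p)) := by
    rw [Finset.sum_eq_single j]
    · have : j ≠ n := by omega
      simp [hz, this, Gam]
    · intro k hk1 hk2
      rw [Finset.mem_range] at hk1
      have : k ≠ n := by omega
      simp [hz, this, hk2, Gam]
    · intro h
      rw [Finset.mem_range] at h
      exact absurd hj2 h
  rw [hsum] at hT2
  have h6 := congrArg TrivSqZeroExt.snd hT2
  simp only [TrivSqZeroExt.snd_sub, TrivSqZeroExt.snd_intCast, TrivSqZeroExt.snd_zero,
    sub_zero, TrivSqZeroExt.snd_mul, DualNumber.fst_eps, DualNumber.snd_eps,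
    TrivSqZeroExt.fst_intCast] at h6
  have h7 : (TrivSqZeroExt.snd (if i = p ^ (Nat.log p i) ∧ i ≠ 1 then z (Nat.log p i) else 0) :
      ZMod p) = if i = p ^ j then 1 else 0 := by
    by_cases hij : i = p ^ j
    · have hlog : Nat.log p i = j := by
        rw [hij, Nat.log_pow (Fact.out : p.Prime).one_lt]
      have hi1 : i ≠ 1 := by
        rw [hij]
        have := Nat.one_lt_pow (show j ≠ 0 by omega) (Fact.out : p.Prime).one_lt
        omega
      have hjn : j ≠ n := by omega
      rw [hlog, if_pos ⟨hij, hi1⟩, if_pos hij]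
      simp [hz, hjn]
    · rw [if_neg hij]
      split_ifs with hc2
      · have hne : Nat.log p i ≠ j := by
          intro h
          rw [h] at hc2
          exact hij hc2.1
        have hlr := log_range (Fact.out : p.Prime).one_lt hi hc2
        have hne2 : Nat.log p i ≠ n := by omega
        simp [hz, hne, hne2]
      · simp
  rw [h7] at h6
  rw [← ZMod.intCast_zmod_eq_zero_iff_dvd]
  push_cast
  simp at h6
  rw [sub_eq_zero] at h6 ⊢
  exact h6.symm

variable {R : Type*} [CommRing R] {p n : ℕ} [Fact p.Prime] {v w : ℕ → R}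

theorem mulS_diff_cpd (hn : 1 ≤ n) (I N : Ideal R) (hp : (p : R) ∈ N)
    (hIN : ∀ x ∈ I, ∀ y ∈ N, x * y = 0) (hle : I ≤ N)
    (hv : ∀ j, 1 ≤ j → j < n → v j ∈ N) (hvn : v n = 1) (hwn : w n = 1)
    (hvw : ∀ j, 1 ≤ j → j < n → w j - v j ∈ I) (i : ℕ) (hi : i < p ^ n) :
    PowerSeries.coeff i (mulS p n w p) - PowerSeries.coeff i (mulS p n v p) =
      if i = p ^ (Nat.log p i) ∧ i ≠ 1 then w (Nat.log p i) - v (Nat.log p i) else 0 := by
  classical
  have hp1 := (Fact.out : p.Prime).one_lt
  have hII : ∀ x ∈ I, ∀ y ∈ I, x * y = 0 := fun x hx y hy => hIN x hx y (hle hy)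
  set nv : ℕ → R := fun j => if 1 ≤ j ∧ j ≤ n then v j else 0 with hnv
  set nw : ℕ → R := fun j => if 1 ≤ j ∧ j ≤ n then w j else 0 with hnw
  have e1 : mulS p n v p = mulS p n nv p := by
    apply mulS_congr p n
    intro j h2 h3
    simp [hnv, h2, h3]
  have e2 : mulS p n w p = mulS p n nw p := by
    apply mulS_congr p n
    intro j h2 h3
    simp [hnw, h2, h3]
  have hI : ∀ j, nw j - nv j ∈ I := by
    intro j
    by_cases hj : j = n
    · subst hj
      simp [hnw, hnv, hvn, hwn]
    · by_cases hj2 : 1 ≤ j ∧ j ≤ n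
      · simp only [hnv, hnw, hj2, if_true, and_self]
        exact hvw j hj2.1 (by omega)
      · simp [hnv, hnw, hj2]
  have h0 : ∀ j, n ≤ j → nw j = nv j := by
    intro j hj
    by_cases hj2 : j = n
    · subst hj2; simp [hnv, hnw, hvn, hwn]
    · have : ¬ (1 ≤ j ∧ j ≤ n) := by omega
      simp [hnv, hnw, this]
  have hvN : ∀ j, nv j - ((Gam n j : ℤ) : R) ∈ N := by
    intro j
    by_cases hj : j = n
    · subst hj
      simp [hnv, Gam, hvn, hn]
    · by_cases hj2 : 1 ≤ j ∧ j ≤ n
      · simp only [hnv, hj2, Gam, hj, if_true, if_false, and_self]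
        simpa using hv j hj2.1 (by omega)
      · simp [hnv, hj2, Gam, hj]
  have hT := cpd_taylor I hII n nw nv hI h0 (uc p n i)
  rw [e1, e2, coeff_mulS, coeff_mulS, hT]
  -- each term
  have hterm : ∀ j ∈ Finset.range n, (nw j - nv j) * spec nv (MvPolynomial.pderiv j (uc p n i)) =
      (nw j - nv j) * (if i = p ^ j then 1 else 0) := by
    intro j hj
    rw [Finset.mem_range] at hj
    by_cases hj1 : 1 ≤ j
    · have h1 : spec nv (MvPolynomial.pderiv j (uc p n i)) -
          ((MvPolynomial.eval (Gam n : ℕ → ℤ) (MvPolynomial.pderiv j (uc p n i)) : ℤ) : R) ∈ N := by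
        have h2 := cpd_spec_sub_mem N nv (fun j => ((Gam n j : ℤ) : R)) hvN
          (MvPolynomial.pderiv j (uc p n i))
        have h3 : spec (fun j => ((Gam n j : ℤ) : R)) (MvPolynomial.pderiv j (uc p n i)) =
            ((MvPolynomial.eval (Gam n : ℕ → ℤ) (MvPolynomial.pderiv j (uc p n i)) : ℤ) : R) := by
          have h4 := MvPolynomial.eval₂_comp_left (Int.castRingHom R) (RingHom.id ℤ)
            (Gam n : ℕ → ℤ) (MvPolynomial.pderiv j (uc p n i))
          simp only [RingHom.comp_id] at h4
          exact h4.symm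
        rwa [h3] at h2
      obtain ⟨m, hm⟩ := cpd_der (p := p) hn hi hj1 hj
      have h5 : ((MvPolynomial.eval (Gam n : ℕ → ℤ) (MvPolynomial.pderiv j (uc p n i)) : ℤ) : R) -
          (if i = p ^ j then 1 else 0) ∈ N := by
        have h6 : ((MvPolynomial.eval (Gam n : ℕ → ℤ) (MvPolynomial.pderiv j (uc p n i)) : ℤ) : R) -
          (if i = p ^ j then 1 else 0) = (p : R) * (m : R) := by
          have := congrArg (Int.cast : ℤ → R) hm
          push_cast at this
          exact this
        rw [h6]
        exact N.mul_mem_right _ hp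
      have h7 := N.add_mem h1 h5
      have h8 := hIN _ (hI j) _ h7
      linear_combination h8
    · have : j = 0 := by omega
      subst this
      simp [hnv, hnw]
  rw [Finset.sum_congr rfl hterm]
  split_ifs with hc
  · have hlr := log_range hp1 hi hc
    rw [Finset.sum_eq_single (Nat.log p i)]
    · rw [if_pos hc.1, mul_one]
      have : 1 ≤ Nat.log p i ∧ Nat.log p i ≤ n := by omega
      simp [hnv, hnw, this]
    · intro j _ hj
      rw [if_neg, mul_zero]
      intro h
      apply hj
      rw [h, Nat.log_pow hp1]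
    · intro h
      rw [Finset.mem_range] at h
      omega
  · apply Finset.sum_eq_zero
    intro j hj
    rw [Finset.mem_range] at hj
    by_cases hij : i = p ^ j
    · have hlog : Nat.log p i = j := by rw [hij, Nat.log_pow hp1]
      have hi1 : i = 1 := by
        by_contra h
        exact hc ⟨by rw [hlog]; exact hij, h⟩
      have hj0 : j = 0 := by
        by_contra h
        have := Nat.one_lt_pow h hp1
        omega
      subst hj0
      simp [hnv, hnw]
    · rw [if_neg hij, mul_zero]

end Vale.Agent.P217
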