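import Vale.Agent.P217.LTIdeal
import Vale.Agent.P217.PCPD

/-!
# P217, module CPD: first order change of `[p]` (helper95)
-/

namespace Vale.Agent.P217

open MvPowerSeries

variable {R : Type*} [CommRing R] {p n : ℕ} [Fact p.Prime] {v w : ℕ → R}

/-- CPD (from `mulS_CP` in the universal ring): changing the parameters by elements of `I`,
`I N = 0`, changes `[p]` by `∑ ε_j X^(p^j)` in degrees `< p^n`. -/
theorem mulS_diff (hn : 1 ≤ n) (I N : Ideal R) (hp : (p : R) ∈ N)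
    (hIN : ∀ x ∈ I, ∀ y ∈ N, x * y = 0) (hle : I ≤ N)
    (hv : ∀ j, 1 ≤ j → j < n → v j ∈ N) (hvn : v n = 1) (hwn : w n = 1)
    (hvw : ∀ j, 1 ≤ j → j < n → w j - v j ∈ I) (i : ℕ) (hi : i < p ^ n) :
    PowerSeries.coeff i (mulS p n w p) - PowerSeries.coeff i (mulS p n v p) =
      if i = p ^ (Nat.log p i) ∧ i ≠ 1 then w (Nat.log p i) - v (Nat.log p i) else 0 :=
  mulS_diff_cpd hn I N hp hIN hle hv hvn hwn hvw i hi

end Vale.Agent.P217
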