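import Vale.Agent.P217.LTIdeal
import Vale.Agent.P217.ClosureD

/-!
# P217, module LTD: the descent lemma (helper95)

`G = F_{Γ_n}` over `R`, `I ≤ N` ideals, `p ∈ N`, `I N = 0`. If `D ∈ I[[X]]` satisfies
`D(G(X,Y)) - D(X) - D(Y) = Δ(X^{p^r}, Y^{p^r})`, `Δ ∈ I[[X,Y]]`, and `D` has no terms
`X^{p^j}`, `j < r`, then `D = H(X^{p^r})` and `H(G) - H(X) - H(Y) = Δ`.
Proof: (r ≥ 1) the coefficient of `Y^1` gives `D'(X) * P(X) = D'(0)`, `P = ∂_Y G(X,0)` a unit,
so `i * d_i = 0` for all `i`, and `p d_i = 0`; hence `D = D_1(X^p)`. Modulo `N` one has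
`G(X,Y)^p = G(X^p,Y^p)` (coefficients in `ℤ`), so
`D_1(G(X^p,Y^p)) - D_1(X^p) - D_1(Y^p) = Δ(X^{p^r},Y^{p^r})`; substitute back, induct on `r`.
-/

namespace Vale.Agent.P217

open MvPowerSeries

variable {R : Type*} [CommRing R] {p n : ℕ} [Fact p.Prime]

theorem ltd_p_ne : p ≠ 0 := (Fact.out : p.Prime).ne_zero

theorem ltd_map_int : (Fv p n (Gam n : ℕ → ℤ)).map (Int.castRingHom R)
    = Fv p n (Gam n : ℕ → R) := by
  rw [Fv_map]
  congr 1
  funext j
  unfold Gam
  split_ifs <;> simp

theorem ltd_pair (q : ℕ) : (![(X 0 : MvPowerSeries (Fin 2) R) ^ q,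
    (X 1 : MvPowerSeries (Fin 2) R) ^ q]) = fun i => (X i : MvPowerSeries (Fin 2) R) ^ q := by
  funext i
  fin_cases i <;> rfl

theorem ltd_expand_eq (q : ℕ) (hq : q ≠ 0) (F : MvPowerSeries (Fin 2) R) :
    F.subst ![(X 0 : MvPowerSeries (Fin 2) R) ^ q, (X 1 : MvPowerSeries (Fin 2) R) ^ q]
      = expand q hq F := by
  rw [ltd_pair, expand, substAlgHom_apply]

/-- Frobenius for integral coefficients -/
theorem ltd_dvd (F : MvPowerSeries (Fin 2) ℤ) (d : Fin 2 →₀ ℕ) :
    (p : ℤ) ∣ coeff d (F ^ p - expand p ltd_p_ne F) := by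
  have h1 : (F ^ p - expand p ltd_p_ne F).map (Int.castRingHom (ZMod p)) = 0 := by
    rw [map_sub, map_pow, map_expand, ← map_frobenius_expand p ltd_p_ne, ZMod.frobenius_zmod,
      map_id]
    simp
  have h2 := congrArg (coeff d) h1
  rw [coeff_map, map_zero] at h2
  exact (ZMod.intCast_zmod_eq_zero_iff_dvd _ p).1 h2

/-- `G(X,Y)^p ≡ G(X^p,Y^p)` modulo `p` for series with integral (constant) coefficients. -/
theorem Gam_pow_p (N : Ideal R) (hp : (p : R) ∈ N) :
    CI N ((Fv p n (Gam n : ℕ → R)) ^ p - (Fv p n (Gam n : ℕ → R)).subst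
      ![(X 0 : MvPowerSeries (Fin 2) R) ^ p, (X 1 : MvPowerSeries (Fin 2) R) ^ p]) := by
  rw [ltd_expand_eq p ltd_p_ne]
  intro d
  have h1 : (Fv p n (Gam n : ℕ → R)) ^ p - expand p ltd_p_ne (Fv p n (Gam n : ℕ → R))
      = ((Fv p n (Gam n : ℕ → ℤ)) ^ p
        - expand p ltd_p_ne (Fv p n (Gam n : ℕ → ℤ))).map (Int.castRingHom R) := by
    rw [map_sub, map_pow, map_expand, ltd_map_int]
  rw [h1, coeff_map]
  obtain ⟨c, hc⟩ := ltd_dvd (p := p) (Fv p n (Gam n : ℕ → ℤ)) d
  rw [hc, map_mul]
  have h2 : (Int.castRingHom R) (p : ℤ) = (p : R) := by simp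
  rw [h2]
  exact N.mul_mem_right _ hp

/-- substitution of series without constant term keeps the constant term -/
theorem ltd_cc_subst {σ τ : Type*} [Finite σ] (a : σ → MvPowerSeries τ R)
    (ha : ∀ i, constantCoeff (a i) = 0) (f : MvPowerSeries σ R) :
    constantCoeff (subst a f) = constantCoeff f := by
  have hs : HasSubst a := hasSubst_of_constantCoeff_zero ha
  have h1 : f = C (constantCoeff f) + (f - C (constantCoeff f)) := by ring
  have h2 : constantCoeff (subst a (f - C (constantCoeff f))) = 0 :=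
    constantCoeff_subst_eq_zero hs ha (by rw [map_sub, constantCoeff_C, sub_self])
  conv_lhs => rw [h1]
  rw [subst_add hs, map_add, h2, add_zero, subst_C, constantCoeff_C]

/-- the constant term of `∂_Y F_v` is `1` -/
theorem ltd_cc_pderiv (v : ℕ → R) : constantCoeff (pderiv R (1 : Fin 2) (Fv p n v)) = 1 := by
  rw [Fv_eq_form p n v, map_add, map_add, map_add, pderiv_X_of_ne (by decide), pderiv_X_self,
    Derivation.leibniz, Derivation.leibniz, smul_eq_mul, smul_eq_mul, smul_eq_mul, smul_eq_mul,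
    pderiv_X_self, pderiv_X_of_ne (i := (1 : Fin 2)) (j := 0) (by decide)]
  simp

/-- derivative of a composite with a one variable series -/
theorem ltd_chain_one {τ : Type*} [Finite τ] (D : PowerSeries R) (a : MvPowerSeries τ R)
    (ha : constantCoeff a = 0) (j : τ) :
    pderiv R j (D.subst a) = PowerSeries.subst a (pderiv R () D) * pderiv R j a := by
  have h := cls_chain (σ := Unit) (fun _ : Unit => a) (fun _ => ha) D j
  rw [Fintype.sum_unique] at h
  exact h

theorem ltd_subst_zero {τ : Type*} (f : PowerSeries R) :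
    f.subst (0 : MvPowerSeries τ R) = C (PowerSeries.constantCoeff f) := by
  have h1 : f = PowerSeries.C (PowerSeries.constantCoeff f)
      + (f - PowerSeries.C (PowerSeries.constantCoeff f)) := by ring
  have hs : PowerSeries.HasSubst (0 : MvPowerSeries τ R) :=
    PowerSeries.HasSubst.of_constantCoeff_zero (map_zero _)
  have h2 : (f - PowerSeries.C (PowerSeries.constantCoeff f)).subst (0 : MvPowerSeries τ R) = 0 :=
    PowerSeries.subst_zero_of_constantCoeff_zero (by
      rw [map_sub, PowerSeries.constantCoeff_C, sub_self])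
  conv_lhs => rw [h1]
  rw [PowerSeries.subst_add hs, h2, add_zero]
  exact subst_C (σ := Unit) (a := fun _ : Unit => (0 : MvPowerSeries τ R)) (r := _)

/-- First step: the derivative vanishes. -/
theorem ltd_deriv_zero (v : ℕ → R) (D : PowerSeries R) (hD1 : PowerSeries.coeff 1 D = 0)
    (Δ : MvPowerSeries (Fin 2) R) (q : ℕ) (hq : 2 ≤ q)
    (h : D.subst (Fv p n v) - D.subst (X 0 : MvPowerSeries (Fin 2) R)
        - D.subst (X 1 : MvPowerSeries (Fin 2) R)
      = Δ.subst ![(X 0 : MvPowerSeries (Fin 2) R) ^ q, (X 1 : MvPowerSeries (Fin 2) R) ^ q]) :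
    pderiv R () D = 0 := by
  have hF0 : constantCoeff (Fv p n v) = 0 := Fv_constantCoeff p n v
  have h0 := congrArg (pderiv R (1 : Fin 2)) h
  rw [map_sub, map_sub, ltd_chain_one D _ hF0, ltd_chain_one D _ (constantCoeff_X _),
    ltd_chain_one D _ (constantCoeff_X _), pderiv_X_of_ne (by decide), pderiv_X_self, mul_zero,
    mul_one, sub_zero, cls_chain _ (by
      intro s
      fin_cases s
      · show constantCoeff ((X 0 : MvPowerSeries (Fin 2) R) ^ q) = 0
        rw [map_pow, constantCoeff_X, zero_pow (by omega)]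
      · show constantCoeff ((X 1 : MvPowerSeries (Fin 2) R) ^ q) = 0
        rw [map_pow, constantCoeff_X, zero_pow (by omega)]) Δ 1, Fin.sum_univ_two] at h0
  have e0 : (![(X 0 : MvPowerSeries (Fin 2) R) ^ q, (X 1 : MvPowerSeries (Fin 2) R) ^ q]) 0
      = X 0 ^ q := rfl
  have e1 : (![(X 0 : MvPowerSeries (Fin 2) R) ^ q, (X 1 : MvPowerSeries (Fin 2) R) ^ q]) 1
      = X 1 ^ q := rfl
  rw [e0, e1, pderiv_pow, pderiv_pow, pderiv_X_of_ne (by decide), pderiv_X_self, mul_zero,
    mul_zero, zero_add, mul_one] at h0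
  -- set `Y = 0`
  have hs : HasSubst ![(PowerSeries.X : PowerSeries R), (0 : PowerSeries R)] :=
    hasSubst_pair (constantCoeff_X _) (map_zero _)
  have h1 := congrArg (subst ![(PowerSeries.X : PowerSeries R), (0 : PowerSeries R)]) h0
  have e2 : (![(PowerSeries.X : PowerSeries R), (0 : PowerSeries R)]) 1 = 0 := rfl
  rw [subst_mul hs, subst_mul hs, subst_pow hs, subst_X hs, e2, zero_pow (by omega), mul_zero,
    mul_zero] at h1
  rw [← substAlgHom_apply hs, map_sub, map_mul, substAlgHom_apply hs,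
    substAlgHom_apply hs, substAlgHom_apply hs] at h1
  have e3 : subst ![(PowerSeries.X : PowerSeries R), (0 : PowerSeries R)]
      (PowerSeries.subst (Fv p n v) (pderiv R () D)) = pderiv R () D := by
    have g1 : subst ![(PowerSeries.X : PowerSeries R), (0 : PowerSeries R)]
      (PowerSeries.subst (Fv p n v) (pderiv R () D : PowerSeries R))
      = PowerSeries.subst (subst ![(PowerSeries.X : PowerSeries R), (0 : PowerSeries R)] (Fv p n v))
        (pderiv R () D : PowerSeries R) :=
      subst_comp_subst_apply (PowerSeries.HasSubst.of_constantCoeff_zero hF0).const hs _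
    rw [g1, Fv_X_zero]
    have g2 : PowerSeries.subst (PowerSeries.X : PowerSeries R) (pderiv R () D : PowerSeries R)
        = subst (X : Unit → MvPowerSeries Unit R) (pderiv R () D) := rfl
    rw [g2, subst_self]
    rfl
  have e4 : subst ![(PowerSeries.X : PowerSeries R), (0 : PowerSeries R)]
      (PowerSeries.subst (X 1 : MvPowerSeries (Fin 2) R) (pderiv R () D)) = 0 := by
    have g1 : subst ![(PowerSeries.X : PowerSeries R), (0 : PowerSeries R)]
      (PowerSeries.subst (X 1 : MvPowerSeries (Fin 2) R) (pderiv R () D : PowerSeries R))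
      = PowerSeries.subst (subst ![(PowerSeries.X : PowerSeries R), (0 : PowerSeries R)]
        (X 1 : MvPowerSeries (Fin 2) R)) (pderiv R () D : PowerSeries R) :=
      subst_comp_subst_apply (PowerSeries.HasSubst.of_constantCoeff_zero (constantCoeff_X _)).const
        hs _
    rw [g1, subst_X hs, e2, ltd_subst_zero]
    have g2 : PowerSeries.constantCoeff (pderiv R () D : PowerSeries R) = 0 := by
      have g3 : PowerSeries.constantCoeff (pderiv R () D : PowerSeries R)
          = coeff (0 : Unit →₀ ℕ) (pderiv R () D) := rfl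
      rw [g3, coeff_pderiv, zero_add]
      have g4 : coeff (Finsupp.single () 1) D = PowerSeries.coeff 1 D := rfl
      rw [g4, hD1, zero_mul]
    rw [g2, map_zero]
  rw [e3, e4, sub_zero] at h1
  have hu : IsUnit (subst ![(PowerSeries.X : PowerSeries R), (0 : PowerSeries R)]
      (pderiv R (1 : Fin 2) (Fv p n v)) : PowerSeries R) := by
    rw [PowerSeries.isUnit_iff_constantCoeff]
    have g1 : PowerSeries.constantCoeff (subst ![(PowerSeries.X : PowerSeries R),
        (0 : PowerSeries R)] (pderiv R (1 : Fin 2) (Fv p n v)) : PowerSeries R) = 1 := by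
      have g2 := ltd_cc_subst ![(PowerSeries.X : PowerSeries R), (0 : PowerSeries R)]
        (by intro i; fin_cases i; exacts [constantCoeff_X _, map_zero _])
        (pderiv R (1 : Fin 2) (Fv p n v))
      rw [ltd_cc_pderiv] at g2
      exact g2
    rw [g1]
    exact isUnit_one
  exact (hu.mul_left_eq_zero).1 h1

/-- First step: no exponents prime to `p`. -/
theorem lt_desc_one (I N : Ideal R) (hp : (p : R) ∈ N) (hIN : ∀ x ∈ I, ∀ y ∈ N, x * y = 0)
    (hle : I ≤ N) (D : PowerSeries R) (hD : CI I D) (hD1 : PowerSeries.coeff 1 D = 0)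
    (Δ : MvPowerSeries (Fin 2) R) (hΔ : CI I Δ) (r : ℕ) (hr : 1 ≤ r)
    (h : D.subst (Fv p n (Gam n : ℕ → R)) - D.subst (X 0 : MvPowerSeries (Fin 2) R)
        - D.subst (X 1 : MvPowerSeries (Fin 2) R)
      = Δ.subst ![(X 0 : MvPowerSeries (Fin 2) R) ^ (p ^ r),
          (X 1 : MvPowerSeries (Fin 2) R) ^ (p ^ r)]) :
    ∀ i, ¬ p ∣ i → PowerSeries.coeff i D = 0 := by
  have _ := hle
  have _ := hΔ
  have hpp : p.Prime := Fact.out
  have h2 : 2 ≤ p ^ r := hpp.two_le.trans (Nat.le_self_pow (by omega) p)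
  have h3 := ltd_deriv_zero (Gam n) D hD1 Δ (p ^ r) h2 h
  intro i hi
  obtain ⟨j, rfl⟩ : ∃ j, i = j + 1 := by
    cases i with
    | zero => exact absurd (dvd_zero p) hi
    | succ j => exact ⟨j, rfl⟩
  have h4 := congrArg (coeff (Finsupp.single () j)) h3
  rw [coeff_pderiv, ← Finsupp.single_add, Finsupp.single_eq_same] at h4
  have h40 : coeff (Finsupp.single () j) (0 : MvPowerSeries Unit R) = 0 := map_zero _
  rw [h40] at h4
  have h5 : coeff (Finsupp.single () (j + 1)) D = PowerSeries.coeff (j + 1) D := rfl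
  rw [h5] at h4
  have h6 : PowerSeries.coeff (j + 1) D * (p : R) = 0 := hIN _ (hD _) _ hp
  have hco : IsCoprime ((p : ℤ)) ((j + 1 : ℕ) : ℤ) :=
    Nat.isCoprime_iff_coprime.2 ((Nat.Prime.coprime_iff_not_dvd hpp).2 hi)
  obtain ⟨a, b, hab⟩ := hco
  have hab' : (a : R) * (p : R) + (b : R) * ((j : R) + 1) = 1 := by
    have := congrArg (Int.cast : ℤ → R) hab
    push_cast at this
    exact this
  calc PowerSeries.coeff (j + 1) D = PowerSeries.coeff (j + 1) D
        * ((a : R) * (p : R) + (b : R) * ((j : R) + 1)) := by rw [hab', mul_one]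
    _ = a * (PowerSeries.coeff (j + 1) D * (p : R))
        + b * (PowerSeries.coeff (j + 1) D * ((j : R) + 1)) := by ring
    _ = 0 := by rw [h6, h4]; ring

theorem ltd_expand_inj {σ : Type*} (q : ℕ) (hq : q ≠ 0) {f g : MvPowerSeries σ R}
    (h : expand q hq f = expand q hq g) : f = g := by
  ext d
  rw [← coeff_expand_smul q hq f d, h, coeff_expand_smul]

/-- The descent lemma. -/
theorem lt_descent (I N : Ideal R) (hp : (p : R) ∈ N) (hIN : ∀ x ∈ I, ∀ y ∈ N, x * y = 0)
    (hle : I ≤ N) (r : ℕ) (D : PowerSeries R) (hD : CI I D)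
    (hD1 : ∀ j, j < r → PowerSeries.coeff (p ^ j) D = 0)
    (Δ : MvPowerSeries (Fin 2) R) (hΔ : CI I Δ)
    (h : D.subst (Fv p n (Gam n : ℕ → R)) - D.subst (X 0 : MvPowerSeries (Fin 2) R)
        - D.subst (X 1 : MvPowerSeries (Fin 2) R)
      = Δ.subst ![(X 0 : MvPowerSeries (Fin 2) R) ^ (p ^ r),
          (X 1 : MvPowerSeries (Fin 2) R) ^ (p ^ r)]) :
    ∃ H : PowerSeries R, CI I H ∧ D = H.subst ((PowerSeries.X : PowerSeries R) ^ (p ^ r)) ∧
      H.subst (Fv p n (Gam n : ℕ → R)) - H.subst (X 0 : MvPowerSeries (Fin 2) R)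
        - H.subst (X 1 : MvPowerSeries (Fin 2) R) = Δ := by
  have hpp : p.Prime := Fact.out
  induction r generalizing D with
  | zero =>
    refine ⟨D, hD, ?_, ?_⟩
    · rw [pow_zero, pow_one]
      have g2 : PowerSeries.subst (PowerSeries.X : PowerSeries R) D
        = subst (X : Unit → MvPowerSeries Unit R) D := rfl
      rw [g2, subst_self]
      rfl
    · rw [h, ltd_expand_eq _ (by simp)]
      have : expand (σ := Fin 2) (R := R) (p ^ 0) (by simp) = AlgHom.id R _ := by
        have h1 : (p ^ 0) = 1 := pow_zero p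
        simp only [h1]
        exact expand_one
      rw [this]
      rfl
  | succ r ih =>
    have hF0 : constantCoeff (Fv p n (Gam n : ℕ → R)) = 0 := Fv_constantCoeff p n _
    have hdvd := lt_desc_one (n := n) I N hp hIN hle D hD
      (by have := hD1 0 (by omega); rwa [pow_zero] at this) Δ hΔ (r + 1) (by omega) h
    -- `D = D₁(X^p)`
    let D₁ : PowerSeries R := PowerSeries.mk fun i => PowerSeries.coeff (p * i) D
    have hDD₁ : D = PowerSeries.expand p hpp.ne_zero D₁ := by
      ext i
      rw [PowerSeries.coeff_expand]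
      split_ifs with hi
      · obtain ⟨j, rfl⟩ := hi
        rw [Nat.mul_div_cancel_left _ hpp.pos, PowerSeries.coeff_mk]
      · exact hdvd i hi
    have hD₁ : CI I D₁ := by
      intro d
      have h1 : coeff d D₁ = PowerSeries.coeff (d ()) D₁ := by
        rw [PowerSeries.coeff_def rfl]
      rw [h1, PowerSeries.coeff_mk]
      exact hD _
    have hsub : ∀ {τ : Type} (a : MvPowerSeries τ R), constantCoeff a = 0 →
        D.subst a = D₁.subst (a ^ p) := by
      intro τ a ha
      rw [hDD₁, PowerSeries.expand_apply,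
        PowerSeries.subst_comp_subst_apply (PowerSeries.HasSubst.X_pow hpp.ne_zero)
          (PowerSeries.HasSubst.of_constantCoeff_zero ha)]
      congr 1
      rw [PowerSeries.subst_pow (PowerSeries.HasSubst.of_constantCoeff_zero ha),
        PowerSeries.subst_X (PowerSeries.HasSubst.of_constantCoeff_zero ha)]
    have hx : ∀ i : Fin 2, D.subst (X i : MvPowerSeries (Fin 2) R)
        = expand p hpp.ne_zero (D₁.subst (X i : MvPowerSeries (Fin 2) R)) := by
      intro i
      rw [hsub _ (constantCoeff_X i), PowerSeries.expand_subst p hpp.ne_zero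
        (PowerSeries.HasSubst.of_constantCoeff_zero (constantCoeff_X i)), expand_X]
    have hG : D.subst (Fv p n (Gam n : ℕ → R))
        = expand p hpp.ne_zero (D₁.subst (Fv p n (Gam n : ℕ → R))) := by
      rw [hsub _ hF0, PowerSeries.expand_subst p hpp.ne_zero
        (PowerSeries.HasSubst.of_constantCoeff_zero hF0)]
      refine subst_eq_of_CI hIN D₁ hD₁ _ _ (by rw [map_pow, hF0, zero_pow hpp.ne_zero])
        (by rw [constantCoeff_expand, hF0]) ?_
      have h9 := Gam_pow_p (p := p) (n := n) N hp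
      rw [ltd_expand_eq p hpp.ne_zero] at h9
      exact h9
    have hR : Δ.subst ![(X 0 : MvPowerSeries (Fin 2) R) ^ (p ^ (r + 1)),
          (X 1 : MvPowerSeries (Fin 2) R) ^ (p ^ (r + 1))]
        = expand p hpp.ne_zero (Δ.subst ![(X 0 : MvPowerSeries (Fin 2) R) ^ (p ^ r),
          (X 1 : MvPowerSeries (Fin 2) R) ^ (p ^ r)]) := by
      rw [ltd_pair, ltd_pair, expand_subst p hpp.ne_zero
        (HasSubst.X_pow (pow_ne_zero r hpp.ne_zero))]
      congr 1
      funext i
      rw [map_pow, expand_X, ← pow_mul, pow_succ']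
    rw [hG, hx 0, hx 1, hR, ← map_sub, ← map_sub] at h
    obtain ⟨H, hH1, hH2, hH3⟩ := ih D₁ hD₁ (by
      intro j hj
      have h1 := hD1 (j + 1) (by omega)
      rw [pow_succ'] at h1
      rw [PowerSeries.coeff_mk]
      exact h1) (ltd_expand_inj p hpp.ne_zero h)
    refine ⟨H, hH1, ?_, hH3⟩
    rw [hDD₁, hH2, PowerSeries.expand_apply,
      PowerSeries.subst_comp_subst_apply (PowerSeries.HasSubst.X_pow (pow_ne_zero r hpp.ne_zero))
        (PowerSeries.HasSubst.X_pow hpp.ne_zero)]
    congr 1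
    rw [PowerSeries.subst_pow (PowerSeries.HasSubst.X_pow hpp.ne_zero),
      PowerSeries.subst_X (PowerSeries.HasSubst.X_pow hpp.ne_zero), ← pow_mul, pow_succ']

end Vale.Agent.P217
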