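import Vale.Agent.P217.LTStep
import Vale.Agent.P217.E0Hom
import Vale.Agent.P217.E0Ideals

/-!
# P217, module LTE: existence of the Lubin-Tate lift over `E_0` (helper95; proofs helper56)
-/

namespace Vale.Agent.P217

open MvPowerSeries

section dfc

variable {R S : Type*} [CommRing R] [CommRing S]

/-- The defect of `g : F_v → F_w` to be a homomorphism. -/
noncomputable def lteD (p n : ℕ) [Fact p.Prime] (v w : ℕ → R) (g : PowerSeries R) :
    MvPowerSeries (Fin 2) R :=
  g.subst (Fv p n v) - (Fv p n w).subst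
    ![g.subst (X 0 : MvPowerSeries (Fin 2) R), g.subst (X 1 : MvPowerSeries (Fin 2) R)]

variable {p n : ℕ} [Fact p.Prime]

theorem lteD_map (φ : R →+* S) (v w : ℕ → R) (g : PowerSeries R)
    (hg : PowerSeries.constantCoeff g = 0) :
    (lteD p n v w g).map φ =
      lteD p n (fun j => φ (v j)) (fun j => φ (w j)) (g.map φ) := by
  unfold lteD
  have h0 : ∀ i : Fin 2, constantCoeff (g.subst (X i : MvPowerSeries (Fin 2) R)) = 0 :=
    fun i => PowerSeries.constantCoeff_subst_eq_zero (constantCoeff_X _) g hg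
  rw [map_sub, PowerSeries.map_subst
    (PowerSeries.HasSubst.of_constantCoeff_zero (Fv_constantCoeff p n v)), Fv_map,
    US1.map_pair φ _ (h0 0) (h0 1), Fv_map,
    PowerSeries.map_subst (PowerSeries.HasSubst.of_constantCoeff_zero (constantCoeff_X _)),
    PowerSeries.map_subst (PowerSeries.HasSubst.of_constantCoeff_zero (constantCoeff_X _)),
    map_X, map_X]

theorem lteD_congr {v v' w w' : ℕ → R} (hv : ∀ j, 1 ≤ j → j ≤ n → v j = v' j)
    (hw : ∀ j, 1 ≤ j → j ≤ n → w j = w' j) (g : PowerSeries R) :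
    lteD p n v w g = lteD p n v' w' g := by
  unfold lteD
  rw [Fv_congr p n v v' hv, Fv_congr p n w w' hw]

theorem lteD_eq_zero_iff {v w : ℕ → R} {g : PowerSeries R}
    (hg : PowerSeries.constantCoeff g = 0) : lteD p n v w g = 0 ↔ IsHomS p n v w g := by
  unfold lteD IsHomS
  rw [sub_eq_zero]
  exact ⟨fun h => ⟨hg, h⟩, fun h => h.2⟩

end dfc

variable {p n : ℕ} [Fact p.Prime] {k : Type*} [Field k] [CharP k p] [PerfectRing k p]

theorem lte_resE_uPar (hn : 1 ≤ n) (j : ℕ) (h1 : 1 ≤ j) (h2 : j ≤ n) :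
    resE p n k (uPar p n k j) = Gam n j := by
  rcases Nat.lt_or_ge j n with h | h
  · have h3 : resE p n k (uPar p n k j) = 0 := uPar_mem_mE j h1 h
    rw [h3]
    simp [Gam, h.ne]
  · have h3 : j = n := le_antisymm h2 h
    subst h3
    rw [uPar_top hn, map_one]
    simp [Gam]

/-- The state at stage `r`. -/
def lteP (γ : PowerSeries k) (r : ℕ) (s : (ℕ → E0 p n k) × PowerSeries (E0 p n k)) : Prop :=
  (∀ j, 1 ≤ j → j < n → s.1 j ∈ mE p n k) ∧ s.1 n = 1 ∧ PowerSeries.constantCoeff s.2 = 0 ∧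
    s.2.map (resE p n k) = γ ∧ CI (mE p n k ^ (r + 1)) (lteD p n (uPar p n k) s.1 s.2)

theorem lte_base (hn : 1 ≤ n) (γ : PowerSeries k) (hγ : IsHomS p n (Gam n) (Gam n) γ) :
    ∃ s, lteP (p := p) (n := n) γ 0 s := by
  classical
  have hs := resE_surjective (p := p) (n := n) (k := k)
  choose L hL using hs
  refine ⟨⟨Gam n, PowerSeries.mk fun i => if i = 0 then 0 else L (PowerSeries.coeff i γ)⟩,
    ?_, ?_, ?_, ?_, ?_⟩
  · intro j _ h2
    simp [Gam, h2.ne]
  · simp [Gam]
  · rw [← PowerSeries.coeff_zero_eq_constantCoeff_apply, PowerSeries.coeff_mk, if_pos rfl]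
  · ext i
    rw [PowerSeries.coeff_map, PowerSeries.coeff_mk]
    split_ifs with h
    · rw [map_zero, h, PowerSeries.coeff_zero_eq_constantCoeff_apply, hγ.1]
    · exact hL _
  · intro d
    rw [zero_add, pow_one]
    change resE p n k _ = 0
    rw [← coeff_map]
    rw [lteD_map]
    · have h1 : (PowerSeries.mk fun i => if i = 0 then 0 else L (PowerSeries.coeff i γ)).map
          (resE p n k) = γ := by
        ext i
        rw [PowerSeries.coeff_map, PowerSeries.coeff_mk]
        split_ifs with h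
        · rw [map_zero, h, PowerSeries.coeff_zero_eq_constantCoeff_apply, hγ.1]
        · exact hL _
      rw [h1, lteD_congr (v' := Gam n) (w' := Gam n) (fun j h1 h2 => lte_resE_uPar hn j h1 h2)
        (fun j _ _ => by simp [Gam, apply_ite (resE p n k)]), (lteD_eq_zero_iff hγ.1).2 hγ,
        map_zero]
    · rw [← PowerSeries.coeff_zero_eq_constantCoeff_apply, PowerSeries.coeff_mk, if_pos rfl]

theorem lte_step (hn : 1 ≤ n) (γ : PowerSeries k)
    (h1 : PowerSeries.coeff 1 γ ≠ 0) (r : ℕ)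
    (s : (ℕ → E0 p n k) × PowerSeries (E0 p n k)) (hs : lteP γ r s) :
    ∃ s' : (ℕ → E0 p n k) × PowerSeries (E0 p n k), lteP γ (r + 1) s' ∧
      (∀ j, s'.1 j - s.1 j ∈ mE p n k ^ (r + 1)) ∧
      (∀ i, PowerSeries.coeff i s'.2 - PowerSeries.coeff i s.2 ∈ mE p n k ^ (r + 1)) := by
  classical
  obtain ⟨w, g⟩ := s
  obtain ⟨hw, hwn, hg0, hgγ, hD⟩ := hs
  simp only at hw hwn hg0 hgγ hD
  set m := mE p n k with hm
  set q := Ideal.Quotient.mk (m ^ (r + 2)) with hq
  have hqs : Function.Surjective q := Ideal.Quotient.mk_surjective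
  have hlift : ∀ x ∈ (m ^ (r + 1)).map q, ∃ a ∈ m ^ (r + 1), q a = x := fun x hx =>
    (Ideal.mem_map_iff_of_surjective q hqs).1 hx
  have hpN : ((p : ℕ) : E0 p n k ⧸ m ^ (r + 2)) ∈ m.map q := by
    have := Ideal.mem_map_of_mem q (p_mem_mE (p := p) (n := n) (k := k))
    rwa [map_natCast] at this
  have hIN : ∀ x ∈ (m ^ (r + 1)).map q, ∀ y ∈ m.map q, x * y = 0 := by
    intro x hx y hy
    obtain ⟨a, ha, rfl⟩ := hlift x hx
    obtain ⟨b, hb, rfl⟩ := (Ideal.mem_map_iff_of_surjective q hqs).1 hy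
    rw [← map_mul, hq, Ideal.Quotient.eq_zero_iff_mem]
    have : m ^ (r + 2) = m ^ (r + 1) * m := pow_succ _ _
    rw [this]
    exact Ideal.mul_mem_mul ha hb
  have hle : (m ^ (r + 1)).map q ≤ m.map q := Ideal.map_mono (Ideal.pow_le_self (by omega))
  have hg1 : IsUnit (PowerSeries.coeff 1 (g.map q)) := by
    rw [PowerSeries.coeff_map]
    refine IsUnit.map q ((isUnit_iff_resE _).2 ?_)
    rw [← PowerSeries.coeff_map, hgγ]
    exact h1
  have hg0' : PowerSeries.constantCoeff (g.map q) = 0 := by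
    rw [← PowerSeries.coeff_zero_eq_constantCoeff_apply, PowerSeries.coeff_map,
      PowerSeries.coeff_zero_eq_constantCoeff_apply, hg0, map_zero]
  have hCI : CI ((m ^ (r + 1)).map q) (lteD p n (fun j => q (uPar p n k j)) (fun j => q (w j))
      (g.map q)) := by
    intro d
    rw [← lteD_map q _ _ _ hg0, coeff_map]
    exact Ideal.mem_map_of_mem q (hD d)
  obtain ⟨w', g', hw', hwn', hgg', hhom⟩ := lt_step hn ((m ^ (r + 1)).map q) (m.map q) hpN hIN hle
    (v := fun j => q (uPar p n k j)) (w := fun j => q (w j))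
    (fun j h1 h2 => Ideal.mem_map_of_mem q (uPar_mem_mE j h1 h2))
    (by simp only [uPar_top hn, map_one])
    (fun j h1 h2 => Ideal.mem_map_of_mem q (hw j h1 h2)) (by simp only [hwn, map_one])
    (g.map q) hg0' hg1 hCI
  have hA : ∀ j, ∃ a ∈ m ^ (r + 1), 1 ≤ j → j < n → q (w j + a) = w' j := by
    intro j
    by_cases hj : 1 ≤ j ∧ j < n
    · obtain ⟨a, ha, ha'⟩ := hlift _ (hw' j hj.1 hj.2)
      exact ⟨a, ha, fun _ _ => by rw [map_add, ha']; ring⟩
    · exact ⟨0, zero_mem _, fun h1 h2 => absurd ⟨h1, h2⟩ hj⟩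
  choose a ha ha' using hA
  have hB : ∀ i, ∃ b ∈ m ^ (r + 1), q (PowerSeries.coeff i g + b) = PowerSeries.coeff i g' := by
    intro i
    have h2 : PowerSeries.coeff i g' - q (PowerSeries.coeff i g) ∈ (m ^ (r + 1)).map q := by
      have h3 := hgg' (Finsupp.single () i)
      have h4 : coeff (Finsupp.single () i) (g' - g.map q) =
          PowerSeries.coeff i (g' - g.map q) := rfl
      rw [h4, map_sub, PowerSeries.coeff_map] at h3
      exact h3
    obtain ⟨b, hb, hb'⟩ := hlift _ h2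
    exact ⟨b, hb, by rw [map_add, hb']; ring⟩
  choose b hb hb' using hB
  set w2 : ℕ → E0 p n k := fun j => if 1 ≤ j ∧ j < n then w j + a j else w j with hw2
  set g2 : PowerSeries (E0 p n k) := PowerSeries.mk fun i =>
    if i = 0 then 0 else PowerSeries.coeff i g + b i with hg2
  have hmle : m ^ (r + 1) ≤ m := Ideal.pow_le_self (by omega)
  have hg20 : PowerSeries.constantCoeff g2 = 0 := by
    rw [← PowerSeries.coeff_zero_eq_constantCoeff_apply, hg2, PowerSeries.coeff_mk, if_pos rfl]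
  have hg2q : g2.map q = g' := by
    ext i
    rw [PowerSeries.coeff_map, hg2, PowerSeries.coeff_mk]
    split_ifs with h
    · rw [map_zero, h, PowerSeries.coeff_zero_eq_constantCoeff_apply, hhom.1]
    · exact hb' i
  have hgdiff : ∀ i, PowerSeries.coeff i g2 - PowerSeries.coeff i g ∈ m ^ (r + 1) := by
    intro i
    rw [hg2, PowerSeries.coeff_mk]
    split_ifs with h
    · rw [h, PowerSeries.coeff_zero_eq_constantCoeff_apply, hg0, sub_zero]
      exact zero_mem _
    · rw [add_sub_cancel_left]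
      exact hb i
  have hwdiff : ∀ j, w2 j - w j ∈ m ^ (r + 1) := by
    intro j
    simp only [hw2]
    split_ifs with h
    · rw [add_sub_cancel_left]
      exact ha j
    · rw [sub_self]
      exact zero_mem _
  refine ⟨⟨w2, g2⟩, ⟨?_, ?_, hg20, ?_, ?_⟩, hwdiff, hgdiff⟩
  · intro j h1 h2
    simp only [hw2]
    rw [if_pos ⟨h1, h2⟩]
    exact add_mem (hw j h1 h2) (hmle (ha j))
  · simp only [hw2]
    rw [if_neg (fun h => absurd h.2 (lt_irrefl n))]
    exact hwn
  · ext i
    have h2 : resE p n k (PowerSeries.coeff i g2 - PowerSeries.coeff i g) = 0 := hmle (hgdiff i)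
    rw [map_sub, sub_eq_zero] at h2
    rw [PowerSeries.coeff_map, h2, ← PowerSeries.coeff_map, hgγ]
  · rw [CI_iff_map]
    change (lteD p n (uPar p n k) w2 g2).map q = 0
    rw [lteD_map q _ _ _ hg20, hg2q, lteD_congr (v' := fun j => q (uPar p n k j)) (w' := w')
      (fun _ _ _ => rfl) ?_, (lteD_eq_zero_iff hhom.1).2 hhom]
    intro j h1 h2
    rcases Nat.lt_or_ge j n with h | h
    · simp only [hw2]
      rw [if_pos ⟨h1, h⟩]
      exact ha' j h1 h
    · have h3 : j = n := le_antisymm h2 h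
      subst h3
      simp only [hw2]
      rw [if_neg (fun h => absurd h.2 (lt_irrefl j)), hwn, map_one, hwn']

/-- LTE: for every automorphism `γ` of `Γ_n` over `k` there are parameters `w` and a
homomorphism `F_u → F_w` lifting `γ`. (Induction on `m^r` with `lt_step` over `E_0/m^(r+1)`,
limit with `E0_complete`.) -/
theorem lt_exists (hn : 1 ≤ n) (γ : PowerSeries k) (hγ : IsHomS p n (Gam n) (Gam n) γ)
    (h1 : PowerSeries.coeff 1 γ ≠ 0) :
    ∃ (w : ℕ → E0 p n k) (g : PowerSeries (E0 p n k)),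
      (∀ j, 1 ≤ j → j < n → w j ∈ mE p n k) ∧ w n = 1 ∧
      IsHomS p n (uPar p n k) w g ∧ g.map (resE p n k) = γ := by
  classical
  let F : (r : ℕ) → {s : (ℕ → E0 p n k) × PowerSeries (E0 p n k) // lteP γ r s} := fun r =>
    Nat.rec ⟨(lte_base hn γ hγ).choose, (lte_base hn γ hγ).choose_spec⟩
      (fun r s => ⟨(lte_step hn γ h1 r s.1 s.2).choose,
        (lte_step hn γ h1 r s.1 s.2).choose_spec.1⟩) r
  have hF : ∀ r, (∀ j, (F (r + 1)).1.1 j - (F r).1.1 j ∈ mE p n k ^ (r + 1)) ∧
      (∀ i, PowerSeries.coeff i (F (r + 1)).1.2 - PowerSeries.coeff i (F r).1.2 ∈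
        mE p n k ^ (r + 1)) := fun r =>
    (lte_step hn γ h1 r (F r).1 (F r).2).choose_spec.2
  have hL : ∀ j, ∃ L, ∀ r, L - (F r).1.1 j ∈ mE p n k ^ r := fun j =>
    E0_complete (fun r => (F r).1.1 j) fun r => Ideal.pow_le_pow_right (Nat.le_succ r)
      ((hF r).1 j)
  have hM : ∀ i, ∃ L, ∀ r, L - PowerSeries.coeff i (F r).1.2 ∈ mE p n k ^ r := fun i =>
    E0_complete (fun r => PowerSeries.coeff i (F r).1.2) fun r =>
      Ideal.pow_le_pow_right (Nat.le_succ r) ((hF r).2 i)
  choose L hL using hL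
  choose M hM using hM
  set W : ℕ → E0 p n k := fun j => if j = n then 1 else L j with hW
  set G : PowerSeries (E0 p n k) := PowerSeries.mk fun i => if i = 0 then 0 else M i with hG
  have hWr : ∀ r j, W j - (F r).1.1 j ∈ mE p n k ^ r := by
    intro r j
    simp only [hW]
    split_ifs with h
    · rw [h, (F r).2.2.1, sub_self]
      exact zero_mem _
    · exact hL j r
  have hGr : ∀ r i, PowerSeries.coeff i G - PowerSeries.coeff i (F r).1.2 ∈ mE p n k ^ r := by
    intro r i
    rw [hG, PowerSeries.coeff_mk]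
    split_ifs with h
    · rw [h, PowerSeries.coeff_zero_eq_constantCoeff_apply, (F r).2.2.2.1, sub_self]
      exact zero_mem _
    · exact hM i r
  have hG0 : PowerSeries.constantCoeff G = 0 := by
    rw [← PowerSeries.coeff_zero_eq_constantCoeff_apply, hG, PowerSeries.coeff_mk, if_pos rfl]
  refine ⟨W, G, ?_, ?_, ?_, ?_⟩
  · intro j h2 h3
    have h4 := hWr 1 j
    rw [pow_one] at h4
    have h5 := (F 1).2.1 j h2 h3
    have := add_mem h4 h5
    rwa [sub_add_cancel] at this
  · simp only [hW, if_true]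
  · rw [← lteD_eq_zero_iff hG0]
    refine MvPowerSeries.ext fun d => ?_
    rw [map_zero]
    refine E0_hausdorff (p := p) (n := n) (k := k) _ fun r => ?_
    have h2 : CI (mE p n k ^ r) (lteD p n (uPar p n k) W G) := by
      rw [CI_iff_map, lteD_map _ _ _ _ hG0]
      have h3 : G.map (Ideal.Quotient.mk (mE p n k ^ r)) =
          (F r).1.2.map (Ideal.Quotient.mk (mE p n k ^ r)) := by
        ext i
        rw [PowerSeries.coeff_map, PowerSeries.coeff_map]
        exact Ideal.Quotient.eq.2 (hGr r i)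
      have h4 : CI (mE p n k ^ r) (lteD p n (uPar p n k) (F r).1.1 (F r).1.2) := fun d =>
        Ideal.pow_le_pow_right (Nat.le_succ r) ((F r).2.2.2.2.2 d)
      rw [CI_iff_map, lteD_map _ _ _ _ (F r).2.2.2.1] at h4
      rw [h3, ← h4]
      exact lteD_congr (fun _ _ _ => rfl) (fun j _ _ => Ideal.Quotient.eq.2 (hWr r j)) _
    exact h2 d
  · ext i
    have h2 : resE p n k (PowerSeries.coeff i G - PowerSeries.coeff i (F 1).1.2) = 0 := by
      have := hGr 1 i
      rwa [pow_one] at this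
    rw [map_sub, sub_eq_zero] at h2
    rw [PowerSeries.coeff_map, h2, ← PowerSeries.coeff_map, (F 1).2.2.2.2.1]

end Vale.Agent.P217
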