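import Vale.Agent.P217.SPt

/-!
# P217, module LTI: formal points modulo ideals (helper95)

`CI I a` : all coefficients of `a` lie in the ideal `I`.
-/

namespace Vale.Agent.P217

open MvPowerSeries

variable {R : Type*} [CommRing R] {p n : ℕ} [Fact p.Prime] {v w : ℕ → R} {σ τ : Type*}

/-- All coefficients in `I`. -/
def CI (I : Ideal R) (a : MvPowerSeries τ R) : Prop := ∀ d, coeff d a ∈ I

theorem CI.add {I : Ideal R} {a b : MvPowerSeries τ R} (ha : CI I a) (hb : CI I b) :
    CI I (a + b) := fun d => by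
  rw [map_add]
  exact I.add_mem (ha d) (hb d)

theorem CI.neg {I : Ideal R} {a : MvPowerSeries τ R} (ha : CI I a) : CI I (-a) := fun d => by
  rw [map_neg]
  exact I.neg_mem (ha d)

theorem CI.sub {I : Ideal R} {a b : MvPowerSeries τ R} (ha : CI I a) (hb : CI I b) :
    CI I (a - b) := fun d => by
  rw [map_sub]
  exact I.sub_mem (ha d) (hb d)

theorem CI.mul {I J : Ideal R} {a b : MvPowerSeries τ R} (ha : CI I a) (hb : CI J b) :
    CI (I * J) (a * b) := by
  classical
  intro d
  rw [coeff_mul]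
  exact Ideal.sum_mem _ fun ij _ => Ideal.mul_mem_mul (ha _) (hb _)

theorem CI.mul_left {I : Ideal R} {a : MvPowerSeries τ R} (b : MvPowerSeries τ R)
    (ha : CI I a) : CI I (b * a) := by
  classical
  intro d
  rw [coeff_mul]
  exact Ideal.sum_mem _ fun ij _ => Ideal.mul_mem_left _ _ (ha _)

theorem CI_iff_map {I : Ideal R} {a : MvPowerSeries τ R} :
    CI I a ↔ a.map (Ideal.Quotient.mk I) = 0 := by
  constructor
  · intro h
    ext d
    rw [coeff_map, map_zero]
    exact Ideal.Quotient.eq_zero_iff_mem.2 (h d)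
  · intro h d
    have h1 := congrArg (coeff d) h
    rw [coeff_map, map_zero] at h1
    exact Ideal.Quotient.eq_zero_iff_mem.1 h1

private theorem lti_sub_iff {I : Ideal R} {a b : MvPowerSeries τ R} :
    CI I (a - b) ↔ a.map (Ideal.Quotient.mk I) = b.map (Ideal.Quotient.mk I) := by
  rw [CI_iff_map, map_sub, sub_eq_zero]

/-- Substituting congruent series in congruent series (several variables). -/
theorem CI_substMv_sub [Finite σ] {I : Ideal R} (f g : MvPowerSeries σ R) (hfg : CI I (f - g))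
    (a b : σ → MvPowerSeries τ R) (ha : ∀ i, constantCoeff (a i) = 0)
    (hb : ∀ i, constantCoeff (b i) = 0) (hab : ∀ i, CI I (a i - b i)) :
    CI I (f.subst a - g.subst b) := by
  rw [lti_sub_iff] at hfg ⊢
  rw [map_subst (hasSubst_of_constantCoeff_zero ha), map_subst (hasSubst_of_constantCoeff_zero hb),
    hfg]
  congr 1
  funext i
  exact lti_sub_iff.1 (hab i)

/-- Substituting congruent series in congruent series (one variable). -/
theorem CI_subst_sub {I : Ideal R} (f g : PowerSeries R) (hfg : CI I (f - g))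
    (a b : MvPowerSeries τ R) (ha : constantCoeff a = 0) (hb : constantCoeff b = 0)
    (hab : CI I (a - b)) : CI I (f.subst a - g.subst b) :=
  CI_substMv_sub (σ := Unit) f g hfg (fun _ => a) (fun _ => b) (fun _ => ha) (fun _ => hb)
    (fun _ => hab)

theorem substMv_eq_of_CI [Finite σ] {I N : Ideal R} (hIN : ∀ x ∈ I, ∀ y ∈ N, x * y = 0)
    (f : MvPowerSeries σ R) (hf : CI I f) (a b : σ → MvPowerSeries τ R)
    (ha : ∀ i, constantCoeff (a i) = 0) (hb : ∀ i, constantCoeff (b i) = 0)
    (hab : ∀ i, CI N (a i - b i)) : f.subst a = f.subst b := by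
  ext e
  rw [coeff_subst (hasSubst_of_constantCoeff_zero ha),
    coeff_subst (hasSubst_of_constantCoeff_zero hb)]
  refine finsum_congr fun d => ?_
  have h1 : CI N ((d.prod fun s e => (a s) ^ e) - (d.prod fun s e => (b s) ^ e)) := by
    rw [lti_sub_iff, map_finsuppProd, map_finsuppProd]
    refine Finsupp.prod_congr fun i _ => ?_
    rw [map_pow, map_pow, lti_sub_iff.1 (hab i)]
  have h2 := hIN _ (hf d) _ (h1 e)
  rw [map_sub, mul_sub, sub_eq_zero] at h2
  simpa [smul_eq_mul] using h2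

/-- If the coefficients of `f` are in `I` and `I * N = 0`, then `f.subst a` only depends on `a`
modulo `N`. -/
theorem subst_eq_of_CI {I N : Ideal R} (hIN : ∀ x ∈ I, ∀ y ∈ N, x * y = 0) (f : PowerSeries R)
    (hf : CI I f) (a b : MvPowerSeries τ R) (ha : constantCoeff a = 0)
    (hb : constantCoeff b = 0) (hab : CI N (a - b)) : f.subst a = f.subst b :=
  substMv_eq_of_CI (σ := Unit) hIN f hf (fun _ => a) (fun _ => b) (fun _ => ha) (fun _ => hb)
    (fun _ => hab)

/-- `F_v ≡ F_w` modulo `I` if `v ≡ w` modulo `I`. -/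
theorem CI_Fv_sub {I : Ideal R} (hvw : ∀ j, 1 ≤ j → j ≤ n → v j - w j ∈ I) :
    CI I (Fv p n v - Fv p n w) := by
  rw [lti_sub_iff, Fv_map, Fv_map]
  refine Fv_congr p n _ _ fun j h1 h2 => ?_
  exact (Ideal.Quotient.mk_eq_mk_iff_sub_mem _ _).2 (hvw j h1 h2)

/-- congruence of differences of points -/
theorem SPt.CI_sub_iff {I : Ideal R} (a b : SPt p n v τ) :
    CI I (a - b).1 ↔ CI I (a.1 - b.1) := by
  rw [CI_iff_map, lti_sub_iff]
  have h1 : (a - b).1.map (Ideal.Quotient.mk I) =
      (SPt.bc (Ideal.Quotient.mk I) a - SPt.bc (Ideal.Quotient.mk I) b).1 := by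
    rw [← map_sub]
    rfl
  rw [h1]
  constructor
  · intro h
    have h2 : SPt.bc (Ideal.Quotient.mk I) a - SPt.bc (Ideal.Quotient.mk I) b = 0 :=
      Subtype.ext h
    rw [sub_eq_zero] at h2
    exact congrArg Subtype.val h2
  · intro h
    have h2 : SPt.bc (Ideal.Quotient.mk I) a = SPt.bc (Ideal.Quotient.mk I) b := Subtype.ext h
    rw [h2, sub_self]
    rfl

private theorem lti_mul_zero {I : Ideal R} (hI : ∀ x ∈ I, ∀ y ∈ I, x * y = 0)
    {a b : MvPowerSeries τ R} (ha : CI I a) (hb : CI I b) : a * b = 0 := by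
  classical
  ext d
  rw [coeff_mul, map_zero]
  exact Finset.sum_eq_zero fun ij _ => hI _ (ha _) _ (hb _)

/-- On points with coefficients in a square zero ideal the group law is the ordinary addition. -/
theorem SPt.add_val_of_CI {I : Ideal R} (hI : ∀ x ∈ I, ∀ y ∈ I, x * y = 0)
    (a b : SPt p n v τ) (ha : CI I a.1) (hb : CI I b.1) : (a + b).1 = a.1 + b.1 := by
  rw [SPt.add_val, subst_Fv_eq p n v a.2 b.2, lti_mul_zero hI ha hb, zero_mul, add_zero]

private theorem lti_CI_zero {I : Ideal R} : CI I (0 : MvPowerSeries τ R) := fun d => by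
  rw [map_zero]
  exact I.zero_mem

private theorem lti_CI_neg {I : Ideal R} (a : SPt p n v τ) (ha : CI I a.1) : CI I (-a).1 := by
  have h := (SPt.CI_sub_iff (I := I) (0 : SPt p n v τ) a).2 (by
    rw [SPt.zero_val, zero_sub]
    exact ha.neg)
  rwa [zero_sub] at h

theorem SPt.neg_val_of_CI {I : Ideal R} (hI : ∀ x ∈ I, ∀ y ∈ I, x * y = 0)
    (a : SPt p n v τ) (ha : CI I a.1) : (-a).1 = -a.1 := by
  have h1 := SPt.add_val_of_CI hI (-a) a (lti_CI_neg a ha) ha
  rw [neg_add_cancel, SPt.zero_val] at h1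
  exact eq_neg_of_add_eq_zero_left h1.symm

theorem SPt.sub_val_of_CI {I : Ideal R} (hI : ∀ x ∈ I, ∀ y ∈ I, x * y = 0)
    (a b : SPt p n v τ) (ha : CI I a.1) (hb : CI I b.1) : (a - b).1 = a.1 - b.1 := by
  rw [sub_eq_add_neg, SPt.add_val_of_CI hI a (-b) ha (lti_CI_neg b hb),
    SPt.neg_val_of_CI hI b hb, sub_eq_add_neg]

/-- `p` kills points with coefficients in `I` if `I * (I, p) = 0`. -/
theorem SPt.p_smul_of_CI {I : Ideal R} (hI : ∀ x ∈ I, ∀ y ∈ I, x * y = 0)
    (hp : ∀ x ∈ I, x * (p : R) = 0) (a : SPt p n v τ) (ha : CI I a.1) : p • a = 0 := by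
  have h1 : ∀ m : ℕ, CI I (m • a).1 ∧ (m • a).1 = m • a.1 := by
    intro m
    induction m with
    | zero =>
      rw [zero_smul, zero_smul, SPt.zero_val]
      exact ⟨lti_CI_zero, rfl⟩
    | succ m ih =>
      have h2 := SPt.add_val_of_CI hI (m • a) a ih.1 ha
      rw [succ_nsmul, succ_nsmul, h2, ih.2]
      refine ⟨?_, rfl⟩
      have h3 := ih.1
      rw [ih.2] at h3
      exact h3.add ha
  apply Subtype.ext
  rw [(h1 p).2, SPt.zero_val]
  ext d
  rw [map_nsmul, map_zero, nsmul_eq_mul, mul_comm]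
  exact hp _ (ha d)

/-- The difference of two congruent points does not change if the parameters are changed
modulo `I`, `I^2 = 0`. -/
theorem SPt.sub_val_congr {I : Ideal R} (hI : ∀ x ∈ I, ∀ y ∈ I, x * y = 0)
    (hvw : ∀ j, 1 ≤ j → j ≤ n → v j - w j ∈ I) (a b : MvPowerSeries τ R)
    (ha : constantCoeff a = 0) (hb : constantCoeff b = 0) (hab : CI I (a - b)) :
    (SPt.mk p n v a ha - SPt.mk p n v b hb).1 = (SPt.mk p n w a ha - SPt.mk p n w b hb).1 := by
  set δ : SPt p n v τ := SPt.mk p n v a ha - SPt.mk p n v b hb with hδ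
  have hδI : CI I δ.1 := (SPt.CI_sub_iff _ _).2 hab
  have h1 : (Fv p n v).subst ![δ.1, b] = a := by
    have h2 : δ + SPt.mk p n v b hb = SPt.mk p n v a ha := sub_add_cancel _ _
    exact congrArg Subtype.val h2
  have hs1 := US1.hs δ.2 hb
  have hs0 := US1.hs (R := R) (σ := τ) (a := 0) (b := b) (map_zero _) hb
  have h3 : (Fv p n v - Fv p n w).subst ![δ.1, b] = (Fv p n v - Fv p n w).subst ![0, b] := by
    refine substMv_eq_of_CI hI _ (CI_Fv_sub hvw) _ _ ?_ ?_ ?_
    · intro i
      fin_cases i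
      · exact δ.2
      · exact hb
    · intro i
      fin_cases i
      · exact map_zero _
      · exact hb
    · intro i
      fin_cases i
      · show CI I (δ.1 - 0)
        rw [sub_zero]
        exact hδI
      · show CI I (b - b)
        rw [sub_self]
        exact lti_CI_zero
  rw [subst_sub hs1, subst_sub hs0, US1.Fv_zero_left v hb, US1.Fv_zero_left w hb, sub_self,
    sub_eq_zero, h1] at h3
  have h4 : SPt.mk p n w δ.1 δ.2 + SPt.mk p n w b hb = SPt.mk p n w a ha :=
    Subtype.ext h3.symm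
  have h5 : SPt.mk p n w a ha - SPt.mk p n w b hb = SPt.mk p n w δ.1 δ.2 := by
    rw [← h4, add_sub_cancel_right]
  rw [h5]
  rfl

/-- A congruent pair of points: the difference computed with the invariant differential:
`a - b ≡ δ` means `a = b + δ * P(b)`. If moreover the constant part of `b` ... in low degrees:
the lowest coefficients of `a - b` (points) and `a.1 - b.1` (series) agree. -/
theorem SPt.exists_unit_sub_val {I : Ideal R} (hI : ∀ x ∈ I, ∀ y ∈ I, x * y = 0)
    (a b : SPt p n v τ) (hab : CI I (a.1 - b.1)) :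
    ∃ u : MvPowerSeries τ R, constantCoeff u = 1 ∧ a.1 - b.1 = (a - b).1 * u := by
  have h1 : ((a - b) + b).1 = a.1 := by rw [sub_add_cancel]
  rw [SPt.add_val, subst_Fv_eq p n v (a - b).2 b.2] at h1
  refine ⟨1 + b.1 * subst ![(a - b).1, b.1] (GF p n v), ?_, ?_⟩
  · rw [map_add, map_mul, b.2, zero_mul, add_zero, map_one]
  · rw [← h1]
    ring

end Vale.Agent.P217
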