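import Vale.Agent.P217.LTDesc
import Vale.Agent.P217.LTCPD

/-!
# P217, module LTS: the first order deformation step (helper95)

Proof. `D := g([p]_v X) -_w [p]_w (g X)`, `Δ := g(X +_v Y) -_w g(X) -_w g(Y)` have coefficients in
`I` (`SPt.CI_sub_iff`), on `I` the group law is `+` and `p` acts by `0`, so
`D(X +_v Y) - D(X) - D(Y) = Δ([p]X,[p]Y) = Δ(X^{p^n}, Y^{p^n})`. The `X^1`-coefficient of `D` is `0`;
replacing `w` by `w + ε` (`ε ∈ I`) changes `D` by `- ∑_j ε_j g(X)^{p^j}` modulo `X^{p^n}`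
(`mulS_diff`, `SPt.exists_unit_sub_val`), a triangular system with unit diagonal
`(coeff 1 g)^{p^j}`: make all `X^{p^j}`-coefficients (`j < n`) zero. `lt_descent` gives `H`,
and `g' := g -_{w'} H`.
-/

namespace Vale.Agent.P217

open MvPowerSeries

variable {R : Type*} [CommRing R] {p n : ℕ} [Fact p.Prime] {v w : ℕ → R}

/-! ### low degree computations -/

theorem lts_X_pow_mul_low (F : PowerSeries R) (M : ℕ) :
    (∀ i, i < M → PowerSeries.coeff i (PowerSeries.X ^ M * F) = 0) ∧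
      PowerSeries.coeff M (PowerSeries.X ^ M * F) = PowerSeries.constantCoeff F := by
  refine ⟨fun i hi => ?_, ?_⟩
  · rw [PowerSeries.coeff_X_pow_mul', if_neg (by omega)]
  · rw [PowerSeries.coeff_X_pow_mul', if_pos le_rfl, Nat.sub_self,
      PowerSeries.coeff_zero_eq_constantCoeff_apply]

theorem lts_constantCoeff_subst (E g : PowerSeries R) (hg : PowerSeries.constantCoeff g = 0) :
    PowerSeries.constantCoeff (E.subst g) = PowerSeries.constantCoeff E := by
  have hsg : PowerSeries.HasSubst g := PowerSeries.HasSubst.of_constantCoeff_zero' hg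
  have h1 : PowerSeries.X ∣ E - PowerSeries.C (PowerSeries.constantCoeff E) :=
    PowerSeries.X_dvd_iff.mpr (by simp)
  obtain ⟨E', hE'⟩ := h1
  have h2 : E = PowerSeries.C (PowerSeries.constantCoeff E) + PowerSeries.X * E' := by
    rw [← hE']; ring
  have h3 : E.subst g = (PowerSeries.C (PowerSeries.constantCoeff E) : PowerSeries R)
      + g * E'.subst g := by
    conv_lhs => rw [h2]
    rw [PowerSeries.subst_add hsg, PowerSeries.subst_mul hsg, PowerSeries.subst_X hsg]
    congr 1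
    rw [← PowerSeries.coe_substAlgHom hsg]
    exact (PowerSeries.substAlgHom hsg).commutes _
  rw [h3, map_add, map_mul, hg, zero_mul, add_zero, PowerSeries.constantCoeff_C]

theorem lts_subst_low (E g : PowerSeries R) (hg : PowerSeries.constantCoeff g = 0) (M : ℕ)
    (h : ∀ i, i < M → PowerSeries.coeff i E = 0) :
    (∀ i, i < M → PowerSeries.coeff i (E.subst g) = 0) ∧
      PowerSeries.coeff M (E.subst g) = PowerSeries.coeff M E * (PowerSeries.coeff 1 g) ^ M := by
  have hsg : PowerSeries.HasSubst g := PowerSeries.HasSubst.of_constantCoeff_zero' hg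
  obtain ⟨E', rfl⟩ := PowerSeries.X_pow_dvd_iff.mpr h
  have hg' : PowerSeries.X ∣ g := PowerSeries.X_dvd_iff.mpr hg
  obtain ⟨g', hg'⟩ := hg'
  have h1 : (PowerSeries.X ^ M * E' : PowerSeries R).subst g
      = PowerSeries.X ^ M * (g' ^ M * E'.subst g) := by
    rw [PowerSeries.subst_mul hsg, PowerSeries.subst_pow hsg, PowerSeries.subst_X hsg]
    nth_rewrite 1 [hg']
    ring
  have hcg : PowerSeries.coeff 1 g = PowerSeries.constantCoeff g' := by
    rw [hg', show (1 : ℕ) = 0 + 1 from rfl, PowerSeries.coeff_succ_X_mul,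
      PowerSeries.coeff_zero_eq_constantCoeff_apply]
  rw [h1]
  obtain ⟨ha, hb⟩ := lts_X_pow_mul_low (g' ^ M * E'.subst g) M
  obtain ⟨-, hb'⟩ := lts_X_pow_mul_low E' M
  refine ⟨ha, ?_⟩
  rw [hb, hb', map_mul, map_pow, lts_constantCoeff_subst _ _ hg, hcg]
  ring

theorem lts_mul_low (a E u : PowerSeries R) (hu : PowerSeries.constantCoeff u = 1)
    (h : a = E * u) (M : ℕ) (ha : ∀ i, i < M → PowerSeries.coeff i a = 0) :
    (∀ i, i < M → PowerSeries.coeff i E = 0) ∧
      PowerSeries.coeff M E = PowerSeries.coeff M a := by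
  have hu' : IsUnit u := by
    rw [PowerSeries.isUnit_iff_constantCoeff, hu]; exact isUnit_one
  obtain ⟨u', hu'⟩ := hu'.exists_right_inv
  have h2 : E = a * u' := by rw [h, mul_assoc, hu', mul_one]
  have h3 : PowerSeries.constantCoeff u' = 1 := by
    have := congrArg PowerSeries.constantCoeff hu'
    rwa [map_mul, hu, one_mul, map_one] at this
  obtain ⟨a', rfl⟩ := PowerSeries.X_pow_dvd_iff.mpr ha
  rw [h2, mul_assoc]
  obtain ⟨hx, hy⟩ := lts_X_pow_mul_low (a' * u') M
  obtain ⟨-, hy'⟩ := lts_X_pow_mul_low a' M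
  refine ⟨hx, ?_⟩
  rw [hy, hy', map_mul, h3, mul_one]

/-! ### points -/

section points

variable {σ τ : Type*}

theorem lts_hsubst [Finite σ] {s : σ → MvPowerSeries τ R} (hs : ∀ i, constantCoeff (s i) = 0) :
    HasSubst s := hasSubst_of_constantCoeff_zero hs

/-- Pull back of a point in one variable. -/
noncomputable def ltsS (a : MvPowerSeries τ R) (ha : constantCoeff a = 0) :
    SPt p n v Unit →+ SPt p n v τ := SPt.sbst (fun _ => a) (fun _ => ha)

theorem ltsS_val (a : MvPowerSeries τ R) (ha : constantCoeff a = 0) (x : SPt p n v Unit) :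
    (ltsS a ha x).1 = PowerSeries.subst a (x.1 : PowerSeries R) := rfl

theorem lts_CI_zero (I : Ideal R) : CI I (0 : MvPowerSeries τ R) := fun d => by
  rw [map_zero]; exact I.zero_mem

theorem lts_CI_mono {I J : Ideal R} (h : I ≤ J) {a : MvPowerSeries τ R} (ha : CI I a) :
    CI J a := fun d => h (ha d)

theorem lts_CI_self (I : Ideal R) (a : MvPowerSeries τ R) : CI I (a - a) := by
  rw [sub_self]; exact lts_CI_zero I

theorem lts_CI_S {I : Ideal R} (a : MvPowerSeries τ R) (ha : constantCoeff a = 0)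
    (x : SPt p n v Unit) (hx : CI I x.1) : CI I (ltsS a ha x).1 := by
  rw [ltsS_val]
  have h := CI_subst_sub (I := I) (x.1 : PowerSeries R) 0 (by rwa [sub_zero]) a a ha ha
    (lts_CI_self I a)
  have h0 : PowerSeries.subst a (0 : PowerSeries R) = 0 := by
    rw [← PowerSeries.coe_substAlgHom (PowerSeries.HasSubst.of_constantCoeff_zero ha), map_zero]
  rwa [h0, sub_zero] at h

/-- Composition of pull backs. -/
theorem ltsS_comp [Finite σ] {s : σ → MvPowerSeries τ R} (hs : ∀ i, constantCoeff (s i) = 0)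
    (a : MvPowerSeries σ R) (ha : constantCoeff a = 0) (x : SPt p n v Unit) :
    SPt.sbst s hs (ltsS a ha x) = ltsS (a.subst s) (SPt.sub_aux hs a ha) x := by
  apply Subtype.ext
  change (MvPowerSeries.subst (fun _ : Unit => a) x.1).subst s = _
  rw [subst_comp_subst_apply (lts_hsubst fun _ => ha) (lts_hsubst hs)]
  rfl

theorem ltsS_comp1 (b : MvPowerSeries τ R) (hb : constantCoeff b = 0)
    (a : PowerSeries R) (ha : constantCoeff a = 0) (x : SPt p n v Unit) :
    ltsS b hb (ltsS a ha x) = ltsS (PowerSeries.subst b a) (SPt.hom_aux ha b hb) x :=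
  ltsS_comp (fun _ => hb) a ha x

theorem ltsS_congr {a b : MvPowerSeries τ R} (h : a = b) (ha : constantCoeff a = 0)
    (hb : constantCoeff b = 0) (x : SPt p n v Unit) : ltsS a ha x = ltsS b hb x := by
  subst h; rfl

theorem ltsS_X (x : SPt p n v Unit) (hX : constantCoeff (PowerSeries.X : PowerSeries R) = 0) :
    ltsS (PowerSeries.X : PowerSeries R) hX x = x := by
  apply Subtype.ext
  rw [ltsS_val]
  exact PowerSeries.X_subst _

end points

/-! ### first order relations -/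

section rel

variable (v w)

theorem lts_F0 : constantCoeff (Fv p n v) = 0 := Fv_constantCoeff p n v

theorem lts_m0 : constantCoeff (mulS p n v p : PowerSeries R) = 0 := US1.mulS_cc v p

/-- The defect of additivity of `g`, as a point of `F_w`. -/
noncomputable def ltsDel (G : SPt p n w Unit) : SPt p n w (Fin 2) :=
  ltsS (Fv p n v) (lts_F0 v) G - (ltsS (X 0) (constantCoeff_X _) G +
    ltsS (X 1) (constantCoeff_X _) G)

/-- The defect of commutation with `[p]`. -/
noncomputable def ltsD (G : SPt p n w Unit) : SPt p n w Unit :=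
  ltsS (mulS p n v p) (lts_m0 v) G - p • G

theorem lts_cc_pair (p n : ℕ) [Fact p.Prime] (v : ℕ → R) : ∀ i, constantCoeff
    ((![(mulS p n v p).subst (X 0 : MvPowerSeries (Fin 2) R),
      (mulS p n v p).subst (X 1 : MvPowerSeries (Fin 2) R)] :
      Fin 2 → MvPowerSeries (Fin 2) R) i) = 0 := by
  intro i
  fin_cases i
  · exact SPt.hom_aux (lts_m0 v) _ (constantCoeff_X _)
  · exact SPt.hom_aux (lts_m0 v) _ (constantCoeff_X _)

theorem lts_rel (G : SPt p n w Unit) :
    ltsS (Fv p n v) (lts_F0 v) (ltsD v w G) - (ltsS (X 0) (constantCoeff_X _) (ltsD v w G) +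
      ltsS (X 1) (constantCoeff_X _) (ltsD v w G)) =
      SPt.sbst _ (lts_cc_pair p n v) (ltsDel v w G) - p • ltsDel v w G := by
  have e1 : ltsS (Fv p n v) (lts_F0 v) (ltsS (mulS p n v p) (lts_m0 v) G) =
      SPt.sbst _ (lts_cc_pair p n v) (ltsS (Fv p n v) (lts_F0 v) G) := by
    rw [ltsS_comp (lts_cc_pair p n v), ltsS_comp1]
    apply ltsS_congr
    exact (mulS_isHomS p).2
  have e2 : ∀ i : Fin 2, ltsS (X i) (constantCoeff_X _) (ltsS (mulS p n v p) (lts_m0 v) G) =
      SPt.sbst _ (lts_cc_pair p n v) (ltsS (X i) (constantCoeff_X _) G) := by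
    intro i
    rw [ltsS_comp (lts_cc_pair p n v), ltsS_comp1]
    apply ltsS_congr
    rw [subst_X (lts_hsubst (lts_cc_pair p n v))]
    fin_cases i <;> rfl
  rw [ltsD, ltsDel]
  simp only [map_sub, map_add, map_nsmul, smul_sub, smul_add]
  rw [e1, e2, e2]
  abel

end rel

/-! ### reduction modulo `I` -/

section modI

theorem lts_CI_Fv_subst {I : Ideal R} {w w' : ℕ → R}
    (hww : ∀ j, 1 ≤ j → j ≤ n → w' j - w j ∈ I) (a b : MvPowerSeries (Fin 2) R)
    (ha : constantCoeff a = 0) (hb : constantCoeff b = 0) :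
    CI I ((Fv p n w).subst ![a, b] - (Fv p n w').subst ![a, b]) := by
  refine CI_substMv_sub (Fv p n w) (Fv p n w') ?_ ![a, b] ![a, b] ?_ ?_
    (fun i => lts_CI_self I _)
  · refine CI_Fv_sub fun j h1 h2 => ?_
    have h := I.neg_mem (hww j h1 h2)
    rwa [neg_sub] at h
  · intro i; fin_cases i
    · exact ha
    · exact hb
  · intro i; fin_cases i
    · exact ha
    · exact hb

theorem lts_cc_gX {g : PowerSeries R} (hg0 : PowerSeries.constantCoeff g = 0) (i : Fin 2) :
    constantCoeff (g.subst (X i : MvPowerSeries (Fin 2) R)) = 0 :=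
  SPt.hom_aux hg0 _ (constantCoeff_X _)

/-- `g` is still a homomorphism modulo `I` for the changed parameters. -/
theorem lts_hg_change {I : Ideal R} {w w' : ℕ → R}
    (hww : ∀ j, 1 ≤ j → j ≤ n → w' j - w j ∈ I)
    (g : PowerSeries R) (hg0 : PowerSeries.constantCoeff g = 0)
    (hg : CI I (g.subst (Fv p n v) - (Fv p n w).subst
      ![g.subst (X 0 : MvPowerSeries (Fin 2) R), g.subst (X 1 : MvPowerSeries (Fin 2) R)])) :
    CI I (g.subst (Fv p n v) - (Fv p n w').subst
      ![g.subst (X 0 : MvPowerSeries (Fin 2) R), g.subst (X 1 : MvPowerSeries (Fin 2) R)]) := by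
  have h := hg.add (lts_CI_Fv_subst (p := p) hww (g.subst (X 0 : MvPowerSeries (Fin 2) R))
    (g.subst (X 1 : MvPowerSeries (Fin 2) R)) (lts_cc_gX hg0 0) (lts_cc_gX hg0 1))
  rwa [sub_add_sub_cancel] at h

theorem lts_CI_Del {I : Ideal R} {w : ℕ → R} (G : SPt p n w Unit)
    (hg : CI I (PowerSeries.subst (Fv p n v) (G.1 : PowerSeries R) - (Fv p n w).subst
      ![PowerSeries.subst (X 0 : MvPowerSeries (Fin 2) R) (G.1 : PowerSeries R),
        PowerSeries.subst (X 1 : MvPowerSeries (Fin 2) R) (G.1 : PowerSeries R)])) :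
    CI I (ltsDel v w G).1 := by
  rw [ltsDel, SPt.CI_sub_iff]
  exact hg

theorem lts_CI_D {I : Ideal R} {w : ℕ → R} (G : SPt p n w Unit)
    (hg : CI I (PowerSeries.subst (Fv p n v) (G.1 : PowerSeries R) - (Fv p n w).subst
      ![PowerSeries.subst (X 0 : MvPowerSeries (Fin 2) R) (G.1 : PowerSeries R),
        PowerSeries.subst (X 1 : MvPowerSeries (Fin 2) R) (G.1 : PowerSeries R)])) :
    CI I (PowerSeries.subst (mulS p n v p) (G.1 : PowerSeries R) -
      PowerSeries.subst (G.1 : PowerSeries R) (mulS p n w p)) := by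
  rw [CI_iff_map, map_sub, sub_eq_zero] at hg ⊢
  set φ := Ideal.Quotient.mk I
  have hF : MvPowerSeries.map φ (Fv p n v) = Fv p n (fun j => φ (v j)) := Fv_map p n v φ
  have hF' : MvPowerSeries.map φ (Fv p n w) = Fv p n (fun j => φ (w j)) := Fv_map p n w φ
  have hG0 : PowerSeries.constantCoeff (G.1 : PowerSeries R) = 0 := G.2
  have e0 : ∀ (a : MvPowerSeries (Fin 2) R), constantCoeff a = 0 →
      MvPowerSeries.map φ (PowerSeries.subst a (G.1 : PowerSeries R)) =
      PowerSeries.subst (MvPowerSeries.map φ a) (PowerSeries.map φ (G.1 : PowerSeries R)) :=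
    fun a ha => PowerSeries.map_subst (PowerSeries.HasSubst.of_constantCoeff_zero ha) _
  have h1 : IsHomS p n (fun j => φ (v j)) (fun j => φ (w j))
      (PowerSeries.map φ (G.1 : PowerSeries R)) := by
    refine ⟨?_, ?_⟩
    · rw [← PowerSeries.coeff_zero_eq_constantCoeff_apply, PowerSeries.coeff_map,
        PowerSeries.coeff_zero_eq_constantCoeff_apply, hG0, map_zero]
    · rw [e0 _ (lts_F0 v), US1.map_pair φ _ (lts_cc_gX hG0 0) (lts_cc_gX hG0 1), hF, hF',
        e0 _ (constantCoeff_X _), e0 _ (constantCoeff_X _), map_X, map_X] at hg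
      exact hg
  have h2 := h1.comp_mulS p
  have e1 : MvPowerSeries.map φ (PowerSeries.subst (mulS p n v p) (G.1 : PowerSeries R)) =
      PowerSeries.subst (PowerSeries.map φ (mulS p n v p))
        (PowerSeries.map φ (G.1 : PowerSeries R)) :=
    PowerSeries.map_subst (PowerSeries.HasSubst.of_constantCoeff_zero (lts_m0 v)) _
  have e2 : MvPowerSeries.map φ (PowerSeries.subst (G.1 : PowerSeries R) (mulS p n w p)) =
      PowerSeries.subst (PowerSeries.map φ (G.1 : PowerSeries R))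
        (PowerSeries.map φ (mulS p n w p)) :=
    PowerSeries.map_subst (PowerSeries.HasSubst.of_constantCoeff_zero hG0) _
  rw [e1, e2, US1.mulS_map, US1.mulS_map]
  exact h2

theorem lts_nsmul_val {w : ℕ → R} (G : SPt p n w Unit) :
    (p • G).1 = PowerSeries.subst (G.1 : PowerSeries R) (mulS p n w p) :=
  SPt.nsmul_val G p

theorem lts_CI_D' {I : Ideal R} {w : ℕ → R} (G : SPt p n w Unit)
    (hg : CI I (PowerSeries.subst (Fv p n v) (G.1 : PowerSeries R) - (Fv p n w).subst
      ![PowerSeries.subst (X 0 : MvPowerSeries (Fin 2) R) (G.1 : PowerSeries R),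
        PowerSeries.subst (X 1 : MvPowerSeries (Fin 2) R) (G.1 : PowerSeries R)])) :
    CI I (ltsD v w G).1 := by
  rw [ltsD, SPt.CI_sub_iff, lts_nsmul_val, ltsS_val]
  exact lts_CI_D G hg

end modI

/-! ### changing one parameter -/

section change

theorem lts_CI_mulS {I : Ideal R} {w w' : ℕ → R} (hww : ∀ j, 1 ≤ j → j ≤ n → w' j - w j ∈ I) :
    CI I (mulS p n w p - mulS p n w' p) := by
  rw [CI_iff_map, map_sub, sub_eq_zero]
  have h1 := US1.mulS_map (p := p) (n := n) (Ideal.Quotient.mk I) w p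
  have h2 := US1.mulS_map (p := p) (n := n) (Ideal.Quotient.mk I) w' p
  refine h1.trans (Eq.trans ?_ h2.symm)
  refine mulS_congr p n (fun j h1 h2 => ?_) p
  exact (Ideal.Quotient.eq.mpr (hww j h1 h2)).symm

theorem lts_mulS_low (hn : 1 ≤ n) (I N : Ideal R) (hp : (p : R) ∈ N)
    (hIN : ∀ x ∈ I, ∀ y ∈ N, x * y = 0) (hle : I ≤ N) {w w' : ℕ → R}
    (hw : ∀ j, 1 ≤ j → j < n → w j ∈ N) (hwn : w n = 1) (hwn' : w' n = 1)
    (m : ℕ) (hm1 : 1 ≤ m) (hm : m < n) (ε : R) (hε : ε ∈ I) (hww' : ∀ j, j ≠ m → w' j = w j)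
    (hwm : w' m = w m + ε) :
    (∀ i, i < p ^ m → PowerSeries.coeff i (mulS p n w p - mulS p n w' p) = 0) ∧
      PowerSeries.coeff (p ^ m) (mulS p n w p - mulS p n w' p) = -ε := by
  have hp1 : 1 < p := (Fact.out : p.Prime).one_lt
  have hvw : ∀ j, 1 ≤ j → j < n → w' j - w j ∈ I := by
    intro j _ _
    by_cases hj : j = m
    · subst hj; rw [hwm, add_sub_cancel_left]; exact hε
    · rw [hww' j hj, sub_self]; exact I.zero_mem
  have key := fun i hi => mulS_diff (p := p) hn I N hp hIN hle hw hwn hwn' hvw i hi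
  have hlt : p ^ m < p ^ n := Nat.pow_lt_pow_right hp1 hm
  refine ⟨fun i hi => ?_, ?_⟩
  · have h := key i (hi.trans hlt)
    rw [map_sub, ← neg_sub, h]
    split_ifs with h1
    · rw [hww', sub_self, neg_zero]
      intro h2
      rw [h2] at h1
      omega
    · exact neg_zero
  · have h := key _ hlt
    have h3 : p ^ m ≠ 1 := (Nat.one_lt_pow (by omega) hp1).ne'
    rw [map_sub, ← neg_sub, h, Nat.log_pow hp1, if_pos ⟨rfl, h3⟩, hwm, add_sub_cancel_left]

theorem lts_change (hn : 1 ≤ n) (I N : Ideal R) (hp : (p : R) ∈ N)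
    (hIN : ∀ x ∈ I, ∀ y ∈ N, x * y = 0) (hle : I ≤ N) {w w' : ℕ → R}
    (hw : ∀ j, 1 ≤ j → j < n → w j ∈ N) (hwn : w n = 1) (hwn' : w' n = 1)
    (m : ℕ) (hm1 : 1 ≤ m) (hm : m < n) (ε : R) (hε : ε ∈ I) (hww' : ∀ j, j ≠ m → w' j = w j)
    (hwm : w' m = w m + ε)
    (g : PowerSeries R) (hg0 : PowerSeries.constantCoeff g = 0)
    (hg : CI I (g.subst (Fv p n v) - (Fv p n w).subst
      ![g.subst (X 0 : MvPowerSeries (Fin 2) R), g.subst (X 1 : MvPowerSeries (Fin 2) R)])) :
    (∀ i, i < p ^ m → PowerSeries.coeff i ((ltsD v w' (SPt.mk p n w' g hg0)).1 : PowerSeries R) =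
      PowerSeries.coeff i ((ltsD v w (SPt.mk p n w g hg0)).1 : PowerSeries R)) ∧
    PowerSeries.coeff (p ^ m) ((ltsD v w' (SPt.mk p n w' g hg0)).1 : PowerSeries R) =
      PowerSeries.coeff (p ^ m) ((ltsD v w (SPt.mk p n w g hg0)).1 : PowerSeries R)
        - ε * (PowerSeries.coeff 1 g) ^ (p ^ m) := by
  have hI : ∀ x ∈ I, ∀ y ∈ I, x * y = 0 := fun x hx y hy => hIN x hx y (hle hy)
  have hvw : ∀ j, 1 ≤ j → j ≤ n → w' j - w j ∈ I := by
    intro j _ _
    by_cases hj : j = m
    · subst hj; rw [hwm, add_sub_cancel_left]; exact hε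
    · rw [hww' j hj, sub_self]; exact I.zero_mem
  set A : PowerSeries R := PowerSeries.subst (mulS p n v p) g with hA
  set B : PowerSeries R := PowerSeries.subst g (mulS p n w p) with hB
  set B' : PowerSeries R := PowerSeries.subst g (mulS p n w' p) with hB'
  have hA0 : constantCoeff A = 0 := SPt.hom_aux hg0 _ (lts_m0 v)
  have hB0 : constantCoeff B = 0 := SPt.hom_aux (lts_m0 w) _ hg0
  have hB0' : constantCoeff B' = 0 := SPt.hom_aux (lts_m0 w') _ hg0
  have hAB : CI I (A - B) := lts_CI_D (SPt.mk p n w g hg0) hg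
  have hAB' : CI I (A - B') := lts_CI_D (SPt.mk p n w' g hg0) (lts_hg_change hvw g hg0 hg)
  have hD : ltsD v w (SPt.mk p n w g hg0) = SPt.mk p n w A hA0 - SPt.mk p n w B hB0 := by
    have : p • SPt.mk p n w g hg0 = SPt.mk p n w B hB0 := Subtype.ext (lts_nsmul_val _)
    rw [ltsD, this]
    rfl
  have hD' : ltsD v w' (SPt.mk p n w' g hg0) = SPt.mk p n w' A hA0 - SPt.mk p n w' B' hB0' := by
    have : p • SPt.mk p n w' g hg0 = SPt.mk p n w' B' hB0' := Subtype.ext (lts_nsmul_val _)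
    rw [ltsD, this]
    rfl
  set E0 : SPt p n w Unit := SPt.mk p n w (mulS p n w p) (lts_m0 w) -
    SPt.mk p n w (mulS p n w' p) (lts_m0 w') with hE0
  have hCIm : CI I ((SPt.mk p n w (mulS p n w p) (lts_m0 w)).1 -
      (SPt.mk p n w (mulS p n w' p) (lts_m0 w')).1) := lts_CI_mulS hvw
  have hE0I : CI I E0.1 := (SPt.CI_sub_iff _ _).mpr hCIm
  have hBB : SPt.mk p n w B hB0 - SPt.mk p n w B' hB0' = ltsS g hg0 E0 := by
    rw [hE0, map_sub]
    rfl
  have hval : (ltsD v w' (SPt.mk p n w' g hg0)).1 =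
      (ltsD v w (SPt.mk p n w g hg0)).1 + PowerSeries.subst g (E0.1 : PowerSeries R) := by
    rw [hD', SPt.sub_val_congr (w := w) hI hvw A B' hA0 hB0' hAB']
    have : SPt.mk p n w A hA0 - SPt.mk p n w B' hB0' =
        ltsD v w (SPt.mk p n w g hg0) + ltsS g hg0 E0 := by
      rw [← hBB, hD]; abel
    rw [this, SPt.add_val_of_CI hI]
    · rfl
    · exact lts_CI_D' _ hg
    · exact lts_CI_S _ _ _ hE0I
  obtain ⟨u, hu, hEu⟩ := SPt.exists_unit_sub_val hI _ _ hCIm
  obtain ⟨hlo1, hlo2⟩ := lts_mulS_low (p := p) hn I N hp hIN hle hw hwn hwn' m hm1 hm ε hε hww' hwm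
  obtain ⟨hlo3, hlo4⟩ := lts_mul_low _ (E0.1 : PowerSeries R) u hu hEu (p ^ m) hlo1
  obtain ⟨hlo5, hlo6⟩ := lts_subst_low (E0.1 : PowerSeries R) g hg0 (p ^ m) hlo3
  have hadd : ∀ i, PowerSeries.coeff i ((ltsD v w' (SPt.mk p n w' g hg0)).1 : PowerSeries R) =
      PowerSeries.coeff i ((ltsD v w (SPt.mk p n w g hg0)).1 : PowerSeries R) +
      PowerSeries.coeff i (PowerSeries.subst g (E0.1 : PowerSeries R)) := by
    intro i
    rw [hval]
    exact map_add (PowerSeries.coeff (R := R) i) _ _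
  refine ⟨fun i hi => ?_, ?_⟩
  · rw [hadd, hlo5 i hi, add_zero]
  · rw [hadd, hlo6, hlo4]
    have : PowerSeries.coeff (p ^ m) ((SPt.mk p n w (mulS p n w p) (lts_m0 w)).1 -
      (SPt.mk p n w (mulS p n w' p) (lts_m0 w')).1 : PowerSeries R) = -ε := hlo2
    rw [this]
    ring

/-- The linear coefficient of `D` vanishes. -/
theorem lts_D_one {I : Ideal R} (hI : ∀ x ∈ I, ∀ y ∈ I, x * y = 0)
    (g : PowerSeries R) (hg0 : PowerSeries.constantCoeff g = 0)
    (hg : CI I (g.subst (Fv p n v) - (Fv p n w).subst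
      ![g.subst (X 0 : MvPowerSeries (Fin 2) R), g.subst (X 1 : MvPowerSeries (Fin 2) R)])) :
    PowerSeries.coeff 1 ((ltsD v w (SPt.mk p n w g hg0)).1 : PowerSeries R) = 0 := by
  have hAB : CI I ((ltsS (mulS p n v p) (lts_m0 v) (SPt.mk p n w g hg0)).1 -
      (p • (SPt.mk p n w g hg0)).1) := by
    rw [lts_nsmul_val, ltsS_val]
    exact lts_CI_D (SPt.mk p n w g hg0) hg
  obtain ⟨u, hu, hEu⟩ := SPt.exists_unit_sub_val hI _ _ hAB
  rw [lts_nsmul_val, ltsS_val] at hEu
  have hlow : ∀ (E h : PowerSeries R), PowerSeries.constantCoeff E = 0 →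
      PowerSeries.constantCoeff h = 0 →
      PowerSeries.coeff 0 (PowerSeries.subst h E : PowerSeries R) = 0 ∧
      PowerSeries.coeff 1 (PowerSeries.subst h E : PowerSeries R) =
        PowerSeries.coeff 1 E * PowerSeries.coeff 1 h := by
    intro E h hE hh
    obtain ⟨h1, h2⟩ := lts_subst_low E h hh 1 (fun i hi => by
      have : i = 0 := by omega
      subst this
      rw [PowerSeries.coeff_zero_eq_constantCoeff_apply, hE])
    exact ⟨h1 0 (by omega), by rw [h2, pow_one]⟩
  have hm0 : ∀ w : ℕ → R, PowerSeries.constantCoeff (mulS p n w p) = 0 := fun w => lts_m0 w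
  obtain ⟨h1, h2⟩ := hlow g (mulS p n v p) hg0 (hm0 v)
  obtain ⟨h3, h4⟩ := hlow (mulS p n w p) g (hm0 w) hg0
  have hsub : ∀ i, PowerSeries.coeff i (PowerSeries.subst (mulS p n v p) g -
      PowerSeries.subst g (mulS p n w p) : PowerSeries R) =
      PowerSeries.coeff i (PowerSeries.subst (mulS p n v p) g : PowerSeries R) -
      PowerSeries.coeff i (PowerSeries.subst g (mulS p n w p) : PowerSeries R) :=
    fun i => map_sub _ _ _
  obtain ⟨-, h6⟩ := lts_mul_low (PowerSeries.subst (mulS p n v p) g -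
      PowerSeries.subst g (mulS p n w p) : PowerSeries R)
      ((ltsD v w (SPt.mk p n w g hg0)).1 : PowerSeries R) u hu hEu 1 (fun i hi => by
      have : i = 0 := by omega
      subst this
      rw [hsub, h1, h3, sub_zero])
  rw [h6, hsub, h2, h4, mulS_coeff_one, mulS_coeff_one]
  ring

/-- Good parameters exist. -/
theorem lts_params (hn : 1 ≤ n) (I N : Ideal R) (hp : (p : R) ∈ N)
    (hIN : ∀ x ∈ I, ∀ y ∈ N, x * y = 0) (hle : I ≤ N)
    (hw : ∀ j, 1 ≤ j → j < n → w j ∈ N) (hwn : w n = 1)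
    (g : PowerSeries R) (hg0 : PowerSeries.constantCoeff g = 0)
    (hg1 : IsUnit (PowerSeries.coeff 1 g))
    (hg : CI I (g.subst (Fv p n v) - (Fv p n w).subst
      ![g.subst (X 0 : MvPowerSeries (Fin 2) R), g.subst (X 1 : MvPowerSeries (Fin 2) R)]))
    (m : ℕ) (hm : m < n) :
    ∃ w' : ℕ → R, (∀ j, 1 ≤ j → j < n → w' j - w j ∈ I) ∧ w' n = 1 ∧
      ∀ j, j < m + 1 →
        PowerSeries.coeff (p ^ j) ((ltsD v w' (SPt.mk p n w' g hg0)).1 : PowerSeries R) = 0 := by
  have hI : ∀ x ∈ I, ∀ y ∈ I, x * y = 0 := fun x hx y hy => hIN x hx y (hle hy)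
  have hp1 : 1 < p := (Fact.out : p.Prime).one_lt
  induction m with
  | zero =>
    refine ⟨w, fun j _ _ => by rw [sub_self]; exact I.zero_mem, hwn, fun j hj => ?_⟩
    have : j = 0 := by omega
    subst this
    rw [pow_zero]
    exact lts_D_one hI g hg0 hg
  | succ m ih =>
    obtain ⟨w₁, hw₁, hw₁n, hj₁⟩ := ih (by omega)
    have hww : ∀ j, 1 ≤ j → j ≤ n → w₁ j - w j ∈ I := by
      intro j h1 h2
      rcases Nat.lt_or_eq_of_le h2 with h3 | h3
      · exact hw₁ j h1 h3
      · subst h3; rw [hw₁n, hwn, sub_self]; exact I.zero_mem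
    have hg₁ := lts_hg_change (v := v) hww g hg0 hg
    obtain ⟨b, hb⟩ := hg1.exists_right_inv
    set c := PowerSeries.coeff (p ^ (m + 1))
      ((ltsD v w₁ (SPt.mk p n w₁ g hg0)).1 : PowerSeries R) with hc
    have hcI : c ∈ I := lts_CI_D' (SPt.mk p n w₁ g hg0) hg₁ _
    set ε := c * b ^ (p ^ (m + 1)) with hε
    have hεI : ε ∈ I := I.mul_mem_right _ hcI
    have hw₁N : ∀ j, 1 ≤ j → j < n → w₁ j ∈ N := by
      intro j h1 h2
      have := N.add_mem (hle (hw₁ j h1 h2)) (hw j h1 h2)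
      rwa [sub_add_cancel] at this
    set w₂ := Function.update w₁ (m + 1) (w₁ (m + 1) + ε) with hw₂
    have hne : ∀ j, j ≠ m + 1 → w₂ j = w₁ j := fun j hj => Function.update_of_ne hj _ _
    have heq : w₂ (m + 1) = w₁ (m + 1) + ε := Function.update_self _ _ _
    have hw₂n : w₂ n = 1 := by rw [hne n (by omega), hw₁n]
    obtain ⟨h1, h2⟩ := lts_change (v := v) hn I N hp hIN hle hw₁N hw₁n hw₂n (m + 1) (by omega)
      hm ε hεI hne heq g hg0 hg₁
    refine ⟨w₂, fun j hj1 hj2 => ?_, hw₂n, fun j hj => ?_⟩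
    · by_cases hjm : j = m + 1
      · subst hjm
        rw [heq, add_sub_right_comm]
        exact I.add_mem (hw₁ _ hj1 hj2) hεI
      · rw [hne j hjm]; exact hw₁ j hj1 hj2
    · rcases Nat.lt_or_eq_of_le (Nat.le_of_lt_succ hj) with h3 | h3
      · rw [h1 _ (Nat.pow_lt_pow_right hp1 h3)]
        exact hj₁ j h3
      · subst h3
        rw [h2, ← hc, hε, mul_assoc, ← mul_pow, mul_comm b, hb, one_pow, mul_one, sub_self]

end change

/-- `F_v` is congruent to `F_Γ` modulo `N`. -/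
theorem lts_Fv_Gam (N : Ideal R) (hv : ∀ j, 1 ≤ j → j < n → v j ∈ N) (hvn : v n = 1) :
    CI N (Fv p n v - Fv p n (Gam n : ℕ → R)) := by
  refine CI_Fv_sub fun j h1 h2 => ?_
  rcases Nat.lt_or_eq_of_le h2 with h3 | h3
  · have : (Gam n : ℕ → R) j = 0 := if_neg (by omega)
    rw [this, sub_zero]
    exact hv j h1 h3
  · subst h3
    have : (Gam j : ℕ → R) j = 1 := if_pos rfl
    rw [this, hvn, sub_self]
    exact N.zero_mem

/-- `[p]_v(X_i) ≡ X_i^(p^n)` modulo `N`. -/
theorem lts_mulS_X (hn : 1 ≤ n) (N : Ideal R) (hp : (p : R) ∈ N)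
    (hv : ∀ j, 1 ≤ j → j < n → v j ∈ N) (hvn : v n = 1) (i : Fin 2) :
    CI N ((mulS p n v p).subst (X i : MvPowerSeries (Fin 2) R) -
      (X i : MvPowerSeries (Fin 2) R) ^ (p ^ n)) := by
  have hsX : PowerSeries.HasSubst (X i : MvPowerSeries (Fin 2) R) :=
    PowerSeries.HasSubst.of_constantCoeff_zero (constantCoeff_X _)
  have h1 : CI N (mulS p n v p - PowerSeries.X ^ (p ^ n) : PowerSeries R) := by
    intro d
    obtain ⟨k, rfl⟩ : ∃ k : ℕ, d = Finsupp.single () k := ⟨d (), by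
      ext; simp⟩
    have h2 := mulS_coeff_mod (p := p) (v := v) hn N hp hv hvn k
    have h3 : coeff (Finsupp.single () k) (mulS p n v p - PowerSeries.X ^ (p ^ n) : PowerSeries R)
        = PowerSeries.coeff k (mulS p n v p) - (if k = p ^ n then 1 else 0) := by
      rw [← PowerSeries.coeff_X_pow]
      exact map_sub (PowerSeries.coeff (R := R) k) _ _
    rw [h3]
    exact h2
  have h4 := CI_subst_sub (I := N) (mulS p n v p) (PowerSeries.X ^ (p ^ n) : PowerSeries R) h1
    (X i : MvPowerSeries (Fin 2) R) (X i) (constantCoeff_X _) (constantCoeff_X _)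
    (lts_CI_self N _)
  rwa [PowerSeries.subst_pow hsX, PowerSeries.subst_X hsX] at h4

/-- LTS: the deformation step. `g` is a homomorphism `F_v → F_w` modulo `I`; then after changing
`w` and `g` modulo `I` it is a homomorphism. -/
theorem lt_step (hn : 1 ≤ n) (I N : Ideal R) (hp : (p : R) ∈ N)
    (hIN : ∀ x ∈ I, ∀ y ∈ N, x * y = 0) (hle : I ≤ N)
    (hv : ∀ j, 1 ≤ j → j < n → v j ∈ N) (hvn : v n = 1)
    (hw : ∀ j, 1 ≤ j → j < n → w j ∈ N) (hwn : w n = 1)
    (g : PowerSeries R) (hg0 : PowerSeries.constantCoeff g = 0)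
    (hg1 : IsUnit (PowerSeries.coeff 1 g))
    (hg : CI I (g.subst (Fv p n v) - (Fv p n w).subst
      ![g.subst (X 0 : MvPowerSeries (Fin 2) R), g.subst (X 1 : MvPowerSeries (Fin 2) R)])) :
    ∃ (w' : ℕ → R) (g' : PowerSeries R), (∀ j, 1 ≤ j → j < n → w' j - w j ∈ I) ∧ w' n = 1 ∧
      CI I (g' - g) ∧ IsHomS p n v w' g' := by
  have hI : ∀ x ∈ I, ∀ y ∈ I, x * y = 0 := fun x hx y hy => hIN x hx y (hle hy)
  obtain ⟨w', hw', hw'n, hj⟩ := lts_params (v := v) hn I N hp hIN hle hw hwn g hg0 hg1 hg (n - 1)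
    (by omega)
  rw [Nat.sub_add_cancel hn] at hj
  have hww : ∀ j, 1 ≤ j → j ≤ n → w' j - w j ∈ I := by
    intro j h1 h2
    rcases Nat.lt_or_eq_of_le h2 with h3 | h3
    · exact hw' j h1 h3
    · subst h3; rw [hw'n, hwn, sub_self]; exact I.zero_mem
  have hg' := lts_hg_change (v := v) hww g hg0 hg
  set G : SPt p n w' Unit := SPt.mk p n w' g hg0 with hG
  have hDI : CI I (ltsD v w' G).1 := lts_CI_D' G hg'
  have hDelI : CI I (ltsDel v w' G).1 := lts_CI_Del G hg'
  have hDel0 : constantCoeff (ltsDel v w' G).1 = 0 := (ltsDel v w' G).2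
  have hF0 : constantCoeff (Fv p n v) = 0 := Fv_constantCoeff p n v
  have hG0 : constantCoeff (Fv p n (Gam n : ℕ → R)) = 0 := Fv_constantCoeff p n _
  have hFG := lts_Fv_Gam (p := p) N hv hvn
  -- values of the pull backs of points with coefficients in `I`
  have hpull : ∀ x : SPt p n w' Unit, CI I x.1 →
      (ltsS (Fv p n v) hF0 x - (ltsS (X 0) (constantCoeff_X _) x +
        ltsS (X 1) (constantCoeff_X _) x)).1 =
      PowerSeries.subst (Fv p n (Gam n : ℕ → R)) (x.1 : PowerSeries R) -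
        PowerSeries.subst (X 0 : MvPowerSeries (Fin 2) R) (x.1 : PowerSeries R) -
        PowerSeries.subst (X 1 : MvPowerSeries (Fin 2) R) (x.1 : PowerSeries R) := by
    intro x hx
    have ha := lts_CI_S (Fv p n v) hF0 x hx
    have hb := lts_CI_S (X 0 : MvPowerSeries (Fin 2) R) (constantCoeff_X _) x hx
    have hc := lts_CI_S (X 1 : MvPowerSeries (Fin 2) R) (constantCoeff_X _) x hx
    have hbc := SPt.add_val_of_CI hI _ _ hb hc
    rw [SPt.sub_val_of_CI hI _ _ ha (by rw [hbc]; exact hb.add hc), hbc, ltsS_val, ltsS_val,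
      ltsS_val, subst_eq_of_CI hIN (x.1 : PowerSeries R) hx (Fv p n v)
        (Fv p n (Gam n : ℕ → R)) hF0 hG0 hFG]
    abel
  have hrel := lts_rel (p := p) (n := n) v w' G
  rw [SPt.p_smul_of_CI hI (fun x hx => hIN x hx _ hp) _ hDelI, sub_zero] at hrel
  have hrel2 := congrArg Subtype.val hrel
  rw [hpull _ hDI] at hrel2
  have hT : (SPt.sbst _ (lts_cc_pair p n v) (ltsDel v w' G)).1 =
      (ltsDel v w' G).1.subst ![(X 0 : MvPowerSeries (Fin 2) R) ^ (p ^ n),
          (X 1 : MvPowerSeries (Fin 2) R) ^ (p ^ n)] := by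
    refine substMv_eq_of_CI hIN (ltsDel v w' G).1 hDelI _ _ (lts_cc_pair p n v) ?_ ?_
    · have hpn : p ^ n ≠ 0 := pow_ne_zero _ (Fact.out : p.Prime).ne_zero
      intro i; fin_cases i
      · exact (by rw [map_pow, constantCoeff_X, zero_pow hpn] :
          constantCoeff ((X 0 : MvPowerSeries (Fin 2) R) ^ (p ^ n)) = 0)
      · exact (by rw [map_pow, constantCoeff_X, zero_pow hpn] :
          constantCoeff ((X 1 : MvPowerSeries (Fin 2) R) ^ (p ^ n)) = 0)
    · intro i; fin_cases i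
      · exact lts_mulS_X hn N hp hv hvn 0
      · exact lts_mulS_X hn N hp hv hvn 1
  rw [hT] at hrel2
  obtain ⟨H, hHI, hDH, hH⟩ := lt_descent I N hp hIN hle n ((ltsD v w' G).1 : PowerSeries R) hDI hj
    (ltsDel v w' G).1 hDelI hrel2
  have hH0 : constantCoeff H = 0 := by
    have h1 := lts_constantCoeff_subst H (PowerSeries.X ^ (p ^ n)) (by
      simp [(Fact.out : p.Prime).ne_zero])
    rw [← hDH] at h1
    exact h1.symm.trans (ltsD v w' G).2
  set Hp : SPt p n w' Unit := SPt.mk p n w' H hH0 with hHp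
  have hHv : ltsS (Fv p n v) hF0 Hp - (ltsS (X 0) (constantCoeff_X _) Hp +
        ltsS (X 1) (constantCoeff_X _) Hp) = ltsDel v w' G := by
    apply Subtype.ext
    rw [hpull Hp hHI]
    exact hH
  refine ⟨w', ((G - Hp).1 : PowerSeries R), hw', hw'n, ?_, (G - Hp).2, ?_⟩
  · have h1 : CI I (G - (G - Hp)).1 := by
      rw [sub_sub_cancel]; exact hHI
    rw [SPt.CI_sub_iff] at h1
    have h2 := h1.neg
    rwa [neg_sub] at h2
  · have h1 : ltsS (Fv p n v) hF0 (G - Hp) = ltsS (X 0) (constantCoeff_X _) (G - Hp) +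
        ltsS (X 1) (constantCoeff_X _) (G - Hp) := by
      have h2 : ltsS (Fv p n v) hF0 G - (ltsS (X 0) (constantCoeff_X _) G +
        ltsS (X 1) (constantCoeff_X _) G) = ltsDel v w' G := rfl
      rw [← hHv] at h2
      simp only [map_sub]
      have h3 := sub_eq_iff_eq_add.mp h2
      rw [h3]
      abel
    exact congrArg Subtype.val h1

end Vale.Agent.P217
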