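import Vale.Agent.P217.LTDesc
import Vale.Agent.P217.LTCPD

/-!
# P217, module LTU: uniqueness (helper95)

Induction on `r` (pass to `R / N^(r-1)`): then `w = v + ε`, `ψ = X +_w h`, `ε, h ∈ I = N^(r-1)`,
`ψ([p]_v X) = [p]_w(ψ)` gives `[p]_w(X) -_w [p]_v(X) = h(X^{p^n})`, and `mulS_diff` gives `ε = 0`,
then `h = 0`.
-/

namespace Vale.Agent.P217

open MvPowerSeries

universe u

section aux

variable {R : Type u} [CommRing R] {p n : ℕ} [Fact p.Prime] {v w : ℕ → R}

theorem ltu_CI_map {S : Type*} [CommRing S] {τ : Type*} (φ : R →+* S) {N : Ideal R}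
    {a : MvPowerSeries τ R} (ha : CI N a) : CI (N.map φ) (a.map φ) := by
  intro d
  rw [coeff_map]
  exact Ideal.mem_map_of_mem φ (ha d)

theorem ltu_mulS_congr (hvw : ∀ j, 1 ≤ j → j ≤ n → v j = w j) (m : ℕ) :
    mulS p n v m = mulS p n w m := by
  induction m with
  | zero => rfl
  | succ m ih => rw [mulS, mulS, ih, Fv_congr p n v w hvw]

/-- the step -/
theorem ltu_step (hn : 1 ≤ n) (I N : Ideal R) (hp : (p : R) ∈ N)
    (hIN : ∀ x ∈ I, ∀ y ∈ N, x * y = 0) (hle : I ≤ N)
    (hv : ∀ j, 1 ≤ j → j < n → v j ∈ N) (hvn : v n = 1) (hwn : w n = 1)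
    (hvw : ∀ j, 1 ≤ j → j ≤ n → w j - v j ∈ I)
    (ψ : PowerSeries R) (hψ : IsHomS p n v w ψ) (hψI : CI I (ψ - PowerSeries.X)) :
    (∀ j, 1 ≤ j → j ≤ n → v j = w j) ∧ ψ = PowerSeries.X := by
  have hpp : p.Prime := Fact.out
  have hI2 : ∀ x ∈ I, ∀ y ∈ I, x * y = 0 := fun x hx y hy => hIN x hx y (hle hy)
  have hψ0 : constantCoeff (ψ : MvPowerSeries Unit R) = 0 := hψ.1
  obtain ⟨a, ha⟩ : ∃ a, a = mulS p n v p := ⟨_, rfl⟩
  obtain ⟨b, hb⟩ : ∃ b, b = mulS p n w p := ⟨_, rfl⟩
  have ha0 : constantCoeff (a : MvPowerSeries Unit R) = 0 := by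
    rw [ha]; exact US1.mulS_cc v p
  have hb0 : constantCoeff (b : MvPowerSeries Unit R) = 0 := by
    rw [hb]; exact US1.mulS_cc w p
  -- the points
  obtain ⟨Ψ, hΨ⟩ : ∃ Ψ, Ψ = SPt.mk p n w (ψ : MvPowerSeries Unit R) hψ0 := ⟨_, rfl⟩
  obtain ⟨x, hx⟩ : ∃ x, x = SPt.X p n w () := ⟨_, rfl⟩
  have hΨx : CI I (Ψ - x).1 := by
    rw [SPt.CI_sub_iff, hΨ, hx]
    exact hψI
  have hph : p • (Ψ - x) = 0 := SPt.p_smul_of_CI hI2 (fun y hy => hIN y hy _ hp) _ hΨx
  have hpΨ : (p • Ψ).1 = b := by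
    have h1 : p • Ψ = p • x := by
      rw [← sub_eq_zero, ← smul_sub, hph]
    rw [h1, SPt.nsmul_val, hx, hb]
    exact PowerSeries.X_subst _
  have hcomp : ψ.subst a = b.subst ψ := by
    rw [ha, hb]; exact hψ.comp_mulS p
  have hpΨ2 : (p • Ψ).1 = b.subst ψ := by
    rw [SPt.nsmul_val, hΨ, hb]
    rfl
  have hψa : (ψ.subst a : PowerSeries R) = b := by
    rw [hcomp, ← hpΨ2]; exact hpΨ
  -- substitute `a`
  obtain ⟨s, hs⟩ : ∃ s : Unit → MvPowerSeries Unit R, s = fun _ => a := ⟨_, rfl⟩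
  have hs0 : ∀ i, constantCoeff (s i) = 0 := by intro i; rw [hs]; exact ha0
  obtain ⟨Sb, hSb⟩ : ∃ Sb : SPt p n w Unit →+ SPt p n w Unit, Sb = SPt.sbst s hs0 := ⟨_, rfl⟩
  have hSval : ∀ c : SPt p n w Unit, (Sb c).1 = PowerSeries.subst a (c.1 : PowerSeries R) := by
    intro c
    rw [hSb]
    show MvPowerSeries.subst s c.1 = _
    rw [hs]
    rfl
  have hSx : (Sb x).1 = a := by
    rw [hSval, hx]
    exact PowerSeries.subst_X (PowerSeries.HasSubst.of_constantCoeff_zero ha0)
  have hSΨ : (Sb Ψ).1 = b := by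
    rw [hSval, hΨ]
    exact hψa
  -- the difference
  obtain ⟨h, hh⟩ : ∃ h : PowerSeries R, h = (Ψ - x).1 := ⟨_, rfl⟩
  have hh0 : constantCoeff (h : MvPowerSeries Unit R) = 0 := by rw [hh]; exact (Ψ - x).2
  have hhI : CI I (h : MvPowerSeries Unit R) := by rw [hh]; exact hΨx
  have hdiff : (Sb Ψ - Sb x).1 = PowerSeries.subst a h := by
    rw [← map_sub, hSval, hh]
  have haN : CI N ((a : MvPowerSeries Unit R) - ((PowerSeries.X : PowerSeries R) ^ (p ^ n))) := by
    intro d
    have h1 := mulS_coeff_mod (p := p) (n := n) (v := v) hn N hp hv hvn (d ())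
    have h2 : d = Finsupp.single () (d ()) := by
      ext; simp
    have h4 : PowerSeries.coeff (d ()) ((a : PowerSeries R) - PowerSeries.X ^ (p ^ n)) =
        PowerSeries.coeff (d ()) a - (if d () = p ^ n then 1 else 0) := by
      rw [← PowerSeries.coeff_X_pow, map_sub]
    have h3 : coeff (Finsupp.single () (d ()))
        ((a : MvPowerSeries Unit R) - ((PowerSeries.X : PowerSeries R) ^ (p ^ n))) =
        PowerSeries.coeff (d ()) a - (if d () = p ^ n then 1 else 0) := h4
    rw [h2, h3, ha]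
    exact h1
  have hXn0 : constantCoeff ((PowerSeries.X : PowerSeries R) ^ (p ^ n) :
      MvPowerSeries Unit R) = 0 := by
    have : PowerSeries.constantCoeff ((PowerSeries.X : PowerSeries R) ^ (p ^ n)) = 0 := by
      rw [map_pow, PowerSeries.constantCoeff_X, zero_pow (pow_ne_zero _ hpp.ne_zero)]
    exact this
  have hdiff2 : (Sb Ψ - Sb x).1 = PowerSeries.subst ((PowerSeries.X : PowerSeries R) ^ (p ^ n)) h := by
    rw [hdiff]
    exact subst_eq_of_CI hIN h hhI _ _ ha0 hXn0 haN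
  have hpn : p ^ n ≠ 0 := pow_ne_zero _ hpp.ne_zero
  have hlow : ∀ i, i < p ^ n → PowerSeries.coeff i ((Sb Ψ - Sb x).1 : PowerSeries R) = 0 := by
    intro i hi
    have e : ((Sb Ψ - Sb x).1 : PowerSeries R) =
      (PowerSeries.subst ((PowerSeries.X : PowerSeries R) ^ (p ^ n)) h : PowerSeries R) := hdiff2
    rw [e, PowerSeries.coeff_subst_X_pow hpn]
    split_ifs with hd
    · have : i = 0 := Nat.eq_zero_of_dvd_of_lt hd hi
      rw [this, Nat.zero_div, PowerSeries.coeff_zero_eq_constantCoeff_apply]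
      have h0 : PowerSeries.constantCoeff h = 0 := hh0
      rw [h0, map_zero]
    · rfl
  have hab : CI I ((Sb Ψ).1 - (Sb x).1) := by
    rw [← SPt.CI_sub_iff, hdiff]
    have h1 := CI_subst_sub (I := I) (h : PowerSeries R) 0 (by rw [sub_zero]; exact hhI) a a ha0 ha0
      (by
        rw [sub_self]
        intro d
        rw [map_zero]
        exact I.zero_mem)
    have h2 : PowerSeries.subst (a : MvPowerSeries Unit R) (0 : PowerSeries R) = 0 := by
      rw [← PowerSeries.coe_substAlgHom (PowerSeries.HasSubst.of_constantCoeff_zero ha0), map_zero]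
    rw [h2, sub_zero] at h1
    exact h1
  obtain ⟨t, ht1, ht2⟩ := SPt.exists_unit_sub_val hI2 (Sb Ψ) (Sb x) hab
  rw [hSΨ, hSx] at ht2
  have hlow2 : ∀ i, i < p ^ n → PowerSeries.coeff i b - PowerSeries.coeff i a = 0 := by
    intro i hi
    have e : (b - a : PowerSeries R) = ((Sb Ψ - Sb x).1 : PowerSeries R) * (t : PowerSeries R) := ht2
    rw [← map_sub, e, PowerSeries.coeff_mul]
    apply Finset.sum_eq_zero
    intro q hq
    have hq' := Finset.HasAntidiagonal.mem_antidiagonal.1 hq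
    rw [hlow q.1 (by omega), zero_mul]
  have heq : ∀ j, 1 ≤ j → j ≤ n → v j = w j := by
    intro j hj1 hjn
    rcases Nat.lt_or_ge j n with hj | hj
    · have h1 := mulS_diff (p := p) hn I N hp hIN hle hv hvn hwn
        (fun j h1 h2 => hvw j h1 h2.le) (p ^ j) (Nat.pow_lt_pow_right hpp.one_lt hj)
      rw [Nat.log_pow hpp.one_lt, if_pos ⟨rfl, (Nat.one_lt_pow (by omega) hpp.one_lt).ne'⟩,
        ← ha, ← hb, hlow2 _ (Nat.pow_lt_pow_right hpp.one_lt hj)] at h1
      exact (sub_eq_zero.1 h1.symm).symm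
    · have : j = n := by omega
      rw [this, hvn, hwn]
  refine ⟨heq, ?_⟩
  have hab' : a = b := by
    rw [ha, hb]; exact ltu_mulS_congr heq p
  have hz : Sb Ψ - Sb x = 0 := by
    rw [sub_eq_zero]
    apply Subtype.ext
    rw [hSΨ, hSx, hab']
  have hh' : h = 0 := by
    have h1 : (PowerSeries.subst ((PowerSeries.X : PowerSeries R) ^ (p ^ n)) h : PowerSeries R) = 0 := by
      have h2 := hdiff2
      rw [hz] at h2
      exact h2.symm
    ext i
    have h2 := congrArg (PowerSeries.coeff (p ^ n * i)) h1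
    rw [PowerSeries.coeff_subst_X_pow hpn, if_pos (Dvd.intro _ rfl),
      Nat.mul_div_cancel_left _ (Nat.pos_of_ne_zero hpn), map_zero] at h2
    rw [map_zero]
    exact h2
  have hfin : Ψ = x := by
    rw [← sub_eq_zero]
    apply Subtype.ext
    rw [← hh, hh']
    rfl
  have := congrArg Subtype.val hfin
  rw [hΨ, hx] at this
  exact this

end aux

theorem ltu_main {p n : ℕ} [Fact p.Prime] (hn : 1 ≤ n) (r : ℕ) :
    ∀ (R : Type u) [CommRing R] (v w : ℕ → R) (N : Ideal R), (p : R) ∈ N → N ^ r = ⊥ →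
    (∀ j, 1 ≤ j → j < n → v j ∈ N) → v n = 1 → (∀ j, 1 ≤ j → j < n → w j ∈ N) → w n = 1 →
    ∀ ψ : PowerSeries R, IsHomS p n v w ψ → CI N (ψ - PowerSeries.X) →
    (∀ j, 1 ≤ j → j ≤ n → v j = w j) ∧ ψ = PowerSeries.X := by
  induction r with
  | zero =>
    intro R _ v w N _ hN _ _ _ _ ψ _ _
    rw [pow_zero, Ideal.one_eq_top] at hN
    have h1 : (1 : R) = 0 := by
      have : (1 : R) ∈ (⊥ : Ideal R) := by rw [← hN]; trivial
      exact this
    have : Subsingleton R := subsingleton_of_zero_eq_one h1.symm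
    exact ⟨fun j _ _ => Subsingleton.elim _ _, PowerSeries.ext fun _ => Subsingleton.elim _ _⟩
  | succ r ih =>
    intro R _ v w N hp hN hv hvn hw hwn ψ hψ hψN
    rcases Nat.eq_zero_or_pos r with rfl | hr
    · rw [zero_add, pow_one] at hN
      rw [hN] at hv hw hψN
      refine ⟨fun j h1 h2 => ?_, ?_⟩
      · rcases Nat.lt_or_ge j n with h | h
        · have e1 : v j = 0 := hv j h1 h
          have e2 : w j = 0 := hw j h1 h
          rw [e1, e2]
        · have : j = n := by omega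
          rw [this, hvn, hwn]
      · have h1 : ψ - PowerSeries.X = 0 := by
          refine MvPowerSeries.ext fun d => ?_
          rw [map_zero]
          exact hψN d
        exact sub_eq_zero.1 h1
    · have hle : N ^ r ≤ N := Ideal.pow_le_self (by omega)
      have hIN : ∀ x ∈ N ^ r, ∀ y ∈ N, x * y = 0 := by
        intro x hx y hy
        have : x * y ∈ N ^ (r + 1) := by
          rw [pow_succ]; exact Ideal.mul_mem_mul hx hy
        rw [hN] at this
        exact this
      have hih := ih (R ⧸ N ^ r) (fun j => Ideal.Quotient.mk (N ^ r) (v j))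
        (fun j => Ideal.Quotient.mk (N ^ r) (w j)) (N.map (Ideal.Quotient.mk (N ^ r)))
        (by
          have := Ideal.mem_map_of_mem (Ideal.Quotient.mk (N ^ r)) hp
          rwa [map_natCast] at this)
        (by rw [← Ideal.map_pow, Ideal.map_quotient_self])
        (fun j h1 h2 => Ideal.mem_map_of_mem _ (hv j h1 h2))
        (by simp only [hvn, map_one])
        (fun j h1 h2 => Ideal.mem_map_of_mem _ (hw j h1 h2))
        (by simp only [hwn, map_one])
        (PowerSeries.map (Ideal.Quotient.mk (N ^ r)) ψ)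
        (hψ.map (Ideal.Quotient.mk (N ^ r)))
        (by
          have h1 := ltu_CI_map (Ideal.Quotient.mk (N ^ r)) hψN
          have h2 : MvPowerSeries.map (Ideal.Quotient.mk (N ^ r)) (ψ - PowerSeries.X) =
              PowerSeries.map (Ideal.Quotient.mk (N ^ r)) ψ - PowerSeries.X := by
            have : PowerSeries.map (Ideal.Quotient.mk (N ^ r)) (ψ - PowerSeries.X) =
              PowerSeries.map (Ideal.Quotient.mk (N ^ r)) ψ - PowerSeries.X := by
              rw [map_sub, PowerSeries.map_X]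
            exact this
          rw [h2] at h1
          exact h1)
      refine ltu_step hn (N ^ r) N hp hIN hle hv hvn hwn ?_ ψ hψ ?_
      · intro j h1 h2
        have := hih.1 j h1 h2
        rw [Ideal.Quotient.eq] at this
        rw [← neg_sub]
        exact (N ^ r).neg_mem this
      · intro d
        have h1 := hih.2
        have h2 : MvPowerSeries.coeff d (PowerSeries.map (Ideal.Quotient.mk (N ^ r)) ψ :
            MvPowerSeries Unit (R ⧸ N ^ r)) = MvPowerSeries.coeff d (PowerSeries.map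
              (Ideal.Quotient.mk (N ^ r)) (PowerSeries.X : PowerSeries R)) := by
          rw [h1, PowerSeries.map_X]
        have h3 : Ideal.Quotient.mk (N ^ r) (MvPowerSeries.coeff d (ψ : MvPowerSeries Unit R)) =
            Ideal.Quotient.mk (N ^ r) (MvPowerSeries.coeff d
              (PowerSeries.X : MvPowerSeries Unit R)) := h2
        rw [Ideal.Quotient.eq] at h3
        rw [map_sub]
        exact h3

variable {R : Type u} [CommRing R] {p n : ℕ} [Fact p.Prime] {v w : ℕ → R}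

/-- LTU: uniqueness. -/
theorem lt_unique (hn : 1 ≤ n) (N : Ideal R) (hp : (p : R) ∈ N) (r : ℕ) (hN : N ^ r = ⊥)
    (hv : ∀ j, 1 ≤ j → j < n → v j ∈ N) (hvn : v n = 1)
    (hw : ∀ j, 1 ≤ j → j < n → w j ∈ N) (hwn : w n = 1)
    (ψ : PowerSeries R) (hψ : IsHomS p n v w ψ) (hψN : CI N (ψ - PowerSeries.X)) :
    (∀ j, 1 ≤ j → j ≤ n → v j = w j) ∧ ψ = PowerSeries.X :=
  ltu_main hn r R v w N hp hN hv hvn hw hwn ψ hψ hψN

end Vale.Agent.P217
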