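import Vale.Agent.P217.Homs
import Vale.Agent.P217.FELUniv
import Vale.Agent.P217.FGLA

/-!
# P217, part L: the convergent logarithm on the open unit ball (LG1)

`C` complete ultrametric of characteristic zero with `‖p‖ < 1`, `v : ℕ → OO C`.
-/

namespace Vale.Agent.P217

open MvPowerSeries Filter Topology

variable {p n : ℕ} [Fact p.Prime] {C : Type*} [NormedField C] [IsUltrametricDist C]
  [CompleteSpace C] [CharZero C]

/-- Coefficient of `X^(p^k)` of the logarithm of `F_v`, in `C`. -/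
noncomputable def ellC (p n : ℕ) (v : ℕ → OO C) (k : ℕ) : C :=
  ellOf p n (fun j => ((v j : OO C) : C)) k

/-- The logarithm `∑_k ell_k y^(p^k)`. -/
noncomputable def plog (p n : ℕ) (v : ℕ → OO C) (y : OO C) : C :=
  ∑' k : ℕ, ellC p n v k * (y : C) ^ (p ^ k)

omit [CompleteSpace C] in
/-- LG1: `‖ell_k‖ ≤ ‖p‖^(-k)`. -/
theorem norm_ellC_le (v : ℕ → OO C) (k : ℕ) : ‖ellC p n v k‖ * ‖(p : C)‖ ^ k ≤ 1 := by
  obtain ⟨P, hP⟩ := ell_int p n k
  have h1 : (p : C) ^ k * ellC p n v k =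
      ((MvPolynomial.eval₂ (Int.castRingHom (OO C)) v P : OO C) : C) := by
    have h2 := congrArg (specQ (fun j => ((v j : OO C) : C))) hP
    rw [map_mul] at h2
    have h3 : specQ (fun j => ((v j : OO C) : C)) (MvPolynomial.C ((p : ℚ) ^ k)) =
        (p : C) ^ k := by
      unfold specQ
      rw [MvPolynomial.coe_eval₂Hom, MvPolynomial.eval₂_C, map_pow, map_natCast]
    rw [h3] at h2
    have h4 : ((MvPolynomial.eval₂ (Int.castRingHom (OO C)) v P : OO C) : C) =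
        specQ (fun j => ((v j : OO C) : C)) (P.map (Int.castRingHom ℚ)) := by
      unfold specQ
      rw [MvPolynomial.coe_eval₂Hom, MvPolynomial.eval₂_map]
      have h5 := MvPolynomial.hom_eval₂ P (Int.castRingHom (OO C)) (OO C).subtype v
      have h6 : (OO C).subtype.comp (Int.castRingHom (OO C)) =
          (algebraMap ℚ C).comp (Int.castRingHom ℚ) := RingHom.ext_int _ _
      rw [h6] at h5
      exact h5
    rw [h4]
    exact h2.symm
  have h2 : ‖(p : C) ^ k * ellC p n v k‖ ≤ 1 := by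
    rw [h1]
    exact (MvPolynomial.eval₂ (Int.castRingHom (OO C)) v P).2
  rw [norm_mul, norm_pow, mul_comm] at h2
  exact h2

omit [Fact p.Prime] [CompleteSpace C] in
theorem ellC_zero (v : ℕ → OO C) : ellC p n v 0 = 1 := by
  unfold ellC ellOf
  rw [ell, map_one]

omit [CompleteSpace C] in
/-- LG1: the recursion of the coefficients (`1 ≤ n`). -/
theorem ellC_succ (v : ℕ → OO C) (k : ℕ) : (p : C) * ellC p n v (k + 1) =
    ∑ i ∈ Finset.range (k + 1), if k + 1 - i ≤ n then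
      ellC p n v i * ((v (k + 1 - i) : OO C) : C) ^ (p ^ i) else 0 := by
  have h1 := congrArg (specQ (fun j => ((v j : OO C) : C))) (uni_right p n (k + 1) (by omega))
  rw [map_mul, map_sum] at h1
  have h3 : specQ (fun j => ((v j : OO C) : C)) (MvPolynomial.C (p : ℚ)) = (p : C) := by
    unfold specQ
    rw [MvPolynomial.coe_eval₂Hom, MvPolynomial.eval₂_C, map_natCast]
  rw [h3] at h1
  unfold ellC ellOf
  rw [h1]
  refine Finset.sum_congr rfl fun i _ => ?_
  split_ifs with h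
  · rw [map_mul, map_pow]
    congr 2
    unfold specQ
    rw [MvPolynomial.coe_eval₂Hom, MvPolynomial.eval₂_X]
  · rw [map_zero]

omit [Fact p.Prime] in
/-- the real majorant is summable -/
theorem lg1_summable {c r : ℝ} (hp : 2 ≤ p) (hc : 0 ≤ c) (hr0 : 0 ≤ r) (hr1 : r < 1) :
    Summable fun k : ℕ => c ^ k * r ^ (p ^ k) := by
  obtain ⟨N, hN⟩ : ∃ N : ℕ, c * r ^ N < 1 / 2 := by
    have h1 : Tendsto (fun N : ℕ => c * r ^ N) atTop (𝓝 (c * 0)) :=
      (tendsto_pow_atTop_nhds_zero_of_lt_one hr0 hr1).const_mul c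
    rw [mul_zero] at h1
    exact (h1.eventually (gt_mem_nhds (by norm_num : (0 : ℝ) < 1 / 2))).exists
  have h2 : ∀ᶠ k : ℕ in atTop, N * k ≤ 2 ^ k := by
    have h3 := tendsto_pow_const_div_const_pow_of_one_lt 1 (by norm_num : (1 : ℝ) < 2)
    have h4 : (0 : ℝ) < 1 / (N + 1) := by positivity
    filter_upwards [h3.eventually (gt_mem_nhds h4)] with k hk
    rw [pow_one, div_lt_div_iff₀ (by positivity) (by positivity), one_mul] at hk
    have h5 : ((k * (N + 1) : ℕ) : ℝ) < ((2 ^ k : ℕ) : ℝ) := by push_cast; exact hk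
    have h6 : k * (N + 1) < 2 ^ k := by exact_mod_cast h5
    nlinarith
  refine Summable.of_norm_bounded_eventually_nat (g := fun k : ℕ => (1 / 2 : ℝ) ^ k)
    (summable_geometric_of_lt_one (by norm_num) (by norm_num)) ?_
  filter_upwards [h2] with k hk
  rw [Real.norm_eq_abs, abs_of_nonneg (by positivity)]
  have h7 : N * k ≤ p ^ k := hk.trans (Nat.pow_le_pow_left hp k)
  calc c ^ k * r ^ (p ^ k) ≤ c ^ k * r ^ (N * k) :=
        mul_le_mul_of_nonneg_left (pow_le_pow_of_le_one hr0 hr1.le h7) (by positivity)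
    _ = (c * r ^ N) ^ k := by rw [mul_pow, ← pow_mul]
    _ ≤ (1 / 2) ^ k := pow_le_pow_left₀ (by positivity) hN.le k

omit [CompleteSpace C] in
theorem lg1_term (v : ℕ → OO C) {y : OO C} {r : ℝ} (hy : ‖(y : C)‖ ≤ r) (k : ℕ) :
    ‖ellC p n v k * (y : C) ^ (p ^ k)‖ ≤ (‖(p : C)‖⁻¹) ^ k * r ^ (p ^ k) := by
  have hp0 : (p : C) ≠ 0 := Nat.cast_ne_zero.2 (Fact.out : p.Prime).ne_zero
  have hpn : 0 < ‖(p : C)‖ := norm_pos_iff.2 hp0
  rw [norm_mul, norm_pow]
  apply mul_le_mul _ (pow_le_pow_left₀ (norm_nonneg _) hy _) (by positivity) (by positivity)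
  have h1 := norm_ellC_le (p := p) (n := n) v k
  rw [inv_pow, ← one_div, le_div_iff₀ (by positivity)]
  exact h1

/-- LG1 -/
theorem plog_summable (hp : ‖(p : C)‖ < 1) (v : ℕ → OO C) {y : OO C} (hy : ‖(y : C)‖ < 1) :
    Summable fun k : ℕ => ellC p n v k * (y : C) ^ (p ^ k) := by
  refine Summable.of_norm_bounded
    (g := fun k : ℕ => (‖(p : C)‖⁻¹) ^ k * ‖(y : C)‖ ^ (p ^ k))
    (lg1_summable (Fact.out : p.Prime).two_le (by positivity) (norm_nonneg _) hy) fun k => ?_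
  exact lg1_term v le_rfl k

omit [CompleteSpace C] in
theorem plog_zero (v : ℕ → OO C) : plog p n v 0 = 0 := by
  unfold plog
  have h : ∀ k : ℕ, ellC p n v k * (((0 : OO C) : OO C) : C) ^ (p ^ k) = 0 := by
    intro k
    have : (((0 : OO C) : OO C) : C) = 0 := rfl
    rw [this, zero_pow (pow_ne_zero _ (Fact.out : p.Prime).ne_zero), mul_zero]
  rw [tsum_congr h, tsum_zero]

omit [CompleteSpace C] [CharZero C] in
theorem lg1_norm_tsum {f : ℕ → C} {R : ℝ} (hR : 0 ≤ R) (h : ∀ k, ‖f k‖ ≤ R) :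
    ‖∑' k, f k‖ ≤ R := by
  by_cases hs : Summable f
  · have h1 : ∀ s : Finset ℕ, ‖∑ k ∈ s, f k‖ ≤ R := fun s =>
      IsUltrametricDist.norm_sum_le_of_forall_le_of_nonneg hR fun k _ => h k
    exact le_of_tendsto hs.hasSum.norm (Eventually.of_forall h1)
  · rw [tsum_eq_zero_of_not_summable hs, norm_zero]; exact hR

/-- LG1: the logarithm is close to the identity near zero. -/
theorem plog_approx (hp : ‖(p : C)‖ < 1) (v : ℕ → OO C) {y : OO C} (hy : ‖(y : C)‖ ≤ ‖(p : C)‖) :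
    ‖plog p n v y - (y : C)‖ * ‖(p : C)‖ ≤ ‖(y : C)‖ ^ 2 := by
  have hp0 : (p : C) ≠ 0 := Nat.cast_ne_zero.2 (Fact.out : p.Prime).ne_zero
  have hpn : 0 < ‖(p : C)‖ := norm_pos_iff.2 hp0
  have hpp := (Fact.out : p.Prime)
  have hs := plog_summable (n := n) hp v (hy.trans_lt hp)
  have h1 : plog p n v y - (y : C) = ∑' k : ℕ, ellC p n v (k + 1) * (y : C) ^ (p ^ (k + 1)) := by
    unfold plog
    rw [hs.tsum_eq_zero_add, ellC_zero, pow_zero, pow_one, one_mul, add_sub_cancel_left]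
  rw [h1, ← le_div_iff₀ hpn]
  refine lg1_norm_tsum (by positivity) fun k => ?_
  refine (lg1_term v le_rfl (k + 1)).trans ?_
  rw [le_div_iff₀ hpn]
  have h2 : (‖(p : C)‖⁻¹) ^ (k + 1) * ‖(p : C)‖ = (‖(p : C)‖⁻¹) ^ k := by
    rw [pow_succ, mul_assoc, inv_mul_cancel₀ hpn.ne', mul_one]
  have h3 : k + 2 ≤ p ^ (k + 1) := by
    have h4 : k + 1 < 2 ^ (k + 1) := Nat.lt_two_pow_self
    have h5 : 2 ^ (k + 1) ≤ p ^ (k + 1) := Nat.pow_le_pow_left hpp.two_le _
    omega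
  obtain ⟨e, he⟩ : ∃ e, p ^ (k + 1) = e + 2 := ⟨p ^ (k + 1) - 2, by omega⟩
  have hek : k ≤ e := by omega
  calc (‖(p : C)‖⁻¹) ^ (k + 1) * ‖(y : C)‖ ^ (p ^ (k + 1)) * ‖(p : C)‖ =
      ((‖(p : C)‖⁻¹) ^ (k + 1) * ‖(p : C)‖) * ‖(y : C)‖ ^ (p ^ (k + 1)) := by ring
    _ = ((‖(p : C)‖⁻¹) ^ k * ‖(y : C)‖ ^ e) * ‖(y : C)‖ ^ 2 := by rw [h2, he, pow_add]; ring
    _ ≤ 1 * ‖(y : C)‖ ^ 2 := by
        apply mul_le_mul_of_nonneg_right _ (by positivity)
        calc (‖(p : C)‖⁻¹) ^ k * ‖(y : C)‖ ^ e ≤ (‖(p : C)‖⁻¹) ^ k * ‖(p : C)‖ ^ e :=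
              mul_le_mul_of_nonneg_left (pow_le_pow_left₀ (norm_nonneg _) hy e) (by positivity)
          _ ≤ (‖(p : C)‖⁻¹) ^ k * ‖(p : C)‖ ^ k :=
              mul_le_mul_of_nonneg_left (pow_le_pow_of_le_one hpn.le hp.le hek) (by positivity)
          _ = 1 := by rw [← mul_pow, inv_mul_cancel₀ hpn.ne', one_pow]
    _ = _ := one_mul _

omit [CompleteSpace C] in
/-- continuity of the coefficients -/
theorem lg1_ellC_tendsto (v : ℕ → OO C) (w : ℕ → ℕ → OO C)
    (hw : ∀ j, 1 ≤ j → j ≤ n → Tendsto (fun M => w M j) atTop (𝓝 (v j))) (k : ℕ) :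
    Tendsto (fun M => ellC p n (w M) k) atTop (𝓝 (ellC p n v k)) := by
  have hp0 : (p : C) ≠ 0 := Nat.cast_ne_zero.2 (Fact.out : p.Prime).ne_zero
  induction k using Nat.strong_induction_on with
  | _ k ih =>
  rcases Nat.eq_zero_or_pos k with h0 | h0
  · subst h0
    simp only [ellC_zero]
    exact tendsto_const_nhds
  · obtain ⟨k, rfl⟩ : ∃ j, k = j + 1 := ⟨k - 1, by omega⟩
    have h1 : ∀ u : ℕ → OO C, ellC p n u (k + 1) = (p : C)⁻¹ *
        ∑ i ∈ Finset.range (k + 1), if k + 1 - i ≤ n then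
          ellC p n u i * ((u (k + 1 - i) : OO C) : C) ^ (p ^ i) else 0 := by
      intro u
      rw [← ellC_succ, ← mul_assoc, inv_mul_cancel₀ hp0, one_mul]
    simp only [h1]
    refine Tendsto.const_mul _ (tendsto_finsetSum _ fun i hi => ?_)
    rw [Finset.mem_range] at hi
    split_ifs with h
    · refine (ih i (by omega)).mul (Tendsto.pow ?_ _)
      exact (continuous_subtype_val.tendsto _).comp (hw _ (by omega) h)
    · exact tendsto_const_nhds

/-- LG1: joint continuity. -/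
theorem plog_tendsto (hp : ‖(p : C)‖ < 1) (v : ℕ → OO C) (w : ℕ → ℕ → OO C)
    (hw : ∀ j, 1 ≤ j → j ≤ n → Tendsto (fun M => w M j) atTop (𝓝 (v j))) {y : OO C}
    (hy : ‖(y : C)‖ < 1)
    (z : ℕ → OO C) (hz : Tendsto z atTop (𝓝 y)) :
    Tendsto (fun M => plog p n (w M) (z M)) atTop (𝓝 (plog p n v y)) := by
  obtain ⟨r, hr1, hr2⟩ := exists_between hy
  have hz' : Tendsto (fun M => ((z M : OO C) : C)) atTop (𝓝 ((y : OO C) : C)) :=
    (continuous_subtype_val.tendsto _).comp hz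
  refine tendsto_tsum_of_dominated_convergence
    (bound := fun k : ℕ => (‖(p : C)‖⁻¹) ^ k * r ^ (p ^ k))
    (lg1_summable (Fact.out : p.Prime).two_le (by positivity) ((norm_nonneg _).trans hr1.le) hr2)
    (fun k => ?_) ?_
  · exact (lg1_ellC_tendsto v w hw k).mul (hz'.pow _)
  · filter_upwards [hz'.norm.eventually (gt_mem_nhds hr1)] with M hM k
    exact lg1_term (w M) hM.le k

end Vale.Agent.P217
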