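import Vale.Agent.P217.LSum
import Vale.Agent.P217.LogCP

/-!
# P217, part L: two more estimates for the convergent logarithm (LG1)
-/

namespace Vale.Agent.P217

open MvPowerSeries Filter Topology

variable {p n : ℕ} [Fact p.Prime] {C : Type*} [NormedField C] [IsUltrametricDist C]
  [CompleteSpace C] [CharZero C]

omit [IsUltrametricDist C] [CompleteSpace C] in
theorem logC_zero (v : ℕ → C) : logC p n v 0 = 0 := by
  unfold logC
  have h : ∀ k : ℕ, ellOf p n v k * (0 : C) ^ (p ^ k) = 0 := by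
    intro k
    rw [zero_pow (pow_ne_zero _ (Fact.out : p.Prime).ne_zero), mul_zero]
  rw [tsum_congr h, tsum_zero]

/-- LG1: the logarithm is close to the identity near zero. -/
theorem logC_approx (hp : ‖(p : C)‖ < 1) {v : ℕ → C} (hv : ∀ j, ‖v j‖ ≤ 1) {z : C}
    (hz : ‖z‖ ≤ ‖(p : C)‖) : ‖logC p n v z - z‖ * ‖(p : C)‖ ≤ ‖z‖ ^ 2 :=
  plog_approx (p := p) (n := n) hp (fun j => (⟨v j, hv j⟩ : OO C)) (y := ⟨z, hz.trans hp.le⟩) hz

/-- LG1: joint continuity. -/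
theorem logC_tendsto (hp : ‖(p : C)‖ < 1) {v : ℕ → C} (hv : ∀ j, ‖v j‖ ≤ 1) {w : ℕ → ℕ → C}
    (hw1 : ∀ M j, ‖w M j‖ ≤ 1)
    (hw : ∀ j, Tendsto (fun M => w M j) atTop (𝓝 (v j))) {y : C} (hy : ‖y‖ < 1) {z : ℕ → C}
    (hz : Tendsto z atTop (𝓝 y)) :
    Tendsto (fun M => logC p n (w M) (z M)) atTop (𝓝 (logC p n v y)) := by
  have h1 : ∀ᶠ M in atTop, ‖z M‖ < 1 := hz.norm.eventually (gt_mem_nhds hy)
  let z' : ℕ → OO C := fun M => if h : ‖z M‖ ≤ 1 then ⟨z M, h⟩ else 0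
  have hz' : ∀ᶠ M in atTop, ((z' M : OO C) : C) = z M := by
    filter_upwards [h1] with M hM
    show ((if h : ‖z M‖ ≤ 1 then (⟨z M, h⟩ : OO C) else 0 : OO C) : C) = z M
    rw [dif_pos hM.le]
  have h2 := plog_tendsto (p := p) (n := n) hp (fun j => (⟨v j, hv j⟩ : OO C))
    (fun M j => (⟨w M j, hw1 M j⟩ : OO C)) (fun j _ _ => by
      rw [tendsto_subtype_rng]; exact hw j) (y := ⟨y, hy.le⟩) hy z' (by
      rw [tendsto_subtype_rng]
      exact hz.congr' (hz'.mono fun M hM => hM.symm))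
  refine h2.congr' ?_
  filter_upwards [hz'] with M hM
  show logC p n (w M) ((z' M : OO C) : C) = logC p n (w M) (z M)
  rw [hM]

end Vale.Agent.P217
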