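import Vale.Agent.P217.LogC
import Vale.Agent.P217.KForm
import Vale.Agent.P217.Jac0
import Vale.Agent.P217.LamExp

/-!
# P217, part L: independence of the vectors `(L_j(e_i))_j` (M0A1)
-/

namespace Vale.Agent.P217

open MvPowerSeries Filter Topology
open scoped MvPowerSeries.WithPiTopology

variable {p m : ℕ} [Fact p.Prime]
variable {K C : Type*} [NormedField K] [NormedField C] [IsUltrametricDist K] [IsUltrametricDist C]
  [CharP K p] [PerfectRing K p] [CompleteSpace K] [CompleteSpace C] [CharZero C] [IsAlgClosed C]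

omit [IsAlgClosed C] in
/-- `log_u(pr_u(e))` to second order. -/
theorem m0a_elC_expand {a a' : Fin m → OO C} {ρ ρ' r : ℝ} (D : Dt p 1 m a ρ)
    (D' : Dt p 1 m a' ρ') (S : SharpData p K C) (hr0 : 0 ≤ r) (hrp : r ≤ ‖(p : C)‖)
    (hr : ∀ i, ‖((a' i : OO C) : C) - (a i : OO C)‖ ≤ r)
    (e : FPt p (1 + m) (Gam (1 + m) : ℕ → OO K)) (he : pra D S e = 0) :
    ‖elC D' S e - ∑ j, ((grad D S e j : OO C) : C) *
      (((a' j : OO C) : C) - (a j : OO C))‖ * ‖(p : C)‖ ≤ r ^ 2 := by
  have hp1 : ‖(p : C)‖ < 1 := lt_of_le_of_lt D.p_le D.rho_lt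
  have h1 := Lam_expand D D' S hr0 hr e he
  set z : OO C := (pra D' S e).1 with hz
  set g : C := ∑ j, ((grad D S e j : OO C) : C) * (((a' j : OO C) : C) - (a j : OO C)) with hg
  have hgr : ‖g‖ ≤ r := by
    refine IsUltrametricDist.norm_sum_le_of_forall_le_of_nonneg hr0 fun j _ => ?_
    rw [norm_mul]
    calc ‖((grad D S e j : OO C) : C)‖ * ‖((a' j : OO C) : C) - (a j : OO C)‖ ≤ 1 * r :=
          mul_le_mul (grad D S e j).2 (hr j) (norm_nonneg _) zero_le_one
      _ = r := one_mul r
  have hr1 : r ^ 2 ≤ r := by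
    rw [pow_two]
    exact mul_le_of_le_one_left hr0 (hrp.trans hp1.le)
  have hzr : ‖(z : C)‖ ≤ r := by
    have e : (z : C) = ((z : C) - g) + g := by ring
    rw [e]
    exact (IsUltrametricDist.norm_add_le_max _ _).trans (max_le (h1.trans hr1) hgr)
  have h2 : ‖elC D' S e - (z : C)‖ * ‖(p : C)‖ ≤ ‖(z : C)‖ ^ 2 :=
    plog_approx (n := 1 + m) hp1 (par 1 m a') (y := z) (hzr.trans hrp)
  have e3 : elC D' S e - g = (elC D' S e - (z : C)) + ((z : C) - g) := by ring
  rw [e3]
  have h3 := IsUltrametricDist.norm_add_le_max (elC D' S e - (z : C)) ((z : C) - g)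
  refine (mul_le_mul_of_nonneg_right h3 (norm_nonneg _)).trans ?_
  rw [max_mul_of_nonneg _ _ (norm_nonneg _)]
  refine max_le (h2.trans (pow_le_pow_left₀ (norm_nonneg _) hzr 2)) ?_
  calc ‖(z : C) - g‖ * ‖(p : C)‖ ≤ r ^ 2 * 1 :=
        mul_le_mul h1 hp1.le (norm_nonneg _) (by positivity)
    _ = r ^ 2 := mul_one _

/-- M0A1: for `e_i ∈ ker pr_a` with invertible Jacobian the vectors `(L_j(e_i))_j` are linearly
independent: if `∑_i c_i L_j(e_i) = 0` for all `j < n` then `∑_i c_i elC_u(e_i) = 0` for all `u`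
(`exists_W`); take `u = a + t y`, `t → 0` a small scalar and use `logC_approx`, `Lam_expand`:
`(1/t) log_u(pr_u(e_i)) → ∑_j ∂_j Lam_{e_i}(0) y_j`. -/
theorem indep0 {a : Fin m → OO C} {ρ : ℝ} (D : Dt p 1 m a ρ) (S : SharpData p K C)
    (e : Fin m → FPt p (1 + m) (Gam (1 + m) : ℕ → OO K)) (he : ∀ i, pra D S (e i) = 0)
    (hdet : (Matrix.of fun i j => grad D S (e i) j).det ≠ 0) (c : Fin m → C)
    (hc : ∀ j : ℕ, j < 1 + m → ∑ i, c i * LL S (1 + m) (j : ℤ) (((e i).1 : OO K) : K) = 0) :
    c = 0 := by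
  classical
  have hp1 : ‖(p : C)‖ < 1 := lt_of_le_of_lt D.p_le D.rho_lt
  have hp0 : 0 < ‖(p : C)‖ := kl3_norm_p_pos
  have hpC : (p : C) ≠ 0 := norm_pos_iff.1 hp0
  -- the column relations
  have hcol : ∀ j0 : Fin m, ∑ i, c i * ((grad D S (e i) j0 : OO C) : C) = 0 := by
    intro j0
    obtain ⟨B, hB0, hB⟩ : ∃ B : ℝ, 0 ≤ B ∧ ∀ i, ‖c i‖ ≤ B := by
      refine ⟨∑ i, ‖c i‖, Finset.sum_nonneg fun i _ => norm_nonneg _, fun i => ?_⟩
      exact Finset.single_le_sum (f := fun i => ‖c i‖) (fun i _ => norm_nonneg _)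
        (Finset.mem_univ i)
    -- bound for every k
    have key : ∀ k : ℕ, ‖∑ i, c i * ((grad D S (e i) j0 : OO C) : C)‖ * ‖(p : C)‖ ≤
        B * ‖(p : C)‖ ^ (k + 1) := by
      intro k
      set t : OO C := (p : OO C) ^ (k + 1) with ht
      have htC : (t : C) = (p : C) ^ (k + 1) := by rw [ht]; push_cast; rfl
      have htn : ‖(t : C)‖ = ‖(p : C)‖ ^ (k + 1) := by rw [htC, norm_pow]
      have htp : ‖(p : C)‖ ^ (k + 1) ≤ ‖(p : C)‖ := by
        rw [pow_succ]
        exact mul_le_of_le_one_left hp0.le (pow_le_one₀ hp0.le hp1.le)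
      set a' : Fin m → OO C := fun j => a j + (if j = j0 then t else 0) with ha'
      have hdiff : ∀ j, ((a' j : OO C) : C) - ((a j : OO C) : C) =
          if j = j0 then (t : C) else 0 := by
        intro j
        rw [ha']
        by_cases hj : j = j0
        · simp [hj]
        · simp [hj]
      have hrr : ∀ j, ‖((a' j : OO C) : C) - (a j : OO C)‖ ≤ ‖(p : C)‖ ^ (k + 1) := by
        intro j
        rw [hdiff]
        split_ifs
        · rw [htn]
        · rw [norm_zero]; positivity
      have D' : Dt p 1 m a' ρ :=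
        { h_pos := le_rfl
          rho_nonneg := D.rho_nonneg
          rho_lt := D.rho_lt
          p_le := D.p_le
          a_le := by
            intro j
            have e1 : ((a' j : OO C) : C) = ((a j : OO C) : C) +
                (((a' j : OO C) : C) - ((a j : OO C) : C)) := by ring
            rw [e1]
            refine (IsUltrametricDist.norm_add_le_max _ _).trans (max_le (D.a_le j) ?_)
            exact (hrr j).trans (htp.trans D.p_le) }
      obtain ⟨W, hW⟩ := exists_W D' S
      have h0 : ∑ i, c i * elC D' S (e i) = 0 := by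
        have h1 : ∀ i, c i * elC D' S (e i) = ∑ l : Fin (1 + m),
            W l * (c i * LL S (1 + m) ((l : ℕ) : ℤ) (((e i).1 : OO K) : K)) := by
          intro i
          rw [hW, Finset.mul_sum]
          exact Finset.sum_congr rfl fun l _ => by ring
        rw [Finset.sum_congr rfl fun i _ => h1 i, Finset.sum_comm]
        refine Finset.sum_eq_zero fun l _ => ?_
        rw [← Finset.mul_sum, hc l l.2, mul_zero]
      have hexp : ∀ i, ‖elC D' S (e i) - ((grad D S (e i) j0 : OO C) : C) * (t : C)‖ * ‖(p : C)‖ ≤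
          (‖(p : C)‖ ^ (k + 1)) ^ 2 := by
        intro i
        have h1 := m0a_elC_expand D D' S (by positivity) htp hrr (e i) (he i)
        have h2 : ∑ j, ((grad D S (e i) j : OO C) : C) * (((a' j : OO C) : C) - (a j : OO C)) =
            ((grad D S (e i) j0 : OO C) : C) * (t : C) := by
          rw [Finset.sum_eq_single j0]
          · rw [hdiff, if_pos rfl]
          · intro j _ hj
            rw [hdiff, if_neg hj, mul_zero]
          · intro h
            exact absurd (Finset.mem_univ _) h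
        rwa [h2] at h1
      have h3 : (∑ i, c i * ((grad D S (e i) j0 : OO C) : C)) * (t : C) =
          -∑ i, c i * (elC D' S (e i) - ((grad D S (e i) j0 : OO C) : C) * (t : C)) := by
        have h4 : ∑ i, c i * (elC D' S (e i) - ((grad D S (e i) j0 : OO C) : C) * (t : C)) =
            ∑ i, c i * elC D' S (e i) -
              (∑ i, c i * ((grad D S (e i) j0 : OO C) : C)) * (t : C) := by
          rw [Finset.sum_mul, ← Finset.sum_sub_distrib]
          exact Finset.sum_congr rfl fun i _ => by ring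
        rw [h4, h0]
        ring
      have h5 : ‖(∑ i, c i * ((grad D S (e i) j0 : OO C) : C)) * (t : C)‖ * ‖(p : C)‖ ≤
          B * (‖(p : C)‖ ^ (k + 1)) ^ 2 := by
        rw [h3, norm_neg, ← norm_mul, Finset.sum_mul]
        refine IsUltrametricDist.norm_sum_le_of_forall_le_of_nonneg (by positivity) fun i _ => ?_
        rw [mul_assoc, norm_mul, norm_mul]
        exact mul_le_mul (hB i) (hexp i) (by positivity) hB0
      rw [norm_mul, htn] at h5
      have h6 : 0 < ‖(p : C)‖ ^ (k + 1) := by positivity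
      have h7 : (‖∑ i, c i * ((grad D S (e i) j0 : OO C) : C)‖ * ‖(p : C)‖) *
          ‖(p : C)‖ ^ (k + 1) ≤ (B * ‖(p : C)‖ ^ (k + 1)) * ‖(p : C)‖ ^ (k + 1) := by
        calc _ = ‖∑ i, c i * ((grad D S (e i) j0 : OO C) : C)‖ * ‖(p : C)‖ ^ (k + 1) *
              ‖(p : C)‖ := by ring
          _ ≤ _ := h5
          _ = _ := by ring
      exact le_of_mul_le_mul_right h7 h6
    have hlim : Tendsto (fun k : ℕ => B * ‖(p : C)‖ ^ (k + 1)) atTop (𝓝 0) := by
      have h1 := (tendsto_pow_atTop_nhds_zero_of_lt_one hp0.le hp1).comp (tendsto_add_atTop_nat 1)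
      have h2 := h1.const_mul B
      rw [mul_zero] at h2
      exact h2
    have h8 : ‖∑ i, c i * ((grad D S (e i) j0 : OO C) : C)‖ * ‖(p : C)‖ ≤ 0 :=
      ge_of_tendsto' hlim key
    have h9 : ‖∑ i, c i * ((grad D S (e i) j0 : OO C) : C)‖ ≤ 0 := by
      by_contra h
      push Not at h
      have := mul_pos h hp0
      linarith
    exact norm_le_zero_iff.1 h9
  -- conclusion
  set M : Matrix (Fin m) (Fin m) C := Matrix.of fun i j => ((grad D S (e i) j : OO C) : C) with hM
  have hMdet : M.det ≠ 0 := by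
    intro h0
    apply hdet
    have h1 := RingHom.map_det (OO C).subtype (Matrix.of fun i j => grad D S (e i) j)
    have h2 : (OO C).subtype.mapMatrix (Matrix.of fun i j => grad D S (e i) j) = M := rfl
    rw [h2, h0] at h1
    exact Subtype.ext h1
  have hv : Matrix.vecMul c M = 0 := by
    funext j
    exact hcol j
  exact Matrix.eq_zero_of_vecMul_eq_zero hMdet hv

end Vale.Agent.P217
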