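import Vale.Agent.P217.Core

/-!
# P217, parts K and L: independence of the characters `w ↦ (w^♯)^(p^i)` of `F_(p^n)` (LX5)

The elements `w` with `w^(p^n) = w` are `p^n` in number (`K` algebraically closed), the values `w^♯`
are distinct (`‖w - w'‖ ∈ {0, 1}` and `♯` is additive modulo `p`), and `∑_{i<n} c_i Y^(p^i)` has degree
`< p^n`.
-/

namespace Vale.Agent.P217

open MvPowerSeries Filter Topology

variable {p n : ℕ} [Fact p.Prime]
variable {K C : Type*} [NormedField K] [NormedField C] [IsUltrametricDist K] [IsUltrametricDist C]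
  [CharP K p] [PerfectRing K p]

omit [IsUltrametricDist K] [CharP K p] [PerfectRing K p] in
/-- the norm of a root of `w^(p^n) = w`, `w ≠ 0` -/
theorem xch_norm (hn : 1 ≤ n) {w : K} (hw : w ^ (p ^ n) = w) (h0 : w ≠ 0) : ‖w‖ = 1 := by
  have h1 : ‖w‖ ^ (p ^ n) = ‖w‖ := by rw [← norm_pow, hw]
  have hq : p ^ n ≠ 1 := (Nat.one_lt_pow (by omega) (Fact.out : p.Prime).one_lt).ne'
  have hpos : 0 < ‖w‖ := norm_pos_iff.2 h0
  obtain ⟨m, hm⟩ : ∃ m, p ^ n = m + 1 := ⟨p ^ n - 1, by
    have := Nat.pos_of_ne_zero (pow_ne_zero n (Fact.out : p.Prime).ne_zero)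
    omega⟩
  rw [hm, pow_succ] at h1
  have h2 : ‖w‖ ^ m = 1 := by
    have : ‖w‖ ^ m * ‖w‖ = 1 * ‖w‖ := by rw [h1, one_mul]
    exact mul_right_cancel₀ hpos.ne' this
  exact (pow_eq_one_iff_of_nonneg hpos.le (by omega)).1 h2

theorem char_indep [IsAlgClosed K] (hn : 1 ≤ n) (hp : ‖(p : C)‖ < 1) (S : SharpData p K C)
    (c : ℕ → C)
    (h : ∀ w : K, w ^ (p ^ n) = w → ∑ i ∈ Finset.range n, c i * S.sharp w ^ (p ^ i) = 0) :
    ∀ i, i < n → c i = 0 := by
  classical
  have hpr : p.Prime := Fact.out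
  -- the roots
  set f : Polynomial K := Polynomial.X ^ (p ^ n) - Polynomial.X with hf
  have hsep : f.Separable := galois_poly_separable p (p ^ n) (dvd_pow_self p (by omega))
  have hdeg : f.natDegree = p ^ n :=
    FiniteField.X_pow_card_pow_sub_X_natDegree_eq K (by omega) hpr.one_lt
  have hf0 : f ≠ 0 := hsep.ne_zero
  have hcard : f.roots.toFinset.card = p ^ n := by
    rw [Multiset.toFinset_card_of_nodup (Polynomial.nodup_roots hsep),
      IsAlgClosed.card_roots_eq_natDegree, hdeg]
  have hroot : ∀ w, w ∈ f.roots.toFinset ↔ w ^ (p ^ n) = w := by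
    intro w
    rw [Multiset.mem_toFinset, Polynomial.mem_roots hf0, Polynomial.IsRoot, hf]
    simp [sub_eq_zero]
  -- injectivity
  have hle : ∀ w : K, w ^ (p ^ n) = w → ‖w‖ ≤ 1 := by
    intro w hw
    by_cases h0 : w = 0
    · rw [h0, norm_zero]
      exact zero_le_one
    · exact (xch_norm hn hw h0).le
  have hinj : Set.InjOn (fun w : K => S.sharp w) (f.roots.toFinset : Set K) := by
    intro w hw w' hw' he
    have hw1 := (hroot w).1 hw
    have hw1' := (hroot w').1 hw'
    by_contra hne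
    have hd : (w - w') ^ (p ^ n) = w - w' := by
      rw [sub_pow_char_pow, hw1, hw1']
    have hd0 : w - w' ≠ 0 := sub_ne_zero.2 hne
    have h1 := S.add_mod w' (w - w') (hle w' hw1') (hle _ hd)
    rw [add_sub_cancel] at h1
    have he' : S.sharp w = S.sharp w' := he
    rw [he', sub_self, zero_sub, norm_neg, S.norm_sharp, xch_norm hn hd hd0] at h1
    linarith
  -- the polynomial
  set Q : Polynomial C := ∑ i ∈ Finset.range n, Polynomial.C (c i) * Polynomial.X ^ (p ^ i)
    with hQ
  have hQdeg : Q.degree < (p ^ n : ℕ) := by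
    rw [hQ]
    refine (Polynomial.degree_sum_le _ _).trans_lt ?_
    rw [Finset.sup_lt_iff (WithBot.bot_lt_coe _)]
    intro i hi
    refine (Polynomial.degree_C_mul_X_pow_le _ _).trans_lt ?_
    exact_mod_cast Nat.pow_lt_pow_right hpr.one_lt (Finset.mem_range.1 hi)
  have hQ0 : Q = 0 := by
    refine Polynomial.eq_zero_of_degree_lt_of_eval_finset_eq_zero
      (f.roots.toFinset.image fun w => S.sharp w) ?_ ?_
    · rw [Finset.card_image_of_injOn hinj, hcard]
      exact hQdeg
    · intro y hy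
      obtain ⟨w, hw, rfl⟩ := Finset.mem_image.1 hy
      have h1 := h w ((hroot w).1 hw)
      rw [hQ, Polynomial.eval_finset_sum]
      rw [← h1]
      refine Finset.sum_congr rfl fun i _ => ?_
      rw [Polynomial.eval_mul, Polynomial.eval_C, Polynomial.eval_pow, Polynomial.eval_X]
  intro i hi
  have h2 : Q.coeff (p ^ i) = c i := by
    rw [hQ, Polynomial.finset_sum_coeff, Finset.sum_eq_single i]
    · rw [Polynomial.coeff_C_mul_X_pow, if_pos rfl]
    · intro j _ hj
      rw [Polynomial.coeff_C_mul_X_pow, if_neg]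
      intro he
      exact hj (Nat.pow_right_injective hpr.two_le he).symm
    · intro h
      exact absurd (Finset.mem_range.2 hi) h
  rw [← h2, hQ0, Polynomial.coeff_zero]

end Vale.Agent.P217
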