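import Vale.Agent.P217.MP0A
import Vale.Agent.P217.XChar
import Vale.Agent.P217.Etas

/-!
# P217, part L: the vectors `(log_a pr_a(η e_i))_i` span `C^m` (M0A2)
-/

namespace Vale.Agent.P217

open MvPowerSeries Filter Topology
open scoped MvPowerSeries.WithPiTopology

variable {p m : ℕ} [Fact p.Prime]
variable {K C : Type*} [NormedField K] [NormedField C] [IsUltrametricDist K] [IsUltrametricDist C]
  [CharP K p] [PerfectRing K p] [CompleteSpace K] [CompleteSpace C] [CharZero C] [IsAlgClosed C]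
  [IsAlgClosed K]

omit [IsAlgClosed K] in
/-- `elC ≠ 0`: otherwise the logarithm vanishes on `pr_a(E)`, which is everything
(`pra_surjective`), contradicting `logC_approx`. So the coefficients `W` of `exists_W` are not all
zero. -/
theorem exists_elC_ne_zero {a : Fin m → OO C} {ρ : ℝ} (D : Dt p 1 m a ρ)
    (S : SharpData p K C) : ∃ x, elC D S x ≠ 0 := by
  have hp1 : ‖(p : C)‖ < 1 := lt_of_le_of_lt D.p_le D.rho_lt
  have hp0 : 0 < ‖(p : C)‖ := kl3_norm_p_pos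
  have hz : ‖(((p : OO C) ^ 2 : OO C) : C)‖ = ‖(p : C)‖ ^ 2 := by
    push_cast
    rw [norm_pow]
  have hle : ‖(p : C)‖ ^ 2 ≤ ‖(p : C)‖ := by
    rw [pow_two]
    exact mul_le_of_le_one_left hp0.le hp1.le
  have htn : IsTopologicallyNilpotent ((p : OO C) ^ 2) :=
    (tn_iff_norm_lt_one _).2 (by rw [hz]; exact hle.trans_lt hp1)
  obtain ⟨x, hx⟩ := pra_surjective D S (⟨(p : OO C) ^ 2, htn⟩ : FPt p (1 + m) (par 1 m a))
  refine ⟨x, ?_⟩
  intro h0
  have h1 := plog_approx (n := 1 + m) hp1 (par 1 m a) (y := (p : OO C) ^ 2)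
    (by rw [hz]; exact hle)
  have h2 : plog p (1 + m) (par 1 m a) ((p : OO C) ^ 2) = 0 := by
    have h3 : elC D S x = plog p (1 + m) (par 1 m a) ((pra D S x).1) := rfl
    rw [h3, hx] at h0
    exact h0
  rw [h2, zero_sub, norm_neg, hz] at h1
  have h3 : (‖(p : C)‖ ^ 2) ^ 2 = ‖(p : C)‖ ^ 2 * ‖(p : C)‖ * ‖(p : C)‖ := by ring
  rw [h3] at h1
  have h4 : 0 < ‖(p : C)‖ ^ 2 * ‖(p : C)‖ := by positivity
  have h5 : ‖(p : C)‖ ^ 2 * ‖(p : C)‖ * ‖(p : C)‖ < ‖(p : C)‖ ^ 2 * ‖(p : C)‖ * 1 :=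
    mul_lt_mul_of_pos_left hp1 h4
  linarith

/-- M0A2: take `η = w X^(p^j)` (`Etas.exists_monomial`): by `exists_W`, `LL_omega`, `LL_fz`
`∑_l W_l (w^♯)^(p^l) ∑_i c_i L_{l+j}(e_i) = 0`; `char_indep`, `W ≠ 0`, `LL_add_r` and `indep0`. -/
theorem span0 {a : Fin m → OO C} {ρ : ℝ} (D : Dt p 1 m a ρ) (S : SharpData p K C)
    (e : Fin m → FPt p (1 + m) (Gam (1 + m) : ℕ → OO K)) (he : ∀ i, pra D S (e i) = 0)
    (hdet : (Matrix.of fun i j => grad D S (e i) j).det ≠ 0) (c : Fin m → C)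
    (hc : ∀ η : Etas p (1 + m) K, ∑ i, c i * elC D S (η.act (e i)) = 0) : c = 0 := by
  have hp1 : ‖(p : C)‖ < 1 := lt_of_le_of_lt D.p_le D.rho_lt
  have hpC : (p : C) ≠ 0 := norm_pos_iff.1 kl3_norm_p_pos
  have hn : 1 ≤ 1 + m := by omega
  have hen : ∀ i, ‖(((e i).1 : OO K) : K)‖ < 1 := fun i => (tn_iff_norm_lt_one _).1 (e i).2
  obtain ⟨W, hW⟩ := exists_W D S
  -- some W is nonzero
  obtain ⟨l0, hl0⟩ : ∃ l, W l ≠ 0 := by
    by_contra hcon
    push Not at hcon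
    obtain ⟨x, hx⟩ := exists_elC_ne_zero D S
    apply hx
    rw [hW]
    exact Finset.sum_eq_zero fun l _ => by rw [hcon, zero_mul]
  -- the relation for the monomials
  have hrel : ∀ (j : ℕ) (w : K), w ^ (p ^ (1 + m)) = w →
      ∑ l ∈ Finset.range (1 + m), (if h : l < 1 + m then W ⟨l, h⟩ *
        ∑ i, c i * LL S (1 + m) (((l + j : ℕ) : ℤ)) (((e i).1 : OO K) : K) else 0) *
          S.sharp w ^ (p ^ l) = 0 := by
    intro j w hw
    have hw1 : ‖w‖ ≤ 1 := by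
      by_contra h
      push Not at h
      have h1 : ‖w‖ ^ (p ^ (1 + m)) = ‖w‖ := by rw [← norm_pow, hw]
      have h2 : 1 < p ^ (1 + m) := Nat.one_lt_pow (by omega) (Fact.out : p.Prime).one_lt
      have h3 : ‖w‖ ^ 1 < ‖w‖ ^ (p ^ (1 + m)) := pow_lt_pow_right₀ h h2
      rw [h1, pow_one] at h3
      exact lt_irrefl _ h3
    obtain ⟨ζ, hζ⟩ := Etas.exists_monomial (p := p) (n := 1 + m) (K := K) hn ⟨w, hw1⟩
      (Subtype.ext hw) j
    have h1 := hc ζ
    have h2 : ∀ i, elC D S (ζ.act (e i)) = ∑ l : Fin (1 + m), W l *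
        (S.sharp w ^ (p ^ (l : ℕ)) * LL S (1 + m) ((((l : ℕ) + j : ℕ) : ℤ))
          (((e i).1 : OO K) : K)) := by
      intro i
      rw [hW]
      refine Finset.sum_congr rfl fun l _ => ?_
      congr 1
      have h3 : (((ζ.act (e i)).1 : OO K) : K) = w * (((e i).1 : OO K) : K) ^ (p ^ j) := by
        rw [hζ]
        rfl
      rw [h3]
      have h4 : ‖(((e i).1 : OO K) : K) ^ (p ^ j)‖ < 1 := by
        rw [norm_pow]
        exact pow_lt_one₀ (norm_nonneg _) (hen i)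
          (pow_ne_zero _ (Fact.out : p.Prime).ne_zero)
      rw [LL_omega hp1 S hn _ h4 hw, fz_nat, map_pow, ← fz_nat j (((e i).1 : OO K) : K), LL_fz]
      push_cast
      rfl
    rw [← h1, Finset.sum_range]
    have h5 : ∀ i, c i * elC D S (ζ.act (e i)) = ∑ l : Fin (1 + m), W l *
        (c i * LL S (1 + m) ((((l : ℕ) + j : ℕ) : ℤ)) (((e i).1 : OO K) : K)) *
          S.sharp w ^ (p ^ (l : ℕ)) := by
      intro i
      rw [h2, Finset.mul_sum]
      exact Finset.sum_congr rfl fun l _ => by ring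
    rw [Finset.sum_congr rfl fun i _ => h5 i, Finset.sum_comm]
    refine Finset.sum_congr rfl fun l _ => ?_
    rw [dif_pos l.2, ← Finset.sum_mul, ← Finset.mul_sum]
  have hzero : ∀ j : ℕ,
      ∑ i, c i * LL S (1 + m) ((((l0 : ℕ) + j : ℕ) : ℤ)) (((e i).1 : OO K) : K) = 0 := by
    intro j
    have h1 := char_indep (p := p) (n := 1 + m) hn hp1 S
      (fun l => if h : l < 1 + m then W ⟨l, h⟩ *
        ∑ i, c i * LL S (1 + m) (((l + j : ℕ) : ℤ)) (((e i).1 : OO K) : K) else 0)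
      (hrel j) l0 l0.2
    simp only [l0.2, dif_pos, Fin.eta] at h1
    exact (mul_eq_zero.1 h1).resolve_left hl0
  apply indep0 D S e he hdet c
  intro j hj
  have h1 := hzero (1 + m + j - l0)
  have h2 : (l0 : ℕ) + (1 + m + j - l0) = j + (1 + m) := by have := l0.2; omega
  rw [h2] at h1
  have h3 : ∀ i, LL S (1 + m) (((j + (1 + m) : ℕ) : ℤ)) (((e i).1 : OO K) : K) =
      (p : C) * LL S (1 + m) (j : ℤ) (((e i).1 : OO K) : K) := by
    intro i
    rw [Nat.cast_add]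
    exact LL_add_r hp1 S hn _ (hen i)
  have h4 : (p : C) * ∑ i, c i * LL S (1 + m) (j : ℤ) (((e i).1 : OO K) : K) = 0 := by
    rw [← h1, Finset.mul_sum]
    exact Finset.sum_congr rfl fun i _ => by rw [h3]; ring
  exact (mul_eq_zero.1 h4).resolve_left hpC

end Vale.Agent.P217
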