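import Vale.Agent.P217.Jac
import Vale.Agent.P217.Etas
import Vale.Agent.P217.AsyMain

/-!
# P217: the main theorem in characteristic `p` (statement; helper95, proof: helper50, section I)
-/

namespace Vale.Agent.P217

open MvPowerSeries Filter Topology
open scoped MvPowerSeries.WithPiTopology

variable {p h m : ℕ} [Fact p.Prime]
variable {K C : Type} [NormedField K] [NormedField C] [IsUltrametricDist K] [IsUltrametricDist C]
  [CharP K p] [PerfectRing K p] [CompleteSpace K] [CompleteSpace C] [CharZero C] [IsAlgClosed C]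
  [IsAlgClosed K]

/-- The hypotheses (O1)-(O3) at `η` in characteristic `p`. -/
structure OrbP {a : Fin m → OO K} {ρ : ℝ} (D : Dt p h m a ρ) (S : SharpData p K K)
    (G : MvPowerSeries (Fin m) (OO K)) (η : Etas p (h + m) K) where
  a' : ℕ → Fin m → OO K
  ρ' : ℕ → ℝ
  D' : ∀ M, Dt p h m (a' M) (ρ' M)
  tend : ∀ i, Tendsto (fun M => a' M i) atTop (𝓝 (a i))
  zero : ∀ M, evm G (fun i => a' M i - a i) = 0
  ker : ∀ M, ∀ e : FPt p (h + m) (Gam (h + m) : ℕ → OO K), pra D S e = 0 →
    pra (D' M) S (e + p ^ (M + 1) • η.act e) = 0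

/-- The main theorem in characteristic `p`. -/
theorem MPp (hp1 : ‖(p : C)‖ < 1) (hp0 : 0 < ‖(p : C)‖) (T : TiltData p K C)
    {a : Fin m → OO K} {ρ : ℝ} (D : Dt p h m a ρ) (S : SharpData p K K)
    (hS : ∀ x, S.sharp x = x) (hm : 1 ≤ m) (ha : a ⟨0, hm⟩ ≠ 0)
    (G : MvPowerSeries (Fin m) (OO K))
    (O : ∀ η : Etas p (h + m) K, OrbP D S G η) : G = 0 := by
  refine main_MP hp1 hp0 T D S hS hm ha G fun η => ?_
  let A : ℕ → Fin m → OO K := fun M => Nat.casesOn M a (fun k => (O η).a' k)
  let R : ℕ → ℝ := fun M => Nat.casesOn M ρ (fun k => (O η).ρ' k)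
  refine ⟨⟨A, R, ?_, ?_, ?_⟩, ?_⟩
  · intro M
    cases M with
    | zero => exact D
    | succ k => exact (O η).D' k
  · intro i
    refine (tendsto_add_atTop_iff_nat 1).1 ?_
    exact (continuous_subtype_val.tendsto _).comp ((O η).tend i)
  · intro M hM e he
    cases M with
    | zero => omega
    | succ k => exact (O η).ker k e he
  · intro M hM
    cases M with
    | zero => omega
    | succ k => exact (O η).zero k

end Vale.Agent.P217
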