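import Vale.Agent.P217.KForm

/-!
# P217, module KF7 (helper61): the key formula for `xi` (core, without `PhiData`)
-/

namespace Vale.Agent.P217

open MvPowerSeries Filter Topology

section kf7eval

variable {p : ℕ} [Fact p.Prime]
variable {C : Type*} [NormedField C] [IsUltrametricDist C] [CompleteSpace C]

/-- evaluation of an integral series as a sum in the field -/
theorem kf7_hasSum_ev1 (g : PowerSeries (OO C)) {z : OO C} (hz : IsTopologicallyNilpotent z) :
    HasSum (fun d => ((PowerSeries.coeff d g : OO C) : C) * (z : C) ^ d) ((ev1 g z : OO C) : C) := by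
  have h := PowerSeries.hasSum_eval₂ (φ := RingHom.id (OO C)) continuous_id
    (show PowerSeries.HasEval z from hz) g
  have h2 := h.map (OO C).subtype continuous_subtype_val
  refine (congrArg (fun F => HasSum F ((ev1 g z : OO C) : C)) ?_).mp h2
  funext d
  simp

/-- substitution and evaluation -/
theorem kf7_subst_eval (f : PowerSeries C) (g : PowerSeries (OO C))
    (hg : PowerSeries.constantCoeff g = 0) {z : OO C} (hz : IsTopologicallyNilpotent z)
    (hf : Summable fun j => PowerSeries.coeff j f * (z : C) ^ j) :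
    ∃ s : C, HasSum (fun j => PowerSeries.coeff j f * ((ev1 g z : OO C) : C) ^ j) s ∧
      HasSum (fun d => PowerSeries.coeff d (f.subst (g.map (OO C).subtype : PowerSeries C))
        * (z : C) ^ d) s := by
  have hz1 : ‖(z : C)‖ < 1 := (tn_iff_norm_lt_one z).1 hz
  set G : PowerSeries C := g.map (OO C).subtype with hG
  have hGpow : ∀ j d, PowerSeries.coeff d (G ^ j) = ((PowerSeries.coeff d (g ^ j) : OO C) : C) := by
    intro j d
    rw [hG, ← map_pow, PowerSeries.coeff_map]
    rfl
  have hlow : ∀ j d, d < j → PowerSeries.coeff d (g ^ j) = 0 := by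
    intro j d hd
    exact PowerSeries.coeff_of_lt_order _ (lt_of_lt_of_le (by exact_mod_cast hd)
      (PowerSeries.le_order_pow_of_constantCoeff_eq_zero j hg))
  -- the double family
  set a : ℕ × ℕ → C := fun q => PowerSeries.coeff q.1 f *
    (((PowerSeries.coeff q.2 (g ^ q.1) : OO C) : C) * (z : C) ^ q.2) with ha
  have hbound : ∀ q : ℕ × ℕ, q.1 ≤ q.2 →
      ‖a q‖ ≤ ‖PowerSeries.coeff q.1 f * (z : C) ^ q.1‖ * ‖(z : C)‖ ^ (q.2 - q.1) := by
    intro q hq
    rw [ha]
    simp only [norm_mul, norm_pow]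
    have h1 : ‖((PowerSeries.coeff q.2 (g ^ q.1) : OO C) : C)‖ ≤ 1 := (PowerSeries.coeff q.2 (g ^ q.1)).2
    have h2 : ‖(z : C)‖ ^ q.2 = ‖(z : C)‖ ^ q.1 * ‖(z : C)‖ ^ (q.2 - q.1) := by
      rw [← pow_add]
      congr 1
      omega
    rw [h2]
    calc ‖PowerSeries.coeff q.1 f‖ * (‖((PowerSeries.coeff q.2 (g ^ q.1) : OO C) : C)‖ *
          (‖(z : C)‖ ^ q.1 * ‖(z : C)‖ ^ (q.2 - q.1)))
        ≤ ‖PowerSeries.coeff q.1 f‖ * (1 * (‖(z : C)‖ ^ q.1 * ‖(z : C)‖ ^ (q.2 - q.1))) := by
          gcongr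
      _ = ‖PowerSeries.coeff q.1 f‖ * ‖(z : C)‖ ^ q.1 * ‖(z : C)‖ ^ (q.2 - q.1) := by ring
  have hzero : ∀ q : ℕ × ℕ, q.2 < q.1 → a q = 0 := by
    intro q hq
    rw [ha]
    simp only [hlow q.1 q.2 hq]
    simp
  have ht : Tendsto (fun j => ‖PowerSeries.coeff j f * (z : C) ^ j‖) cofinite (𝓝 0) := by
    have := hf.tendsto_cofinite_zero
    exact tendsto_zero_iff_norm_tendsto_zero.1 this
  obtain ⟨M, hM⟩ : ∃ M : ℝ, ∀ j, ‖PowerSeries.coeff j f * (z : C) ^ j‖ ≤ M := by
    have h1 := ht
    rw [Nat.cofinite_eq_atTop] at h1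
    obtain ⟨M, hM⟩ := h1.bddAbove_range
    exact ⟨M, fun j => hM ⟨j, rfl⟩⟩
  have hM0 : 0 ≤ M := (norm_nonneg _).trans (hM 0)
  have hcof : Tendsto a cofinite (𝓝 0) := by
    rw [tendsto_zero_iff_norm_tendsto_zero, Metric.tendsto_nhds]
    intro ε hε
    have hpow : Tendsto (fun n : ℕ => M * ‖(z : C)‖ ^ n) atTop (𝓝 0) := by
      have := (tendsto_pow_atTop_nhds_zero_of_lt_one (norm_nonneg _) hz1).const_mul M
      simpa using this
    obtain ⟨n₀, hn₀⟩ := (Metric.tendsto_atTop.1 hpow ε hε)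
    have hfin : {j : ℕ | ¬ ‖PowerSeries.coeff j f * (z : C) ^ j‖ < ε}.Finite := by
      have h1 := (Metric.tendsto_nhds.1 ht ε hε)
      rw [Filter.eventually_cofinite] at h1
      refine h1.subset fun j hj => ?_
      simp only [Set.mem_ofPred_eq] at hj ⊢
      rwa [dist_zero_right, norm_norm]
    rw [Filter.eventually_cofinite]
    have hfin2 : (⋃ j ∈ hfin.toFinset, (fun d => (j, d)) '' (Finset.range (j + n₀) : Set ℕ)).Finite :=
      Set.Finite.biUnion (Finset.finite_toSet _) fun j _ => (Finset.finite_toSet _).image _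
    refine hfin2.subset fun q hq => ?_
    simp only [Set.mem_ofPred_eq, dist_zero_right, norm_norm] at hq
    have h0 : q.1 ≤ q.2 := by
      by_contra hcon
      push Not at hcon
      rw [hzero q hcon, norm_zero] at hq
      exact hq hε
    have h1 := hbound q h0
    have hz0 : ‖(z : C)‖ ^ (q.2 - q.1) ≤ 1 := pow_le_one₀ (norm_nonneg _) hz1.le
    have h2 : q.1 ∈ hfin.toFinset := by
      rw [Set.Finite.mem_toFinset]
      intro h3
      apply hq
      calc ‖a q‖ ≤ ‖PowerSeries.coeff q.1 f * (z : C) ^ q.1‖ * ‖(z : C)‖ ^ (q.2 - q.1) := h1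
        _ ≤ ‖PowerSeries.coeff q.1 f * (z : C) ^ q.1‖ * 1 :=
            mul_le_mul_of_nonneg_left hz0 (norm_nonneg _)
        _ < ε := by rwa [mul_one]
    rw [Set.mem_iUnion₂]
    refine ⟨q.1, h2, q.2, ?_, rfl⟩
    rw [Finset.mem_coe, Finset.mem_range]
    by_contra hcon
    push Not at hcon
    have h4 := hn₀ (q.2 - q.1) (by omega)
    rw [dist_zero_right, Real.norm_of_nonneg (by positivity)] at h4
    apply hq
    calc ‖a q‖ ≤ ‖PowerSeries.coeff q.1 f * (z : C) ^ q.1‖ * ‖(z : C)‖ ^ (q.2 - q.1) := h1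
      _ ≤ M * ‖(z : C)‖ ^ (q.2 - q.1) := mul_le_mul_of_nonneg_right (hM _) (by positivity)
      _ < ε := h4
  have hsum : Summable a := NonarchimedeanAddGroup.summable_of_tendsto_cofinite_zero hcof
  refine ⟨∑' q, a q, ?_, ?_⟩
  · have h1 : ∀ j, HasSum (fun d => a (j, d))
        (PowerSeries.coeff j f * ((ev1 g z : OO C) : C) ^ j) := by
      intro j
      have h2 := kf7_hasSum_ev1 (g ^ j) hz
      have h3 : ev1 (g ^ j) z = (ev1 g z) ^ j := ev1_pow g j hz
      rw [h3] at h2
      have h4 := h2.mul_left (PowerSeries.coeff j f)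
      simpa using h4
    exact hsum.hasSum.prod_fiberwise h1
  · have hsw : Summable (a ∘ Prod.swap) := hsum.prod_symm
    have hts : ∑' q, (a ∘ Prod.swap) q = ∑' q, a q := (Equiv.prodComm ℕ ℕ).tsum_eq a
    rw [← hts]
    have h1 : ∀ d, HasSum (fun j => (a ∘ Prod.swap) (d, j))
        (PowerSeries.coeff d (f.subst G) * (z : C) ^ d) := by
      intro d
      have hGs : PowerSeries.HasSubst G := by
        apply PowerSeries.HasSubst.of_constantCoeff_zero
        show PowerSeries.constantCoeff G = 0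
        rw [hG, ← PowerSeries.coeff_zero_eq_constantCoeff_apply, PowerSeries.coeff_map,
          PowerSeries.coeff_zero_eq_constantCoeff_apply, hg, map_zero]
      have h2 : PowerSeries.coeff d (f.subst G)
          = ∑ j ∈ Finset.range (d + 1), PowerSeries.coeff j f * PowerSeries.coeff d (G ^ j) := by
        rw [PowerSeries.coeff_subst' hGs]
        rw [finsum_eq_sum_of_support_subset]
        · rfl
        · intro j hj
          rw [Function.mem_support] at hj
          rw [Finset.mem_coe, Finset.mem_range]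
          by_contra hcon
          push Not at hcon
          apply hj
          rw [hGpow, hlow j d (by omega)]
          simp
      rw [h2, Finset.sum_mul]
      have h3 : ∀ j ∉ Finset.range (d + 1), (a ∘ Prod.swap) (d, j) = 0 := by
        intro j hj
        rw [Finset.mem_range] at hj
        exact hzero (j, d) (by simp; omega)
      have h4 : HasSum (fun j => (a ∘ Prod.swap) (d, j))
          (∑ j ∈ Finset.range (d + 1), (a ∘ Prod.swap) (d, j)) := hasSum_sum_of_ne_finset_zero h3
      refine (congrArg (fun s => HasSum (fun j => (a ∘ Prod.swap) (d, j)) s) ?_).mp h4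
      refine Finset.sum_congr rfl fun j _ => ?_
      rw [hGpow]
      show PowerSeries.coeff j f * (((PowerSeries.coeff d (g ^ j) : OO C) : C) * (z : C) ^ d) = _
      ring
    exact hsw.hasSum.prod_fiberwise h1


variable [CharZero C]

/-- the logarithm as a power series, evaluated -/
theorem kf7_log_hasSum (hp : ‖(p : C)‖ < 1) {n : ℕ} {v : ℕ → C} (hv : ∀ j, ‖v j‖ ≤ 1) {z : C}
    (hz : ‖z‖ < 1) :
    HasSum (fun j => PowerSeries.coeff j (logOf p n v) * z ^ j) (logC p n v z) := by
  have hinj : Function.Injective (fun k : ℕ => p ^ k) :=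
    Nat.pow_right_injective (Fact.out : p.Prime).two_le
  have h1 : HasSum (fun k : ℕ => ellOf p n v k * z ^ (p ^ k)) (logC p n v z) :=
    (logC_summable hp hv hz).hasSum
  refine (hinj.hasSum_iff (f := fun j => PowerSeries.coeff j (logOf p n v) * z ^ j) ?_).1 ?_
  · intro j hj
    have h2 : ∀ k, j ≠ p ^ k := fun k hk => hj ⟨k, hk.symm⟩
    show PowerSeries.coeff j (logOf p n v) * z ^ j = 0
    rw [logOf, PowerSeries.coeff_map, US1.coeff_log_not h2, map_zero, zero_mul]
  · refine (congrArg (fun F => HasSum F (logC p n v z)) ?_).mp h1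
    funext k
    show ellOf p n v k * z ^ (p ^ k) = PowerSeries.coeff (p ^ k) (logOf p n v) * z ^ (p ^ k)
    rw [logOf, PowerSeries.coeff_map, US1.coeff_log_pow]
    rfl

/-- `log(g(z))` as the value of the series `log ∘ g` -/
theorem kf7_log_subst (hp : ‖(p : C)‖ < 1) {n : ℕ} {v : ℕ → C} (hv : ∀ j, ‖v j‖ ≤ 1)
    (g : PowerSeries (OO C)) (hg : PowerSeries.constantCoeff g = 0) {z : OO C}
    (hz : IsTopologicallyNilpotent z) :
    HasSum (fun d => PowerSeries.coeff d ((logOf p n v).subst (g.map (OO C).subtype : PowerSeries C))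
        * (z : C) ^ d) (logC p n v ((ev1 g z : OO C) : C)) := by
  obtain ⟨s, h1, h2⟩ := kf7_subst_eval (logOf p n v) g hg hz
    (kf7_log_hasSum hp hv ((tn_iff_norm_lt_one z).1 hz)).summable
  have h3 := kf7_log_hasSum (n := n) hp hv ((tn_iff_norm_lt_one _).1 (ev1_tn hg hz))
  rw [h3.unique h1]
  exact h2

/-- evaluation of the identity for the logarithm of `Phi` -/
theorem kf7_logEval (hp : ‖(p : C)‖ < 1) {n : ℕ} {w : ℕ → C} (hw : ∀ j, ‖w j‖ ≤ 1)
    (g : PowerSeries (OO C)) (hg : PowerSeries.constantCoeff g = 0) (c : ℕ → C) (v : ℕ → ℕ → C)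
    (hv : ∀ k j, ‖v k j‖ ≤ 1)
    (hid : (logOf p n w).subst (g.map (OO C).subtype : PowerSeries C) =
      ∑ k ∈ Finset.range n, PowerSeries.C (c k) *
        (logOf p n (v k)).subst ((PowerSeries.X : PowerSeries C) ^ (p ^ k)))
    {z : OO C} (hz : IsTopologicallyNilpotent z) :
    logC p n w ((ev1 g z : OO C) : C) =
      ∑ k ∈ Finset.range n, c k * logC p n (v k) ((z : C) ^ (p ^ k)) := by
  have h1 := kf7_log_subst (n := n) hp hw g hg hz
  rw [hid] at h1
  have h2 : ∀ k ∈ Finset.range n, HasSum (fun d => c k *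
      (PowerSeries.coeff d ((logOf p n (v k)).subst ((PowerSeries.X : PowerSeries C) ^ (p ^ k)))
        * (z : C) ^ d)) (c k * logC p n (v k) ((z : C) ^ (p ^ k))) := by
    intro k _
    have hX0 : PowerSeries.constantCoeff ((PowerSeries.X : PowerSeries (OO C)) ^ (p ^ k)) = 0 := by
      rw [map_pow, PowerSeries.constantCoeff_X,
        zero_pow (pow_ne_zero _ (Fact.out : p.Prime).ne_zero)]
    have h3 := kf7_log_subst (n := n) hp (hv k) ((PowerSeries.X : PowerSeries (OO C)) ^ (p ^ k))
      hX0 hz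
    rw [map_pow, PowerSeries.map_X, ev1_pow _ _ hz, ev1_X] at h3
    exact h3.mul_left (c k)
  have h4 := hasSum_sum h2
  refine h1.unique ((congrArg (fun F => HasSum F _) ?_).mp h4)
  funext d
  rw [map_sum, Finset.sum_mul]
  refine Finset.sum_congr rfl fun k _ => ?_
  rw [PowerSeries.coeff_C_mul]
  ring

/-- points at distance at most `R < 1` have logarithms at bounded distance -/
theorem kf7_diff (hp : ‖(p : C)‖ < 1) {n : ℕ} {v : ℕ → OO C} {R B : ℝ} (hR0 : 0 ≤ R)
    (hB : ∀ z : C, ‖z‖ ≤ R → ‖logC p n (fun j => (v j : C)) z‖ ≤ B) (x y : FPt p n v)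
    (hxy : ‖((x.1 : OO C) : C) - ((y.1 : OO C) : C)‖ ≤ R) :
    ‖logC p n (fun j => (v j : C)) ((x.1 : OO C) : C) -
      logC p n (fun j => (v j : C)) ((y.1 : OO C) : C)‖ ≤ B := by
  have h1 : (x - y).1 ∈ ballI C R hR0 :=
    (FPt.sub_mem_iff (ball_closed hR0) x y).2 hxy
  have h2 := logC_add hp (x - y) y
  rw [sub_add_cancel] at h2
  rw [h2, add_sub_cancel_right]
  exact hB _ h1

theorem kf7_zero (hp : ‖(p : C)‖ < 1) {n : ℕ} {v : ℕ → OO C} :
    logC p n (fun j => (v j : C)) (0 : C) = 0 := by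
  have h := logC_add hp (0 : FPt p n v) 0
  rw [add_zero] at h
  have h0 : (((0 : FPt p n v).1 : OO C) : C) = 0 := rfl
  rw [h0] at h
  exact left_eq_add.1 h

theorem kf7_nsmul (hp : ‖(p : C)‖ < 1) {n : ℕ} {v : ℕ → OO C} (N : ℕ) (x : FPt p n v) :
    logC p n (fun j => (v j : C)) (((N • x).1 : OO C) : C) =
      N * logC p n (fun j => (v j : C)) ((x.1 : OO C) : C) := by
  induction N with
  | zero =>
    have h0 : (0 • x : FPt p n v) = 0 := zero_nsmul x
    rw [h0, Nat.cast_zero, zero_mul]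
    exact kf7_zero hp
  | succ N ih =>
    rw [succ_nsmul, logC_add hp, ih]
    push_cast
    ring

end kf7eval


section kf7core

variable {p : ℕ} [Fact p.Prime]
variable {K : Type*} [NormedField K] [IsUltrametricDist K]
  [CharP K p] [PerfectRing K p] [CompleteSpace K]

theorem kf7_charP (p : ℕ) (K : Type*) [NormedField K] [IsUltrametricDist K] [CharP K p] :
    CharP (OO K) p := RingHom.charP (OO K).subtype (OO K).subtype_injective p

theorem kf7_perfect : PerfectRing (OO K) p := by
  refine ⟨⟨?_, ?_⟩⟩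
  · intro x y h
    have h1 : x ^ (p ^ 1) = y ^ (p ^ 1) := by rw [pow_one]; exact h
    exact (rt_unique 1 _ x h1).trans (rt_unique 1 _ y rfl).symm
  · intro x
    refine ⟨rt p 1 x, ?_⟩
    have h := rt_pow (p := p) 1 x
    rw [pow_one] at h
    exact h

/-- `θ(c) ≡ ♯(c mod p)` modulo `p` -/
theorem kf7_theta {C : Type*} [NormedField C] [IsUltrametricDist C] (T : TiltData p K C)
    (c : WittVector p (OO K)) :
    ‖((shO T.toSharpData (WittVector.constantCoeff c) : OO C) : C) - ((T.theta c : OO C) : C)‖ ≤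
      ‖(p : C)‖ := by
  have _ := kf7_charP p K
  have _ := kf7_perfect (p := p) (K := K)
  obtain ⟨d, hd⟩ := WittVector.dvd_sub_sum_teichmuller_iterateFrobeniusEquiv_coeff (p := p) c 0
  have h1 : (Finset.Iic 0 : Finset ℕ) = {0} := rfl
  rw [h1, Finset.sum_singleton, pow_zero, pow_zero, mul_one, zero_add, pow_one] at hd
  have h2 : c = WittVector.teichmuller p (c.coeff 0) + p * d := by
    rw [← hd]
    simp
  have h3 : ((T.theta c : OO C) : C) =
      ((T.theta (WittVector.teichmuller p (c.coeff 0)) : OO C) : C) + p * ((T.theta d : OO C) : C) := by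
    conv_lhs => rw [h2]
    rw [map_add, map_mul, map_natCast]
    simp
  rw [h3, T.theta_teich]
  have h4 : ((shO T.toSharpData (WittVector.constantCoeff c) : OO C) : C) =
      T.sharp ((c.coeff 0 : OO K) : K) := rfl
  rw [h4, sub_add_cancel_left, norm_neg, norm_mul]
  exact mul_le_of_le_one_right (norm_nonneg _) (T.theta d).2

/-- multiplication by `p` on the points of `Γ_h`, `h ≤ n` -/
theorem kf7_p_smul {n h : ℕ} (hh : 1 ≤ h) (hn : h ≤ n) (x : FPt p n (Gam h : ℕ → OO K)) :
    (p • x).1 = x.1 ^ (p ^ h) := by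
  have _ := kf7_charP p K
  rw [FPt.p_smul_val_US hh hn (fun j _ h2 => by
    unfold Gam
    rw [if_neg (by omega)])]
  have hU : ∀ i, 1 ≤ i → Upart p n h (Gam h : ℕ → OO K) i = PowerSeries.X := by
    intro i hi
    induction i, hi using Nat.le_induction with
    | base =>
      show (Fv p n _).subst ![(0 : PowerSeries (OO K)), _] = _
      have e : (PowerSeries.C ((Gam h : ℕ → OO K) (h + 0)) * PowerSeries.X ^ (p ^ 0) :
          PowerSeries (OO K)) = PowerSeries.X := by
        rw [add_zero, pow_zero, pow_one]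
        unfold Gam
        rw [if_pos rfl, map_one, one_mul]
      rw [e]
      exact Fv_zero_X p n _
    | succ i hi ih =>
      show (Fv p n _).subst ![Upart p n h (Gam h : ℕ → OO K) i, _] = _
      have e : (PowerSeries.C ((Gam h : ℕ → OO K) (h + i)) * PowerSeries.X ^ (p ^ i) :
          PowerSeries (OO K)) = 0 := by
        unfold Gam
        rw [if_neg (by omega), map_zero, zero_mul]
      rw [ih, e]
      exact Fv_X_zero p n _
  have h1 : US p n h (Gam h : ℕ → OO K) = PowerSeries.X := hU _ (by omega)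
  rw [h1, ev1_X]

theorem kf7_pow_smul {n h : ℕ} (hh : 1 ≤ h) (hn : h ≤ n) (N : ℕ)
    (x : FPt p n (Gam h : ℕ → OO K)) : (p ^ N • x).1 = x.1 ^ (p ^ (h * N)) := by
  induction N with
  | zero => simp
  | succ N ih =>
    have e : p ^ (N + 1) • x = p • (p ^ N • x) := by rw [pow_succ', mul_smul]
    rw [e, kf7_p_smul hh hn, ih, ← pow_mul, ← pow_add]
    congr 2

theorem kf7_fz_neg (k : ℕ) (w : K) : fz p (-(k : ℤ)) (w ^ (p ^ k)) = w := by
  rw [← fz_nat, fz_add]
  simp [fz]


/-- a bounded sequence multiplied by `p^N` tends to `0` -/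
theorem kf7_tendsto {C : Type*} [NormedField C] (hp : ‖(p : C)‖ < 1) {f : ℕ → C} {B : ℝ}
    (hf : ∀ N, ‖f N‖ ≤ B) : Tendsto (fun N : ℕ => (p : C) ^ N * f N) atTop (𝓝 0) := by
  rw [tendsto_zero_iff_norm_tendsto_zero]
  have h1 : Tendsto (fun N : ℕ => ‖(p : C)‖ ^ N * B) atTop (𝓝 0) := by
    have := (tendsto_pow_atTop_nhds_zero_of_lt_one (norm_nonneg (p : C)) hp).mul_const B
    simpa using this
  refine squeeze_zero (fun N => norm_nonneg _) (fun N => ?_) h1
  rw [norm_mul, norm_pow]
  exact mul_le_mul_of_nonneg_left (hf N) (by positivity)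

/-- the parameters of the twists -/
theorem kf7_par {C : Type*} [NormedField C] [IsUltrametricDist C] {h m : ℕ} (T : TiltData p K C)
    (a : Fin m → OO K) (k j : ℕ) :
    ((T.theta ((WittVector.frobenius (p := p) (R := OO K))^[k]
      (WittVector.teichmuller p (par h m a j))) : OO C) : C) =
      ((par h m (fun i => shO T.toSharpData (a i ^ (p ^ k))) j : OO C) : C) := by
  have _ := kf7_charP p K
  have h1 : ∀ w : OO K, (WittVector.frobenius (p := p) (R := OO K))^[k]
      (WittVector.teichmuller p w) = WittVector.teichmuller p (w ^ (p ^ k)) := by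
    intro w
    induction k with
    | zero => simp
    | succ k ih =>
      rw [Function.iterate_succ_apply', ih, WittVector.frobenius_eq_map_frobenius,
        WittVector.map_teichmuller]
      congr 1
      rw [frobenius_def, ← pow_mul, pow_succ]
  rw [h1, T.theta_teich]
  have hk : p ^ k ≠ 0 := pow_ne_zero _ (Fact.out : p.Prime).ne_zero
  unfold par
  split_ifs with h2 h3
  · rfl
  · simp
  · rw [zero_pow hk]
    simp

theorem kf7_core {C : Type*} [NormedField C] [IsUltrametricDist C] [CompleteSpace C] [CharZero C]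
    {h m : ℕ} (hp : ‖(p : C)‖ < 1) (T : TiltData p K C) {a : Fin m → OO K} {ρ : ℝ}
    (D : Dt p h m a ρ) (S0 : SharpData p K K) (hS : ∀ x, S0.sharp x = x)
    (b : ℕ → WittVector p (OO K)) (Phi : PowerSeries (WittVector p (OO K)))
    (hΦ0 : PowerSeries.constantCoeff Phi = 0)
    (hid : (logOf p (h + m) (Gam h : ℕ → C)).subst
        (Phi.map ((OO C).subtype.comp T.theta) : PowerSeries C) =
      ∑ k ∈ Finset.range (h + m), PowerSeries.C ((OO C).subtype.comp T.theta (b k)) *
        (logOf p (h + m) (fun j => ((OO C).subtype.comp T.theta)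
          ((WittVector.frobenius (p := p) (R := OO K))^[k]
            (WittVector.teichmuller p (par h m a j))))).subst
              ((PowerSeries.X : PowerSeries C) ^ (p ^ k)))
    (hhom : IsHomS p (h + m) (par h m a) (Gam h) (Phi.map WittVector.constantCoeff))
    (Dk : ∀ k : ℕ, ∃ ρ', Dt p h m (fun i => shO T.toSharpData (a i ^ (p ^ k))) ρ')
    (x : FPt p (h + m) (Gam (h + m) : ℕ → OO K)) :
    LL T.toSharpData h 0 (((FPt.hom _ hhom (pra D S0 x)).1 : OO K) : K) =
      ∑ k ∈ Finset.range (h + m), ((T.theta (b k) : OO C) : C) *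
        elC (Dk k).choose_spec T.toSharpData (Etw (k : ℤ) x) := by
  have _ := kf7_charP p K
  have hh : 1 ≤ h := D.h_pos
  have hhn : h ≤ h + m := by omega
  have hn1 : 1 ≤ h + m := by omega
  -- notation
  set S := T.toSharpData with hSdef
  set φ : PowerSeries (OO K) := Phi.map WittVector.constantCoeff with hφ
  set Θ : PowerSeries (OO C) := Phi.map T.theta with hΘ
  have hΘ0 : PowerSeries.constantCoeff Θ = 0 := by
    rw [hΘ, ← PowerSeries.coeff_zero_eq_constantCoeff_apply, PowerSeries.coeff_map,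
      PowerSeries.coeff_zero_eq_constantCoeff_apply, hΦ0, map_zero]
  have hGam : (fun j => (((Gam h : ℕ → OO C) j : OO C) : C)) = (Gam h : ℕ → C) := by
    funext j
    unfold Gam
    split_ifs <;> simp
  have hGam1 : ∀ j, ‖(Gam h : ℕ → C) j‖ ≤ 1 := by
    intro j
    rw [← hGam]
    exact ((Gam h : ℕ → OO C) j).2
  -- the sequences
  let zN : ℕ → FPt p (h + m) (par h m a) := fun N => pra D S0 (Ediv N x)
  let yN : ℕ → FPt p (h + m) (Gam h : ℕ → OO K) := fun N => FPt.hom φ hhom (zN N)
  have hyN : ∀ N, p ^ N • yN N = FPt.hom φ hhom (pra D S0 x) := by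
    intro N
    show p ^ N • FPt.hom φ hhom (pra D S0 (Ediv N x)) = _
    rw [← map_nsmul, ← map_nsmul, E_smul_Ediv hn1]
  -- the limit formula for `LL`
  have hlim := LL_eq_lim_log (n := h + m) (r := h) hp S hh hhn
    (x := (((FPt.hom φ hhom (pra D S0 x)).1 : OO K) : K))
    ((tn_iff_norm_lt_one _).1 (FPt.hom φ hhom (pra D S0 x)).2)
  have hfz : ∀ N : ℕ, fz p (-((h : ℤ) * (N : ℤ))) (((FPt.hom φ hhom (pra D S0 x)).1 : OO K) : K) =
      (((yN N).1 : OO K) : K) := by
    intro N
    rw [← hyN N]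
    have h1 : (((p ^ N • yN N : FPt p (h + m) (Gam h : ℕ → OO K)).1 : OO K) : K) =
        (((yN N).1 : OO K) : K) ^ (p ^ (h * N)) := by
      rw [kf7_pow_smul hh hhn]
      rfl
    rw [h1]
    have h2 := kf7_fz_neg (p := p) (h * N) (((yN N).1 : OO K) : K)
    rw [Nat.cast_mul] at h2
    exact h2
  simp only [hfz] at hlim
  -- comparison of `♯ ∘ φ` with `Θ ∘ ♯`
  have htz : ∀ N, IsTopologicallyNilpotent (shO S (zN N).1) := fun N => shO_tn S (zN N).2
  let αN : ℕ → FPt p (h + m) (Gam h : ℕ → OO C) := fun N => ⟨shO S (yN N).1, shO_tn S (yN N).2⟩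
  let βN : ℕ → FPt p (h + m) (Gam h : ℕ → OO C) := fun N => ⟨ev1 Θ (shO S (zN N).1), ev1_tn hΘ0 (htz N)⟩
  have hαβ : ∀ N, ‖(((αN N).1 : OO C) : C) - (((βN N).1 : OO C) : C)‖ ≤ ‖(p : C)‖ := by
    intro N
    refine shO_eval_mod S (ι := Unit) φ Θ (fun e => ?_) (fun _ => (zN N).2)
    exact kf7_theta T (MvPowerSeries.coeff e Phi)
  obtain ⟨B₀, hB₀⟩ := logC_bound (p := p) (C := C) hp (n := h + m) hp
  have hdiff : ∀ N, ‖logC p (h + m) (Gam h : ℕ → C) (S.sharp (((yN N).1 : OO K) : K)) -
      logC p (h + m) (Gam h : ℕ → C) (((βN N).1 : OO C) : C)‖ ≤ B₀ := by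
    intro N
    have h1 := kf7_diff (n := h + m) (v := (Gam h : ℕ → OO C)) hp (norm_nonneg (p : C))
      (B := B₀) (fun z hz => by rw [hGam]; exact hB₀ _ hGam1 z hz) (αN N) (βN N) (hαβ N)
    rw [hGam] at h1
    exact h1
  have h0 := kf7_tendsto (p := p) hp hdiff
  have hβlim : Tendsto (fun N : ℕ => (p : C) ^ N *
      logC p (h + m) (Gam h : ℕ → C) (((βN N).1 : OO C) : C)) atTop
      (𝓝 (LL S h 0 (((FPt.hom φ hhom (pra D S0 x)).1 : OO K) : K))) := by
    have h1 := hlim.sub h0
    rw [sub_zero] at h1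
    refine h1.congr fun N => ?_
    ring
  -- evaluation of the identity of logarithms
  have hlog : ∀ N, logC p (h + m) (Gam h : ℕ → C) (((βN N).1 : OO C) : C) =
      ∑ k ∈ Finset.range (h + m), ((T.theta (b k) : OO C) : C) *
        logC p (h + m) (fun j => ((par h m (fun i => shO S (a i ^ (p ^ k))) j : OO C) : C))
          (((shO S (zN N).1 : OO C) : C) ^ (p ^ k)) := by
    intro N
    have h1 := kf7_logEval (n := h + m) hp hGam1 Θ hΘ0
      (fun k => ((T.theta (b k) : OO C) : C))
      (fun k j => ((par h m (fun i => shO S (a i ^ (p ^ k))) j : OO C) : C))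
      (fun k j => (par h m (fun i => shO S (a i ^ (p ^ k))) j).2) ?_ (htz N)
    · exact h1
    · have e1 : Θ.map (OO C).subtype = Phi.map ((OO C).subtype.comp T.theta) := by
        ext d
        simp [hΘ]
      rw [e1, hid]
      refine Finset.sum_congr rfl fun k _ => ?_
      have e2 : (fun j => ((OO C).subtype.comp T.theta)
          ((WittVector.frobenius (p := p) (R := OO K))^[k]
            (WittVector.teichmuller p (par h m a j)))) =
          (fun j => ((par h m (fun i => shO S (a i ^ (p ^ k))) j : OO C) : C)) := by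
        funext j
        exact kf7_par T a k j
      rw [e2]
      rfl
  -- the summands
  have hsm : ∀ k : ℕ, Tendsto (fun N : ℕ => (p : C) ^ N *
      logC p (h + m) (fun j => ((par h m (fun i => shO S (a i ^ (p ^ k))) j : OO C) : C))
        (((shO S (zN N).1 : OO C) : C) ^ (p ^ k))) atTop
      (𝓝 (elC (Dk k).choose_spec S (Etw (k : ℤ) x))) := by
    intro k
    obtain ⟨ρ', hρ'⟩ : ∃ ρ', ρ' = (Dk k).choose := ⟨_, rfl⟩
    have D' := (Dk k).choose_spec
    set R : ℝ := max (max ρ ‖(p : C)‖) (Dk k).choose with hR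
    have hR1 : R < 1 := max_lt (max_lt D.rho_lt hp) D'.rho_lt
    have hR0 : 0 ≤ R := (norm_nonneg (p : C)).trans ((le_max_right _ _).trans (le_max_left _ _))
    obtain ⟨B, hB⟩ := logC_bound (p := p) (C := C) hp (n := h + m) hR1
    set v : ℕ → OO C := par h m (fun i => shO S (a i ^ (p ^ k))) with hv
    have hv1 : ∀ j, ‖((v j : OO C) : C)‖ ≤ 1 := fun j => (v j).2
    have hz : ∀ N, shO S (zN N).1 ^ (p ^ k) = shO S ((zN N).1 ^ (p ^ k)) := fun N =>
      (map_pow (shO S) _ _).symm
    let P1 : ℕ → FPt p (h + m) v := fun N => ⟨shO S ((zN N).1 ^ (p ^ k)), shO_tn S (by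
      have := (zN N).2
      rw [tn_iff_norm_lt_one] at this ⊢
      have h3 : ‖((((zN N).1 ^ (p ^ k) : OO K)) : K)‖ = ‖(((zN N).1 : OO K) : K)‖ ^ (p ^ k) := by
        simp
      rw [h3]
      exact pow_lt_one₀ (norm_nonneg _) this (pow_ne_zero _ (Fact.out : p.Prime).ne_zero))⟩
    let P2 : ℕ → FPt p (h + m) v := fun N => pra D' S (Etw (k : ℤ) (Ediv N x))
    have hP : ∀ N, ‖(((P1 N).1 : OO C) : C) - (((P2 N).1 : OO C) : C)‖ ≤ R := by
      intro N
      have e1 : (((Etw (k : ℤ) (Ediv N x)).1 : OO K) : K) =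
          (((Ediv N x).1 : OO K) : K) ^ (p ^ k) := fz_nat k _
      have h1 : ‖(((zN N).1 : OO K) : K) - (((Ediv N x).1 : OO K) : K)‖ ≤ ρ := by
        have h2 := prS_mod S0 (RingHom.id _) continuous_id D.adm (Ediv N x)
        have h3 : ((shO S0 (Ediv N x).1 : OO K) : K) = (((Ediv N x).1 : OO K) : K) := hS _
        have h4 : ‖(((pra D S0 (Ediv N x)).1 : OO K) : K) - ((shO S0 (Ediv N x).1 : OO K) : K)‖ ≤ ρ := h2
        rw [h3] at h4
        exact h4
      have h5 : ‖(((P1 N).1 : OO C) : C) -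
          S.sharp ((((Ediv N x).1 : OO K) : K) ^ (p ^ k))‖ ≤ max ρ ‖(p : C)‖ := by
        set A : K := (((Ediv N x).1 : OO K) : K) ^ (p ^ k) with hA
        set Bz : K := (((zN N).1 : OO K) : K) ^ (p ^ k) - A with hBz
        have hBz1 : ‖Bz‖ ≤ ρ := by
          rw [hBz, hA, ← sub_pow_char_pow, norm_pow]
          have h6 : ‖(((zN N).1 : OO K) : K) - (((Ediv N x).1 : OO K) : K)‖ ≤ 1 :=
            h1.trans D.rho_lt.le
          exact (pow_le_of_le_one (norm_nonneg _) h6
            (pow_ne_zero _ (Fact.out : p.Prime).ne_zero)).trans h1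
        have hA1 : ‖A‖ ≤ 1 := by
          rw [hA, norm_pow]
          exact pow_le_one₀ (norm_nonneg _) (Ediv N x).1.2
        have h7 := S.add_mod A Bz hA1 (hBz1.trans D.rho_lt.le)
        have h8 : (((P1 N).1 : OO C) : C) = S.sharp (A + Bz) := by
          rw [hBz, add_sub_cancel]
          rfl
        rw [h8]
        have h9 : S.sharp (A + Bz) - S.sharp A = (S.sharp (A + Bz) - S.sharp A - S.sharp Bz)
            + S.sharp Bz := by ring
        rw [h9]
        refine (IsUltrametricDist.norm_add_le_max _ _).trans (max_le ?_ ?_)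
        · exact h7.trans (le_max_right _ _)
        · rw [S.norm_sharp]
          exact hBz1.trans (le_max_left _ _)
      have h6 : ‖(((P2 N).1 : OO C) : C) -
          S.sharp ((((Ediv N x).1 : OO K) : K) ^ (p ^ k))‖ ≤ (Dk k).choose := by
        have h7 := prS_mod S (RingHom.id _) continuous_id D'.adm (Etw (k : ℤ) (Ediv N x))
        have h8 : ((shO S (Etw (k : ℤ) (Ediv N x)).1 : OO C) : C) =
            S.sharp ((((Ediv N x).1 : OO K) : K) ^ (p ^ k)) := by
          rw [← e1]
          rfl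
        rw [← h8]
        exact h7
      have h7 : (((P1 N).1 : OO C) : C) - (((P2 N).1 : OO C) : C) =
          ((((P1 N).1 : OO C) : C) - S.sharp ((((Ediv N x).1 : OO K) : K) ^ (p ^ k))) -
          ((((P2 N).1 : OO C) : C) - S.sharp ((((Ediv N x).1 : OO K) : K) ^ (p ^ k))) := by ring
      rw [h7, sub_eq_add_neg]
      refine (IsUltrametricDist.norm_add_le_max _ _).trans (max_le ?_ ?_)
      · exact h5.trans (le_max_left _ _)
      · rw [norm_neg]
        exact h6.trans (le_max_right _ _)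
    have hP2 : ∀ N : ℕ, (p : C) ^ N * logC p (h + m) (fun j => ((v j : OO C) : C))
        (((P2 N).1 : OO C) : C) = elC D' S (Etw (k : ℤ) x) := by
      intro N
      have e2 : p ^ N • Etw (k : ℤ) (Ediv N x) = Etw (k : ℤ) x := by
        apply Subtype.ext
        rw [E_pow_smul hn1]
        have e3 := congrArg (fun w : FPt p (h + m) (Gam (h + m) : ℕ → OO K) =>
          fzO p (k : ℤ) w.1) (E_smul_Ediv hn1 N x)
        simp only [E_pow_smul hn1] at e3
        rw [map_pow] at e3
        exact e3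
      have e4 := kf7_nsmul (n := h + m) (v := v) hp (p ^ N) (P2 N)
      have e5 : p ^ N • P2 N = pra D' S (Etw (k : ℤ) x) := by
        show p ^ N • pra D' S (Etw (k : ℤ) (Ediv N x)) = _
        rw [← map_nsmul, e2]
      rw [e5] at e4
      rw [Nat.cast_pow] at e4
      exact e4.symm
    have h2 : ∀ N, ‖logC p (h + m) (fun j => ((v j : OO C) : C)) (((P1 N).1 : OO C) : C) -
        logC p (h + m) (fun j => ((v j : OO C) : C)) (((P2 N).1 : OO C) : C)‖ ≤ B := fun N =>
      kf7_diff (n := h + m) (v := v) hp hR0 (fun z hz => hB _ hv1 z hz) (P1 N) (P2 N) (hP N)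
    have h3 := (kf7_tendsto (p := p) hp h2).add_const (elC D' S (Etw (k : ℤ) x))
    rw [zero_add] at h3
    refine h3.congr fun N => ?_
    rw [← hP2 N]
    have h4 : (((shO S (zN N).1 : OO C) : C) ^ (p ^ k)) = (((P1 N).1 : OO C) : C) := by
      have h5 := congrArg (fun w : OO C => (w : C)) (hz N)
      have h6 : ((shO S (zN N).1 ^ (p ^ k) : OO C) : C) = ((shO S (zN N).1 : OO C) : C) ^ (p ^ k) :=
        SubmonoidClass.coe_pow _ _
      rw [← h6]
      exact h5
    rw [h4]
    ring
  have hfinal : Tendsto (fun N : ℕ => (p : C) ^ N *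
      logC p (h + m) (Gam h : ℕ → C) (((βN N).1 : OO C) : C)) atTop
      (𝓝 (∑ k ∈ Finset.range (h + m), ((T.theta (b k) : OO C) : C) *
        elC (Dk k).choose_spec S (Etw (k : ℤ) x))) := by
    have h1 := tendsto_finsetSum (Finset.range (h + m)) fun k _ =>
      (hsm k).const_mul (((T.theta (b k) : OO C) : C))
    refine h1.congr fun N => ?_
    rw [hlog N, Finset.mul_sum]
    refine Finset.sum_congr rfl fun k _ => ?_
    ring
  exact tendsto_nhds_unique hβlim hfinal

end kf7core

end Vale.Agent.P217
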