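import Vale.Agent.P217.Core

/-!
# P217, module PH1: solution of the Frobenius equations in `W(O)` (helper15)

`O` a perfect ring of characteristic `p`, `v : ℕ → O`; the equations
`φ^h(b_s) = ∑_{l < h, l ≤ s} b_l φ^l([v_{s+h-l}]) + p b_{s+h}` for `s < n`, `b_s = 0` for `s ≥ n`.
-/

namespace Vale.Agent.P217

namespace PH1

open Finset

variable {p : ℕ} [Fact p.Prime] {O : Type*} [CommRing O]


/-- The defect of the equation number `s`. -/
noncomputable def dE (h : ℕ) (v : ℕ → O) (b : ℕ → (WittVector p O)) (s : ℕ) : (WittVector p O) :=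
  (WittVector.frobenius (p := p) (R := O))^[h] (b s)
    - (∑ l ∈ range h, if l ≤ s then
        b l * (WittVector.frobenius (p := p) (R := O))^[l] (WittVector.teichmuller p (v (s + h - l)))
      else 0)
    - (p : (WittVector p O)) * b (s + h)

theorem dE_add (h : ℕ) (v : ℕ → O) (b b' : ℕ → (WittVector p O)) (s : ℕ) :
    dE h v (fun t => b t + b' t) s = dE h v b s + dE h v b' s := by
  unfold dE
  rw [iterate_map_add]
  have e : (∑ l ∈ range h, if l ≤ s then
        (b l + b' l) * (WittVector.frobenius (p := p) (R := O))^[l]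
          (WittVector.teichmuller p (v (s + h - l))) else 0) =
      (∑ l ∈ range h, if l ≤ s then
        b l * (WittVector.frobenius (p := p) (R := O))^[l]
          (WittVector.teichmuller p (v (s + h - l))) else 0) +
      (∑ l ∈ range h, if l ≤ s then
        b' l * (WittVector.frobenius (p := p) (R := O))^[l]
          (WittVector.teichmuller p (v (s + h - l))) else 0) := by
    rw [← Finset.sum_add_distrib]
    refine Finset.sum_congr rfl fun l _ => ?_
    split_ifs
    · ring
    · simp
  rw [e]
  ring

theorem frob_natCast_mul (N k : ℕ) (x : (WittVector p O)) :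
    (WittVector.frobenius (p := p) (R := O))^[k] ((N : (WittVector p O)) * x) =
      (N : (WittVector p O)) * (WittVector.frobenius (p := p) (R := O))^[k] x := by
  induction k with
  | zero => rfl
  | succ k ih => rw [Function.iterate_succ_apply', Function.iterate_succ_apply', ih, map_mul,
      map_natCast]

theorem dE_mul (h : ℕ) (v : ℕ → O) (N : ℕ) (b : ℕ → (WittVector p O)) (s : ℕ) :
    dE h v (fun t => (N : (WittVector p O)) * b t) s = (N : (WittVector p O)) * dE h v b s := by
  unfold dE
  rw [frob_natCast_mul]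
  have e : (∑ l ∈ range h, if l ≤ s then
        ((N : (WittVector p O)) * b l) * (WittVector.frobenius (p := p) (R := O))^[l]
          (WittVector.teichmuller p (v (s + h - l))) else 0) =
      (N : (WittVector p O)) * (∑ l ∈ range h, if l ≤ s then
        b l * (WittVector.frobenius (p := p) (R := O))^[l]
          (WittVector.teichmuller p (v (s + h - l))) else 0) := by
    rw [Finset.mul_sum]
    refine Finset.sum_congr rfl fun l _ => ?_
    split_ifs
    · ring
    · simp
  rw [e]
  ring

variable [CharP O p]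

theorem cc_frob (k : ℕ) (x : (WittVector p O)) :
    WittVector.constantCoeff ((WittVector.frobenius (p := p) (R := O))^[k] x) =
      WittVector.constantCoeff x ^ (p ^ k) := by
  induction k with
  | zero => simp
  | succ k ih =>
    rw [Function.iterate_succ_apply']
    have e : WittVector.constantCoeff (WittVector.frobenius
        ((WittVector.frobenius (p := p) (R := O))^[k] x)) =
        (WittVector.constantCoeff ((WittVector.frobenius (p := p) (R := O))^[k] x)) ^ p :=
      WittVector.coeff_frobenius_charP p _ 0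
    rw [e, ih, ← pow_mul, pow_succ]

omit [CharP O p] in
theorem cc_teich (x : O) : WittVector.constantCoeff (WittVector.teichmuller p x) = x :=
  WittVector.teichmuller_coeff_zero p x

theorem cc_p : WittVector.constantCoeff (p : (WittVector p O)) = 0 := by
  rw [map_natCast, CharP.cast_eq_zero]

/-- The residue of the defect. -/
theorem cc_dE (h : ℕ) (v : ℕ → O) (b : ℕ → (WittVector p O)) (s : ℕ) :
    WittVector.constantCoeff (dE h v b s) = WittVector.constantCoeff (b s) ^ (p ^ h)
      - ∑ l ∈ range h, if l ≤ s then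
        WittVector.constantCoeff (b l) * v (s + h - l) ^ (p ^ l) else 0 := by
  unfold dE
  rw [map_sub, map_sub, cc_frob, map_mul, cc_p, zero_mul, sub_zero, map_sum]
  congr 1
  refine Finset.sum_congr rfl fun l _ => ?_
  split_ifs
  · rw [map_mul, cc_frob, cc_teich]
  · simp

/-- The residual equations up to `N`. -/
def RE (h N : ℕ) (p : ℕ) (v : ℕ → O) (y x : ℕ → O) : Prop :=
  (∀ s, N ≤ s → x s = 0) ∧ ∀ s, s < N → x s ^ (p ^ h) =
    (∑ l ∈ range h, if l ≤ s then x l * v (s + h - l) ^ (p ^ l) else 0) + y s

omit [Fact p.Prime] [CharP O p] in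
theorem re_step {h N : ℕ} {v y x : ℕ → O}
    (hsol : ∀ s < h, ∀ f : O, ∃ x, x ^ (p ^ h) = x * v h ^ (p ^ s) + f)
    (hroot : ∀ f : O, ∃ x, x ^ (p ^ h) = f)
    (hx : RE h N p v y x) : ∃ x', RE h (N + 1) p v y x' ∧ ∀ s, s < N → x' s = x s := by
  obtain ⟨h1, h2⟩ := hx
  -- the new value
  have key : ∃ z : O, z ^ (p ^ h) = (∑ l ∈ range h, if l ≤ N then
      (Function.update x N z) l * v (N + h - l) ^ (p ^ l) else 0) + y N := by
    by_cases hN : N < h
    · obtain ⟨z, hz⟩ := hsol N hN ((∑ l ∈ (range h).erase N, if l ≤ N then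
        x l * v (N + h - l) ^ (p ^ l) else 0) + y N)
      refine ⟨z, ?_⟩
      rw [← Finset.add_sum_erase (range h) _ (mem_range.2 hN), hz, add_assoc]
      congr 1
      · rw [if_pos le_rfl, Function.update_self, Nat.add_sub_cancel_left]
      · congr 1
        refine Finset.sum_congr rfl fun l hl => ?_
        rw [Function.update_of_ne (Finset.ne_of_mem_erase hl)]
    · obtain ⟨z, hz⟩ := hroot ((∑ l ∈ range h, if l ≤ N then
        x l * v (N + h - l) ^ (p ^ l) else 0) + y N)
      refine ⟨z, ?_⟩
      rw [hz]
      congr 1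
      refine Finset.sum_congr rfl fun l hl => ?_
      have hl' := mem_range.1 hl
      rw [Function.update_of_ne (by omega)]
  obtain ⟨z, hz⟩ := key
  refine ⟨Function.update x N z, ⟨fun s hs => ?_, fun s hs => ?_⟩, fun s hs => ?_⟩
  · rw [Function.update_of_ne (by omega)]
    exact h1 s (by omega)
  · rcases Nat.lt_succ_iff_lt_or_eq.1 hs with hs' | rfl
    · rw [Function.update_of_ne (by omega), h2 s hs']
      congr 1
      refine Finset.sum_congr rfl fun l _ => ?_
      split_ifs with hl
      · rw [Function.update_of_ne (by omega)]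
      · rfl
    · rw [Function.update_self]
      exact hz
  · rw [Function.update_of_ne (by omega)]

omit [Fact p.Prime] [CharP O p] in
theorem re_exists {h N₀ : ℕ} {v y x : ℕ → O}
    (hsol : ∀ s < h, ∀ f : O, ∃ x, x ^ (p ^ h) = x * v h ^ (p ^ s) + f)
    (hroot : ∀ f : O, ∃ x, x ^ (p ^ h) = f)
    (hx : RE h N₀ p v y x) (N : ℕ) (hN : N₀ ≤ N) :
    ∃ x', RE h N p v y x' ∧ ∀ s, s < N₀ → x' s = x s := by
  induction N, hN using Nat.le_induction with
  | base => exact ⟨x, hx, fun _ _ => rfl⟩
  | succ N hN ih =>
    obtain ⟨x', h1, h2⟩ := ih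
    obtain ⟨x'', h3, h4⟩ := re_step hsol hroot h1
    exact ⟨x'', h3, fun s hs => (h4 s (by omega)).trans (h2 s hs)⟩

variable [PerfectRing O p]

theorem exists_p_mul {x : (WittVector p O)} (hx : WittVector.constantCoeff x = 0) :
    ∃ y : (WittVector p O), x = (p : (WittVector p O)) * y := by
  have h := (WittVector.mem_span_p_iff_coeff_zero_eq_zero x).2 hx
  rw [Ideal.mem_span_singleton] at h
  exact h

/-- one step of the successive approximation -/
theorem lift_step {h n : ℕ} {v : ℕ → O}
    (hsol : ∀ s < h, ∀ f : O, ∃ x, x ^ (p ^ h) = x * v h ^ (p ^ s) + f)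
    (hroot : ∀ f : O, ∃ x, x ^ (p ^ h) = f) (y : ℕ → (WittVector p O)) :
    ∃ (b : ℕ → (WittVector p O)) (r : ℕ → (WittVector p O)), (∀ s, n ≤ s → b s = 0) ∧
      ∀ s, s < n → y s = dE h v b s + (p : (WittVector p O)) * r s := by
  obtain ⟨x, ⟨hx1, hx2⟩, -⟩ := re_exists (p := p) (N₀ := 0) (x := fun _ => 0)
    (y := fun s => WittVector.constantCoeff (y s)) hsol hroot
    ⟨fun _ _ => rfl, fun s hs => absurd hs (Nat.not_lt_zero s)⟩ n (Nat.zero_le n)
  have hr : ∀ s, ∃ r : (WittVector p O), s < n →
      y s = dE h v (fun t => WittVector.teichmuller p (x t)) s + (p : (WittVector p O)) * r := by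
    intro s
    by_cases hs : s < n
    · obtain ⟨r, hr⟩ := exists_p_mul (p := p) (O := O)
        (x := y s - dE h v (fun t => WittVector.teichmuller p (x t)) s) (by
          rw [map_sub, cc_dE]
          simp only [cc_teich]
          rw [hx2 s hs]
          ring)
      exact ⟨r, fun _ => by rw [← hr]; ring⟩
    · exact ⟨0, fun hs' => absurd hs' hs⟩
  choose r hr using hr
  refine ⟨fun t => WittVector.teichmuller p (x t), r, fun s hs => ?_, fun s hs => hr s hs⟩
  show WittVector.teichmuller p (x s) = 0
  rw [hx1 s hs, WittVector.teichmuller_zero]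

/-- surjectivity of the defect map -/
theorem dE_surj {h n : ℕ} {v : ℕ → O}
    (hsol : ∀ s < h, ∀ f : O, ∃ x, x ^ (p ^ h) = x * v h ^ (p ^ s) + f)
    (hroot : ∀ f : O, ∃ x, x ^ (p ^ h) = f) (y : ℕ → (WittVector p O)) :
    ∃ b : ℕ → (WittVector p O), (∀ s, n ≤ s → b s = 0) ∧ ∀ s, s < n → dE h v b s = y s := by
  choose B R hB hR using fun y : ℕ → (WittVector p O) => lift_step (n := n) hsol hroot y
  -- the sequence of remainders
  let r : ℕ → (ℕ → (WittVector p O)) := fun k => R^[k] y
  let S : ℕ → (ℕ → (WittVector p O)) := fun k s => ∑ i ∈ range k, (p : (WittVector p O)) ^ i * B (r i) s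
  have hS : ∀ k s, s < n → y s = dE h v (S k) s + (p : (WittVector p O)) ^ k * r k s := by
    intro k
    induction k with
    | zero =>
      intro s _
      have e : dE h v (S 0) s = 0 := by
        have h0 := dE_mul h v 0 (S 0) s
        have e1 : (fun t => ((0 : ℕ) : (WittVector p O)) * S 0 t) = S 0 := by
          funext t
          simp [S]
        rw [e1] at h0
        rw [h0]
        simp
      rw [e]
      simp [r]
    | succ k ih =>
      intro s hs
      have e1 : S (k + 1) = fun t => S k t + ((p ^ k : ℕ) : (WittVector p O)) * B (r k) t := by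
        funext t
        simp only [S, Finset.sum_range_succ]
        push_cast
        rfl
      have e2 : r (k + 1) = R (r k) := by
        simp only [r]
        rw [Function.iterate_succ_apply']
      rw [e1, dE_add, dE_mul, e2, ih s hs, hR (r k) s hs]
      push_cast
      ring
  -- the limit
  have hlim : ∀ s, ∃ L : (WittVector p O), ∀ k, ∃ c : (WittVector p O), L = S k s + (p : (WittVector p O)) ^ k * c := by
    intro s
    have hc : ∀ {i j : ℕ}, i ≤ j → S i s ≡ S j s [SMOD ((Ideal.span {(p : (WittVector p O))}) ^ i • ⊤ :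
        Submodule (WittVector p O) (WittVector p O))] := by
      intro i j hij
      rw [SModEq.sub_mem, smul_eq_mul, Ideal.mul_top, Ideal.span_singleton_pow,
        Ideal.mem_span_singleton]
      obtain ⟨d, rfl⟩ := Nat.exists_eq_add_of_le hij
      simp only [S]
      rw [Finset.sum_range_add]
      refine ⟨-∑ x ∈ range d, (p : (WittVector p O)) ^ x * B (r (i + x)) s, ?_⟩
      rw [mul_neg, Finset.mul_sum]
      have e : ∀ x, (p : (WittVector p O)) ^ (i + x) * B (r (i + x)) s =
          (p : (WittVector p O)) ^ i * ((p : (WittVector p O)) ^ x * B (r (i + x)) s) := fun x => by ring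
      simp only [e]
      ring
    obtain ⟨L, hL⟩ := IsPrecomplete.prec (I := Ideal.span {(p : (WittVector p O))}) inferInstance hc
    refine ⟨L, fun k => ?_⟩
    have h1 := hL k
    rw [SModEq.sub_mem, smul_eq_mul, Ideal.mul_top, Ideal.span_singleton_pow,
      Ideal.mem_span_singleton] at h1
    obtain ⟨c, hc⟩ := h1
    refine ⟨-c, ?_⟩
    have : L = S k s - (S k s - L) := by ring
    rw [this, hc]
    ring
  choose L hL using hlim
  let b : ℕ → (WittVector p O) := fun s => if s < n then L s else 0
  refine ⟨b, fun s hs => if_neg (by omega), fun s hs => ?_⟩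
  -- `dE b s - y s` is divisible by all powers of `p`
  have hdiv : ∀ k, ∃ c : (WittVector p O), dE h v b s - y s = (p : (WittVector p O)) ^ k * c := by
    intro k
    have hb : ∀ t, ∃ c : (WittVector p O), b t = S k t + (p : (WittVector p O)) ^ k * c := by
      intro t
      by_cases ht : t < n
      · obtain ⟨c, hc⟩ := hL t k
        exact ⟨c, by simp only [b, if_pos ht]; exact hc⟩
      · refine ⟨0, ?_⟩
        have : S k t = 0 := by
          simp only [S]
          refine Finset.sum_eq_zero fun i _ => ?_
          rw [hB (r i) t (by omega), mul_zero]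
        simp only [b, if_neg ht, this]
        ring
    choose c hc using hb
    have e1 : b = fun t => S k t + ((p ^ k : ℕ) : (WittVector p O)) * c t := by
      funext t
      rw [hc t]
      push_cast
      rfl
    refine ⟨dE h v c s - r k s, ?_⟩
    rw [e1, dE_add, dE_mul, hS k s hs]
    push_cast
    ring
  have h0 : dE h v b s - y s = 0 := by
    refine IsHausdorff.haus (I := Ideal.span {(p : (WittVector p O))}) (M := (WittVector p O)) inferInstance _ fun k => ?_
    rw [SModEq.zero, smul_eq_mul, Ideal.mul_top, Ideal.span_singleton_pow,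
      Ideal.mem_span_singleton]
    exact hdiv k
  exact sub_eq_zero.1 h0

/-- The solution with prescribed nonzero residue of `b_0`. -/
theorem main {h n : ℕ} {v : ℕ → O} (hh : 1 ≤ h) (hn : 1 ≤ n)
    (hsol : ∀ s < h, ∀ f : O, ∃ x, x ^ (p ^ h) = x * v h ^ (p ^ s) + f)
    (hroot : ∀ f : O, ∃ x, x ^ (p ^ h) = f) {c : O} (hc0 : c ≠ 0)
    (hc : c ^ (p ^ h) = c * v h) :
    ∃ b : ℕ → (WittVector p O), (∀ s, n ≤ s → b s = 0) ∧
      (∀ s, s < n → (WittVector.frobenius (p := p) (R := O))^[h] (b s) =
        (∑ l ∈ range h, if l ≤ s then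
          b l * (WittVector.frobenius (p := p) (R := O))^[l]
            (WittVector.teichmuller p (v (s + h - l))) else 0) + (p : (WittVector p O)) * b (s + h)) ∧
      WittVector.constantCoeff (b 0) ≠ 0 := by
  have hp0 : p ^ h ≠ 0 := (pow_pos (Fact.out : p.Prime).pos h).ne'
  have hbase : RE h 1 p v (fun _ => 0) (Function.update (fun _ => (0 : O)) 0 c) := by
    refine ⟨fun s hs => Function.update_of_ne (by omega) _ _, fun s hs => ?_⟩
    obtain rfl : s = 0 := by omega
    rw [Function.update_self, add_zero, hc]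
    rw [Finset.sum_eq_single_of_mem 0 (mem_range.2 (by omega))]
    · simp
    · intro l _ hl
      rw [if_neg (by omega)]
  obtain ⟨x, ⟨hx1, hx2⟩, hx3⟩ := re_exists (p := p) hsol hroot hbase n hn
  have hx0 : x 0 = c := by
    rw [hx3 0 (by omega), Function.update_self]
  have hr : ∀ s, ∃ r : (WittVector p O), s < n →
      dE h v (fun t => WittVector.teichmuller p (x t)) s = (p : (WittVector p O)) * r := by
    intro s
    by_cases hs : s < n
    · obtain ⟨r, hr⟩ := exists_p_mul (p := p) (O := O)
        (x := dE h v (fun t => WittVector.teichmuller p (x t)) s) (by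
          rw [cc_dE]
          simp only [cc_teich]
          rw [hx2 s hs]
          ring)
      exact ⟨r, fun _ => hr⟩
    · exact ⟨0, fun hs' => absurd hs' hs⟩
  choose r hr using hr
  obtain ⟨b', hb1, hb2⟩ := dE_surj (n := n) hsol hroot (fun s => -r s)
  let b : ℕ → (WittVector p O) := fun t => WittVector.teichmuller p (x t) + (p : (WittVector p O)) * b' t
  have hb : ∀ s, s < n → dE h v b s = 0 := by
    intro s hs
    have e := dE_add h v (fun t => WittVector.teichmuller p (x t)) (fun t => (p : (WittVector p O)) * b' t) s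
    have e2 := dE_mul h v p b' s
    have e3 : dE h v b s = dE h v (fun t => WittVector.teichmuller p (x t) + (p : (WittVector p O)) * b' t) s :=
      rfl
    rw [e3, e, e2, hr s hs, hb2 s hs]
    ring
  refine ⟨b, fun s hs => ?_, fun s hs => ?_, ?_⟩
  · simp only [b]
    rw [hx1 s hs, hb1 s hs, WittVector.teichmuller_zero]
    simp
  · have h1 := hb s hs
    unfold dE at h1
    linear_combination h1
  · simp only [b]
    rw [map_add, map_mul, cc_p, cc_teich, hx0]
    simpa using hc0

/-! ### The ring of integers of an algebraically closed field -/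

section field

variable {K : Type*} [NormedField K] [IsUltrametricDist K]

theorem charP_OO (p : ℕ) (K : Type*) [NormedField K] [IsUltrametricDist K] [CharP K p] :
    CharP (OO K) p where
  cast_eq_zero_iff x := by
    rw [← CharP.cast_eq_zero_iff K p x]
    constructor
    · intro h
      have h1 := congrArg (fun z : OO K => (z : K)) h
      simpa using h1
    · intro h
      exact Subtype.ext (by simpa using h)

theorem exists_sol [IsAlgClosed K] {q : ℕ} (hq : 2 ≤ q) (w f : OO K) :
    ∃ x : OO K, x ^ q = x * w + f := by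
  obtain ⟨z, hz⟩ : ∃ z : K, z ^ q = z * (w : K) + (f : K) := by
    have hdeg : ((Polynomial.X ^ q - (Polynomial.C (w : K) * Polynomial.X +
        Polynomial.C (f : K)) : Polynomial K)).degree ≠ 0 := by
      have h1 : (Polynomial.C (w : K) * Polynomial.X + Polynomial.C (f : K)).degree
          < ((Polynomial.X : Polynomial K) ^ q).degree := by
        rw [Polynomial.degree_X_pow]
        refine (Polynomial.degree_linear_le).trans_lt ?_
        exact_mod_cast (show 1 < q by omega)
      rw [Polynomial.degree_sub_eq_left_of_degree_lt h1, Polynomial.degree_X_pow]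
      have : q ≠ 0 := by omega
      exact_mod_cast this
    obtain ⟨z, hz⟩ := IsAlgClosed.exists_root _ hdeg
    refine ⟨z, ?_⟩
    rw [Polynomial.IsRoot.def] at hz
    simp only [Polynomial.eval_sub, Polynomial.eval_pow, Polynomial.eval_X, Polynomial.eval_add,
      Polynomial.eval_mul, Polynomial.eval_C] at hz
    linear_combination hz
  have hn : ‖z‖ ≤ 1 := by
    by_contra hcon
    push Not at hcon
    have h1 : ‖z‖ ^ q ≤ ‖z‖ := by
      rw [← norm_pow, hz]
      refine (IsUltrametricDist.norm_add_le_max _ _).trans (max_le ?_ ?_)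
      · rw [norm_mul]
        exact mul_le_of_le_one_right (norm_nonneg _) w.2
      · exact (show ‖(f : K)‖ ≤ 1 from f.2).trans hcon.le
    have h2 : ‖z‖ ^ 1 < ‖z‖ ^ q := pow_lt_pow_right₀ hcon (by omega)
    rw [pow_one] at h2
    linarith
  exact ⟨⟨z, hn⟩, Subtype.ext (by simpa using hz)⟩

theorem exists_BEq_aux {p h m : ℕ} [Fact p.Prime] [CharP K p] [IsAlgClosed K]
    (a : Fin m → OO K) (hh : 1 ≤ h) (hm : 1 ≤ m) (ha : a ⟨0, hm⟩ ≠ 0) :
    ∃ b : ℕ → WittVector p (OO K), (∀ s, h + m ≤ s → b s = 0) ∧
      (∀ s, s < h + m → (WittVector.frobenius (p := p) (R := OO K))^[h] (b s) =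
        (∑ l ∈ range h, if l ≤ s then
          b l * (WittVector.frobenius (p := p) (R := OO K))^[l]
            (WittVector.teichmuller p (par h m a (s + h - l))) else 0)
          + (p : WittVector p (OO K)) * b (s + h)) ∧
      WittVector.constantCoeff (b 0) ≠ 0 := by
  have hp := (Fact.out : p.Prime)
  have hq : 2 ≤ p ^ h := hp.two_le.trans (Nat.le_self_pow (by omega) p)
  haveI : CharP (OO K) p := charP_OO p K
  haveI : ExpChar (OO K) p := ExpChar.prime hp
  haveI : PerfectRing (OO K) p := PerfectRing.ofSurjective (OO K) p (by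
    intro f
    obtain ⟨x, hx⟩ := exists_sol (K := K) hp.two_le 0 f
    exact ⟨x, by rw [frobenius_def, hx]; simp⟩)
  have hroot : ∀ f : OO K, ∃ x, x ^ (p ^ h) = f := by
    intro f
    obtain ⟨x, hx⟩ := exists_sol (K := K) hq 0 f
    exact ⟨x, by rw [hx]; simp⟩
  have hv : par h m a h = a ⟨0, hm⟩ := by
    unfold par
    rw [dif_pos ⟨le_rfl, by omega⟩]
    congr 1
    exact Fin.ext (by simp)
  obtain ⟨c, hc⟩ : ∃ c : K, c ^ (p ^ h - 1) = ((a ⟨0, hm⟩ : OO K) : K) :=
    IsAlgClosed.exists_pow_nat_eq _ (by omega)
  have ha' : ((a ⟨0, hm⟩ : OO K) : K) ≠ 0 := fun h0 => ha (Subtype.ext h0)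
  have hc0 : c ≠ 0 := by
    rintro rfl
    rw [zero_pow (by omega)] at hc
    exact ha' hc.symm
  have hn : ‖c‖ ≤ 1 := by
    by_contra hcon
    push Not at hcon
    have h1 : ‖c‖ ^ (p ^ h - 1) ≤ 1 := by
      rw [← norm_pow, hc]
      exact (a ⟨0, hm⟩).2
    have h2 : 1 < ‖c‖ ^ (p ^ h - 1) := one_lt_pow₀ hcon (by omega)
    linarith
  refine main (c := ⟨c, hn⟩) hh (by omega) (fun s _ f => exists_sol hq _ f) hroot
    (fun h0 => hc0 (congrArg (fun z : OO K => (z : K)) h0)) ?_
  rw [hv]
  refine Subtype.ext ?_
  show c ^ (p ^ h) = c * ((a ⟨0, hm⟩ : OO K) : K)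
  rw [← hc, ← pow_succ']
  congr 1
  omega

end field

end PH1

end Vale.Agent.P217
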