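import Vale.Agent.P217.Homs

/-!
# P217: congruences for evaluation modulo a closed ideal (module PR1)
-/

namespace Vale.Agent.P217

open MvPowerSeries Filter Topology

section pts

variable {O : Type*} [CommRing O] [UniformSpace O] [IsUniformAddGroup O] [IsTopologicalRing O]
  [IsLinearTopology O O] [T2Space O] [CompleteSpace O]
variable {p n : ℕ} [Fact p.Prime] {v w : ℕ → O} {J : Ideal O}

omit [IsUniformAddGroup O] [IsTopologicalRing O]
  [IsLinearTopology O O] [T2Space O] [CompleteSpace O] in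
theorem pr1_hasSum_mem {ι : Type*} {f : ι → O} {s : O} (hJ : IsClosed (J : Set O))
    (hf : HasSum f s) (h : ∀ i, f i ∈ J) : s ∈ J :=
  hJ.mem_of_tendsto hf (Eventually.of_forall fun _ => J.sum_mem fun i _ => h i)

/-- congruent arguments give congruent values -/
theorem pr1_eval_sub_mem {σ : Type*} (F : MvPowerSeries σ O) (hJ : IsClosed (J : Set O))
    {a b : σ → O} (ha : HasEval a) (hb : HasEval b) (h : ∀ s, a s - b s ∈ J) :
    eval₂ (RingHom.id O) a F - eval₂ (RingHom.id O) b F ∈ J := by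
  have h1 := hasSum_eval₂ (φ := RingHom.id O) continuous_idO ha F
  have h2 := hasSum_eval₂ (φ := RingHom.id O) continuous_idO hb F
  refine pr1_hasSum_mem hJ (h1.sub h2) fun d => ?_
  rw [← mul_sub]
  refine J.mul_mem_left _ ?_
  rw [← Ideal.Quotient.eq, Finsupp.prod, Finsupp.prod, map_prod, map_prod]
  refine Finset.prod_congr rfl fun s _ => ?_
  rw [map_pow, map_pow, Ideal.Quotient.eq.2 (h s)]

/-- congruent series give congruent values -/
theorem pr1_eval_sub_mem' {σ : Type*} (F G : MvPowerSeries σ O) (hJ : IsClosed (J : Set O))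
    (hFG : ∀ e, MvPowerSeries.coeff e F - MvPowerSeries.coeff e G ∈ J)
    {a : σ → O} (ha : HasEval a) :
    eval₂ (RingHom.id O) a F - eval₂ (RingHom.id O) a G ∈ J := by
  have h1 := hasSum_eval₂ (φ := RingHom.id O) continuous_idO ha F
  have h2 := hasSum_eval₂ (φ := RingHom.id O) continuous_idO ha G
  refine pr1_hasSum_mem hJ (h1.sub h2) fun d => ?_
  rw [← sub_mul]
  exact J.mul_mem_right _ (hFG d)

theorem ev2_sub_mem_pr1 (F : MvPowerSeries (Fin 2) O) (hJ : IsClosed (J : Set O))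
    {x y x' y' : O} (hx : IsTopologicallyNilpotent x) (hy : IsTopologicallyNilpotent y)
    (hx' : IsTopologicallyNilpotent x') (hy' : IsTopologicallyNilpotent y')
    (h1 : x - x' ∈ J) (h2 : y - y' ∈ J) : ev2 F x y - ev2 F x' y' ∈ J :=
  pr1_eval_sub_mem F hJ (hasEval_pair hx hy) (hasEval_pair hx' hy') fun s => by
    fin_cases s
    · exact h1
    · exact h2

theorem ev1_sub_mem_pr1 (g : PowerSeries O) (hJ : IsClosed (J : Set O))
    {x x' : O} (hx : IsTopologicallyNilpotent x)
    (hx' : IsTopologicallyNilpotent x') (h1 : x - x' ∈ J) : ev1 g x - ev1 g x' ∈ J :=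
  pr1_eval_sub_mem (σ := Unit) g hJ (hasEval_one hx) (hasEval_one hx') fun _ => h1

theorem ev2_sub_mem'_pr1 (F G : MvPowerSeries (Fin 2) O) (hJ : IsClosed (J : Set O))
    (hFG : ∀ e, MvPowerSeries.coeff e F - MvPowerSeries.coeff e G ∈ J)
    {x y : O} (hx : IsTopologicallyNilpotent x) (hy : IsTopologicallyNilpotent y) :
    ev2 F x y - ev2 G x y ∈ J :=
  pr1_eval_sub_mem' F G hJ hFG (hasEval_pair hx hy)

theorem ev1_sub_mem'_pr1 (f g : PowerSeries O) (hJ : IsClosed (J : Set O))
    (hfg : ∀ d, PowerSeries.coeff d f - PowerSeries.coeff d g ∈ J)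
    {x : O} (hx : IsTopologicallyNilpotent x) : ev1 f x - ev1 g x ∈ J := by
  refine pr1_eval_sub_mem' (σ := Unit) f g hJ (fun e => ?_) (hasEval_one hx)
  have h := hfg (e ())
  rw [PowerSeries.coeff_def (s := e) rfl] at h
  exact h

theorem FPt.sub_mem_iff_pr1 (hJ : IsClosed (J : Set O)) (x y : FPt p n v) :
    (x - y).1 ∈ J ↔ x.1 - y.1 ∈ J := by
  constructor
  · intro h
    have h1 : (x - y) + y = x := sub_add_cancel x y
    have h2 : (0 : FPt p n v) + y = y := zero_add y
    have h3 := ev2_sub_mem_pr1 (Fv p n v) hJ (x - y).2 y.2 tn_zero y.2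
      (by rw [sub_zero]; exact h) (by rw [sub_self]; exact J.zero_mem)
    have h4 : ev2 (Fv p n v) (x - y).1 y.1 = x.1 := by rw [← FPt.add_val, h1]
    have h5 : ev2 (Fv p n v) 0 y.1 = y.1 := by
      have := FPt.add_val (0 : FPt p n v) y
      rw [h2] at this
      exact this.symm
    rw [h4, h5] at h3
    exact h3
  · intro h
    have h3 := ev2_sub_mem_pr1 (Fv p n v) hJ x.2 (-y).2 y.2 (-y).2 h
      (by rw [sub_self]; exact J.zero_mem)
    rw [← FPt.add_val, ← FPt.add_val, ← sub_eq_add_neg, add_neg_cancel] at h3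
    have h4 : (0 : FPt p n v).1 = 0 := rfl
    rw [h4, sub_zero] at h3
    exact h3

omit [UniformSpace O] [IsUniformAddGroup O] [IsTopologicalRing O]
  [IsLinearTopology O O] [T2Space O] [CompleteSpace O] in
/-- `F_v ≡ F_w` if `v ≡ w` modulo `J`. -/
theorem Fv_coeff_sub_mem_pr1 (hvw : ∀ j, 1 ≤ j → j ≤ n → v j - w j ∈ J) (e : Fin 2 →₀ ℕ) :
    MvPowerSeries.coeff e (Fv p n v) - MvPowerSeries.coeff e (Fv p n w) ∈ J := by
  rw [← Ideal.Quotient.eq, ← MvPowerSeries.coeff_map, ← MvPowerSeries.coeff_map,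
    Fv_map p n v, Fv_map p n w, Fv_congr p n _ _ fun j h1 h2 => Ideal.Quotient.eq.2 (hvw j h1 h2)]

end pts

end Vale.Agent.P217
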