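import Vale.Agent.P217.Homs

/-!
# P217: `F = X + Y + XY·G` and exact factorisations on points (helper28)
-/

set_option linter.unusedSectionVars false

namespace Vale.Agent.P217

open MvPowerSeries

section formal

variable {R : Type*} [CommRing R]

theorem hasSubst_pair {τ : Type*} {a b : MvPowerSeries τ R} (ha : constantCoeff a = 0)
    (hb : constantCoeff b = 0) : HasSubst ![a, b] :=
  hasSubst_of_constantCoeff_zero fun s => by fin_cases s <;> assumption

theorem prod_pair {τ : Type*} (a b : MvPowerSeries τ R) (d : Fin 2 →₀ ℕ) :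
    (d.prod fun s e => ![a, b] s ^ e) = a ^ (d 0) * b ^ (d 1) := by
  rw [Finsupp.prod_fintype _ _ (by simp)]
  simp [Fin.prod_univ_two]

theorem coeff_subst_X_zero (F : MvPowerSeries (Fin 2) R) (k : ℕ) :
    PowerSeries.coeff k (subst ![(PowerSeries.X : PowerSeries R), 0] F) =
      coeff (Finsupp.single 0 k) F := by
  have ha : HasSubst ![(PowerSeries.X : PowerSeries R), 0] :=
    hasSubst_pair (constantCoeff_X _) (map_zero _)
  have h := coeff_subst (R := R) ha F (Finsupp.single () k)
  change coeff (Finsupp.single () k) (subst ![(PowerSeries.X : PowerSeries R), 0] F) = _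
  rw [h, finsum_eq_single _ (Finsupp.single 0 k)]
  · rw [prod_pair]
    have : coeff (Finsupp.single () k) ((PowerSeries.X : PowerSeries R) ^ k) = 1 :=
      PowerSeries.coeff_X_pow_self (R := R) k
    simp [this]
  · intro d hd
    rw [prod_pair]
    by_cases h1 : d 1 = 0
    · rw [h1, pow_zero, mul_one]
      have h0 : k ≠ d 0 := by
        intro h0
        apply hd
        ext i
        fin_cases i
        · simpa using h0.symm
        · simpa using h1
      have : coeff (Finsupp.single () k) ((PowerSeries.X : PowerSeries R) ^ (d 0)) = 0 :=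
        (PowerSeries.coeff_X_pow (R := R) k (d 0)).trans (if_neg h0)
      rw [this, smul_zero]
    · rw [zero_pow h1, mul_zero, coeff_zero, smul_zero]

theorem coeff_subst_zero_X (F : MvPowerSeries (Fin 2) R) (k : ℕ) :
    PowerSeries.coeff k (subst ![0, (PowerSeries.X : PowerSeries R)] F) =
      coeff (Finsupp.single 1 k) F := by
  have ha : HasSubst ![0, (PowerSeries.X : PowerSeries R)] :=
    hasSubst_pair (map_zero _) (constantCoeff_X _)
  have h := coeff_subst (R := R) ha F (Finsupp.single () k)
  change coeff (Finsupp.single () k) (subst ![0, (PowerSeries.X : PowerSeries R)] F) = _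
  rw [h, finsum_eq_single _ (Finsupp.single 1 k)]
  · rw [prod_pair]
    have : coeff (Finsupp.single () k) ((PowerSeries.X : PowerSeries R) ^ k) = 1 :=
      PowerSeries.coeff_X_pow_self (R := R) k
    simp [this]
  · intro d hd
    rw [prod_pair]
    by_cases h1 : d 0 = 0
    · rw [h1, pow_zero, one_mul]
      have h0 : k ≠ d 1 := by
        intro h0
        apply hd
        ext i
        fin_cases i
        · simpa using h1
        · simpa using h0.symm
      have : coeff (Finsupp.single () k) ((PowerSeries.X : PowerSeries R) ^ (d 1)) = 0 :=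
        (PowerSeries.coeff_X_pow (R := R) k (d 1)).trans (if_neg h0)
      rw [this, smul_zero]
    · rw [zero_pow h1, zero_mul, coeff_zero, smul_zero]

/-- A series in two variables with `F(X,0) = X`, `F(0,Y) = Y` is `X + Y + XY·G`. -/
theorem exists_form {F : MvPowerSeries (Fin 2) R}
    (h0 : ∀ k, coeff (Finsupp.single 0 k) F = if k = 1 then 1 else 0)
    (h1 : ∀ k, coeff (Finsupp.single 1 k) F = if k = 1 then 1 else 0) :
    ∃ G : MvPowerSeries (Fin 2) R, F = X 0 + X 1 + X 0 * X 1 * G := by
  have hH0 : ∀ d : Fin 2 →₀ ℕ, d 0 = 0 → coeff d (F - X 0 - X 1) = 0 := by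
    intro d hd
    have : d = Finsupp.single 1 (d 1) := by
      ext i
      fin_cases i
      · simpa using hd
      · simp
    rw [this, map_sub, map_sub, h1, coeff_X, coeff_X]
    by_cases hd1 : d 1 = 1
    · simp [hd1, Finsupp.single_eq_single_iff]
    · simp [hd1, Finsupp.single_eq_single_iff]
  have hH1 : ∀ d : Fin 2 →₀ ℕ, d 1 = 0 → coeff d (F - X 0 - X 1) = 0 := by
    intro d hd
    have : d = Finsupp.single 0 (d 0) := by
      ext i
      fin_cases i
      · simp
      · simpa using hd
    rw [this, map_sub, map_sub, h0, coeff_X, coeff_X]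
    by_cases hd1 : d 0 = 1
    · simp [hd1, Finsupp.single_eq_single_iff]
    · simp [hd1, Finsupp.single_eq_single_iff]
  obtain ⟨H1, hH1'⟩ := X_dvd_iff.mpr hH0
  have hH2 : ∀ d : Fin 2 →₀ ℕ, d 1 = 0 → coeff d H1 = 0 := by
    intro d hd
    have h := hH1 (Finsupp.single 0 1 + d) (by simp [hd])
    rw [hH1', X, coeff_add_monomial_mul, one_mul] at h
    exact h
  obtain ⟨G, hG⟩ := X_dvd_iff.mpr hH2
  refine ⟨G, ?_⟩
  rw [mul_assoc, ← hG, ← hH1']
  ring

end formal

section Fv

variable {R : Type*} [CommRing R] (p n : ℕ) [Fact p.Prime] (v : ℕ → R)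

/-- `F_v(0, Y) = Y`. -/
theorem Fv_zero_X : (Fv p n v).subst ![0, (PowerSeries.X : PowerSeries R)] = PowerSeries.X := by
  have h := congrArg (subst ![(0 : PowerSeries R), PowerSeries.X]) (Fv_comm p n v)
  have h01 : HasSubst ![(0 : PowerSeries R), PowerSeries.X] :=
    hasSubst_pair (map_zero _) (constantCoeff_X _)
  rw [subst_comp_subst_apply HasSubst.X_X h01] at h
  have e : (fun s => subst ![(0 : PowerSeries R), PowerSeries.X]
      ((![(X 1 : MvPowerSeries (Fin 2) R), X 0]) s)) = ![(PowerSeries.X : PowerSeries R), 0] := by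
    funext s
    fin_cases s
    · exact subst_X h01 1
    · exact subst_X h01 0
  rw [e, Fv_X_zero] at h
  exact h.symm

theorem exists_Fv_form : ∃ G : MvPowerSeries (Fin 2) R, Fv p n v = X 0 + X 1 + X 0 * X 1 * G := by
  apply exists_form
  · intro k
    rw [← coeff_subst_X_zero, Fv_X_zero, PowerSeries.coeff_X]
  · intro k
    rw [← coeff_subst_zero_X, Fv_zero_X, PowerSeries.coeff_X]

/-- The series `G` with `F_v = X + Y + XY·G`. -/
noncomputable def GF : MvPowerSeries (Fin 2) R := (exists_Fv_form p n v).choose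

theorem Fv_eq_form : Fv p n v = X 0 + X 1 + X 0 * X 1 * GF p n v :=
  (exists_Fv_form p n v).choose_spec

/-- Substitution in `F_v`: `F_v(a,b) = a + b + a b G(a,b)`. -/
theorem subst_Fv_eq {τ : Type*} {a b : MvPowerSeries τ R} (ha : constantCoeff a = 0)
    (hb : constantCoeff b = 0) :
    subst ![a, b] (Fv p n v) = a + b + a * b * subst ![a, b] (GF p n v) := by
  have h := hasSubst_pair ha hb
  conv_lhs => rw [Fv_eq_form p n v]
  rw [subst_add h, subst_add h, subst_mul h, subst_mul h, subst_X h, subst_X h]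
  rfl

end Fv

section pts

variable {O : Type*} [CommRing O] [UniformSpace O] [IsUniformAddGroup O] [IsTopologicalRing O]
  [IsLinearTopology O O] [T2Space O] [CompleteSpace O]
variable {σ τ : Type*}

theorem eval_add {a : σ → O} (ha : HasEval a) (f g : MvPowerSeries σ O) :
    eval₂ (RingHom.id O) a (f + g) = eval₂ (RingHom.id O) a f + eval₂ (RingHom.id O) a g := by
  rw [← coe_eval₂Hom (φ := RingHom.id O) continuous_idO ha]
  exact map_add _ f g

theorem eval_sub {a : σ → O} (ha : HasEval a) (f g : MvPowerSeries σ O) :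
    eval₂ (RingHom.id O) a (f - g) = eval₂ (RingHom.id O) a f - eval₂ (RingHom.id O) a g := by
  rw [← coe_eval₂Hom (φ := RingHom.id O) continuous_idO ha]
  exact map_sub _ f g

theorem eval_mul {a : σ → O} (ha : HasEval a) (f g : MvPowerSeries σ O) :
    eval₂ (RingHom.id O) a (f * g) = eval₂ (RingHom.id O) a f * eval₂ (RingHom.id O) a g := by
  rw [← coe_eval₂Hom (φ := RingHom.id O) continuous_idO ha]
  exact map_mul _ f g

theorem eval_pow {a : σ → O} (ha : HasEval a) (f : MvPowerSeries σ O) (k : ℕ) :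
    eval₂ (RingHom.id O) a (f ^ k) = eval₂ (RingHom.id O) a f ^ k := by
  rw [← coe_eval₂Hom (φ := RingHom.id O) continuous_idO ha]
  exact map_pow _ f k

theorem eval_isUnit {a : σ → O} (ha : HasEval a) {f : MvPowerSeries σ O}
    (hf : IsUnit (constantCoeff f)) : IsUnit (eval₂ (RingHom.id O) a f) := by
  rw [← coe_eval₂Hom (φ := RingHom.id O) continuous_idO ha]
  exact (isUnit_iff_constantCoeff.mpr hf).map _

theorem pb_ev1_add {x : O} (hx : IsTopologicallyNilpotent x) (f g : PowerSeries O) :
    ev1 (f + g) x = ev1 f x + ev1 g x := eval_add (hasEval_one hx) f g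

theorem pb_ev1_sub {x : O} (hx : IsTopologicallyNilpotent x) (f g : PowerSeries O) :
    ev1 (f - g) x = ev1 f x - ev1 g x := eval_sub (hasEval_one hx) f g

theorem pb_ev1_mul {x : O} (hx : IsTopologicallyNilpotent x) (f g : PowerSeries O) :
    ev1 (f * g) x = ev1 f x * ev1 g x := eval_mul (hasEval_one hx) f g

theorem pb_ev1_pow {x : O} (hx : IsTopologicallyNilpotent x) (f : PowerSeries O) (k : ℕ) :
    ev1 (f ^ k) x = ev1 f x ^ k := eval_pow (hasEval_one hx) f k

@[simp]
theorem pb_ev1_C (x r : O) : ev1 (PowerSeries.C r) x = r := eval₂_C _ _ r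

/-- `g(x) = g(0) + x g_1(x)`. -/
theorem ev1_eq_add_mul (g : PowerSeries O) {x : O} (hx : IsTopologicallyNilpotent x) :
    ev1 g x = PowerSeries.constantCoeff g +
      x * ev1 (PowerSeries.mk fun i => PowerSeries.coeff (i + 1) g) x := by
  conv_lhs => rw [PowerSeries.eq_X_mul_shift_add_const g]
  rw [pb_ev1_add hx, pb_ev1_mul hx, ev1_X, pb_ev1_C, add_comm]

/-- `g(x) = g(0) + g'(0) x + x² g_2(x)`. -/
theorem ev1_eq_add_mul_sq (g : PowerSeries O) {x : O} (hx : IsTopologicallyNilpotent x) :
    ev1 g x = PowerSeries.constantCoeff g + PowerSeries.coeff 1 g * x +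
      x ^ 2 * ev1 (PowerSeries.mk fun i => PowerSeries.coeff (i + 2) g) x := by
  rw [ev1_eq_add_mul g hx, ev1_eq_add_mul _ hx]
  simp only [PowerSeries.coeff_mk]
  rw [← PowerSeries.coeff_zero_eq_constantCoeff_apply (PowerSeries.mk _), PowerSeries.coeff_mk]
  ring

variable {p n : ℕ} [Fact p.Prime] {v : ℕ → O}

/-- `F_v(x,y) = x + y + x y G(x,y)`. -/
theorem ev2_eq_form {x y : O} (hx : IsTopologicallyNilpotent x)
    (hy : IsTopologicallyNilpotent y) :
    ev2 (Fv p n v) x y = x + y + x * y * ev2 (GF p n v) x y := by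
  have h := hasEval_pair hx hy
  conv_lhs => rw [Fv_eq_form p n v]
  unfold ev2
  rw [eval_add h, eval_add h, eval_mul h, eval_mul h, eval₂_X, eval₂_X]
  rfl

theorem isUnit_one_add {t : O} (ht : IsTopologicallyNilpotent t) : IsUnit (1 + t) := by
  have h := eval_isUnit (hasEval_one ht) (f := (1 + PowerSeries.X : PowerSeries O)) (by
    have : constantCoeff (1 + PowerSeries.X : PowerSeries O) = 1 := by
      change PowerSeries.constantCoeff (1 + PowerSeries.X : PowerSeries O) = 1
      simp
    rw [this]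
    exact isUnit_one)
  have e : eval₂ (RingHom.id O) (fun _ : Unit => t) (1 + PowerSeries.X : PowerSeries O) =
      1 + t := by
    change ev1 (1 + PowerSeries.X : PowerSeries O) t = 1 + t
    rw [pb_ev1_add ht, ev1_X, ← map_one (PowerSeries.C (R := O)), pb_ev1_C]
  rwa [e] at h

theorem isTopologicallyNilpotent_mul_right {t : O} (ht : IsTopologicallyNilpotent t) (r : O) :
    IsTopologicallyNilpotent (t * r) := PowerSeries.HasEval.mul_right r ht

/-- The difference in the formal group is a unit times the difference. -/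
theorem FPt.sub_val_assoc (x y : FPt p n v) :
    ∃ u : O, IsUnit u ∧ x.1 - y.1 = u * (x - y).1 := by
  set c := x - y with hc
  have hx : x = c + y := by rw [hc]; abel
  refine ⟨1 + y.1 * ev2 (GF p n v) c.1 y.1,
    isUnit_one_add (isTopologicallyNilpotent_mul_right y.2 _), ?_⟩
  have h : x.1 = ev2 (Fv p n v) c.1 y.1 := by rw [hx]; rfl
  rw [h, ev2_eq_form c.2 y.2]
  ring

theorem FPt.sub_mem_iff' (J : Ideal O) (x y : FPt p n v) :
    (x - y).1 ∈ J ↔ x.1 - y.1 ∈ J := by
  obtain ⟨u, hu, h⟩ := FPt.sub_val_assoc x y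
  rw [h]
  exact (Ideal.unit_mul_mem_iff_mem J hu).symm

end pts

end Vale.Agent.P217
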