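import Vale.Agent.P217.UDefs
import Vale.Agent.P217.PtsB

/-!
# P217, module PSM: multiplication by `m` on points (helper28)
-/

set_option linter.unusedSectionVars false

namespace Vale.Agent.P217

open MvPowerSeries

variable {R : Type*} [CommRing R] {p n h : ℕ} [Fact p.Prime]

theorem mulS_cc (v : ℕ → R) (m : ℕ) :
    PowerSeries.constantCoeff (mulS p n v m) = 0 := by
  induction m with
  | zero => exact map_zero _
  | succ m ih =>
    exact constantCoeff_subst_eq_zero (hasSubst_pair (constantCoeff_X _) ih)
      (fun i => by fin_cases i; exacts [constantCoeff_X _, ih]) (Fv_constantCoeff p n v)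

theorem Upart_constantCoeff (v : ℕ → R) (i : ℕ) :
    PowerSeries.constantCoeff (Upart p n h v i) = 0 := by
  induction i with
  | zero => exact map_zero _
  | succ i ih =>
    have h2 : constantCoeff (PowerSeries.C (v (h + i)) * PowerSeries.X ^ (p ^ i) :
        PowerSeries R) = 0 := by
      change PowerSeries.constantCoeff _ = 0
      have hp : p ^ i ≠ 0 := pow_ne_zero _ (Fact.out : p.Prime).ne_zero
      rw [map_mul, map_pow, PowerSeries.constantCoeff_X, zero_pow hp, mul_zero]
    exact constantCoeff_subst_eq_zero (hasSubst_pair ih h2)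
      (fun i => by fin_cases i; exacts [ih, h2]) (Fv_constantCoeff p n v)

section pts

variable {O : Type*} [CommRing O] [UniformSpace O] [IsUniformAddGroup O] [IsTopologicalRing O]
  [IsLinearTopology O O] [T2Space O] [CompleteSpace O] {v : ℕ → O}

theorem FPt.nsmul_val (m : ℕ) (x : FPt p n v) : (m • x).1 = ev1 (mulS p n v m) x.1 := by
  induction m with
  | zero =>
    rw [zero_smul]
    exact (ev1_zero_left x.1).symm
  | succ m ih =>
    have h := eval_pair (a := (PowerSeries.X : PowerSeries O)) (b := mulS p n v m)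
      (constantCoeff_X _) (mulS_cc v m) (hasEval_one x.2) (Fv p n v)
    rw [succ_nsmul', FPt.add_val, ih]
    rw [← ev1_def (mulS p n v m) x.1, ← ev1_def PowerSeries.X x.1, ev1_X] at h
    exact h.symm

theorem FPt.p_smul_val_US_psm (hUS : mulS p n v p =
      (US p n h v).subst ((PowerSeries.X : PowerSeries O) ^ (p ^ h))) (x : FPt p n v) :
    (p • x).1 = ev1 (US p n h v) (x.1 ^ (p ^ h)) := by
  have hp : p ^ h ≠ 0 := pow_ne_zero _ (Fact.out : p.Prime).ne_zero
  have hc : constantCoeff ((PowerSeries.X : PowerSeries O) ^ (p ^ h)) = 0 := by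
    change PowerSeries.constantCoeff _ = 0
    rw [map_pow, PowerSeries.constantCoeff_X, zero_pow hp]
  rw [FPt.nsmul_val, hUS, ev1_def, eval_one hc (hasEval_one x.2)]
  congr 1
  rw [← ev1_def, pb_ev1_pow x.2, ev1_X]

end pts

end Vale.Agent.P217
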