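import Vale.Agent.P217.Homs

/-!
# P217: Weierstrass preparation over the unit ball; roots in the open ball (RT1, RT2, RT3;
helper33)
-/

namespace Vale.Agent.P217

open Filter Topology

variable {L : Type*} [NormedField L] [IsUltrametricDist L]

theorem isUnit_OO {x : OO L} (hx : ‖(x : L)‖ = 1) : IsUnit x := by
  have hx0 : (x : L) ≠ 0 := by
    intro h; rw [h, norm_zero] at hx; exact zero_ne_one hx
  refine IsUnit.of_mul_eq_one (⟨(x : L)⁻¹, ?_⟩ : OO L) ?_
  · show ‖(x : L)⁻¹‖ ≤ 1
    rw [norm_inv, hx, inv_one]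
  · apply Subtype.ext
    show (x : L) * (x : L)⁻¹ = 1
    exact mul_inv_cancel₀ hx0

theorem norm_eq_one_of_isUnit {x : OO L} (hx : IsUnit x) : ‖(x : L)‖ = 1 := by
  obtain ⟨u, rfl⟩ := hx
  have h1 : ((u : OO L) : L) * (((u⁻¹ : (OO L)ˣ) : OO L) : L) = 1 := by
    have := u.mul_inv
    exact congrArg Subtype.val this
  have h2 : ‖((u : OO L) : L)‖ ≤ 1 := (u : OO L).2
  have h3 : ‖((((u⁻¹ : (OO L)ˣ) : OO L)) : L)‖ ≤ 1 := ((u⁻¹ : (OO L)ˣ) : OO L).2
  have h4 := congrArg norm h1
  rw [norm_mul, norm_one] at h4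
  nlinarith [norm_nonneg ((u : OO L) : L), norm_nonneg ((((u⁻¹ : (OO L)ˣ) : OO L)) : L)]

theorem mem_span_pow_iff (π : OO L) (n : ℕ) (x : OO L) :
    x ∈ (Ideal.span {π}) ^ n ↔ ‖(x : L)‖ ≤ ‖(π : L)‖ ^ n := by
  rw [Ideal.span_singleton_pow, Ideal.mem_span_singleton]
  constructor
  · rintro ⟨y, rfl⟩
    have hy : ‖(y : L)‖ ≤ 1 := y.2
    calc ‖((π ^ n * y : OO L) : L)‖ = ‖(π : L)‖ ^ n * ‖(y : L)‖ := by simp
      _ ≤ ‖(π : L)‖ ^ n * 1 := by gcongr
      _ = _ := mul_one _
  · intro h
    by_cases h0 : (π : L) ^ n = 0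
    · have : ‖(x : L)‖ ≤ 0 := by
        rw [← norm_pow, h0, norm_zero] at h
        exact h
      have hx : x = 0 := Subtype.ext (norm_le_zero_iff.mp this)
      rw [hx]
      exact dvd_zero _
    · refine ⟨⟨(x : L) / (π : L) ^ n, ?_⟩, ?_⟩
      · show ‖(x : L) / (π : L) ^ n‖ ≤ 1
        rw [norm_div, norm_pow]
        exact div_le_one_of_le₀ h (by positivity)
      · apply Subtype.ext
        show (x : L) = ((π ^ n : OO L) : L) * ((x : L) / (π : L) ^ n)
        rw [show ((π ^ n : OO L) : L) = (π : L) ^ n from SubmonoidClass.coe_pow π n]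
        field_simp

theorem mem_span_iff (π : OO L) (x : OO L) :
    x ∈ (Ideal.span {π}) ↔ ‖(x : L)‖ ≤ ‖(π : L)‖ := by
  have := mem_span_pow_iff π 1 x
  rwa [pow_one, pow_one] at this

theorem adic_OO [CompleteSpace L] {π : OO L} (hπ : ‖(π : L)‖ < 1) :
    IsAdicComplete (Ideal.span {π}) (OO L) where
  haus' := by
    intro x hx
    have h1 : ∀ n : ℕ, ‖(x : L)‖ ≤ ‖(π : L)‖ ^ n := by
      intro n
      have := hx n
      rw [SModEq.zero, smul_eq_mul, Ideal.mul_top, mem_span_pow_iff] at this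
      exact this
    have h2 : ‖(x : L)‖ ≤ 0 :=
      ge_of_tendsto' (tendsto_pow_atTop_nhds_zero_of_lt_one (norm_nonneg _) hπ) h1
    exact Subtype.ext (norm_le_zero_iff.mp h2)
  prec' := by
    intro f hf
    have h1 : ∀ m n, m ≤ n → ‖((f m : OO L) : L) - (f n : L)‖ ≤ ‖(π : L)‖ ^ m := by
      intro m n hmn
      have := hf hmn
      rw [SModEq.sub_mem, smul_eq_mul, Ideal.mul_top, mem_span_pow_iff] at this
      exact this
    have hc : CauchySeq (fun n => ((f n : OO L) : L)) := by
      refine cauchySeq_of_le_tendsto_0 (fun n => ‖(π : L)‖ ^ n) ?_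
        (tendsto_pow_atTop_nhds_zero_of_lt_one (norm_nonneg _) hπ)
      intro n m N hn hm
      rw [dist_eq_norm]
      have h2 := h1 N n hn
      have h3 := h1 N m hm
      have : ((f n : OO L) : L) - (f m : L) =
          -(((f N : OO L) : L) - (f n : L)) + (((f N : OO L) : L) - (f m : L)) := by ring
      rw [this]
      refine (IsUltrametricDist.norm_add_le_max _ _).trans (max_le ?_ h3)
      rwa [norm_neg]
    obtain ⟨l, hl⟩ := cauchySeq_tendsto_of_complete hc
    have hl1 : ‖l‖ ≤ 1 := le_of_tendsto' hl.norm (fun n => (f n).2)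
    refine ⟨⟨l, hl1⟩, fun n => ?_⟩
    rw [SModEq.sub_mem, smul_eq_mul, Ideal.mul_top, mem_span_pow_iff]
    show ‖((f n : OO L) : L) - l‖ ≤ _
    refine le_of_tendsto (hl.const_sub ((f n : OO L) : L)).norm ?_
    filter_upwards [eventually_ge_atTop n] with m hm
    exact h1 n m hm

theorem exists_bound (f : ℕ → OO L) (d : ℕ) (h : ∀ i < d, ‖(f i : L)‖ < 1) :
    ∃ π : OO L, ‖(π : L)‖ < 1 ∧ ∀ i < d, ‖(f i : L)‖ ≤ ‖(π : L)‖ := by
  induction d with
  | zero => exact ⟨0, by simp, fun i hi => absurd hi (by omega)⟩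
  | succ d ih =>
    obtain ⟨π, h1, h2⟩ := ih (fun i hi => h i (by omega))
    by_cases hc : ‖(f d : L)‖ ≤ ‖(π : L)‖
    · refine ⟨π, h1, fun i hi => ?_⟩
      rcases Nat.lt_succ_iff_lt_or_eq.mp hi with h3 | h3
      · exact h2 i h3
      · rw [h3]; exact hc
    · push Not at hc
      refine ⟨f d, h d (by omega), fun i hi => ?_⟩
      rcases Nat.lt_succ_iff_lt_or_eq.mp hi with h3 | h3
      · exact (h2 i h3).trans hc.le
      · rw [h3]

theorem norm_one_of_sub_lt {a b : L} (h1 : ‖a‖ = 1) (h : ‖a - b‖ < 1) : ‖b‖ = 1 := by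
  have h2 : b = a + -(a - b) := by ring
  rw [h2]
  have h3 : ‖-(a - b)‖ < ‖a‖ := by rw [norm_neg, h1]; exact h
  rw [IsUltrametricDist.norm_add_eq_max_of_norm_ne_norm h3.ne', max_eq_left h3.le, h1]

/-- Weierstrass preparation. -/
theorem weier [CompleteSpace L] (f : PowerSeries (OO L)) {d : ℕ}
    (hlt : ∀ i, i < d → ‖((PowerSeries.coeff i f : OO L) : L)‖ < 1)
    (heq : ‖((PowerSeries.coeff d f : OO L) : L)‖ = 1) :
    ∃ (P : Polynomial (OO L)) (q : PowerSeries (OO L)), P.Monic ∧ P.natDegree = d ∧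
      (∀ i < d, ‖((P.coeff i : OO L) : L)‖ < 1) ∧
      ‖((PowerSeries.coeff 0 q : OO L) : L)‖ = 1 ∧ (P : PowerSeries (OO L)) = f * q := by
  obtain ⟨π, hπ, hπd⟩ := exists_bound (fun i => PowerSeries.coeff i f) d hlt
  have := adic_OO hπ
  set I : Ideal (OO L) := Ideal.span {π} with hI
  have hord : (f.map (Ideal.Quotient.mk I)).order = d := by
    rw [PowerSeries.order_eq_nat]
    constructor
    · rw [PowerSeries.coeff_map, Ne, Ideal.Quotient.eq_zero_iff_mem, mem_span_iff, heq]
      exact not_le.mpr hπ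
    · intro i hi
      rw [PowerSeries.coeff_map, Ideal.Quotient.eq_zero_iff_mem, mem_span_iff]
      exact hπd i hi
  have hordn : (f.map (Ideal.Quotient.mk I)).order.toNat = d := by rw [hord]; rfl
  have H : f.IsWeierstrassDivisorAt I := by
    show IsUnit _
    rw [hordn]
    exact isUnit_OO heq
  have hD := H.isWeierstrassDivisionAt_div_mod (PowerSeries.X ^ d)
  set q := H.div (PowerSeries.X ^ d)
  set r := H.mod (PowerSeries.X ^ d)
  have hdeg : r.degree < d := by
    have := hD.degree_lt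
    rwa [hordn] at this
  have hnt : Nontrivial (OO L) := inferInstance
  have hmon : (Polynomial.X ^ d - r).Monic := Polynomial.monic_X_pow_sub hdeg
  have hcoe : ((Polynomial.X ^ d - r : Polynomial (OO L)) : PowerSeries (OO L)) = f * q := by
    rw [Polynomial.coe_sub, Polynomial.coe_pow, Polynomial.coe_X]
    conv_lhs => rw [hD.eq_mul_add]
    ring
  have hnd : (Polynomial.X ^ d - r : Polynomial (OO L)).natDegree = d := by
    apply Polynomial.natDegree_eq_of_degree_eq_some
    rw [Polynomial.degree_sub_eq_left_of_degree_lt, Polynomial.degree_X_pow]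
    rwa [Polynomial.degree_X_pow]
  refine ⟨Polynomial.X ^ d - r, q, hmon, hnd, ?_, ?_, hcoe⟩
  · intro i hi
    have h1 := hD.coeff_f_sub_r_mem (i := i) (by rw [hordn]; exact hi)
    rw [mem_span_iff] at h1
    have h2 : (Polynomial.X ^ d - r : Polynomial (OO L)).coeff i =
        PowerSeries.coeff i (PowerSeries.X ^ d - (r : PowerSeries (OO L))) := by
      rw [← Polynomial.coeff_coe, Polynomial.coe_sub, Polynomial.coe_pow, Polynomial.coe_X]
    rw [h2]
    exact lt_of_le_of_lt h1 hπ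
  · have h1 : PowerSeries.coeff d (f * q) = 1 := by
      rw [← hcoe, Polynomial.coeff_coe]
      have := hmon.coeff_natDegree
      rwa [hnd] at this
    rw [PowerSeries.coeff_mul] at h1
    have h2 : (1 : OO L) - PowerSeries.coeff d f * PowerSeries.coeff 0 q ∈ I := by
      rw [← h1, ← Finset.add_sum_erase _ _ (show (d, 0) ∈ Finset.HasAntidiagonal.antidiagonal d by simp)]
      simp only [add_sub_cancel_left]
      refine Ideal.sum_mem _ fun x hx => ?_
      obtain ⟨hx1, hx2⟩ := Finset.mem_erase.mp hx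
      rw [Finset.HasAntidiagonal.mem_antidiagonal] at hx2
      refine Ideal.mul_mem_right _ _ ?_
      rw [mem_span_iff]
      apply hπd
      by_contra hc
      apply hx1
      ext <;> simp <;> omega
    rw [mem_span_iff] at h2
    have h3 : ‖((PowerSeries.coeff d f * PowerSeries.coeff 0 q : OO L) : L)‖ = 1 := by
      apply norm_one_of_sub_lt (a := (1 : L)) norm_one
      exact lt_of_le_of_lt h2 hπ
    have h4 : ‖((PowerSeries.coeff d f * PowerSeries.coeff 0 q : OO L) : L)‖ =
        ‖((PowerSeries.coeff d f : OO L) : L)‖ * ‖((PowerSeries.coeff 0 q : OO L) : L)‖ := by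
      simp
    rw [h4, heq, one_mul] at h3
    exact h3


section eval

variable [CompleteSpace L]

/-- Evaluation at a point of the open ball, as a ring homomorphism. -/
noncomputable def evH (x : OO L) (hx : ‖(x : L)‖ < 1) : PowerSeries (OO L) →+* OO L :=
  PowerSeries.eval₂Hom (φ := RingHom.id (OO L)) continuous_id ((tn_OO x).mpr hx)

theorem evH_apply {x : OO L} (hx : ‖(x : L)‖ < 1) (f : PowerSeries (OO L)) :
    evH x hx f = ev1 f x := by
  unfold evH ev1
  rw [PowerSeries.coe_eval₂Hom]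

theorem ev1_mul_rt {x : OO L} (hx : ‖(x : L)‖ < 1) (f g : PowerSeries (OO L)) :
    ev1 (f * g) x = ev1 f x * ev1 g x := by
  rw [← evH_apply hx, ← evH_apply hx, ← evH_apply hx, map_mul]

theorem ev1_add_rt {x : OO L} (hx : ‖(x : L)‖ < 1) (f g : PowerSeries (OO L)) :
    ev1 (f + g) x = ev1 f x + ev1 g x := by
  rw [← evH_apply hx, ← evH_apply hx, ← evH_apply hx, map_add]

theorem ev1_poly (x : OO L) (P : Polynomial (OO L)) :
    ev1 (P : PowerSeries (OO L)) x = P.eval x := by
  unfold ev1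
  rw [PowerSeries.eval₂_coe]
  rfl

theorem ev1_norm_unit {x : OO L} (hx : ‖(x : L)‖ < 1) {q : PowerSeries (OO L)}
    (hq : ‖((PowerSeries.coeff 0 q : OO L) : L)‖ = 1) : ‖((ev1 q x : OO L) : L)‖ = 1 := by
  have h1 := PowerSeries.eq_X_mul_shift_add_const q
  set q' : PowerSeries (OO L) := PowerSeries.mk fun p => PowerSeries.coeff (p + 1) q
  have h2 : ev1 q x = x * ev1 q' x + PowerSeries.coeff 0 q := by
    conv_lhs => rw [h1]
    rw [ev1_add_rt hx, ev1_mul_rt hx, ev1_X]
    congr 1
    rw [← Polynomial.coe_C, ev1_poly, Polynomial.eval_C, PowerSeries.coeff_zero_eq_constantCoeff]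
  apply norm_one_of_sub_lt hq
  rw [h2]
  have h3 : ((PowerSeries.coeff 0 q : OO L) : L) - ((x * ev1 q' x + PowerSeries.coeff 0 q : OO L) : L)
      = -((x : L) * ((ev1 q' x : OO L) : L)) := by
    push_cast
    ring
  rw [h3, norm_neg, norm_mul]
  have h4 : ‖((ev1 q' x : OO L) : L)‖ ≤ 1 := (ev1 q' x).2
  calc ‖(x : L)‖ * ‖((ev1 q' x : OO L) : L)‖ ≤ ‖(x : L)‖ * 1 := by gcongr
    _ < 1 := by rwa [mul_one]

/-- Roots of a monic polynomial with lower coefficients in the open ball are in the open ball. -/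
theorem root_norm_lt {P : Polynomial (OO L)} (hP : P.Monic)
    (hlt : ∀ i < P.natDegree, ‖((P.coeff i : OO L) : L)‖ < 1) {x : L}
    (hx : (P.map (OO L).subtype).eval x = 0) : ‖x‖ < 1 := by
  by_contra hc
  push Not at hc
  rw [Polynomial.eval_map, Polynomial.eval₂_eq_sum_range, Finset.sum_range_succ,
    hP.coeff_natDegree, map_one, one_mul] at hx
  have h1 : x ^ P.natDegree = -∑ i ∈ Finset.range P.natDegree, (OO L).subtype (P.coeff i) * x ^ i :=
    by linear_combination hx
  rcases Nat.eq_zero_or_pos P.natDegree with h0 | h0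
  · rw [h0] at h1
    simp at h1
  · obtain ⟨i, hi, hle⟩ := IsUltrametricDist.exists_norm_finsetSum_le_of_nonempty
      (Finset.nonempty_range_iff.mpr h0.ne') (fun i => (OO L).subtype (P.coeff i) * x ^ i)
    rw [Finset.mem_range] at hi
    have h2 := congrArg norm h1
    rw [norm_neg, norm_pow] at h2
    have h3 : ‖(OO L).subtype (P.coeff i) * x ^ i‖ < ‖x‖ ^ P.natDegree := by
      rw [norm_mul, norm_pow]
      have h4 : ‖(OO L).subtype (P.coeff i)‖ < 1 := hlt i hi
      have h5 : ‖x‖ ^ i ≤ ‖x‖ ^ P.natDegree := pow_le_pow_right₀ hc hi.le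
      have h6 : 0 < ‖x‖ ^ i := by positivity
      calc ‖(OO L).subtype (P.coeff i)‖ * ‖x‖ ^ i < 1 * ‖x‖ ^ i := by gcongr
        _ ≤ _ := by rwa [one_mul]
    linarith

/-- A root of `P` in `L` gives a root of `f` in the open ball, if `P = f q`, `|q_0| = 1`. -/
theorem root_lift {f q : PowerSeries (OO L)} {P : Polynomial (OO L)} (hP : P.Monic)
    (hlt : ∀ i < P.natDegree, ‖((P.coeff i : OO L) : L)‖ < 1)
    (hq : ‖((PowerSeries.coeff 0 q : OO L) : L)‖ = 1) (hPq : (P : PowerSeries (OO L)) = f * q)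
    {x : L} (hx : (P.map (OO L).subtype).eval x = 0) :
    ∃ y : OO L, (y : L) = x ∧ ‖(y : L)‖ < 1 ∧ ev1 f y = 0 := by
  have h1 := root_norm_lt hP hlt hx
  have hy : ‖((⟨x, h1.le⟩ : OO L) : L)‖ < 1 := h1
  refine ⟨⟨x, h1.le⟩, rfl, hy, ?_⟩
  have h2 : P.eval (⟨x, h1.le⟩ : OO L) = 0 := by
    apply Subtype.ext
    have h3 : (OO L).subtype (P.eval (⟨x, h1.le⟩ : OO L)) = (P.map (OO L).subtype).eval x := by
      rw [Polynomial.eval_map, ← Polynomial.eval₂_at_apply]
      rfl
    exact h3.trans hx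
  rw [← ev1_poly, hPq, ev1_mul_rt hy] at h2
  have h4 := ev1_norm_unit hy hq
  rcases mul_eq_zero.mp h2 with h | h
  · exact h
  · rw [h] at h4
    simp at h4

/-- RT1: a root in the open ball. -/
theorem exists_root' [IsAlgClosed L] (f : PowerSeries (OO L)) {d : ℕ} (hd : 1 ≤ d)
    (hlt : ∀ i, i < d → ‖((PowerSeries.coeff i f : OO L) : L)‖ < 1)
    (heq : ‖((PowerSeries.coeff d f : OO L) : L)‖ = 1) :
    ∃ x : OO L, ‖(x : L)‖ < 1 ∧ ev1 f x = 0 := by
  obtain ⟨P, q, hP, hdeg, hPlt, hq, hPq⟩ := weier f hlt heq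
  have hPL : (P.map (OO L).subtype).natDegree = d := by
    rw [hP.natDegree_map, hdeg]
  obtain ⟨x, hx⟩ := IsAlgClosed.exists_root (P.map (OO L).subtype) (by
    intro h
    rw [Polynomial.natDegree_eq_zero_iff_degree_le_zero.mpr h.le] at hPL
    omega)
  obtain ⟨y, -, hy1, hy2⟩ := root_lift hP (by rwa [hdeg]) hq hPq hx
  exact ⟨y, hy1, hy2⟩

/-- RT2: `d` distinct roots in the open ball if the derivative does not vanish at the roots. -/
theorem exists_roots' [IsAlgClosed L] (f : PowerSeries (OO L)) {d : ℕ}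
    (hlt : ∀ i, i < d → ‖((PowerSeries.coeff i f : OO L) : L)‖ < 1)
    (heq : ‖((PowerSeries.coeff d f : OO L) : L)‖ = 1)
    (hder : ∀ x : OO L, ‖(x : L)‖ < 1 → ev1 f x = 0 → ev1 (PowerSeries.derivative (OO L) f) x ≠ 0) :
    ∃ s : Fin d → OO L, Function.Injective s ∧ (∀ i, ‖(s i : L)‖ < 1) ∧ ∀ i, ev1 f (s i) = 0 := by
  classical
  obtain ⟨P, q, hP, hdeg, hPlt, hq, hPq⟩ := weier f hlt heq
  set PL := P.map (OO L).subtype with hPLdef
  have hPL : PL.natDegree = d := by
    rw [hP.natDegree_map, hdeg]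
  have hPL0 : PL ≠ 0 := (hP.map _).ne_zero
  have hcard : Multiset.card PL.roots = d := by
    rw [← hPL]
    exact (IsAlgClosed.splits PL).natDegree_eq_card_roots.symm
  have hnodup : PL.roots.Nodup := by
    rw [Multiset.nodup_iff_count_le_one]
    intro x
    rw [Polynomial.count_roots]
    by_contra hc
    push Not at hc
    rw [Polynomial.one_lt_rootMultiplicity_iff_isRoot hPL0] at hc
    obtain ⟨h1, h2⟩ := hc
    obtain ⟨y, hy, hy1, hy2⟩ := root_lift hP (by rwa [hdeg]) hq hPq h1
    have h3 : (Polynomial.derivative P).eval y = 0 := by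
      apply Subtype.ext
      have h4 : (OO L).subtype ((Polynomial.derivative P).eval y) =
          ((Polynomial.derivative P).map (OO L).subtype).eval x := by
        rw [Polynomial.eval_map, ← hy, ← Polynomial.eval₂_at_apply]
        rfl
      rw [← Polynomial.derivative_map] at h4
      exact h4.trans h2
    have h5 : ((Polynomial.derivative P : Polynomial (OO L)) : PowerSeries (OO L)) =
        f * PowerSeries.derivative (OO L) q + q * PowerSeries.derivative (OO L) f := by
      rw [← PowerSeries.derivative_coe, hPq, Derivation.leibniz, smul_eq_mul, smul_eq_mul]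
    rw [← ev1_poly, h5, ev1_add_rt hy1, ev1_mul_rt hy1, ev1_mul_rt hy1, hy2, zero_mul, zero_add] at h3
    have h4 := ev1_norm_unit hy1 hq
    rcases mul_eq_zero.mp h3 with h | h
    · rw [h] at h4
      simp at h4
    · exact hder y hy1 hy2 h
  have hfin : PL.roots.toFinset.card = d := by
    rw [Multiset.toFinset_card_of_nodup hnodup, hcard]
  let e := PL.roots.toFinset.equivFinOfCardEq hfin
  have hex : ∀ i : Fin d, ∃ y : OO L, (y : L) = ((e.symm i : PL.roots.toFinset) : L) ∧
      ‖(y : L)‖ < 1 ∧ ev1 f y = 0 := by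
    intro i
    have h1 := (e.symm i).2
    rw [Multiset.mem_toFinset, Polynomial.mem_roots hPL0] at h1
    exact root_lift hP (by rwa [hdeg]) hq hPq h1
  choose s hs1 hs2 hs3 using hex
  refine ⟨s, ?_, hs2, hs3⟩
  intro i j hij
  have := congrArg (fun y : OO L => (y : L)) hij
  simp only [hs1] at this
  exact e.symm.injective (Subtype.ext this)

/-- Division by `X - s`. -/
theorem div_root {f : PowerSeries (OO L)} {s : OO L} (hs : ‖(s : L)‖ < 1) (h0 : ev1 f s = 0) :
    ∃ g : PowerSeries (OO L), f = (PowerSeries.X - PowerSeries.C s) * g := by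
  have := adic_OO hs
  set I : Ideal (OO L) := Ideal.span {s} with hI
  set G : PowerSeries (OO L) := PowerSeries.X - PowerSeries.C s with hG
  have hord : (G.map (Ideal.Quotient.mk I)).order = (1 : ℕ) := by
    rw [PowerSeries.order_eq_nat]
    constructor
    · rw [PowerSeries.coeff_map, hG, map_sub, PowerSeries.coeff_one_X, PowerSeries.coeff_C]
      simp only [one_ne_zero, if_false, sub_zero, map_one]
      rw [← map_one (Ideal.Quotient.mk I), Ne, Ideal.Quotient.eq_zero_iff_mem, mem_span_iff]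
      rw [show (((1 : OO L)) : L) = 1 from rfl, norm_one]
      exact not_le.mpr hs
    · intro i hi
      have hi0 : i = 0 := by omega
      subst hi0
      rw [PowerSeries.coeff_map, Ideal.Quotient.eq_zero_iff_mem, hG, map_sub]
      rw [PowerSeries.coeff_zero_X, PowerSeries.coeff_zero_C, zero_sub]
      exact (Ideal.neg_mem_iff _).mpr (Ideal.subset_span rfl)
  have hordn : (G.map (Ideal.Quotient.mk I)).order.toNat = 1 := by rw [hord]; rfl
  have H : G.IsWeierstrassDivisorAt I := by
    show IsUnit _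
    rw [hordn, hG, map_sub, PowerSeries.coeff_one_X, PowerSeries.coeff_C]
    simp
  have hD := H.isWeierstrassDivisionAt_div_mod f
  have hdeg := hD.degree_lt
  rw [hordn] at hdeg
  refine ⟨H.div f, ?_⟩
  have h1 := hD.eq_mul_add
  have h2 : H.mod f = Polynomial.C ((H.mod f).coeff 0) :=
    Polynomial.ext fun k => by
      rcases Nat.eq_zero_or_pos k with hk | hk
      · subst hk; simp
      · rw [(Polynomial.degree_lt_iff_coeff_zero _ 1).mp hdeg k hk, Polynomial.coeff_C,
          if_neg (by omega)]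
  have h3 : ev1 f s = (H.mod f).coeff 0 := by
    conv_lhs => rw [h1]
    rw [ev1_add_rt hs, ev1_mul_rt hs, ev1_poly]
    have h4 : ev1 G s = 0 := by
      rw [hG, ← Polynomial.coe_X, ← Polynomial.coe_C, ← Polynomial.coe_sub, ev1_poly]
      simp
    rw [h4, zero_mul, zero_add]
    conv_lhs => rw [h2]
    simp
  rw [h0] at h3
  rw [← h3, Polynomial.C_0] at h2
  rw [h2, Polynomial.coe_zero, add_zero] at h1
  exact h1

theorem div_roots (d : ℕ) (f : PowerSeries (OO L)) (s : Fin d → OO L)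
    (hs : Function.Injective s) (h1 : ∀ i, ‖(s i : L)‖ < 1) (h0 : ∀ i, ev1 f (s i) = 0) :
    ∃ g : PowerSeries (OO L), f = (∏ i, (PowerSeries.X - PowerSeries.C (s i))) * g := by
  induction d generalizing f with
  | zero => exact ⟨f, by simp⟩
  | succ d ih =>
    obtain ⟨g, hg⟩ := div_root (h1 0) (h0 0)
    obtain ⟨g', hg'⟩ := ih g (fun i => s i.succ) (fun i j hij => Fin.succ_injective _ (hs hij))
      (fun i => h1 i.succ) (fun i => by
        have h2 := h0 i.succ
        rw [hg, ev1_mul_rt (h1 _)] at h2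
        rcases mul_eq_zero.mp h2 with h | h
        · exfalso
          rw [← Polynomial.coe_X, ← Polynomial.coe_C, ← Polynomial.coe_sub, ev1_poly] at h
          simp only [Polynomial.eval_sub, Polynomial.eval_X, Polynomial.eval_C, sub_eq_zero] at h
          exact Fin.succ_ne_zero i (hs h)
        · exact h)
    refine ⟨g', ?_⟩
    rw [Fin.prod_univ_succ, mul_assoc, ← hg', ← hg]

/-- RT3: a power series vanishing at `d` distinct points of the open ball has its first `d`
coefficients in the open ball. -/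
theorem coeff_lt_one_of_roots' (f : PowerSeries (OO L)) {d : ℕ} (s : Fin d → OO L)
    (hs : Function.Injective s) (h1 : ∀ i, ‖(s i : L)‖ < 1) (h0 : ∀ i, ev1 f (s i) = 0) (i : ℕ)
    (hi : i < d) : ‖((PowerSeries.coeff i f : OO L) : L)‖ < 1 := by
  obtain ⟨g, hg⟩ := div_roots d f s hs h1 h0
  set J : Ideal (OO L) := ballIdeal L ⟨1, one_pos⟩ with hJ
  have hmem : ∀ x : OO L, x ∈ J ↔ ‖(x : L)‖ < 1 := fun x => Iff.rfl
  rw [← hmem, ← Ideal.Quotient.eq_zero_iff_mem, ← PowerSeries.coeff_map, hg, map_mul, map_prod]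
  have h2 : ∀ k : Fin d, (PowerSeries.map (Ideal.Quotient.mk J))
      (PowerSeries.X - PowerSeries.C (s k)) = PowerSeries.X := by
    intro k
    rw [map_sub, PowerSeries.map_X, PowerSeries.map_C]
    have : Ideal.Quotient.mk J (s k) = 0 := Ideal.Quotient.eq_zero_iff_mem.mpr (h1 k)
    rw [this, map_zero, sub_zero]
  rw [Finset.prod_congr rfl (fun k _ => h2 k), Finset.prod_const, Finset.card_univ,
    Fintype.card_fin, PowerSeries.coeff_X_pow_mul', if_neg (by omega)]

end eval

end Vale.Agent.P217
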