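import Vale.Agent.P217.Core

/-!
# P217: evaluation of power series in linearly topologised complete rings (helper28)

General lemmas about `ev1`, `ev2`, `evm`: values are topologically nilpotent, evaluation of a
substitution, continuous base change.
-/

set_option linter.unusedSectionVars false

namespace Vale.Agent.P217

open MvPowerSeries

section gen

variable {O : Type*} [CommRing O] [UniformSpace O] [IsUniformAddGroup O] [IsTopologicalRing O]
  [IsLinearTopology O O] [T2Space O] [CompleteSpace O]
variable {σ τ : Type*}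

omit [IsUniformAddGroup O] [IsTopologicalRing O]
  [IsLinearTopology O O] [T2Space O] [CompleteSpace O] in
/-- For a finite index set `HasEval` only asks for topological nilpotence. -/
theorem hasEval_of_finite [Finite σ] {a : σ → O} (ha : ∀ s, IsTopologicallyNilpotent (a s)) :
    HasEval a := by
  refine ⟨ha, ?_⟩
  rw [Filter.cofinite_eq_bot]
  exact Filter.tendsto_bot

omit [IsUniformAddGroup O] [IsTopologicalRing O]
  [IsLinearTopology O O] [T2Space O] [CompleteSpace O] in
theorem hasEval_pair {x y : O} (hx : IsTopologicallyNilpotent x)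
    (hy : IsTopologicallyNilpotent y) : HasEval ![x, y] :=
  hasEval_of_finite fun s => by fin_cases s <;> assumption

omit [IsUniformAddGroup O] [IsTopologicalRing O]
  [IsLinearTopology O O] [T2Space O] [CompleteSpace O] in
theorem hasEval_triple {x y z : O} (hx : IsTopologicallyNilpotent x)
    (hy : IsTopologicallyNilpotent y) (hz : IsTopologicallyNilpotent z) : HasEval ![x, y, z] :=
  hasEval_of_finite fun s => by fin_cases s <;> assumption

theorem continuous_idO : Continuous (RingHom.id O) := continuous_id

/-- The value of a series without constant term is topologically nilpotent. -/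
theorem tn_eval {b : σ → O} (hb : HasEval b) {f : MvPowerSeries σ O}
    (hf : constantCoeff f = 0) : IsTopologicallyNilpotent (eval₂ (RingHom.id O) b f) := by
  open scoped WithPiTopology in
  have h1 : IsTopologicallyNilpotent f :=
    WithPiTopology.isTopologicallyNilpotent_of_constantCoeff_zero hf
  have h2 := h1.map (φ := eval₂Hom (φ := RingHom.id O) continuous_idO hb)
    (by rw [coe_eval₂Hom]; exact continuous_eval₂ continuous_idO hb)
  rwa [coe_eval₂Hom] at h2

/-- Evaluation does not depend on the uniform structure of the coefficient ring. -/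
theorem eval₂_bot {b : σ → O} (hb : HasEval b) (f : MvPowerSeries σ O) :
    @MvPowerSeries.eval₂ σ O _ ⊥ O _ _ (RingHom.id O) b f = eval₂ (RingHom.id O) b f := by
  have h1 := hasSum_eval₂ (φ := RingHom.id O) continuous_idO hb f
  have h2 := by
    refine @hasSum_eval₂ σ O _ ⊥ O _ _ (RingHom.id O) b ?_ ?_ _ _ _ _ _ ?_ hb f
    · let : UniformSpace O := ⊥
      have : DiscreteTopology O := ⟨rfl⟩
      exact inferInstance
    · let : UniformSpace O := ⊥
      have : DiscreteUniformity O := ⟨rfl⟩
      exact inferInstance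
    · exact continuous_bot
  exact h2.unique h1

theorem evalR_subst {R : Type*} [CommRing R] [UniformSpace R] [DiscreteUniformity R]
    [Algebra R O] {a : σ → MvPowerSeries τ R} (ha : HasSubst a) {b : τ → O} (hb : HasEval b)
    (f : MvPowerSeries σ R) :
    eval₂ (algebraMap R O) b (subst a f) =
      eval₂ (algebraMap R O) (fun s => eval₂ (algebraMap R O) b (a s)) f :=
  eval₂_subst ha hb f

theorem hasEvalR {R : Type*} [CommRing R] [UniformSpace R] [DiscreteUniformity R]
    [Algebra R O] {a : σ → MvPowerSeries τ R} (ha : HasSubst a) {b : τ → O} (hb : HasEval b) :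
    HasEval (fun s => eval₂ (algebraMap R O) b (a s)) := by
  open scoped WithPiTopology in
  have hc : Continuous (algebraMap R O) := continuous_of_discreteTopology
  have h := HasEval.map (φ := eval₂Hom (φ := algebraMap R O) hc hb)
    (by rw [coe_eval₂Hom]; exact continuous_eval₂ hc hb) ha.hasEval
  rwa [coe_eval₂Hom] at h

theorem hasEval_subst {a : σ → MvPowerSeries τ O} (ha : HasSubst a) {b : τ → O} (hb : HasEval b) :
    HasEval (fun s => eval₂ (RingHom.id O) b (a s)) := by
  have h := @hasEvalR O _ _ _ _ _ _ _ σ τ O _ ⊥ (@DiscreteUniformity.mk O ⊥ rfl) (Algebra.id O) a ha b hb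
  have e : (fun s => @MvPowerSeries.eval₂ τ O _ ⊥ O _ _ (RingHom.id O) b (a s)) =
      fun s => eval₂ (RingHom.id O) b (a s) := funext fun s => eval₂_bot hb (a s)
  rw [← e]
  exact h

/-- Evaluation of a substitution. -/
theorem eval_subst {a : σ → MvPowerSeries τ O} (ha : HasSubst a) {b : τ → O} (hb : HasEval b)
    (f : MvPowerSeries σ O) :
    eval₂ (RingHom.id O) b (subst a f) =
      eval₂ (RingHom.id O) (fun s => eval₂ (RingHom.id O) b (a s)) f := by
  have h := @evalR_subst O _ _ _ _ _ _ _ σ τ O _ ⊥ (@DiscreteUniformity.mk O ⊥ rfl) (Algebra.id O) a ha b hb f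
  have e : (fun s => @MvPowerSeries.eval₂ τ O _ ⊥ O _ _ (RingHom.id O) b (a s)) =
      fun s => eval₂ (RingHom.id O) b (a s) := funext fun s => eval₂_bot hb (a s)
  have h1 : @MvPowerSeries.eval₂ τ O _ ⊥ O _ _ (RingHom.id O) b (subst a f) =
    @MvPowerSeries.eval₂ σ O _ ⊥ O _ _ (RingHom.id O)
      (fun s => @MvPowerSeries.eval₂ τ O _ ⊥ O _ _ (RingHom.id O) b (a s)) f := h
  rw [e, eval₂_bot hb, eval₂_bot (hasEval_subst ha hb)] at h1
  exact h1

theorem eval_pair {a b : MvPowerSeries τ O} (ha : constantCoeff a = 0) (hb : constantCoeff b = 0)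
    {c : τ → O} (hc : HasEval c) (F : MvPowerSeries (Fin 2) O) :
    eval₂ (RingHom.id O) c (subst ![a, b] F) =
      ev2 F (eval₂ (RingHom.id O) c a) (eval₂ (RingHom.id O) c b) := by
  have h : HasSubst ![a, b] :=
    hasSubst_of_constantCoeff_zero fun s => by fin_cases s <;> assumption
  rw [eval_subst h hc]
  unfold ev2
  congr 1
  funext s
  fin_cases s <;> rfl

theorem ev1_def (g : PowerSeries O) (x : O) :
    ev1 g x = MvPowerSeries.eval₂ (RingHom.id O) (fun _ : Unit => x) g := rfl

theorem hasEval_one {x : O} (hx : IsTopologicallyNilpotent x) :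
    HasEval (fun _ : Unit => x) := hasEval_of_finite fun _ => hx

theorem tn_ev1 {g : PowerSeries O} (hg : PowerSeries.constantCoeff g = 0) {x : O}
    (hx : IsTopologicallyNilpotent x) : IsTopologicallyNilpotent (ev1 g x) :=
  tn_eval (hasEval_one hx) hg

theorem tn_ev2 {F : MvPowerSeries (Fin 2) O} (hF : constantCoeff F = 0) {x y : O}
    (hx : IsTopologicallyNilpotent x) (hy : IsTopologicallyNilpotent y) :
    IsTopologicallyNilpotent (ev2 F x y) :=
  tn_eval (hasEval_pair hx hy) hF

theorem tn_evm {m : ℕ} {F : MvPowerSeries (Fin m) O} (hF : constantCoeff F = 0) {x : Fin m → O}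
    (hx : ∀ i, IsTopologicallyNilpotent (x i)) :
    IsTopologicallyNilpotent (evm F x) :=
  tn_eval (hasEval_of_finite hx) hF

/-- Evaluation of `g(a)` for a series `g` in one variable. -/
theorem eval_one {a : MvPowerSeries τ O} (ha : constantCoeff a = 0)
    {c : τ → O} (hc : HasEval c) (g : PowerSeries O) :
    eval₂ (RingHom.id O) c (g.subst a) = ev1 g (eval₂ (RingHom.id O) c a) :=
  eval_subst (PowerSeries.HasSubst.of_constantCoeff_zero ha).const hc g

@[simp]
theorem eval_zero {c : τ → O} :
    eval₂ (RingHom.id O) c (0 : MvPowerSeries τ O) = 0 := by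
  have := eval₂_C (R := O) (RingHom.id O) c 0
  simpa using this

@[simp]
theorem ev1_X (x : O) : ev1 (PowerSeries.X : PowerSeries O) x = x := by
  exact PowerSeries.eval₂_X _ _

@[simp]
theorem ev1_zero_left (x : O) : ev1 (0 : PowerSeries O) x = 0 := eval_zero

theorem ev1_zero_right {g : PowerSeries O} (hg : PowerSeries.constantCoeff g = 0) :
    ev1 g (0 : O) = 0 := by
  have h0 : HasEval (fun _ : Unit => (0 : O)) := hasEval_one IsTopologicallyNilpotent.zero
  have h := eval_one (a := (0 : MvPowerSeries Unit O)) (map_zero _) h0 g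
  rw [eval_zero] at h
  rw [← h, PowerSeries.subst_zero_of_constantCoeff_zero hg, eval_zero]

section map

variable {O' : Type*} [CommRing O'] [UniformSpace O'] [IsUniformAddGroup O'] [IsTopologicalRing O']
  [IsLinearTopology O' O'] [T2Space O'] [CompleteSpace O']

theorem map_eval {ψ : O →+* O'} (hψ : Continuous ψ) {a : σ → O} (ha : HasEval a)
    (F : MvPowerSeries σ O) :
    ψ (eval₂ (RingHom.id O) a F) =
      eval₂ (RingHom.id O') (fun s => ψ (a s)) (F.map ψ) := by
  have h1 := (hasSum_eval₂ (φ := RingHom.id O) continuous_idO ha F).map ψ hψ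
  have h2 := hasSum_eval₂ (φ := RingHom.id O') continuous_idO (ha.map hψ) (F.map ψ)
  refine h1.unique ?_
  convert h2 using 2 with d
  simp [Finsupp.prod, map_prod, map_pow, coeff_map]

theorem map_ev1 {ψ : O →+* O'} (hψ : Continuous ψ) (g : PowerSeries O) {x : O}
    (hx : IsTopologicallyNilpotent x) : ψ (ev1 g x) = ev1 (g.map ψ) (ψ x) :=
  map_eval hψ (hasEval_one hx) g

theorem map_ev2 {ψ : O →+* O'} (hψ : Continuous ψ) (F : MvPowerSeries (Fin 2) O) {x y : O}
    (hx : IsTopologicallyNilpotent x) (hy : IsTopologicallyNilpotent y) :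
    ψ (ev2 F x y) = ev2 (F.map ψ) (ψ x) (ψ y) := by
  unfold ev2
  rw [map_eval hψ (hasEval_pair hx hy)]
  congr 1
  funext s
  fin_cases s <;> rfl

theorem map_evm {m : ℕ} {ψ : O →+* O'} (hψ : Continuous ψ) (F : MvPowerSeries (Fin m) O)
    {x : Fin m → O} (hx : ∀ i, IsTopologicallyNilpotent (x i)) :
    ψ (evm F x) = evm (F.map ψ) (fun i => ψ (x i)) :=
  map_eval hψ (hasEval_of_finite hx) F

end map

end gen

end Vale.Agent.P217
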