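import Vale.Agent.P217.FGLA
import Vale.Agent.P217.PtsA

/-!
# P217: the group of points `FPt p n v` (stubs of module PTS; FGL axioms of module FGLA)
-/

namespace Vale.Agent.P217

open MvPowerSeries

/-! ## Formal identities over `ℤ[v]` (module FGLA, from the functional equation lemma) -/

section formal

variable {R : Type*} [CommRing R] (p n : ℕ) [Fact p.Prime] (v w : ℕ → R)

theorem FZ_spec : IsFGLQ p n ((FZ p n).map (MvPolynomial.map (Int.castRingHom ℚ))) :=
  FZ_spec_fgla p n

theorem Fv_constantCoeff : constantCoeff (Fv p n v) = 0 := by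
  rw [Fv, constantCoeff_map, FZ_constantCoeff_fgla, map_zero]

/-- `F_v(X, 0) = X`. -/
theorem Fv_X_zero : (Fv p n v).subst ![(PowerSeries.X : PowerSeries R), 0] = PowerSeries.X := by
  have h := congrArg (MvPowerSeries.map (spec v)) (FZ_X_zero_fgla p n)
  have h1 := fga_map_subst (spec v) (FZ p n) (PowerSeries.X : PowerSeries (MvPolynomial ℕ ℤ)) 0
    (constantCoeff_X _) (map_zero _)
  rw [map_zero] at h1
  have h2 : MvPowerSeries.map (spec v) (PowerSeries.X : PowerSeries (MvPolynomial ℕ ℤ))
    = (PowerSeries.X : PowerSeries R) := PowerSeries.map_X _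
  rw [h2] at h1 h
  exact h1.symm.trans h

/-- commutativity -/
theorem Fv_comm : (Fv p n v).subst ![(X 1 : MvPowerSeries (Fin 2) R), X 0] = Fv p n v := by
  have h := congrArg (MvPowerSeries.map (spec v)) (FZ_comm_fgla p n)
  rw [fga_map_subst (spec v) (FZ p n) _ _ (constantCoeff_X _) (constantCoeff_X _),
    MvPowerSeries.map_X, MvPowerSeries.map_X] at h
  exact h

/-- associativity -/
theorem Fv_assoc : (Fv p n v).subst ![(Fv p n v).subst ![(X 0 : MvPowerSeries (Fin 3) R), X 1], X 2]
    = (Fv p n v).subst ![X 0, (Fv p n v).subst ![(X 1 : MvPowerSeries (Fin 3) R), X 2]] := by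
  have hc : ∀ i j : Fin 3, constantCoeff
      ((FZ p n).subst ![(X i : MvPowerSeries (Fin 3) (MvPolynomial ℕ ℤ)), X j]) = 0 := fun i j =>
    fga_cc_subst _ (FZ_constantCoeff_fgla p n) _ _ (constantCoeff_X _) (constantCoeff_X _)
  have h := congrArg (MvPowerSeries.map (spec v)) (FZ_assoc_fgla p n)
  rw [fga_map_subst (spec v) (FZ p n) _ _ (hc 0 1) (constantCoeff_X _),
    fga_map_subst (spec v) (FZ p n) _ _ (constantCoeff_X _) (hc 1 2),
    fga_map_subst (spec v) (FZ p n) _ _ (constantCoeff_X _) (constantCoeff_X _),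
    fga_map_subst (spec v) (FZ p n) _ _ (constantCoeff_X _) (constantCoeff_X _),
    MvPowerSeries.map_X, MvPowerSeries.map_X, MvPowerSeries.map_X] at h
  exact h

/-- The inverse series over `ℤ[v]` exists. -/
theorem exists_invZ : ∃ g : PowerSeries (MvPolynomial ℕ ℤ), PowerSeries.constantCoeff g = 0 ∧
    (FZ p n).subst ![(PowerSeries.X : PowerSeries (MvPolynomial ℕ ℤ)), g] = 0 :=
  exists_invZ_fgla p n

/-- The inverse series over `ℤ[v]`. -/
noncomputable def invZ : PowerSeries (MvPolynomial ℕ ℤ) := (exists_invZ p n).choose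

/-- The inverse series of `F_v`. -/
noncomputable def invS : PowerSeries R := (invZ p n).map (spec v)

theorem invS_constantCoeff : PowerSeries.constantCoeff (invS p n v) = 0 := by
  have h : PowerSeries.constantCoeff (invZ p n) = 0 := (exists_invZ p n).choose_spec.1
  show MvPowerSeries.constantCoeff (MvPowerSeries.map (spec v) (invZ p n)) = 0
  rw [MvPowerSeries.constantCoeff_map]
  exact (congrArg (spec v) h).trans (map_zero _)

theorem Fv_inv : (Fv p n v).subst ![(PowerSeries.X : PowerSeries R), invS p n v] = 0 := by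
  have h0 : constantCoeff (invZ p n) = 0 := (exists_invZ p n).choose_spec.1
  have h : (FZ p n).subst ![(PowerSeries.X : PowerSeries (MvPolynomial ℕ ℤ)), invZ p n] = 0 :=
    (exists_invZ p n).choose_spec.2
  have h1 := fga_map_subst (spec v) (FZ p n) (PowerSeries.X : PowerSeries (MvPolynomial ℕ ℤ))
    (invZ p n) (constantCoeff_X _) h0
  rw [h, map_zero] at h1
  have h2 : MvPowerSeries.map (spec v) (PowerSeries.X : PowerSeries (MvPolynomial ℕ ℤ))
    = (PowerSeries.X : PowerSeries R) := PowerSeries.map_X _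
  rw [h2] at h1
  exact h1.symm

/-- Functoriality. -/
theorem Fv_map {S : Type*} [CommRing S] (φ : R →+* S) :
    (Fv p n v).map φ = Fv p n (fun j => φ (v j)) := by
  have h : φ.comp (spec v) = spec (fun j => φ (v j)) := by
    refine MvPolynomial.ringHom_ext (fun r => ?_) (fun i => ?_)
    · simp [spec]
    · simp [spec]
  ext e
  rw [Fv, Fv, coeff_map, coeff_map, coeff_map, ← RingHom.comp_apply, h]

/-- `F_v` depends only on `v_1, …, v_n`. -/
theorem Fv_congr (hvw : ∀ j, 1 ≤ j → j ≤ n → v j = w j) : Fv p n v = Fv p n w := by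
  ext e
  rw [Fv, Fv, coeff_map, coeff_map]
  refine MvPolynomial.eval₂Hom_congr' rfl (fun i hi _ => ?_) rfl
  by_cases h : i = 0 ∨ n < i
  · exact absurd hi (FZ_vars_fgla p n e i h)
  · push Not at h
    exact hvw i (by omega) h.2

end formal

/-! ## Points (module PTS) -/

section pts

variable {O : Type*} [CommRing O] [UniformSpace O] [IsUniformAddGroup O] [IsTopologicalRing O]
  [IsLinearTopology O O] [T2Space O] [CompleteSpace O]
variable {p n : ℕ} [Fact p.Prime] {v : ℕ → O}

theorem ev2_tn {x y : O} (hx : IsTopologicallyNilpotent x) (hy : IsTopologicallyNilpotent y) :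
    IsTopologicallyNilpotent (ev2 (Fv p n v) x y) := by
  exact tn_ev2 (Fv_constantCoeff p n v) hx hy

theorem ev2_zero_right {x : O} (hx : IsTopologicallyNilpotent x) :
    ev2 (Fv p n v) x 0 = x := by
  have h := eval_pair (a := (PowerSeries.X : PowerSeries O)) (b := (0 : PowerSeries O))
    (constantCoeff_X _) (map_zero _) (hasEval_one hx) (Fv p n v)
  rw [Fv_X_zero p n v, ← ev1_def, ev1_X, eval_zero] at h
  exact h.symm

theorem ev2_comm {x y : O} (hx : IsTopologicallyNilpotent x) (hy : IsTopologicallyNilpotent y) :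
    ev2 (Fv p n v) x y = ev2 (Fv p n v) y x := by
  have h := eval_pair (a := (X 1 : MvPowerSeries (Fin 2) O)) (b := X 0)
    (constantCoeff_X _) (constantCoeff_X _) (hasEval_pair hx hy) (Fv p n v)
  rw [Fv_comm p n v, eval₂_X, eval₂_X] at h
  exact h

theorem ev2_assoc {x y z : O} (hx : IsTopologicallyNilpotent x) (hy : IsTopologicallyNilpotent y)
    (hz : IsTopologicallyNilpotent z) :
    ev2 (Fv p n v) (ev2 (Fv p n v) x y) z = ev2 (Fv p n v) x (ev2 (Fv p n v) y z) := by
  have hc := hasEval_triple hx hy hz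
  have h0 : constantCoeff (Fv p n v) = 0 := Fv_constantCoeff p n v
  have hxy : constantCoeff ((Fv p n v).subst ![(X 0 : MvPowerSeries (Fin 3) O), X 1]) = 0 :=
    constantCoeff_subst_eq_zero HasSubst.X_X (fun i => by fin_cases i <;> exact constantCoeff_X _) h0
  have hyz : constantCoeff ((Fv p n v).subst ![(X 1 : MvPowerSeries (Fin 3) O), X 2]) = 0 :=
    constantCoeff_subst_eq_zero HasSubst.X_X (fun i => by fin_cases i <;> exact constantCoeff_X _) h0
  have h1 := eval_pair hxy (constantCoeff_X (2 : Fin 3)) hc (Fv p n v)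
  have h2 := eval_pair (constantCoeff_X (0 : Fin 3)) hyz hc (Fv p n v)
  rw [eval_pair (constantCoeff_X _) (constantCoeff_X _) hc (Fv p n v)] at h1 h2
  simp only [eval₂_X] at h1 h2
  rw [Fv_assoc p n v] at h1
  exact h1.symm.trans h2

theorem ev1_inv_tn {x : O} (hx : IsTopologicallyNilpotent x) :
    IsTopologicallyNilpotent (ev1 (invS p n v) x) := by
  exact tn_ev1 (invS_constantCoeff p n v) hx

theorem ev2_inv {x : O} (hx : IsTopologicallyNilpotent x) :
    ev2 (Fv p n v) x (ev1 (invS p n v) x) = 0 := by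
  have h := eval_pair (a := (PowerSeries.X : PowerSeries O)) (b := invS p n v)
    (constantCoeff_X _) (invS_constantCoeff p n v) (hasEval_one hx) (Fv p n v)
  rw [Fv_inv p n v, eval_zero, ← ev1_def PowerSeries.X x, ev1_X] at h
  exact h.symm

theorem tn_zero : IsTopologicallyNilpotent (0 : O) := by
  exact IsTopologicallyNilpotent.zero

noncomputable instance : Add (FPt p n v) := ⟨fun x y => ⟨ev2 (Fv p n v) x.1 y.1, ev2_tn x.2 y.2⟩⟩

noncomputable instance : Zero (FPt p n v) := ⟨⟨0, tn_zero⟩⟩

noncomputable instance : Neg (FPt p n v) := ⟨fun x => ⟨ev1 (invS p n v) x.1, ev1_inv_tn x.2⟩⟩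

noncomputable instance instAddCommGroupFPt : AddCommGroup (FPt p n v) :=
  AddCommGroup.mk (toAddGroup := AddGroup.ofLeftAxioms
    (fun x y z => Subtype.ext (ev2_assoc x.2 y.2 z.2))
    (fun x => Subtype.ext ((ev2_comm tn_zero x.2).trans (ev2_zero_right x.2)))
    (fun x => Subtype.ext ((ev2_comm (ev1_inv_tn x.2) x.2).trans (ev2_inv x.2))))
    (fun x y => Subtype.ext (ev2_comm x.2 y.2))

theorem FPt.add_val (x y : FPt p n v) : (x + y).1 = ev2 (Fv p n v) x.1 y.1 := rfl

theorem FPt.zero_val : (0 : FPt p n v).1 = 0 := rfl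

theorem FPt.neg_val (x : FPt p n v) : (-x).1 = ev1 (invS p n v) x.1 := rfl

end pts

end Vale.Agent.P217
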