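import Vale.Agent.P217.PhiA
import Vale.Agent.P217.Points

/-!
# P217, PH2 (helper33), part 2: existence of `Phi`, homomorphism property, linear coefficient
-/

set_option linter.unusedSectionVars false

namespace Vale.Agent.P217

open MvPowerSeries
open scoped TensorProduct

section tensor

variable (p : ℕ) [Fact p.Prime] (k : Type*) [CommRing k] [CharP k p] [PerfectRing k p]
  [IsDomain k]

/-- `A → ℚ ⊗ A`. -/
noncomputable def qio : WittVector p k →+* (ℚ ⊗[ℤ] WittVector p k) :=
  (Algebra.TensorProduct.includeRight : WittVector p k →ₐ[ℤ] (ℚ ⊗[ℤ] WittVector p k)).toRingHom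

theorem qio_inj : Function.Injective (qio p k) := by
  have := pha_charZero (p := p) (k := k)
  have h1 : Module.Flat ℤ (WittVector p k) := inferInstance
  exact Algebra.TensorProduct.includeRight_injective (RingHom.injective_int _)

/-- Frobenius on `ℚ ⊗ A`. -/
noncomputable def qsig : (ℚ ⊗[ℤ] WittVector p k) →+* (ℚ ⊗[ℤ] WittVector p k) :=
  (Algebra.TensorProduct.map (AlgHom.id ℤ ℚ)
    (WittVector.frobenius (p := p) (R := k)).toIntAlgHom).toRingHom

theorem qsig_comm (a : WittVector p k) :
    qsig p k (qio p k a) = qio p k (WittVector.frobenius a) := by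
  simp [qsig, qio]

variable {p k} in
/-- Extension of homomorphisms to fields of characteristic `0`. -/
noncomputable def qlift {F : Type*} [Field F] [CharZero F] (τ : WittVector p k →+* F) :
    (ℚ ⊗[ℤ] WittVector p k) →+* F :=
  (Algebra.TensorProduct.lift (algebraMap ℚ F).toIntAlgHom τ.toIntAlgHom
    (fun _ _ => Commute.all _ _)).toRingHom

variable {p k} in
theorem qlift_qio {F : Type*} [Field F] [CharZero F] (τ : WittVector p k →+* F)
    (a : WittVector p k) : qlift τ (qio p k a) = τ a := by
  simp [qlift, qio]

end tensor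

section general

variable {p n : ℕ} [Fact p.Prime] {k : Type*} [CommRing k] [CharP k p] [PerfectRing k p]
variable {K₀ : Type*} [CommRing K₀] [Algebra ℚ K₀]

theorem wData_f (ι : WittVector p k →+* K₀) (inj : Function.Injective ι)
    (σK : K₀ →+* K₀) (comm : ∀ a, σK (ι a) = ι (WittVector.frobenius a)) (w : ℕ → k) :
    (wData n ι inj σK comm w).f = logOf p n (fun j => ι (WittVector.teichmuller p (w j))) := rfl

theorem pha_gam {S : Type*} [CommRing S] (ι : WittVector p k →+* S) (h : ℕ) :
    (fun j => ι (WittVector.teichmuller p (Gam h j : k))) = (Gam h : ℕ → S) := by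
  funext j
  by_cases hj : j = h
  · simp [Gam, hj]
  · simp [Gam, hj]

theorem EE_logOf (ι : WittVector p k →+* K₀)
    (σK : K₀ →+* K₀) (comm : ∀ a, σK (ι a) = ι (WittVector.frobenius a)) (v : ℕ → WittVector p k)
    (j : ℕ) :
    EE p σK j (logOf p n (fun i => ι (v i))) =
      (logOf p n (fun i => ι ((WittVector.frobenius (p := p) (R := k))^[j] (v i)))).subst
        ((PowerSeries.X : PowerSeries K₀) ^ (p ^ j)) := by
  unfold EE
  have h1 : map (σK ^ j) (logOf p n (fun i => ι (v i))) =
      logOf p n (fun i => ι ((WittVector.frobenius (p := p) (R := k))^[j] (v i))) := by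
    have := logOf_map p n (fun i => ι (v i)) (σK ^ j)
    refine this.trans ?_
    congr 1
    funext i
    exact pha_sigma comm j (v i)
  rw [h1]
  exact PowerSeries.expand_apply _ _ _

/-- transfer of the logarithm identity along `τ' : K₀ → F`. -/
theorem pha_transfer {F : Type*} [CommRing F] [Algebra ℚ F] (ι : WittVector p k →+* K₀)
    (inj : Function.Injective ι) (σK : K₀ →+* K₀)
    (comm : ∀ a, σK (ι a) = ι (WittVector.frobenius a)) (w : ℕ → k) (h : ℕ)
    (b : ℕ → WittVector p k) (Phi : PowerSeries (WittVector p k))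
    (hc : PowerSeries.constantCoeff Phi = 0)
    (hPhi : (wData n ι inj σK comm (Gam h : ℕ → k)).f.subst
      (Phi.map ι : PowerSeries K₀) = pha_H (n := n) ι inj σK comm w b)
    (τ' : K₀ →+* F) :
    (logOf p n (Gam h : ℕ → F)).subst (Phi.map (τ'.comp ι) : PowerSeries F) =
      ∑ j ∈ Finset.range n, PowerSeries.C (τ' (ι (b j))) *
        (logOf p n (fun i => τ' (ι ((WittVector.frobenius (p := p) (R := k))^[j]
          (WittVector.teichmuller p (w i)))))).subst
            ((PowerSeries.X : PowerSeries F) ^ (p ^ j)) := by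
  have h1 := congrArg (PowerSeries.map τ') hPhi
  have hs : PowerSeries.HasSubst (Phi.map ι : PowerSeries K₀) := by
    apply PowerSeries.HasSubst.of_constantCoeff_zero'
    rw [← PowerSeries.coeff_zero_eq_constantCoeff_apply, PowerSeries.coeff_map,
      PowerSeries.coeff_zero_eq_constantCoeff_apply, hc, map_zero]
  have h2 : PowerSeries.map τ' ((wData n ι inj σK comm (Gam h : ℕ → k)).f.subst
      (Phi.map ι : PowerSeries K₀)) =
      (logOf p n (Gam h : ℕ → F)).subst (Phi.map (τ'.comp ι) : PowerSeries F) := by
    have h3 := PowerSeries.map_subst hs (h := τ') (wData n ι inj σK comm (Gam h : ℕ → k)).f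
    refine h3.trans ?_
    rw [wData_f, logOf_map]
    have h4 : (fun j => τ' (ι (WittVector.teichmuller p ((Gam h : ℕ → k) j)))) =
        (Gam h : ℕ → F) := pha_gam (τ'.comp ι) h
    rw [h4]
    congr 1
  rw [h2] at h1
  rw [h1, pha_H, map_sum]
  refine Finset.sum_congr rfl fun j _ => ?_
  rw [map_mul]
  congr 1
  · exact PowerSeries.map_C _ _
  · rw [wData_f, EE_logOf ι σK comm]
    have hX : PowerSeries.HasSubst ((PowerSeries.X : PowerSeries K₀) ^ (p ^ j)) :=
      PowerSeries.HasSubst.X_pow (pow_ne_zero j (Fact.out : p.Prime).ne_zero)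
    have h3 := PowerSeries.map_subst hX (h := τ') (logOf p n
      (fun i => ι ((WittVector.frobenius (p := p) (R := k))^[j] (WittVector.teichmuller p (w i)))))
    refine h3.trans ?_
    rw [logOf_map]
    congr 1
    rw [map_pow]
    congr 1
    exact PowerSeries.map_X _

end general

section exist

variable {p n : ℕ} [Fact p.Prime] {k : Type*} [CommRing k] [CharP k p] [PerfectRing k p]
  [IsDomain k]

/-- Existence of `Phi`. -/
theorem pha_exists {h : ℕ} (hh : 1 ≤ h) (hhn : h ≤ n) (w : ℕ → k)
    (hw0 : ∀ j, 1 ≤ j → j < h → w j = 0) (hwn : ∀ j, n < j → w j = 0)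
    (b : ℕ → WittVector p k) (hb0 : ∀ s, n ≤ s → b s = 0)
    (hb : ∀ s, s < n → (WittVector.frobenius (p := p) (R := k))^[h] (b s) =
      (∑ l ∈ Finset.range h, if l ≤ s then
        b l * (WittVector.frobenius (p := p) (R := k))^[l]
          (WittVector.teichmuller p (w (s + h - l))) else 0)
        + (p : WittVector p k) * b (s + h)) :
    ∃ Phi : PowerSeries (WittVector p k), PowerSeries.constantCoeff Phi = 0 ∧
      ∀ (F : Type*) [Field F] [CharZero F] (τ : WittVector p k →+* F),
        (logOf p n (Gam h : ℕ → F)).subst (Phi.map τ : PowerSeries F) =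
        ∑ j ∈ Finset.range n, PowerSeries.C (τ (b j)) *
          (logOf p n (fun i => τ ((WittVector.frobenius (p := p) (R := k))^[j]
            (WittVector.teichmuller p (w i))))).subst
              ((PowerSeries.X : PowerSeries F) ^ (p ^ j)) := by
  set ι := qio p k
  set σK := qsig p k
  have hkey := pha_key (n := n) hh hhn ι (qio_inj p k) σK (qsig_comm p k) w hw0 hwn b hb0 hb
  set D := wData n ι (qio_inj p k) σK (qsig_comm p k) (Gam h : ℕ → k)
  obtain ⟨Phi, hc, hPhi⟩ := D.integral
    (pha_H (n := n) ι (qio_inj p k) σK (qsig_comm p k) w b : MvPowerSeries Unit _)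
    (by
      rw [pha_H, map_sum]
      apply Finset.sum_eq_zero
      intro j _
      rw [map_mul, wData_f, EE, constantCoeff_expand, constantCoeff_map]
      have : constantCoeff (logOf p n (fun j => ι (WittVector.teichmuller p (w j)))) = 0 :=
        logOf_constantCoeff p n _
      rw [this, map_zero, mul_zero])
    ⟨∑ l ∈ Finset.range h, (C (b l) : PowerSeries (WittVector p k)) * PowerSeries.X ^ (p ^ l), by
      refine hkey.trans ?_
      rw [map_sum]
      refine Finset.sum_congr rfl fun l _ => ?_
      rw [map_mul, map_C, map_pow]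
      congr 2
      exact (PowerSeries.map_X _).symm⟩
  refine ⟨Phi, hc, fun F _ _ τ => ?_⟩
  have h1 := pha_transfer (n := n) ι (qio_inj p k) σK (qsig_comm p k) w h b Phi hc hPhi (qlift τ)
  have h2 : (qlift τ).comp ι = τ := RingHom.ext (qlift_qio τ)
  have h3 : ∀ a, (qlift τ) (ι a) = τ a := qlift_qio τ
  rw [h2] at h1
  simp only [h3] at h1
  exact h1

end exist

section hom

variable {p n : ℕ} [Fact p.Prime] {k : Type*} [CommRing k] [CharP k p] [PerfectRing k p]
  [IsDomain k]

/-- Frobenius on the fraction field. -/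
noncomputable def fsig (p : ℕ) [Fact p.Prime] (k : Type*) [CommRing k] [CharP k p]
    [PerfectRing k p] [IsDomain k] :
    FractionRing (WittVector p k) →+* FractionRing (WittVector p k) :=
  IsFractionRing.map (A := WittVector p k) (B := WittVector p k)
    (j := (WittVector.frobenius (p := p) (R := k))) (WittVector.frobenius_bijective p k).injective

theorem fsig_comm (a : WittVector p k) :
    fsig p k (algebraMap (WittVector p k) (FractionRing (WittVector p k)) a) =
      algebraMap (WittVector p k) (FractionRing (WittVector p k)) (WittVector.frobenius a) := by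
  unfold fsig
  exact IsLocalization.map_eq _ a

theorem frac_inj : Function.Injective
    (algebraMap (WittVector p k) (FractionRing (WittVector p k))) :=
  IsFractionRing.injective _ _

theorem frac_charZero : CharZero (FractionRing (WittVector p k)) := by
  have := pha_charZero (p := p) (k := k)
  exact charZero_of_injective_algebraMap (frac_inj (p := p) (k := k))

theorem iter_frob_teich (j : ℕ) (a : k) :
    (WittVector.frobenius (p := p) (R := k))^[j] (WittVector.teichmuller p a) =
      WittVector.teichmuller p (a ^ (p ^ j)) := by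
  induction j with
  | zero => simp
  | succ j ih =>
    rw [Function.iterate_succ_apply', ih, pha_frob_teich, ← map_pow, ← pow_mul, ← pow_succ]

/-- `log_v (F_v(a, b)) = log_v a + log_v b`. -/
theorem logOf_Fv_subst {K₀ : Type*} [CommRing K₀] [Algebra ℚ K₀] (v : ℕ → K₀) {τ : Type*}
    (a b : MvPowerSeries τ K₀) (ha : constantCoeff a = 0) (hb : constantCoeff b = 0) :
    (logOf p n v).subst ((Fv p n v).subst ![a, b]) =
      (logOf p n v).subst a + (logOf p n v).subst b := by
  have hab : HasSubst ![a, b] := by
    apply hasSubst_of_constantCoeff_zero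
    intro s
    fin_cases s
    · exact ha
    · exact hb
  have h0 : constantCoeff (Fv p n v) = 0 := Fv_constantCoeff p n v
  have h1 := congrArg (MvPowerSeries.subst ![a, b]) (logOf_Fv p n v)
  rw [subst_add hab] at h1
  have h2 : ∀ G : MvPowerSeries (Fin 2) K₀, constantCoeff G = 0 →
      MvPowerSeries.subst ![a, b] ((logOf p n v).subst G) =
        (logOf p n v).subst (MvPowerSeries.subst ![a, b] G) := by
    intro G hG
    exact MvPowerSeries.subst_comp_subst_apply
      (PowerSeries.HasSubst.of_constantCoeff_zero hG).const hab (logOf p n v)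
  rw [h2 _ h0, h2 _ (constantCoeff_X _), h2 _ (constantCoeff_X _), subst_X hab, subst_X hab] at h1
  exact h1

/-- substitution into the defining identity of `Phi`. -/
theorem pha_subst {K₀ : Type*} [CommRing K₀] [Algebra ℚ K₀] (ι : WittVector p k →+* K₀)
    (lG : PowerSeries K₀) (v : ℕ → ℕ → K₀) (b : ℕ → WittVector p k)
    (Phi : PowerSeries (WittVector p k)) (hc : PowerSeries.constantCoeff Phi = 0)
    (hlog : lG.subst (Phi.map ι : PowerSeries K₀) =
      ∑ j ∈ Finset.range n, PowerSeries.C (ι (b j)) *
        (logOf p n (v j)).subst ((PowerSeries.X : PowerSeries K₀) ^ (p ^ j)))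
    {τ : Type*} (G : MvPowerSeries τ K₀) (hG : constantCoeff G = 0) :
    lG.subst ((Phi.map ι : PowerSeries K₀).subst G) =
      ∑ j ∈ Finset.range n, C (ι (b j)) * (logOf p n (v j)).subst (G ^ (p ^ j)) := by
  have hs : PowerSeries.HasSubst (Phi.map ι : PowerSeries K₀) := by
    apply PowerSeries.HasSubst.of_constantCoeff_zero'
    rw [← PowerSeries.coeff_zero_eq_constantCoeff_apply, PowerSeries.coeff_map,
      PowerSeries.coeff_zero_eq_constantCoeff_apply, hc, map_zero]
  have hsG := PowerSeries.HasSubst.of_constantCoeff_zero hG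
  have h1 := congrArg (PowerSeries.subst G) hlog
  rw [PowerSeries.subst_comp_subst_apply hs hsG] at h1
  rw [h1, ← PowerSeries.coe_substAlgHom hsG, map_sum]
  refine Finset.sum_congr rfl fun j _ => ?_
  rw [map_mul, PowerSeries.coe_substAlgHom hsG]
  congr 1
  · exact PowerSeries.subst_C _
  · rw [PowerSeries.subst_comp_subst_apply
        (PowerSeries.HasSubst.X_pow (pow_ne_zero j (Fact.out : p.Prime).ne_zero)) hsG,
        PowerSeries.subst_pow hsG, PowerSeries.subst_X hsG]

/-- `phi` is a homomorphism. -/
theorem pha_isHomS {K₀ : Type*} [CommRing K₀] [Algebra ℚ K₀] (ι : WittVector p k →+* K₀)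
    (inj : Function.Injective ι)
    (σK : K₀ →+* K₀) (comm : ∀ a, σK (ι a) = ι (WittVector.frobenius a))
    {h : ℕ} (w : ℕ → k)
    (b : ℕ → WittVector p k) (Phi : PowerSeries (WittVector p k))
    (hc : PowerSeries.constantCoeff Phi = 0)
    (hlog : (logOf p n (Gam h : ℕ → K₀)).subst (Phi.map ι : PowerSeries K₀) =
      ∑ j ∈ Finset.range n, PowerSeries.C (ι (b j)) *
        (logOf p n (fun i => ι ((WittVector.frobenius (p := p) (R := k))^[j]
            (WittVector.teichmuller p (w i))))).subst
              ((PowerSeries.X : PowerSeries K₀) ^ (p ^ j))) :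
    IsHomS p n w (Gam h) (Phi.map WittVector.constantCoeff) := by
  have hp0 : p ≠ 0 := (Fact.out : p.Prime).ne_zero
  set v : ℕ → WittVector p k := fun i => WittVector.teichmuller p (w i) with hv
  set Fv₀ : MvPowerSeries (Fin 2) (WittVector p k) := Fv p n v with hFv₀
  have hF0 : constantCoeff Fv₀ = 0 := Fv_constantCoeff p n v
  have hFι : constantCoeff (map ι Fv₀) = 0 := by rw [constantCoeff_map, hF0, map_zero]
  have hΦF : PowerSeries.HasSubst Fv₀ := PowerSeries.HasSubst.of_constantCoeff_zero hF0
  have hccα : constantCoeff (Phi.subst Fv₀) = 0 :=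
    PowerSeries.constantCoeff_subst_eq_zero hF0 Phi hc
  have hX : ∀ i : Fin 2, constantCoeff
      (Phi.subst (X i : MvPowerSeries (Fin 2) (WittVector p k))) = 0 :=
    fun i => PowerSeries.constantCoeff_subst_eq_zero (constantCoeff_X _) Phi hc
  have hsX : HasSubst ![Phi.subst (X 0 : MvPowerSeries (Fin 2) (WittVector p k)),
      Phi.subst (X 1 : MvPowerSeries (Fin 2) (WittVector p k))] := by
    apply hasSubst_of_constantCoeff_zero
    intro s
    fin_cases s
    · exact hX 0
    · exact hX 1
  set β : MvPowerSeries (Fin 2) (WittVector p k) := (Fv p n (Gam h : ℕ → WittVector p k)).subst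
    ![Phi.subst (X 0 : MvPowerSeries (Fin 2) (WittVector p k)),
      Phi.subst (X 1 : MvPowerSeries (Fin 2) (WittVector p k))] with hβ
  have hccβ : constantCoeff β = 0 := by
    refine constantCoeff_subst_eq_zero hsX (fun s => ?_) (Fv_constantCoeff p n _)
    fin_cases s
    · exact hX 0
    · exact hX 1
  -- left side
  have hL := pha_subst (n := n) ι (logOf p n (Gam h : ℕ → K₀))
    (fun j i => ι ((WittVector.frobenius (p := p) (R := k))^[j] (WittVector.teichmuller p (w i))))
    b Phi hc hlog (map ι Fv₀) hFι
  have hmapα : map ι (Phi.subst Fv₀) = (Phi.map ι : PowerSeries K₀).subst (map ι Fv₀) :=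
    PowerSeries.map_subst hΦF Phi
  rw [← hmapα] at hL
  -- right side
  have hmapX : ∀ i : Fin 2, map ι (Phi.subst (X i : MvPowerSeries (Fin 2) (WittVector p k))) =
      (Phi.map ι : PowerSeries K₀).subst (X i : MvPowerSeries (Fin 2) K₀) := by
    intro i
    have := PowerSeries.map_subst (PowerSeries.HasSubst.of_constantCoeff_zero
      (constantCoeff_X (R := WittVector p k) i)) (h := ι) Phi
    rw [map_X] at this
    exact this
  have hmapβ : map ι β = (Fv p n (Gam h : ℕ → K₀)).subst
      ![(Phi.map ι : PowerSeries K₀).subst (X 0 : MvPowerSeries (Fin 2) K₀),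
        (Phi.map ι : PowerSeries K₀).subst (X 1 : MvPowerSeries (Fin 2) K₀)] := by
    have := map_subst hsX (h := ι) (Fv p n (Gam h : ℕ → WittVector p k))
    refine this.trans ?_
    rw [Fv_map]
    have e1 : (fun j => ι ((Gam h : ℕ → WittVector p k) j)) = (Gam h : ℕ → K₀) := by
      funext j
      by_cases hj : j = h
      · simp [Gam, hj]
      · simp [Gam, hj]
    rw [e1]
    congr 1
    funext s
    fin_cases s
    · exact hmapX 0
    · exact hmapX 1
  have hXι : ∀ i : Fin 2, constantCoeff ((Phi.map ι : PowerSeries K₀).subst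
      (X i : MvPowerSeries (Fin 2) K₀)) = 0 := by
    intro i
    rw [← hmapX i, constantCoeff_map, hX i, map_zero]
  have hσj : ∀ (j : ℕ) (a : WittVector p k), ((WittVector.frobenius (p := p) (R := k)) ^ j) a =
      (WittVector.frobenius (p := p) (R := k))^[j] a := by
    intro j a
    induction j with
    | zero => simp
    | succ j ih => rw [pow_succ', RingHom.mul_def, RingHom.comp_apply, ih,
        Function.iterate_succ_apply']
  set T : ℕ → MvPowerSeries (Fin 2) (WittVector p k) := fun j =>
    expand (p ^ j) (pow_ne_zero j hp0) (map ((WittVector.frobenius (p := p) (R := k)) ^ j) Fv₀)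
    with hT
  have hR : (logOf p n (Gam h : ℕ → K₀)).subst (map ι β) =
      ∑ j ∈ Finset.range n, C (ι (b j)) * (logOf p n (fun i =>
        ι ((WittVector.frobenius (p := p) (R := k))^[j] (WittVector.teichmuller p (w i))))).subst
        (map ι (T j)) := by
    rw [hmapβ, logOf_Fv_subst _ _ _ (hXι 0) (hXι 1),
      pha_subst (n := n) ι (logOf p n (Gam h : ℕ → K₀)) _ b Phi hc hlog _ (constantCoeff_X _),
      pha_subst (n := n) ι (logOf p n (Gam h : ℕ → K₀)) _ b Phi hc hlog _ (constantCoeff_X _),
      ← Finset.sum_add_distrib]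
    refine Finset.sum_congr rfl fun j _ => ?_
    rw [← mul_add]
    congr 1
    have hpow : ∀ i : Fin 2, constantCoeff ((X i : MvPowerSeries (Fin 2) K₀) ^ (p ^ j)) = 0 := by
      intro i
      rw [map_pow, constantCoeff_X, zero_pow (pow_ne_zero j hp0)]
    rw [← logOf_Fv_subst _ _ _ (hpow 0) (hpow 1)]
    congr 1
    simp only [hT]
    rw [map_expand, expand, MvPowerSeries.coe_substAlgHom]
    have e1 : map ι (map ((WittVector.frobenius (p := p) (R := k)) ^ j) Fv₀) =
        Fv p n (fun i => ι ((WittVector.frobenius (p := p) (R := k))^[j]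
          (WittVector.teichmuller p (w i)))) := by
      rw [hFv₀, Fv_map, Fv_map]
      congr 1
    rw [e1]
    congr 1
    funext s
    fin_cases s <;> rfl
  -- compare
  have hcmp : ∀ j, ∃ γ : MvPowerSeries (Fin 2) (WittVector p k),
      (logOf p n (fun i => ι ((WittVector.frobenius (p := p) (R := k))^[j]
        (WittVector.teichmuller p (w i))))).subst (map ι (T j)) =
      (logOf p n (fun i => ι ((WittVector.frobenius (p := p) (R := k))^[j]
        (WittVector.teichmuller p (w i))))).subst ((map ι Fv₀) ^ (p ^ j)) +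
        C (p : K₀) * map ι γ := by
    intro j
    obtain ⟨γ₁, hγ₁⟩ := (wData (p := p) n ι inj σK comm w).frob_congr Fv₀ j
    have hγ₂ : T j = Fv₀ ^ (p ^ j) + C (p : WittVector p k) * γ₁ := hγ₁
    have hc1 : constantCoeff (T j) = 0 := by
      simp only [hT]
      rw [constantCoeff_expand, constantCoeff_map, hF0, map_zero]
    have hc2 : constantCoeff (Fv₀ ^ (p ^ j)) = 0 := by
      rw [map_pow, hF0, zero_pow (pow_ne_zero j hp0)]
    obtain ⟨γ, hγ⟩ := (wData (p := p) n ι inj σK comm (fun i => w i ^ (p ^ j))).congr_mod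
      (T j) (Fv₀ ^ (p ^ j)) hc1 hc2 1 le_rfl ⟨γ₁, by rw [hγ₂, pow_one]⟩
    refine ⟨γ, ?_⟩
    have hf : (wData (p := p) n ι inj σK comm (fun i => w i ^ (p ^ j))).f =
        logOf p n (fun i => ι ((WittVector.frobenius (p := p) (R := k))^[j]
        (WittVector.teichmuller p (w i)))) := by
      rw [wData_f]
      congr 1
      funext i
      rw [iter_frob_teich]
    have hι : (wData (p := p) n ι inj σK comm (fun i => w i ^ (p ^ j))).ι = ι := rfl
    rw [hf, hι, pow_one, map_pow] at hγ
    exact hγ
  choose γ hγ using hcmp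
  have hfin : (logOf p n (Gam h : ℕ → K₀)).subst (map ι (Phi.subst Fv₀)) =
      (logOf p n (Gam h : ℕ → K₀)).subst (map ι β) + C ((p : K₀) ^ 1) *
        map ι (-∑ j ∈ Finset.range n, C (b j) * γ j) := by
    rw [hL, hR, pow_one, map_neg, map_sum, mul_neg, ← sub_eq_add_neg, Finset.mul_sum,
      ← Finset.sum_sub_distrib]
    refine Finset.sum_congr rfl fun j _ => ?_
    rw [hγ j, map_mul, map_C]
    ring
  have hDf : (wData (p := p) n ι inj σK comm (Gam h : ℕ → k)).f =
      logOf p n (Gam h : ℕ → K₀) := by
    rw [wData_f, pha_gam]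
  obtain ⟨δ, hδ⟩ := (wData (p := p) n ι inj σK comm (Gam h : ℕ → k)).congr_conv
    (Phi.subst Fv₀) β hccα hccβ 1 ⟨_, by rw [hDf]; exact hfin⟩
  rw [pow_one] at hδ
  have hmod := congrArg (map (WittVector.constantCoeff (p := p) (R := k))) hδ
  have hp1 : (WittVector.constantCoeff (p := p) (R := k)) (p : WittVector p k) = 0 := by
    rw [map_natCast, CharP.cast_eq_zero]
  rw [map_add, map_mul, map_C, hp1, map_zero, zero_mul, add_zero] at hmod
  refine ⟨?_, ?_⟩
  · rw [← PowerSeries.coeff_zero_eq_constantCoeff_apply, PowerSeries.coeff_map,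
      PowerSeries.coeff_zero_eq_constantCoeff_apply, hc, map_zero]
  · have e1 : map (WittVector.constantCoeff (p := p) (R := k)) (Phi.subst Fv₀) =
        (Phi.map WittVector.constantCoeff : PowerSeries k).subst (Fv p n w) := by
      have := PowerSeries.map_subst hΦF (h := WittVector.constantCoeff (p := p) (R := k)) Phi
      refine this.trans ?_
      rw [hFv₀, Fv_map]
      have e2 : (fun j => WittVector.constantCoeff (v j)) = w := by
        funext i
        simp only [hv]
        rw [WittVector.constantCoeff_apply, WittVector.teichmuller_coeff_zero]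
      rw [e2]
    have e3 : map (WittVector.constantCoeff (p := p) (R := k)) β = (Fv p n (Gam h : ℕ → k)).subst
        ![(Phi.map WittVector.constantCoeff : PowerSeries k).subst
            (X 0 : MvPowerSeries (Fin 2) k),
          (Phi.map WittVector.constantCoeff : PowerSeries k).subst
            (X 1 : MvPowerSeries (Fin 2) k)] := by
      have := map_subst hsX (h := WittVector.constantCoeff (p := p) (R := k))
        (Fv p n (Gam h : ℕ → WittVector p k))
      refine this.trans ?_
      rw [Fv_map]
      have e1 : (fun j => WittVector.constantCoeff ((Gam h : ℕ → WittVector p k) j)) =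
          (Gam h : ℕ → k) := by
        funext j
        by_cases hj : j = h
        · simp [Gam, hj]
        · simp [Gam, hj]
      rw [e1]
      have hmX : ∀ i : Fin 2, map (WittVector.constantCoeff (p := p) (R := k))
          (Phi.subst (X i : MvPowerSeries (Fin 2) (WittVector p k))) =
          (Phi.map WittVector.constantCoeff : PowerSeries k).subst
            (X i : MvPowerSeries (Fin 2) k) := by
        intro i
        have := PowerSeries.map_subst (PowerSeries.HasSubst.of_constantCoeff_zero
          (constantCoeff_X (R := WittVector p k) i))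
          (h := WittVector.constantCoeff (p := p) (R := k)) Phi
        rw [map_X] at this
        exact this
      congr 1
      funext s
      fin_cases s
      · exact hmX 0
      · exact hmX 1
    rw [← e1, ← e3, hmod]

/-- The linear coefficient of `Phi` is `b_0`. -/
theorem pha_coeff_one {K₀ : Type*} [CommRing K₀] [Algebra ℚ K₀] (ι : WittVector p k →+* K₀)
    (inj : Function.Injective ι) (hn : 1 ≤ n)
    {h : ℕ} (w : ℕ → k)
    (b : ℕ → WittVector p k) (Phi : PowerSeries (WittVector p k))
    (hc : PowerSeries.constantCoeff Phi = 0)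
    (hlog : (logOf p n (Gam h : ℕ → K₀)).subst (Phi.map ι : PowerSeries K₀) =
      ∑ j ∈ Finset.range n, PowerSeries.C (ι (b j)) *
        (logOf p n (fun i => ι ((WittVector.frobenius (p := p) (R := k))^[j]
            (WittVector.teichmuller p (w i))))).subst
              ((PowerSeries.X : PowerSeries K₀) ^ (p ^ j))) :
    PowerSeries.coeff 1 Phi = b 0 := by
  have hp0 : p ≠ 0 := (Fact.out : p.Prime).ne_zero
  have hp1 : 1 < p := (Fact.out : p.Prime).one_lt
  apply inj
  have h1 := congrArg (PowerSeries.coeff 1) hlog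
  have hs : PowerSeries.HasSubst (Phi.map ι : PowerSeries K₀) := by
    apply PowerSeries.HasSubst.of_constantCoeff_zero'
    rw [← PowerSeries.coeff_zero_eq_constantCoeff_apply, PowerSeries.coeff_map,
      PowerSeries.coeff_zero_eq_constantCoeff_apply, hc, map_zero]
  have hlin : ∀ (v : ℕ → K₀) (G : PowerSeries K₀), PowerSeries.constantCoeff G = 0 →
      PowerSeries.coeff 1 ((logOf p n v).subst G) = PowerSeries.coeff 1 G := by
    intro v G hG
    have hVB : FinAux.VB 1 ((G : MvPowerSeries Unit K₀) - 0) := by
      intro m hm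
      have : m = 0 := by
        rwa [Nat.lt_one_iff, Finsupp.degree_eq_zero_iff] at hm
      rw [this, sub_zero]
      exact hG
    have h3 := FinAux.coeff_subst_sub (logOf p n v) (d := 1) (a := (G : MvPowerSeries Unit K₀)) (b := 0)
      hG (map_zero _) hVB (Finsupp.single () 1) (by simp)
    rw [PowerSeries.subst_zero_of_constantCoeff_zero (logOf_constantCoeff p n v), sub_zero,
      logOf_coeff_one, one_mul, sub_zero] at h3
    exact h3
  rw [hlin _ _ (by
    rw [← PowerSeries.coeff_zero_eq_constantCoeff_apply, PowerSeries.coeff_map,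
      PowerSeries.coeff_zero_eq_constantCoeff_apply, hc, map_zero]), PowerSeries.coeff_map,
    map_sum, Finset.sum_eq_single 0] at h1
  · rw [PowerSeries.coeff_C_mul, pow_zero, pow_one, hlin _ _ PowerSeries.constantCoeff_X,
      PowerSeries.coeff_one_X, mul_one] at h1
    exact h1
  · intro j _ hj
    rw [PowerSeries.coeff_C_mul, PowerSeries.coeff_subst_X_pow (pow_ne_zero j hp0), if_neg,
      mul_zero]
    intro hd
    have h2 := Nat.le_of_dvd one_pos hd
    have h3 := Nat.one_lt_pow hj hp1
    omega
  · intro h2
    exact absurd (Finset.mem_range.mpr (by omega)) h2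

end hom

end Vale.Agent.P217
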