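import Vale.Agent.P217.KForm
import Vale.Agent.P217.PKF7
import Vale.Agent.P217.PPH1
import Vale.Agent.P217.PhiB

/-!
# P217, part H: the homomorphism `phi_a : F_a → Γ_h` over `O_K` and its Witt vector lift
(modules PH1 ... PH5)

`A = W(O_K)`. Coefficients `b_s ∈ A`, `0 ≤ s < n = h + m`, `b_s = 0` for `s ≥ n`, with
`φ^h(b_s) = ∑_{l < h, l ≤ s} b_l φ^l([v_{s+h-l}]) + p b_{s+h}`, `v = par h m a`
(`v_j = 0` for `j < h` or `j > n`, `v_n = 1`).
-/

namespace Vale.Agent.P217

open MvPowerSeries Filter Topology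

variable {p h m : ℕ} [Fact p.Prime]
variable {K : Type} [NormedField K] [IsUltrametricDist K]
  [CharP K p] [PerfectRing K p] [CompleteSpace K]

theorem charP_OO (p : ℕ) (K : Type*) [NormedField K] [IsUltrametricDist K] [CharP K p] :
    CharP (OO K) p := PH1.charP_OO p K

/-- Teichmüller lifts of the parameters. -/
noncomputable def teiPar (p h m : ℕ) [Fact p.Prime] (a : Fin m → OO K) :
    ℕ → WittVector p (OO K) := fun j => WittVector.teichmuller p (par h m a j)

/-- The coefficient equations. -/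
def BEq (h m : ℕ) (a : Fin m → OO K) (b : ℕ → WittVector p (OO K)) : Prop :=
  (∀ s, h + m ≤ s → b s = 0) ∧
  ∀ s, s < h + m → (WittVector.frobenius (p := p) (R := OO K))^[h] (b s) =
    (∑ l ∈ Finset.range h, if l ≤ s then
      b l * (WittVector.frobenius (p := p) (R := OO K))^[l] (teiPar p h m a (s + h - l)) else 0)
      + (p : WittVector p (OO K)) * b (s + h)

/-- PH1: solution of the equations with `b_0 ≢ 0 mod p`. -/
theorem exists_BEq [IsAlgClosed K] (a : Fin m → OO K) (hh : 1 ≤ h) (hm : 1 ≤ m)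
    (ha : a ⟨0, hm⟩ ≠ 0) : ∃ b : ℕ → WittVector p (OO K), BEq h m a b ∧
      WittVector.constantCoeff (b 0) ≠ 0 := by
  obtain ⟨b, h1, h2, h3⟩ := PH1.exists_BEq_aux (p := p) a hh hm ha
  exact ⟨b, ⟨h1, h2⟩, h3⟩

/-- The lift `Phi` of `phi_a`: `log_{Γ_h}(Phi(X)) = ∑_k b_k log_{[a^(p^k)]}(X^(p^k))`, in every
field of characteristic `0` receiving `A`. -/
structure PhiData (p h m : ℕ) [Fact p.Prime] [CharP K p] [PerfectRing K p] (a : Fin m → OO K) where
  b : ℕ → WittVector p (OO K)
  beq : BEq h m a b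
  b0 : WittVector.constantCoeff (b 0) ≠ 0
  Phi : PowerSeries (WittVector p (OO K))
  const : PowerSeries.constantCoeff Phi = 0
  log_eq : ∀ (F : Type) [Field F] [CharZero F] (τ : WittVector p (OO K) →+* F),
    (logOf p (h + m) (Gam h : ℕ → F)).subst (Phi.map τ : PowerSeries F) =
      ∑ k ∈ Finset.range (h + m), PowerSeries.C (τ (b k)) *
        (logOf p (h + m) (fun j =>
          τ ((WittVector.frobenius (p := p) (R := OO K))^[k] (teiPar p h m a j)))).subst
            ((PowerSeries.X : PowerSeries F) ^ (p ^ k))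

/-- The reduction `phi_a`. -/
noncomputable def PhiData.phi {a : Fin m → OO K} (P : PhiData p h m a) : PowerSeries (OO K) :=
  P.Phi.map WittVector.constantCoeff

omit [Fact p.Prime] [CharP K p] [PerfectRing K p] [CompleteSpace K] in
theorem par_low (a : Fin m → OO K) (j : ℕ) (h1 : j < h) : par h m a j = 0 := by
  unfold par
  rw [dif_neg (by omega), if_neg (by omega)]

omit [Fact p.Prime] [CharP K p] [PerfectRing K p] [CompleteSpace K] in
theorem par_high (a : Fin m → OO K) (j : ℕ) (h1 : h + m < j) : par h m a j = 0 := by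
  unfold par
  rw [dif_neg (by omega), if_neg (by omega)]

/-- PH2: existence of `Phi` from `b` (functional equation lemma). -/
theorem exists_PhiData [IsAlgClosed K] (a : Fin m → OO K) (hh : 1 ≤ h) (hm : 1 ≤ m)
    (ha : a ⟨0, hm⟩ ≠ 0) : Nonempty (PhiData p h m a) := by
  have _ := charP_OO p K
  have _ := kf7_perfect (p := p) (K := K)
  obtain ⟨b, hb, hb0⟩ := exists_BEq (p := p) a hh hm ha
  obtain ⟨Phi, hc, hlog⟩ := pha_exists (n := h + m) hh (by omega) (par h m a)
    (fun j _ hj => par_low a j hj) (fun j hj => par_high a j hj) b hb.1 hb.2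
  exact ⟨⟨b, hb, hb0, Phi, hc, fun F _ _ τ => hlog F τ⟩⟩

/-- PH3: `phi_a` is a homomorphism `F_a → Γ_h` over `O_K`. -/
theorem PhiData.isHomS {a : Fin m → OO K} (P : PhiData p h m a) (hh : 1 ≤ h) :
    IsHomS p (h + m) (par h m a) (Gam h) P.phi := by
  have _ := charP_OO p K
  have _ := kf7_perfect (p := p) (K := K)
  have _ := frac_charZero (p := p) (k := OO K)
  exact pha_isHomS (algebraMap (WittVector p (OO K)) (FractionRing (WittVector p (OO K))))
    frac_inj (fsig p (OO K)) fsig_comm (par h m a) P.b P.Phi P.const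
    (P.log_eq (FractionRing (WittVector p (OO K))) (algebraMap _ _))

/-- PH4: its linear coefficient is nonzero. -/
theorem PhiData.coeff_one {a : Fin m → OO K} (P : PhiData p h m a) (hh : 1 ≤ h) (hm : 1 ≤ m) :
    PowerSeries.coeff 1 P.phi ≠ 0 := by
  have _ := charP_OO p K
  have _ := kf7_perfect (p := p) (K := K)
  have _ := frac_charZero (p := p) (k := OO K)
  unfold PhiData.phi
  rw [PowerSeries.coeff_map,
    pha_coeff_one (algebraMap (WittVector p (OO K)) (FractionRing (WittVector p (OO K))))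
      frac_inj (by omega : 1 ≤ h + m) (par h m a) P.b P.Phi P.const
      (P.log_eq (FractionRing (WittVector p (OO K))) (algebraMap _ _))]
  exact P.b0

/-- PH5: Frobenius twist of the data (`k : ℕ`). -/
theorem PhiData.twist {a : Fin m → OO K} (P : PhiData p h m a) (k : ℕ) :
    ∃ P' : PhiData p h m (fun i => a i ^ (p ^ k)),
      P'.Phi = P.Phi.map ((WittVector.frobenius (p := p) (R := OO K)) ^ k) ∧
      ∀ d, PowerSeries.coeff d P'.phi = (PowerSeries.coeff d P.phi) ^ (p ^ k) := by
  have _ := charP_OO p K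
  have _ := kf7_perfect (p := p) (K := K)
  have hp0 : p ≠ 0 := (Fact.out : p.Prime).ne_zero
  have hpk : p ^ k ≠ 0 := pow_ne_zero k hp0
  -- iterates commute
  have hcomm : ∀ (l : ℕ) (x : WittVector p (OO K)),
      (WittVector.frobenius (p := p) (R := OO K))^[l]
        (((WittVector.frobenius (p := p) (R := OO K)) ^ k) x) =
      ((WittVector.frobenius (p := p) (R := OO K)) ^ k)
        ((WittVector.frobenius (p := p) (R := OO K))^[l] x) := by
    intro l x
    rw [RingHom.coe_pow, ← Function.iterate_add_apply, ← Function.iterate_add_apply, add_comm]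
  have hconst : ∀ x : WittVector p (OO K),
      WittVector.constantCoeff (((WittVector.frobenius (p := p) (R := OO K)) ^ k) x) =
        (WittVector.constantCoeff x) ^ (p ^ k) := by
    intro x
    clear hcomm
    induction k with
    | zero => simp
    | succ k ih =>
      rw [pow_succ', RingHom.mul_def, RingHom.comp_apply, WittVector.constantCoeff_apply,
        WittVector.coeff_frobenius_charP, ← WittVector.constantCoeff_apply,
        ih (pow_ne_zero k hp0), ← pow_mul, ← pow_succ]
  have htei : ∀ j, teiPar p h m (fun i => a i ^ (p ^ k)) j =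
      ((WittVector.frobenius (p := p) (R := OO K)) ^ k) (teiPar p h m a j) := by
    intro j
    unfold teiPar
    rw [RingHom.coe_pow, iter_frob_teich]
    congr 1
    unfold par
    split_ifs
    · rfl
    · rw [one_pow]
    · rw [zero_pow hpk]
  have hb : BEq h m (fun i => a i ^ (p ^ k))
      (fun s => ((WittVector.frobenius (p := p) (R := OO K)) ^ k) (P.b s)) := by
    refine ⟨fun s hs => ?_, fun s hs => ?_⟩
    · simp only [P.beq.1 s hs, map_zero]
    · simp only [hcomm, P.beq.2 s hs, map_add, map_mul, map_natCast, map_sum]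
      congr 1
      refine Finset.sum_congr rfl fun l _ => ?_
      split_ifs
      · rw [map_mul, htei, hcomm]
      · rw [map_zero]
  refine ⟨⟨fun s => ((WittVector.frobenius (p := p) (R := OO K)) ^ k) (P.b s), hb, ?_,
    P.Phi.map ((WittVector.frobenius (p := p) (R := OO K)) ^ k), ?_, ?_⟩, rfl, ?_⟩
  · rw [hconst]
    exact pow_ne_zero _ P.b0
  · rw [← PowerSeries.coeff_zero_eq_constantCoeff_apply, PowerSeries.coeff_map,
      PowerSeries.coeff_zero_eq_constantCoeff_apply, P.const, map_zero]
  · intro F _ _ τ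
    have h1 := P.log_eq F (τ.comp ((WittVector.frobenius (p := p) (R := OO K)) ^ k))
    have h2 : (P.Phi.map (τ.comp ((WittVector.frobenius (p := p) (R := OO K)) ^ k)) :
        PowerSeries F) =
        (P.Phi.map ((WittVector.frobenius (p := p) (R := OO K)) ^ k)).map τ := by
      ext d
      simp only [PowerSeries.coeff_map, RingHom.comp_apply]
    rw [h2] at h1
    rw [h1]
    refine Finset.sum_congr rfl fun j _ => ?_
    simp only [RingHom.comp_apply, htei, hcomm]
  · intro d
    unfold PhiData.phi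
    rw [PowerSeries.coeff_map, PowerSeries.coeff_map, PowerSeries.coeff_map, hconst]

/-- The homomorphism `xi = phi_a ∘ pr_a : E → Γ_h(m_K)`. -/
noncomputable def xi {a : Fin m → OO K} {ρ : ℝ} (D : Dt p h m a ρ) (S0 : SharpData p K K)
    (P : PhiData p h m a) :
    FPt p (h + m) (Gam (h + m) : ℕ → OO K) →+ FPt p (h + m) (Gam h : ℕ → OO K) :=
  (FPt.hom P.phi (P.isHomS D.h_pos)).comp (pra D S0)

/-- KF7: the key formula `L^h_0(xi x) = ∑_k θ(b_k) log_{(a^(p^k))^♯}(pr(x^(p^k)))`. -/
theorem LL_xi {C : Type} [NormedField C] [IsUltrametricDist C] [CompleteSpace C] [CharZero C]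
    (hp : ‖(p : C)‖ < 1) (T : TiltData p K C) {a : Fin m → OO K} {ρ : ℝ} (D : Dt p h m a ρ)
    (S0 : SharpData p K K) (hS : ∀ x, S0.sharp x = x) (P : PhiData p h m a)
    (Dk : ∀ k : ℕ, ∃ ρ', Dt p h m (fun i => shO T.toSharpData (a i ^ (p ^ k))) ρ')
    (x : FPt p (h + m) (Gam (h + m) : ℕ → OO K)) :
    LL T.toSharpData h 0 (((xi D S0 P x).1 : OO K) : K) =
      ∑ k ∈ Finset.range (h + m), ((T.theta (P.b k) : OO C) : C) *
        elC (Dk k).choose_spec T.toSharpData (Etw (k : ℤ) x) :=
  kf7_core hp T D S0 hS P.b P.Phi P.const (P.log_eq C ((OO C).subtype.comp T.theta))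
    (P.isHomS D.h_pos) Dk x

end Vale.Agent.P217
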