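import Vale.Agent.P217.FELClosure
import Vale.Agent.P217.FGLA

/-!
# P217, PH2 (helper33): the homomorphism `Phi` from a solution `b` of the Frobenius equations

Everything is done for the Witt vectors of a perfect domain `k` of characteristic `p`.
-/

set_option linter.unusedSectionVars false

namespace Vale.Agent.P217

open MvPowerSeries

section witt

variable {p : ℕ} [Fact p.Prime] {k : Type*} [CommRing k] [CharP k p] [PerfectRing k p]

theorem pha_frob (a : WittVector p k) : ∃ b, WittVector.frobenius a = a ^ p +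
    (p : WittVector p k) * b := by
  have h : WittVector.frobenius a - a ^ p ∈ Ideal.span {(p : WittVector p k)} := by
    rw [← WittVector.ker_constantCoeff, RingHom.mem_ker, map_sub, map_pow,
      WittVector.constantCoeff_apply, WittVector.constantCoeff_apply,
      WittVector.coeff_frobenius_charP, sub_self]
  obtain ⟨b, hb⟩ := Ideal.mem_span_singleton.mp h
  exact ⟨b, by rw [← hb]; ring⟩

theorem pha_teich_one : WittVector.teichmuller p (1 : k) = 1 := map_one _

theorem pha_frob_teich (a : k) : WittVector.frobenius (WittVector.teichmuller p a) =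
    WittVector.teichmuller p a ^ p := by
  rw [← map_pow]
  ext n
  rw [WittVector.coeff_frobenius_charP]
  rcases Nat.eq_zero_or_pos n with hn | hn
  · subst hn
    rw [WittVector.teichmuller_coeff_zero, WittVector.teichmuller_coeff_zero]
  · rw [WittVector.teichmuller_coeff_pos p _ n hn, WittVector.teichmuller_coeff_pos p _ n hn,
      zero_pow (Fact.out : p.Prime).ne_zero]

theorem pha_natCast_ne_zero [Nontrivial k] (n : ℕ) (hn : n ≠ 0) : (n : WittVector p k) ≠ 0 := by
  induction n using Nat.strong_induction_on with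
  | _ n ih =>
  intro h
  have h1 : ((n : ℕ) : k) = 0 := by
    have := congrArg WittVector.constantCoeff h
    rwa [map_natCast, map_zero] at this
  rw [CharP.cast_eq_zero_iff k p] at h1
  obtain ⟨m, rfl⟩ := h1
  have hm : m ≠ 0 := by rintro rfl; exact hn (by simp)
  have hp := (Fact.out : p.Prime).one_lt
  apply ih m (by
    have : 0 < m := Nat.pos_of_ne_zero hm
    nlinarith) hm
  apply WittVector.eq_zero_of_p_mul_eq_zero
  rw [mul_comm, ← Nat.cast_mul]
  exact h

theorem pha_charZero [Nontrivial k] : CharZero (WittVector p k) :=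
  charZero_of_inj_zero fun n hn => by
    by_contra h
    exact pha_natCast_ne_zero n h hn

end witt

section data

variable {p n : ℕ} [Fact p.Prime] {k : Type*} [CommRing k] [CharP k p] [PerfectRing k p]
variable {K₀ : Type*} [CommRing K₀] [Algebra ℚ K₀]

/-- The data for Teichmüller parameters. -/
noncomputable def wData (n : ℕ) (ι : WittVector p k →+* K₀) (inj : Function.Injective ι)
    (σK : K₀ →+* K₀) (comm : ∀ a, σK (ι a) = ι (WittVector.frobenius a)) (w : ℕ → k) :
    FELData p n (WittVector p k) K₀ where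
  ι := ι
  inj := inj
  σ := WittVector.frobenius
  σK := σK
  σ_comm := comm
  σ_frob := pha_frob
  v := fun j => WittVector.teichmuller p (w j)
  σ_v := fun j => pha_frob_teich (w j)

variable (p) in
/-- The operator `E_j H = σ^j_* H (X^(p^j))`. -/
noncomputable def EE {τ : Type*} (σK : K₀ →+* K₀) (j : ℕ) (H : MvPowerSeries τ K₀) :
    MvPowerSeries τ K₀ :=
  expand (p ^ j) (pow_ne_zero j (Nat.Prime.ne_zero Fact.out)) (map (σK ^ j) H)

section EE

variable {τ : Type*} (σK : K₀ →+* K₀)

omit [Algebra ℚ K₀] in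
theorem EE_sum {ι : Type*} (s : Finset ι) (j : ℕ) (H : ι → MvPowerSeries τ K₀) :
    EE p σK j (∑ i ∈ s, H i) = ∑ i ∈ s, EE p σK j (H i) := by
  unfold EE
  rw [map_sum, map_sum]

omit [Algebra ℚ K₀] in
theorem EE_C_mul (j : ℕ) (a : K₀) (H : MvPowerSeries τ K₀) :
    EE p σK j (C a * H) = C ((σK ^ j) a) * EE p σK j H := by
  unfold EE
  rw [map_mul, map_mul, map_C, expand_C]

omit [Algebra ℚ K₀] in
theorem EE_EE (i j : ℕ) (H : MvPowerSeries τ K₀) :
    EE p σK i (EE p σK j H) = EE p σK (i + j) H := by
  have hp : p ≠ 0 := (Fact.out : p.Prime).ne_zero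
  unfold EE
  rw [map_expand]
  have h := expand_mul (σ := τ) (R := K₀) (p ^ i) (pow_ne_zero i hp) (p ^ j) (pow_ne_zero j hp)
    (map (σK ^ i) (map (σK ^ j) H))
  rw [← h]
  have h2 : map (σK ^ i) (map (σK ^ j) H) = map (σK ^ (i + j)) H := by
    ext m
    simp only [coeff_map]
    rw [pow_add, RingHom.mul_def, RingHom.comp_apply]
  rw [h2]
  simp only [pow_add]

omit [Algebra ℚ K₀] in
theorem EE_X (j : ℕ) : EE p σK j (PowerSeries.X : PowerSeries K₀) = PowerSeries.X ^ (p ^ j) := by
  unfold EE
  have h1 : map (σK ^ j) (PowerSeries.X : PowerSeries K₀) = PowerSeries.X :=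
    PowerSeries.map_X _
  rw [h1]
  exact expand_X _ _ _

end EE

theorem pha_sigma {ι : WittVector p k →+* K₀} {σK : K₀ →+* K₀}
    (comm : ∀ a, σK (ι a) = ι (WittVector.frobenius a)) (j : ℕ) (a : WittVector p k) :
    (σK ^ j) (ι a) = ι ((WittVector.frobenius (p := p) (R := k))^[j] a) := by
  induction j with
  | zero => simp
  | succ j ih =>
    rw [pow_succ', RingHom.mul_def, RingHom.comp_apply, ih, comm, Function.iterate_succ_apply']

theorem pha_iter_zero (j : ℕ) : (WittVector.frobenius (p := p) (R := k))^[j] 0 = 0 := by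
  induction j with
  | zero => simp
  | succ j ih => rw [Function.iterate_succ_apply', ih, map_zero]

variable {h : ℕ} (hh : 1 ≤ h) (hhn : h ≤ n) (ι : WittVector p k →+* K₀)
  (inj : Function.Injective ι)
  (σK : K₀ →+* K₀) (comm : ∀ a, σK (ι a) = ι (WittVector.frobenius a)) (w : ℕ → k)
  (hw0 : ∀ j, 1 ≤ j → j < h → w j = 0) (hwn : ∀ j, n < j → w j = 0)
  (b : ℕ → WittVector p k) (hb0 : ∀ s, n ≤ s → b s = 0)
  (hb : ∀ s, s < n → (WittVector.frobenius (p := p) (R := k))^[h] (b s) =
    (∑ l ∈ Finset.range h, if l ≤ s then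
      b l * (WittVector.frobenius (p := p) (R := k))^[l]
        (WittVector.teichmuller p (w (s + h - l))) else 0)
      + (p : WittVector p k) * b (s + h))

include hh hw0 hb in
theorem pha_beq (s : ℕ) (hs : s < n) :
    ι ((WittVector.frobenius (p := p) (R := k))^[h] (b s)) =
    (∑ l ∈ Finset.range h, ι (b l) * ι ((WittVector.frobenius (p := p) (R := k))^[l]
        (WittVector.teichmuller p (w (s + h - l)))))
      + (p : K₀) * ι (b (s + h)) := by
  rw [hb s hs, map_add, map_sum, map_mul, map_natCast]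
  congr 1
  refine Finset.sum_congr rfl fun l hl => ?_
  rw [Finset.mem_range] at hl
  split_ifs with h1
  · rw [map_mul]
  · rw [hw0 (s + h - l) (by omega) (by omega), WittVector.teichmuller_zero, pha_iter_zero,
      map_zero, mul_zero]

/-- the function `H`. -/
noncomputable def pha_H : PowerSeries K₀ :=
  ∑ j ∈ Finset.range n, (C (ι (b j)) : PowerSeries K₀) *
    EE p σK j (wData n ι inj σK comm w).f

include hh hhn in
theorem pha_op (H : PowerSeries K₀) :
    (wData n ι inj σK comm (Gam h : ℕ → k)).op (H : MvPowerSeries Unit K₀) =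
      C (algebraMap ℚ K₀ ((p : ℚ)⁻¹)) * EE p σK h H := by
  unfold FELData.op
  rw [Finset.sum_eq_single h]
  · have h1 : (wData n ι inj σK comm (Gam h : ℕ → k)).v h = 1 := by
      show WittVector.teichmuller p (Gam h h : k) = 1
      simp [Gam]
    rw [h1, map_one, mul_one]
    rfl
  · intro j _ hj
    have h1 : (wData n ι inj σK comm (Gam h : ℕ → k)).v j = 0 := by
      show WittVector.teichmuller p (Gam h j : k) = 0
      simp [Gam, hj]
    rw [h1, map_zero, mul_zero, map_zero, zero_mul]
  · intro h1
    exact absurd (Finset.mem_Icc.mpr ⟨hh, hhn⟩) h1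

include hw0 hwn in
theorem pha_shift (l : ℕ) (hl : l < h) (g : ℕ → PowerSeries K₀)
    (hg : ∀ j, w j = 0 → g j = 0) :
    ∑ j ∈ Finset.Icc 1 n, g j = ∑ s ∈ Finset.range n, g (s + (h - l)) := by
  have h1 : ∑ j ∈ Finset.Icc h n, g j = ∑ j ∈ Finset.Icc 1 n, g j := by
    apply Finset.sum_subset
    · intro j hj
      rw [Finset.mem_Icc] at *
      omega
    · intro j hj hj2
      rw [Finset.mem_Icc] at *
      exact hg j (hw0 j hj.1 (by omega))
  have h2 : ∑ s ∈ Finset.range n, g (s + (h - l)) =
      ∑ j ∈ Finset.Ico (h - l) (n + (h - l)), g j := by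
    rw [Finset.sum_Ico_eq_sum_range]
    have : n + (h - l) - (h - l) = n := by omega
    rw [this]
    refine Finset.sum_congr rfl fun s _ => ?_
    rw [add_comm]
  rw [h2, ← h1]
  apply Finset.sum_subset
  · intro j hj
    rw [Finset.mem_Icc] at hj
    rw [Finset.mem_Ico]
    omega
  · intro j hj hj2
    rw [Finset.mem_Ico] at hj
    rw [Finset.mem_Icc] at hj2
    rcases lt_or_ge j h with h3 | h3
    · exact hg j (hw0 j (by omega) h3)
    · exact hg j (hwn j (by omega))

include hh hhn hw0 hwn hb0 hb in
/-- `H - op_{Γ_h} H = ∑_{l < h} b_l X^(p^l)`. -/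
theorem pha_key :
    pha_H (n := n) ι inj σK comm w b - (wData n ι inj σK comm (Gam h : ℕ → k)).op
      (pha_H (n := n) ι inj σK comm w b : MvPowerSeries Unit K₀) =
    ∑ l ∈ Finset.range h, (C (ι (b l)) : PowerSeries K₀) * PowerSeries.X ^ (p ^ l) := by
  have hpK : algebraMap ℚ K₀ ((p : ℚ)⁻¹) * (p : K₀) = 1 := by
    have : (p : K₀) = algebraMap ℚ K₀ (p : ℚ) := by simp
    have hp : (p : ℚ) ≠ 0 := Nat.cast_ne_zero.mpr (Fact.out : p.Prime).ne_zero
    rw [this, ← map_mul, inv_mul_cancel₀ hp, map_one]
  set P := algebraMap ℚ K₀ ((p : ℚ)⁻¹) with hP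
  set f : PowerSeries K₀ := (wData n ι inj σK comm w).f with hf
  set φ : ℕ → WittVector p k → WittVector p k :=
    fun j a => (WittVector.frobenius (p := p) (R := k))^[j] a with hφ
  -- functional equation
  have hfe : f - ∑ j ∈ Finset.Icc 1 n, (C (P * ι (WittVector.teichmuller p (w j))) :
      PowerSeries K₀) * EE p σK j f = PowerSeries.X :=
    (wData n ι inj σK comm w).f_funcEq
  have hfel : ∀ l, l < h → EE p σK l f - ∑ s ∈ Finset.range n,
      (C (P * ι (φ l (WittVector.teichmuller p (w (s + h - l))))) : PowerSeries K₀) *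
        EE p σK (h + s) f = PowerSeries.X ^ (p ^ l) := by
    intro l hl
    rw [← EE_X σK l, ← hfe]
    have h1 : EE p σK l (f - ∑ j ∈ Finset.Icc 1 n,
        (C (P * ι (WittVector.teichmuller p (w j))) : PowerSeries K₀) * EE p σK j f) =
        EE p σK l f - ∑ j ∈ Finset.Icc 1 n,
          (C (P * ι (φ l (WittVector.teichmuller p (w j)))) : PowerSeries K₀) *
            EE p σK (l + j) f := by
      have h2 : EE p σK l (f - ∑ j ∈ Finset.Icc 1 n,
        (C (P * ι (WittVector.teichmuller p (w j))) : PowerSeries K₀) * EE p σK j f) =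
          EE p σK l f - EE p σK l (∑ j ∈ Finset.Icc 1 n,
        (C (P * ι (WittVector.teichmuller p (w j))) : PowerSeries K₀) * EE p σK j f) := by
        unfold EE
        rw [map_sub, map_sub]
      rw [h2, EE_sum]
      congr 1
      refine Finset.sum_congr rfl fun j _ => ?_
      rw [EE_C_mul, EE_EE, map_mul, pha_sigma comm]
      congr 3
      rw [hP, RingHom.map_rat_algebraMap]
    rw [h1]
    congr 1
    symm
    rw [pha_shift (h := h) w hw0 hwn l hl (fun j =>
      (C (P * ι (φ l (WittVector.teichmuller p (w j)))) : PowerSeries K₀) *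
            EE p σK (l + j) f)]
    · refine Finset.sum_congr rfl fun s _ => ?_
      have e1 : s + (h - l) = s + h - l := by omega
      have e2 : l + (s + h - l) = h + s := by omega
      rw [e1, e2]
    · intro j hj
      simp only [hj, WittVector.teichmuller_zero, hφ, pha_iter_zero, map_zero, mul_zero, zero_mul]
  -- `H`
  have hH : pha_H (n := n) ι inj σK comm w b =
      ∑ l ∈ Finset.range h, (C (ι (b l)) : PowerSeries K₀) * EE p σK l f +
      ∑ s ∈ Finset.range n, (C (ι (b (h + s))) : PowerSeries K₀) * EE p σK (h + s) f := by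
    rw [← Finset.sum_range_add (fun j => (C (ι (b j)) : PowerSeries K₀) * EE p σK j f) h n,
      add_comm h n, Finset.sum_range_add]
    have : ∑ x ∈ Finset.range h, (C (ι (b (n + x))) : PowerSeries K₀) * EE p σK (n + x) f = 0 := by
      apply Finset.sum_eq_zero
      intro x _
      rw [hb0 (n + x) (by omega), map_zero, map_zero, zero_mul]
    rw [this, add_zero]
    rfl
  -- `op H`
  have hop : (wData n ι inj σK comm (Gam h : ℕ → k)).op
      (pha_H (n := n) ι inj σK comm w b : MvPowerSeries Unit K₀) =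
      (∑ l ∈ Finset.range h, ∑ s ∈ Finset.range n, (C (ι (b l)) : PowerSeries K₀) *
        ((C (P * ι (φ l (WittVector.teichmuller p (w (s + h - l))))) : PowerSeries K₀) *
        EE p σK (h + s) f)) +
      ∑ s ∈ Finset.range n, (C (ι (b (h + s))) : PowerSeries K₀) * EE p σK (h + s) f := by
    rw [pha_op hh hhn ι inj σK comm, pha_H, EE_sum, Finset.mul_sum, Finset.sum_comm,
      ← Finset.sum_add_distrib]
    refine Finset.sum_congr rfl fun s hs => ?_
    rw [Finset.mem_range] at hs
    rw [EE_C_mul, EE_EE, pha_sigma comm, pha_beq hh ι w hw0 b hb s hs]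
    rw [← Finset.sum_congr rfl (fun l _ => mul_assoc _ _ _), ← Finset.sum_mul, ← add_mul,
      ← mul_assoc]
    congr 1
    rw [← map_mul, mul_add, map_add, add_comm s h]
    congr 1
    · rw [Finset.mul_sum, map_sum]
      refine Finset.sum_congr rfl fun l _ => ?_
      refine (congrArg (C (σ := Unit)) ?_).trans (map_mul (C (σ := Unit)) _ _)
      simp only [hφ]
      ring
    · rw [← mul_assoc, hpK, one_mul]
  rw [hop, hH, add_sub_add_right_eq_sub, ← Finset.sum_sub_distrib]
  refine Finset.sum_congr rfl fun l hl => ?_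
  rw [Finset.mem_range] at hl
  rw [← Finset.mul_sum, ← mul_sub, hfel l hl]

end data

end Vale.Agent.P217
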