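import Vale.Agent.P217.Homs
import Vale.Agent.P217.USeries
import Vale.Agent.P217.PPR1

/-!
# P217: the projection `prj` of coherent sequences (modules PR1 ... PR4)

`O` complete linearly topologised ring, `J` closed ideal with `J^k → 0`, `p ∈ J`, `v_j ∈ J` for
`1 ≤ j < n`, `v_n = 1`. For a coherent sequence `x_{N+1}^(p^n) ≡ x_N mod J` of points the limit
`prj x = lim [p^N] x_N` exists in `F_v(O)`.
-/

set_option linter.unusedSectionVars false

namespace Vale.Agent.P217

open MvPowerSeries Filter Topology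

section pts

variable {O : Type*} [CommRing O] [UniformSpace O] [IsUniformAddGroup O] [IsTopologicalRing O]
  [IsLinearTopology O O] [T2Space O] [CompleteSpace O]
variable {O' : Type*} [CommRing O'] [UniformSpace O'] [IsUniformAddGroup O'] [IsTopologicalRing O']
  [IsLinearTopology O' O'] [T2Space O'] [CompleteSpace O']
variable {p n : ℕ} [Fact p.Prime] {v w : ℕ → O} {J : Ideal O}

/-- Admissible data. -/
structure Adm (p n : ℕ) (v : ℕ → O) (J : Ideal O) : Prop where
  topnil : ∀ U ∈ 𝓝 (0 : O), ∃ k : ℕ, ((J ^ k : Ideal O) : Set O) ⊆ U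
  closed : IsClosed (J : Set O)
  p_mem : (p : O) ∈ J
  v_mem : ∀ j, 1 ≤ j → j < n → v j ∈ J
  v_top : v n = 1
  n_pos : 1 ≤ n

/-- Coherent sequences of points modulo `J`. -/
def Coh (J : Ideal O) (x : ℕ → FPt p n v) : Prop :=
  ∀ N, (x (N + 1)).1 ^ (p ^ n) - (x N).1 ∈ J

/-! ### PR1: congruences (no completeness of `J` needed) -/

/-- congruent arguments give congruent values; `Jc` any closed ideal. -/
theorem ev2_sub_mem (F : MvPowerSeries (Fin 2) O) (hJ : IsClosed (J : Set O))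
    {x y x' y' : O} (hx : IsTopologicallyNilpotent x) (hy : IsTopologicallyNilpotent y)
    (hx' : IsTopologicallyNilpotent x') (hy' : IsTopologicallyNilpotent y')
    (h1 : x - x' ∈ J) (h2 : y - y' ∈ J) : ev2 F x y - ev2 F x' y' ∈ J := by
  exact ev2_sub_mem_pr1 F hJ hx hy hx' hy' h1 h2

theorem ev1_sub_mem (g : PowerSeries O) (hJ : IsClosed (J : Set O))
    {x x' : O} (hx : IsTopologicallyNilpotent x)
    (hx' : IsTopologicallyNilpotent x') (h1 : x - x' ∈ J) : ev1 g x - ev1 g x' ∈ J := by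
  exact ev1_sub_mem_pr1 g hJ hx hx' h1

/-- congruent series give congruent values. -/
theorem ev2_sub_mem' (F G : MvPowerSeries (Fin 2) O) (hJ : IsClosed (J : Set O))
    (hFG : ∀ e, MvPowerSeries.coeff e F - MvPowerSeries.coeff e G ∈ J)
    {x y : O} (hx : IsTopologicallyNilpotent x) (hy : IsTopologicallyNilpotent y) :
    ev2 F x y - ev2 G x y ∈ J := by
  exact ev2_sub_mem'_pr1 F G hJ hFG hx hy

theorem ev1_sub_mem' (f g : PowerSeries O) (hJ : IsClosed (J : Set O))
    (hfg : ∀ d, PowerSeries.coeff d f - PowerSeries.coeff d g ∈ J)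
    {x : O} (hx : IsTopologicallyNilpotent x) : ev1 f x - ev1 g x ∈ J := by
  exact ev1_sub_mem'_pr1 f g hJ hfg hx

theorem FPt.sub_mem_iff (hJ : IsClosed (J : Set O)) (x y : FPt p n v) :
    (x - y).1 ∈ J ↔ x.1 - y.1 ∈ J := by
  exact FPt.sub_mem_iff_pr1 hJ x y

/-- `F_v ≡ F_w` if `v ≡ w` modulo `J`. -/
theorem Fv_coeff_sub_mem (hvw : ∀ j, 1 ≤ j → j ≤ n → v j - w j ∈ J) (e : Fin 2 →₀ ℕ) :
    MvPowerSeries.coeff e (Fv p n v) - MvPowerSeries.coeff e (Fv p n w) ∈ J := by
  exact Fv_coeff_sub_mem_pr1 hvw e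

/-! ### PR2: multiplication by `p` -/

omit [IsUniformAddGroup O] [IsTopologicalRing O] [IsLinearTopology O O] [T2Space O]
  [CompleteSpace O] in
theorem Adm.coeff_mem (hJ : Adm p n v J) (i : ℕ) :
    PowerSeries.coeff i (mulS p n v p) - (if i = p ^ n then 1 else 0) ∈ J :=
  mulS_coeff_mod hJ.n_pos J hJ.p_mem hJ.v_mem hJ.v_top i

theorem ev1_mul (f g : PowerSeries O) {x : O} (hx : IsTopologicallyNilpotent x) :
    ev1 (f * g) x = ev1 f x * ev1 g x := by
  have h := map_mul (PowerSeries.eval₂Hom (φ := RingHom.id O) continuous_idO hx) f g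
  rw [PowerSeries.coe_eval₂Hom] at h
  exact h

theorem ev1_add (f g : PowerSeries O) {x : O} (hx : IsTopologicallyNilpotent x) :
    ev1 (f + g) x = ev1 f x + ev1 g x := by
  have h := map_add (PowerSeries.eval₂Hom (φ := RingHom.id O) continuous_idO hx) f g
  rw [PowerSeries.coe_eval₂Hom] at h
  exact h

theorem ev1_pow (f : PowerSeries O) (m : ℕ) {x : O} (hx : IsTopologicallyNilpotent x) :
    ev1 (f ^ m) x = ev1 f x ^ m := by
  have h := map_pow (PowerSeries.eval₂Hom (φ := RingHom.id O) continuous_idO hx) f m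
  rw [PowerSeries.coe_eval₂Hom] at h
  exact h

omit [IsUniformAddGroup O] [IsTopologicalRing O] [IsLinearTopology O O] [T2Space O]
  [CompleteSpace O] in
theorem ev1_C (a x : O) : ev1 (PowerSeries.C a) x = a := by
  exact PowerSeries.eval₂_C _ _ _

/-- `[p]` is contracting on `J`. -/
theorem FPt.p_smul_mem (hJ : Adm p n v J) {k : ℕ} (hk : 1 ≤ k) (x : FPt p n v)
    (hx : x.1 ∈ J ^ k) : (p • x).1 ∈ J ^ (k + 1) := by
  rw [FPt.p_smul_val]
  have h0 : PowerSeries.coeff 0 (mulS p n v p) = 0 := by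
    have h := FPt.p_smul_val (p := p) (n := n) (v := v) (0 : FPt p n v)
    rw [smul_zero, FPt.zero_val] at h
    have h2 : mulS p n v p = PowerSeries.C (PowerSeries.coeff 0 (mulS p n v p)) +
        (PowerSeries.X : PowerSeries O) *
          PowerSeries.mk fun i => PowerSeries.coeff (i + 1) (mulS p n v p) := by
      ext i
      cases i with
      | zero => simp
      | succ i => simp [PowerSeries.coeff_succ_X_mul]
    rw [h2, ev1_add _ _ tn_zero, ev1_mul _ _ tn_zero, ev1_X, ev1_C, zero_mul, add_zero] at h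
    exact h.symm
  have hp2 : 1 < p ^ n := Nat.one_lt_pow (by have := hJ.n_pos; omega) (Fact.out : p.Prime).one_lt
  have h1 : PowerSeries.coeff 1 (mulS p n v p) ∈ J := by
    have h := hJ.coeff_mem 1
    rwa [if_neg (by omega), sub_zero] at h
  have h2 : mulS p n v p = PowerSeries.C (PowerSeries.coeff 1 (mulS p n v p)) *
        (PowerSeries.X : PowerSeries O) +
        (PowerSeries.X : PowerSeries O) ^ 2 *
          PowerSeries.mk fun i => PowerSeries.coeff (i + 2) (mulS p n v p) := by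
    ext i
    match i with
    | 0 => simp [h0]
    | 1 =>
      rw [map_add, PowerSeries.coeff_C_mul, PowerSeries.coeff_one_X, pow_two, mul_assoc,
        PowerSeries.coeff_one_mul]
      simp
    | i + 2 =>
      rw [map_add, PowerSeries.coeff_C_mul, PowerSeries.coeff_X, if_neg (by omega), mul_zero,
        zero_add, PowerSeries.coeff_X_pow_mul', if_pos (by omega)]
      simp
  rw [h2, ev1_add _ _ x.2, ev1_mul _ _ x.2, ev1_mul _ _ x.2, ev1_pow _ _ x.2, ev1_X, ev1_C]
  refine Ideal.add_mem _ ?_ (Ideal.mul_mem_right _ _ ?_)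
  · rw [pow_succ']
    exact Ideal.mul_mem_mul h1 hx
  · have h3 : x.1 ^ 2 ∈ (J ^ k) ^ 2 := Ideal.pow_mem_pow hx 2
    rw [← pow_mul] at h3
    exact Ideal.pow_le_pow_right (by omega) h3

/-- `[p](x) ≡ x^(p^n)` modulo `J`. -/
theorem FPt.p_smul_sub_mem (hJ : Adm p n v J) (x : FPt p n v) :
    (p • x).1 - x.1 ^ (p ^ n) ∈ J := by
  have h := ev1_sub_mem' (mulS p n v p) ((PowerSeries.X : PowerSeries O) ^ (p ^ n)) hJ.closed
    (fun d => by rw [PowerSeries.coeff_X_pow]; exact hJ.coeff_mem d) x.2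
  rwa [ev1_pow _ _ x.2, ev1_X, ← FPt.p_smul_val] at h

/-! ### PR3: the limit -/

open Classical in
/-- The limit of `[p^N] x_N`. -/
noncomputable def prj (x : ℕ → FPt p n v) : FPt p n v :=
  if h : ∃ y : FPt p n v,
    Tendsto (fun N => (p ^ N • x N : FPt p n v).1) atTop (𝓝 y.1) then h.choose else 0

/-- The points in a closed ideal form a subgroup. -/
noncomputable def FPt.sub (p n : ℕ) [Fact p.Prime] (v : ℕ → O) (I : Ideal O)
    (hI : IsClosed (I : Set O)) : AddSubgroup (FPt p n v) :=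
  AddSubgroup.ofSub {x | x.1 ∈ I} ⟨0, by
    show (0 : FPt p n v).1 ∈ I
    rw [FPt.zero_val]
    exact I.zero_mem⟩ (by
    intro x hx y hy
    rw [← sub_eq_add_neg]
    exact (FPt.sub_mem_iff hI x y).2 (I.sub_mem hx hy))

theorem FPt.mem_sub {I : Ideal O} {hI : IsClosed (I : Set O)} {x : FPt p n v} :
    x ∈ FPt.sub p n v I hI ↔ x.1 ∈ I := Iff.rfl

omit [T2Space O] [CompleteSpace O] [IsUniformAddGroup O] in
theorem isClosed_of_isOpen_ideal {U : Ideal O} (hU : IsOpen (U : Set O)) :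
    IsClosed (U : Set O) :=
  AddSubgroup.isClosed_of_isOpen U.toAddSubgroup hU

omit [T2Space O] [CompleteSpace O] [IsUniformAddGroup O] in
/-- convergence tested on open ideals -/
theorem tendsto_iff_ideal {f : ℕ → O} {y : O} : Tendsto f atTop (𝓝 y) ↔
    ∀ U : Ideal O, IsOpen (U : Set O) → ∀ᶠ N in atTop, f N - y ∈ U := by
  rw [← tendsto_sub_nhds_zero_iff,
    (IsLinearTopology.hasBasis_open_ideal (R := O)).tendsto_right_iff]
  rfl

/-- coherence in terms of the group -/
theorem coh_iff (hJ : Adm p n v J) {x : ℕ → FPt p n v} :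
    Coh J x ↔ ∀ N, p • x (N + 1) - x N ∈ FPt.sub p n v J hJ.closed := by
  refine forall_congr' fun N => ?_
  rw [FPt.mem_sub, FPt.sub_mem_iff hJ.closed]
  have h := FPt.p_smul_sub_mem hJ (x (N + 1))
  constructor
  · intro h1
    have := J.add_mem h h1
    rwa [sub_add_sub_cancel] at this
  · intro h1
    have := J.sub_mem h1 h
    rwa [sub_sub_sub_cancel_left] at this

theorem FPt.pow_smul_mem (hJ : Adm p n v J) (N : ℕ) (x : FPt p n v)
    (hx : x.1 ∈ J) : (p ^ N • x).1 ∈ J ^ (N + 1) := by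
  induction N with
  | zero => simpa using hx
  | succ N ih =>
    have e : p ^ (N + 1) • x = p • (p ^ N • x) := by rw [pow_succ', mul_smul]
    rw [e]
    exact FPt.p_smul_mem hJ (by omega) _ ih

/-- consecutive differences -/
theorem prj_step (hJ : Adm p n v J) {x : ℕ → FPt p n v} (hx : Coh J x) (N : ℕ) :
    (p ^ (N + 1) • x (N + 1) - p ^ N • x N : FPt p n v).1 ∈ J ^ (N + 1) := by
  have h := FPt.pow_smul_mem hJ N _ ((coh_iff hJ).1 hx N)
  rwa [smul_sub, ← mul_smul, ← pow_succ] at h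

theorem Adm.exists_le (hJ : Adm p n v J) {U : Ideal O} (hU : IsOpen (U : Set O)) :
    ∃ k, ∀ N, k ≤ N → J ^ (N + 1) ≤ U := by
  obtain ⟨k, hk⟩ := hJ.topnil U (hU.mem_nhds U.zero_mem)
  exact ⟨k, fun N hN => (Ideal.pow_le_pow_right (by omega)).trans hk⟩

theorem prj_exists (hJ : Adm p n v J) {x : ℕ → FPt p n v} (hx : Coh J x) :
    ∃ y : FPt p n v, Tendsto (fun N => (p ^ N • x N : FPt p n v).1) atTop (𝓝 y.1) := by
  have hstep : Tendsto (fun N => (p ^ (N + 1) • x (N + 1) : FPt p n v).1 -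
      (p ^ N • x N : FPt p n v).1) atTop (𝓝 0) := by
    rw [tendsto_iff_ideal]
    intro U hU
    obtain ⟨k, hk⟩ := hJ.exists_le hU
    filter_upwards [eventually_ge_atTop k] with N hN
    rw [sub_zero]
    exact (FPt.sub_mem_iff (isClosed_of_isOpen_ideal hU) _ _).1 (hk N hN (prj_step hJ hx N))
  have hna : NonarchimedeanAddGroup O := by
    refine ⟨fun U hU => ?_⟩
    obtain ⟨V, hV, hVU⟩ := (IsLinearTopology.hasBasis_open_ideal (R := O)).mem_iff.1 hU
    exact ⟨⟨V.toAddSubgroup, hV⟩, hVU⟩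
  have hc := NonarchimedeanAddGroup.cauchySeq_of_tendsto_sub_nhds_zero
    (f := fun N => (p ^ N • x N : FPt p n v).1) hstep
  obtain ⟨y, hy⟩ := cauchySeq_tendsto_of_complete hc
  refine ⟨⟨y, ?_⟩, hy⟩
  show Tendsto (fun m : ℕ => y ^ m) atTop (𝓝 0)
  rw [tendsto_iff_ideal] at hy ⊢
  intro U hU
  obtain ⟨N, hN⟩ := (hy U hU).exists
  have h1 := (p ^ N • x N : FPt p n v).2
  have h2 := tendsto_iff_ideal.1 h1 U hU
  filter_upwards [h2] with m hm
  rw [sub_zero] at hm ⊢
  have h3 : (p ^ N • x N : FPt p n v).1 ^ m - y ^ m ∈ U :=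
    Ideal.mem_of_dvd U (sub_dvd_pow_sub_pow _ _ m) hN
  have := U.sub_mem hm h3
  rwa [sub_sub_cancel] at this

theorem prj_spec (hJ : Adm p n v J) {x : ℕ → FPt p n v} (hx : Coh J x) :
    Tendsto (fun N => (p ^ N • x N : FPt p n v).1) atTop (𝓝 (prj x).1) := by
  have h := prj_exists hJ hx
  unfold prj
  rw [dif_pos h]
  exact h.choose_spec

theorem prj_unique (hJ : Adm p n v J) {x : ℕ → FPt p n v} (hx : Coh J x) {y : FPt p n v}
    (hy : Tendsto (fun N => (p ^ N • x N : FPt p n v).1) atTop (𝓝 y.1)) : prj x = y :=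
  Subtype.ext (tendsto_nhds_unique (prj_spec hJ hx) hy)

/-- convergence of points, tested on open ideals with the group law -/
theorem tendsto_pt_iff {f : ℕ → FPt p n v} {y : FPt p n v} :
    Tendsto (fun N => (f N).1) atTop (𝓝 y.1) ↔
    ∀ U : Ideal O, ∀ hU : IsOpen (U : Set O), ∀ᶠ N in atTop,
      f N - y ∈ FPt.sub p n v U (isClosed_of_isOpen_ideal hU) := by
  rw [tendsto_iff_ideal]
  refine forall_congr' fun U => forall_congr' fun hU => ?_
  refine eventually_congr (Eventually.of_forall fun N => ?_)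
  rw [FPt.mem_sub, FPt.sub_mem_iff (isClosed_of_isOpen_ideal hU)]

theorem prj_sub_zero_mem (hJ : Adm p n v J) {x : ℕ → FPt p n v} (hx : Coh J x) :
    (prj x).1 - (x 0).1 ∈ J := by
  have h1 : ∀ N, (p ^ N • x N : FPt p n v).1 - (x 0).1 ∈ J := by
    intro N
    induction N with
    | zero => simp
    | succ N ih =>
      have h := (FPt.sub_mem_iff hJ.closed _ _).1
        (Ideal.pow_le_self (by omega : N + 1 ≠ 0) (prj_step hJ hx N))
      have := J.add_mem h ih
      rwa [sub_add_sub_cancel] at this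
  have h2 := (prj_spec hJ hx).sub_const (x 0).1
  exact hJ.closed.mem_of_tendsto h2 (Eventually.of_forall h1)

/-- Only the classes modulo `J` matter (for a possibly different sequence). -/
theorem prj_congr (hJ : Adm p n v J) {x y : ℕ → FPt p n v} (hx : Coh J x)
    (hxy : ∀ N, (x N).1 - (y N).1 ∈ J) : Coh J y ∧ prj x = prj y := by
  have hy : Coh J y := by
    rw [coh_iff hJ] at hx ⊢
    intro N
    have h1 : ∀ N, x N - y N ∈ FPt.sub p n v J hJ.closed := fun N => by
      rw [FPt.mem_sub, FPt.sub_mem_iff hJ.closed]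
      exact hxy N
    have h2 := (FPt.sub p n v J hJ.closed).sub_mem
      ((FPt.sub p n v J hJ.closed).add_mem (hx N) (h1 N))
      ((FPt.sub p n v J hJ.closed).nsmul_mem (h1 (N + 1)) p)
    convert h2 using 1
    rw [smul_sub]
    abel
  refine ⟨hy, prj_unique hJ hx ?_⟩
  have h3 := tendsto_pt_iff.1 (prj_spec hJ hy)
  rw [tendsto_pt_iff]
  intro U hU
  obtain ⟨k, hk⟩ := hJ.exists_le hU
  filter_upwards [h3 U hU, eventually_ge_atTop k] with N hN hkN
  have h1 : x N - y N ∈ FPt.sub p n v J hJ.closed := by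
    rw [FPt.mem_sub, FPt.sub_mem_iff hJ.closed]
    exact hxy N
  have h4 : p ^ N • (x N - y N) ∈ FPt.sub p n v U (isClosed_of_isOpen_ideal hU) :=
    hk N hkN (FPt.pow_smul_mem hJ N _ h1)
  have h5 := AddSubgroup.add_mem _ h4 hN
  rwa [smul_sub, sub_add_sub_cancel] at h5

theorem prj_add (hJ : Adm p n v J) {x y : ℕ → FPt p n v} (hx : Coh J x) (hy : Coh J y) :
    Coh J (fun N => x N + y N) ∧ prj (fun N => x N + y N) = prj x + prj y := by
  have hc : Coh J (fun N => x N + y N) := by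
    rw [coh_iff hJ] at hx hy ⊢
    intro N
    have h := AddSubgroup.add_mem _ (hx N) (hy N)
    convert h using 1
    rw [smul_add]
    abel
  refine ⟨hc, prj_unique hJ hc ?_⟩
  rw [tendsto_pt_iff]
  intro U hU
  filter_upwards [tendsto_pt_iff.1 (prj_spec hJ hx) U hU,
    tendsto_pt_iff.1 (prj_spec hJ hy) U hU] with N h1 h2
  have h := AddSubgroup.add_mem _ h1 h2
  convert h using 1
  rw [smul_add]
  abel

/-- `p * prj (shift x) = prj x`. -/
theorem prj_shift (hJ : Adm p n v J) {x : ℕ → FPt p n v} (hx : Coh J x) :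
    Coh J (fun N => x (N + 1)) ∧ p • prj (fun N => x (N + 1)) = prj x := by
  have hc : Coh J (fun N => x (N + 1)) := fun N => hx (N + 1)
  refine ⟨hc, ?_⟩
  apply Subtype.ext
  refine tendsto_nhds_unique (f := fun N => (p ^ (N + 1) • x (N + 1) : FPt p n v).1) ?_
    ((prj_spec hJ hx).comp (tendsto_add_atTop_nat 1))
  rw [tendsto_pt_iff (f := fun N => p ^ (N + 1) • x (N + 1))]
  intro U hU
  filter_upwards [tendsto_pt_iff.1 (prj_spec hJ hc) U hU] with N h1
  have h := AddSubgroup.nsmul_mem _ h1 p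
  rwa [smul_sub, ← mul_smul, ← pow_succ'] at h

/-! ### PR4: functoriality -/

theorem prj_hom (hJ : Adm p n v J) (hJ' : Adm p n w J) {x : ℕ → FPt p n v} (hx : Coh J x)
    (g : PowerSeries O) (hg : IsHomS p n v w g)
    (hx' : Coh J (fun N => FPt.hom g hg (x N))) :
    prj (fun N => FPt.hom g hg (x N)) = FPt.hom g hg (prj x) := by
  refine prj_unique hJ' hx' ?_
  rw [tendsto_pt_iff]
  intro U hU
  filter_upwards [tendsto_pt_iff.1 (prj_spec hJ hx) U hU] with N h1
  rw [← map_nsmul, ← map_sub, FPt.mem_sub, FPt.hom_val]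
  have h2 := ev1_sub_mem g (isClosed_of_isOpen_ideal hU) (p ^ N • x N - prj x).2 tn_zero
    (by rw [sub_zero]; exact h1)
  rwa [ev1_zero hg.1, sub_zero] at h2

theorem prj_map {J' : Ideal O'} (hJ : Adm p n v J) (ψ : O →+* O') (hψ : Continuous ψ)
    (hJ' : Adm p n (fun j => ψ (v j)) J') {x : ℕ → FPt p n v} (hx : Coh J x)
    (hx' : Coh J' (fun N => FPt.map ψ hψ (x N))) :
    prj (fun N => FPt.map ψ hψ (x N)) = FPt.map ψ hψ (prj x) := by
  refine prj_unique hJ' hx' ?_
  have h := (hψ.tendsto _).comp (prj_spec hJ hx)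
  refine h.congr fun N => ?_
  rw [← map_nsmul]
  rfl

end pts

end Vale.Agent.P217
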