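import Vale.Agent.P217.Homs

/-!
# P217, part I: the asymptotic rings `SN K q r N` (modules AS1, AS2)

`Bd q s x`: the sequence `x_M ∈ K` satisfies `limsup ‖x_M‖^(1/q^M) ≤ s`.
`SN K q r N = {Bd 1} / {Bd (r^N)}`, a discrete ring.
-/

set_option linter.unusedSectionVars false

namespace Vale.Agent.P217

open MvPowerSeries Filter Topology

section generic

variable {O : Type*} [CommRing O] [UniformSpace O] [IsUniformAddGroup O] [IsTopologicalRing O]
  [IsLinearTopology O O] [T2Space O] [CompleteSpace O] {σ : Type*} [Finite σ]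

theorem asn_hasSum_sub (F : MvPowerSeries σ O) (z : σ → O) (hz : HasEval z) (L : ℕ) :
    HasSum (fun d : σ →₀ ℕ => (coeff d F - (truncTotal L F).coeff d) * d.prod fun s e => z s ^ e)
      (eval₂ (RingHom.id O) z F - MvPolynomial.eval z (truncTotal L F)) := by
  have h1 := hasSum_eval₂ (φ := RingHom.id O) continuous_idO hz F
  have h2 := hasSum_eval₂ (φ := RingHom.id O) continuous_idO hz
    (truncTotal L F : MvPowerSeries σ O)
  rw [eval₂_coe] at h2
  have h3 := h1.sub h2
  have e : (fun d : σ →₀ ℕ => (coeff d F - (truncTotal L F).coeff d) *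
      d.prod fun s e => z s ^ e) = fun d : σ →₀ ℕ =>
      (RingHom.id O) (coeff d F) * (d.prod fun s e => z s ^ e) -
      (RingHom.id O) (coeff d (truncTotal L F : MvPowerSeries σ O)) *
        (d.prod fun s e => z s ^ e) := by
    funext d
    rw [RingHom.id_apply, RingHom.id_apply, MvPolynomial.coeff_coe, sub_mul]
  rw [e]
  exact h3

theorem asn_eval_nilp (F : MvPowerSeries σ O) (z : σ → O) (hz : HasEval z) (L : ℕ)
    (h : ∀ d : σ →₀ ℕ, L ≤ d.degree → (d.prod fun s e => z s ^ e) = 0) :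
    eval₂ (RingHom.id O) z F = MvPolynomial.eval z (truncTotal L F) := by
  have h1 := asn_hasSum_sub F z hz L
  have e : (fun d : σ →₀ ℕ => (coeff d F - (truncTotal L F).coeff d) *
      d.prod fun s e => z s ^ e) = fun _ => 0 := by
    funext d
    rw [coeff_truncTotal_eq_ite]
    split_ifs with hd
    · rw [sub_self, zero_mul]
    · rw [h d (not_lt.1 hd), mul_zero]
  rw [e] at h1
  exact sub_eq_zero.1 (h1.unique hasSum_zero)

end generic

theorem asn_map_eval {R S σ : Type*} [CommSemiring R] [CommSemiring S] (φ : R →+* S) (z : σ → R)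
    (P : MvPolynomial σ R) :
    φ (MvPolynomial.eval z P) = MvPolynomial.eval (fun i => φ (z i)) (MvPolynomial.map φ P) := by
  have h := MvPolynomial.eval₂_comp_left φ (RingHom.id R) z P
  rw [MvPolynomial.eval_map]
  exact h

theorem asn_trunc_map {R S σ : Type*} [CommRing R] [CommRing S] [Finite σ] (φ : R →+* S)
    (F : MvPowerSeries σ R) (L : ℕ) :
    truncTotal L (F.map φ) = MvPolynomial.map φ (truncTotal L F) := by
  ext d
  rw [MvPolynomial.coeff_map, coeff_truncTotal_eq_ite, coeff_truncTotal_eq_ite, coeff_map]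
  split_ifs
  · rfl
  · exact (map_zero φ).symm

section

variable {K : Type*} [NormedField K] [IsUltrametricDist K]

/-- `limsup ‖x_M‖^(1/q^M) ≤ s`. -/
def Bd (q : ℕ) (s : ℝ) (x : ℕ → K) : Prop := ∀ t : ℝ, s < t → ∀ᶠ M : ℕ in atTop, ‖x M‖ ≤ t ^ (q ^ M)

theorem Bd.mono {q : ℕ} {s t : ℝ} {x : ℕ → K} (hx : Bd q s x) (hst : s ≤ t) : Bd q t x :=
  fun u hu => hx u (hst.trans_lt hu)

theorem Bd.add {q : ℕ} {s : ℝ} (hs : 0 ≤ s) {x y : ℕ → K} (hx : Bd q s x) (hy : Bd q s y) :
    Bd q s (fun M => x M + y M) := by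
  intro t ht
  filter_upwards [hx t ht, hy t ht] with M h1 h2
  exact (IsUltrametricDist.norm_add_le_max _ _).trans (max_le h1 h2)

theorem asn_exists_mul {s t u : ℝ} (hu : s * t < u) :
    ∃ ε : ℝ, 0 < ε ∧ (s + ε) * (t + ε) < u := by
  have h1 : Tendsto (fun ε : ℝ => (s + ε) * (t + ε)) (𝓝[>] 0) (𝓝 ((s + 0) * (t + 0))) := by
    have h : Continuous fun ε : ℝ => (s + ε) * (t + ε) := by fun_prop
    exact (h.tendsto 0).mono_left nhdsWithin_le_nhds
  rw [add_zero, add_zero] at h1
  obtain ⟨ε, h2, h3⟩ := ((h1.eventually (gt_mem_nhds hu)).and self_mem_nhdsWithin).exists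
  exact ⟨ε, h3, h2⟩

theorem Bd.mul {q : ℕ} {s t : ℝ} (hs : 0 ≤ s) (ht : 0 ≤ t) {x y : ℕ → K} (hx : Bd q s x)
    (hy : Bd q t y) : Bd q (s * t) (fun M => x M * y M) := by
  intro u hu
  obtain ⟨ε, hε, h⟩ := asn_exists_mul hu
  filter_upwards [hx (s + ε) (by linarith), hy (t + ε) (by linarith)] with M h1 h2
  rw [norm_mul]
  calc ‖x M‖ * ‖y M‖ ≤ (s + ε) ^ (q ^ M) * (t + ε) ^ (q ^ M) :=
        mul_le_mul h1 h2 (norm_nonneg _) (pow_nonneg (by linarith) _)
    _ = ((s + ε) * (t + ε)) ^ (q ^ M) := (mul_pow _ _ _).symm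
    _ ≤ u ^ (q ^ M) := pow_le_pow_left₀ (mul_nonneg (by linarith) (by linarith)) h.le _

theorem Bd.const {q : ℕ} (hq : 2 ≤ q) (c : K) : Bd q 1 (fun _ => c) := by
  intro t ht
  have h1 : Tendsto (fun M : ℕ => t ^ (q ^ M)) atTop atTop :=
    (tendsto_pow_atTop_atTop_of_one_lt ht).comp (tendsto_pow_atTop_atTop_of_one_lt (by omega))
  exact h1.eventually_ge_atTop _

theorem Bd.neg {q : ℕ} {s : ℝ} {x : ℕ → K} (hx : Bd q s x) : Bd q s (fun M => - x M) := by
  intro t ht
  filter_upwards [hx t ht] with M hM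
  simpa using hM

theorem Bd.of_norm_le {q : ℕ} {s : ℝ} {x y : ℕ → K} (hx : Bd q s x)
    (hxy : ∀ᶠ M in atTop, ‖y M‖ ≤ ‖x M‖) : Bd q s y := by
  intro t ht
  filter_upwards [hx t ht, hxy] with M h1 h2
  exact h2.trans h1

/-- `x_M → 0` implies `x_M^(q^M)` is superexponentially small. -/
theorem Bd.zero_of_tendsto {q : ℕ} {x : ℕ → K} (hx : Tendsto x atTop (𝓝 0)) :
    Bd q 0 (fun M => x M ^ (q ^ M)) := by
  intro t ht
  have h1 : Tendsto (fun M => ‖x M‖) atTop (𝓝 0) := by
    have := hx.norm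
    rwa [norm_zero] at this
  filter_upwards [h1.eventually (gt_mem_nhds ht)] with M h2
  rw [norm_pow]
  exact pow_le_pow_left₀ (norm_nonneg _) h2.le _

theorem asn_Bd_pow {q : ℕ} {s : ℝ} (hs : 0 ≤ s) {x : ℕ → K} (hx : Bd q s x) (hq : 2 ≤ q) (L : ℕ) :
    Bd q (s ^ L) (fun M => x M ^ L) := by
  induction L with
  | zero =>
    have h := Bd.const hq (1 : K)
    rw [pow_zero]
    refine h.of_norm_le ?_
    filter_upwards with M
    rw [pow_zero]
  | succ L ih =>
    have h := Bd.mul (pow_nonneg hs L) hs ih hx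
    rw [pow_succ]
    refine h.of_norm_le ?_
    filter_upwards with M
    rw [pow_succ]

/-- The ring of sequences of exponential norm at most `1`. -/
def A1 (K : Type*) [NormedField K] [IsUltrametricDist K] (q : ℕ) [Fact (2 ≤ q)] :
    Subring (ℕ → K) where
  carrier := {x | Bd q 1 x}
  mul_mem' := by
    intro a b ha hb
    have := Bd.mul zero_le_one zero_le_one ha hb
    rw [one_mul] at this
    exact this
  one_mem' := Bd.const Fact.out 1
  add_mem' := fun ha hb => Bd.add zero_le_one ha hb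
  zero_mem' := Bd.const Fact.out 0
  neg_mem' := fun ha => Bd.neg ha

/-- The ideal of sequences of exponential norm at most `r^N`. -/
def JN (K : Type*) [NormedField K] [IsUltrametricDist K] (q : ℕ) [Fact (2 ≤ q)] (r : ℝ)
    (hr : 0 ≤ r) (N : ℕ) : Ideal (A1 K q) where
  carrier := {x | Bd q (r ^ N) (x : ℕ → K)}
  add_mem' := fun ha hb => Bd.add (pow_nonneg hr N) ha hb
  zero_mem' := by
    show Bd q (r ^ N) (fun _ => (0 : K))
    intro t ht
    filter_upwards with M
    rw [norm_zero]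
    exact pow_nonneg ((pow_nonneg hr N).trans ht.le) _
  smul_mem' := by
    intro c x hx
    have := Bd.mul zero_le_one (pow_nonneg hr N) c.2 hx
    rw [one_mul] at this
    exact this

/-- The asymptotic ring, with the discrete topology. -/
def SN (K : Type*) [NormedField K] [IsUltrametricDist K] (q : ℕ) [Fact (2 ≤ q)] (r : ℝ)
    (hr : 0 ≤ r) (N : ℕ) : Type _ := A1 K q ⧸ JN K q r hr N

variable {q : ℕ} [Fact (2 ≤ q)] {r : ℝ} {hr : 0 ≤ r} {N : ℕ}

noncomputable instance : CommRing (SN K q r hr N) :=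
  inferInstanceAs (CommRing (A1 K q ⧸ JN K q r hr N))

instance : UniformSpace (SN K q r hr N) := ⊥

instance : DiscreteTopology (SN K q r hr N) := ⟨rfl⟩

instance : DiscreteUniformity (SN K q r hr N) := ⟨rfl⟩

instance : IsUniformAddGroup (SN K q r hr N) := inferInstance

instance : IsTopologicalRing (SN K q r hr N) := inferInstance

instance : IsLinearTopology (SN K q r hr N) (SN K q r hr N) := inferInstance

instance : T2Space (SN K q r hr N) := inferInstance

instance : CompleteSpace (SN K q r hr N) := inferInstance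

/-- The class of a sequence. -/
noncomputable def mkS : A1 K q →+* SN K q r hr N := Ideal.Quotient.mk (JN K q r hr N)

theorem mkS_eq_zero_iff (x : A1 K q) :
    (mkS x : SN K q r hr N) = 0 ↔ Bd q (r ^ N) (x : ℕ → K) :=
  Ideal.Quotient.eq_zero_iff_mem

/-- Sequences in the unit ball belong to `A1`. -/
noncomputable def clsA : (ℕ → OO K) →+* A1 K q where
  toFun x := ⟨fun M => (x M : K), by
    show Bd q 1 (fun M => (x M : K))
    intro t ht
    filter_upwards with M
    exact (show ‖((x M : OO K) : K)‖ ≤ 1 from (x M).2).trans (one_le_pow₀ ht.le)⟩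
  map_zero' := rfl
  map_one' := rfl
  map_add' _ _ := rfl
  map_mul' _ _ := rfl

/-- The class of a sequence in the unit ball. -/
noncomputable def cls : (ℕ → OO K) →+* SN K q r hr N := mkS.comp clsA

theorem cls_eq_zero_iff (x : ℕ → OO K) :
    (cls x : SN K q r hr N) = 0 ↔ Bd q (r ^ N) (fun M => (x M : K)) :=
  mkS_eq_zero_iff (clsA x)

/-- Constants. -/
noncomputable def constS : K →+* SN K q r hr N :=
  mkS.comp
    { toFun := fun c => (⟨fun _ => c, Bd.const Fact.out c⟩ : A1 K q)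
      map_zero' := rfl
      map_one' := rfl
      map_add' := fun _ _ => rfl
      map_mul' := fun _ _ => rfl }

theorem constS_coe (c : OO K) : (constS (c : K) : SN K q r hr N) = cls (fun _ => c) := rfl

theorem mkS_surjective : Function.Surjective (mkS : A1 K q →+* SN K q r hr N) :=
  Ideal.Quotient.mk_surjective

/-- Characteristic `p`. -/
theorem charP_SN {p : ℕ} [Fact p.Prime] [CharP K p] (x y : SN K q r hr N) (k : ℕ) :
    (x + y) ^ (p ^ k) = x ^ (p ^ k) + y ^ (p ^ k) := by
  obtain ⟨a, rfl⟩ := mkS_surjective x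
  obtain ⟨b, rfl⟩ := mkS_surjective y
  rw [← map_add, ← map_pow, ← map_pow, ← map_pow, ← map_add]
  congr 1
  apply Subtype.ext
  funext M
  show ((a : ℕ → K) M + (b : ℕ → K) M) ^ (p ^ k) = (a : ℕ → K) M ^ (p ^ k) + (b : ℕ → K) M ^ (p ^ k)
  exact add_pow_char_pow _ _ _ _

/-- Sequences with `Bd s`, `s < 1`, have nilpotent class (`r > 0`). -/
theorem mkS_nilpotent (hr0 : 0 < r) (x : A1 K q) {s : ℝ} (hs : s < 1)
    (hx : Bd q s (x : ℕ → K)) : IsNilpotent (mkS x : SN K q r hr N) := by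
  obtain ⟨L, hL⟩ := exists_pow_lt_of_lt_one (pow_pos hr0 N) (max_lt hs zero_lt_one)
  refine ⟨L, ?_⟩
  rw [← map_pow, mkS_eq_zero_iff]
  exact (asn_Bd_pow (le_max_right s 0) (hx.mono (le_max_left s 0)) Fact.out L).mono hL.le

theorem asn_exists_pow {s t : ℝ} (hs : s < 1) (L : ℕ) (h : s ^ L < t) :
    ∃ u : ℝ, s < u ∧ u < 1 ∧ u ^ L < t := by
  have h1 : Tendsto (fun u : ℝ => u ^ L) (𝓝[>] s) (𝓝 (s ^ L)) := by
    have h : Continuous fun u : ℝ => u ^ L := by fun_prop
    exact (h.tendsto s).mono_left nhdsWithin_le_nhds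
  have h2 : ∀ᶠ u in 𝓝[>] s, u < 1 := nhdsWithin_le_nhds (gt_mem_nhds hs)
  obtain ⟨u, ⟨h3, h4⟩, h5⟩ :=
    (((h1.eventually (gt_mem_nhds h)).and h2).and self_mem_nhdsWithin).exists
  exact ⟨u, h5, h4, h3⟩

theorem asn_norm_prod {σ : Type*} (z : σ → OO K) {ρ : ℝ} (hz : ∀ i, ‖(z i : K)‖ ≤ ρ)
    (d : σ →₀ ℕ) : ‖((d.prod fun s e => z s ^ e : OO K) : K)‖ ≤ ρ ^ d.degree := by
  rw [Finsupp.degree_apply, Finsupp.prod, ← Finset.prod_pow_eq_pow_sum]
  have e : ((∏ i ∈ d.support, z i ^ d i : OO K) : K) = ∏ i ∈ d.support, (z i : K) ^ d i := by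
    rw [← Subring.coe_subtype, map_prod]
    simp
  rw [e, norm_prod]
  refine Finset.prod_le_prod (fun i _ => norm_nonneg _) fun i _ => ?_
  rw [norm_pow]
  exact pow_le_pow_left₀ (norm_nonneg _) (hz i) _

theorem asn_norm_sub [CompleteSpace K] {σ : Type*} [Finite σ] (F : MvPowerSeries σ (OO K))
    (z : σ → OO K) {ρ : ℝ} (h0 : 0 ≤ ρ) (h1 : ρ < 1) (hz : ∀ i, ‖(z i : K)‖ ≤ ρ) (L : ℕ) :
    ‖((eval₂ (RingHom.id (OO K)) z F - MvPolynomial.eval z (truncTotal L F) : OO K) : K)‖ ≤
      ρ ^ L := by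
  have he : HasEval z := hasEval_of_finite fun i => (tn_OO _).2 ((hz i).trans_lt h1)
  have h := asn_hasSum_sub F z he L
  have h2 := h.map (OO K).subtype.toAddMonoidHom continuous_subtype_val
  have h3 := h2.tsum_eq
  have h4 : ‖(OO K).subtype.toAddMonoidHom
      (eval₂ (RingHom.id (OO K)) z F - MvPolynomial.eval z (truncTotal L F))‖ ≤ ρ ^ L := by
    rw [← h3]
    refine IsUltrametricDist.norm_tsum_le_of_forall_le_of_nonneg (pow_nonneg h0 L) fun d => ?_
    show ‖(((coeff d F - (truncTotal L F).coeff d) * (d.prod fun s e => z s ^ e) : OO K) : K)‖ ≤ _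
    rw [coeff_truncTotal_eq_ite]
    split_ifs with hd
    · rw [sub_self, zero_mul]
      show ‖(0 : K)‖ ≤ _
      rw [norm_zero]
      exact pow_nonneg h0 L
    · have e : (((coeff d F - 0) * (d.prod fun s e => z s ^ e) : OO K) : K) =
          ((coeff d F - 0 : OO K) : K) * ((d.prod fun s e => z s ^ e : OO K) : K) := rfl
      rw [e, norm_mul]
      calc ‖((coeff d F - 0 : OO K) : K)‖ * ‖((d.prod fun s e => z s ^ e : OO K) : K)‖
          ≤ 1 * ρ ^ d.degree :=
            mul_le_mul (coeff d F - 0).2 (asn_norm_prod z hz d) (norm_nonneg _) zero_le_one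
        _ = ρ ^ d.degree := one_mul _
        _ ≤ ρ ^ L := pow_le_pow_of_le_one h0 h1.le (not_lt.1 hd)
  exact h4

/-- the classes of values, general form -/
theorem asn_cls [CompleteSpace K] {σ : Type*} [Finite σ] (hr0 : 0 < r)
    (f : MvPowerSeries σ (ℕ → OO K)) (z : σ → ℕ → OO K)
    {s : ℝ} (hs : s < 1) (hz : ∀ i, Bd q s (fun M => (z i M : K))) :
    (cls (fun M => eval₂ (RingHom.id (OO K)) (fun i => z i M)
      (f.map (Pi.evalRingHom (fun _ => OO K) M))) : SN K q r hr N) =
      eval₂ (RingHom.id (SN K q r hr N)) (fun i => cls (z i)) (f.map cls) := by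
  obtain ⟨L, hL⟩ := exists_pow_lt_of_lt_one (pow_pos hr0 N) (max_lt hs zero_lt_one)
  have hbd : ∀ t : ℝ, r ^ N < t → ∃ u : ℝ, 0 ≤ u ∧ u < 1 ∧ u ^ L < t ∧
      ∀ᶠ M in atTop, ∀ i, ‖(z i M : K)‖ ≤ u ^ (q ^ M) := by
    intro t ht
    obtain ⟨u, h1, h2, h3⟩ := asn_exists_pow (max_lt hs zero_lt_one) L (hL.trans ht)
    refine ⟨u, (le_max_right s 0).trans h1.le, h2, h3, ?_⟩
    rw [Filter.eventually_all]
    intro i
    exact hz i u ((le_max_left s 0).trans_lt h1)
  have hnil : ∀ i, IsNilpotent (cls (z i) : SN K q r hr N) := fun i =>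
    mkS_nilpotent hr0 (clsA (z i)) hs (hz i)
  have he : HasEval (fun i => (cls (z i) : SN K q r hr N)) :=
    hasEval_of_finite fun i => (hnil i).isTopologicallyNilpotent
  rw [asn_eval_nilp _ _ he L, asn_trunc_map, ← asn_map_eval cls z, ← sub_eq_zero, ← map_sub,
    cls_eq_zero_iff]
  · intro t ht
    obtain ⟨u, h1, h2, h3, h4⟩ := hbd t ht
    filter_upwards [h4] with M hM
    have hq1 : q ^ M ≠ 0 := pow_ne_zero _ (by
      have : 2 ≤ q := Fact.out
      omega)
    have h5 := asn_norm_sub (f.map (Pi.evalRingHom (fun _ => OO K) M)) (fun i => z i M)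
      (pow_nonneg h1 (q ^ M)) (pow_lt_one₀ h1 h2 hq1) hM L
    have e : MvPolynomial.eval (fun i => z i M)
        (truncTotal L (f.map (Pi.evalRingHom (fun _ => OO K) M))) =
        (MvPolynomial.eval z (truncTotal L f)) M := by
      rw [asn_trunc_map]
      exact (asn_map_eval (Pi.evalRingHom (fun _ => OO K) M) z (truncTotal L f)).symm
    rw [e] at h5
    refine h5.trans ?_
    rw [← pow_mul, mul_comm, pow_mul]
    exact pow_le_pow_left₀ (pow_nonneg h1 L) h3.le _
  · intro d hd
    have e : (d.prod fun s e => (cls (z s) : SN K q r hr N) ^ e) =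
        cls (d.prod fun s e => z s ^ e) := by
      rw [map_finsuppProd]
      simp
    rw [e, cls_eq_zero_iff]
    intro t ht
    obtain ⟨u, h1, h2, h3, h4⟩ := hbd t ht
    filter_upwards [h4] with M hM
    have e2 : (d.prod fun s e => z s ^ e) M = d.prod fun s e => z s M ^ e := by
      have := map_finsuppProd (Pi.evalRingHom (fun _ : ℕ => OO K) M) d (fun s e => z s ^ e)
      exact this
    rw [e2]
    refine (asn_norm_prod (fun i => z i M) hM d).trans ?_
    calc (u ^ (q ^ M)) ^ d.degree ≤ (u ^ (q ^ M)) ^ L :=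
          pow_le_pow_of_le_one (pow_nonneg h1 _) (pow_le_one₀ h1 h2.le) hd
      _ = (u ^ L) ^ (q ^ M) := by rw [← pow_mul, mul_comm, pow_mul]
      _ ≤ t ^ (q ^ M) := pow_le_pow_left₀ (pow_nonneg h1 L) h3.le _

/-- EVC (one variable): classes of actual values are values at the class, for series with
coefficients depending on `M`. -/
theorem cls_ev1 [CompleteSpace K] (hr0 : 0 < r) (f : PowerSeries (ℕ → OO K)) (z : ℕ → OO K)
    {s : ℝ} (hs : s < 1) (hz : Bd q s (fun M => (z M : K))) :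
    (cls (fun M => ev1 (f.map (Pi.evalRingHom (fun _ => OO K) M)) (z M)) : SN K q r hr N) =
      ev1 (f.map cls) (cls z) :=
  asn_cls (σ := Unit) hr0 f (fun _ => z) hs (fun _ => hz)

/-- EVC (several variables). -/
theorem cls_evm [CompleteSpace K] (hr0 : 0 < r) {m : ℕ} (f : MvPowerSeries (Fin m) (ℕ → OO K))
    (z : Fin m → ℕ → OO K) {s : ℝ} (hs : s < 1) (hz : ∀ i, Bd q s (fun M => (z i M : K))) :
    (cls (fun M => evm (f.map (Pi.evalRingHom (fun _ => OO K) M)) (fun i => z i M)) :
      SN K q r hr N) = evm (f.map cls) (fun i => cls (z i)) :=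
  asn_cls hr0 f z hs hz

/-- TRUNC: for series over `K` and arguments of exponential norm `≤ r`, the value in `SN` is the
class of the values of the truncation. -/
theorem evm_constS {m : ℕ} (G : MvPowerSeries (Fin m) K) (z : Fin m → ℕ → OO K)
    (hr1 : r < 1) (hz : ∀ i, Bd q r (fun M => (z i M : K))) :
    ∃ h : Bd q 1 (fun M => MvPolynomial.eval (fun i => (z i M : K)) (truncTotal N G)),
      evm (G.map constS) (fun i => (cls (z i) : SN K q r hr N)) =
        mkS (⟨fun M => MvPolynomial.eval (fun i => (z i M : K)) (truncTotal N G), h⟩ : A1 K q) := by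
  obtain ⟨cA, hcA⟩ : ∃ cA : K →+* A1 K q, cA =
    { toFun := fun c => (⟨fun _ => c, Bd.const Fact.out c⟩ : A1 K q)
      map_zero' := rfl
      map_one' := rfl
      map_add' := fun _ _ => rfl
      map_mul' := fun _ _ => rfl } := ⟨_, rfl⟩
  have hconst : (constS : K →+* SN K q r hr N) = mkS.comp cA := by
    rw [hcA]
    rfl
  have hnilN : ∀ i, (cls (z i) : SN K q r hr N) ^ N = 0 := by
    intro i
    rw [← map_pow, cls_eq_zero_iff]
    exact asn_Bd_pow hr (hz i) Fact.out N
  have he : HasEval (fun i => (cls (z i) : SN K q r hr N)) :=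
    hasEval_of_finite fun i => IsNilpotent.isTopologicallyNilpotent ⟨N, hnilN i⟩
  have hval : evm (G.map constS) (fun i => (cls (z i) : SN K q r hr N)) =
      mkS (MvPolynomial.eval (fun i => clsA (z i)) (MvPolynomial.map cA (truncTotal N G))) := by
    unfold evm
    rw [asn_eval_nilp _ _ he N, asn_trunc_map, asn_map_eval (mkS : A1 K q →+* SN K q r hr N),
      MvPolynomial.map_map, hconst]
    · rfl
    · intro d hd
      have e : (d.prod fun s e => (cls (z s) : SN K q r hr N) ^ e) =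
          cls (d.prod fun s e => z s ^ e) := by
        rw [map_finsuppProd]
        simp
      rw [e, cls_eq_zero_iff]
      intro t ht
      obtain ⟨u, h1, h2, h3⟩ := asn_exists_pow hr1 N ht
      have h4 : ∀ᶠ M in atTop, ∀ i, ‖(z i M : K)‖ ≤ u ^ (q ^ M) := by
        rw [Filter.eventually_all]
        intro i
        exact hz i u h1
      have hu0 : 0 ≤ u := hr.trans h1.le
      filter_upwards [h4] with M hM
      have e2 : (d.prod fun s e => z s ^ e) M = d.prod fun s e => z s M ^ e := by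
        have := map_finsuppProd (Pi.evalRingHom (fun _ : ℕ => OO K) M) d (fun s e => z s ^ e)
        exact this
      rw [e2]
      refine (asn_norm_prod (fun i => z i M) hM d).trans ?_
      calc (u ^ (q ^ M)) ^ d.degree ≤ (u ^ (q ^ M)) ^ N :=
            pow_le_pow_of_le_one (pow_nonneg hu0 _) (pow_le_one₀ hu0 h2.le) hd
        _ = (u ^ N) ^ (q ^ M) := by rw [← pow_mul, mul_comm, pow_mul]
        _ ≤ t ^ (q ^ M) := pow_le_pow_left₀ (pow_nonneg hu0 N) h3.le _
  have hfun : ∀ M, ((MvPolynomial.eval (fun i => clsA (z i))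
      (MvPolynomial.map cA (truncTotal N G)) : A1 K q) : ℕ → K) M =
      MvPolynomial.eval (fun i => (z i M : K)) (truncTotal N G) := by
    intro M
    have h := asn_map_eval ((Pi.evalRingHom (fun _ : ℕ => K) M).comp (A1 K q).subtype)
      (fun i => clsA (z i)) (MvPolynomial.map cA (truncTotal N G))
    rw [MvPolynomial.map_map] at h
    have e : ((Pi.evalRingHom (fun _ : ℕ => K) M).comp (A1 K q).subtype).comp cA =
        RingHom.id K := by
      rw [hcA]
      rfl
    rw [e, MvPolynomial.map_id] at h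
    exact h
  have hfun' : ((MvPolynomial.eval (fun i => clsA (z i))
      (MvPolynomial.map cA (truncTotal N G)) : A1 K q) : ℕ → K) =
      fun M => MvPolynomial.eval (fun i => (z i M : K)) (truncTotal N G) := funext hfun
  refine ⟨by rw [← hfun']; exact (MvPolynomial.eval (fun i => clsA (z i))
      (MvPolynomial.map cA (truncTotal N G)) : A1 K q).2, ?_⟩
  rw [hval]
  congr 1
  exact Subtype.ext hfun'

end

end Vale.Agent.P217
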