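import Vale.Agent.P217.Proj
import Vale.Agent.P217.USeries
import Vale.Agent.P217.PtsB

/-!
# P217: the map `pr : Γ_n(m_K) → F_v(O)` (modules SH1 ... SH4)

`E = FPt p n (Gam n : ℕ → OO K)`. For `x ∈ E` the sequence `((x^(p^(-nN)))^♯)_N` is coherent and
`prS x` is its limit `lim [p^N] (x^(p^(-nN)))^♯`.
-/

set_option linter.unusedSectionVars false

namespace Vale.Agent.P217

open MvPowerSeries Filter Topology

variable {p n : ℕ} [Fact p.Prime]
variable {K L : Type*} [NormedField K] [NormedField L] [IsUltrametricDist K] [IsUltrametricDist L]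
  [CharP K p] [PerfectRing K p] [CompleteSpace K] [CompleteSpace L]

theorem symm_iter_pow (p : ℕ) [Fact p.Prime] [CharP K p] [PerfectRing K p] (k : ℕ) (x : K) :
    ((frobeniusEquiv K p).symm^[k] x) ^ (p ^ k) = x := by
  induction k generalizing x with
  | zero => simp
  | succ k ih =>
    rw [Function.iterate_succ_apply', pow_succ', pow_mul, frobeniusEquiv_symm_pow_p, ih]

theorem norm_symm_iter_pow (p : ℕ) [Fact p.Prime] [CharP K p] [PerfectRing K p] (k : ℕ) (x : K) :
    ‖((frobeniusEquiv K p).symm^[k] x)‖ ^ (p ^ k) = ‖x‖ := by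
  rw [← norm_pow, symm_iter_pow]

/-- `p^k`-th roots in the unit ball. -/
noncomputable def rt (p : ℕ) [Fact p.Prime] [CharP K p] [PerfectRing K p] (k : ℕ) (x : OO K) :
    OO K :=
  ⟨(frobeniusEquiv K p).symm^[k] (x : K), by
    show ‖(frobeniusEquiv K p).symm^[k] (x : K)‖ ≤ 1
    by_contra h
    push Not at h
    have h1 := norm_symm_iter_pow p k (x : K)
    have h2 : ‖(x : K)‖ ≤ 1 := x.2
    have h3 := one_lt_pow₀ h (pow_ne_zero k (Fact.out : p.Prime).ne_zero)
    linarith⟩

theorem rt_pow (k : ℕ) (x : OO K) : rt p k x ^ (p ^ k) = x :=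
  Subtype.ext (symm_iter_pow p k (x : K))

theorem rt_add (j k : ℕ) (x : OO K) : rt p j (rt p k x) = rt p (j + k) x := by
  apply Subtype.ext
  show (frobeniusEquiv K p).symm^[j] ((frobeniusEquiv K p).symm^[k] (x : K)) =
    (frobeniusEquiv K p).symm^[j + k] (x : K)
  rw [Function.iterate_add_apply]

theorem rt_unique (k : ℕ) (x y : OO K) (h : y ^ (p ^ k) = x) : y = rt p k x := by
  have h1 : y ^ (p ^ k) = rt p k x ^ (p ^ k) := by rw [h, rt_pow]
  exact iterateFrobenius_inj (OO K) p k (by simpa [iterateFrobenius_def] using h1)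

theorem rt_tn (k : ℕ) {x : OO K} (hx : IsTopologicallyNilpotent x) :
    IsTopologicallyNilpotent (rt p k x) := by
  rw [tn_iff_norm_lt_one] at hx ⊢
  by_contra h
  push Not at h
  have h1 : ‖((rt p k x : OO K) : K)‖ ^ (p ^ k) = ‖(x : K)‖ := norm_symm_iter_pow p k (x : K)
  have h3 := one_le_pow₀ h (n := p ^ k)
  linarith

/-- `♯` on the unit balls. -/
noncomputable def shO (S : SharpData p K L) : OO K →*₀ OO L where
  toFun x := ⟨S.sharp (x : K), by
    show ‖S.sharp (x : K)‖ ≤ 1
    rw [S.norm_sharp]; exact x.2⟩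
  map_zero' := Subtype.ext (by simp)
  map_one' := Subtype.ext (by simp)
  map_mul' x y := Subtype.ext (by simp)

theorem norm_shO (S : SharpData p K L) (x : OO K) : ‖((shO S x : OO L) : L)‖ = ‖(x : K)‖ :=
  S.norm_sharp (x : K)

theorem shO_tn (S : SharpData p K L) {x : OO K} (hx : IsTopologicallyNilpotent x) :
    IsTopologicallyNilpotent (shO S x) := by
  rw [tn_iff_norm_lt_one] at hx ⊢
  rwa [norm_shO]

/-- The identity as sharp data (characteristic `p`). -/
noncomputable def SharpData.refl (p : ℕ) [Fact p.Prime] (K : Type*) [NormedField K] [CharP K p]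
    [PerfectRing K p] : SharpData p K K where
  sharp := MonoidWithZeroHom.id K
  norm_sharp _ := rfl
  add_mod x y _ _ := by simp
  lift z hz := by
    refine ⟨z 0, fun j => ?_⟩
    show (frobeniusEquiv K p).symm^[j] (z 0) = z j
    induction j with
    | zero => rfl
    | succ j ih => rw [Function.iterate_succ_apply', ih, ← hz j, frobeniusEquiv_symm_pow]

/-! ### comparison modulo a neighbourhood of zero -/

section quot

variable {A B Q : Type*} [CommRing A] [UniformSpace A] [IsUniformAddGroup A]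
  [IsTopologicalRing A] [IsLinearTopology A A] [T2Space A] [CompleteSpace A]
  [CommRing B] [UniformSpace B] [IsUniformAddGroup B] [IsTopologicalRing B]
  [IsLinearTopology B B] [T2Space B] [CompleteSpace B] [CommRing Q]

theorem continuous_of_ker_mem_nhds [TopologicalSpace Q] [DiscreteTopology Q] {σ : A →+* Q}
    (hσ : {x | σ x = 0} ∈ 𝓝 (0 : A)) : Continuous σ := by
  refine continuous_of_continuousAt_zero σ ?_
  unfold ContinuousAt
  rw [map_zero, nhds_discrete Q, tendsto_pure]
  exact hσ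

theorem quot_eval {ι : Type*} [Finite ι] {σ : A →+* Q} {μ : B →+* Q}
    (hσ : {x | σ x = 0} ∈ 𝓝 (0 : A)) (hμ : {x | μ x = 0} ∈ 𝓝 (0 : B))
    (F : MvPowerSeries ι A) (G : MvPowerSeries ι B)
    (hFG : F.map σ = G.map μ) {x : ι → A} {y : ι → B}
    (hx : ∀ i, IsTopologicallyNilpotent (x i)) (hy : ∀ i, IsTopologicallyNilpotent (y i))
    (hxy : ∀ i, σ (x i) = μ (y i)) :
    σ (MvPowerSeries.eval₂ (RingHom.id A) x F) = μ (MvPowerSeries.eval₂ (RingHom.id B) y G) := by
  let : UniformSpace Q := ⊥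
  have hd : DiscreteTopology Q := ⟨rfl⟩
  have hu : DiscreteUniformity Q := ⟨rfl⟩
  have hadd : IsUniformAddGroup Q := inferInstance
  have hring : IsTopologicalRing Q := inferInstance
  have h1 := map_eval (continuous_of_ker_mem_nhds hσ) (hasEval_of_finite hx) F
  have h2 := map_eval (continuous_of_ker_mem_nhds hμ) (hasEval_of_finite hy) G
  rw [h1, h2, hFG]
  congr 1
  funext i
  exact hxy i

end quot

theorem ball_mem_nhds (ε : {ε : ℝ // 0 < ε}) :
    ((ballIdeal L ε : Ideal (OO L)) : Set (OO L)) ∈ 𝓝 (0 : OO L) :=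
  (nhds_zero_OO_basis (K := L)).mem_of_mem (i := ε) trivial

/-- The composite of `♯` with the reduction modulo the open ball of radius `ε > ‖p‖` is a ring
homomorphism. -/
noncomputable def shQ (S : SharpData p K L) (ε : {ε : ℝ // 0 < ε}) (hε : ‖(p : L)‖ < ε.1) :
    OO K →+* OO L ⧸ ballIdeal L ε where
  toFun x := Ideal.Quotient.mk _ (shO S x)
  map_zero' := by rw [map_zero, map_zero]
  map_one' := by rw [map_one, map_one]
  map_mul' x y := by rw [map_mul, map_mul]
  map_add' x y := by
    rw [← map_add, Ideal.Quotient.eq]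
    refine lt_of_le_of_lt ?_ hε
    have h := S.add_mod (x : K) (y : K) x.2 y.2
    rw [sub_sub] at h
    exact h

theorem shO_eval_mod (S : SharpData p K L) {ι : Type*} [Finite ι]
    (F : MvPowerSeries ι (OO K)) (G : MvPowerSeries ι (OO L))
    (hFG : ∀ e, ‖((shO S (MvPowerSeries.coeff e F) : OO L) : L) -
      ((MvPowerSeries.coeff e G : OO L) : L)‖ ≤ ‖(p : L)‖)
    {x : ι → OO K} (hx : ∀ i, IsTopologicallyNilpotent (x i)) :
    ‖((shO S (MvPowerSeries.eval₂ (RingHom.id _) x F) : OO L) : L) -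
      ((MvPowerSeries.eval₂ (RingHom.id _) (fun i => shO S (x i)) G : OO L) : L)‖
        ≤ ‖(p : L)‖ := by
  refine le_of_forall_gt fun c hc => ?_
  have hc0 : 0 < c := (norm_nonneg _).trans_lt hc
  have h := quot_eval (σ := shQ S ⟨c, hc0⟩ hc) (μ := Ideal.Quotient.mk (ballIdeal L ⟨c, hc0⟩))
    (F := F) (G := G) (x := x) (y := fun i => shO S (x i)) ?_ ?_ ?_ hx
    (fun i => shO_tn S (hx i)) (fun i => rfl)
  · exact Ideal.Quotient.eq.1 h
  · refine mem_of_superset (ball_mem_nhds (L := K) ⟨c, hc0⟩) fun z hz => ?_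
    show Ideal.Quotient.mk (ballIdeal L ⟨c, hc0⟩) (shO S z) = 0
    rw [Ideal.Quotient.eq_zero_iff_mem]
    show ‖((shO S z : OO L) : L)‖ < c
    rw [norm_shO]
    exact hz
  · refine mem_of_superset (ball_mem_nhds (L := L) ⟨c, hc0⟩) fun z hz => ?_
    exact Ideal.Quotient.eq_zero_iff_mem.2 hz
  · ext e
    rw [MvPowerSeries.coeff_map, MvPowerSeries.coeff_map]
    refine Ideal.Quotient.eq.2 ?_
    exact lt_of_le_of_lt (hFG e) hc

theorem p_dvd_of_norm_le {z : OO L} (hz : ‖(z : L)‖ ≤ ‖(p : L)‖) : ∃ w : OO L, z = p * w := by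
  by_cases hp : (p : L) = 0
  · refine ⟨0, ?_⟩
    rw [hp, norm_zero] at hz
    have : (z : L) = 0 := norm_le_zero_iff.1 hz
    rw [mul_zero]
    exact Subtype.ext this
  · refine ⟨⟨(z : L) / p, ?_⟩, ?_⟩
    · show ‖(z : L) / p‖ ≤ 1
      rw [norm_div]
      exact div_le_one_of_le₀ hz (norm_nonneg _)
    · apply Subtype.ext
      show (z : L) = (p : L) * ((z : L) / p)
      rw [mul_div_cancel₀ _ hp]

section pr

variable {O : Type*} [CommRing O] [UniformSpace O] [IsUniformAddGroup O] [IsTopologicalRing O]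
  [IsLinearTopology O O] [T2Space O] [CompleteSpace O]
variable {v : ℕ → O} {J : Ideal O}

/-- The coherent sequence of `x ∈ E` in `O`. -/
noncomputable def sseq (S : SharpData p K L) (ι : OO L →+* O) (hι : Continuous ι) (v : ℕ → O)
    (x : FPt p n (Gam n : ℕ → OO K)) : ℕ → FPt p n v := fun N =>
  ⟨ι (shO S (rt p (n * N) x.1)), tn_map hι (shO_tn S (rt_tn _ x.2))⟩

theorem sseq_coh (S : SharpData p K L) (ι : OO L →+* O) (hι : Continuous ι)
    (x : FPt p n (Gam n : ℕ → OO K)) : Coh J (sseq S ι hι v x) := by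
  intro N
  have h : (sseq S ι hι v x (N + 1)).1 ^ (p ^ n) = (sseq S ι hι v x N).1 := by
    show (ι (shO S (rt p (n * (N + 1)) x.1))) ^ (p ^ n) = ι (shO S (rt p (n * N) x.1))
    have e : rt p (n * (N + 1)) x.1 = rt p n (rt p (n * N) x.1) := by
      rw [rt_add]
      congr 1
      ring
    rw [← map_pow, ← map_pow, e, rt_pow]
  rw [h, sub_self]
  exact J.zero_mem

/-- `♯` is compatible with `F_{Gam n}` modulo `p`. -/
theorem shO_ev2_mod (S : SharpData p K L) {x y : OO K} (hx : IsTopologicallyNilpotent x)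
    (hy : IsTopologicallyNilpotent y) :
    ‖((shO S (ev2 (Fv p n (Gam n)) x y) : OO L) : L) -
      ((ev2 (Fv p n (Gam n)) (shO S x) (shO S y) : OO L) : L)‖ ≤ ‖(p : L)‖ := by
  refine le_of_forall_gt fun c hc => ?_
  have hc0 : 0 < c := (norm_nonneg _).trans_lt hc
  have h := quot_eval (σ := shQ S ⟨c, hc0⟩ hc) (μ := Ideal.Quotient.mk (ballIdeal L ⟨c, hc0⟩))
    (F := Fv p n (Gam n)) (G := Fv p n (Gam n)) (x := ![x, y]) (y := ![shO S x, shO S y])
    ?_ ?_ ?_ (fun i => by fin_cases i <;> assumption)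
    (fun i => by fin_cases i <;> [exact shO_tn S hx; exact shO_tn S hy])
    (fun i => by fin_cases i <;> rfl)
  · exact Ideal.Quotient.eq.1 h
  · refine mem_of_superset (ball_mem_nhds (L := K) ⟨c, hc0⟩) fun z hz => ?_
    show Ideal.Quotient.mk (ballIdeal L ⟨c, hc0⟩) (shO S z) = 0
    rw [Ideal.Quotient.eq_zero_iff_mem]
    show ‖((shO S z : OO L) : L)‖ < c
    rw [norm_shO]
    exact hz
  · refine mem_of_superset (ball_mem_nhds (L := L) ⟨c, hc0⟩) fun z hz => ?_
    exact Ideal.Quotient.eq_zero_iff_mem.2 hz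
  · rw [Fv_map, Fv_map]
    congr 1
    funext j
    unfold Gam
    split_ifs <;> simp

theorem sseq_add_mod (hJ : Adm p n v J) (S : SharpData p K L) (ι : OO L →+* O)
    (hι : Continuous ι) (x y : FPt p n (Gam n : ℕ → OO K)) (N : ℕ) :
    (sseq S ι hι v (x + y) N).1 - (sseq S ι hι v x N + sseq S ι hι v y N : FPt p n v).1 ∈ J := by
  set a := rt p (n * N) x.1 with ha
  set b := rt p (n * N) y.1 with hb
  have hta : IsTopologicallyNilpotent a := rt_tn _ x.2
  have htb : IsTopologicallyNilpotent b := rt_tn _ y.2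
  have h1 : rt p (n * N) (x + y).1 = ev2 (Fv p n (Gam n)) a b := by
    symm
    refine rt_unique _ _ _ ?_
    have hcont : Continuous (iterateFrobenius (OO K) p (n * N)) := by
      have : (iterateFrobenius (OO K) p (n * N) : OO K → OO K) = fun z => z ^ (p ^ (n * N)) := by
        funext z
        rw [iterateFrobenius_def]
      rw [this]
      exact continuous_pow _
    have h := ev2_map (p := p) (n := n) (v := Gam n) hcont hta htb
    rw [iterateFrobenius_def, iterateFrobenius_def, iterateFrobenius_def, ha, hb, rt_pow,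
      rt_pow] at h
    rw [FPt.add_val, ← ha, ← hb] at *
    rw [h]
    congr 2
    funext j
    rw [iterateFrobenius_def]
    unfold Gam
    split_ifs
    · exact one_pow _
    · exact zero_pow (pow_ne_zero _ (Fact.out : p.Prime).ne_zero)
  obtain ⟨w, hw⟩ := p_dvd_of_norm_le (p := p)
    (z := shO S (ev2 (Fv p n (Gam n)) a b) - ev2 (Fv p n (Gam n)) (shO S a) (shO S b))
    (shO_ev2_mod S hta htb)
  have h2 : ι (shO S (ev2 (Fv p n (Gam n)) a b)) -
      ι (ev2 (Fv p n (Gam n)) (shO S a) (shO S b)) ∈ J := by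
    rw [← map_sub, hw, map_mul, map_natCast]
    exact J.mul_mem_right _ hJ.p_mem
  have h3 : ι (ev2 (Fv p n (Gam n)) (shO S a) (shO S b)) =
      ev2 (Fv p n (Gam n)) (ι (shO S a)) (ι (shO S b)) := by
    rw [ev2_map hι (shO_tn S hta) (shO_tn S htb)]
    congr 2
    funext j
    unfold Gam
    split_ifs <;> simp
  have h4 : ev2 (Fv p n (Gam n)) (ι (shO S a)) (ι (shO S b)) -
      ev2 (Fv p n v) (ι (shO S a)) (ι (shO S b)) ∈ J := by
    refine ev2_sub_mem' _ _ hJ.closed (Fv_coeff_sub_mem fun j h1 h2 => ?_)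
      (tn_map hι (shO_tn S hta)) (tn_map hι (shO_tn S htb))
    unfold Gam
    split_ifs with h
    · rw [h, hJ.v_top, sub_self]
      exact J.zero_mem
    · rw [zero_sub]
      exact J.neg_mem (hJ.v_mem j h1 (lt_of_le_of_ne h2 h))
  have h5 := J.add_mem h2 (h3 ▸ h4)
  rw [sub_add_sub_cancel, ← h1] at h5
  exact h5

/-- The projection `E → F_v(O)`. -/
noncomputable def prS (S : SharpData p K L) (ι : OO L →+* O) (hι : Continuous ι)
    (hJ : Adm p n v J) : FPt p n (Gam n : ℕ → OO K) →+ FPt p n v where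
  toFun x := prj (sseq S ι hι v x)
  map_zero' := by
    refine prj_unique hJ (sseq_coh S ι hι 0) ?_
    have e : (fun N => (p ^ N • sseq S ι hι v (0 : FPt p n (Gam n : ℕ → OO K)) N :
        FPt p n v).1) = fun _ => 0 := by
      funext N
      have h0 : sseq S ι hι v (0 : FPt p n (Gam n : ℕ → OO K)) N = 0 := by
        apply Subtype.ext
        show ι (shO S (rt p (n * N) 0)) = 0
        have : rt p (n * N) (0 : OO K) = 0 :=
          (rt_unique _ _ _ (zero_pow (pow_ne_zero _ (Fact.out : p.Prime).ne_zero))).symm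
        rw [this, map_zero, map_zero]
      rw [h0, smul_zero, FPt.zero_val]
    rw [e]
    exact tendsto_const_nhds
  map_add' x y := by
    rw [(prj_congr hJ (sseq_coh S ι hι (x + y)) (sseq_add_mod hJ S ι hι x y)).2,
      (prj_add hJ (sseq_coh S ι hι x) (sseq_coh S ι hι y)).2]

theorem prS_apply (S : SharpData p K L) (ι : OO L →+* O) (hι : Continuous ι)
    (hJ : Adm p n v J) (x : FPt p n (Gam n : ℕ → OO K)) :
    prS S ι hι hJ x = prj (sseq S ι hι v x) := rfl

theorem prS_tendsto (S : SharpData p K L) (ι : OO L →+* O) (hι : Continuous ι)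
    (hJ : Adm p n v J) (x : FPt p n (Gam n : ℕ → OO K)) :
    Tendsto (fun N => (p ^ N • sseq S ι hι v x N : FPt p n v).1) atTop
      (𝓝 (prS S ι hι hJ x).1) :=
  prj_spec hJ (sseq_coh S ι hι x)

theorem prS_mod (S : SharpData p K L) (ι : OO L →+* O) (hι : Continuous ι)
    (hJ : Adm p n v J) (x : FPt p n (Gam n : ℕ → OO K)) :
    (prS S ι hι hJ x).1 - ι (shO S x.1) ∈ J := by
  have h := prj_sub_zero_mem hJ (sseq_coh S ι hι x)
  have e : (sseq S ι hι v x 0).1 = ι (shO S x.1) := by
    show ι (shO S (rt p (n * 0) x.1)) = _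
    have : rt p (n * 0) x.1 = x.1 := rfl
    rw [this]
  rw [e] at h
  exact h

/-- functoriality in `O` -/
theorem prS_map {O' : Type*} [CommRing O'] [UniformSpace O'] [IsUniformAddGroup O']
    [IsTopologicalRing O'] [IsLinearTopology O' O'] [T2Space O'] [CompleteSpace O']
    {J' : Ideal O'} (S : SharpData p K L) (ι : OO L →+* O) (hι : Continuous ι) (hJ : Adm p n v J)
    (ψ : O →+* O') (hψ : Continuous ψ) (hJ' : Adm p n (fun j => ψ (v j)) J')
    (x : FPt p n (Gam n : ℕ → OO K)) :
    prS S (ψ.comp ι) (hψ.comp hι) hJ' x = FPt.map ψ hψ (prS S ι hι hJ x) :=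
  prj_map hJ ψ hψ hJ' (sseq_coh S ι hι x)
    (sseq_coh S (ψ.comp ι) (hψ.comp hι) (v := fun j => ψ (v j)) x)

end pr

/-! ### The group `E` -/

/-- In `E`: `p • x = x^(p^n)`. -/
theorem E_p_smul (hn : 1 ≤ n) (x : FPt p n (Gam n : ℕ → OO K)) : (p • x).1 = x.1 ^ (p ^ n) := by
  rw [FPt.p_smul_val_US hn le_rfl (fun j _ h2 => by
    unfold Gam
    rw [if_neg (by omega)])]
  have h : US p n n (Gam n : ℕ → OO K) = PowerSeries.X := by
    unfold US
    rw [Nat.sub_self, zero_add]
    show (Fv p n _).subst ![(0 : PowerSeries (OO K)), _] = _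
    have e : (PowerSeries.C ((Gam n : ℕ → OO K) (n + 0)) * PowerSeries.X ^ (p ^ 0) :
        PowerSeries (OO K)) = PowerSeries.X := by
      rw [add_zero, pow_zero, pow_one]
      unfold Gam
      rw [if_pos rfl, map_one, one_mul]
    rw [e]
    exact Fv_zero_X p n _
  rw [h, ev1_X]

theorem E_pow_smul (hn : 1 ≤ n) (N : ℕ) (x : FPt p n (Gam n : ℕ → OO K)) :
    (p ^ N • x).1 = x.1 ^ (p ^ (n * N)) := by
  induction N with
  | zero => simp
  | succ N ih =>
    have e : p ^ (N + 1) • x = p • (p ^ N • x) := by rw [pow_succ', mul_smul]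
    rw [e, E_p_smul hn, ih, ← pow_mul, ← pow_add]
    congr 2

/-- Division by `p^N` in `E`. -/
noncomputable def Ediv (N : ℕ) (x : FPt p n (Gam n : ℕ → OO K)) :
    FPt p n (Gam n : ℕ → OO K) := ⟨rt p (n * N) x.1, rt_tn _ x.2⟩

theorem E_smul_Ediv (hn : 1 ≤ n) (N : ℕ) (x : FPt p n (Gam n : ℕ → OO K)) :
    p ^ N • Ediv N x = x := by
  apply Subtype.ext
  rw [E_pow_smul hn]
  exact rt_pow _ _

/-- Equivariance: if `g : F_v → F_w` reduces modulo `J` to an endomorphism `β` of `Γ_n` with
coefficients in `F_{p^n}`, then `pr_w(β x) = g(pr_v x)`. Here `β : PowerSeries (OO K)` acts on `E`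
and `β'` is its image: `β'_d = ι(♯(β_d))`. -/
theorem prS_equivariant {O : Type*} [CommRing O] [UniformSpace O] [IsUniformAddGroup O]
    [IsTopologicalRing O] [IsLinearTopology O O] [T2Space O] [CompleteSpace O] {v w : ℕ → O}
    {J : Ideal O} (S : SharpData p K L) (ι : OO L →+* O) (hι : Continuous ι)
    (hJ : Adm p n v J) (hJw : Adm p n w J) (β : PowerSeries (OO K))
    (hβ : IsHomS p n (Gam n) (Gam n) β) (hβn : ∀ d, PowerSeries.coeff d β ^ (p ^ n) =
      PowerSeries.coeff d β) (g : PowerSeries O) (hg : IsHomS p n v w g)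
    (hgβ : ∀ d, PowerSeries.coeff d g - ι (shO S (PowerSeries.coeff d β)) ∈ J)
    (x : FPt p n (Gam n : ℕ → OO K)) :
    prS S ι hι hJw (FPt.hom β hβ x) = FPt.hom g hg (prS S ι hι hJ x) := by
  have hmod : ∀ N, (sseq S ι hι w (FPt.hom β hβ x) N).1 -
      (FPt.hom g hg (sseq S ι hι v x N)).1 ∈ J := by
    intro N
    set a := rt p (n * N) x.1 with ha
    have hta : IsTopologicallyNilpotent a := rt_tn _ x.2
    have h1 : rt p (n * N) (FPt.hom β hβ x).1 = ev1 β a := by
      symm
      refine rt_unique _ _ _ ?_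
      have hcont : Continuous (iterateFrobenius (OO K) p (n * N)) := by
        have : (iterateFrobenius (OO K) p (n * N) : OO K → OO K) =
            fun z => z ^ (p ^ (n * N)) := by
          funext z
          rw [iterateFrobenius_def]
        rw [this]
        exact continuous_pow _
      have h := ev1_map hcont β hta
      rw [iterateFrobenius_def, iterateFrobenius_def, ha, rt_pow] at h
      rw [ha, h, FPt.hom_val]
      congr 1
      ext d
      rw [PowerSeries.coeff_map, iterateFrobenius_def]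
      have hk : ∀ N : ℕ, PowerSeries.coeff d β ^ (p ^ (n * N)) = PowerSeries.coeff d β := by
        intro N
        induction N with
        | zero => simp
        | succ N ih => rw [mul_add, mul_one, pow_add, pow_mul, ih, hβn]
      rw [hk]
    set β' : PowerSeries (OO L) := PowerSeries.mk fun d => shO S (PowerSeries.coeff d β) with hβ'
    obtain ⟨z, hz⟩ := p_dvd_of_norm_le (p := p)
      (z := shO S (ev1 β a) - ev1 β' (shO S a)) (by
        refine shO_eval_mod S (ι := Unit) β β' (fun e => ?_) (fun _ => hta)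
        have he : e = Finsupp.single () (e ()) := by
          ext
          simp
        have h6 : MvPowerSeries.coeff e β' = shO S (MvPowerSeries.coeff e β) := by
          rw [he]
          exact PowerSeries.coeff_mk _ _
        rw [h6, sub_self, norm_zero]
        exact norm_nonneg _)
    have h2 : ι (shO S (ev1 β a)) - ι (ev1 β' (shO S a)) ∈ J := by
      rw [← map_sub, hz, map_mul, map_natCast]
      exact J.mul_mem_right _ hJ.p_mem
    have h3 : ι (ev1 β' (shO S a)) = ev1 (β'.map ι) (ι (shO S a)) :=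
      ev1_map hι _ (shO_tn S hta)
    have h4 : ev1 g (ι (shO S a)) - ev1 (β'.map ι) (ι (shO S a)) ∈ J := by
      refine ev1_sub_mem' _ _ hJ.closed (fun d => ?_) (tn_map hι (shO_tn S hta))
      rw [PowerSeries.coeff_map, hβ', PowerSeries.coeff_mk]
      exact hgβ d
    have h5 := J.sub_mem h2 (h3 ▸ h4)
    show ι (shO S (rt p (n * N) (FPt.hom β hβ x).1)) - ev1 g (ι (shO S a)) ∈ J
    rw [h1]
    rw [h3] at h5
    convert h5 using 1
    ring
  have h := prj_congr hJw (sseq_coh S ι hι (FPt.hom β hβ x)) hmod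
  rw [prS_apply, h.2, prS_apply]
  exact prj_hom hJ hJw (sseq_coh S ι hι x) g hg h.1

end Vale.Agent.P217
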