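import Mathlib

/-!
# P217, part E: the tilt of a complete algebraically closed field of mixed characteristic
-/

set_option linter.unusedSectionVars false

namespace Vale.Agent.P217

open Filter Topology

/-- The tilt of `C`: sequences `(x_n)` in `C` with `x_{n+1} ^ p = x_n`. -/
def Tilt (p : ℕ) (C : Type*) [Monoid C] : Type _ := {f : ℕ → C // ∀ n, f (n + 1) ^ p = f n}

namespace Tilt

section basic

variable {p : ℕ} {C : Type*}

instance [Monoid C] : CoeFun (Tilt p C) fun _ => ℕ → C := ⟨Subtype.val⟩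

theorem pow_succ' [Monoid C] (x : Tilt p C) (n : ℕ) : x (n + 1) ^ p = x n := x.2 n

theorem pow_add' [Monoid C] (x : Tilt p C) (n m : ℕ) : x (n + m) ^ p ^ m = x n := by
  induction m with
  | zero => simp
  | succ m ih =>
    rw [pow_succ, mul_comm, pow_mul, ← add_assoc, pow_succ', ih]

@[ext] theorem ext [Monoid C] {x y : Tilt p C} (h : ∀ n, x n = y n) : x = y :=
  Subtype.ext (funext h)

end basic

section pow

variable {p : ℕ} [hp : Fact p.Prime] {C : Type*} [NormedField C] [IsUltrametricDist C]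

omit hp in
theorem norm_nat_le (n : ℕ) : ‖(n : C)‖ ≤ 1 := IsUltrametricDist.norm_natCast_le_one C n

omit hp in
theorem norm_of_dvd {n : ℕ} (h : p ∣ n) : ‖(n : C)‖ ≤ ‖(p : C)‖ := by
  obtain ⟨m, rfl⟩ := h
  rw [Nat.cast_mul, norm_mul]
  exact mul_le_of_le_one_right (norm_nonneg _) (norm_nat_le m)

/-- `(a + b)^p - a^p - b^p` is small -/
theorem norm_add_pow_sub (a b : C) {M D : ℝ} (ha : ‖a‖ ≤ M) (hb : ‖b‖ ≤ D) (hDM : D ≤ M) :
    ‖(a + b) ^ p - (a ^ p + b ^ p)‖ ≤ ‖(p : C)‖ * D * M ^ (p - 1) := by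
  have hD : 0 ≤ D := (norm_nonneg b).trans hb
  have hM : 0 ≤ M := (norm_nonneg a).trans ha
  obtain ⟨r, hr⟩ : ∃ r, p = r + 1 := ⟨p - 1, (Nat.succ_pred_prime hp.out).symm⟩
  have h1 : (a + b) ^ p - (a ^ p + b ^ p) =
      ∑ i ∈ Finset.range r, a ^ (i + 1) * b ^ (p - (i + 1)) * (p.choose (i + 1) : C) := by
    rw [add_pow, Finset.sum_range_succ, Nat.sub_self, Nat.choose_self, hr,
      Finset.sum_range_succ']
    simp
    ring
  rw [h1]
  refine IsUltrametricDist.norm_sum_le_of_forall_le_of_nonneg (by positivity) fun i hi => ?_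
  rw [Finset.mem_range] at hi
  have h2 : ‖((p.choose (i + 1) : ℕ) : C)‖ ≤ ‖(p : C)‖ :=
    norm_of_dvd (hp.out.dvd_choose_self (by omega) (by omega))
  rw [norm_mul, norm_mul, norm_pow, norm_pow]
  have h3 : ‖b‖ ^ (p - (i + 1)) ≤ D * M ^ (p - (i + 1) - 1) := by
    have e : p - (i + 1) = (p - (i + 1) - 1) + 1 := by omega
    rw [e, pow_succ, Nat.add_sub_cancel, mul_comm D]
    exact mul_le_mul (pow_le_pow_left₀ (norm_nonneg _) (hb.trans hDM) _) hb (norm_nonneg _)
      (by positivity)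
  have h4 : ‖a‖ ^ (i + 1) ≤ M ^ (i + 1) := pow_le_pow_left₀ (norm_nonneg _) ha _
  calc ‖a‖ ^ (i + 1) * ‖b‖ ^ (p - (i + 1)) * ‖((p.choose (i + 1) : ℕ) : C)‖
      ≤ M ^ (i + 1) * (D * M ^ (p - (i + 1) - 1)) * ‖(p : C)‖ := by gcongr
    _ = ‖(p : C)‖ * D * (M ^ (i + 1) * M ^ (p - (i + 1) - 1)) := by ring
    _ = ‖(p : C)‖ * D * M ^ (p - 1) := by
        rw [← pow_add]
        congr 2
        omega

theorem norm_pow_sub_pow {a b : C} {M δ lam : ℝ} (ha : ‖a‖ ≤ M) (hb : ‖b‖ ≤ M)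
    (hδ : 0 ≤ δ) (hδl : δ ≤ lam) (hpl : ‖(p : C)‖ ≤ lam) (hl : lam ≤ 1)
    (hab : ‖a - b‖ ≤ δ * M) : ‖a ^ p - b ^ p‖ ≤ lam * δ * M ^ p := by
  have hM : 0 ≤ M := (norm_nonneg a).trans ha
  have hp2 := hp.out.two_le
  have hMp : M ^ p = M * M ^ (p - 1) := by
    rw [← _root_.pow_succ', Nat.sub_add_cancel hp.out.one_le]
  have h1 := norm_add_pow_sub (p := p) b (a - b) hb hab
    (mul_le_of_le_one_left hM (hδl.trans hl))
  rw [add_sub_cancel] at h1
  have h2 : a ^ p - b ^ p = (a ^ p - (b ^ p + (a - b) ^ p)) + (a - b) ^ p := by ring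
  rw [h2]
  refine (IsUltrametricDist.norm_add_le_max _ _).trans (max_le ?_ ?_)
  · refine h1.trans ?_
    calc ‖(p : C)‖ * (δ * M) * M ^ (p - 1) = ‖(p : C)‖ * δ * M ^ p := by rw [hMp]; ring
      _ ≤ lam * δ * M ^ p := by gcongr
  · rw [norm_pow]
    calc ‖a - b‖ ^ p ≤ (δ * M) ^ p := pow_le_pow_left₀ (norm_nonneg _) hab _
      _ = δ ^ (p - 1) * δ * M ^ p := by
          rw [mul_pow, ← pow_succ, Nat.sub_add_cancel hp.out.one_le]
      _ ≤ lam * δ * M ^ p := by
          have h3 : δ ^ (p - 1) ≤ lam := by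
            refine (pow_le_of_le_one hδ (hδl.trans hl) (by omega)).trans hδl
          gcongr

theorem norm_pow_pow_sub {a b : C} {M δ lam : ℝ} (ha : ‖a‖ ≤ M) (hb : ‖b‖ ≤ M)
    (hδ : 0 ≤ δ) (hδl : δ ≤ lam) (hpl : ‖(p : C)‖ ≤ lam) (hl : lam ≤ 1)
    (hab : ‖a - b‖ ≤ δ * M) (m : ℕ) :
    ‖a ^ p ^ m - b ^ p ^ m‖ ≤ lam ^ m * δ * M ^ p ^ m := by
  have hlam : 0 ≤ lam := hδ.trans hδl
  induction m with
  | zero => simpa using hab
  | succ m ih =>
    have hM : 0 ≤ M := (norm_nonneg a).trans ha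
    have h1 : ‖a ^ p ^ m‖ ≤ M ^ p ^ m := by
      rw [norm_pow]; exact pow_le_pow_left₀ (norm_nonneg _) ha _
    have h2 : ‖b ^ p ^ m‖ ≤ M ^ p ^ m := by
      rw [norm_pow]; exact pow_le_pow_left₀ (norm_nonneg _) hb _
    have h3 : lam ^ m * δ ≤ lam :=
      (mul_le_of_le_one_left hδ (pow_le_one₀ hlam hl)).trans hδl
    have h4 := norm_pow_sub_pow h1 h2 (mul_nonneg (pow_nonneg hlam m) hδ) h3 hpl hl ih
    rw [pow_succ, pow_mul, pow_mul, pow_mul, pow_succ lam]
    calc ‖(a ^ p ^ m) ^ p - (b ^ p ^ m) ^ p‖ ≤ lam * (lam ^ m * δ) * (M ^ p ^ m) ^ p := h4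
      _ = lam ^ m * lam * δ * (M ^ p ^ m) ^ p := by ring

end pow

section close

variable {p : ℕ} [hp : Fact p.Prime] {C : Type*} [NormedField C] [IsUltrametricDist C]

/-- bounds which are compatible with the structure of the tilt -/
def Bd (p : ℕ) (M : ℕ → ℝ) : Prop := (∀ n, 0 ≤ M n) ∧ ∀ n, M (n + 1) ^ p = M n

theorem Bd.pow {M : ℕ → ℝ} (h : Bd p M) (n m : ℕ) : M (n + m) ^ p ^ m = M n := by
  induction m with
  | zero => simp
  | succ m ih => rw [_root_.pow_succ, mul_comm, pow_mul, ← add_assoc, h.2, ih]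

theorem bd_norm (x : Tilt p C) : Bd p fun n => ‖x n‖ :=
  ⟨fun _ => norm_nonneg _, fun n => by
    show ‖x (n + 1)‖ ^ p = ‖x n‖
    rw [← norm_pow, pow_succ']⟩

theorem Bd.max {M N : ℕ → ℝ} (h : Bd p M) (h' : Bd p N) : Bd p fun n => max (M n) (N n) := by
  refine ⟨fun n => le_max_of_le_left (h.1 n), fun n => ?_⟩
  show (Max.max (M (n + 1)) (N (n + 1))) ^ p = Max.max (M n) (N n)
  rw [← h.2 n, ← h'.2 n]
  rcases le_total (M (n + 1)) (N (n + 1)) with h1 | h1
  · rw [max_eq_right h1, max_eq_right (pow_le_pow_left₀ (h.1 _) h1 p)]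
  · rw [max_eq_left h1, max_eq_left (pow_le_pow_left₀ (h'.1 _) h1 p)]

theorem Bd.mul {M N : ℕ → ℝ} (h : Bd p M) (h' : Bd p N) : Bd p fun n => M n * N n :=
  ⟨fun n => mul_nonneg (h.1 n) (h'.1 n), fun n => by
    show (M (n + 1) * N (n + 1)) ^ p = M n * N n
    rw [mul_pow, h.2, h'.2]⟩

theorem bd_one : Bd p fun _ => 1 := ⟨fun _ => zero_le_one, fun _ => one_pow _⟩

/-- elements of the tilt which are close on every level are equal -/
theorem ext_of_close {x y : Tilt p C} {M : ℕ → ℝ} (hM : Bd p M) (hx : ∀ n, ‖x n‖ ≤ M n)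
    (hy : ∀ n, ‖y n‖ ≤ M n) {δ : ℝ} (hδ : 0 ≤ δ) (hδ1 : δ < 1) (hp1 : ‖(p : C)‖ < 1)
    (h : ∀ n, ‖x n - y n‖ ≤ δ * M n) : x = y := by
  ext n
  rw [← sub_eq_zero, ← norm_eq_zero]
  refine le_antisymm ?_ (norm_nonneg _)
  set lam := max δ ‖(p : C)‖ with hlam
  have hl1 : lam < 1 := max_lt hδ1 hp1
  have hl0 : 0 ≤ lam := hδ.trans (le_max_left _ _)
  have h1 : ∀ m : ℕ, ‖x n - y n‖ ≤ lam ^ m * (δ * M n) := by
    intro m
    have h2 := norm_pow_pow_sub (hx (n + m)) (hy (n + m)) hδ (le_max_left _ _)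
      (le_max_right _ _) hl1.le (h (n + m)) m
    rw [pow_add', pow_add', hM.pow, mul_assoc] at h2
    exact h2
  have h3 : Tendsto (fun m : ℕ => lam ^ m * (δ * M n)) atTop (𝓝 (0 * (δ * M n))) :=
    (tendsto_pow_atTop_nhds_zero_of_lt_one hl0 hl1).mul_const _
  rw [zero_mul] at h3
  exact ge_of_tendsto' h3 h1

/-- approximately compatible sequences are close to an element of the tilt -/
theorem exists_of_approx [CompleteSpace C] {z : ℕ → C} {M : ℕ → ℝ} (hM : Bd p M)
    (hz : ∀ n, ‖z n‖ ≤ M n) {δ : ℝ} (hδ : 0 ≤ δ) (hδ1 : δ < 1) (hp1 : ‖(p : C)‖ < 1)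
    (h : ∀ n, ‖z (n + 1) ^ p - z n‖ ≤ δ * M n) :
    ∃ x : Tilt p C, (∀ n, ‖x n‖ ≤ M n) ∧ ∀ n, ‖x n - z n‖ ≤ δ * M n := by
  set lam := max δ ‖(p : C)‖ with hlam
  have hl1 : lam < 1 := max_lt hδ1 hp1
  have hl0 : 0 ≤ lam := hδ.trans (le_max_left _ _)
  have h1 : ∀ n m : ℕ, ‖z (n + (m + 1)) ^ p ^ (m + 1) - z (n + m) ^ p ^ m‖ ≤
      δ * M n * lam ^ m := by
    intro n m
    have h2 := norm_pow_pow_sub (a := z (n + m + 1) ^ p) (b := z (n + m)) (M := M (n + m))
      (δ := δ) (lam := lam) (by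
        rw [norm_pow, ← hM.2]
        exact pow_le_pow_left₀ (norm_nonneg _) (hz _) _) (hz _) hδ (le_max_left _ _)
      (le_max_right _ _) hl1.le (h (n + m)) m
    rw [hM.pow, ← pow_mul, ← _root_.pow_succ'] at h2
    rw [← add_assoc]
    calc _ ≤ _ := h2
      _ = δ * M n * lam ^ m := by ring
  have h2 : ∀ n, CauchySeq fun m => z (n + m) ^ p ^ m := by
    intro n
    refine cauchySeq_of_le_geometric lam (δ * M n) hl1 fun m => ?_
    rw [dist_comm, dist_eq_norm]
    exact h1 n m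
  choose L hL using fun n => cauchySeq_tendsto_of_complete (h2 n)
  have hz' : ∀ n m, ‖z (n + m) ^ p ^ m‖ ≤ M n := by
    intro n m
    rw [norm_pow, ← hM.pow n m]
    exact pow_le_pow_left₀ (norm_nonneg _) (hz _) _
  have hcl : ∀ n m, ‖z (n + m) ^ p ^ m - z n‖ ≤ δ * M n := by
    intro n m
    induction m with
    | zero =>
      simp only [add_zero, pow_zero, pow_one, sub_self, norm_zero]
      exact mul_nonneg hδ (hM.1 n)
    | succ m ih =>
      have e : z (n + (m + 1)) ^ p ^ (m + 1) - z n =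
          (z (n + (m + 1)) ^ p ^ (m + 1) - z (n + m) ^ p ^ m) + (z (n + m) ^ p ^ m - z n) := by
        ring
      rw [e]
      refine (IsUltrametricDist.norm_add_le_max _ _).trans (max_le ?_ ih)
      refine (h1 n m).trans (mul_le_of_le_one_right (mul_nonneg hδ (hM.1 n))
        (pow_le_one₀ hl0 hl1.le))
  refine ⟨⟨L, fun n => ?_⟩, fun n => ?_, fun n => ?_⟩
  · have h3 : Tendsto (fun m => (z (n + 1 + m) ^ p ^ m) ^ p) atTop (𝓝 (L (n + 1) ^ p)) :=
      (hL (n + 1)).pow p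
    have h4 : Tendsto (fun m => z (n + (m + 1)) ^ p ^ (m + 1)) atTop (𝓝 (L n)) :=
      (hL n).comp (tendsto_add_atTop_nat 1)
    refine tendsto_nhds_unique h3 (h4.congr fun m => ?_)
    rw [_root_.pow_succ, pow_mul, add_assoc, add_comm 1 m]
  · exact le_of_tendsto' (hL n).norm fun m => hz' n m
  · exact le_of_tendsto' ((hL n).sub_const _).norm fun m => hcl n m

end close

section ring

variable {p : ℕ} [hp : Fact p.Prime] {C : Type*} [NormedField C] [IsUltrametricDist C]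
  [CompleteSpace C] [hpC : Fact (‖(p : C)‖ < 1)]

/-! #### the multiplicative structure -/

instance : One (Tilt p C) := ⟨⟨fun _ => 1, fun _ => one_pow _⟩⟩

instance : Zero (Tilt p C) := ⟨⟨fun _ => 0, fun _ => zero_pow hp.out.ne_zero⟩⟩

instance : Mul (Tilt p C) := ⟨fun x y => ⟨fun n => x n * y n, fun n => by
  rw [mul_pow, pow_succ', pow_succ']⟩⟩

instance : Inv (Tilt p C) := ⟨fun x => ⟨fun n => (x n)⁻¹, fun n => by
  rw [inv_pow, pow_succ']⟩⟩

theorem one_apply (n : ℕ) : (1 : Tilt p C) n = 1 := rfl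
theorem zero_apply (n : ℕ) : (0 : Tilt p C) n = 0 := rfl
theorem mul_apply (x y : Tilt p C) (n : ℕ) : (x * y) n = x n * y n := rfl
theorem inv_apply (x : Tilt p C) (n : ℕ) : x⁻¹ n = (x n)⁻¹ := rfl

theorem exists_add (x y : Tilt p C) : ∃ w : Tilt p C,
    (∀ n, ‖w n‖ ≤ max ‖x n‖ ‖y n‖) ∧
    ∀ n, ‖w n - (x n + y n)‖ ≤ ‖(p : C)‖ * max ‖x n‖ ‖y n‖ := by
  refine exists_of_approx ((bd_norm x).max (bd_norm y))
    (fun n => IsUltrametricDist.norm_add_le_max _ _) (norm_nonneg _) hpC.out hpC.out fun n => ?_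
  have h1 := norm_add_pow_sub (p := p) (x (n + 1)) (y (n + 1))
    (le_max_left ‖x (n + 1)‖ ‖y (n + 1)‖) (le_max_right ‖x (n + 1)‖ ‖y (n + 1)‖) le_rfl
  rw [pow_succ', pow_succ', mul_assoc, ← _root_.pow_succ', Nat.sub_add_cancel hp.out.one_le,
    ((bd_norm x).max (bd_norm y)).2] at h1
  exact h1

theorem exists_neg (x : Tilt p C) : ∃ w : Tilt p C, ∀ n, w n = (-1) ^ p * x n :=
  ⟨⟨fun n => (-1) ^ p * x n, fun n => by
    rw [mul_pow, pow_succ', ← pow_mul]
    congr 1
    rcases hp.out.eq_two_or_odd' with h | h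
    · subst h; norm_num
    · rw [(h.mul h).neg_one_pow, h.neg_one_pow]⟩, fun _ => rfl⟩

noncomputable instance : Add (Tilt p C) := ⟨fun x y => (exists_add x y).choose⟩

noncomputable instance : Neg (Tilt p C) := ⟨fun x => (exists_neg x).choose⟩

theorem norm_add_apply_le (x y : Tilt p C) (n : ℕ) : ‖(x + y) n‖ ≤ max ‖x n‖ ‖y n‖ :=
  (exists_add x y).choose_spec.1 n

theorem add_close (x y : Tilt p C) (n : ℕ) :
    ‖(x + y) n - (x n + y n)‖ ≤ ‖(p : C)‖ * max ‖x n‖ ‖y n‖ :=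
  (exists_add x y).choose_spec.2 n

theorem neg_apply (x : Tilt p C) (n : ℕ) : (-x) n = (-1) ^ p * x n :=
  (exists_neg x).choose_spec n

/-- characterization of sums -/
theorem eq_of_close {x y : Tilt p C} {M : ℕ → ℝ} (hM : Bd p M) (hx : ∀ n, ‖x n‖ ≤ M n)
    (hy : ∀ n, ‖y n‖ ≤ M n) {z : ℕ → C} (hxz : ∀ n, ‖x n - z n‖ ≤ ‖(p : C)‖ * M n)
    (hyz : ∀ n, ‖y n - z n‖ ≤ ‖(p : C)‖ * M n) : x = y := by
  refine ext_of_close hM hx hy (norm_nonneg (p : C)) hpC.out hpC.out fun n => ?_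
  have e : x n - y n = (x n - z n) + -(y n - z n) := by ring
  rw [e]
  refine (IsUltrametricDist.norm_add_le_max _ _).trans (max_le (hxz n) ?_)
  rw [norm_neg]
  exact hyz n

theorem add_close_of_le (x y : Tilt p C) {n : ℕ} {M : ℝ} (hx : ‖x n‖ ≤ M) (hy : ‖y n‖ ≤ M) :
    ‖(x + y) n - (x n + y n)‖ ≤ ‖(p : C)‖ * M :=
  (add_close x y n).trans (mul_le_mul_of_nonneg_left (max_le hx hy) (norm_nonneg _))

private theorem add_comm' (x y : Tilt p C) : x + y = y + x := by
  refine eq_of_close ((bd_norm x).max (bd_norm y)) (norm_add_apply_le x y)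
    (fun n => by rw [max_comm]; exact norm_add_apply_le y x n) (z := fun n => x n + y n)
    (add_close x y) fun n => ?_
  have := add_close y x n
  rw [max_comm, add_comm (y n)] at this
  exact this

private theorem zero_add' (x : Tilt p C) : 0 + x = x := by
  refine eq_of_close (bd_norm x) (fun n => ?_) (fun _ => le_rfl) (z := fun n => x n)
    (fun n => ?_) (fun n => ?_)
  · have := norm_add_apply_le 0 x n
    rwa [zero_apply, norm_zero, max_eq_right (norm_nonneg _)] at this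
  · have := add_close 0 x n
    rwa [zero_apply, norm_zero, max_eq_right (norm_nonneg _), zero_add] at this
  · rw [sub_self, norm_zero]
    exact mul_nonneg (norm_nonneg _) (norm_nonneg _)

private theorem add_assoc' (x y z : Tilt p C) : x + y + z = x + (y + z) := by
  set M : ℕ → ℝ := fun n => max (max ‖x n‖ ‖y n‖) ‖z n‖ with hM
  have hMb : Bd p M := ((bd_norm x).max (bd_norm y)).max (bd_norm z)
  have hx : ∀ n, ‖x n‖ ≤ M n := fun n => (le_max_left _ _).trans (le_max_left _ _)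
  have hy : ∀ n, ‖y n‖ ≤ M n := fun n => (le_max_right _ _).trans (le_max_left _ _)
  have hz : ∀ n, ‖z n‖ ≤ M n := fun n => le_max_right _ _
  have hxy : ∀ n, ‖(x + y) n‖ ≤ M n := fun n =>
    (norm_add_apply_le x y n).trans (max_le (hx n) (hy n))
  have hyz : ∀ n, ‖(y + z) n‖ ≤ M n := fun n =>
    (norm_add_apply_le y z n).trans (max_le (hy n) (hz n))
  refine eq_of_close hMb
    (fun n => (norm_add_apply_le (x + y) z n).trans (max_le (hxy n) (hz n)))
    (fun n => (norm_add_apply_le x (y + z) n).trans (max_le (hx n) (hyz n)))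
    (z := fun n => x n + y n + z n) (fun n => ?_) (fun n => ?_)
  · have e : (x + y + z) n - (x n + y n + z n) =
        ((x + y + z) n - ((x + y) n + z n)) + ((x + y) n - (x n + y n)) := by ring
    rw [e]
    exact (IsUltrametricDist.norm_add_le_max _ _).trans
      (max_le (add_close_of_le _ _ (hxy n) (hz n)) (add_close_of_le _ _ (hx n) (hy n)))
  · have e : (x + (y + z)) n - (x n + y n + z n) =
        ((x + (y + z)) n - (x n + (y + z) n)) + ((y + z) n - (y n + z n)) := by ring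
    rw [e]
    exact (IsUltrametricDist.norm_add_le_max _ _).trans
      (max_le (add_close_of_le _ _ (hx n) (hyz n)) (add_close_of_le _ _ (hy n) (hz n)))

private theorem neg_add' (x : Tilt p C) : -x + x = 0 := by
  have hn : ∀ n, ‖(-x) n‖ = ‖x n‖ := by
    intro n
    rw [neg_apply, norm_mul, norm_pow, norm_neg, norm_one, one_pow, one_mul]
  have h0 : ∀ n, ‖(-x) n + x n‖ ≤ ‖(p : C)‖ * ‖x n‖ := by
    intro n
    rw [neg_apply]
    generalize x n = c
    rcases hp.out.eq_two_or_odd' with h | h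
    · have e : (-1 : C) ^ p * c + c = (p : C) * c := by
        have e1 : (p : C) = 2 := by rw [h]; norm_num
        have e2 : (-1 : C) ^ p = 1 := by rw [h]; norm_num
        rw [e1, e2]
        ring
      rw [e, norm_mul]
    · have e : (-1 : C) ^ p * c + c = 0 := by rw [h.neg_one_pow]; ring
      rw [e, norm_zero]
      positivity
  refine eq_of_close (bd_norm x) (fun n => ?_) (fun n => ?_) (z := fun n => 0)
    (fun n => ?_) (fun n => ?_)
  · exact (norm_add_apply_le _ _ n).trans (max_le (hn n).le le_rfl)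
  · rw [zero_apply, norm_zero]; exact norm_nonneg _
  · have e : (-x + x) n - 0 = ((-x + x) n - ((-x) n + x n)) + ((-x) n + x n) := by ring
    rw [e]
    exact (IsUltrametricDist.norm_add_le_max _ _).trans
      (max_le (add_close_of_le _ _ (hn n).le le_rfl) (h0 n))
  · rw [zero_apply, sub_self, norm_zero]
    positivity

private theorem mul_add' (x y z : Tilt p C) : x * (y + z) = x * y + x * z := by
  have hM : Bd p fun n => ‖x n‖ * max ‖y n‖ ‖z n‖ :=
    (bd_norm x).mul ((bd_norm y).max (bd_norm z))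
  have hxy : ∀ n, ‖(x * y) n‖ ≤ ‖x n‖ * max ‖y n‖ ‖z n‖ := fun n => by
    rw [mul_apply, norm_mul]
    exact mul_le_mul_of_nonneg_left (le_max_left _ _) (norm_nonneg _)
  have hxz : ∀ n, ‖(x * z) n‖ ≤ ‖x n‖ * max ‖y n‖ ‖z n‖ := fun n => by
    rw [mul_apply, norm_mul]
    exact mul_le_mul_of_nonneg_left (le_max_right _ _) (norm_nonneg _)
  refine eq_of_close hM (fun n => ?_) (fun n => ?_) (z := fun n => x n * (y n + z n))
    (fun n => ?_) (fun n => ?_)
  · rw [mul_apply, norm_mul]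
    exact mul_le_mul_of_nonneg_left (norm_add_apply_le y z n) (norm_nonneg _)
  · exact (norm_add_apply_le _ _ n).trans (max_le (hxy n) (hxz n))
  · rw [mul_apply, ← mul_sub, norm_mul, mul_left_comm]
    exact mul_le_mul_of_nonneg_left (add_close y z n) (norm_nonneg _)
  · rw [mul_add]
    exact add_close_of_le (x * y) (x * z) (hxy n) (hxz n)

noncomputable instance instField : Field (Tilt p C) where
  add_assoc := add_assoc'
  zero_add := zero_add'
  add_zero x := by rw [add_comm', zero_add']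
  add_comm := add_comm'
  neg_add_cancel := neg_add'
  mul_assoc x y z := ext fun n => mul_assoc _ _ _
  one_mul x := ext fun n => one_mul _
  mul_one x := ext fun n => mul_one _
  mul_comm x y := ext fun n => mul_comm _ _
  zero_mul x := ext fun n => zero_mul _
  mul_zero x := ext fun n => mul_zero _
  left_distrib := mul_add'
  right_distrib x y z := by
    have h : ∀ a b : Tilt p C, a * b = b * a := fun a b => ext fun n => mul_comm _ _
    rw [h, mul_add', h z x, h z y]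
  nsmul := nsmulRec
  zsmul := zsmulRec
  exists_pair_ne := ⟨0, 1, fun h => zero_ne_one (α := C) (by
    have := congrArg (fun x : Tilt p C => x 0) h
    exact this)⟩
  mul_inv_cancel x hx := by
    have h : ∀ n, x n ≠ 0 := by
      intro n hn
      apply hx
      ext m
      rw [zero_apply]
      have h0 : x 0 = 0 := by
        have := pow_add' x 0 n
        rw [zero_add, hn, zero_pow (pow_ne_zero _ hp.out.ne_zero)] at this
        exact this.symm
      have := pow_add' x 0 m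
      rw [zero_add, h0] at this
      exact pow_eq_zero_iff (pow_ne_zero _ hp.out.ne_zero) |>.mp this
    ext n
    exact mul_inv_cancel₀ (h n)
  inv_zero := ext fun n => inv_zero
  nnqsmul := _
  qsmul := _

end ring

end Tilt

end Vale.Agent.P217
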