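import Vale.Agent.P217.TiltComplete

/-!
# P217, part E: the tilt of an algebraically closed field is algebraically closed
-/

set_option linter.unusedSectionVars false

namespace Vale.Agent.P217

open Filter Topology Polynomial

namespace Tilt

variable {p : ℕ} [hp : Fact p.Prime] {C : Type*} [NormedField C] [IsUltrametricDist C]

theorem norm_sum_pow_sub {ι : Type*} (s : Finset ι) (f : ι → C) {M : ℝ} (hM : 0 ≤ M)
    (hf : ∀ i ∈ s, ‖f i‖ ≤ M) :
    ‖(∑ i ∈ s, f i) ^ p - ∑ i ∈ s, f i ^ p‖ ≤ ‖(p : C)‖ * M ^ p := by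
  classical
  induction s using Finset.induction_on with
  | empty =>
    rw [Finset.sum_empty, Finset.sum_empty, zero_pow hp.out.ne_zero, sub_self, norm_zero]
    positivity
  | insert a s ha ih =>
    rw [Finset.sum_insert ha, Finset.sum_insert ha]
    have h1 : ∀ i ∈ s, ‖f i‖ ≤ M := fun i hi => hf i (Finset.mem_insert_of_mem hi)
    have h2 : ‖∑ i ∈ s, f i‖ ≤ M :=
      IsUltrametricDist.norm_sum_le_of_forall_le_of_nonneg hM h1
    have e : (f a + ∑ i ∈ s, f i) ^ p - (f a ^ p + ∑ i ∈ s, f i ^ p) =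
      ((f a + ∑ i ∈ s, f i) ^ p - (f a ^ p + (∑ i ∈ s, f i) ^ p)) +
        ((∑ i ∈ s, f i) ^ p - ∑ i ∈ s, f i ^ p) := by ring
    rw [e]
    refine (IsUltrametricDist.norm_add_le_max _ _).trans (max_le ?_ (ih h1))
    have h3 := norm_add_pow_sub (p := p) (f a) (∑ i ∈ s, f i)
      (hf a (Finset.mem_insert_self a s)) h2 le_rfl
    rwa [mul_assoc, ← _root_.pow_succ', Nat.sub_add_cancel hp.out.one_le] at h3

theorem norm_pow_sub_pow_le {a b : C} {M δ : ℝ} (hM : 0 ≤ M) (hδ : 0 ≤ δ) (ha : ‖a‖ ≤ M)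
    (hb : ‖b‖ ≤ M) (h : ‖a - b‖ ≤ δ * M) (i : ℕ) : ‖a ^ i - b ^ i‖ ≤ δ * M ^ i := by
  induction i with
  | zero => rw [pow_zero, pow_zero, sub_self, norm_zero]; positivity
  | succ i ih =>
    have e : a ^ (i + 1) - b ^ (i + 1) = a * (a ^ i - b ^ i) + (a - b) * b ^ i := by ring
    rw [e]
    refine (IsUltrametricDist.norm_add_le_max _ _).trans (max_le ?_ ?_)
    · rw [norm_mul]
      calc ‖a‖ * ‖a ^ i - b ^ i‖ ≤ M * (δ * M ^ i) := by gcongr
        _ = δ * M ^ (i + 1) := by ring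
    · rw [norm_mul, norm_pow]
      calc ‖a - b‖ * ‖b‖ ^ i ≤ (δ * M) * M ^ i := by gcongr
        _ = δ * M ^ (i + 1) := by ring

theorem lt_norm_prod (w : C) {ε : ℝ} (hε : 0 ≤ ε) (s : Multiset C) (hs : s ≠ 0)
    (h : ∀ z ∈ s, ε < ‖w - z‖) : ε ^ Multiset.card s < ‖(s.map fun z => w - z).prod‖ := by
  induction s using Multiset.induction_on with
  | empty => exact absurd rfl hs
  | cons a s ih =>
    rw [Multiset.map_cons, Multiset.prod_cons, norm_mul, Multiset.card_cons, _root_.pow_succ']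
    have h1 := h a (Multiset.mem_cons_self a s)
    by_cases hs0 : s = 0
    · subst hs0
      simpa using h1
    · have h2 := ih hs0 fun z hz => h z (Multiset.mem_cons_of_mem hz)
      exact mul_lt_mul'' h1 h2 hε (pow_nonneg hε _)

theorem exists_root_close [IsAlgClosed C] {Q : C[X]} (hQ : Q.Monic) (hd : Q.natDegree ≠ 0)
    (w : C) {ε : ℝ} (hε : 0 ≤ ε) (h : ‖Q.eval w‖ ≤ ε ^ Q.natDegree) :
    ∃ z, Q.eval z = 0 ∧ ‖w - z‖ ≤ ε := by
  by_contra hcon
  push Not at hcon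
  have hsp := IsAlgClosed.splits Q
  have hcard : Multiset.card Q.roots = Q.natDegree := (splits_iff_card_roots.1 hsp)
  have hprod : (Q.roots.map fun a => X - Polynomial.C a).prod = Q :=
    prod_multiset_X_sub_C_of_monic_of_roots_card_eq hQ hcard
  have hev : Q.eval w = (Q.roots.map fun z => w - z).prod := by
    conv_lhs => rw [← hprod]
    rw [eval_multiset_prod, Multiset.map_map]
    simp
  have hne : Q.roots ≠ 0 := by
    intro h0
    rw [h0, Multiset.card_zero] at hcard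
    exact hd hcard.symm
  have h1 := lt_norm_prod w hε Q.roots hne fun z hz => hcon z (by
    exact (mem_roots'.1 hz).2)
  rw [hcard, ← hev] at h1
  exact absurd h (not_le.2 h1)

variable [CompleteSpace C] [hpC : Fact (‖(p : C)‖ < 1)]

/-- The polynomial on level `n`. -/
noncomputable def lev (P : (Tilt p C)[X]) (n : ℕ) : C[X] :=
  ∑ i ∈ Finset.range (P.natDegree + 1), monomial i (P.coeff i n)

theorem lev_eval (P : (Tilt p C)[X]) (n : ℕ) (z : C) :
    (lev P n).eval z = ∑ i ∈ Finset.range (P.natDegree + 1), P.coeff i n * z ^ i := by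
  rw [lev, eval_finsetSum]
  exact Finset.sum_congr rfl fun i _ => by rw [eval_monomial]

theorem lev_coeff (P : (Tilt p C)[X]) (n j : ℕ) : (lev P n).coeff j = P.coeff j n := by
  rw [lev, finsetSum_coeff]
  simp only [coeff_monomial]
  rw [Finset.sum_ite_eq' (Finset.range (P.natDegree + 1)) j fun i => P.coeff i n]
  split_ifs with h
  · rfl
  · have : P.coeff j = 0 := coeff_eq_zero_of_natDegree_lt (by
      rw [Finset.mem_range] at h; omega)
    rw [this, zero_apply]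

theorem lev_natDegree {P : (Tilt p C)[X]} (hP : P.Monic) (n : ℕ) :
    (lev P n).natDegree = P.natDegree := by
  refine natDegree_eq_of_le_of_coeff_ne_zero ?_ ?_
  · refine natDegree_le_iff_coeff_eq_zero.2 fun j hj => ?_
    rw [lev_coeff, coeff_eq_zero_of_natDegree_lt hj, zero_apply]
  · rw [lev_coeff, hP.coeff_natDegree, one_apply]
    exact one_ne_zero

theorem lev_monic {P : (Tilt p C)[X]} (hP : P.Monic) (n : ℕ) : (lev P n).Monic := by
  rw [Monic, leadingCoeff, lev_natDegree hP, lev_coeff, hP.coeff_natDegree, one_apply]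

theorem norm_term_le {P : (Tilt p C)[X]} {M : ℕ → ℝ} (hM : Bd p M) {n : ℕ}
    (hc : ∀ i ≤ P.natDegree, ‖P.coeff i n‖ ≤ M n ^ (P.natDegree - i)) {y : C} {δ : ℝ} {i : ℕ}
    (hi : i ≤ P.natDegree) (hδ : 0 ≤ δ) (hy : ‖y‖ ≤ δ * M n ^ i) :
    ‖P.coeff i n * y‖ ≤ δ * M n ^ P.natDegree := by
  have h0 := hM.1 n
  rw [norm_mul]
  calc ‖P.coeff i n‖ * ‖y‖ ≤ M n ^ (P.natDegree - i) * (δ * M n ^ i) :=
        mul_le_mul (hc i hi) hy (norm_nonneg _) (pow_nonneg h0 _)
    _ = δ * (M n ^ (P.natDegree - i) * M n ^ i) := by ring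
    _ = δ * M n ^ P.natDegree := by rw [← pow_add, Nat.sub_add_cancel hi]

theorem step [IsAlgClosed C] {P : (Tilt p C)[X]} (hP : P.Monic) (hd : P.natDegree ≠ 0)
    {M : ℕ → ℝ} (hM : Bd p M)
    (hc : ∀ n, ∀ i ≤ P.natDegree, ‖P.coeff i n‖ ≤ M n ^ (P.natDegree - i)) {δ : ℝ}
    (hδ0 : 0 ≤ δ) (hδ1 : δ < 1) (hδ : ‖(p : C)‖ ≤ δ ^ (P.natDegree * p)) (n : ℕ) {z : C}
    (hz : (lev P n).eval z = 0) (hzM : ‖z‖ ≤ M n) :
    ∃ z', (lev P (n + 1)).eval z' = 0 ∧ ‖z'‖ ≤ M (n + 1) ∧ ‖z' ^ p - z‖ ≤ δ * M n := by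
  have hδp : ‖(p : C)‖ ≤ δ := hδ.trans
    (pow_le_of_le_one hδ0 hδ1.le (mul_ne_zero hd hp.out.ne_zero))
  obtain ⟨w, hw⟩ := IsAlgClosed.exists_pow_nat_eq z hp.out.pos
  have hMn := hM.1 (n + 1)
  have hwM : ‖w‖ ≤ M (n + 1) := by
    refine (pow_le_pow_iff_left₀ (norm_nonneg _) hMn hp.out.ne_zero).1 ?_
    rw [← norm_pow, hw, hM.2]
    exact hzM
  have h1 : ‖(lev P (n + 1)).eval w ^ p‖ ≤ ((δ * M (n + 1)) ^ P.natDegree) ^ p := by
    have h2 := norm_sum_pow_sub (p := p) (Finset.range (P.natDegree + 1))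
      (fun i => P.coeff i (n + 1) * w ^ i) (M := M (n + 1) ^ P.natDegree)
      (pow_nonneg hMn _) (fun i hi => by
        have hi' : i ≤ P.natDegree := by rw [Finset.mem_range] at hi; omega
        have := norm_term_le hM (hc (n + 1)) (y := w ^ i) (δ := 1) hi' zero_le_one (by
          rw [norm_pow, one_mul]
          exact pow_le_pow_left₀ (norm_nonneg _) hwM _)
        rwa [one_mul] at this)
    have h3 : ∑ i ∈ Finset.range (P.natDegree + 1), (P.coeff i (n + 1) * w ^ i) ^ p = 0 := by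
      rw [lev_eval] at hz
      rw [← hz]
      refine Finset.sum_congr rfl fun i _ => ?_
      rw [mul_pow, pow_succ', ← pow_mul, mul_comm i p, pow_mul, hw]
    rw [h3, sub_zero, ← lev_eval] at h2
    refine h2.trans ?_
    have hδ' := hδ
    rw [pow_mul] at hδ'
    rw [mul_pow, mul_pow]
    exact mul_le_mul_of_nonneg_right hδ' (pow_nonneg (pow_nonneg hMn _) _)
  have h2 : ‖(lev P (n + 1)).eval w‖ ≤ (δ * M (n + 1)) ^ (lev P (n + 1)).natDegree := by
    rw [lev_natDegree hP]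
    rw [norm_pow] at h1
    exact (pow_le_pow_iff_left₀ (norm_nonneg _)
      (pow_nonneg (mul_nonneg hδ0 hMn) _) hp.out.ne_zero).1 h1
  obtain ⟨z', hz', hwz⟩ := exists_root_close (lev_monic hP (n + 1))
    (by rw [lev_natDegree hP]; exact hd) w (mul_nonneg hδ0 hMn) h2
  have hz'M : ‖z'‖ ≤ M (n + 1) := by
    have e : z' = w + -(w - z') := by ring
    rw [e]
    refine (IsUltrametricDist.norm_add_le_max _ _).trans (max_le hwM ?_)
    rw [norm_neg]
    exact hwz.trans (mul_le_of_le_one_left hMn hδ1.le)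
  refine ⟨z', hz', hz'M, ?_⟩
  have h3 := norm_pow_sub_pow (p := p) hz'M hwM hδ0 le_rfl hδp hδ1.le (by
    rw [← norm_neg, neg_sub]; exact hwz)
  rw [hw, hM.2] at h3
  refine h3.trans ?_
  exact mul_le_mul_of_nonneg_right (mul_le_of_le_one_left hδ0 hδ1.le) (hM.1 n)

theorem exists_root [IsAlgClosed C] {P : (Tilt p C)[X]} (hP : P.Monic) (hd : P.natDegree ≠ 0) :
    ∃ x, P.eval x = 0 := by
  -- bounds
  set B : ℝ := 1 + ∑ i ∈ Finset.range (P.natDegree + 1), ‖P.coeff i‖ with hB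
  have hB1 : 1 ≤ B := by
    have : 0 ≤ ∑ i ∈ Finset.range (P.natDegree + 1), ‖P.coeff i‖ :=
      Finset.sum_nonneg fun _ _ => norm_nonneg _
    linarith
  have hcB : ∀ i ≤ P.natDegree, ‖P.coeff i‖ ≤ B := by
    intro i hi
    have h1 : ‖P.coeff i‖ ≤ ∑ i ∈ Finset.range (P.natDegree + 1), ‖P.coeff i‖ :=
      Finset.single_le_sum (f := fun i => ‖P.coeff i‖) (fun _ _ => norm_nonneg _)
        (Finset.mem_range.2 (by omega))
    linarith
  obtain ⟨M, hM, hM0⟩ := exists_bd p (zero_le_one.trans hB1)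
  have hM1 : ∀ n, 1 ≤ M n := fun n => hM.one_le (by rw [hM0]; exact hB1) n
  have hc : ∀ n, ∀ i ≤ P.natDegree, ‖P.coeff i n‖ ≤ M n ^ (P.natDegree - i) := by
    intro n i hi
    rcases hi.lt_or_eq with h | h
    · refine (norm_apply_le hM (by rw [hM0]; exact hcB i hi) n).trans ?_
      exact le_self_pow₀ (hM1 n) (by omega)
    · rw [h, hP.coeff_natDegree, one_apply, norm_one, Nat.sub_self, pow_zero]
  obtain ⟨δ, hδ0, hδ1, hδ⟩ : ∃ δ : ℝ, 0 ≤ δ ∧ δ < 1 ∧ ‖(p : C)‖ ≤ δ ^ (P.natDegree * p) := by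
    have hdp : P.natDegree * p ≠ 0 := mul_ne_zero hd hp.out.ne_zero
    refine ⟨‖(p : C)‖ ^ (((P.natDegree * p : ℕ) : ℝ)⁻¹), Real.rpow_nonneg (norm_nonneg _) _,
      Real.rpow_lt_one (norm_nonneg _) hpC.out (inv_pos.2 (by
        exact_mod_cast Nat.pos_of_ne_zero hdp)), le_of_eq ?_⟩
    rw [Real.rpow_inv_natCast_pow (norm_nonneg _) hdp]
  have hδp : ‖(p : C)‖ ≤ δ := hδ.trans
    (pow_le_of_le_one hδ0 hδ1.le (mul_ne_zero hd hp.out.ne_zero))
  -- the first root
  obtain ⟨z0, hz0, hz0M⟩ : ∃ z, (lev P 0).eval z = 0 ∧ ‖z‖ ≤ M 0 := by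
    obtain ⟨z, hz, hzM⟩ := exists_root_close (lev_monic hP 0)
      (by rw [lev_natDegree hP]; exact hd) 0 (hM.1 0) (by
        rw [lev_natDegree hP, ← coeff_zero_eq_eval_zero, lev_coeff]
        exact hc 0 0 (Nat.zero_le _))
    refine ⟨z, hz, ?_⟩
    rwa [zero_sub, norm_neg] at hzM
  choose f hf1 hf2 hf3 using fun (n : ℕ) (z : {z : C // (lev P n).eval z = 0 ∧ ‖z‖ ≤ M n}) =>
    step hP hd hM hc hδ0 hδ1 hδ n z.2.1 z.2.2
  let zz : ∀ n : ℕ, {z : C // (lev P n).eval z = 0 ∧ ‖z‖ ≤ M n} := fun n =>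
    Nat.rec (motive := fun n => {z : C // (lev P n).eval z = 0 ∧ ‖z‖ ≤ M n})
      ⟨z0, hz0, hz0M⟩ (fun n z => ⟨f n z, hf1 n z, hf2 n z⟩) n
  obtain ⟨q, hq1, hq2, hq3⟩ : ∃ q : ℕ → C, (∀ n, (lev P n).eval (q n) = 0) ∧
      (∀ n, ‖q n‖ ≤ M n) ∧ ∀ n, ‖q (n + 1) ^ p - q n‖ ≤ δ * M n :=
    ⟨fun n => (zz n).1, fun n => (zz n).2.1, fun n => (zz n).2.2, fun n => hf3 n (zz n)⟩
  obtain ⟨x, hxM, hxz⟩ := exists_of_approx (p := p) (z := q) hM hq2 hδ0 hδ1 hpC.out hq3
  refine ⟨x, ?_⟩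
  -- the value on each level
  have hval : ∀ n, ‖(P.eval x) n‖ ≤ δ * M n ^ P.natDegree := by
    intro n
    have hMn := hM.1 n
    have hb : 0 ≤ M n ^ P.natDegree := pow_nonneg hMn _
    have h1 : ‖(P.eval x) n - (lev P n).eval (x n)‖ ≤ δ * M n ^ P.natDegree := by
      have h2 := sum_close (Finset.range (P.natDegree + 1)) (fun i => P.coeff i * x ^ i)
        (n := n) hb (fun i hi => by
          have hi' : i ≤ P.natDegree := by rw [Finset.mem_range] at hi; omega
          have := norm_term_le hM (hc n) (y := x n ^ i) (δ := 1) hi' zero_le_one (by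
            rw [norm_pow, one_mul]
            exact pow_le_pow_left₀ (norm_nonneg _) (hxM n) _)
          rw [one_mul] at this
          rwa [mul_apply, pow_apply])
      rw [← eval_eq_sum_range] at h2
      have e : (lev P n).eval (x n) =
          ∑ i ∈ Finset.range (P.natDegree + 1), (P.coeff i * x ^ i : Tilt p C) n := by
        rw [lev_eval]
        exact Finset.sum_congr rfl fun i _ => by rw [mul_apply, pow_apply]
      rw [e]
      exact h2.trans (mul_le_mul_of_nonneg_right hδp hb)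
    have h3 : ‖(lev P n).eval (x n)‖ ≤ δ * M n ^ P.natDegree := by
      have e : (lev P n).eval (x n) = ∑ i ∈ Finset.range (P.natDegree + 1),
          P.coeff i n * (x n ^ i - q n ^ i) := by
        have h4 := hq1 n
        rw [lev_eval] at h4
        rw [lev_eval, ← sub_zero (∑ i ∈ Finset.range (P.natDegree + 1), P.coeff i n * x n ^ i),
          ← h4, ← Finset.sum_sub_distrib]
        exact Finset.sum_congr rfl fun i _ => by ring
      rw [e]
      refine IsUltrametricDist.norm_sum_le_of_forall_le_of_nonneg (by positivity)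
        fun i hi => ?_
      have hi' : i ≤ P.natDegree := by rw [Finset.mem_range] at hi; omega
      exact norm_term_le hM (hc n) hi' hδ0
        (norm_pow_sub_pow_le hMn hδ0 (hxM n) (hq2 n) (hxz n) i)
    have e : (P.eval x) n = ((P.eval x) n - (lev P n).eval (x n)) + (lev P n).eval (x n) := by
      ring
    rw [e]
    exact (IsUltrametricDist.norm_add_le_max _ _).trans (max_le h1 h3)
  have hle : ∀ n : ℕ, ‖P.eval x‖ ≤ δ ^ p ^ n * M 0 ^ P.natDegree := by
    intro n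
    have h1 := norm_le_of_apply (hval n)
    rwa [mul_pow, ← pow_mul, mul_comm P.natDegree, pow_mul, hM.pow_zero'] at h1
  have hlim : Tendsto (fun n : ℕ => δ ^ p ^ n * M 0 ^ P.natDegree) atTop
      (𝓝 (0 * M 0 ^ P.natDegree)) :=
    ((tendsto_pow_atTop_nhds_zero_of_lt_one hδ0 hδ1).comp
      (tendsto_pow_atTop_atTop_of_one_lt hp.out.one_lt)).mul_const _
  rw [zero_mul] at hlim
  exact norm_le_zero_iff.1 (ge_of_tendsto' hlim hle)

instance instIsAlgClosed [IsAlgClosed C] : IsAlgClosed (Tilt p C) :=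
  IsAlgClosed.of_exists_root _ fun P hP hirr =>
    exists_root hP (by
      intro h
      have h1 : P = 1 := by
        have := eq_C_of_natDegree_eq_zero h
        rw [this] at hP ⊢
        rw [Monic, leadingCoeff_C] at hP
        rw [hP, Polynomial.C_1]
      exact hirr.not_isUnit (h1 ▸ isUnit_one))

end Tilt

end Vale.Agent.P217
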