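import Vale.Agent.P217.TiltNorm

/-!
# P217, part E: the tilt is complete
-/

set_option linter.unusedSectionVars false

namespace Vale.Agent.P217

open Filter Topology

namespace Tilt

section bd

variable {p : ℕ} [hp : Fact p.Prime]

theorem exists_bd (p : ℕ) [hp : Fact p.Prime] {B : ℝ} (hB : 0 ≤ B) :
    ∃ M : ℕ → ℝ, Bd p M ∧ M 0 = B := by
  have hp0 : (p : ℝ) ≠ 0 := by exact_mod_cast hp.out.ne_zero
  refine ⟨fun n => B ^ (((p : ℝ) ^ n)⁻¹), ⟨fun n => Real.rpow_nonneg hB _, fun n => ?_⟩, ?_⟩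
  · show (B ^ (((p : ℝ) ^ (n + 1))⁻¹)) ^ p = B ^ (((p : ℝ) ^ n)⁻¹)
    rw [← Real.rpow_natCast, ← Real.rpow_mul hB]
    congr 1
    rw [_root_.pow_succ]
    field_simp
  · show B ^ (((p : ℝ) ^ 0)⁻¹) = B
    rw [pow_zero, inv_one, Real.rpow_one]

theorem Bd.pow_zero' {M : ℕ → ℝ} (hM : Bd p M) (n : ℕ) : M n ^ p ^ n = M 0 := by
  have := hM.pow 0 n
  rwa [zero_add] at this

theorem Bd.pos {M : ℕ → ℝ} (hM : Bd p M) (h : 0 < M 0) (n : ℕ) : 0 < M n := by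
  rcases (hM.1 n).lt_or_eq with h1 | h1
  · exact h1
  · have h2 := hM.pow_zero' n
    rw [← h1, zero_pow (pow_ne_zero _ hp.out.ne_zero)] at h2
    exact absurd h2.symm h.ne'

theorem Bd.one_le {M : ℕ → ℝ} (hM : Bd p M) (h : 1 ≤ M 0) (n : ℕ) : 1 ≤ M n := by
  by_contra h1
  push Not at h1
  have h2 : M n ^ p ^ n < 1 := pow_lt_one₀ (hM.1 n) h1 (pow_ne_zero _ hp.out.ne_zero)
  rw [hM.pow_zero' n] at h2
  exact absurd h2 (not_lt.2 h)

end bd

variable {p : ℕ} [hp : Fact p.Prime] {C : Type*} [NormedField C] [IsUltrametricDist C]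
  [CompleteSpace C] [hpC : Fact (‖(p : C)‖ < 1)]

theorem norm_apply_le {x : Tilt p C} {M : ℕ → ℝ} (hM : Bd p M) (hx : ‖x‖ ≤ M 0) (n : ℕ) :
    ‖x n‖ ≤ M n := by
  rw [← norm_apply_pow x n, ← hM.pow_zero' n] at hx
  exact (pow_le_pow_iff_left₀ (norm_nonneg _) (hM.1 n)
    (pow_ne_zero _ hp.out.ne_zero)).1 hx

theorem norm_le_of_apply {x : Tilt p C} {R : ℝ} {n : ℕ} (hx : ‖x n‖ ≤ R) :
    ‖x‖ ≤ R ^ p ^ n := by
  rw [← norm_apply_pow x n]
  exact pow_le_pow_left₀ (norm_nonneg _) hx _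

theorem norm_apply_le_of_pow {x : Tilt p C} {R : ℝ} (hR : 0 ≤ R) {n : ℕ} (hx : ‖x‖ ≤ R ^ p ^ n) :
    ‖x n‖ ≤ R := by
  rw [← norm_apply_pow x n] at hx
  exact (pow_le_pow_iff_left₀ (norm_nonneg _) hR (pow_ne_zero _ hp.out.ne_zero)).1 hx

theorem norm_sub_le_of_close {x y : Tilt p C} {M : ℕ → ℝ} (hM : Bd p M) {m : ℕ}
    (hx : ‖x m‖ ≤ M m) (hy : ‖y m‖ ≤ M m) {lam : ℝ} (hl : ‖(p : C)‖ ≤ lam)
    (h : ‖x m - y m‖ ≤ lam * M m) : ‖x - y‖ ≤ lam ^ p ^ m * M 0 := by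
  have h1 : ‖(x - y) m‖ ≤ lam * M m := by
    have e : (x - y) m = ((x - y) m - (x m - y m)) + (x m - y m) := by ring
    rw [e]
    refine (IsUltrametricDist.norm_add_le_max _ _).trans (max_le ?_ h)
    exact (sub_close hx hy).trans (mul_le_mul_of_nonneg_right hl (hM.1 m))
  have h2 := norm_le_of_apply h1
  rwa [mul_pow, hM.pow_zero'] at h2

theorem close_of_norm_sub_le {x y : Tilt p C} {M : ℕ → ℝ} (hM : Bd p M) {m : ℕ}
    (hx : ‖x m‖ ≤ M m) (hy : ‖y m‖ ≤ M m) {lam : ℝ} (hl : ‖(p : C)‖ ≤ lam)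
    (h : ‖x - y‖ ≤ lam ^ p ^ m * M 0) : ‖x m - y m‖ ≤ lam * M m := by
  have hl0 : 0 ≤ lam := (norm_nonneg _).trans hl
  have h1 : ‖(x - y) m‖ ≤ lam * M m := by
    refine norm_apply_le_of_pow (mul_nonneg hl0 (hM.1 m)) ?_
    rwa [mul_pow, hM.pow_zero']
  have e : x m - y m = -((x - y) m - (x m - y m)) + (x - y) m := by ring
  rw [e]
  refine (IsUltrametricDist.norm_add_le_max _ _).trans (max_le ?_ h1)
  rw [norm_neg]
  exact (sub_close hx hy).trans (mul_le_mul_of_nonneg_right hl (hM.1 m))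

theorem close_of_close {x y : Tilt p C} {M : ℕ → ℝ} (hM : Bd p M) {n r : ℕ}
    (hx : ‖x (n + r)‖ ≤ M (n + r)) (hy : ‖y (n + r)‖ ≤ M (n + r)) {lam : ℝ}
    (hl : ‖(p : C)‖ ≤ lam) (hl1 : lam ≤ 1) (h : ‖x (n + r) - y (n + r)‖ ≤ lam * M (n + r)) :
    ‖x n - y n‖ ≤ lam ^ r * lam * M n := by
  have h1 := norm_pow_pow_sub hx hy ((norm_nonneg _).trans hl) le_rfl hl hl1 h r
  rwa [pow_add', pow_add', hM.pow] at h1

instance instCompleteSpace : CompleteSpace (Tilt p C) := by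
  refine Metric.complete_of_cauchySeq_tendsto fun f hf => ?_
  obtain ⟨B, hB0, hB⟩ : ∃ B : ℝ, 0 < B ∧ ∀ k, ‖f k‖ ≤ B := by
    obtain ⟨R, hR0, hR⟩ := cauchySeq_bdd hf
    refine ⟨R + ‖f 0‖, by positivity, fun k => ?_⟩
    have h1 := hR k 0
    rw [dist_eq_norm] at h1
    have h2 : ‖f k‖ ≤ ‖f k - f 0‖ + ‖f 0‖ := norm_le_norm_sub_add _ _
    linarith
  obtain ⟨M, hM, hM0⟩ := exists_bd p hB0.le
  have hfM : ∀ k n, ‖f k n‖ ≤ M n := fun k n => norm_apply_le hM (by rw [hM0]; exact hB k) n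
  set lam : ℝ := max ‖(p : C)‖ (1 / 2) with hlam
  have hpl : ‖(p : C)‖ ≤ lam := le_max_left _ _
  have hl0 : 0 < lam := lt_of_lt_of_le (by norm_num) (le_max_right _ _)
  have hl1 : lam < 1 := max_lt hpC.out (by norm_num)
  have hMpos : ∀ n, 0 < M n := fun n => hM.pos (by rw [hM0]; exact hB0) n
  -- closeness at each level
  have hclose : ∀ m, ∃ N, ∀ k ≥ N, ∀ l ≥ N, ‖f k m - f l m‖ ≤ lam * M m := by
    intro m
    obtain ⟨N, hN⟩ := Metric.cauchySeq_iff.1 hf (lam ^ p ^ m * M 0)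
      (mul_pos (pow_pos hl0 _) (hMpos 0))
    refine ⟨N, fun k hk l hl => close_of_norm_sub_le hM (hfM k m) (hfM l m) hpl ?_⟩
    have := hN k hk l hl
    rw [dist_eq_norm] at this
    exact this.le
  have hc : ∀ n, CauchySeq fun k => f k n := by
    intro n
    refine Metric.cauchySeq_iff.2 fun ε hε => ?_
    have h1 : Tendsto (fun r : ℕ => lam ^ r * lam * M n) atTop (𝓝 (0 * lam * M n)) :=
      ((tendsto_pow_atTop_nhds_zero_of_lt_one hl0.le hl1).mul_const _).mul_const _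
    rw [zero_mul, zero_mul] at h1
    obtain ⟨r, hr⟩ := (h1.eventually (gt_mem_nhds hε)).exists
    obtain ⟨N, hN⟩ := hclose (n + r)
    refine ⟨N, fun k hk l hl => ?_⟩
    rw [dist_eq_norm]
    exact lt_of_le_of_lt (close_of_close hM (hfM k _) (hfM l _) hpl hl1.le (hN k hk l hl)) hr
  choose F hF using fun n => cauchySeq_tendsto_of_complete (hc n)
  have hFp : ∀ n, F (n + 1) ^ p = F n := by
    intro n
    have h1 := (hF (n + 1)).pow p
    refine tendsto_nhds_unique (h1.congr fun k => ?_) (hF n)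
    exact pow_succ' (f k) n
  have hFM : ∀ n, ‖(mk' F hFp : Tilt p C) n‖ ≤ M n := fun n =>
    le_of_tendsto' (hF n).norm fun k => hfM k n
  refine ⟨mk' F hFp, ?_⟩
  rw [tendsto_iff_norm_sub_tendsto_zero]
  rw [Metric.tendsto_atTop]
  intro ε hε
  have h1 : Tendsto (fun m : ℕ => lam ^ p ^ m * M 0) atTop (𝓝 (0 * M 0)) :=
    ((tendsto_pow_atTop_nhds_zero_of_lt_one hl0.le hl1).comp
      (tendsto_pow_atTop_atTop_of_one_lt hp.out.one_lt)).mul_const _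
  rw [zero_mul] at h1
  obtain ⟨m, hm⟩ := (h1.eventually (gt_mem_nhds hε)).exists
  obtain ⟨N, hN⟩ := hclose m
  refine ⟨N, fun k hk => ?_⟩
  rw [Real.dist_eq, sub_zero, abs_of_nonneg (norm_nonneg _)]
  refine lt_of_le_of_lt (norm_sub_le_of_close hM (hfM k m) (hFM m) hpl ?_) hm
  have h2 : Tendsto (fun l => ‖f k m - f l m‖) atTop (𝓝 ‖f k m - F m‖) :=
    ((hF m).const_sub (f k m)).norm
  exact le_of_tendsto h2 (eventually_atTop.2 ⟨N, fun l hl => hN k hk l hl⟩)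

end Tilt

end Vale.Agent.P217
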