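import Vale.Agent.P217.Tilt
import Vale.Agent.P217.Core

/-!
# P217, part E: the norm on the tilt, characteristic `p`, the sharp map
-/

set_option linter.unusedSectionVars false

namespace Vale.Agent.P217

open Filter Topology

namespace Tilt

variable {p : ℕ} [hp : Fact p.Prime] {C : Type*} [NormedField C] [IsUltrametricDist C]
  [CompleteSpace C] [hpC : Fact (‖(p : C)‖ < 1)]

theorem eq_zero_of_apply {x : Tilt p C} {n : ℕ} (h : x n = 0) : x = 0 := by
  have h0 : x 0 = 0 := by
    have := pow_add' x 0 n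
    rw [zero_add, h, zero_pow (pow_ne_zero _ hp.out.ne_zero)] at this
    exact this.symm
  ext m
  have := pow_add' x 0 m
  rw [zero_add, h0] at this
  exact pow_eq_zero_iff (pow_ne_zero _ hp.out.ne_zero) |>.mp this

/-- the absolute value on the tilt -/
noncomputable def absV (p : ℕ) [Fact p.Prime] (C : Type*) [NormedField C] [IsUltrametricDist C]
    [CompleteSpace C] [Fact (‖(p : C)‖ < 1)] : AbsoluteValue (Tilt p C) ℝ where
  toFun x := ‖x 0‖
  map_mul' x y := by rw [mul_apply, norm_mul]
  nonneg' x := norm_nonneg _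
  eq_zero' x := by
    rw [norm_eq_zero]
    exact ⟨fun h => eq_zero_of_apply h, fun h => by rw [h, zero_apply]⟩
  add_le' x y := (norm_add_apply_le x y 0).trans
    (max_le_add_of_nonneg (norm_nonneg _) (norm_nonneg _))

noncomputable instance instNormedField : NormedField (Tilt p C) := (absV p C).toNormedField

theorem norm_def (x : Tilt p C) : ‖x‖ = ‖x 0‖ := rfl

instance : IsUltrametricDist (Tilt p C) :=
  IsUltrametricDist.isUltrametricDist_of_forall_norm_add_le_max_norm fun x y =>
    norm_add_apply_le x y 0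

theorem norm_apply_pow (x : Tilt p C) (n : ℕ) : ‖x n‖ ^ p ^ n = ‖x‖ := by
  have := pow_add' x 0 n
  rw [zero_add] at this
  rw [← norm_pow, this, norm_def]

theorem pow_apply (x : Tilt p C) (k n : ℕ) : (x ^ k) n = x n ^ k := by
  induction k with
  | zero => rw [pow_zero, pow_zero, one_apply]
  | succ k ih => rw [_root_.pow_succ, _root_.pow_succ, mul_apply, ih]

theorem norm_neg_apply (x : Tilt p C) (n : ℕ) : ‖(-x) n‖ = ‖x n‖ := by
  rw [neg_apply, norm_mul, norm_pow, norm_neg, norm_one, one_pow, one_mul]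

theorem norm_sub_apply_le {x y : Tilt p C} {n : ℕ} {M : ℝ} (hx : ‖x n‖ ≤ M) (hy : ‖y n‖ ≤ M) :
    ‖(x - y) n‖ ≤ M := by
  rw [sub_eq_add_neg]
  exact (norm_add_apply_le x (-y) n).trans (max_le hx (by rwa [norm_neg_apply]))

theorem sub_close {x y : Tilt p C} {n : ℕ} {M : ℝ} (hx : ‖x n‖ ≤ M) (hy : ‖y n‖ ≤ M) :
    ‖(x - y) n - (x n - y n)‖ ≤ ‖(p : C)‖ * M := by
  have h := add_close_of_le (x - y) y (norm_sub_apply_le hx hy) hy
  rw [sub_add_cancel] at h
  rw [← norm_neg]
  have e : -((x - y) n - (x n - y n)) = x n - ((x - y) n + y n) := by ring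
  rw [e]
  exact h

theorem norm_sum_apply_le {ι : Type*} (s : Finset ι) (f : ι → Tilt p C) {n : ℕ} {M : ℝ}
    (hM : 0 ≤ M) (hf : ∀ i ∈ s, ‖f i n‖ ≤ M) : ‖(∑ i ∈ s, f i) n‖ ≤ M := by
  classical
  induction s using Finset.induction_on with
  | empty => rw [Finset.sum_empty, zero_apply, norm_zero]; exact hM
  | insert a s ha ih =>
    rw [Finset.sum_insert ha]
    refine (norm_add_apply_le _ _ n).trans (max_le (hf a (Finset.mem_insert_self a s))
      (ih fun i hi => hf i (Finset.mem_insert_of_mem hi)))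

theorem sum_close {ι : Type*} (s : Finset ι) (f : ι → Tilt p C) {n : ℕ} {M : ℝ}
    (hM : 0 ≤ M) (hf : ∀ i ∈ s, ‖f i n‖ ≤ M) :
    ‖(∑ i ∈ s, f i) n - ∑ i ∈ s, f i n‖ ≤ ‖(p : C)‖ * M := by
  classical
  induction s using Finset.induction_on with
  | empty =>
    rw [Finset.sum_empty, Finset.sum_empty, zero_apply, sub_self, norm_zero]
    positivity
  | insert a s ha ih =>
    rw [Finset.sum_insert ha, Finset.sum_insert ha]
    have h1 : ∀ i ∈ s, ‖f i n‖ ≤ M := fun i hi => hf i (Finset.mem_insert_of_mem hi)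
    have e : (f a + ∑ i ∈ s, f i) n - (f a n + ∑ i ∈ s, f i n) =
      ((f a + ∑ i ∈ s, f i) n - (f a n + (∑ i ∈ s, f i) n)) +
        ((∑ i ∈ s, f i) n - ∑ i ∈ s, f i n) := by ring
    rw [e]
    exact (IsUltrametricDist.norm_add_le_max _ _).trans (max_le
      (add_close_of_le _ _ (hf a (Finset.mem_insert_self a s)) (norm_sum_apply_le s f hM h1))
      (ih h1))

theorem natCast_close (k n : ℕ) : ‖((k : Tilt p C)) n - (k : C)‖ ≤ ‖(p : C)‖ ∧
    ‖((k : Tilt p C)) n‖ ≤ 1 := by
  induction k with
  | zero =>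
    rw [Nat.cast_zero, Nat.cast_zero, zero_apply, sub_self, norm_zero]
    exact ⟨norm_nonneg _, zero_le_one⟩
  | succ k ih =>
    rw [Nat.cast_succ, Nat.cast_succ]
    have h1 : ‖(1 : Tilt p C) n‖ ≤ 1 := by rw [one_apply, norm_one]
    constructor
    · have e : ((k : Tilt p C) + 1) n - ((k : C) + 1) =
        (((k : Tilt p C) + 1) n - ((k : Tilt p C) n + (1 : Tilt p C) n)) +
          ((k : Tilt p C) n - (k : C)) := by rw [one_apply]; ring
      rw [e]
      refine (IsUltrametricDist.norm_add_le_max _ _).trans (max_le ?_ ih.1)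
      have := add_close_of_le (k : Tilt p C) 1 ih.2 h1
      rwa [mul_one] at this
    · exact (norm_add_apply_le _ _ n).trans (max_le ih.2 h1)

theorem cast_p_eq_zero : ((p : ℕ) : Tilt p C) = 0 := by
  refine ext_of_close bd_one (fun n => (natCast_close p n).2) (fun n => ?_)
    (norm_nonneg (p : C)) hpC.out hpC.out (fun n => ?_)
  · rw [zero_apply, norm_zero]; exact zero_le_one
  · rw [zero_apply, sub_zero, mul_one]
    have e : ((p : ℕ) : Tilt p C) n = (((p : ℕ) : Tilt p C) n - (p : C)) + (p : C) := by ring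
    rw [e]
    exact (IsUltrametricDist.norm_add_le_max _ _).trans
      (max_le (natCast_close p n).1 le_rfl)

instance instCharP : CharP (Tilt p C) p := (CharP.charP_iff_prime_eq_zero hp.out).2 cast_p_eq_zero

/-- The shift: the `p`-th root. -/
def shift (x : Tilt p C) : Tilt p C := ⟨fun n => x (n + 1), fun n => pow_succ' x (n + 1)⟩

theorem shift_apply (x : Tilt p C) (n : ℕ) : shift x n = x (n + 1) := rfl

theorem shift_pow (x : Tilt p C) : shift x ^ p = x := by
  ext n
  rw [pow_apply, shift_apply, pow_succ']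

theorem shift_of_pow (x : Tilt p C) : shift (x ^ p) = x := by
  ext n
  rw [shift_apply, pow_apply, pow_succ']

instance instPerfectRing : PerfectRing (Tilt p C) p where
  bijective_frobenius := ⟨fun x y h => by
    have := congrArg shift h
    simpa only [shift_of_pow] using this, fun x => ⟨shift x, shift_pow x⟩⟩

theorem frobeniusEquiv_symm_apply (x : Tilt p C) :
    (frobeniusEquiv (Tilt p C) p).symm x = shift x := by
  rw [RingEquiv.symm_apply_eq, frobeniusEquiv_def, shift_pow]

theorem frobeniusEquiv_symm_iterate_apply (x : Tilt p C) (j n : ℕ) :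
    ((frobeniusEquiv (Tilt p C) p).symm^[j] x) n = x (n + j) := by
  induction j generalizing n with
  | zero => rfl
  | succ j ih =>
    rw [Function.iterate_succ_apply', frobeniusEquiv_symm_apply, shift_apply, ih,
      show n + 1 + j = n + (j + 1) by omega]

/-- constructor -/
def mk' (z : ℕ → C) (hz : ∀ j, z (j + 1) ^ p = z j) : Tilt p C := ⟨z, hz⟩

theorem mk'_apply (z : ℕ → C) (hz : ∀ j, z (j + 1) ^ p = z j) (n : ℕ) : (mk' z hz) n = z n := rfl

/-- The sharp map. -/
def sharp : Tilt p C →*₀ C where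
  toFun x := x 0
  map_zero' := rfl
  map_one' := rfl
  map_mul' _ _ := rfl

theorem sharp_apply (x : Tilt p C) : sharp x = x 0 := rfl

/-- The sharp map of the tilt. -/
noncomputable def sharpData (p : ℕ) [Fact p.Prime] (C : Type*) [NormedField C]
    [IsUltrametricDist C] [CompleteSpace C] [Fact (‖(p : C)‖ < 1)] :
    SharpData p (Tilt p C) C where
  sharp := sharp
  norm_sharp x := rfl
  add_mod x y hx hy := by
    have := add_close_of_le x y (n := 0) hx hy
    rw [mul_one] at this
    rw [sharp_apply, sharp_apply, sharp_apply, sub_sub]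
    exact this
  lift z hz := ⟨mk' z hz, fun j => by
    rw [sharp_apply, frobeniusEquiv_symm_iterate_apply, zero_add, mk'_apply]⟩

theorem sharp_surjective [IsAlgClosed C] : Function.Surjective (sharp : Tilt p C →*₀ C) := by
  intro c
  have h : ∀ z : C, ∃ w : C, w ^ p = z := fun z =>
    IsAlgClosed.exists_pow_nat_eq z hp.out.pos
  choose r hr using h
  exact ⟨⟨fun n => r^[n] c, fun n => by
    show (r^[n + 1] c) ^ p = r^[n] c
    rw [Function.iterate_succ_apply', hr]⟩, rfl⟩

end Tilt

end Vale.Agent.P217
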