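import Vale.Agent.P217.Points

/-!
# P217: definitions for the series `[p]` and `U`
-/

namespace Vale.Agent.P217

open MvPowerSeries

variable {R : Type*} [CommRing R]

/-- Partial formal sums `v_h Y +_F v_{h+1} Y^p +_F … ` (`i` terms). -/
noncomputable def Upart (p n h : ℕ) (v : ℕ → R) : ℕ → PowerSeries R
  | 0 => 0
  | (i + 1) => (Fv p n v).subst ![Upart p n h v i,
      (PowerSeries.C (v (h + i)) * PowerSeries.X ^ (p ^ i) : PowerSeries R)]

/-- `U(Y) = ∑^F_{h≤j≤n} v_j Y^(p^(j-h))`. -/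
noncomputable def US (p n h : ℕ) (v : ℕ → R) : PowerSeries R := Upart p n h v (n - h + 1)

/-- The coefficients of `[p]` for the lift of `Γ_n` to `ℤ`, divided by `p`. -/
noncomputable def kappa (p n i : ℕ) : ℤ :=
  PowerSeries.coeff i (mulS p n (Gam n : ℕ → ℤ) p) / (p : ℤ)

end Vale.Agent.P217
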